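import Vale.Agent.P116.AStm

/-! Step A: gradients, energies and admissible functions. -/

open Set Filter Topology MeasureTheory Metric Complex
open scoped ENNReal NNReal

noncomputable section
namespace Vale.Agent.P116

namespace AAdm

variable {U K S : Set ℂ} {a b θ : ℂ → ℝ} {z : ℂ}

theorem ll_mul (ha : LocallyLipschitzOn U a) (hb : LocallyLipschitzOn U b) :
    LocallyLipschitzOn U (fun z => a z * b z) :=
  locallyLipschitzOn_iff_restrict.2
    ((contDiff_mul (𝕜 := ℝ) (𝔸 := ℝ) (n := 1)).locallyLipschitz.comp (ha.restrict.prodMk hb.restrict))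

theorem ll_abs (ha : LocallyLipschitzOn U a) : LocallyLipschitzOn U (fun z => |a z|) :=
  locallyLipschitzOn_iff_restrict.2
    ((lipschitzWith_one_norm (E := ℝ)).locallyLipschitz.comp ha.restrict)

theorem dif (hU : IsOpen U) (h : LocallyLipschitzOn U θ) :
    ∀ᵐ z, z ∈ U → DifferentiableAt ℝ θ z := by
  refine measure_null_of_locally_null _ fun x hx => ?_
  have hxU : x ∈ U := by
    by_contra hn
    exact hx fun h => absurd h hn
  obtain ⟨L, t, ht, hL⟩ := h hxU
  rw [nhdsWithin_eq_nhds.2 (hU.mem_nhds hxU)] at ht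
  refine ⟨_, inter_mem_nhdsWithin _ (interior_mem_nhds.2 ht), ?_⟩
  refine measure_mono_null (fun y hy => ?_)
    (ae_iff.1 (hL.ae_differentiableWithinAt_of_mem (μ := volume)))
  intro h2
  exact hy.1 fun _ => (h2 (interior_subset hy.2)).differentiableAt (mem_interior_iff_mem_nhds.1 hy.2)

theorem gr_of (h : fderiv ℝ θ z = 0) : gr θ z = 0 := by
  rw [gr, h]
  rfl

theorem gr_loc {t : ℝ} (h : ∀ᶠ w in 𝓝 z, θ w = t) : gr θ z = 0 :=
  gr_of ((EventuallyEq.fderiv_eq (f := fun _ => t) h).trans (fderiv_const_apply t))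

theorem zero (hU : IsOpen U) (h : LocallyLipschitzOn U θ) :
    ∀ᵐ z, z ∈ U → θ z = 0 → gr θ z = 0 := by
  filter_upwards [dif hU (ll_abs h)] with z hz h1 h2
  have m : IsLocalMin (fun w => |θ w|) z := .of_forall fun w => by
    simp only [h2, abs_zero, abs_nonneg]
  have d := (hz h1).hasFDerivAt
  rw [m.fderiv_eq_zero, hasFDerivAt_iff_isLittleO] at d
  refine gr_of (HasFDerivAt.fderiv (hasFDerivAt_iff_isLittleO.2 ?_))
  refine Asymptotics.isLittleO_abs_left.1 (d.congr_left fun w => ?_)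
  simp [h2]

theorem gr_eq (θ : ℂ → ℝ) (z : ℂ) :
    gr θ z = (fderiv ℝ θ z 1 : ℝ) + (fderiv ℝ θ z I : ℝ) * I := by
  apply Complex.ext <;> simp [gr]

theorem meas (θ : ℂ → ℝ) : Measurable (gr θ) := by
  rw [funext (gr_eq θ)]
  exact (measurable_ofReal.comp (measurable_fderiv_apply_const ℝ θ 1)).add
    ((measurable_ofReal.comp (measurable_fderiv_apply_const ℝ θ I)).mul_const I)

theorem wmeas (a b : ℂ → ℝ) : Measurable (wd a b) :=
  ((measurable_fderiv_apply_const ℝ a 1).mul (measurable_fderiv_apply_const ℝ b I)).sub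
    ((measurable_fderiv_apply_const ℝ a I).mul (measurable_fderiv_apply_const ℝ b 1))

theorem wle (a b : ℂ → ℝ) (z : ℂ) : |wd a b z| ≤ ‖gr a z‖ * ‖gr b z‖ := by
  have h := abs_im_le_norm ((starRingEnd ℂ) (gr a z) * gr b z)
  rw [norm_mul, norm_conj] at h
  refine le_of_eq_of_le (congrArg _ ?_) h
  simp [gr, wd, sub_eq_add_neg]

theorem nrm (θ : ℂ → ℝ) (z : ℂ) : ‖gr θ z‖ = ‖fderiv ℝ θ z‖ := by
  rw [← innerSL_apply_norm ℝ (gr θ z)]
  congr 1
  ext w
  have e : w = w.re • (1 : ℂ) + w.im • I := by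
    apply Complex.ext <;> simp
  conv_rhs => rw [e, map_add, map_smul, map_smul]
  simp [gr, mul_comm]

theorem mnorm (θ : ℂ → ℝ) (μ : Measure ℂ) : AEStronglyMeasurable (fun z => ‖gr θ z‖) μ :=
  (meas θ).norm.aestronglyMeasurable

section real

variable {μ : Measure ℂ} {f g h : ℂ → ℝ}

theorem int_mul (hf : AEStronglyMeasurable f μ) (hg : AEStronglyMeasurable g μ)
    (f2 : Integrable (fun z => f z ^ 2) μ) (g2 : Integrable (fun z => g z ^ 2) μ) :
    Integrable (fun z => f z * g z) μ :=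
  ((memLp_two_iff_integrable_sq hf).2 f2).integrable_mul ((memLp_two_iff_integrable_sq hg).2 g2)

theorem cs0 (hf : AEStronglyMeasurable f μ) (hg : AEStronglyMeasurable g μ)
    (f2 : Integrable (fun z => f z ^ 2) μ) (g2 : Integrable (fun z => g z ^ 2) μ) :
    ∫ z, f z * g z ∂μ ≤ √(∫ z, f z ^ 2 ∂μ) * √(∫ z, g z ^ 2 ∂μ) := by
  have i := int_mul hf hg f2 g2
  have key : ∀ t : ℝ, 0 ≤ (∫ z, f z ^ 2 ∂μ) * (t * t) + (2 * ∫ z, f z * g z ∂μ) * t +
      ∫ z, g z ^ 2 ∂μ := fun t => by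
    have e : ∫ z, (t * f z + g z) ^ 2 ∂μ =
        ∫ z, (t * t * f z ^ 2 + 2 * t * (f z * g z) + g z ^ 2) ∂μ := by
      congr 1
      funext z
      ring
    have p : 0 ≤ ∫ z, (t * f z + g z) ^ 2 ∂μ := integral_nonneg fun z => sq_nonneg _
    have j : Integrable (fun z => t * t * f z ^ 2 + 2 * t * (f z * g z)) μ :=
      (f2.const_mul _).add (i.const_mul _)
    rw [e, integral_add j g2,
      integral_add (f2.const_mul _) (i.const_mul _), integral_const_mul, integral_const_mul] at p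
    linarith
  have d := discrim_le_zero key
  rw [discrim] at d
  rw [← Real.sqrt_mul (integral_nonneg fun z => sq_nonneg _)]
  exact Real.le_sqrt_of_sq_le (by linarith)

theorem mink (hf : AEStronglyMeasurable f μ) (hg : AEStronglyMeasurable g μ)
    (hh : AEStronglyMeasurable h μ) (h0 : ∀ z, 0 ≤ h z) (hle : ∀ᵐ z ∂μ, h z ≤ f z + g z)
    (f2 : Integrable (fun z => f z ^ 2) μ) (g2 : Integrable (fun z => g z ^ 2) μ) :
    Integrable (fun z => h z ^ 2) μ ∧
      √(∫ z, h z ^ 2 ∂μ) ≤ √(∫ z, f z ^ 2 ∂μ) + √(∫ z, g z ^ 2 ∂μ) := by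
  have i := int_mul hf hg f2 g2
  have j0 : Integrable (fun z => f z ^ 2 + 2 * (f z * g z)) μ := f2.add (i.const_mul 2)
  have j : Integrable (fun z => f z ^ 2 + 2 * (f z * g z) + g z ^ 2) μ := j0.add g2
  have le : ∀ᵐ z ∂μ, h z ^ 2 ≤ f z ^ 2 + 2 * (f z * g z) + g z ^ 2 := hle.mono fun z hz => by
    have := pow_le_pow_left₀ (h0 z) hz 2
    linarith
  have k : Integrable (fun z => h z ^ 2) μ :=
    j.mono' (hh.pow 2) (le.mono fun z hz => by rwa [Real.norm_of_nonneg (sq_nonneg _)])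
  refine ⟨k, Real.sqrt_le_iff.2 ⟨by positivity, (integral_mono_ae k j le).trans ?_⟩⟩
  rw [integral_add j0 g2, integral_add f2 (i.const_mul 2), integral_const_mul,
    add_sq, Real.sq_sqrt (integral_nonneg fun z => sq_nonneg _),
    Real.sq_sqrt (integral_nonneg fun z => sq_nonneg _)]
  linarith [cs0 hf hg f2 g2]

end real

theorem cs (ha : IntegrableOn (fun z => ‖gr a z‖ ^ 2) S)
    (hb : IntegrableOn (fun z => ‖gr b z‖ ^ 2) S) :
    IntegrableOn (wd a b) S ∧ ∫ z in S, |wd a b z| ≤ √(en S a) * √(en S b) := by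
  have i := int_mul (mnorm a _) (mnorm b _) ha hb
  have j : IntegrableOn (wd a b) S :=
    i.mono' (wmeas a b).aestronglyMeasurable (.of_forall fun z => wle a b z)
  exact ⟨j, (integral_mono j.abs i fun z => wle a b z).trans (cs0 (mnorm a _) (mnorm b _) ha hb)⟩

theorem c1 (K : Set ℂ) (h : ContDiff ℝ 1 θ) : Adm K θ := by
  refine ⟨h.locallyLipschitz.locallyLipschitzOn, fun R => ?_⟩
  have c : Continuous fun z => ‖gr θ z‖ ^ 2 := by
    simp only [nrm]
    exact (h.continuous_fderiv one_ne_zero).norm.pow 2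
  exact (c.continuousOn.integrableOn_compact (isCompact_closedBall 0 R)).mono_set
    (sdiff_subset.trans ball_subset_closedBall)

theorem tri (hU : IsOpen U) (hS : S ⊆ U) (hm : MeasurableSet S) (ha : LocallyLipschitzOn U a)
    (hb : LocallyLipschitzOn U b) (ia : IntegrableOn (fun z => ‖gr a z‖ ^ 2) S)
    (ib : IntegrableOn (fun z => ‖gr b z‖ ^ 2) S) :
    (IntegrableOn (fun z => ‖gr (a + b) z‖ ^ 2) S ∧ √(en S (a + b)) ≤ √(en S a) + √(en S b)) ∧
    (IntegrableOn (fun z => ‖gr (a - b) z‖ ^ 2) S ∧ √(en S (a - b)) ≤ √(en S a) + √(en S b)) := by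
  constructor <;>
    refine mink (mnorm a _) (mnorm b _) (mnorm _ _) (fun z => norm_nonneg _)
      ((ae_restrict_iff' hm).2 ?_) ia ib <;>
    filter_upwards [dif hU ha, dif hU hb] with z h1 h2 hz <;> rw [nrm, nrm, nrm]
  · rw [fderiv_add (h1 (hS hz)) (h2 (hS hz))]
    exact norm_add_le _ _
  · rw [fderiv_sub (h1 (hS hz)) (h2 (hS hz))]
    exact norm_sub_le _ _

theorem mball (hK : IsClosed K) (R : ℝ) : MeasurableSet (ball (0 : ℂ) R \ K) :=
  (isOpen_ball.sdiff hK).measurableSet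

theorem add (hK : IsClosed K) (ha : Adm K a) (hb : Adm K b) : Adm K (a + b) :=
  ⟨ha.1.add hb.1, fun R => (tri hK.isOpen_compl (sdiff_subset_compl _ _) (mball hK R) ha.1 hb.1
    (ha.2 R) (hb.2 R)).1.1⟩

theorem sub (hK : IsClosed K) (ha : Adm K a) (hb : Adm K b) : Adm K (a - b) :=
  ⟨ha.1.sub hb.1, fun R => (tri hK.isOpen_compl (sdiff_subset_compl _ _) (mball hK R) ha.1 hb.1
    (ha.2 R) (hb.2 R)).2.1⟩

theorem mul_gen (hK : IsClosed K) (ha : LocallyLipschitzOn Kᶜ a) (hb : Adm K b) {M : ℝ}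
    {g : ℂ → ℝ} (hg : Measurable g) (ig : ∀ R, IntegrableOn (fun z => g z ^ 2) (ball 0 R \ K))
    (hM : ∀ z ∉ K, |a z| ≤ M) (h : ∀ z ∉ K, |b z| * ‖gr a z‖ ≤ g z) :
    Adm K (fun z => a z * b z) := by
  refine ⟨ll_mul ha hb.1, fun R => ?_⟩
  refine (mink (f := fun z => M * ‖gr b z‖) ((mnorm b _).const_mul M) hg.aestronglyMeasurable
    (mnorm _ _) (fun z => norm_nonneg _) ((ae_restrict_iff' (mball hK R)).2 ?_) ?_ (ig R)).1
  · filter_upwards [dif hK.isOpen_compl ha, dif hK.isOpen_compl hb.1] with z h1 h2 hz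
    have h3 := h z hz.2
    have h4 := mul_le_mul_of_nonneg_right (hM z hz.2) (norm_nonneg (gr b z))
    rw [nrm, fderiv_fun_mul (h1 hz.2) (h2 hz.2)]
    refine (norm_add_le _ _).trans ?_
    rw [norm_smul, norm_smul, ← nrm, ← nrm, Real.norm_eq_abs, Real.norm_eq_abs]
    linarith
  · simp only [mul_pow]
    exact (hb.2 R).const_mul _

theorem smul (hK : IsClosed K) (t : ℝ) (ha : Adm K a) : Adm K (fun z => t * a z) :=
  mul_gen (a := fun _ => t) (g := fun _ => 0) hK (c1 K contDiff_const).1 ha measurable_const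
    (fun R => by simp) (fun _ _ => le_rfl) fun z _ => by
      rw [gr_loc (.of_forall fun _ => rfl), norm_zero, mul_zero]

theorem mul (hK : IsClosed K) (ha : Adm K a) (hb : Adm K b) {M : ℝ} (h1 : ∀ z ∉ K, |a z| ≤ M)
    (h2 : ∀ z ∉ K, |b z| ≤ M) : Adm K (fun z => a z * b z) :=
  mul_gen (g := fun z => M * ‖gr a z‖) hK ha.1 hb ((meas a).norm.const_mul M)
    (fun R => by
      simp only [mul_pow]
      exact (ha.2 R).const_mul _) h1
    fun z hz => mul_le_mul_of_nonneg_right (h2 z hz) (norm_nonneg _)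

theorem cut {Q : Set ℂ} {χ : ℂ → ℝ} (hK : IsCompact K) (hχ : Cut K Q χ) (ha : Adm K a) :
    Adm K (fun z => χ z * a z) := by
  obtain ⟨c2, cs, bd, e1, e0⟩ := hχ
  have hC : IsCompact (tsupport (fderiv ℝ χ)) := cs.fderiv ℝ
  have loc : ∀ z (t : ℝ), (∀ᶠ w in 𝓝 z, χ w = t) → z ∉ tsupport (fderiv ℝ χ) := fun z t h => by
    rw [notMem_tsupport_iff_eventuallyEq]
    refine (EventuallyEq.fderiv (f := fun _ => t) h).trans ?_
    rw [fderiv_fun_const]
  have hCK : tsupport (fderiv ℝ χ) ⊆ Kᶜ := fun z hz h => by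
    by_cases hq : z ∈ Q
    · exact loc z 1 (e1.filter_mono (nhds_le_nhdsSet hq)) hz
    · exact loc z 0 (e0.filter_mono (nhds_le_nhdsSet (mem_sdiff_of_mem h hq))) hz
  obtain ⟨M, hM⟩ := hC.exists_bound_of_continuousOn (ha.1.continuousOn.mono hCK)
  obtain ⟨N, hN⟩ := (cs.fderiv ℝ).exists_bound_of_continuous (c2.continuous_fderiv two_ne_zero)
  refine mul_gen (M := 1) (g := fun _ => |M| * N) hK.isClosed (c1 K (c2.of_le one_le_two)).1 ha
    measurable_const (fun R => integrableOn_const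
      ((measure_mono sdiff_subset).trans_lt measure_ball_lt_top).ne)
    (fun z _ => abs_le.2 ⟨by linarith [(bd z).1], (bd z).2⟩) fun z _ => ?_
  rw [nrm]
  by_cases hz : z ∈ tsupport (fderiv ℝ χ)
  · exact mul_le_mul ((hM z hz).trans (le_abs_self M)) (hN z) (norm_nonneg _) (abs_nonneg _)
  · rw [image_eq_zero_of_notMem_tsupport hz, norm_zero, mul_zero]
    exact mul_nonneg (abs_nonneg _) ((norm_nonneg _).trans (hN z))

theorem glob {R : ℝ} (ha : Adm K a) (h : ∀ z, R ≤ ‖z‖ → a z = 0) :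
    IntegrableOn (fun z => ‖gr a z‖ ^ 2) Kᶜ := by
  have ho : IsOpen {z : ℂ | R < ‖z‖} := isOpen_lt continuous_const continuous_norm
  have i : IntegrableOn (fun z => ‖gr a z‖ ^ 2) {z : ℂ | R < ‖z‖} := by
    refine integrableOn_zero.congr_fun (fun z hz => ?_) ho.measurableSet
    have e : a =ᶠ[𝓝 z] fun _ => 0 := (ho.eventually_mem hz).mono fun w hw => h w (le_of_lt hw)
    simp only
    rw [gr_loc e, norm_zero, zero_pow two_ne_zero]
  refine ((ha.2 (R + 1)).union i).mono_set fun z hz => ?_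
  by_cases h1 : R < ‖z‖
  · exact .inr h1
  · exact .inl ⟨mem_ball_zero_iff.2 (by linarith [not_lt.1 h1]), hz⟩

theorem small (hK : IsCompact K) (ha : Adm K a) :
    Tendsto (fun ε => en (thickening ε K \ K) a) (𝓝[>] 0) (𝓝 0) := by
  obtain ⟨R, hR⟩ := (hK.isBounded.thickening (δ := 1)).subset_ball 0
  have h1 := tendsto_measure_thickening_of_isClosed (μ := volume.restrict (ball 0 R \ K))
    ⟨1, one_pos, ((Measure.restrict_le_self _).trans_lt
      ((measure_mono hR).trans_lt measure_ball_lt_top)).ne⟩ hK.isClosed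
  rw [Measure.restrict_apply hK.measurableSet, inter_sdiff_self, measure_empty] at h1
  refine (Integrable.tendsto_setIntegral_nhds_zero (ha.2 R) h1).congr' ?_
  filter_upwards [Ioc_mem_nhdsGT one_pos] with ε hε
  rw [Measure.restrict_restrict isOpen_thickening.measurableSet, ← inter_sdiff_assoc,
    inter_eq_left.2 ((thickening_mono hε.2 K).trans hR)]
  rfl

end AAdm

theorem s_adm : S_adm where
  dif _ _ := AAdm.dif
  zero _ _ := AAdm.zero
  meas := AAdm.meas
  wmeas := AAdm.wmeas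
  wle := AAdm.wle
  nrm := AAdm.nrm
  cs _ _ _ := AAdm.cs
  c1 K _ _ := AAdm.c1 K
  add _ _ _ := AAdm.add
  smul _ t _ hK := AAdm.smul hK t
  sub _ _ _ := AAdm.sub
  cut _ _ _ _ hK _ := AAdm.cut hK
  mul _ _ _ _ hK ha hb := AAdm.mul hK ha hb
  glob _ _ _ _ := AAdm.glob
  tri _ _ _ _ := AAdm.tri
  small _ _ := AAdm.small

end Vale.Agent.P116
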