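import Vale.Agent.P116.AStm2

/-! Step A: the dual condition extends across finitely many components. -/

open Set Filter Topology MeasureTheory Metric Complex

noncomputable section
namespace Vale.Agent.P116

theorem AAl_one (L : Lib) (G : Geo) (ls : S_ls) {K T : Set ℂ} {z₀ c : ℂ} {f : ℂ → ℂ}
    {ρ : Cmp K → ℝ} {F₀ : Finset (Cmp K)} (hb : Base K z₀ c) (hp : Pre K z₀ c f ρ) (hT : Clo K T)
    (h : ∀ Q, Clo K Q → Q ⊆ T → (∀ p ∈ F₀, ¬ p.1 ⊆ Q) → Star K Q (ru f) ρ) :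
    Star K T (ru f) ρ := by
  refine L.star.ofbdd K T _ ρ hb.cpt hT hp.au.1 hp.au.2.1 fun θ s M hg hM => ?_
  have := ls K T z₀ c f ρ s F₀ θ (fun _ => 1) 1 M 0 hb hp hT h hg hM
    ⟨contDiff_const, fun _ => ⟨zero_le_one, le_rfl⟩, LipschitzWith.const 1, fun w _ => by simp⟩
  rw [G.vol.one K z₀ c f ρ hb hp] at this
  simpa only [mul_one] using this

theorem s_al (L : Lib) (G : Geo) (ls : S_ls) : S_al := by
  intro K T z₀ c f ρ F₀ hb hp hT
  refine ⟨AAl_one L G ls hb hp hT, fun h => ?_⟩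
  have e : ru (fun z => I * f z) = fun z => - iv f z := by
    funext z
    simp [ru, iv]
  have k := AAl_one (F₀ := F₀) L G ls (G.rot.base K z₀ c hb) (G.rot.pre K z₀ c f ρ hb.cpt hp) hT
    fun Q h1 h2 h3 => e ▸ L.star.neg K Q _ ρ hb.cpt h1 (h Q h1 h2 h3)
  have k2 := L.star.neg K T _ ρ hb.cpt hT k
  rw [e] at k2
  simpa only [neg_neg] using k2

end Vale.Agent.P116
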