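import Vale.Agent.P116.AStm2

/-! Step A: the boundary form in the image plane. -/

open Set Filter Topology MeasureTheory Metric Complex
open scoped ENNReal NNReal

noncomputable section
namespace Vale.Agent.P116

namespace AArea

theorem wd_congr {a a' : ℂ → ℝ} (b : ℂ → ℝ) {z : ℂ} (h : a =ᶠ[𝓝 z] a') : wd a b z = wd a' b z := by
  simp only [wd, h.fderiv_eq]

theorem wd_im (a : ℂ → ℝ) (z : ℂ) : wd a Complex.im z = fderiv ℝ a z 1 := by
  have : fderiv ℝ Complex.im z = Complex.imCLM := Complex.imCLM.fderiv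
  simp [wd, this]

theorem wd_re (a : ℂ → ℝ) (z : ℂ) : wd a Complex.re z = - fderiv ℝ a z I := by
  have : fderiv ℝ Complex.re z = Complex.reCLM := Complex.reCLM.fderiv
  simp [wd, this]

theorem key (L : Lib) (imgA : S_imgA) (corr : S_corr) (imgB : S_imgB) {K Q : Set ℂ} {c : ℂ}
    {f : ℂ → ℂ} {Γ b : ℂ → ℝ} (hU : Uni K c f) (hQ : Clo K Q) (hΓ : ContDiff ℝ 1 Γ)
    (hb : ContDiff ℝ 1 b) (h1 : Adm K fun z => Γ (f z)) (h2 : Adm K fun z => b (f z)) :
    om K Q (fun z => Γ (f z)) (fun z => b (f z)) = - ∫ w in img K f Q, wd Γ b w := by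
  have hK := hU.cpt
  have ho : IsOpen Kᶜ := hK.isClosed.isOpen_compl
  obtain ⟨χ, hχ, -⟩ := L.cut K Q univ hK hQ isOpen_univ (subset_univ _)
  obtain ⟨χ', c1, c2, c3, c4, c5⟩ := corr K Q c f χ hU hQ hχ
  have hΩ := (imgA.opn K c f hU).1
  have hI := (imgB.clo K Q c f hU hQ).1
  have hg : ContDiff ℝ 1 fun w => χ' w * Γ w := (c1.of_le (by norm_num)).mul hΓ
  have hs := L.stokes univ (fun w => χ' w * Γ w) b isOpen_univ
    hg.locallyLipschitz.locallyLipschitzOn hb.locallyLipschitz.locallyLipschitzOn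
    c2.mul_right (subset_univ _)
  rw [integrableOn_univ, Measure.restrict_univ] at hs
  have e1 : om K Q (fun z => Γ (f z)) (fun z => b (f z)) =
      ∫ w in f '' Kᶜ, wd (fun w => χ' w * Γ w) b w := by
    rw [(L.omA.ind K Q χ _ _ hK hQ hχ h1 h2).2,
      (L.cov.int Kᶜ Kᶜ f _ ho hU.hol.1 hU.inj ho.measurableSet subset_rfl).2, omc]
    refine setIntegral_congr_fun ho.measurableSet fun z hz => ?_
    have hf : DifferentiableAt ℂ f z := hU.hol.1.differentiableAt (ho.mem_nhds hz)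
    have e : (fun w => χ w * Γ (f w)) =ᶠ[𝓝 z] fun w => χ' (f w) * Γ (f w) := by
      filter_upwards [ho.mem_nhds hz] with w hw
      rw [c3 w hw]
    rw [wd_congr _ e]
    exact (L.cov.wdc f (fun w => χ' w * Γ w) b z hf (hg.differentiable one_ne_zero _)
      (hb.differentiable one_ne_zero _)).1
  have e2 : ∫ w in (f '' Kᶜ)ᶜ, wd (fun w => χ' w * Γ w) b w =
      ∫ w in img K f Q, wd (fun w => χ' w * Γ w) b w := by
    refine setIntegral_eq_of_subset_of_forall_sdiff_eq_zero hΩ.measurableSet.compl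
      (fun w hw => hw.1) fun w hw => ?_
    have e : (fun w => χ' w * Γ w) =ᶠ[𝓝 w] fun _ => 0 := by
      filter_upwards [c5.filter_mono (nhds_le_nhdsSet hw)] with y hy
      rw [hy, zero_mul]
    rw [wd_congr _ e]
    simp [wd]
  have e3 : ∫ w in img K f Q, wd (fun w => χ' w * Γ w) b w = ∫ w in img K f Q, wd Γ b w := by
    refine setIntegral_congr_fun hI.measurableSet fun w hw => wd_congr _ ?_
    filter_upwards [c4.filter_mono (nhds_le_nhdsSet hw)] with y hy
    rw [hy, one_mul]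
  have e4 := integral_add_compl hΩ.measurableSet hs.1
  rw [hs.2, e2, e3] at e4
  rw [e1]
  linarith

end AArea

open AArea in
theorem s_area (L : Lib) (imgA : S_imgA) (corr : S_corr) (imgB : S_imgB) : S_area := by
  intro K Q c f Γ M hU hQ hΓ hM
  have hK := hU.cpt.isClosed
  obtain ⟨hu, hv⟩ := L.hol.adm K c f hK hU.hol
  have h1 : Adm K fun z => Γ (f z) := (L.comp.adm K (ru f) (iv f) Γ M hK hu hv hM).1
  have k1 := key L imgA corr imgB hU hQ hΓ (b := Complex.im) Complex.imCLM.contDiff h1 hv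
  have k2 := key L imgA corr imgB hU hQ hΓ (b := Complex.re) Complex.reCLM.contDiff h1 hu
  simp only [wd_im] at k1
  simp only [wd_re, integral_neg, neg_neg] at k2
  exact ⟨neg_eq_iff_eq_neg.2 k1, k2⟩

end Vale.Agent.P116
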