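import Vale.Agent.P116.AStm2

/-! Step A: the localized dual inequality at one component. -/

open Set Filter Topology MeasureTheory Metric Complex
open scoped ENNReal NNReal

noncomputable section
namespace Vale.Agent.P116

namespace AAtomX

theorem cpt (a b s : ℝ) : IsCompact (sq a b s) := by
  have e : sq a b s = Icc a (a + s) ×ℂ Icc b (b + s) := by
    ext z
    simp only [sq, mem_ofPred_eq, mem_reProdIm, mem_Icc]
    tauto
  rw [e]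
  exact isCompact_Icc.reProdIm isCompact_Icc

theorem thick {B G : Set ℂ} (hB : IsCompact B) (h : volume (B ∩ G) = 0) (C : ℝ) {d : ℝ}
    (hd : 0 < d) : ∃ κ > 0, C * (√(volume.real (thickening κ B ∩ G)) +
      volume.real (thickening κ B ∩ G)) ≤ d := by
  have h1 := tendsto_measure_thickening_of_isClosed (μ := volume.restrict G) (s := B)
    ⟨1, one_pos, ne_top_of_le_ne_top hB.isBounded.thickening.measure_lt_top.ne
      (Measure.restrict_le_self _)⟩ hB.isClosed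
  simp only [Measure.restrict_apply isOpen_thickening.measurableSet,
    Measure.restrict_apply hB.measurableSet, h] at h1
  have h2 : Tendsto (fun κ => volume.real (thickening κ B ∩ G)) (𝓝[>] 0) (𝓝 0) :=
    (ENNReal.tendsto_toReal ENNReal.zero_ne_top).comp h1
  have h3 := (h2.sqrt.add h2).const_mul C
  rw [Real.sqrt_zero, add_zero, mul_zero] at h3
  obtain ⟨κ, h4, h5⟩ := ((h3.eventually (ge_mem_nhds hd)).and self_mem_nhdsWithin).exists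
  exact ⟨κ, h5, h4⟩

theorem der {Φ a : ℂ → ℝ} (h1 : ContDiff ℝ 1 Φ) (h2 : ContDiff ℝ 1 a) {w : ℂ} (h0 : 0 ≤ Φ w)
    (h : fderiv ℝ Φ w I = 0) :
    |fderiv ℝ (fun w => Φ w - Φ w * a w) w I| = Φ w * |fderiv ℝ a w I| := by
  have d1 := h1.differentiable one_ne_zero w
  have d2 := h2.differentiable one_ne_zero w
  rw [fderiv_fun_sub d1 (d1.fun_mul d2), fderiv_fun_mul d1 d2]
  simp [h, abs_mul, abs_of_nonneg h0]

theorem sum_le {g : ℂ → ℝ} {A B : Set ℂ} (hg : Integrable g) (h0 : ∀ w, 0 ≤ g w)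
    (hB : MeasurableSet B) (h : Disjoint A B) : (∫ w in A, g w) + ∫ w in B, g w ≤ ∫ w, g w := by
  rw [← setIntegral_union h hB hg.integrableOn hg.integrableOn]
  exact setIntegral_le_integral hg (Eventually.of_forall h0)

end AAtomX

open AAtomX in
theorem s_atom (L : Lib) (G : Geo) (bx : S_bx) (van : S_van) (box : S_box) (dir : S_dir)
    (frame : S_frame) (tail : S_tail) : S_atom := by
  intro K T U₀ z₀ c f ρ τ p θ Φ M M₀ Lp hb hp hT hpT hU₀ hpU hS hθ hM₀ hΦ η hη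
  have hK := hb.cpt
  have hu := hp.uni hb
  have hρ : Sq ρ := hp.au.2.1
  have hτ : Sq τ := hθ.2.1
  have hM : 0 ≤ M := (hΦ.bd 0).1.trans (hΦ.bd 0).2
  obtain ⟨x₀, y₀, hB⟩ := bx K z₀ c f ρ p hb hp
  obtain ⟨b1, b2, b3⟩ := box K U₀ z₀ c f ρ p x₀ y₀ hb hp hU₀ hpU hS hB
  have hmw : mw K f ρ Φ p = (∫ w in sq x₀ y₀ (ρ p), Φ w) / ρ p := by
    rw [mw, setIntegral_congr_set (ae_eq_set.2 ⟨b2, b1⟩)]
  have hm : 0 ≤ mw K f ρ Φ p :=
    div_nonneg (integral_nonneg fun w => (hΦ.bd w).1) (hρ.1 p)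
  have ht := hτ.1 p
  obtain ⟨d, hd, hd1, hd2⟩ : ∃ d : ℝ, 0 < d ∧ d ≤ 1 ∧ d * (τ p / 2 + 2 * mw K f ρ Φ p + 4) ≤ η :=
    ⟨min 1 (η / (τ p / 2 + 2 * mw K f ρ Φ p + 4)), by positivity, min_le_left _ _,
      (le_div_iff₀ (by positivity)).1 (min_le_right _ _)⟩
  obtain ⟨lo, hlo⟩ := L.comp.clu K p.1 θ (τ p) ht (hθ.2.2 p hpT)
  obtain ⟨U₁, o1, s1, h1⟩ := hlo d hd
  have he : 0 < d / (2 * M + 1) := by positivity
  obtain ⟨U₂, o2, s2, h2⟩ := L.sm.punct K τ p _ hK hτ.2 he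
  obtain ⟨U₃, o3, s3, h3⟩ := L.sm.punct K ρ p _ hK hρ.2 he
  have oU : IsOpen (U₀ ∩ U₁ ∩ U₂ ∩ U₃) := ((hU₀.inter o1).inter o2).inter o3
  refine ⟨_, oU, fun z hz => ⟨⟨⟨hpU hz, s1 hz⟩, s2 hz⟩, s3 hz⟩, fun Q hQ hpQ hQU => ?_⟩
  obtain ⟨χ, hχ, hχU⟩ := L.cut K Q _ hK hQ oU fun z hz => (hQU hz).2
  set c₀ := lo + τ p / 2 with hc₀
  have g1 : Good K T (fun z => θ z - c₀) τ := by
    refine ⟨L.adm.sub K θ (fun _ => c₀) hK.isClosed hθ.1 (L.adm.c1 K _ hK.isClosed contDiff_const),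
      hτ, fun q hq ε hε => ?_⟩
    obtain ⟨V, v1, v2, v3⟩ := hθ.2.2 q hq ε hε
    exact ⟨V, v1, v2, fun z hz w hw => by linarith [v3 z hz w hw]⟩
  have g2 : ∀ z ∉ K, |θ z - c₀| ≤ |M₀| + |c₀| + M := fun z hz => by
    linarith [abs_sub (θ z) c₀, hM₀ z hz, le_abs_self M₀]
  have g3 : ∀ z ∈ (U₀ ∩ U₁ ∩ U₂ ∩ U₃) \ K, |θ z - c₀| ≤ τ p / 2 + d := fun z hz => by
    have := h1 z ⟨hz.1.1.1.2, hz.2⟩
    exact abs_le.2 ⟨by linarith, by linarith⟩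
  have g4 : M ≤ |M₀| + |c₀| + M := by linarith [abs_nonneg M₀, abs_nonneg c₀]
  have g5 : 0 ≤ τ p / 2 + d := by linarith
  obtain ⟨C, -, hC⟩ := dir K Q c f χ _ Φ _ _ Lp hu hQ hχ g1.1 g2 g5
    (fun z hz => g3 z ⟨hχU hz.1, hz.2⟩) hΦ.c1 (fun w => ⟨(hΦ.bd w).1, (hΦ.bd w).2.trans g4⟩) hΦ.lip
  obtain ⟨κ₀, hκ₀, k1⟩ := thick (G := f '' Kᶜ) (cpt x₀ y₀ (ρ p))
    (measure_mono_null (show sq x₀ y₀ (ρ p) ∩ f '' Kᶜ ⊆ sq x₀ y₀ (ρ p) \ img K f p.1 from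
      fun w hw => ⟨hw.1, fun h => h.1 hw.2⟩) b1) C hd
  obtain ⟨a, κ, hκ, a1, a2, a3, a4, a5, a6⟩ := frame Φ x₀ y₀ (ρ p) d κ₀ hΦ.c1
    (fun w => (hΦ.bd w).1) (hρ.1 p)
    (fun h w hw => hΦ.ver w (G.imgA.mono K _ _ f hpT (b3 h hw))) hd hκ₀
  have e1 := hC a _ a1 a2 a3 isOpen_thickening.measurableSet
    (cpt x₀ y₀ (ρ p)).isBounded.thickening a5
  obtain ⟨L₁, l1⟩ : ∃ L₁, LipschitzWith L₁ fun w => Φ w * a w :=
    (hΦ.c1.mul a1).lipschitzWith_of_hasCompactSupport a2.mul_left one_ne_zero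
  have l2 : LipschitzWith (Lp + L₁) fun w => Φ w - Φ w * a w := hΦ.lip.sub l1
  have p1 : ∀ w, |Φ w * a w| ≤ M := fun w => by
    rw [abs_of_nonneg (mul_nonneg (hΦ.bd w).1 (a3 w).1)]
    exact (mul_le_of_le_one_right (hΦ.bd w).1 (a3 w).2).trans (hΦ.bd w).2
  have p2 : ∀ w, |Φ w - Φ w * a w| ≤ M := fun w => by
    rw [abs_of_nonneg (sub_nonneg.2 (mul_le_of_le_one_right (hΦ.bd w).1 (a3 w).2))]
    linarith [mul_nonneg (hΦ.bd w).1 (a3 w).1, (hΦ.bd w).2]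
  obtain ⟨U₄, o4, s4, h4⟩ := van K T U₀ _ z₀ c f ρ τ p _ _ _ κ _ hb hp hT hpT hU₀ hpU hS hB g1 g2
    l2 (fun w => (p2 w).trans g4) hκ (fun w hw => by rw [a4 w hw, mul_one, sub_self]) d hd
  obtain ⟨Q', q1, q2, q3⟩ := L.cmp.nbhd K p U₄ hK o4 s4
  have c1 := L.cmp.clo_inter K Q Q' hQ q1
  have c2 := L.cmp.clo_diff K Q Q' hQ q1
  have e2 := h4 _ c1 (subset_inter hpQ q2) fun z hz => ⟨(hQU hz.1).1, q3 hz.2⟩
  have n2 : ¬ p.1 ⊆ Q \ Q' := fun h => by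
    obtain ⟨z, hz⟩ := L.cmp.ne K p
    exact (h hz).2 (q2 hz)
  have sT : Q \ Q' ⊆ T := fun z hz => (hQU hz.1).1
  have e3 := tail K (Q \ Q') _ z₀ c f ρ τ _ _ M _ _ _ hb hp c2
    (hS _ c2 (fun z hz => (hQU hz.1).2.1.1.1) n2) ⟨g1.1, hτ, fun q hq => g1.2.2 q (hq.trans sT)⟩
    g2 oU (fun z hz => (hQU hz.1).2) g5 g3 (hΦ.c1.sub (hΦ.c1.mul a1)) p2 l2
  have mI := (G.imgB.clo K _ c f hu c2).1.measurableSet
  rw [setIntegral_congr_fun mI fun w hw => der hΦ.c1 a1 (hΦ.bd w).1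
    (hΦ.ver w (G.imgA.mono K _ _ f sT hw))] at e3
  have e4 : 2 * M * sm (Q \ Q') τ ρ ≤ d := by
    have i1 := (le_abs_self _).trans (L.sm.cs K (Q \ Q') τ ρ hτ.2 hρ.2)
    have i2 := Real.sqrt_le_sqrt (h2 _ (fun z hz => (hQU hz.1).2.1.2) n2)
    have i3 := Real.sqrt_le_sqrt (h3 _ (fun z hz => (hQU hz.1).2.2) n2)
    have i4 := i1.trans (mul_le_mul i2 i3 (Real.sqrt_nonneg _) (Real.sqrt_nonneg _))
    rw [Real.mul_self_sqrt he.le, le_div_iff₀ (by positivity)] at i4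
    by_cases i5 : 0 ≤ sm (Q \ Q') τ ρ <;> nlinarith
  have e5 := sum_le (g := fun w => Φ w * |fderiv ℝ a w I|) (A := f '' Kᶜ)
    ((hΦ.c1.continuous.mul ((a1.continuous_fderiv one_ne_zero).clm_apply
      continuous_const).abs).integrable_of_hasCompactSupport (a2.fderiv_apply ℝ I).abs.mul_left)
    (fun w => mul_nonneg (hΦ.bd w).1 (abs_nonneg _)) mI
    (Set.disjoint_left.2 fun w hw h => h.1 hw)
  obtain ⟨au, av⟩ := L.hol.adm K c f hK.isClosed hp.hol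
  have ad : ∀ (g : ℂ → ℝ) (l : ℝ≥0), LipschitzWith l g → Adm K fun z => g (f z) :=
    fun g l h => (L.comp.adm K _ _ g l hK.isClosed au av h).1
  have A0 := ad _ _ hΦ.lip
  have A1 := L.adm.mul K _ _ _ hK.isClosed g1.1 (ad _ _ l1) g2 fun z _ => (p1 _).trans g4
  have A2 := L.adm.mul K _ _ _ hK.isClosed g1.1 (ad _ _ l2) g2 fun z _ => (p2 _).trans g4
  have e6 : om K Q (fun z => Φ (f z)) (ru f) = 0 := by
    rw [(G.area K Q c f Φ Lp hu hQ hΦ.c1 hΦ.lip).2]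
    exact setIntegral_eq_zero_of_forall_eq_zero fun w hw =>
      hΦ.ver w (G.imgA.mono K _ _ f (fun z hz => (hQU hz).1) hw)
  have e7 : (fun z => θ z * Φ (f z)) = (fun z => c₀ * Φ (f z)) +
      ((fun z => (θ z - c₀) * (Φ (f z) * a (f z))) +
        fun z => (θ z - c₀) * (Φ (f z) - Φ (f z) * a (f z))) := by
    funext z
    simp only [Pi.add_apply]
    ring
  have e8 := L.omB.union K _ _ _ _ hK c1 c2 (disjoint_sdiff_self_right.mono_left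
    inter_subset_right) A2 au
  rw [inter_union_sdiff] at e8
  rw [e7, (L.omB.add K Q _ _ _ hK hQ (L.adm.smul K c₀ _ hK.isClosed A0)
    (L.adm.add K _ _ hK.isClosed A1 A2) au).1, (L.omB.add K Q _ _ _ hK hQ A1 A2 au).1,
    (L.omB.smul K Q c₀ _ _ hK hQ A0 au).1, e6, mul_zero, zero_add, e8]
  have e9 := mul_le_mul_of_nonneg_left (e5.trans a6) g5
  rw [← hmw, mul_add] at e9
  refine (abs_add_le _ _).trans ((add_le_add le_rfl (abs_add_le _ _)).trans ?_)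
  nlinarith

end Vale.Agent.P116
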