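import Vale.Agent.P116.AStm2

/-! Step A: the limit of the iteration. -/

open Set Filter Topology MeasureTheory Metric Complex
open scoped ENNReal NNReal

noncomputable section
namespace Vale.Agent.P116

namespace Baire

theorem iter {X : Type} (S : X → Prop) (D : X → X → ℝ) (P : ℕ → X → ℝ → Prop) (x₀ : X)
    (h0 : S x₀) (hself : ∀ x, D x x = 0)
    (tri : ∀ x y z, S x → S y → S z → D x z ≤ D x y + D y z)
    (step : ∀ n x r, S x → 0 < r → ∃ y r', S y ∧ 0 < r' ∧ r' ≤ r ∧ D x y ≤ r ∧ P n y r') :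
    ∃ (x : ℕ → X) (r : ℕ → ℝ), (∀ n, S (x n)) ∧ (∀ n, 0 < r n) ∧ Tendsto r atTop (𝓝 0) ∧
      (∀ n m, n ≤ m → D (x n) (x m) ≤ r n) ∧ ∀ n, P n (x (n + 1)) (r (n + 1)) := by
  have st : ∀ (n : ℕ) (a : {p : X × ℝ // S p.1 ∧ 0 < p.2}), ∃ b : {p : X × ℝ // S p.1 ∧ 0 < p.2},
      b.1.2 ≤ a.1.2 / 2 ∧ D a.1.1 b.1.1 ≤ a.1.2 / 2 ∧ P n b.1.1 b.1.2 := by
    intro n a
    obtain ⟨y, r', h1, h2, h3, h4, h5⟩ := step n a.1.1 (a.1.2 / 2) a.2.1 (half_pos a.2.2)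
    exact ⟨⟨(y, r'), h1, h2⟩, h3, h4, h5⟩
  choose nx hnx using st
  obtain ⟨u, hu⟩ : ∃ u : ℕ → {p : X × ℝ // S p.1 ∧ 0 < p.2}, ∀ n, u (n + 1) = nx n (u n) :=
    ⟨fun n => Nat.rec ⟨(x₀, 1), h0, one_pos⟩ nx n, fun _ => rfl⟩
  have h1 : ∀ n, (u (n + 1)).1.2 ≤ (u n).1.2 / 2 ∧ D (u n).1.1 (u (n + 1)).1.1 ≤ (u n).1.2 / 2 ∧
      P n (u (n + 1)).1.1 (u (n + 1)).1.2 := fun n => by
    rw [hu]
    exact hnx n (u n)
  refine ⟨fun n => (u n).1.1, fun n => (u n).1.2, fun n => (u n).2.1, fun n => (u n).2.2, ?_,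
    fun n m h => ?_, fun n => (h1 n).2.2⟩
  · have h2 : ∀ n, (u n).1.2 ≤ (u 0).1.2 * (1 / 2) ^ n := fun n => by
      induction n with
      | zero => simp
      | succ n ih =>
        have := (h1 n).1
        rw [pow_succ]
        linarith
    have h3 := (tendsto_pow_atTop_nhds_zero_of_lt_one (show (0 : ℝ) ≤ 1 / 2 by norm_num)
      (by norm_num)).const_mul (u 0).1.2
    rw [mul_zero] at h3
    exact squeeze_zero (fun n => (u n).2.2.le) h2 h3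
  · have h2 : D (u n).1.1 (u m).1.1 + (u m).1.2 ≤ (u n).1.2 := by
      induction m, h using Nat.le_induction with
      | base => rw [hself, zero_add]
      | succ m _ ih =>
        have h3 := tri _ _ _ (u n).2.1 (u m).2.1 (u (m + 1)).2.1
        have h4 := h1 m
        linarith [h4.1, h4.2.1]
    have := (u m).2.2
    show D (u n).1.1 (u m).1.1 ≤ (u n).1.2
    linarith

theorem d2_self (K : Set ℂ) (f : ℂ → ℂ) (ρ : Cmp K → ℝ) : d2 K f ρ f ρ = 0 := by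
  simp [d2, sm]

theorem vstep (G : Geo) (ustep : S_ustep) {K A : Set ℂ} {z₀ c : ℂ} {f : ℂ → ℂ} {ρ : Cmp K → ℝ}
    {r η : ℝ} (hb : Base K z₀ c) (hs : Sol K z₀ c A f ρ) (hr : 0 < r) (hη : 0 < η) :
    ∃ A' g σ, Sol K z₀ c A' g σ ∧ d2 K f ρ g σ ≤ r ∧ Cert K (iv g) σ η := by
  obtain ⟨A', g, σ, h1, h2, h3⟩ := ustep K _ z₀ (I * c) _ ρ r η (G.rot.base K z₀ c hb)
    (G.rot.sol K A z₀ c f ρ hb.cpt hs) hr hη
  refine ⟨_, _, σ, G.rot.back K A' z₀ c g σ hb.cpt h1, (G.rot.dist K f g ρ σ).trans_le h2,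
    fun q => ?_⟩
  obtain ⟨p, W, t, a1, a2, a3, a4, a5, a6⟩ := h3 q
  refine ⟨p, W, t, a1, a2, a3, a4, a5, fun z hz w hw => ?_⟩
  have := a6 w hw z hz
  simp only [iv, ru, neg_mul, neg_im, mul_im, I_re, I_im, zero_mul, one_mul, zero_add] at this ⊢
  linarith

end Baire

theorem s_baire (L : Lib) (G : Geo) (sol : S_sol) (ustep : S_ustep) (cert : S_cert) : S_baire := by
  intro K z₀ c hb
  have hK := hb.cpt.isClosed
  have tri : ∀ {f g h : ℂ → ℂ} {ρ σ τ : Cmp K → ℝ}, Pre K z₀ c f ρ → Pre K z₀ c g σ →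
      Pre K z₀ c h τ → √(d2 K f ρ h τ) ≤ √(d2 K f ρ g σ) + √(d2 K g σ h τ) :=
    fun h1 h2 h3 => L.d2.tri K c _ _ _ _ _ _ hK h1.hol h2.hol h3.hol h1.au.2.1 h2.au.2.1 h3.au.2.1
  have back : ∀ {f g : ℂ → ℂ} {ρ σ : Cmp K → ℝ} {r : ℝ}, 0 < r → √(d2 K f ρ g σ) ≤ √r →
      d2 K f ρ g σ ≤ r := fun hr h => (Real.sqrt_le_sqrt_iff hr.le).1 h
  obtain ⟨f₀, ρ₀, h0⟩ := sol K K z₀ c hb (L.cmp.clo_self K hK)
  obtain ⟨x, r, hS, hr, hlim, hD, hP⟩ := Baire.iter (X := (ℂ → ℂ) × (Cmp K → ℝ))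
    (fun x => ∃ A, Sol K z₀ c A x.1 x.2) (fun x y => √(d2 K x.1 x.2 y.1 y.2))
    (fun n y r => ∀ g σ, Pre K z₀ c g σ → √(d2 K y.1 y.2 g σ) ≤ r →
      Cert K (ru g) σ (1 / (n + 1)) ∧ Cert K (iv g) σ (1 / (n + 1))) (f₀, ρ₀) ⟨K, h0⟩
    (fun x => by simp only [Baire.d2_self, Real.sqrt_zero])
    (fun x y z ⟨_, h1⟩ ⟨_, h2⟩ ⟨_, h3⟩ => tri h1.toPre h2.toPre h3.toPre)
    (by
      rintro n ⟨f, ρ⟩ r ⟨A, hs⟩ hr
      have hη : (0 : ℝ) < 1 / (n + 1) := by positivity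
      obtain ⟨A1, f1, ρ1, s1, d1, c1⟩ := ustep K A z₀ c f ρ ((r / 2) ^ 2) _ hb hs
        (by positivity) hη
      obtain ⟨r1, p1, t1⟩ := (cert.stab K z₀ c f1 ρ1 _ hb s1.toPre).1 c1
      have q1 := Real.sqrt_pos.2 p1
      have m1 : 0 < min (r / 2) (√r1 / 2) := lt_min (half_pos hr) (half_pos q1)
      obtain ⟨A2, f2, ρ2, s2, d2', c2⟩ := Baire.vstep G ustep hb s1 (pow_pos m1 2) hη
      obtain ⟨r2, p2, t2⟩ := (cert.stab K z₀ c f2 ρ2 _ hb s2.toPre).2 c2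
      have q2 := Real.sqrt_pos.2 p2
      have e1 := (Real.sqrt_le_left (half_pos hr).le).2 d1
      have e2 := (Real.sqrt_le_left m1.le).2 d2'
      refine ⟨(f2, ρ2), min r (min (√r1 / 2) √r2), ⟨A2, s2⟩,
        lt_min hr (lt_min (half_pos q1) q2), min_le_left _ _, ?_, fun g σ hg hd => ⟨?_, ?_⟩⟩
      · have := tri hs.toPre s1.toPre s2.toPre
        have := min_le_left (r / 2) (√r1 / 2)
        show √(d2 K f ρ f2 ρ2) ≤ r
        linarith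
      · refine t1 g σ hg (back p1 ?_)
        have a1 := tri s1.toPre s2.toPre hg
        have a2 := min_le_right (r / 2) (√r1 / 2)
        have a3 : √(d2 K f2 ρ2 g σ) ≤ √r1 / 2 :=
          hd.trans ((min_le_right _ _).trans (min_le_left _ _))
        linarith
      · exact t2 g σ hg (back p2 (hd.trans ((min_le_right _ _).trans (min_le_right _ _)))))
  have hpre : ∀ n, Pre K z₀ c (x n).1 (x n).2 := fun n => (hS n).choose_spec.toPre
  obtain ⟨g, σ, g1, g2, g3, g4⟩ := L.compl K z₀ c (fun n => (x n).1) (fun n => (x n).2) hb.toCtx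
    hb.out (fun n => ⟨(hpre n).hol, (hpre n).nrm, (hpre n).au.2.1⟩) fun ε hε => by
      obtain ⟨N, hN⟩ := (hlim.eventually (ge_mem_nhds (half_pos (Real.sqrt_pos.2 hε)))).exists
      refine ⟨N, fun m hm n hn => back hε ?_⟩
      have a1 := tri (hpre m) (hpre N) (hpre n)
      have a2 : √(d2 K (x N).1 (x N).2 (x m).1 (x m).2) ≤ r N := hD N m hm
      have a3 : √(d2 K (x N).1 (x N).2 (x n).1 (x n).2) ≤ r N := hD N n hn
      rw [L.d2.symm] at a2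
      linarith
  have hg := L.lim.pre K z₀ c _ _ g σ hb hpre g1 g2 g3 g4
  have hc : ∀ n : ℕ, Cert K (ru g) σ (1 / (n + 1)) ∧ Cert K (iv g) σ (1 / (n + 1)) := fun n => by
    refine hP n g σ hg ?_
    have t1 := g4.sqrt.const_add (r (n + 1))
    rw [Real.sqrt_zero, add_zero] at t1
    refine ge_of_tendsto t1 ?_
    filter_upwards [eventually_ge_atTop (n + 1)] with m hm
    have a1 := tri (hpre (n + 1)) (hpre m) hg
    have a2 : √(d2 K (x (n + 1)).1 (x (n + 1)).2 (x m).1 (x m).2) ≤ r (n + 1) := hD _ m hm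
    linarith
  exact ⟨g, σ, hg, fun p => ⟨cert.fin K _ σ hb.cpt g3 (fun n => (hc n).1) p,
    cert.fin K _ σ hb.cpt g3 (fun n => (hc n).2) p⟩⟩

end Vale.Agent.P116
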