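import Vale.Agent.P116.AStm2

/-! The blocking lemma. -/

open Set Filter Topology MeasureTheory Metric Complex
open scoped ENNReal NNReal

noncomputable section
namespace Vale.Agent.P116

namespace ABl

theorem wd_mul {a b u : ℂ → ℝ} {z : ℂ} (ha : DifferentiableAt ℝ a z)
    (hb : DifferentiableAt ℝ b z) :
    wd (fun w => a w * b w) u z = b z * wd a u z + a z * wd b u z := by
  simp only [wd, fderiv_fun_mul ha hb, ContinuousLinearMap.add_apply,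
    ContinuousLinearMap.smul_apply, smul_eq_mul]
  ring

theorem wd_re (Φ : ℂ → ℝ) (w : ℂ) : wd Φ re w = - fderiv ℝ Φ w I := by
  have : fderiv ℝ re w = reCLM := reCLM.fderiv
  simp [wd, this]

theorem wd_zero {χ u : ℂ → ℝ} {z : ℂ} (h : gr χ z = 0) : wd χ u z = 0 := by
  have h1 : fderiv ℝ χ z 1 = 0 := congrArg re h
  have h2 : fderiv ℝ χ z I = 0 := congrArg im h
  simp [wd, h1, h2]

variable {K A Q T C : Set ℂ} {z₀ c : ℂ} {f : ℂ → ℂ} {ρ σ : Cmp K → ℝ} {χ β Φ : ℂ → ℝ} {l : ℝ≥0}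

theorem admΦ (L : Lib) (hu : Uni K c f) (hΦ : LipschitzWith l Φ) : Adm K fun z => Φ (f z) := by
  have h := L.hol.adm K c f hu.cpt.isClosed hu.hol
  exact (L.comp.adm K _ _ Φ l hu.cpt.isClosed h.1 h.2 hΦ).1

theorem admθ (L : Lib) (hu : Uni K c f) (hΦ : Wt Φ 1 l T) (hβ : Adm K β)
    (hb : ∀ z, 0 ≤ β z ∧ β z ≤ 1) : Adm K fun z => β z * Φ (f z) :=
  L.adm.mul K _ _ 1 hu.cpt.isClosed hβ (admΦ L hu hΦ.lip)
    (fun z _ => abs_le.2 ⟨by linarith [(hb z).1], (hb z).2⟩)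
    (fun z _ => abs_le.2 ⟨by linarith [(hΦ.bd (f z)).1], (hΦ.bd (f z)).2⟩)

/-- Where `β` is locally constant the boundary form vanishes. -/
theorem locc (L : Lib) (G : Geo) (hu : Uni K c f) (hT : Clo K T) (hΦ : Wt Φ 1 l (f '' Kᶜ)ᶜ)
    (hβ : Adm K β) (hb : ∀ z, 0 ≤ β z ∧ β z ≤ 1) (hl : LocC K T β) :
    om K T (fun z => β z * Φ (f z)) (ru f) = 0 := by
  have h1 : ∀ p : Cmp K, ∃ U t, p.1 ⊆ T → IsOpen U ∧ p.1 ⊆ U ∧ ∀ z ∈ U \ K, β z = t := by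
    intro p
    by_cases hp : p.1 ⊆ T
    · obtain ⟨U, t, h⟩ := hl p hp
      exact ⟨U, t, fun _ => h⟩
    · exact ⟨univ, 0, fun h => absurd h hp⟩
  choose U t hU using h1
  obtain ⟨J, P, -, h2, -, h3, h4⟩ := L.part K T U ∅ hu.cpt hT
    (fun p hp => ⟨(hU p hp).1, (hU p hp).2.1⟩) (by simp)
  have hθ := admθ L hu hΦ hβ hb
  have hF := admΦ L hu hΦ.lip
  have hr := (L.hol.adm K c f hu.cpt.isClosed hu.hol).1
  rw [← h4, L.omB.biUnion K _ J P _ _ hu.cpt (fun p hp => (h2 p hp).2.1) h3 hθ hr]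
  refine Finset.sum_eq_zero fun p hp => ?_
  obtain ⟨hp1, hp2, hp3⟩ := h2 p hp
  obtain ⟨hU1, -, hU3⟩ := hU p hp1
  have h5 : ∀ᶠ z in 𝓝ˢ (P p), z ∉ K → β z * Φ (f z) = t p * Φ (f z) ∧ ru f z = ru f z := by
    filter_upwards [hU1.mem_nhdsSet.2 (hp3.trans inter_subset_right)] with z hz hzK
    exact ⟨by rw [hU3 z ⟨hz, hzK⟩], rfl⟩
  rw [L.omA.congr K (P p) _ _ _ _ hu.cpt hp2 hθ hr (L.adm.smul K (t p) _ hu.cpt.isClosed hF) hr h5,
    (L.omB.smul K (P p) (t p) _ _ hu.cpt hp2 hF hr).1,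
    (G.area K (P p) c f Φ l hu hp2 hΦ.c1 hΦ.lip).2,
    setIntegral_eq_zero_of_forall_eq_zero fun w hw => hΦ.ver w hw.1, mul_zero]

/-- The boundary form of the test function is small. -/
theorem small (L : Lib) (G : Geo) (ls : S_ls) (hB : Base K z₀ c) (hs : Sol K z₀ c A f ρ)
    (hQ : Clo K Q) (hΦ : Wt Φ 1 l (f '' Kᶜ)ᶜ) (hg : Good K Q β σ) (hb : ∀ z, 0 ≤ β z ∧ β z ≤ 1)
    (hl : LocC K (A ∩ Q) β) :
    - om K Q (fun z => β z * Φ (f z)) (ru f) ≤ sm (Q \ A) σ ρ := by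
  have hu := hs.toPre.uni hB
  have h1 := L.cmp.clo_inter K A Q hs.clo hQ
  have h2 := L.cmp.clo_diff K Q A hQ hs.clo
  have hr := (L.hol.adm K c f hu.cpt.isClosed hu.hol).1
  have h3 := L.omB.union K _ _ _ _ hu.cpt h1 h2 (disjoint_sdiff_right.mono_left inter_subset_left)
    (admθ L hu hΦ hg.1 hb) hr
  rw [inter_comm A Q, inter_union_diff, inter_comm Q A, locc L G hu h1 hΦ hg.1 hb hl,
    zero_add] at h3
  have h4 := ls K (Q \ A) z₀ c f ρ σ ∅ β Φ 1 1 l hB hs.toPre h2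
    (fun Q' hQ' hsub _ => L.star.mono K (K \ A) Q' _ _ hu.cpt (L.cmp.clo_compl K A hs.clo) hQ'
      (hsub.trans (diff_subset_diff_left hQ.1)) hs.su)
    ⟨hg.1, hg.2.1, fun p hp => hg.2.2 p (hp.trans diff_subset)⟩
    (fun z _ => abs_le.2 ⟨by linarith [(hb z).1], (hb z).2⟩)
    ⟨hΦ.c1, hΦ.bd, hΦ.lip, fun w hw => hΦ.ver w hw.1⟩
  obtain ⟨h5, h6, -⟩ := G.vol.mw K (Q \ A) z₀ c f ρ Φ 1 hB hs.toPre h2 hΦ.c1.continuous hΦ.bd
  have h7 := L.sm.mono K (Q \ A) (Q \ A) σ _ σ ρ hg.2.1 h5 hg.2.1 hs.au.2.1 Subset.rfl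
    fun p _ => mul_le_mul_of_nonneg_left (by simpa using h6 p) (hg.2.1.1 p)
  rw [h3]
  exact (neg_le_abs _).trans (h4.trans h7)

/-- The boundary form computed with the cutoff. -/
theorem calc1 (L : Lib) (hu : Uni K c f) (hQ : Clo K Q) (hχ : Cut K Q χ) (hC : IsCompact C)
    (hCs : C ⊆ f '' Kᶜ) (hΦ : Wt Φ 1 l Cᶜ) (hβ : Adm K β) (hb : ∀ z, 0 ≤ β z ∧ β z ≤ 1)
    (h1 : ∀ z ∉ K, f z ∈ C → χ z = 1 ∧ β z = 1)
    (h0 : ∀ z ∈ tsupport (gr χ), β z * Φ (f z) = 0) :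
    om K Q (fun z => β z * Φ (f z)) (ru f) + ∫ w, fderiv ℝ Φ w I ≤
      ∫ z in Kᶜ, χ z * |wd β (ru f) z| := by
  have ho : IsOpen Kᶜ := hu.cpt.isClosed.isOpen_compl
  have hr := (L.hol.adm K c f hu.cpt.isClosed hu.hol).1
  obtain ⟨i1, -, e1⟩ := L.omA.expand K Q χ _ _ hu.cpt hQ hχ (admθ L hu hΦ hβ hb) hr
  obtain ⟨i2, -, -⟩ := L.omA.expand K Q χ _ _ hu.cpt hQ hχ hβ hr
  have i3 : IntegrableOn (fun z => χ z * |wd β (ru f) z|) Kᶜ := by
    refine i2.abs.congr (Eventually.of_forall fun z => ?_)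
    simp only [abs_mul, abs_of_nonneg (hχ.2.2.1 z).1]
  have e2 : ∫ z in Kᶜ, β z * Φ (f z) * wd χ (ru f) z = 0 := by
    refine setIntegral_eq_zero_of_forall_eq_zero fun z _ => ?_
    by_cases hz : gr χ z = 0
    · rw [wd_zero hz, mul_zero]
    · rw [h0 z (subset_tsupport _ hz), zero_mul]
  have hc : Continuous fun w => fderiv ℝ Φ w I :=
    (hΦ.c1.continuous_fderiv one_ne_zero).clm_apply continuous_const
  have i4 : Integrable fun w => fderiv ℝ Φ w I :=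
    hc.integrable_of_hasCompactSupport (HasCompactSupport.intro hC fun w hw => hΦ.ver w hw)
  obtain ⟨i5, e3⟩ := L.cov.int Kᶜ Kᶜ f (fun w => fderiv ℝ Φ w I) ho hu.hol.1 hu.inj
    ho.measurableSet Subset.rfl
  rw [setIntegral_eq_integral_of_forall_compl_eq_zero fun w hw => hΦ.ver w fun h => hw (hCs h)]
    at e3
  rw [e1, e2, add_zero, e3, ← integral_add i1 (i5.1 i4.integrableOn)]
  refine integral_mono_ae (i1.add (i5.1 i4.integrableOn)) i3 ?_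
  refine (ae_restrict_iff' ho.measurableSet).2 ?_
  filter_upwards [L.adm.dif Kᶜ β ho hβ.1] with z hd hz
  have hf : DifferentiableAt ℂ f z := hu.hol.1.differentiableAt (ho.mem_nhds hz)
  have hΦd : DifferentiableAt ℝ Φ (f z) := hΦ.c1.differentiable one_ne_zero _
  have e4 : wd (fun w => Φ (f w)) (ru f) z = - fderiv ℝ Φ (f z) I * ‖deriv f z‖ ^ 2 := by
    rw [← wd_re]
    exact (L.cov.wdc f Φ re z hf hΦd reCLM.differentiableAt).1
  have e5 : χ z * β z * fderiv ℝ Φ (f z) I = fderiv ℝ Φ (f z) I := by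
    by_cases h : f z ∈ C
    · rw [(h1 z hz h).1, (h1 z hz h).2, one_mul, one_mul]
    · rw [hΦ.ver _ h, mul_zero]
  have e6 := wd_mul (u := ru f) (b := fun w => Φ (f w)) (hd hz)
    (hΦd.comp z (hf.restrictScalars ℝ))
  have e7 : Φ (f z) * wd β (ru f) z ≤ |wd β (ru f) z| :=
    (mul_le_mul_of_nonneg_left (le_abs_self _) (hΦ.bd _).1).trans
      (mul_le_of_le_one_left (abs_nonneg _) (hΦ.bd _).2)
  have e8 := mul_le_mul_of_nonneg_left e7 (hχ.2.2.1 z).1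
  beta_reduce
  rw [e6, e4]
  linear_combination e8 - ‖deriv f z‖ ^ 2 * e5

end ABl

open ABl in
theorem s_bl (L : Lib) (G : Geo) (ls : S_ls) (step : S_step) : S_bl := by
  intro K A Q z₀ c f ρ σ χ β q x₁ x₂ hB hs hQ hχ hg hb hl hq ⟨U, hU, hqU, hU1⟩ h0 hx
  have hu := hs.toPre.uni hB
  have hK := hu.cpt.isClosed
  obtain ⟨V, hV1, hV, hQV⟩ := mem_nhdsSet.1 hχ.2.2.2.1
  obtain ⟨W, hW, hqW, hWU, hWc, hWK, hWf⟩ := L.cell K q (U ∩ V) hB.toCtx (hU.inter hV)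
    (subset_inter hqU (hq.trans hQV))
  have hfs : frontier W ⊆ (U ∩ V) \ K := fun z hz =>
    ⟨hWU (frontier_subset_closure hz), Set.disjoint_left.1 hWK hz⟩
  have hfc : ContinuousOn f (frontier W) := hu.hol.1.continuousOn.mono fun z hz => (hfs hz).2
  have hbd : Bornology.IsBounded W := hWc.isBounded.subset subset_closure
  obtain ⟨⟨z1, hz1, e1⟩, z2, hz2, e2⟩ := hx W hW hqW
  have hZ1 : ∃ z ∈ f '' frontier W, z.re ≤ x₁ := by
    by_contra h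
    push Not at h
    have := (G.max K W {w | x₁ ≤ w.re} c f hu hW hbd hWK
      (isClosed_le continuous_const continuous_re) (convex_halfSpace_re_ge x₁)
      fun w hw => (h w hw).le).1 ⟨z1, hz1, rfl⟩
    exact absurd e1 (not_lt.2 this)
  have hZ2 : ∃ z ∈ f '' frontier W, x₂ ≤ z.re := by
    by_contra h
    push Not at h
    have := (G.max K W {w | w.re ≤ x₂} c f hu hW hbd hWK
      (isClosed_le continuous_re continuous_const) (convex_halfSpace_re_le x₂)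
      fun w hw => (h w hw).le).1 ⟨z2, hz2, rfl⟩
    exact absurd e2 (not_lt.2 this)
  have hO : IsOpen (f '' ((U ∩ V) \ K)) :=
    (L.cov.inv _ f ((hU.inter hV).sdiff hK) (hu.hol.1.mono fun z hz => hz.2)
      (hu.inj.mono fun z hz => hz.2)).1
  refine le_of_forall_pos_le_add fun δ hδ => ?_
  obtain ⟨Φ, l, C, hC, hCO, hΦ, hs1, hint⟩ := step _ _ x₁ x₂ δ
    ((hWc.of_isClosed_subset isClosed_frontier frontier_subset_closure).image_of_continuousOn hfc)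
    (hWf.image f hfc) hZ1 hZ2 hO (image_mono hfs) hδ
  have hCs : C ⊆ f '' Kᶜ := hCO.trans (image_mono fun z hz => hz.2)
  have h1 := small L G ls hB hs hQ
    (⟨hΦ.c1, hΦ.bd, hΦ.lip, fun w hw => hΦ.ver w fun h => hw (hCs h)⟩ : Wt Φ 1 l (f '' Kᶜ)ᶜ)
    hg hb hl
  have h2 := calc1 L hu hQ hχ hC hCs hΦ hg.1 hb (fun z hz hzC => ?_) (fun z hz => ?_)
  · linarith
  · obtain ⟨w, hw, e⟩ := hCO hzC
    obtain rfl : w = z := hu.inj hw.2 hz e
    exact ⟨hV1 hw.1.2, hU1 w ⟨hw.1.1, hw.2⟩⟩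
  · by_cases h : Φ (f z) = 0
    · rw [h, mul_zero]
    · rw [h0 z hz (hs1 _ h).1.le (hs1 _ h).2.le, zero_mul]

end Vale.Agent.P116
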