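import Vale.Agent.P116.AStm2

/-! Step A: the box of a component. -/

open Set Filter Topology MeasureTheory Metric Complex
open scoped ENNReal NNReal

noncomputable section
namespace Vale.Agent.P116

namespace ABox

/-- Bounded functions with bounded continuous derivative. -/
structure Nice (a a' : ℝ → ℝ) : Prop where
  d : ∀ t, HasDerivAt a (a' t) t
  c : Continuous a'
  b : ∀ t, |a t| ≤ 2
  b' : ∀ t, |a' t| ≤ 1

theorem Nice.c1 {a a' : ℝ → ℝ} (h : Nice a a') : ContDiff ℝ 1 a := by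
  rw [contDiff_one_iff_deriv]
  refine ⟨fun t => (h.d t).differentiableAt, ?_⟩
  rw [show deriv a = a' from funext fun t => (h.d t).deriv]
  exact h.c

theorem Nice.lip {a a' : ℝ → ℝ} (h : Nice a a') (s t : ℝ) : |a s - a t| ≤ |s - t| := by
  have : LipschitzWith 1 a := lipschitzWith_of_nnnorm_deriv_le
    (fun t => (h.d t).differentiableAt) fun t => by
      rw [(h.d t).deriv]
      exact_mod_cast h.b' t
  simpa [Real.dist_eq] using this.dist_le_mul s t

theorem Nice.sub {a a' : ℝ → ℝ} (h : Nice a a') (c : ℝ) :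
    Nice (fun t => a (t - c)) fun t => a' (t - c) :=
  ⟨fun t => (h.d (t - c)).comp_sub_const t c, h.c.comp (continuous_id.sub continuous_const),
    fun _ => h.b _, fun _ => h.b' _⟩

theorem Nice.rev {a a' : ℝ → ℝ} (h : Nice a a') (c : ℝ) :
    Nice (fun t => a (c - t)) fun t => -a' (c - t) :=
  ⟨fun t => (h.d (c - t)).comp_const_sub c t, (h.c.comp (continuous_const.sub continuous_id)).neg,
    fun _ => h.b _, fun _ => by rw [abs_neg]; exact h.b' _⟩

theorem Nice.neg {a a' : ℝ → ℝ} (h : Nice a a') : Nice (fun t => -a t) fun t => -a' t :=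
  ⟨fun t => (h.d t).neg, h.c.neg, fun _ => by rw [abs_neg]; exact h.b _,
    fun _ => by rw [abs_neg]; exact h.b' _⟩

theorem nice_one : Nice (fun _ => 1) fun _ => 0 :=
  ⟨fun t => hasDerivAt_const t 1, continuous_const, fun _ => by norm_num, fun _ => by norm_num⟩

theorem arctan_bd (t : ℝ) : |Real.arctan t| ≤ 2 := by
  have := Real.arctan_lt_pi_div_two t
  have := Real.neg_pi_div_two_lt_arctan t
  have := Real.pi_le_four
  rw [abs_le]
  constructor <;> linarith

theorem nice_arctan : Nice Real.arctan fun t => 1 / (1 + t ^ 2) :=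
  ⟨Real.hasDerivAt_arctan, continuous_const.div (by fun_prop) fun t => by positivity, arctan_bd,
    fun t => by
      rw [abs_of_pos (by positivity), div_le_one (by positivity)]
      nlinarith [sq_nonneg t]⟩

theorem exists_g : ∃ g g' : ℝ → ℝ, Nice g g' ∧ (∀ t, 0 ≤ g t ∧ 0 ≤ g' t) ∧ (∀ t ≤ 0, g t = 0) ∧
    ∀ t, 0 < t → 0 < g t ∧ 0 < g' t := by
  have hk : Continuous fun t : ℝ => max 0 (min t 1) := by fun_prop
  have hk0 : ∀ t : ℝ, 0 ≤ max 0 (min t 1) := fun t => le_max_left _ _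
  have hk1 : ∀ t : ℝ, max 0 (min t 1) ≤ 1 := fun t => max_le zero_le_one (min_le_right _ _)
  have hkp : ∀ t : ℝ, 0 < t → 0 < max 0 (min t 1) := fun t ht =>
    lt_max_of_lt_right (lt_min ht one_pos)
  set G : ℝ → ℝ := fun x => ∫ t in (0 : ℝ)..x, max 0 (min t 1) with hG
  have hd : ∀ x, HasDerivAt G (max 0 (min x 1)) x := fun x =>
    (hk.integral_hasStrictDerivAt 0 x).hasDerivAt
  have hc : Continuous G := continuous_iff_continuousAt.2 fun x => (hd x).continuousAt
  have h0 : ∀ t ≤ 0, G t = 0 := fun t ht => by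
    rw [hG]
    simp only
    refine (intervalIntegral.integral_congr (g := fun _ => (0 : ℝ)) fun s hs => ?_).trans
      intervalIntegral.integral_zero
    rw [uIcc_of_ge ht] at hs
    exact max_eq_left ((min_le_left _ _).trans hs.2)
  have hp : ∀ t, 0 < t → 0 < G t := fun t ht =>
    intervalIntegral.intervalIntegral_pos_of_pos_on (hk.intervalIntegrable _ _)
      (fun s hs => hkp s hs.1) ht
  refine ⟨fun t => Real.arctan (G t), fun t => 1 / (1 + G t ^ 2) * max 0 (min t 1),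
    ⟨fun t => (hd t).arctan, (nice_arctan.c.comp hc).mul hk, fun t => arctan_bd _, fun t => ?_⟩,
    fun t => ⟨?_, mul_nonneg (by positivity) (hk0 t)⟩, fun t ht => by simp [h0 t ht],
    fun t ht => ⟨Real.arctan_pos.2 (hp t ht), mul_pos (by positivity) (hkp t ht)⟩⟩
  · rw [abs_mul]
    exact mul_le_one₀ (nice_arctan.b' _) (abs_nonneg _)
      (by rw [abs_of_nonneg (hk0 t)]; exact hk1 t)
  · rcases le_or_gt t 0 with h | h
    · simp [h0 t h]
    · exact (Real.arctan_pos.2 (hp t h)).le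

theorem prod {a a' b b' : ℝ → ℝ} (ha : Nice a a') (hb : Nice b b') :
    ContDiff ℝ 1 (fun w : ℂ => a w.re * b w.im) ∧ LipschitzWith 4 (fun w : ℂ => a w.re * b w.im) ∧
      (∀ w : ℂ, |a w.re * b w.im| ≤ 4) ∧
      ∀ w : ℂ, fderiv ℝ (fun w : ℂ => a w.re * b w.im) w I = a w.re * b' w.im := by
  refine ⟨(ha.c1.comp reCLM.contDiff).mul (hb.c1.comp imCLM.contDiff),
    LipschitzWith.of_dist_le_mul fun x y => ?_, fun w => ?_, fun w => ?_⟩
  · have h1 : |a x.re - a y.re| ≤ dist x y := by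
      refine (ha.lip _ _).trans ?_
      rw [Complex.dist_eq, ← sub_re]
      exact abs_re_le_norm _
    have h2 : |b x.im - b y.im| ≤ dist x y := by
      refine (hb.lip _ _).trans ?_
      rw [Complex.dist_eq, ← sub_im]
      exact abs_im_le_norm _
    rw [Real.dist_eq, show a x.re * b x.im - a y.re * b y.im =
      a x.re * (b x.im - b y.im) + (a x.re - a y.re) * b y.im by ring]
    refine (abs_add_le _ _).trans ?_
    rw [abs_mul, abs_mul]
    have h3 := mul_le_mul (ha.b x.re) h2 (abs_nonneg _) zero_le_two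
    have h4 := mul_le_mul h1 (hb.b y.im) (abs_nonneg _) dist_nonneg
    push_cast
    linarith
  · rw [abs_mul]
    have := mul_le_mul (ha.b w.re) (hb.b w.im) (abs_nonneg _) zero_le_two
    linarith
  · have h1 := (ha.d w.re).comp_hasFDerivAt w reCLM.hasFDerivAt
    have h2 := (hb.d w.im).comp_hasFDerivAt w imCLM.hasFDerivAt
    have h3 := (h1.mul h2).fderiv
    change fderiv ℝ ((a ∘ re) * (b ∘ im)) w I = _
    rw [h3]
    simp

theorem vol_sq (a b : ℝ) {r : ℝ} (hr : 0 ≤ r) : volume (sq a b r) = ENNReal.ofReal (r ^ 2) := by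
  have : sq a b r = measurableEquivRealProd ⁻¹' (Icc a (a + r) ×ˢ Icc b (b + r)) := by
    ext z
    simp only [sq, mem_preimage, measurableEquivRealProd_apply, mem_prod, mem_Icc, and_assoc]
    rfl
  rw [this, volume_preserving_equiv_real_prod.measure_preimage
    (measurableSet_Icc.prod measurableSet_Icc).nullMeasurableSet, Measure.volume_eq_prod,
    Measure.prod_prod, Real.volume_Icc, Real.volume_Icc, add_sub_cancel_left, add_sub_cancel_left,
    ← ENNReal.ofReal_mul hr, pow_two]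

theorem thick {a b r κ : ℝ} {w : ℂ} (h : w ∈ thickening κ (sq a b r)) :
    a - κ < w.re ∧ w.re < a + r + κ ∧ b - κ < w.im ∧ w.im < b + r + κ := by
  obtain ⟨z, hz, hd⟩ := mem_thickening_iff.1 h
  rw [Complex.dist_eq] at hd
  have h1 := abs_lt.1 ((abs_re_le_norm (w - z)).trans_lt hd)
  have h2 := abs_lt.1 ((abs_im_le_norm (w - z)).trans_lt hd)
  rw [sub_re] at h1
  rw [sub_im] at h2
  obtain ⟨a1, a2, a3, a4⟩ := hz
  exact ⟨by linarith [h1.1], by linarith [h1.2], by linarith [h2.1], by linarith [h2.2]⟩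

theorem null (L : Lib) (G : Geo) (van : S_van) {K U₀ B : Set ℂ} {z₀ c : ℂ} {f : ℂ → ℂ}
    {ρ : Cmp K → ℝ} {p : Cmp K} (hb : Base K z₀ c) (hp : Pre K z₀ c f ρ) (hU : IsOpen U₀)
    (hpU : p.1 ⊆ U₀) (hs : ∀ Q, Clo K Q → Q ⊆ U₀ → ¬ p.1 ⊆ Q → Star K Q (ru f) ρ)
    (hB : Bx K f ρ p B) {a a' b b' : ℝ → ℝ} (ha : Nice a a') (hb' : Nice b b')
    (h0 : ∀ w : ℂ, 0 ≤ a w.re * b' w.im) {κ : ℝ} (hκ : 0 < κ)
    (hz : ∀ w ∈ thickening κ B, a w.re * b w.im = 0) :
    ∀ᵐ w : ℂ, w ∈ img K f p.1 → a w.re * b' w.im = 0 := by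
  obtain ⟨p1, p2, p3, p4⟩ := prod ha hb'
  have hu := hp.uni hb
  have hK := hb.cpt
  have hc : Continuous fun w : ℂ => a w.re * b' w.im :=
    (ha.c1.continuous.comp continuous_re).mul (hb'.c.comp continuous_im)
  have hA := (G.imgB.seq K c f p hu).1
  have hg : Good K K (fun _ => 1) fun _ => 0 :=
    ⟨L.adm.c1 K _ hK.isClosed contDiff_const, ⟨fun _ => le_rfl, by simp⟩,
      fun q _ ε hε => ⟨univ, isOpen_univ, subset_univ _, fun _ _ _ _ => by linarith⟩⟩
  have hle : ∫ w in img K f p.1, a w.re * b' w.im ≤ 0 := by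
    refine le_of_forall_pos_le_add fun η hη => ?_
    obtain ⟨U, hUo, hpU', h⟩ := van K K U₀ B z₀ c f ρ _ p _ _ 4 κ 4 hb hp
      (L.cmp.clo_self K hK.isClosed) (L.cmp.sub K p) hU hpU hs hB hg (fun _ _ => by norm_num) p2 p3
      hκ hz η hη
    obtain ⟨Q, hQ, hpQ, hQU⟩ := L.cmp.nbhd K p U hK hUo hpU'
    have h1 := h Q hQ hpQ (subset_inter hQ.1 hQU)
    have h2 := (G.area K Q c f _ 4 hu hQ p1 p2).2
    simp only [one_mul] at h1
    simp only [p4] at h2
    rw [h2] at h1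
    have h3 : ∫ w in img K f p.1, a w.re * b' w.im ≤ ∫ w in img K f Q, a w.re * b' w.im :=
      setIntegral_mono_set (hc.continuousOn.integrableOn_compact (G.imgB.clo K Q c f hu hQ).1)
        (Eventually.of_forall h0) (G.imgA.mono K _ _ f hpQ).eventuallyLE
    linarith [le_abs_self (∫ w in img K f Q, a w.re * b' w.im)]
  have h4 := (setIntegral_eq_zero_iff_of_nonneg_ae (Eventually.of_forall h0)
    (hc.continuousOn.integrableOn_compact hA)).1 (le_antisymm hle (integral_nonneg h0))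
  exact (ae_restrict_iff' hA.measurableSet).1 h4

end ABox

open ABox in
theorem s_box (L : Lib) (G : Geo) (van : S_van) : S_box := by
  intro K U₀ z₀ c f ρ p x₀ y₀ hb hp hU hpU hs hB
  have hr : 0 ≤ ρ p := hp.au.2.1.1 p
  have hA := (G.imgB.seq K c f p (hp.uni hb)).1
  obtain ⟨g, g', hg, g0, g1, g2⟩ := exists_g
  have step : ∀ κ : ℝ, 0 < κ → ∀ᵐ w : ℂ, w ∈ img K f p.1 →
      x₀ - κ ≤ w.re ∧ w.re ≤ x₀ + ρ p + κ ∧ y₀ - κ ≤ w.im ∧ w.im ≤ y₀ + ρ p + κ := by
    intro κ hκ
    have n1 := null L G van hb hp hU hpU hs hB (hg.rev (x₀ - κ)) nice_arctan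
      (fun w => mul_nonneg (g0 _).1 (by positivity)) hκ
      fun w hw => by rw [g1 _ (by linarith [(thick hw).1]), zero_mul]
    have n2 := null L G van hb hp hU hpU hs hB (hg.sub (x₀ + ρ p + κ)) nice_arctan
      (fun w => mul_nonneg (g0 _).1 (by positivity)) hκ
      fun w hw => by rw [g1 _ (by linarith [(thick hw).2.1]), zero_mul]
    have n3 := null L G van hb hp hU hpU hs hB nice_one (hg.rev (y₀ - κ)).neg
      (fun w => by simpa using (g0 _).2) hκ
      fun w hw => by rw [g1 _ (by linarith [(thick hw).2.2.1]), neg_zero, mul_zero]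
    have n4 := null L G van hb hp hU hpU hs hB nice_one (hg.sub (y₀ + ρ p + κ))
      (fun w => by simpa using (g0 _).2) hκ
      fun w hw => by rw [g1 _ (by linarith [(thick hw).2.2.2]), mul_zero]
    filter_upwards [n1, n2, n3, n4] with w h1 h2 h3 h4 hw
    refine ⟨not_lt.1 fun h => ?_, not_lt.1 fun h => ?_, not_lt.1 fun h => ?_, not_lt.1 fun h => ?_⟩
    · exact (mul_pos (g2 _ (sub_pos.2 h)).1 (by positivity)).ne' (h1 hw)
    · exact (mul_pos (g2 _ (sub_pos.2 h)).1 (by positivity)).ne' (h2 hw)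
    · exact (g2 _ (sub_pos.2 h)).2.ne' (by simpa using h3 hw)
    · exact (g2 _ (sub_pos.2 h)).2.ne' (by simpa using h4 hw)
  have hae : ∀ᵐ w : ℂ, w ∈ img K f p.1 → w ∈ sq x₀ y₀ (ρ p) := by
    filter_upwards [ae_all_iff.2 fun n : ℕ => step (1 / (n + 1)) Nat.one_div_pos_of_nat] with
      w hw hA
    have key : ∀ s t : ℝ, (∀ n : ℕ, s ≤ t + 1 / ((n : ℝ) + 1)) → s ≤ t := fun s t h => by
      refine le_of_forall_pos_le_add fun ε hε => ?_
      obtain ⟨n, hn⟩ := exists_nat_one_div_lt hε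
      linarith [h n]
    exact ⟨key _ _ fun n => by linarith [(hw n hA).1], key _ _ fun n => (hw n hA).2.1,
      key _ _ fun n => by linarith [(hw n hA).2.2.1], key _ _ fun n => (hw n hA).2.2.2⟩
  have h2 : volume (img K f p.1 \ sq x₀ y₀ (ρ p)) = 0 := by
    refine measure_mono_null (fun w hw => ?_) (ae_iff.1 hae)
    exact fun h => hw.2 (h hw.1)
  have hv : volume (img K f p.1) = volume (sq x₀ y₀ (ρ p)) := by
    rw [vol_sq _ _ hr, ← G.vol.pt K z₀ c f ρ p hb hp, ofReal_measureReal hA.measure_lt_top.ne]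
  have h1 : volume (sq x₀ y₀ (ρ p) \ img K f p.1) = 0 := by
    have e1 := measure_inter_add_sdiff (μ := volume) (sq x₀ y₀ (ρ p)) hA.measurableSet
    have e2 : volume (img K f p.1) ≤ volume (sq x₀ y₀ (ρ p) ∩ img K f p.1) := by
      refine (measure_le_inter_add_sdiff volume _ (sq x₀ y₀ (ρ p))).trans ?_
      rw [h2, add_zero, inter_comm]
    have e3 : volume (sq x₀ y₀ (ρ p) ∩ img K f p.1) ≠ ⊤ :=
      ((measure_mono inter_subset_right).trans_lt hA.measure_lt_top).ne
    rw [← hv] at e1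
    refine le_antisymm ((ENNReal.add_le_add_iff_left e3).1 ?_) zero_le
    rw [e1, add_zero]
    exact e2
  refine ⟨h1, h2, fun hr0 => ?_⟩
  have hO : IsOpen (Ioo x₀ (x₀ + ρ p) ×ℂ Ioo y₀ (y₀ + ρ p) \ img K f p.1) :=
    (isOpen_Ioo.reProdIm isOpen_Ioo).sdiff hA.isClosed
  have hsub : Ioo x₀ (x₀ + ρ p) ×ℂ Ioo y₀ (y₀ + ρ p) ⊆ sq x₀ y₀ (ρ p) :=
    fun w hw => ⟨hw.1.1.le, hw.1.2.le, hw.2.1.le, hw.2.2.le⟩
  have hE := hO.eq_empty_of_measure_zero (μ := volume)
    (measure_mono_null (sdiff_subset_sdiff_left hsub) h1)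
  have hC := hA.isClosed.closure_subset_iff.2 (sdiff_eq_empty.1 hE)
  rw [closure_reProdIm, closure_Ioo (by linarith), closure_Ioo (by linarith)] at hC
  exact fun w hw => hC ⟨⟨hw.1, hw.2.1⟩, hw.2.2.1, hw.2.2.2⟩

end Vale.Agent.P116
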