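import Vale.Agent.P116.AStm

/-! Step A: the dual condition and approximation. -/

open Set Filter Topology MeasureTheory Metric Complex
open scoped ENNReal NNReal

noncomputable section
namespace Vale.Agent.P116

namespace AStar

variable {K T Q : Set ℂ} {θ θ' ψ φ : ℂ → ℝ} {s s' t t' σ τ : Cmp K → ℝ}

theorem osc_congr {p : Set ℂ} {r : ℝ} (h : Osc K p θ r) (e : ∀ᶠ z in 𝓝ˢ p, z ∉ K → θ' z = θ z) :
    Osc K p θ' r := fun ε hε => by
  obtain ⟨U, hU, hp, H⟩ := h ε hε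
  obtain ⟨V, hV, hpV, e⟩ := mem_nhdsSet_iff_exists.1 e
  refine ⟨U ∩ V, hU.inter hV, subset_inter hp hpV, fun z hz w hw => ?_⟩
  rw [e hz.1.2 hz.2, e hw.1.2 hw.2]
  exact H z ⟨hz.1.1, hz.2⟩ w ⟨hw.1.1, hw.2⟩

theorem osc_zero (K p : Set ℂ) : Osc K p (fun _ => 0) 0 := fun ε hε =>
  ⟨univ, isOpen_univ, subset_univ _, fun _ _ _ _ => by linarith⟩

theorem osc_neg {p : Set ℂ} {r : ℝ} (h : Osc K p θ r) : Osc K p (fun z => - θ z) r := fun ε hε => by
  obtain ⟨U, hU, hp, H⟩ := h ε hε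
  exact ⟨U, hU, hp, fun z hz w hw => by linarith [H w hw z hz]⟩

theorem good_mono (h : Good K T θ s) (hQ : Q ⊆ T) : Good K Q θ s :=
  ⟨h.1, h.2.1, fun p hp => h.2.2 p (hp.trans hQ)⟩

theorem sm_congr (h : ∀ p : Cmp K, p.1 ⊆ T → s p = s' p ∧ t p = t' p) :
    sm T s t = sm T s' t' := by
  refine tsum_congr fun p => ?_
  split_ifs with hp
  · rw [(h p hp).1, (h p hp).2]
  · rfl

theorem adm_neg (adm : S_adm) (hK : IsClosed K) (h : Adm K θ) : Adm K (fun z => - θ z) := by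
  simpa only [neg_one_mul] using adm.smul K (-1) θ hK h

theorem en_neg (S : Set ℂ) (θ : ℂ → ℝ) : en S (-θ) = en S θ := by
  have : ∀ z, gr (-θ) z = - gr θ z := fun z => by
    rw [gr, fderiv_neg]
    rfl
  simp only [en, this, norm_neg]

theorem glob (adm : S_adm) (hK : IsCompact K) (h : Adm K θ) {ε : ℝ}
    (h0 : ∀ z, z ∉ thickening ε K → θ z = 0) : IntegrableOn (fun z => ‖gr θ z‖ ^ 2) Kᶜ := by
  obtain ⟨R, hR⟩ := (hK.isBounded.thickening (δ := ε)).subset_ball 0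
  exact adm.glob K θ R hK.isClosed h fun z hz => h0 z fun h1 =>
    absurd (mem_ball_zero_iff.1 (hR h1)) (not_lt.2 hz)

variable (cmp : S_cmp) (adm : S_adm) (comp : S_comp) (hs : S_sm) (cut : S_cut) (omA : S_omA)
  (omB : S_omB) (omC : S_omC)

include cmp adm hs cut omA omB in
theorem mono (hK : IsCompact K) (hT : Clo K T) (hQ : Clo K Q) (hQT : Q ⊆ T) (h : Star K T ψ τ) :
    Star K Q ψ τ := by
  classical
  refine ⟨h.1, h.2.1, fun θ s g => ?_⟩
  obtain ⟨χ, hχ, -⟩ := cut K Q univ hK hQ isOpen_univ (subset_univ _)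
  have a := adm.cut K Q χ θ hK hQ hχ g.1
  have e1 : ∀ᶠ z in 𝓝ˢ Q, χ z * θ z = θ z := hχ.2.2.2.1.mono fun z hz => by rw [hz, one_mul]
  have e0 : ∀ᶠ z in 𝓝ˢ (K \ Q), χ z * θ z = 0 := hχ.2.2.2.2.mono fun z hz => by rw [hz, zero_mul]
  have g' : Good K T (fun z => χ z * θ z) (fun p => if p.1 ⊆ Q then s p else 0) := by
    refine ⟨a, ⟨fun p => ?_, hs.sqle K _ s g.2.1.2 fun p => ?_⟩, fun p _ => ?_⟩
    · beta_reduce
      split_ifs
      exacts [g.2.1.1 p, le_rfl]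
    · split_ifs
      exacts [(abs_of_nonneg (g.2.1.1 p)).le, abs_zero.le.trans (g.2.1.1 p)]
    · beta_reduce
      split_ifs with hp
      · exact osc_congr (g.2.2 p hp) ((e1.filter_mono (nhdsSet_mono hp)).mono fun z hz _ => hz)
      · exact osc_congr (osc_zero K p.1) ((e0.filter_mono
          (nhdsSet_mono ((cmp.dich K Q p hQ).resolve_left hp))).mono fun z hz _ => hz)
  have k := h.2.2 _ _ g'
  have hD := cmp.clo_diff K T Q hT hQ
  have z0 := adm.c1 K (fun _ => 0) hK.isClosed contDiff_const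
  have u := omB.union K Q (T \ Q) _ ψ hK hQ hD disjoint_sdiff_right a h.1
  rw [union_sdiff_cancel hQT,
    omA.congr K Q _ ψ θ ψ hK hQ a h.1 g.1 h.1 (e1.mono fun z hz _ => ⟨hz, rfl⟩),
    omA.congr K (T \ Q) _ ψ _ ψ hK hD a h.1 z0 h.1
      ((e0.filter_mono (nhdsSet_mono (sdiff_subset_sdiff_left hT.1))).mono fun z hz _ => ⟨hz, rfl⟩),
    omB.const K _ 0 ψ hK hD h.1, add_zero] at u
  rw [u] at k
  refine k.trans_eq (tsum_congr fun p => ?_)
  by_cases hp : p.1 ⊆ Q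
  · simp only [hp, hp.trans hQT, if_true]
  · simp only [hp, if_false, zero_mul, ite_self]

include cmp adm hs cut omA omB in
theorem union (hK : IsCompact K) (hT : Clo K T) (hQ : Clo K Q) (h : Star K T ψ τ)
    (h' : Star K Q ψ τ) : Star K (T ∪ Q) ψ τ := by
  refine ⟨h.1, h.2.1, fun θ s g => ?_⟩
  have hD := cmp.clo_diff K Q T hQ hT
  have k1 := h.2.2 θ s (good_mono g subset_union_left)
  have k2 := (mono cmp adm hs cut omA omB hK hQ hD sdiff_subset h').2.2 θ s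
    (good_mono g (sdiff_subset.trans subset_union_right))
  rw [← union_sdiff_self, omB.union K T _ θ ψ hK hT hD disjoint_sdiff_right g.1 h.1,
    hs.union K T _ s τ hT hD disjoint_sdiff_right g.2.1.2 h.2.1.2]
  exact (abs_add_le _ _).trans (add_le_add k1 k2)

include adm omB in
theorem neg (hK : IsCompact K) (hT : Clo K T) (h : Star K T ψ τ) : Star K T (fun z => - ψ z) τ := by
  refine ⟨adm_neg adm hK.isClosed h.1, h.2.1, fun θ s g => ?_⟩
  have := (omB.smul K T (-1) ψ θ hK hT h.1 g.1).2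
  simp only [neg_one_mul] at this
  rw [this, abs_neg]
  exact h.2.2 θ s g

include hs in
theorem amono (hQ : Q ⊆ T) (h : Appr K T ψ τ) : Appr K Q ψ τ := by
  refine ⟨h.1, h.2.1, fun ε hε => ?_⟩
  obtain ⟨φ, s, g, h1, h2, h3⟩ := h.2.2 ε hε
  exact ⟨φ, s, good_mono g hQ, h1, h2,
    (hs.mono2 K Q T _ (hs.sqadd K s τ g.2.1.2 h.2.1.2).2 hQ).trans h3⟩

include adm in
theorem aneg (hK : IsCompact K) (h : Appr K T ψ τ) : Appr K T (fun z => - ψ z) τ := by
  refine ⟨adm_neg adm hK.isClosed h.1, h.2.1, fun ε hε => ?_⟩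
  obtain ⟨φ, s, g, h1, h2, h3⟩ := h.2.2 ε hε
  refine ⟨fun z => - φ z, s, ⟨adm_neg adm hK.isClosed g.1, g.2.1, fun p hp => osc_neg (g.2.2 p hp)⟩,
    fun z hz => by simp only [h1 z hz], le_of_eq_of_le ?_ h2, h3⟩
  rw [← en_neg]
  congr 1
  funext z
  simp only [Pi.neg_apply, Pi.sub_apply]
  ring

include adm omC in
theorem cut_en {χ : ℂ → ℝ} (hK : IsCompact K) (hQ : Clo K Q) (hχ : Cut K Q χ) :
    ∃ δ > 0, ∀ (ε : ℝ) (e : ℂ → ℝ), ε ≤ δ → Adm K e → (∀ z, z ∉ thickening ε K → e z = 0) →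
      en Kᶜ (fun z => χ z * e z) ≤ 2 * en Kᶜ e := by
  obtain ⟨c1, c2, -⟩ := omC.cutsup K Q χ hK hQ hχ
  obtain ⟨δ, hδ, hd⟩ := hK.exists_thickening_subset_open (isClosed_tsupport (gr χ)).isOpen_compl
    (subset_compl_iff_disjoint_left.2 c2)
  refine ⟨δ, hδ, fun ε e hε he h0 => ?_⟩
  have k := (omC.cuten K Q χ e hK hQ hχ he).2.2
  have z0 : ∀ z, e z ^ 2 * ‖gr χ z‖ ^ 2 = 0 := fun z => by
    by_cases hz : z ∈ thickening ε K
    · rw [image_eq_zero_of_notMem_tsupport (hd (thickening_mono hε K hz)), norm_zero]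
      ring
    · rw [h0 z hz]
      ring
  simp only [z0, integral_zero, mul_zero, add_zero] at k
  refine k.trans (mul_le_mul_of_nonneg_left ?_ zero_le_two)
  exact setIntegral_mono_set (glob adm hK he h0) (.of_forall fun z => sq_nonneg _)
    (sdiff_subset_compl _ _).eventuallyLE

include cmp adm hs cut omC in
theorem aunion (hK : IsCompact K) (hT : Clo K T) (h : Appr K T ψ τ) (h' : Appr K (K \ T) ψ τ) :
    Appr K K ψ τ := by
  classical
  refine ⟨h.1, h.2.1, fun ε hε => ?_⟩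
  have hc := hK.isClosed
  have hD := cmp.clo_compl K T hT
  obtain ⟨χ, hχ, -⟩ := cut K T univ hK hT isOpen_univ (subset_univ _)
  obtain ⟨χ', hχ', -⟩ := cut K (K \ T) univ hK hD isOpen_univ (subset_univ _)
  obtain ⟨δ, hδ, H⟩ := cut_en adm omC hK hT hχ
  obtain ⟨δ', hδ', H'⟩ := cut_en adm omC hK hD hχ'
  obtain ⟨η, η0, η1, η2, η3⟩ : ∃ η > 0, η ≤ δ ∧ η ≤ δ' ∧ η ≤ ε / 8 :=
    ⟨min δ (min δ' (ε / 8)), by positivity, min_le_left _ _,
      (min_le_right _ _).trans (min_le_left _ _), (min_le_right _ _).trans (min_le_right _ _)⟩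
  obtain ⟨φ, s, g, h1, h2, h3⟩ := h.2.2 η η0
  obtain ⟨φ', s', g', h1', h2', h3'⟩ := h'.2.2 η η0
  have a := adm.sub K φ ψ hc g.1 h.1
  have a' := adm.sub K φ' ψ hc g'.1 h.1
  have z0 : ∀ z, z ∉ thickening η K → (φ - ψ) z = 0 := fun z hz => sub_eq_zero.2 (h1 z hz)
  have z0' : ∀ z, z ∉ thickening η K → (φ' - ψ) z = 0 := fun z hz => sub_eq_zero.2 (h1' z hz)
  have b := adm.cut K T χ _ hK hT hχ a
  have b' := adm.cut K _ χ' _ hK hD hχ' a'
  have e1 := hχ.2.2.2.1.and (hχ'.2.2.2.2.filter_mono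
    (nhdsSet_mono (sdiff_sdiff_cancel_left hT.1).superset))
  have e2 := hχ.2.2.2.2.and hχ'.2.2.2.1
  have sq : Sq fun p : Cmp K => if p.1 ⊆ T then s p else s' p := by
    refine ⟨fun p => ?_, hs.sqle K _ _ (hs.sqadd K s s' g.2.1.2 g'.2.1.2).1 fun p => ?_⟩
    · beta_reduce
      split_ifs
      exacts [g.2.1.1 p, g'.2.1.1 p]
    · split_ifs
      exacts [(abs_of_nonneg (g.2.1.1 p)).le.trans (le_add_of_nonneg_right (g'.2.1.1 p)),
        (abs_of_nonneg (g'.2.1.1 p)).le.trans (le_add_of_nonneg_left (g.2.1.1 p))]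
  refine ⟨ψ + ((fun z => χ z * (φ - ψ) z) + fun z => χ' z * (φ' - ψ) z), _,
    ⟨adm.add K _ _ hc h.1 (adm.add K _ _ hc b b'), sq, fun p _ => ?_⟩, fun z hz => ?_, ?_, ?_⟩
  · split_ifs with hp
    · refine osc_congr (g.2.2 p hp) ((e1.filter_mono (nhdsSet_mono hp)).mono fun z hz _ => ?_)
      simp only [Pi.add_apply, Pi.sub_apply, hz.1, hz.2]
      ring
    · have hp' := (cmp.dich K T p hT).resolve_left hp
      refine osc_congr (g'.2.2 p hp') ((e2.filter_mono (nhdsSet_mono hp')).mono fun z hz _ => ?_)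
      simp only [Pi.add_apply, Pi.sub_apply, hz.1, hz.2]
      ring
  · have hz' : z ∉ thickening η K := fun h => hz (thickening_mono (by linarith) K h)
    simp only [Pi.add_apply, z0 z hz', z0' z hz', mul_zero, add_zero]
  · rw [add_sub_cancel_left]
    have k := (adm.tri Kᶜ Kᶜ _ _ hc.isOpen_compl subset_rfl hc.isOpen_compl.measurableSet b.1 b'.1
      (glob adm hK b fun z hz => by rw [z0 z hz, mul_zero])
      (glob adm hK b' fun z hz => by rw [z0' z hz, mul_zero])).1.2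
    have k1 := Real.sqrt_le_sqrt ((H η _ η1 a z0).trans (by linarith : _ ≤ ε / 4))
    have k2 := Real.sqrt_le_sqrt ((H' η _ η2 a' z0').trans (by linarith : _ ≤ ε / 4))
    have k3 : √ε = 2 * √(ε / 4) := by
      rw [Real.sqrt_div' _ (by norm_num), show (4 : ℝ) = 2 ^ 2 by norm_num,
        Real.sqrt_sq zero_le_two]
      ring
    exact (Real.sqrt_le_sqrt_iff hε.le).1 (by linarith)
  · have sd := (hs.sqadd K _ τ sq.2 h.2.1.2).2
    have u := hs.union K T (K \ T) _ _ hT hD disjoint_sdiff_right sd sd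
    rw [union_sdiff_cancel hT.1,
      sm_congr (T := T) (s' := s - τ) (t' := s - τ) fun p hp => by simp [hp],
      sm_congr (T := K \ T) (s' := s' - τ) (t' := s' - τ) fun p hp => ?_] at u
    · linarith
    · have : ¬ p.1 ⊆ T := fun h => by
        obtain ⟨z, hz⟩ := cmp.ne K p
        exact (hp hz).2 (h hz)
      simp [this]

include adm hs omB omC in
theorem pair (hK : IsCompact K) (hT : Clo K T) (h : Appr K T φ σ) (h' : Star K T ψ τ) :
    |om K T φ ψ| ≤ sm T σ τ := by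
  obtain ⟨ε₀, h0, H⟩ := omC.near K T hK hT
  have t0 : Tendsto (fun ε : ℝ => √ε) (𝓝[>] 0) (𝓝 0) := by
    simpa only [Real.sqrt_zero] using
      (Real.continuous_sqrt.tendsto 0).mono_left nhdsWithin_le_nhds
  have t1 := ((t0.mul_const (√(sm T τ τ))).add (t0.mul (adm.small K ψ hK h'.1).sqrt)).const_add
    (sm T σ τ)
  simp only [zero_mul, add_zero] at t1
  refine ge_of_tendsto t1 ?_
  filter_upwards [Ioc_mem_nhdsGT h0] with ε hε
  obtain ⟨φ', s, g, h1, h2, h3⟩ := h.2.2 ε hε.1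
  have k1 := h'.2.2 φ' s g
  have k2 := H ε _ ψ hε.2 (adm.sub K φ' φ hK.isClosed g.1 h.1) h'.1
    fun z hz => sub_eq_zero.2 (h1 z hz)
  have k3 := hs.cs K T _ τ (hs.sqadd K s σ g.2.1.2 h.2.1.2).2 h'.2.1.2
  rw [(omB.add K T φ' φ ψ hK hT g.1 h.1 h'.1).2.1] at k2
  rw [(hs.add K T s σ τ g.2.1.2 h.2.1.2 h'.2.1.2).2] at k3
  have k4 := mul_le_mul_of_nonneg_right (Real.sqrt_le_sqrt h2)
    (Real.sqrt_nonneg (en (thickening ε K \ K) ψ))
  have k5 := mul_le_mul_of_nonneg_right (Real.sqrt_le_sqrt h3) (Real.sqrt_nonneg (sm T τ τ))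
  rw [abs_le] at k1 k2 k3 ⊢
  constructor <;> linarith [k1.1, k1.2, k2.1, k2.2, k3.1, k3.2]

include comp omA in
theorem ofbdd (hK : IsCompact K) (hT : Clo K T) (hψ : Adm K ψ) (hτ : Sq τ)
    (H : ∀ θ s M, Good K T θ s → (∀ z ∉ K, |θ z| ≤ M) → |om K T θ ψ| ≤ sm T s τ) :
    Star K T ψ τ := by
  refine ⟨hψ, hτ, fun θ s g => ?_⟩
  obtain ⟨U, M, hU, hTU, hM⟩ := comp.bdd K T θ s hK hT g
  have L : LipschitzWith 1 fun x : ℝ => max (-|M|) (min |M| x) :=
    (LipschitzWith.id.const_min _).const_max _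
  have a := (comp.adm1 K θ _ 1 hK.isClosed g.1 L).1
  rw [omA.congr K T θ ψ _ ψ hK hT g.1 hψ a hψ ?_]
  · refine H _ s |M| ⟨a, g.2.1, fun p hp => ?_⟩ fun z _ => abs_le.2
      ⟨le_max_left _ _, max_le (neg_le_self (abs_nonneg M)) (min_le_left _ _)⟩
    simpa only [NNReal.coe_one, one_mul] using comp.osc1 K p.1 θ _ 1 _ (g.2.2 p hp) L
  · filter_upwards [hU.mem_nhdsSet.2 hTU] with z hz hzK
    obtain ⟨b1, b2⟩ := abs_le.1 ((hM z ⟨hz, hzK⟩).trans (le_abs_self M))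
    exact ⟨by rw [min_eq_right b2, max_eq_right b1], rfl⟩

include cmp adm hs cut omA omB omC in
theorem area {A : Set ℂ} {u v : ℂ → ℝ} {ρ : Cmp K → ℝ} (hK : IsCompact K) (hA : Clo K A)
    (hu : Appr K K u ρ) (hv : Appr K K v ρ) (sv : Star K A v ρ) (su : Star K (K \ A) u ρ)
    (h : - om K K u v = sm K ρ ρ) (Q : Set ℂ) (hQ : Clo K Q) : - om K Q u v = sm Q ρ ρ := by
  have split : ∀ P B, Clo K P → Clo K B → om K P u v = om K (P ∩ B) u v + om K (P \ B) u v ∧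
      sm P ρ ρ = sm (P ∩ B) ρ ρ + sm (P \ B) ρ ρ := fun P B hP hB => by
    have c1 := cmp.clo_inter K P B hP hB
    have c2 := cmp.clo_diff K P B hP hB
    have d : Disjoint (P ∩ B) (P \ B) := disjoint_sdiff_right.mono_left inter_subset_right
    rw [← omB.union K _ _ u v hK c1 c2 d hu.1 hv.1, ← hs.union K _ _ ρ ρ c1 c2 d hu.2.1.2 hu.2.1.2,
      inter_union_sdiff]
    exact ⟨rfl, rfl⟩
  have le : ∀ P, Clo K P → - om K P u v ≤ sm P ρ ρ := fun P hP => by
    have c1 := cmp.clo_inter K P A hP hA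
    have c2 := cmp.clo_diff K P A hP hA
    have k1 := pair adm hs omB omC hK c1 (amono hs c1.1 hu)
      (mono cmp adm hs cut omA omB hK hA c1 inter_subset_right sv)
    have k2 := pair adm hs omB omC hK c2 (amono hs c2.1 hv)
      (mono cmp adm hs cut omA omB hK (cmp.clo_compl K A hA) c2 (sdiff_subset_sdiff_left hP.1) su)
    have k3 := omB.anti K _ u v hK c2 hu.1 hv.1
    obtain ⟨e1, e2⟩ := split P A hP hA
    linarith [(abs_le.1 k1).1, (abs_le.1 k2).2]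
  obtain ⟨e1, e2⟩ := split K Q (cmp.clo_self K hK.isClosed) hQ
  rw [inter_eq_right.2 hQ.1] at e1 e2
  linarith [le Q hQ, le _ (cmp.clo_compl K Q hQ)]

end AStar

theorem s_star (cmp : S_cmp) (adm : S_adm) (comp : S_comp) (sm : S_sm) (cut : S_cut)
    (omA : S_omA) (omB : S_omB) (omC : S_omC) : S_star where
  mono _ _ _ _ _ := AStar.mono cmp adm sm cut omA omB
  union _ _ _ _ _ := AStar.union cmp adm sm cut omA omB
  neg _ _ _ _ := AStar.neg adm omB
  amono _ _ _ _ _ := AStar.amono sm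
  aunion _ _ _ _ := AStar.aunion cmp adm sm cut omC
  aneg _ _ _ _ := AStar.aneg adm
  pair _ _ _ _ _ _ := AStar.pair adm sm omB omC
  pairw _ _ _ _ _ _ hK hT h hψ hτ H :=
    AStar.pair adm sm omB omC hK hT h (AStar.ofbdd comp omA hK hT hψ hτ H)
  ofbdd _ _ _ _ := AStar.ofbdd comp omA
  area _ _ _ _ _ := AStar.area cmp adm sm cut omA omB omC

end Vale.Agent.P116
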