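import Vale.Agent.P116.AStm2
import Vale.Agent.P116.AStar

/-! Step A: boxes exist. -/

open Set Filter Topology MeasureTheory Metric Complex
open scoped ENNReal NNReal

noncomputable section
namespace Vale.Agent.P116

namespace ABx

variable {K : Set ℂ} {u φ : ℂ → ℝ} {ρ s : Cmp K → ℝ}

theorem apx_mono {T : Set ℂ} {ε ε' : ℝ} (h : Apx K T u ρ ε φ s) (hε : ε ≤ ε') :
    Apx K T u ρ ε' φ s :=
  ⟨h.1, fun z hz => h.2.1 z fun k => hz (thickening_mono hε K k), h.2.2.1.trans hε,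
    h.2.2.2.trans hε⟩

theorem apx_pt (L : Lib) {ε e : ℝ} (h : Apx K K u ρ ε φ s) (hρ : Sq ρ) (p : Cmp K) (he : 0 ≤ e)
    (hε : ε ≤ e ^ 2) : |s p - ρ p| ≤ e :=
  abs_le_of_sq_le_sq' (((L.sm.single K K (s - ρ) p (L.sm.sqadd K s ρ h.1.2.1.2 hρ.2).2
    (L.cmp.sub K p)).trans h.2.2.2).trans hε) he |> abs_le.2

theorem en_zero (S : Set ℂ) : en S (fun _ => 0) = 0 := by
  have : ∀ z, gr (fun _ => 0) z = 0 := fun z => by
    rw [gr, fderiv_const_apply]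
    rfl
  simp only [en, this, norm_zero, zero_pow two_ne_zero, integral_zero]

theorem clamp (L : Lib) (hK : IsCompact K) (h : Appr K K u ρ) {M : ℝ}
    (hM : ∀ z ∈ thickening 1 K \ K, |u z| ≤ M) {ε : ℝ} (hε : 0 < ε) :
    ∃ φ s, Apx K K u ρ ε φ s ∧ ∀ z ∈ thickening 1 K \ K, |φ z| ≤ |M| := by
  have hc := hK.isClosed
  have l1 : LipschitzWith 1 fun x : ℝ => max (-|M|) (min |M| x) :=
    (LipschitzWith.id.const_min _).const_max _
  have l2 : LipschitzWith 1 fun w : ℂ => max (-|M|) (min |M| w.re) :=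
    ((RCLike.lipschitzWith_re (K := ℂ)).const_min _).const_max _
  obtain ⟨δ, d1, d0, d2⟩ := (((L.adm.small K u hK h.1).eventually
    (gt_mem_nhds (show 0 < ε / 24 by positivity))).and
    (Ioc_mem_nhdsGT (show 0 < ε / 24 by positivity))).exists
  obtain ⟨φ, s, g, h1, h2, h3⟩ := h.2.2 δ d0
  have a := (L.comp.adm1 K φ _ 1 hc g.1 l1).1
  have b := (L.comp.adm1 K u _ 1 hc h.1 l1).1
  have z0 := L.adm.c1 K (fun _ => 0) hc contDiff_const
  have e : ∀ z ∈ thickening 1 K \ K, (u + ((fun z => max (-|M|) (min |M| (φ z))) -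
      fun z => max (-|M|) (min |M| (u z)))) z = max (-|M|) (min |M| (φ z)) := fun z hz => by
    obtain ⟨b1, b2⟩ := abs_le.1 ((hM z hz).trans (le_abs_self M))
    simp only [Pi.add_apply, Pi.sub_apply, min_eq_right b2, max_eq_right b1]
    ring
  refine ⟨_, s, ⟨⟨L.adm.add K _ _ hc h.1 (L.adm.sub K _ _ hc a b), g.2.1, fun p hp => ?_⟩,
    fun z hz => ?_, ?_, by linarith⟩, fun z hz => ?_⟩
  · refine AStar.osc_congr (θ := fun z => max (-|M|) (min |M| (φ z))) ?_ ?_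
    · simpa only [NNReal.coe_one, one_mul] using L.comp.osc1 K p.1 φ _ 1 _ (g.2.2 p hp) l1
    · filter_upwards [isOpen_thickening.mem_nhdsSet.2
        (hp.trans (self_subset_thickening one_pos K))] with z hz hzK using e z ⟨hz, hzK⟩
  · simp only [Pi.add_apply, Pi.sub_apply,
      h1 z fun k => hz (thickening_mono (by linarith) K k), sub_self, add_zero]
  · have k := L.comp.close K u (fun _ => 0) φ (fun _ => 0) _ 1 δ hK h.1 z0 g.1 z0 l2 h1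
      fun _ _ => rfl
    rw [sub_self, show en Kᶜ 0 = 0 from en_zero _, en_zero, NNReal.coe_one] at k
    rw [add_sub_cancel_left]
    exact k.trans (by linarith)
  · rw [e z hz]
    exact abs_le.2 ⟨le_max_left _ _, max_le (neg_le_self (abs_nonneg M)) (min_le_left _ _)⟩

theorem one (L : Lib) (hK : IsCompact K) (h : Appr K K u ρ) {M : ℝ}
    (hM : ∀ z ∈ thickening 1 K \ K, |u z| ≤ M) (p : Cmp K) :
    ∃ x₀, ∀ ε > 0, ∃ φ s, Apx K K u ρ ε φ s ∧ ∃ U, IsOpen U ∧ p.1 ⊆ U ∧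
      ∀ z ∈ U \ K, x₀ - ε ≤ φ z ∧ φ z ≤ x₀ + ρ p + ε := by
  have key : ∀ k : ℕ, ∃ φ s lo, Apx K K u ρ (1 / (k + 1)) φ s ∧ Clu K p.1 φ lo (s p) ∧
      lo ∈ Icc (-|M| - ρ p - 2) (|M| + 1) := fun k => by
    obtain ⟨φ, s, a, b⟩ := clamp L hK h hM (Nat.one_div_pos_of_nat (n := k))
    obtain ⟨lo, hl⟩ := L.comp.clu K p.1 φ (s p) (a.1.2.1.1 p) (a.1.2.2 p (L.cmp.sub K p))
    obtain ⟨U, hU, hp, H⟩ := hl 1 one_pos
    obtain ⟨z, hz⟩ := L.cmp.acc K p _ hK (hU.inter isOpen_thickening)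
      (subset_inter hp ((L.cmp.sub K p).trans (self_subset_thickening one_pos K)))
    have k1 := abs_le.1 (apx_pt L a h.2.1 p zero_le_one (by
      rw [one_pow, div_le_one (by positivity)]
      linarith [Nat.cast_nonneg (α := ℝ) k]))
    have k2 := abs_le.1 (b z ⟨hz.1.2, hz.2⟩)
    have k3 := H z ⟨hz.1.1, hz.2⟩
    exact ⟨φ, s, lo, a, hl, by linarith [k1.2, k2.1, k3.2], by linarith [k2.2, k3.1]⟩
  choose φ s lo h1 h2 h3 using key
  obtain ⟨x₀, -, j, hj, t⟩ := isCompact_Icc.tendsto_subseq h3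
  refine ⟨x₀, fun ε hε => ?_⟩
  have e3 : 0 < ε / 3 := by positivity
  have t2 := tendsto_one_div_add_atTop_nhds_zero_nat (𝕜 := ℝ).comp hj.tendsto_atTop
  obtain ⟨k, k1, k2, k3⟩ := ((Metric.tendsto_nhds.1 t _ e3).and ((t2.eventually
    (gt_mem_nhds hε)).and (t2.eventually (gt_mem_nhds (pow_pos e3 2))))).exists
  obtain ⟨U, hU, hp, H⟩ := h2 (j k) _ e3
  have k4 := abs_le.1 (apx_pt L (h1 (j k)) h.2.1 p e3.le k3.le)
  have k5 := abs_lt.1 (show |lo (j k) - x₀| < ε / 3 from k1)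
  exact ⟨_, _, apx_mono (h1 (j k)) k2.le, U, hU, hp, fun z hz =>
    ⟨by linarith [(H z hz).1, k5.1], by linarith [(H z hz).2, k5.2, k4.2]⟩⟩

theorem near {a r e x : ℝ} (hr : 0 ≤ r) (he : 0 ≤ e) (h1 : a - e ≤ x) (h2 : x ≤ a + r + e) :
    ∃ y, a ≤ y ∧ y ≤ a + r ∧ |x - y| ≤ e := by
  rcases le_total x a with h | h
  · exact ⟨a, le_rfl, by linarith, abs_le.2 ⟨by linarith, by linarith⟩⟩
  rcases le_total x (a + r) with h' | h'
  · exact ⟨x, h, h', by rwa [sub_self, abs_zero]⟩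
  · exact ⟨a + r, by linarith, le_rfl, abs_le.2 ⟨by linarith, by linarith⟩⟩

end ABx

theorem s_bx (L : Lib) (G : Geo) : S_bx := by
  intro K z₀ c f ρ p hB hP
  have hK := hB.cpt
  obtain ⟨R, hR⟩ := (hK.isBounded.thickening (δ := 1)).subset_ball 0
  obtain ⟨M, hM⟩ := G.imgA.bdd K c f R (hP.uni hB)
  obtain ⟨x₀, hx⟩ := ABx.one L hK hP.au
    (fun z hz => (abs_re_le_norm (f z)).trans (hM z ⟨hR hz.1, hz.2⟩)) p
  obtain ⟨y₀, hy⟩ := ABx.one L hK hP.av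
    (fun z hz => (abs_im_le_norm (f z)).trans (hM z ⟨hR hz.1, hz.2⟩)) p
  refine ⟨x₀, y₀, fun ε hε => ?_⟩
  have e3 : 0 < ε / 3 := by positivity
  obtain ⟨φ, s, a, U, hU, hp, H⟩ := hx _ e3
  obtain ⟨ψ, t, a', V, hV, hp', H'⟩ := hy _ e3
  refine ⟨φ, s, ψ, t, ABx.apx_mono a (by linarith), ABx.apx_mono a' (by linarith), U ∩ V,
    hU.inter hV, subset_inter hp hp', fun z hz => ?_⟩
  obtain ⟨b1, b2⟩ := H z ⟨hz.1.1, hz.2⟩
  obtain ⟨b3, b4⟩ := H' z ⟨hz.1.2, hz.2⟩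
  obtain ⟨x, x1, x2, x3⟩ := ABx.near (hP.au.2.1.1 p) e3.le b1 b2
  obtain ⟨y, y1, y2, y3⟩ := ABx.near (hP.au.2.1.1 p) e3.le b3 b4
  refine mem_thickening_iff.2 ⟨⟨x, y⟩, ⟨x1, x2, y1, y2⟩, ?_⟩
  rw [dist_eq_norm]
  refine (norm_le_abs_re_add_abs_im _).trans_lt ?_
  change |φ z - x| + |ψ z - y| < ε
  linarith

end Vale.Agent.P116
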