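import Vale.Agent.P116.AStm

/-! Step A (square domains): small cells with connected frontier. -/

open Set Filter Topology MeasureTheory Metric Complex
open scoped ENNReal NNReal

noncomputable section
namespace Vale.Agent.P116

theorem s_cell (cmp : S_cmp) (fill : S_fill) (unic : S_unic) : S_cell := by
  intro K p U hK hU hp
  obtain ⟨Q, hQ, hpQ, hQU⟩ := cmp.nbhd K p U hK.cpt hU hp
  have cQ : IsCompact Q := hK.cpt.of_isClosed_subset hQ.2.1 hQ.1
  obtain ⟨δ1, h1, e1⟩ := cQ.exists_cthickening_subset_open hU hQU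
  have dj : Disjoint Q (K \ Q) := disjoint_sdiff_right
  obtain ⟨δ2, h2, e2⟩ := dj.exists_thickenings cQ hQ.2.2
  obtain ⟨𝒲, hW, -, hcov⟩ := fill K Q (min δ1 δ2) hK hQ (lt_min h1 h2)
  obtain ⟨z, hz⟩ := cmp.ne K p
  obtain ⟨W, hWm, hzW⟩ := mem_iUnion₂.1 (hcov (hpQ hz))
  obtain ⟨o, bd, con, conc, fr, -, th⟩ := hW W hWm
  have hpW : p.1 ⊆ W := by
    refine (cmp.con K p).subset_of_closure_inter_subset o ⟨z, hz, hzW⟩ ?_
    rintro x ⟨hx, hxp⟩
    by_contra hn
    exact disjoint_left.1 fr (by rw [o.frontier_eq]; exact ⟨hx, hn⟩) (cmp.sub K p hxp)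
  have hsub : W ⊆ thickening (min δ1 δ2) Q := by
    refine IsPreconnected.subset_left_of_subset_union (v := thickening (min δ1 δ2) (K \ Q))
      isOpen_thickening isOpen_thickening ?_ ?_ ?_ con.isPreconnected
    · exact e2.mono (thickening_mono (min_le_right _ _) _) (thickening_mono (min_le_right _ _) _)
    · rw [← thickening_union, union_sdiff_cancel hQ.1]
      exact th
    · exact ⟨z, hzW, self_subset_thickening (lt_min h1 h2) _ (hpQ hz)⟩
  refine ⟨W, o, hpW, ?_, bd.isCompact_closure, fr, unic W o con.isPreconnected conc⟩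
  exact (closure_mono hsub).trans ((closure_thickening_subset_cthickening _ _).trans
    ((cthickening_mono (min_le_left _ _) _).trans e1))

end Vale.Agent.P116
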