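import Vale.Agent.P116.AStm2

/-! Step A: certificates of small oscillation. -/

open Set Filter Topology MeasureTheory Metric Complex
open scoped ENNReal NNReal

noncomputable section
namespace Vale.Agent.P116

namespace ACert

theorem fr_le {K W : Set ℂ} (hK : IsClosed K) (hd : Disjoint (frontier W) K) {h : ℂ → ℝ}
    (hc : ContinuousOn h Kᶜ) {a : ℝ} (hb : ∀ z ∈ W \ K, h z ≤ a) : ∀ z ∈ frontier W, h z ≤ a := by
  intro z hz
  have h1 : z ∈ Kᶜ := disjoint_left.1 hd hz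
  exact ContinuousWithinAt.closure_le (s := W ∩ Kᶜ)
    (hK.isOpen_compl.closure_inter ⟨frontier_subset_closure hz, h1⟩)
    ((hc z h1).mono inter_subset_right) continuousWithinAt_const hb

theorem pos_le {ι : Type} (T : Finset ι) (R : ι → ℝ) (h : ∀ i ∈ T, 0 < R i) :
    ∃ r > 0, ∀ i ∈ T, r ≤ R i := by
  have h1 : ∀ᶠ r in 𝓝[>] (0 : ℝ), ∀ i ∈ T, r ≤ R i := (Finset.eventually_all T).2 fun i hi =>
    (eventually_le_nhds (h i hi)).filter_mono nhdsWithin_le_nhds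
  exact (eventually_mem_nhdsWithin.and h1).exists

theorem stabW (L : Lib) (G : Geo) (K W : Set ℂ) (z₀ c : ℂ) (f : ℂ → ℂ) (ρ : Cmp K → ℝ)
    (l : ℂ →L[ℝ] ℝ) (t δ : ℝ) (hb : Base K z₀ c) (hp : Pre K z₀ c f ρ) (hW : IsOpen W)
    (hW' : Bornology.IsBounded W) (hd : Disjoint (frontier W) K)
    (ho : ∀ z ∈ W \ K, ∀ w ∈ W \ K, l (f z) - l (f w) ≤ t) (hδ : 0 < δ) :
    ∃ r > 0, ∀ g σ, Pre K z₀ c g σ → d2 K f ρ g σ ≤ r →
      ∀ z ∈ W \ K, ∀ w ∈ W \ K, l (g z) - l (g w) ≤ t + δ := by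
  have hK := hb.cpt.isClosed
  have hc : ContinuousOn (fun z => l (f z)) Kᶜ :=
    l.continuous.comp_continuousOn hp.hol.1.continuousOn
  have h1 : ∀ z ∈ frontier W, ∀ w ∈ frontier W, l (f z) - l (f w) ≤ t := fun z hz =>
    fr_le hK hd (continuousOn_const.sub hc) fun w hw =>
      fr_le hK hd (hc.sub continuousOn_const) (fun z hz => ho z hz w hw) z hz
  obtain ⟨M, M0, hM⟩ := L.d2.sup L.lu K (frontier W) z₀ hb.toCtx hb.out
    (hW'.isCompact_closure.of_isClosed_subset isClosed_frontier frontier_subset_closure)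
    (disjoint_left.1 hd)
  have hN : 0 ≤ ‖l‖ * M := mul_nonneg (norm_nonneg _) M0
  have he : 0 < δ / (2 * (‖l‖ * M + 1)) := by positivity
  refine ⟨(δ / (2 * (‖l‖ * M + 1))) ^ 2, by positivity, fun g σ hg hr => ?_⟩
  have h2 : ∀ z ∈ frontier W, |l (f z) - l (g z)| ≤ δ / 2 := by
    intro z hz
    have a1 := hM c f g ρ σ hp.hol hg.hol hp.nrm hg.nrm z hz
    have a2 : √(d2 K f ρ g σ) ≤ δ / (2 * (‖l‖ * M + 1)) := Real.sqrt_le_iff.2 ⟨he.le, hr⟩
    have a3 := l.le_opNorm (f z - g z)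
    rw [map_sub, Real.norm_eq_abs] at a3
    have a4 := mul_le_mul_of_nonneg_left (a1.trans (mul_le_mul_of_nonneg_left a2 M0))
      (norm_nonneg l)
    have a5 : (‖l‖ * M + 1) * (δ / (2 * (‖l‖ * M + 1))) = δ / 2 := by field_simp
    linarith
  have hu := hg.uni hb
  have h3 : ∀ w ∈ frontier W, ∀ z ∈ W \ K, l (g z) ≤ l (g w) + (t + δ) := by
    intro w hw z hz
    refine (G.max K W {y | l y ≤ l (g w) + (t + δ)} c g hu hW hW' hd
      (isClosed_le l.continuous continuous_const) (convex_halfSpace_le l.isLinear _) ?_).1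
      ⟨z, hz, rfl⟩
    rintro _ ⟨y, hy, rfl⟩
    have := h1 y hy w hw
    have := abs_le.1 (h2 y hy)
    have := abs_le.1 (h2 w hw)
    change l (g y) ≤ _
    linarith
  intro z hz w hw
  have h4 := (G.max K W {y | l (g z) - (t + δ) ≤ l y} c g hu hW hW' hd
    (isClosed_le continuous_const l.continuous) (convex_halfSpace_ge l.isLinear _) (by
      rintro _ ⟨y, hy, rfl⟩
      exact sub_le_iff_le_add.2 (h3 y hy z hz))).1 ⟨w, hw, rfl⟩
  change l (g z) - (t + δ) ≤ l (g w) at h4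
  linarith

theorem stab (L : Lib) (G : Geo) (K : Set ℂ) (z₀ c : ℂ) (f : ℂ → ℂ) (ρ : Cmp K → ℝ) (η : ℝ)
    (l : ℂ →L[ℝ] ℝ) (hb : Base K z₀ c) (hp : Pre K z₀ c f ρ)
    (h : Cert K (fun z => l (f z)) ρ η) :
    ∃ r > 0, ∀ g σ, Pre K z₀ c g σ → d2 K f ρ g σ ≤ r → Cert K (fun z => l (g z)) σ η := by
  choose p W t h1 h2 h3 h4 h5 h6 using h
  have hδ : ∀ q, 0 < (ρ (p q) + η - t q) / 3 := fun q => by linarith [h5 q]
  choose R R0 hR using fun q => stabW L G K (W q) z₀ c f ρ l (t q) _ hb hp (h1 q)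
    ((L.cmp.cpt K (p q) hb.cpt).isBounded.thickening.subset (h3 q)) (h4 q) (h6 q) (hδ q)
  obtain ⟨T, hT⟩ := hb.cpt.elim_finite_subcover W h1 fun z hz => by
    obtain ⟨q, hq⟩ := L.cmp.mem K z hz
    exact mem_iUnion.2 ⟨q, h2 q hq⟩
  obtain ⟨r, r0, hr⟩ := pos_le T (fun q => min (R q) (((ρ (p q) + η - t q) / 3) ^ 2))
    fun q _ => lt_min (R0 q) (pow_pos (hδ q) 2)
  refine ⟨r, r0, fun g σ hg hd q' => ?_⟩
  obtain ⟨z, hz⟩ := L.cmp.ne K q'
  obtain ⟨q, hq, hzq⟩ := mem_iUnion₂.1 (hT (L.cmp.sub K q' hz))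
  obtain ⟨a1, a2⟩ := le_min_iff.1 (hd.trans (hr q hq))
  refine ⟨p q, W q, _, h1 q, ?_, h3 q, h4 q, ?_, hR q g σ hg a1⟩
  · rcases L.cmp.dich K _ q' (L.cmp.clo_open K (W q) hb.cpt.isClosed (h1 q) (h4 q)) with h | h
    · exact h.trans inter_subset_right
    · exact absurd ⟨(h hz).1, hzq⟩ (h hz).2
  · have := abs_le.1 ((L.d2.pt K f g ρ σ (p q) hp.au.2.1 hg.au.2.1).trans
      (Real.sqrt_le_iff.2 ⟨(hδ q).le, a2⟩))
    linarith [h5 q]

end ACert

theorem s_cert (L : Lib) (G : Geo) : S_cert := by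
  refine ⟨fun K U θ q t t' η hK ho ht hη hU hq => ?_, ACert.stabW L G,
    fun K z₀ c f ρ η hb hp => ⟨ACert.stab L G K z₀ c f ρ η reCLM hb hp,
      ACert.stab L G K z₀ c f ρ η imCLM hb hp⟩, fun K θ ρ hK hρ h q ε hε => ?_⟩
  · obtain ⟨V, v1, v2, v3⟩ := ho ((t' - t) / 2) (by linarith)
    obtain ⟨W, w1, w2, w3, -, w4, -⟩ := L.cell K q (U ∩ thickening η q.1 ∩ V) hK
      ((hU.inter isOpen_thickening).inter v1)
      (subset_inter (subset_inter hq (self_subset_thickening hη _)) v2)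
    have w5 := subset_closure.trans w3
    exact ⟨W, t + (t' - t) / 2, w1, w2, fun z hz => (w5 hz).1.2, fun z hz => (w5 hz).1.1, w4,
      by linarith, fun z hz w hw => v3 z ⟨(w5 hz.1).2, hz.2⟩ w ⟨(w5 hw.1).2, hw.2⟩⟩
  · obtain ⟨F, hF, -⟩ := L.sm.tail K ρ (ε / 2) hρ.2 (half_pos hε)
    have key : ∀ p : Cmp K, ∃ δ > 0, q.1 ⊆ thickening δ p.1 → p = q := by
      intro p
      by_cases hpq : p = q
      · exact ⟨1, one_pos, fun _ => hpq⟩
      · obtain ⟨δ, δ0, hδ⟩ := (disjoint_iff_inter_eq_empty.2 (not_nonempty_iff_eq_empty.1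
          fun h => hpq (L.cmp.eq K p q h))).exists_thickenings (L.cmp.cpt K p hK)
          (L.cmp.cpt K q hK).isClosed
        obtain ⟨z, hz⟩ := L.cmp.ne K q
        exact ⟨δ, δ0, fun h => absurd (self_subset_thickening δ0 _ hz) (disjoint_left.1 hδ (h hz))⟩
    choose δ δ0 hδ using key
    obtain ⟨r, r0, hr⟩ := ACert.pos_le F δ fun p _ => δ0 p
    obtain ⟨n, hn⟩ := exists_nat_one_div_lt (lt_min r0 (half_pos hε))
    obtain ⟨n1, n2⟩ := lt_min_iff.1 hn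
    obtain ⟨p, W, t, w1, w2, w3, -, w4, w5⟩ := h n q
    refine ⟨W, w1, w2, fun z hz w hw => (w5 z hz w hw).trans ?_⟩
    by_cases hp : p ∈ F
    · have := hδ p (w2.trans (w3.trans (thickening_mono (n1.le.trans (hr p hp)) _)))
      rw [this] at w4
      linarith
    · have := (abs_le.1 (hF p hp)).2
      have := hρ.1 q
      linarith

end Vale.Agent.P116
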