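import Vale.Agent.P116.AStm2

/-! Step A (square domains): components and clopen pieces. -/

open Set Filter Topology MeasureTheory Metric Complex
open scoped ENNReal NNReal

noncomputable section
namespace Vale.Agent.P116

theorem cmp_sub (K : Set ℂ) (p : Cmp K) : p.1 ⊆ K := by
  obtain ⟨z, -, h⟩ := p.2
  rw [h]
  exact connectedComponentIn_subset K z

theorem cmp_ne (K : Set ℂ) (p : Cmp K) : p.1.Nonempty := by
  obtain ⟨z, hz, h⟩ := p.2
  rw [h]
  exact ⟨z, mem_connectedComponentIn hz⟩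

theorem cmp_con (K : Set ℂ) (p : Cmp K) : IsPreconnected p.1 := by
  obtain ⟨z, -, h⟩ := p.2
  rw [h]
  exact isPreconnected_connectedComponentIn

theorem cmp_at {K : Set ℂ} (p : Cmp K) {w : ℂ} (hw : w ∈ p.1) :
    p.1 = connectedComponentIn K w := by
  obtain ⟨z, -, h⟩ := p.2
  rw [h] at hw ⊢
  exact connectedComponentIn_eq hw

theorem cmp_cpt (K : Set ℂ) (p : Cmp K) (hK : IsCompact K) : IsCompact p.1 := by
  obtain ⟨z, hz, h⟩ := p.2
  have := isCompact_iff_compactSpace.1 hK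
  rw [h, connectedComponentIn_eq_image hz]
  exact isClosed_connectedComponent.isCompact.image continuous_subtype_val

theorem cmp_eq (K : Set ℂ) (p q : Cmp K) (h : (p.1 ∩ q.1).Nonempty) : p = q := by
  obtain ⟨w, h1, h2⟩ := h
  exact Subtype.ext ((cmp_at p h1).trans (cmp_at q h2).symm)

theorem cmp_max (K : Set ℂ) (p : Cmp K) (A : Set ℂ) (hA : IsPreconnected A) (hK : A ⊆ K)
    (h : (A ∩ p.1).Nonempty) : A ⊆ p.1 := by
  obtain ⟨w, h1, h2⟩ := h
  rw [cmp_at p h2]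
  exact hA.subset_connectedComponentIn h1 hK

theorem cmp_dich (K Q : Set ℂ) (p : Cmp K) (h : Clo K Q) : p.1 ⊆ Q ∨ p.1 ⊆ K \ Q := by
  refine isPreconnected_iff_subset_of_disjoint_closed.1 (cmp_con K p) Q (K \ Q) h.2.1 h.2.2
    (fun z hz => ?_) ?_
  · by_cases c : z ∈ Q
    · exact Or.inl c
    · exact Or.inr ⟨cmp_sub K p hz, c⟩
  · rw [inter_sdiff_self, inter_empty]

theorem cmp_clo_compl (K Q : Set ℂ) (h : Clo K Q) : Clo K (K \ Q) :=
  ⟨sdiff_subset, h.2.2, by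
    rw [sdiff_sdiff_cancel_left h.1]
    exact h.2.1⟩

theorem cmp_clo_union (K Q Q' : Set ℂ) (h : Clo K Q) (h' : Clo K Q') : Clo K (Q ∪ Q') :=
  ⟨union_subset h.1 h'.1, h.2.1.union h'.2.1, by
    rw [← sdiff_inter_sdiff]
    exact h.2.2.inter h'.2.2⟩

theorem cmp_clo_inter (K Q Q' : Set ℂ) (h : Clo K Q) (h' : Clo K Q') : Clo K (Q ∩ Q') :=
  ⟨inter_subset_left.trans h.1, h.2.1.inter h'.2.1, by
    rw [sdiff_inter]
    exact h.2.2.union h'.2.2⟩

theorem cmp_clo_diff (K Q Q' : Set ℂ) (h : Clo K Q) (h' : Clo K Q') : Clo K (Q \ Q') := by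
  have e : Q \ Q' = Q ∩ (K \ Q') :=
    Set.ext fun z => ⟨fun c => ⟨c.1, h.1 c.1, c.2⟩, fun c => ⟨c.1, c.2.2⟩⟩
  rw [e]
  exact cmp_clo_inter K _ _ h (cmp_clo_compl K Q' h')

theorem cmp_clo_open (K W : Set ℂ) (hK : IsClosed K) (hW : IsOpen W)
    (h : Disjoint (frontier W) K) : Clo K (K ∩ W) := by
  refine ⟨inter_subset_left, ?_, ?_⟩
  · have e : K ∩ W = K ∩ closure W := by
      refine Set.ext fun z => ⟨fun c => ⟨c.1, subset_closure c.2⟩, fun c => ⟨c.1, ?_⟩⟩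
      by_contra n
      exact disjoint_left.1 h (by rw [hW.frontier_eq]; exact ⟨c.2, n⟩) c.1
    rw [e]
    exact hK.inter isClosed_closure
  · rw [sdiff_self_inter]
    exact hK.sdiff hW

theorem cmp_nbhd (K : Set ℂ) (p : Cmp K) (U : Set ℂ) (hK : IsCompact K) (hU : IsOpen U)
    (hp : p.1 ⊆ U) : ∃ Q, Clo K Q ∧ p.1 ⊆ Q ∧ Q ⊆ U := by
  obtain ⟨z, hz, h⟩ := p.2
  have := isCompact_iff_compactSpace.1 hK
  rw [h, connectedComponentIn_eq_image hz] at hp ⊢
  have hc : IsClosed ((Subtype.val : K → ℂ) ⁻¹' U)ᶜ :=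
    (hU.preimage continuous_subtype_val).isClosed_compl
  have e : ((Subtype.val : K → ℂ) ⁻¹' U)ᶜ ∩
      ⋂ s : {s : Set K // IsClopen s ∧ (⟨z, hz⟩ : K) ∈ s}, s.1 = ∅ := by
    rw [← connectedComponent_eq_iInter_isClopen]
    exact eq_empty_of_forall_notMem fun w hw => hw.1 (hp ⟨w, hw.2, rfl⟩)
  obtain ⟨t, ht⟩ := hc.isCompact.elim_finite_subfamily_closed _ (fun s => s.2.1.1) e
  have c1 : IsClopen (⋂ s ∈ t, s.1) := isClopen_biInter_finset fun s _ => s.2.1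
  have c2 : (⟨z, hz⟩ : K) ∈ ⋂ s ∈ t, s.1 := mem_iInter₂.2 fun s _ => s.2.2
  generalize (⋂ s ∈ t, s.1) = S at ht c1 c2
  refine ⟨Subtype.val '' S, ⟨Subtype.coe_image_subset _ _,
    (c1.1.isCompact.image continuous_subtype_val).isClosed, ?_⟩,
    image_mono (c1.connectedComponent_subset c2), ?_⟩
  · have e2 : K \ Subtype.val '' S = Subtype.val '' Sᶜ := by
      refine Set.ext fun w => ⟨fun c => ⟨⟨w, c.1⟩, fun d => c.2 ⟨_, d, rfl⟩, rfl⟩, ?_⟩
      rintro ⟨w, c, rfl⟩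
      exact ⟨w.2, fun ⟨u, d, e3⟩ => c (Subtype.ext e3 ▸ d)⟩
    rw [e2]
    exact (c1.compl.1.isCompact.image continuous_subtype_val).isClosed
  · rintro _ ⟨w, c, rfl⟩
    by_contra n
    exact (eq_empty_iff_forall_notMem.1 ht) w ⟨n, c⟩

theorem cmp_sep (K : Set ℂ) (F : Finset (Cmp K)) (U : Cmp K → Set ℂ) (hK : IsCompact K)
    (hU : ∀ p ∈ F, IsOpen (U p) ∧ p.1 ⊆ U p) : ∃ V : Cmp K → Set ℂ,
      (∀ p ∈ F, IsOpen (V p) ∧ p.1 ⊆ V p ∧ V p ⊆ U p) ∧
      ∀ p ∈ F, ∀ q ∈ F, p ≠ q → Disjoint (V p) (V q) := by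
  have pd : (F : Set (Cmp K)).PairwiseDisjoint fun p => 𝓝ˢ p.1 := fun p _ q _ h =>
    (SeparatedNhds.of_isCompact_isCompact (cmp_cpt K p hK) (cmp_cpt K q hK)
      (disjoint_iff_inter_eq_empty.2 (not_nonempty_iff_eq_empty.1
        fun c => h (cmp_eq K p q c)))).disjoint_nhdsSet
  obtain ⟨W, h1, h2⟩ := pd.exists_mem_filter_basis F.finite_toSet fun p => hasBasis_nhdsSet p.1
  exact ⟨fun p => W p ∩ U p, fun p hp => ⟨(h1 p).1.inter (hU p hp).1,
    subset_inter (h1 p).2 (hU p hp).2, inter_subset_right⟩,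
    fun p hp q hq h => (h2 hp hq h).mono inter_subset_left inter_subset_left⟩

theorem cmp_acc (K : Set ℂ) (p : Cmp K) (U : Set ℂ) (hK : IsCompact K) (hU : IsOpen U)
    (hp : p.1 ⊆ U) : (U \ K).Nonempty := by
  by_contra n
  have hUK : U ⊆ K := sdiff_eq_empty.1 (not_nonempty_iff_eq_empty.1 n)
  obtain ⟨z, hz⟩ := cmp_ne K p
  have e : p.1 = connectedComponentIn U z := by
    refine Subset.antisymm ((cmp_con K p).subset_connectedComponentIn hz hp) ?_
    rw [cmp_at p hz]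
    exact connectedComponentIn_mono z hUK
  have c := cmp_cpt K p hK
  have cl : IsClopen p.1 := ⟨c.isClosed, by
    rw [e]
    exact hU.connectedComponentIn⟩
  exact c.ne_univ (cl.eq_univ ⟨z, hz⟩)

theorem s_cmp : S_cmp where
  sub := cmp_sub
  ne := cmp_ne
  con := cmp_con
  cpt := cmp_cpt
  mem K z hz := ⟨⟨connectedComponentIn K z, z, hz, rfl⟩, mem_connectedComponentIn hz⟩
  eq := cmp_eq
  max := cmp_max
  dich := cmp_dich
  clo_self K hK := ⟨Subset.rfl, hK, by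
    rw [sdiff_self]
    exact isClosed_empty⟩
  clo_empty K hK := ⟨empty_subset K, isClosed_empty, by rwa [sdiff_empty]⟩
  clo_compl := cmp_clo_compl
  clo_union := cmp_clo_union
  clo_inter := cmp_clo_inter
  clo_diff := cmp_clo_diff
  clo_open := cmp_clo_open
  nbhd := cmp_nbhd
  sep := cmp_sep
  acc := cmp_acc

end Vale.Agent.P116
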