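import Vale.Agent.P116.AStm

/-! Step A: compositions with Lipschitz functions, oscillation calculus. -/

open Set Filter Topology MeasureTheory Metric Complex
open scoped ENNReal NNReal

noncomputable section
namespace Vale.Agent.P116

namespace AComp

/-- The increments of `θ` are dominated by those of `a` and `b`. -/
def Dom (L : ℝ≥0) (θ a b : ℂ → ℝ) : Prop :=
  ∀ x y, |θ x - θ y| ≤ L * (|a x - a y| + |b x - b y|)

theorem dom_pr (a b : ℂ → ℝ) {Φ : ℂ → ℝ} {L : ℝ≥0} (h : LipschitzWith L Φ) :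
    Dom L (fun z => Φ (pr a b z)) a b := fun x y => by
  refine (h.dist_le_mul _ _).trans (mul_le_mul_of_nonneg_left ?_ L.coe_nonneg)
  rw [dist_eq_norm]
  exact norm_le_abs_re_add_abs_im _

theorem dom_one (a : ℂ → ℝ) {h : ℝ → ℝ} {L : ℝ≥0} (hh : LipschitzWith L h) :
    Dom L (fun z => h (a z)) a (fun _ => 0) := fun x y => by
  simpa [Real.dist_eq] using hh.dist_le_mul (a x) (a y)

theorem ev_lip {a : ℂ → ℝ} {z : ℂ} (h : DifferentiableAt ℝ a z) {δ : ℝ} (hδ : 0 < δ) :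
    ∀ᶠ x in 𝓝 z, |a x - a z| ≤ (‖fderiv ℝ a z‖ + δ) * ‖x - z‖ := by
  filter_upwards [h.hasFDerivAt.isLittleO.def hδ] with x hx
  have h1 := (fderiv ℝ a z).le_opNorm (x - z)
  have h2 := norm_add_le (a x - a z - fderiv ℝ a z (x - z)) (fderiv ℝ a z (x - z))
  rw [sub_add_cancel, Real.norm_eq_abs] at h2
  linarith

theorem Dom.fd {L : ℝ≥0} {θ a b : ℂ → ℝ} (h : Dom L θ a b) {z : ℂ} (ha : DifferentiableAt ℝ a z)
    (hb : DifferentiableAt ℝ b z) :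
    ‖fderiv ℝ θ z‖ ≤ L * (‖fderiv ℝ a z‖ + ‖fderiv ℝ b z‖) := by
  refine le_of_forall_pos_le_add fun ε hε => ?_
  have hL : (0 : ℝ) ≤ L := L.coe_nonneg
  have hδ : 0 < ε / (2 * L + 1) := by positivity
  have e : ε / (2 * L + 1) * (2 * L + 1) = ε := by field_simp
  refine norm_fderiv_le_of_lip' ℝ (by positivity) ?_
  filter_upwards [ev_lip ha hδ, ev_lip hb hδ] with x h1 h2
  refine (h x z).trans ((mul_le_mul_of_nonneg_left (add_le_add h1 h2) hL).trans ?_)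
  rw [← add_mul, ← mul_assoc]
  exact mul_le_mul_of_nonneg_right (by nlinarith) (norm_nonneg _)

theorem Dom.lip {L : ℝ≥0} {θ a b : ℂ → ℝ} (h : Dom L θ a b) {U : Set ℂ}
    (ha : LocallyLipschitzOn U a) (hb : LocallyLipschitzOn U b) : LocallyLipschitzOn U θ := by
  intro x hx
  obtain ⟨A, s, hs, h1⟩ := ha hx
  obtain ⟨B, t, ht, h2⟩ := hb hx
  refine ⟨L * (A + B), s ∩ t, inter_mem hs ht, LipschitzOnWith.of_dist_le_mul fun y hy w hw => ?_⟩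
  refine (h y w).trans ((mul_le_mul_of_nonneg_left
    (add_le_add (h1.dist_le_mul y hy.1 w hw.1) (h2.dist_le_mul y hy.2 w hw.2)) L.coe_nonneg).trans_eq ?_)
  push_cast
  ring

theorem sq_le {x y z L : ℝ} (hz : 0 ≤ z) (h : z ≤ L * (x + y)) :
    z ^ 2 ≤ 2 * L ^ 2 * (x ^ 2 + y ^ 2) := by
  have := pow_le_pow_left₀ hz h 2
  nlinarith [mul_nonneg (sq_nonneg L) (sq_nonneg (x - y))]

theorem Dom.adm (adm : S_adm) {L : ℝ≥0} {θ a b : ℂ → ℝ} (h : Dom L θ a b) {K : Set ℂ}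
    (hK : IsClosed K) (ha : Adm K a) (hb : Adm K b) :
    Adm K θ ∧ ∀ᵐ z, z ∉ K → ‖gr θ z‖ ≤ L * (‖gr a z‖ + ‖gr b z‖) := by
  have key : ∀ᵐ z, z ∉ K → ‖gr θ z‖ ≤ L * (‖gr a z‖ + ‖gr b z‖) := by
    filter_upwards [adm.dif _ a hK.isOpen_compl ha.1, adm.dif _ b hK.isOpen_compl hb.1]
      with z h1 h2 hz
    rw [adm.nrm, adm.nrm, adm.nrm]
    exact h.fd (h1 hz) (h2 hz)
  refine ⟨⟨h.lip ha.1 hb.1, fun R => ?_⟩, key⟩
  refine Integrable.mono' (((ha.2 R).add (hb.2 R)).const_mul (2 * L ^ 2))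
    ((adm.meas θ).norm.pow_const 2).aestronglyMeasurable ?_
  rw [ae_restrict_iff' (measurableSet_ball.diff hK.measurableSet)]
  filter_upwards [key] with z h1 hz
  rw [Real.norm_of_nonneg (sq_nonneg _)]
  exact sq_le (norm_nonneg _) (h1 hz.2)

theorem osc_gen {K p U : Set ℂ} {θ a b : ℂ → ℝ} {s t M N : ℝ} (hU : IsOpen U) (hp : p ⊆ U)
    (hM : 0 ≤ M) (hN : 0 ≤ N) (ha : Osc K p a s) (hb : Osc K p b t)
    (h : ∀ z ∈ U \ K, ∀ w ∈ U \ K, θ z - θ w ≤ N * |a z - a w| + M * |b z - b w|) :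
    Osc K p θ (N * s + M * t) := by
  intro ε hε
  have hδ : 0 < ε / (M + N + 1) := by positivity
  have e : ε / (M + N + 1) * (M + N + 1) = ε := by field_simp
  obtain ⟨U1, o1, p1, h1⟩ := ha _ hδ
  obtain ⟨U2, o2, p2, h2⟩ := hb _ hδ
  refine ⟨U ∩ (U1 ∩ U2), hU.inter (o1.inter o2), subset_inter hp (subset_inter p1 p2),
    fun z hz w hw => (h z ⟨hz.1.1, hz.2⟩ w ⟨hw.1.1, hw.2⟩).trans ?_⟩
  have q1 := abs_sub_le_iff.2 ⟨h1 z ⟨hz.1.2.1, hz.2⟩ w ⟨hw.1.2.1, hw.2⟩,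
    h1 w ⟨hw.1.2.1, hw.2⟩ z ⟨hz.1.2.1, hz.2⟩⟩
  have q2 := abs_sub_le_iff.2 ⟨h2 z ⟨hz.1.2.2, hz.2⟩ w ⟨hw.1.2.2, hw.2⟩,
    h2 w ⟨hw.1.2.2, hw.2⟩ z ⟨hz.1.2.2, hz.2⟩⟩
  nlinarith [mul_le_mul_of_nonneg_left q1 hN, mul_le_mul_of_nonneg_left q2 hM]

theorem Dom.osc {L : ℝ≥0} {θ a b : ℂ → ℝ} (h : Dom L θ a b) {K p : Set ℂ} {s t : ℝ}
    (ha : Osc K p a s) (hb : Osc K p b t) : Osc K p θ (L * (s + t)) := by
  rw [mul_add]
  exact osc_gen isOpen_univ (subset_univ _) L.coe_nonneg L.coe_nonneg ha hb fun z _ w _ =>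
    (le_abs_self _).trans ((h z w).trans_eq (mul_add _ _ _))

theorem clu {K p : Set ℂ} {a : ℂ → ℝ} {s : ℝ} (h : Osc K p a s) : ∃ lo, Clu K p a lo s := by
  by_cases h0 : ∃ U, IsOpen U ∧ p ⊆ U ∧ ¬ (U \ K).Nonempty
  · obtain ⟨U, h1, h2, h3⟩ := h0
    exact ⟨0, fun ε _ => ⟨U, h1, h2, fun z hz => absurd ⟨z, hz⟩ h3⟩⟩
  have hne : ∀ U, IsOpen U → p ⊆ U → (U \ K).Nonempty := fun U h1 h2 => by
    by_contra h3
    exact h0 ⟨U, h1, h2, h3⟩
  obtain ⟨U0, o0, p0, b0⟩ := h 1 one_pos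
  obtain ⟨w0, hw0⟩ := hne U0 o0 p0
  have hS : ({x : ℝ | ∃ U, IsOpen U ∧ p ⊆ U ∧ ∀ z ∈ U \ K, x ≤ a z}).Nonempty :=
    ⟨a w0 - (s + 1), U0, o0, p0, fun z hz => by linarith [b0 w0 hw0 z hz]⟩
  have hB : BddAbove {x : ℝ | ∃ U, IsOpen U ∧ p ⊆ U ∧ ∀ z ∈ U \ K, x ≤ a z} := by
    refine ⟨a w0 + (s + 1), ?_⟩
    rintro x ⟨U, o, q, hx⟩
    obtain ⟨z, hz⟩ := hne _ (o.inter o0) (subset_inter q p0)
    linarith [hx z ⟨hz.1.1, hz.2⟩, b0 z ⟨hz.1.2, hz.2⟩ w0 hw0]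
  refine ⟨sSup {x : ℝ | ∃ U, IsOpen U ∧ p ⊆ U ∧ ∀ z ∈ U \ K, x ≤ a z}, fun ε hε => ?_⟩
  obtain ⟨x, ⟨U1, o1, p1, h1⟩, hx⟩ := exists_lt_of_lt_csSup hS (sub_lt_self _ hε)
  obtain ⟨U2, o2, p2, h2⟩ := h ε hε
  refine ⟨U1 ∩ U2, o1.inter o2, subset_inter p1 p2, fun z hz =>
    ⟨hx.le.trans (h1 z ⟨hz.1.1, hz.2⟩), ?_⟩⟩
  have := le_csSup hB (a := a z - (s + ε))
    ⟨U2, o2, p2, fun w hw => by linarith [h2 z ⟨hz.1.2, hz.2⟩ w hw]⟩
  linarith

theorem cluo {K p : Set ℂ} {a : ℂ → ℝ} {h : ℝ → ℝ} {lo s : ℝ} (ha : Clu K p a lo s)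
    (hc : Continuous h) (hm : Monotone h) : Osc K p (fun z => h (a z)) (h (lo + s) - h lo) := by
  intro ε hε
  have h1 : Continuous fun δ : ℝ => h (lo + s + δ) - h (lo - δ) := by fun_prop
  have h2 := (h1.tendsto 0).eventually (gt_mem_nhds (a := h (lo + s) - h lo + ε) (by simpa))
  obtain ⟨δ, d1, d2⟩ := ((h2.filter_mono nhdsWithin_le_nhds).and
    (self_mem_nhdsWithin (s := Ioi 0))).exists
  obtain ⟨U, o, q, hU⟩ := ha δ d2
  exact ⟨U, o, q, fun z hz w hw => (sub_le_sub (hm (hU z hz).2) (hm (hU w hw).1)).trans d1.le⟩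

theorem bdd (cmp : S_cmp) {K T : Set ℂ} {θ : ℂ → ℝ} {s : Cmp K → ℝ} (hK : IsCompact K)
    (hT : Clo K T) (h : Good K T θ s) :
    ∃ U M, IsOpen U ∧ T ⊆ U ∧ ∀ z ∈ U \ K, |θ z| ≤ M := by
  refine (hK.of_isClosed_subset hT.2.1 hT.1).induction_on
    (p := fun T => ∃ U M, IsOpen U ∧ T ⊆ U ∧ ∀ z ∈ U \ K, |θ z| ≤ M)
    ⟨∅, 0, isOpen_empty, Subset.rfl, fun z hz => hz.1.elim⟩ ?_ ?_ ?_
  · rintro A B hAB ⟨U, M, h1, h2, h3⟩
    exact ⟨U, M, h1, hAB.trans h2, h3⟩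
  · rintro A B ⟨U, M, h1, h2, h3⟩ ⟨U', M', h1', h2', h3'⟩
    exact ⟨U ∪ U', max M M', h1.union h1', union_subset_union h2 h2', fun z hz => hz.1.elim
      (fun q => (h3 z ⟨q, hz.2⟩).trans (le_max_left _ _))
      fun q => (h3' z ⟨q, hz.2⟩).trans (le_max_right _ _)⟩
  · intro x hx
    obtain ⟨p, hp⟩ := cmp.mem K x (hT.1 hx)
    obtain ⟨U, o, q, hU⟩ := h.2.2 p ((cmp.dich K T p hT).resolve_right fun q => (q hp).2 hx) 1
      one_pos
    refine ⟨U, mem_nhdsWithin_of_mem_nhds (o.mem_nhds (q hp)), U, ?_⟩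
    rcases (U \ K).eq_empty_or_nonempty with e | ⟨w, hw⟩
    · exact ⟨0, o, Subset.rfl, fun z hz => (e ▸ hz : z ∈ (∅ : Set ℂ)).elim⟩
    · refine ⟨|θ w| + (s p + 1), o, Subset.rfl, fun z hz => abs_le.2 ⟨?_, ?_⟩⟩
      · linarith [hU w hw z hz, neg_abs_le (θ w)]
      · linarith [hU z hz w hw, le_abs_self (θ w)]

theorem gr_sub (adm : S_adm) {a b : ℂ → ℝ} {z : ℂ} (ha : DifferentiableAt ℝ a z)
    (hb : DifferentiableAt ℝ b z) : ‖gr (a - b) z‖ ≤ ‖gr a z‖ + ‖gr b z‖ ∧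
      ‖gr a z‖ ≤ ‖gr (a - b) z‖ + ‖gr b z‖ := by
  rw [adm.nrm, adm.nrm, adm.nrm, fderiv_sub ha hb]
  exact ⟨norm_sub_le _ _, norm_le_norm_sub_add _ _⟩

theorem close (adm : S_adm) {K : Set ℂ} {a b a' b' f f' : ℂ → ℝ} {L : ℝ≥0} {ε : ℝ}
    (hK : IsCompact K) (ha : Adm K a) (hb : Adm K b) (ha' : Adm K a') (hb' : Adm K b')
    (hf : Dom L f a b) (hf' : Dom L f' a' b') (ea : ∀ z, z ∉ thickening ε K → a' z = a z)
    (eb : ∀ z, z ∉ thickening ε K → b' z = b z) (ef : ∀ z, z ∉ thickening ε K → f' z = f z) :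
    en Kᶜ (f' - f) ≤ 12 * L ^ 2 * (en Kᶜ (a' - a) + en Kᶜ (b' - b) +
      en (thickening ε K \ K) a + en (thickening ε K \ K) b) := by
  have hc := hK.isClosed
  have ho := hc.isOpen_compl
  have hm : MeasurableSet (thickening ε K) := isOpen_thickening.measurableSet
  obtain ⟨R, hR⟩ := (hK.isBounded.thickening (δ := ε)).subset_ball 0
  have hout : ∀ z : ℂ, R ≤ ‖z‖ → z ∉ thickening ε K := fun z hz h =>
    absurd (mem_ball_zero_iff.1 (hR h)) (not_lt.2 hz)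
  have i1 := adm.glob K _ R hc (adm.sub K _ _ hc ha' ha) fun z hz => sub_eq_zero.2 (ea z (hout z hz))
  have i2 := adm.glob K _ R hc (adm.sub K _ _ hc hb' hb) fun z hz => sub_eq_zero.2 (eb z (hout z hz))
  have i3 : ∀ {c : ℂ → ℝ}, Adm K c →
      IntegrableOn ((thickening ε K).indicator fun z => ‖gr c z‖ ^ 2) Kᶜ ∧
      en (thickening ε K \ K) c = ∫ z in Kᶜ, (thickening ε K).indicator (fun z => ‖gr c z‖ ^ 2) z := by
    intro c h
    rw [setIntegral_indicator hm, ← sdiff_eq_compl_inter, IntegrableOn,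
      integrable_indicator_iff hm, IntegrableOn, Measure.restrict_restrict hm]
    exact ⟨(h.2 R).mono_set (sdiff_subset_sdiff_left hR), rfl⟩
  obtain ⟨f1, f2⟩ := hf.adm adm hc ha hb
  obtain ⟨g1, g2⟩ := hf'.adm adm hc ha' hb'
  rw [(i3 ha).2, (i3 hb).2, en, en, en, ← integral_add' i1 i2,
    ← integral_add' (i1.add i2) (i3 ha).1, ← integral_add' ((i1.add i2).add (i3 ha).1) (i3 hb).1,
    ← integral_const_mul]
  refine integral_mono_of_nonneg (ae_of_all _ fun z => sq_nonneg _)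
    ((((i1.add i2).add (i3 ha).1).add (i3 hb).1).const_mul _) ?_
  rw [EventuallyLE, ae_restrict_iff' hc.measurableSet.compl]
  filter_upwards [f2, g2, adm.dif _ _ ho ha.1, adm.dif _ _ ho hb.1, adm.dif _ _ ho ha'.1,
    adm.dif _ _ ho hb'.1, adm.dif _ _ ho f1.1, adm.dif _ _ ho g1.1,
    adm.zero _ _ ho (adm.sub K _ _ hc g1 f1).1] with z p1 p2 d1 d2 d3 d4 d5 d6 p3 hz
  simp only [Pi.add_apply]
  by_cases h : z ∈ thickening ε K
  · rw [indicator_of_mem h, indicator_of_mem h]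
    have q1 := (gr_sub adm (d6 hz) (d5 hz)).1
    have q2 := (gr_sub adm (d3 hz) (d1 hz)).2
    have q3 := (gr_sub adm (d4 hz) (d2 hz)).2
    have q4 : ‖gr (f' - f) z‖ ≤
        L * (‖gr (a' - a) z‖ + ‖gr (b' - b) z‖ + 2 * ‖gr a z‖ + 2 * ‖gr b z‖) := by
      have := mul_le_mul_of_nonneg_left (add_le_add q2 q3) L.coe_nonneg
      linarith [p1 hz, p2 hz]
    refine (pow_le_pow_left₀ (norm_nonneg _) q4 2).trans ?_
    rw [mul_pow, mul_comm (12 : ℝ), mul_assoc]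
    refine mul_le_mul_of_nonneg_left ?_ (sq_nonneg _)
    generalize ‖gr (a' - a) z‖ = x, ‖gr (b' - b) z‖ = y, ‖gr a z‖ = u, ‖gr b z‖ = v
    nlinarith [sq_nonneg (x - y), sq_nonneg (2 * x - u), sq_nonneg (2 * x - v),
      sq_nonneg (2 * y - u), sq_nonneg (2 * y - v), sq_nonneg (u - v), sq_nonneg x, sq_nonneg y,
      sq_nonneg u, sq_nonneg v]
  · rw [indicator_of_notMem h, indicator_of_notMem h, p3 hz (sub_eq_zero.2 (ef z h))]
    simp only [norm_zero, ne_eq, OfNat.ofNat_ne_zero, not_false_eq_true, zero_pow, add_zero]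
    positivity

end AComp

open AComp in
theorem s_comp (cmp : S_cmp) (adm : S_adm) : S_comp where
  adm K a b Φ L hK ha hb h := by
    obtain ⟨h1, h2⟩ := (dom_pr a b h).adm adm hK ha hb
    exact ⟨h1, h2.mono fun z hz q => sq_le (norm_nonneg _) (hz q)⟩
  adm1 K a h L hK ha hh := by
    obtain ⟨h1, h2⟩ := (dom_one a hh).adm adm hK ha (adm.c1 K _ hK contDiff_const)
    refine ⟨h1, h2.mono fun z hz q => ?_⟩
    simpa [adm.nrm] using hz q
  osc K p a b Φ L s t ha hb h := (dom_pr a b h).osc ha hb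
  osc1 K p a h L s ha hh := by
    have := (dom_one a hh).osc (t := 0) ha fun ε hε =>
      ⟨univ, isOpen_univ, subset_univ _, fun _ _ _ _ => by simpa using hε.le⟩
    rwa [add_zero] at this
  oadd K p a b s t ha hb := by
    have key : ∀ θ, Dom 1 θ a b → Osc K p θ (s + t) := fun θ h => by simpa using h.osc ha hb
    refine ⟨key _ fun x y => ?_, key _ fun x y => ?_⟩
    · rw [Pi.add_apply, Pi.add_apply, add_sub_add_comm, NNReal.coe_one, one_mul]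
      exact abs_add_le _ _
    · rw [Pi.sub_apply, Pi.sub_apply, sub_sub_sub_comm, NNReal.coe_one, one_mul]
      exact abs_sub _ _
  omul K p U a b s t M N hU hp hM hN ha hb h1 h2 :=
    osc_gen hU hp hM hN ha hb fun z hz w hw => by
      have e : a z * b z - a w * b w = b z * (a z - a w) + a w * (b z - b w) := by ring
      have q1 := (le_abs_self _).trans ((abs_mul (b z) (a z - a w)).trans_le
        (mul_le_mul_of_nonneg_right (h2 z hz) (abs_nonneg _)))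
      have q2 := (le_abs_self _).trans ((abs_mul (a w) (b z - b w)).trans_le
        (mul_le_mul_of_nonneg_right (h1 w hw) (abs_nonneg _)))
      linarith
  clu K p a s _ h := clu h
  cluo K p a h lo s _ ha hc hm := cluo ha hc hm
  bdd K T θ s hK hT h := bdd cmp hK hT h
  close K a b a' b' Φ L ε hK ha hb ha' hb' h ea eb :=
    close adm hK ha hb ha' hb' (dom_pr a b h) (dom_pr a' b' h) ea eb fun z hz => by
      simp only [pr, ea z hz, eb z hz]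

end Vale.Agent.P116
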