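import Vale.Agent.P116.AStm2

/-! Step A: completeness. -/

open Set Filter Topology MeasureTheory Metric Complex
open scoped ENNReal NNReal

noncomputable section
namespace Vale.Agent.P116

theorem acompl_fatou {μ : Measure ℂ} {F : ℕ → ℂ → ℝ} {G : ℂ → ℝ} {ε : ℝ} (hε : 0 ≤ ε)
    (hF : ∀ m, Integrable (F m) μ) (h0 : ∀ m x, 0 ≤ F m x)
    (hl : ∀ᵐ x ∂μ, Tendsto (fun m => F m x) atTop (𝓝 (G x)))
    (hb : ∀ᶠ m in atTop, ∫ x, F m x ∂μ ≤ ε) : Integrable G μ ∧ ∫ x, G x ∂μ ≤ ε := by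
  have hm : AEStronglyMeasurable G μ :=
    aestronglyMeasurable_of_tendsto_ae atTop (fun m => (hF m).1) hl
  have hG : 0 ≤ᵐ[μ] G := hl.mono fun x hx => ge_of_tendsto' hx fun m => h0 m x
  have h1 : ∫⁻ x, ENNReal.ofReal (G x) ∂μ ≤ ENNReal.ofReal ε := by
    calc ∫⁻ x, ENNReal.ofReal (G x) ∂μ
        = ∫⁻ x, liminf (fun m => ENNReal.ofReal (F m x)) atTop ∂μ :=
          lintegral_congr_ae (hl.mono fun x hx =>
            ((ENNReal.tendsto_ofReal hx).liminf_eq).symm)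
      _ ≤ liminf (fun m => ∫⁻ x, ENNReal.ofReal (F m x) ∂μ) atTop :=
          lintegral_liminf_le' fun m => (hF m).1.aemeasurable.ennreal_ofReal
      _ ≤ ENNReal.ofReal ε := by
          refine liminf_le_of_frequently_le' (Eventually.frequently (hb.mono fun m hm => ?_))
          rw [← ofReal_integral_eq_lintegral_ofReal (hF m) (ae_of_all _ (h0 m))]
          exact ENNReal.ofReal_le_ofReal hm
  have h2 : Integrable G μ :=
    (lintegral_ofReal_ne_top_iff_integrable hm hG).1 (ne_top_of_le_ne_top ENNReal.ofReal_ne_top h1)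
  refine ⟨h2, ?_⟩
  rw [← ofReal_integral_eq_lintegral_ofReal h2 hG] at h1
  exact (ENNReal.ofReal_le_ofReal_iff hε).1 h1

theorem acompl_sum {ι : Type} {F : ℕ → ι → ℝ} {G : ι → ℝ} {ε : ℝ}
    (hF : ∀ m, Summable (F m)) (h0 : ∀ m x, 0 ≤ F m x)
    (hl : ∀ x, Tendsto (fun m => F m x) atTop (𝓝 (G x)))
    (hb : ∀ᶠ m in atTop, ∑' x, F m x ≤ ε) : Summable G ∧ ∑' x, G x ≤ ε := by
  have hG : ∀ x, 0 ≤ G x := fun x => ge_of_tendsto' (hl x) fun m => h0 m x
  have h1 : ∀ s : Finset ι, ∑ x ∈ s, G x ≤ ε := fun s =>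
    le_of_tendsto (tendsto_finsetSum s fun x _ => hl x) (hb.mono fun m hm =>
      ((hF m).sum_le_tsum s fun x _ => h0 m x).trans hm)
  have h2 : Summable G := summable_of_sum_le hG h1
  exact ⟨h2, h2.tsum_le_of_sum_le h1⟩

theorem acompl_sm {K : Set ℂ} (s : Cmp K → ℝ) : sm K s s = ∑' p, s p ^ 2 := by
  unfold sm
  refine tsum_congr fun p => ?_
  obtain ⟨z, _, hz⟩ := p.2
  have : p.1 ⊆ K := hz ▸ connectedComponentIn_subset K z
  rw [if_pos this, pow_two]

theorem acompl_sqrt {M ε x : ℝ} (hM : 0 ≤ M) (hε : 0 < ε) (hx : x ≤ (ε / (M + 1)) ^ 2) :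
    M * √x < ε := by
  have h1 : √x ≤ ε / (M + 1) := Real.sqrt_le_iff.2 ⟨by positivity, hx⟩
  have h2 : M * √x ≤ M * (ε / (M + 1)) := mul_le_mul_of_nonneg_left h1 hM
  have h3 : (M + 1) * (ε / (M + 1)) = ε := by field_simp
  have h4 : 0 < ε / (M + 1) := by positivity
  nlinarith

theorem s_compl (sm : S_sm) (hol : S_hol) (lu : S_lu) (d2 : S_d2) : S_compl := by
  intro K z₀ c f ρ hK hz hf hC
  have hU : IsOpen Kᶜ := hK.cpt.isClosed.isOpen_compl
  have uc : ∀ C, IsCompact C → C ⊆ Kᶜ → UniformCauchySeqOn f atTop C := by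
    intro C h1 h2
    obtain ⟨M, hM, hb⟩ := d2.sup lu K C z₀ hK hz h1 h2
    rw [Metric.uniformCauchySeqOn_iff]
    intro ε hε
    obtain ⟨N, hN⟩ := hC ((ε / (M + 1)) ^ 2) (by positivity)
    refine ⟨N, fun m hm n hn x hx => ?_⟩
    rw [dist_eq_norm]
    exact (hb c (f m) (f n) (ρ m) (ρ n) (hf m).1 (hf n).1 (hf m).2.1 (hf n).2.1 x hx).trans_lt
      (acompl_sqrt hM hε (hN m hm n hn))
  set g : ℂ → ℂ := fun z => limUnder atTop fun n => f n z with hg
  have pt : ∀ z ∈ Kᶜ, Tendsto (fun n => f n z) atTop (𝓝 (g z)) := fun z h =>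
    ((uc {z} isCompact_singleton (singleton_subset_iff.2 h)).cauchySeq
      (mem_singleton z)).tendsto_limUnder
  have tl : TendstoLocallyUniformlyOn f g atTop Kᶜ :=
    (tendstoLocallyUniformlyOn_iff_forall_isCompact hU).2 fun C h2 h1 =>
      (uc C h1 h2).tendstoUniformlyOn_of_tendsto fun x hx => pt x (h2 hx)
  have hd : ∀ᶠ n in atTop, DifferentiableOn ℂ (f n) Kᶜ := Eventually.of_forall fun n => (hf n).1.1
  have gd : DifferentiableOn ℂ g Kᶜ := tl.differentiableOn hd hU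
  have pd : ∀ z ∈ Kᶜ, Tendsto (fun n => deriv (f n) z) atTop (𝓝 (deriv g z)) := fun z h =>
    (tl.deriv hd hU).tendsto_at h
  have cρ : ∀ p, CauchySeq fun n => ρ n p := by
    intro p
    rw [Metric.cauchySeq_iff]
    intro ε hε
    obtain ⟨N, hN⟩ := hC ((ε / (1 + 1)) ^ 2) (by positivity)
    refine ⟨N, fun m hm n hn => ?_⟩
    rw [Real.dist_eq]
    have h1 := d2.pt K (f m) (f n) (ρ m) (ρ n) p (hf m).2.2 (hf n).2.2
    have h2 := acompl_sqrt zero_le_one hε (hN m hm n hn)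
    linarith
  set σ : Cmp K → ℝ := fun p => limUnder atTop fun n => ρ n p with hσ
  have pσ : ∀ p, Tendsto (fun n => ρ n p) atTop (𝓝 (σ p)) := fun p => (cρ p).tendsto_limUnder
  have key : ∀ ε > 0, ∃ N, ∀ n ≥ N,
      (IntegrableOn (fun z => ‖deriv (f n) z - deriv g z‖ ^ 2) Kᶜ ∧
        ∫ z in Kᶜ, ‖deriv (f n) z - deriv g z‖ ^ 2 ≤ ε) ∧
      (Summable (fun p => (ρ n - σ) p ^ 2) ∧ ∑' p, (ρ n - σ) p ^ 2 ≤ ε) := by
    intro ε hε
    obtain ⟨N, hN⟩ := hC ε hε
    refine ⟨N, fun n hn => ⟨?_, ?_⟩⟩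
    · refine acompl_fatou (F := fun m z => ‖deriv (f n) z - deriv (f m) z‖ ^ 2) hε.le
        (fun m => (hol.sub K c (f n) (f m) hK.cpt.isClosed (hf n).1 (hf m).1).2.1)
        (fun m x => by positivity) ?_ ?_
      · filter_upwards [ae_restrict_mem hU.measurableSet] with z h
        exact ((tendsto_const_nhds.sub (pd z h)).norm).pow 2
      · filter_upwards [eventually_ge_atTop N] with m hm
        have h1 := hN n hn m hm
        have h2 := sm.nonneg K K (ρ n - ρ m)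
        unfold Vale.Agent.P116.d2 at h1
        linarith
    · refine acompl_sum (F := fun m p => (ρ n - ρ m) p ^ 2)
        (fun m => (sm.sqadd K (ρ n) (ρ m) (hf n).2.2.2 (hf m).2.2.2).2)
        (fun m x => by positivity) (fun p => (tendsto_const_nhds.sub (pσ p)).pow 2) ?_
      filter_upwards [eventually_ge_atTop N] with m hm
      have h1 := hN n hn m hm
      have h2 : 0 ≤ ∫ z in Kᶜ, ‖deriv (f n) z - deriv (f m) z‖ ^ 2 :=
        integral_nonneg fun z => by positivity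
      unfold Vale.Agent.P116.d2 at h1
      rw [acompl_sm] at h1
      linarith
  obtain ⟨N, hN⟩ := key 1 one_pos
  obtain ⟨⟨i1, _⟩, s1, _⟩ := hN N le_rfl
  refine ⟨g, σ, ⟨gd, ?_⟩, ?_, ⟨fun p => ge_of_tendsto' (pσ p) fun n => (hf n).2.2.1 p, ?_⟩, ?_⟩
  · refine Integrable.mono' ((i1.add (hf N).1.2).const_mul 2)
      (((measurable_deriv g).sub_const c).norm.pow_const 2).aestronglyMeasurable
      (ae_of_all _ fun z => ?_)
    rw [Real.norm_eq_abs, abs_of_nonneg (by positivity)]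
    have h1 : ‖deriv g z - c‖ ≤ ‖deriv (f N) z - deriv g z‖ + ‖deriv (f N) z - c‖ := by
      rw [norm_sub_rev (deriv (f N) z) (deriv g z)]
      exact norm_sub_le_norm_sub_add_norm_sub _ _ _
    have h2 := pow_le_pow_left₀ (norm_nonneg _) h1 2
    simp only [Pi.add_apply]
    nlinarith [sq_nonneg (‖deriv (f N) z - deriv g z‖ - ‖deriv (f N) z - c‖)]
  · have h1 := pt z₀ hz
    simp only [fun n => (hf n).2.1] at h1
    exact tendsto_nhds_unique h1 tendsto_const_nhds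
  · have h1 := (sm.sqadd K (ρ N) (ρ N - σ) (hf N).2.2.2 s1).2
    simpa using h1
  · rw [Metric.tendsto_atTop]
    intro ε hε
    obtain ⟨N', hN'⟩ := key (ε / 3) (by positivity)
    refine ⟨N', fun n hn => ?_⟩
    obtain ⟨⟨_, a1⟩, _, a2⟩ := hN' n hn
    rw [Real.dist_eq, sub_zero, abs_of_nonneg (d2.nonneg _ _ _ _ _)]
    unfold Vale.Agent.P116.d2
    rw [acompl_sm]
    linarith

end Vale.Agent.P116
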