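import Vale.Agent.P116.AStm2

/-! Step A (square domains): the core of the density step. -/

open Set Filter Topology MeasureTheory Metric Complex
open scoped ENNReal NNReal

noncomputable section
namespace Vale.Agent.P116

theorem core_small {F : ℝ → ℝ} (hF : Continuous F) (h0 : F 0 = 0) {c : ℝ} (hc : 0 < c) :
    ∀ᶠ ε in 𝓝[>] (0 : ℝ), F ε ≤ c := by
  have h : Tendsto F (𝓝[>] 0) (𝓝 0) := by
    have := (hF.tendsto 0).mono_left (nhdsWithin_le_nhds (s := Ioi 0))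
    rwa [h0] at this
  exact h.eventually (eventually_le_nhds hc)

theorem core_large {F : ℝ → ℝ} (hF : Continuous F) (h0 : F 0 = 0) (C : ℝ) {c : ℝ} (hc : 0 < c) :
    ∀ᶠ N : ℕ in atTop, F (C / N) ≤ c := by
  have h : Tendsto (fun N : ℕ => F (C / N)) atTop (𝓝 0) := by
    have := (hF.tendsto 0).comp (tendsto_const_div_atTop_nhds_zero_nat C)
    rwa [h0] at this
  exact h.eventually (eventually_le_nhds hc)

theorem core_pig {N : ℕ} (hN : 0 < N) (F : ℕ → ℝ) {B : ℝ} (h : ∑ k ∈ Finset.range N, F k ≤ B) :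
    ∃ k, F k ≤ B / N := by
  have hN' : (0 : ℝ) < N := by exact_mod_cast hN
  obtain ⟨k, -, hk⟩ := Finset.exists_le_of_sum_le (s := Finset.range N) (f := F)
    (g := fun _ => B / N) ⟨0, Finset.mem_range.2 hN⟩ (by
      rw [Finset.sum_const, Finset.card_range, nsmul_eq_mul, mul_div_cancel₀ _ hN'.ne']
      exact h)
  exact ⟨k, hk⟩

theorem core_const {h : ℝ → ℝ} (hh : Differentiable ℝ h) {a b : ℝ}
    (h1 : ∀ x, a ≤ x → x ≤ b → deriv h x = 1) :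
    ∀ y ∈ Icc a b, ∀ y' ∈ Icc a b, y - h y = y' - h y' := by
  have key := constant_of_has_deriv_right_zero (f := fun y => y - h y) (a := a) (b := b)
    (continuous_id.sub hh.continuous).continuousOn (fun x hx => by
      have h2 := (hasDerivAt_id x).sub (hh x).hasDerivAt
      rw [h1 x hx.1 hx.2.le, sub_self] at h2
      exact h2.hasDerivWithinAt)
  intro y hy y' hy'
  exact (key y hy).trans (key y' hy').symm

theorem core_beta {h b : ℝ → ℝ} {x l Λ : ℝ} (hΛ : 0 ≤ Λ) (h0 : ∀ y, 0 ≤ deriv h y)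
    (h1 : ∀ y, x ≤ y → y ≤ x + l → deriv h y = 1) (b0 : ∀ y ≤ 0, b y = 0)
    (b1 : ∀ y, l ≤ y → b y = 1) (b2 : ∀ y, 0 ≤ deriv b y ∧ deriv b y ≤ Λ) (y : ℝ) :
    0 ≤ deriv (fun y => b (y - x)) y ∧ deriv (fun y => b (y - x)) y ≤ Λ * deriv h y := by
  rw [deriv_comp_sub_const]
  refine ⟨(b2 _).1, ?_⟩
  rcases lt_or_ge y x with hy | hy
  · have e : b =ᶠ[𝓝 (y - x)] fun _ => 0 := by
      filter_upwards [Iio_mem_nhds (sub_neg.2 hy)] with t ht using b0 t (le_of_lt ht)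
    rw [e.deriv_eq, deriv_const]
    exact mul_nonneg hΛ (h0 y)
  rcases lt_or_ge (x + l) y with hy' | hy'
  · have e : b =ᶠ[𝓝 (y - x)] fun _ => 1 := by
      filter_upwards [Ioi_mem_nhds (show l < y - x by linarith)] with t ht using b1 t (le_of_lt ht)
    rw [e.deriv_eq, deriv_const]
    exact mul_nonneg hΛ (h0 y)
  · rw [h1 y hy hy', mul_one]
    exact (b2 _).2

theorem core_sm_nonneg {K : Set ℂ} (T : Set ℂ) {s t : Cmp K → ℝ} (hs : Sq s) (ht : Sq t) :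
    0 ≤ sm T s t := by
  refine tsum_nonneg fun p => ?_
  split_ifs
  · exact mul_nonneg (hs.1 p) (ht.1 p)
  · exact le_rfl

theorem core_sq_le {a b B : ℝ} (ha : a ≤ B) (hb : b ≤ B) (hB : 0 ≤ B) : √a * √b ≤ B := by
  calc √a * √b ≤ √B * √B :=
        mul_le_mul (Real.sqrt_le_sqrt ha) (Real.sqrt_le_sqrt hb) (Real.sqrt_nonneg _)
          (Real.sqrt_nonneg _)
    _ = B := Real.mul_self_sqrt hB

theorem core_tot (L : Lib) {K T : Set ℂ} {s ρ : Cmp K → ℝ} (hs : Sq s) (hρ : Sq ρ) {B : ℝ}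
    (h1 : sm T (s - ρ) (s - ρ) ≤ B) (h2 : sm T ρ ρ ≤ B) : sm T s ρ ≤ 2 * B ∧ sm T s s ≤ 4 * B := by
  have hB : 0 ≤ B := (L.sm.nonneg K T ρ).trans h2
  have hd := (L.sm.sqadd K s ρ hs.2 hρ.2).2
  have e1 := (L.sm.add K T s ρ ρ hs.2 hρ.2 hρ.2).2
  have e2 := (L.sm.add K T s ρ s hs.2 hρ.2 hs.2).2
  have e3 := (L.sm.add K T s ρ (s - ρ) hs.2 hρ.2 hd).2
  have c1 := (abs_le.1 ((L.sm.cs K T (s - ρ) ρ hd hρ.2).trans (core_sq_le h1 h2 hB))).2
  have e4 := L.sm.comm K T (s - ρ) s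
  have e5 := L.sm.comm K T (s - ρ) ρ
  have e6 := L.sm.comm K T s ρ
  constructor <;> linarith

theorem core_osc {K p : Set ℂ} {θ : ℂ → ℝ} {t t' : ℝ} (h : Osc K p θ t) (ht : t ≤ t') :
    Osc K p θ t' := by
  intro ε hε
  obtain ⟨U, h1, h2, h3⟩ := h ε hε
  exact ⟨U, h1, h2, fun z hz w hw => (h3 z hz w hw).trans (by linarith)⟩

theorem core_supp {K Q : Set ℂ} {χ : ℂ → ℝ} (hK : IsCompact K) (h : Cut K Q χ) :
    MeasurableSet (tsupport χ \ K) ∧ tsupport χ \ K ⊆ Kᶜ ∧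
      Bornology.IsBounded (tsupport χ \ K) :=
  ⟨(isClosed_tsupport χ).measurableSet.diff hK.measurableSet, fun _ hz => hz.2,
    h.2.1.isCompact.isBounded.subset sdiff_subset⟩

theorem core_meas {K S : Set ℂ} {φ : ℂ → ℝ} (h : Adm K φ) (hS : MeasurableSet S) (hK : S ⊆ Kᶜ) :
    AEMeasurable φ (volume.restrict S) :=
  (h.1.continuousOn.mono hK).aemeasurable hS

/-- The blocking bound. -/
theorem core_blk (L : Lib) (est : S_est) {K Q A : Set ℂ} {c : ℂ} {f g : ℂ → ℂ}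
    {ρ τ s o : Cmp K → ℝ} {χ φ : ℂ → ℝ} {h β : ℝ → ℝ} {Λ ε e a d : ℝ} (hK : IsCompact K)
    (hQ : Clo K Q) (hχ : Cut K Q χ) (hf : Hol K c f) (hg : Hol K c g) (hρ : Sq ρ) (hτ : Sq τ)
    (hx : Apx K K (ru f) ρ ε φ s) (hh : ContDiff ℝ 2 h)
    (hh' : ∀ x, 0 ≤ deriv h x ∧ deriv h x ≤ 1) (hβ : ContDiff ℝ 1 β) (hΛ : 0 ≤ Λ)
    (hβ' : ∀ x, 0 ≤ deriv β x ∧ deriv β x ≤ Λ * deriv h x) (ho : Sq o) (hos : ∀ p, o p ≤ s p)
    (a1 : ∫ z in tsupport χ \ K, deriv h (φ z) * ‖gr (ru f) z‖ ^ 2 ≤ a) (a2 : sm Q o s ≤ a)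
    (a3 : sm Q o ρ ≤ a) (hd : d2 K f ρ g τ ≤ d) (he : en (tsupport χ \ K) (ru f) ≤ e) :
    (∫ z in Kᶜ, χ z * |wd (fun z => β (φ z)) (ru g) z|) + sm (Q \ A) (fun p => Λ * o p) τ ≤
      Λ * (√ε * (√e + √d) + 2 * (√a * √d) + a) := by
  have af := (L.hol.adm K c f hK.isClosed hf).1
  have ag := (L.hol.adm K c g hK.isClosed hg).1
  obtain ⟨m1, m2, m3⟩ := core_supp hK hχ
  have i1 : IntegrableOn (fun z => ‖gr (φ - ru f) z‖ ^ 2) Kᶜ := by
    obtain ⟨R, hR⟩ := (hK.isBounded.thickening (δ := ε)).subset_ball (0 : ℂ)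
    refine L.adm.glob K _ R hK.isClosed (L.adm.sub K _ _ hK.isClosed hx.1.1 af) fun z hz => ?_
    have : z ∉ thickening ε K := fun hz' => by
      have := hR hz'
      rw [mem_ball_zero_iff] at this
      linarith
    rw [Pi.sub_apply, hx.2.1 z this, sub_self]
  have i2 := (L.hol.sub K c f g hK.isClosed hf hg).2.2.1
  have b1 := est.int K Q χ φ (ru f) (ru g) β (deriv h) Λ hK hQ hχ hx.1.1 af ag i1 i2 hβ
    (hh.continuous_deriv (by norm_num)) hh' hΛ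
    (fun x => by rw [abs_of_nonneg (hβ' x).1]; exact (hβ' x).2)
  obtain ⟨n1, -, n2, -⟩ := L.d2.enl K _ c f g ρ τ hK.isClosed hf hg m1 m2 m3
  have sd := Real.sqrt_le_sqrt hd
  have t1 : √(en Kᶜ (φ - ru f)) * √(en (tsupport χ \ K) (ru g)) ≤ √ε * (√e + √d) :=
    mul_le_mul (Real.sqrt_le_sqrt hx.2.2.1)
      (n1.trans (add_le_add (Real.sqrt_le_sqrt he) sd)) (Real.sqrt_nonneg _) (Real.sqrt_nonneg _)
  have t2 : √(∫ z in tsupport χ \ K, deriv h (φ z) * ‖gr (ru f) z‖ ^ 2) *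
      √(en Kᶜ (ru f - ru g)) ≤ √a * √d :=
    mul_le_mul (Real.sqrt_le_sqrt a1) (Real.sqrt_le_sqrt (n2.trans hd)) (Real.sqrt_nonneg _)
      (Real.sqrt_nonneg _)
  have s1 : sm (Q \ A) o τ ≤ sm Q o τ :=
    L.sm.mono K _ _ o τ o τ ho hτ ho hτ sdiff_subset fun _ _ => le_rfl
  have hdf := (L.sm.sqadd K ρ τ hρ.2 hτ.2).2
  have s2 := (L.sm.add K Q ρ τ o hρ.2 hτ.2 ho.2).2
  have s3 := (abs_le.1 (L.sm.cs K Q (ρ - τ) o hdf ho.2)).1
  have s4 : sm Q o o ≤ a := (L.sm.mono K Q Q o o o s ho ho ho hx.1.2.1 subset_rfl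
    fun p _ => mul_le_mul_of_nonneg_left (hos p) (ho.1 p)).trans a2
  have s5 := (L.d2.sml K Q f g ρ τ hρ hτ hQ.1).2
  have t3 : √(sm Q (ρ - τ) (ρ - τ)) * √(sm Q o o) ≤ √d * √a :=
    mul_le_mul (Real.sqrt_le_sqrt (s5.trans hd)) (Real.sqrt_le_sqrt s4) (Real.sqrt_nonneg _)
      (Real.sqrt_nonneg _)
  have e1 := L.sm.comm K Q ρ o
  have e2 := L.sm.comm K Q τ o
  have s6 : sm (Q \ A) o τ ≤ a + √a * √d := by linarith
  rw [L.sm.smul]
  have t4 := mul_le_mul_of_nonneg_left s6 hΛ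
  have t5 := mul_le_mul_of_nonneg_left (add_le_add t1 t2) hΛ
  linarith

/-- The choice of the index. -/
theorem core_sel (L : Lib) (G : Geo) (est : S_est) {K K₁ : Set ℂ} {z₀ c : ℂ} {f : ℂ → ℂ}
    {ρ s lo : Cmp K → ℝ} {χ₀ χ₁ φ : ℂ → ℝ} {h : ℕ → ℝ → ℝ} {N : ℕ} {ε e E : ℝ} (hN : 0 < N)
    (hb : Base K z₀ c) (hf : Pre K z₀ c f ρ) (hχ₀ : Cut K K χ₀) (hK₁ : Clo K K₁)
    (hχ₁ : Cut K K₁ χ₁) (hx : Apx K K (ru f) ρ ε φ s) (hE : 0 < E) (he : 0 < e) (εE : ε ≤ E)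
    (εe : ε ≤ e) (hh : ∀ k, ContDiff ℝ 1 (h k) ∧ ∀ x, 0 ≤ deriv (h k) x ∧ deriv (h k) x ≤ 1)
    (hsum : ∀ x, ∑ k ∈ Finset.range N, deriv (h k) x ≤ 1)
    (E1 : en (tsupport χ₀ \ K) (ru f) ≤ E) (E2 : sm K ρ ρ ≤ E)
    (e1 : en (tsupport χ₁ \ K) (ru f) ≤ e) (e2 : sm K₁ ρ ρ ≤ e) :
    ∃ k, (sm K (fun p => h k (lo p + s p) - h k (lo p)) ρ ≤ 11 * E / N ∧
      ∫ z in tsupport χ₀ \ K, deriv (h k) (f z).re * ‖gr (ru f) z‖ ^ 2 ≤ 11 * E / N ∧
      ∫ w in img K f K, deriv (h k) w.re ≤ 11 * E / N) ∧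
      ∫ z in tsupport χ₁ \ K, deriv (h k) (φ z) * ‖gr (ru f) z‖ ^ 2 ≤ 11 * e / N ∧
      sm K₁ (fun p => h k (lo p + s p) - h k (lo p)) s ≤ 11 * e / N ∧
      sm K₁ (fun p => h k (lo p + s p) - h k (lo p)) ρ ≤ 11 * e / N := by
  have hK := hb.cpt
  have hs : Sq s := hx.1.2.1
  have hρ : Sq ρ := hf.au.2.1
  have af : Adm K (ru f) := hf.au.1
  have hKK := L.cmp.clo_self K hK.isClosed
  obtain ⟨m1, m2, -⟩ := core_supp hK hχ₀
  obtain ⟨m1', m2', -⟩ := core_supp hK hχ₁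
  have hd := (L.sm.sqadd K s ρ hs.2 hρ.2).2
  have T0 := core_tot L hs hρ (hx.2.2.2.trans εE) E2
  have T1 := core_tot L hs hρ
    (((L.sm.mono2 K K₁ K _ hd hK₁.1).trans hx.2.2.2).trans εe) e2
  obtain ⟨ho, p1, p2⟩ := est.pig K K (tsupport χ₀ \ K) s lo ρ h N (ru f)
    (fun z => ‖gr (ru f) z‖ ^ 2) hs hρ hh hsum
  have p2' := p2 (core_meas af m1 m2) (L.omC.cuten K K χ₀ _ hK hKK hχ₀ af).2.1
    fun z => sq_nonneg _
  obtain ⟨-, p3, p4⟩ := est.pig K K₁ (tsupport χ₁ \ K) s lo ρ h N φ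
    (fun z => ‖gr (ru f) z‖ ^ 2) hs hρ hh hsum
  have p4' := p4 (core_meas hx.1.1 m1' m2') (L.omC.cuten K K₁ χ₁ _ hK hK₁ hχ₁ af).2.1
    fun z => sq_nonneg _
  obtain ⟨-, p5, p6⟩ := est.pig K K₁ (img K f K) s lo s h N (fun w => w.re)
    (fun _ => 1) hs hs hh hsum
  have hc := (G.imgB.clo K K c f (hf.uni hb) hKK).1
  have p6' := p6 Complex.measurable_re.aemeasurable
    (integrableOn_const hc.measure_lt_top.ne) fun _ => zero_le_one
  have hv := G.vol.clo K K z₀ c f ρ hb hf hKK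
  simp only [mul_one, integral_const, MeasurableSet.univ, measureReal_restrict_apply, univ_inter,
    smul_eq_mul] at p6'
  set a1 := fun k => sm K (fun p => h k (lo p + s p) - h k (lo p)) ρ
  set a2 := fun k => ∫ z in tsupport χ₀ \ K, deriv (h k) (ru f z) * ‖gr (ru f) z‖ ^ 2
  set a3 := fun k => ∫ w in img K f K, deriv (h k) w.re
  set a4 := fun k => ∫ z in tsupport χ₁ \ K, deriv (h k) (φ z) * ‖gr (ru f) z‖ ^ 2
  set a5 := fun k => sm K₁ (fun p => h k (lo p + s p) - h k (lo p)) s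
  set a6 := fun k => sm K₁ (fun p => h k (lo p + s p) - h k (lo p)) ρ
  have q1 : ∑ k ∈ Finset.range N, (a1 k + a2 k + a3 k) ≤ 4 * E := by
    rw [Finset.sum_add_distrib, Finset.sum_add_distrib]
    unfold en at E1
    linarith [T0.1]
  have q2 : ∑ k ∈ Finset.range N, (a4 k + a5 k + a6 k) ≤ 7 * e := by
    rw [Finset.sum_add_distrib, Finset.sum_add_distrib]
    unfold en at e1
    linarith [T1.1, T1.2]
  obtain ⟨k, hk⟩ := core_pig hN (fun k => (a1 k + a2 k + a3 k) / E + (a4 k + a5 k + a6 k) / e)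
    (B := 11) (by
      rw [Finset.sum_add_distrib, ← Finset.sum_div, ← Finset.sum_div]
      have r1 := (div_le_iff₀ hE).2 q1
      have r2 := (div_le_iff₀ he).2 q2
      linarith)
  have n1 : 0 ≤ a1 k := core_sm_nonneg _ (ho k).1 hρ
  have n2 : 0 ≤ a2 k := integral_nonneg fun z => mul_nonneg ((hh k).2 _).1 (sq_nonneg _)
  have n3 : 0 ≤ a3 k := integral_nonneg fun z => ((hh k).2 _).1
  have n4 : 0 ≤ a4 k := integral_nonneg fun z => mul_nonneg ((hh k).2 _).1 (sq_nonneg _)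
  have n5 : 0 ≤ a5 k := core_sm_nonneg _ (ho k).1 hs
  have n6 : 0 ≤ a6 k := core_sm_nonneg _ (ho k).1 hρ
  have r1 : 0 ≤ (a1 k + a2 k + a3 k) / E := by positivity
  have r2 : 0 ≤ (a4 k + a5 k + a6 k) / e := by positivity
  have r3 : a1 k + a2 k + a3 k ≤ 11 * E / N := by
    rw [mul_div_right_comm, ← div_le_iff₀ hE]
    linarith
  have r4 : a4 k + a5 k + a6 k ≤ 11 * e / N := by
    rw [mul_div_right_comm, ← div_le_iff₀ he]
    linarith
  refine ⟨k, ⟨?_, ?_, ?_⟩, ?_, ?_, ?_⟩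
  · change a1 k ≤ _
    linarith
  · change a2 k ≤ _
    linarith
  · change a3 k ≤ _
    linarith
  · change a4 k ≤ _
    linarith
  · change a5 k ≤ _
    linarith
  · change a6 k ≤ _
    linarith

theorem core_cutint (L : Lib) {K : Set ℂ} {χ u : ℂ → ℝ} {h : ℝ → ℝ} {B : ℝ} (hK : IsCompact K)
    (hχ : Cut K K χ) (hB : ∀ z ∈ tsupport (gr χ), |h (u z)| ≤ B) :
    ∫ z in Kᶜ, h (u z) ^ 2 * ‖gr χ z‖ ^ 2 ≤ B ^ 2 * en Kᶜ χ := by
  have i1 := (L.omC.cuten K K χ (fun _ => 1) hK (L.cmp.clo_self K hK.isClosed) hχ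
    (L.adm.c1 K _ hK.isClosed contDiff_const)).1
  simp only [one_pow, one_mul] at i1
  unfold en
  rw [← integral_const_mul]
  refine integral_mono_of_nonneg (Eventually.of_forall fun z => by positivity) (i1.const_mul _)
    (Eventually.of_forall fun z => ?_)
  by_cases hz : z ∈ tsupport (gr χ)
  · exact mul_le_mul_of_nonneg_right (sq_le_sq' (abs_le.1 (hB z hz)).1 (abs_le.1 (hB z hz)).2)
      (sq_nonneg _)
  · simp only [image_eq_zero_of_notMem_tsupport hz, norm_zero]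
    norm_num

theorem core_num {Cs η C e ε N : ℝ} (hCs : 0 < Cs) (hη : 0 < η) (hC : 0 ≤ C) (he : 0 < e)
    (hN : 0 < N) (h1 : 10 * Cs / η * (2 * √(2200 * C * e) + 11 * e) ≤ η / 2)
    (h2 : Cs / (η / (10 * N)) * (√ε * (√e + 1)) ≤ η / 4) (h3 : 200 * (C / N) ≤ 1) :
    Cs / (η / (10 * N)) * (√ε * (√e + √(200 * (C / N))) +
      2 * (√(11 * e / N) * √(200 * (C / N))) + 11 * e / N) < η := by
  have e1 : √(11 * e / N) * √(200 * (C / N)) = √(2200 * C * e) / N := by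
    rw [← Real.sqrt_mul (by positivity), show 11 * e / N * (200 * (C / N)) =
      2200 * C * e / N ^ 2 by field_simp; ring, Real.sqrt_div (by positivity),
      Real.sqrt_sq hN.le]
  have e2 : Cs / (η / (10 * N)) * (2 * (√(2200 * C * e) / N) + 11 * e / N) =
      10 * Cs / η * (2 * √(2200 * C * e) + 11 * e) := by
    field_simp
  have h4 : √(200 * (C / N)) ≤ 1 := Real.sqrt_le_one.2 h3
  have h5 : Cs / (η / (10 * N)) * (√ε * (√e + √(200 * (C / N)))) ≤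
      Cs / (η / (10 * N)) * (√ε * (√e + 1)) := by gcongr
  rw [e1, add_assoc, mul_add, e2]
  linarith

theorem s_core (L : Lib) (G : Geo) (sol : S_sol) (sw : S_sw) (plat : S_plat) (trans : S_trans)
    (est : S_est) (gap : S_gap) : S_core := by
  intro K z₀ c χ₀ η E hb hχ₀ hη hE
  have hK := hb.cpt
  obtain ⟨Cs, hCs, plat⟩ := plat
  have hX : 0 ≤ en Kᶜ χ₀ := integral_nonneg fun z => sq_nonneg _
  obtain ⟨C, hC⟩ : ∃ C, C = 11 * E + (E + η) ^ 2 * en Kᶜ χ₀ := ⟨_, rfl⟩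
  have hC1 : 11 * E ≤ C := by rw [hC]; exact le_add_of_nonneg_right (by positivity)
  have hC2 : (E + η) ^ 2 * en Kᶜ χ₀ ≤ C := by rw [hC]; exact le_add_of_nonneg_left (by positivity)
  have hC0 : 0 < C := by linarith
  obtain ⟨e, he1, he⟩ := ((core_small
    (F := fun e => 10 * Cs / η * (2 * √(2200 * C * e) + 11 * e)) (by fun_prop) (by simp)
    (half_pos hη)).and self_mem_nhdsWithin).exists
  have he : 0 < e := he
  refine ⟨e, he, fun K₁ χ₁ r hK₁ hχ₁ hr => ?_⟩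
  obtain ⟨cs1, cs2, -⟩ := L.omC.cutsup K K₁ χ₁ hK hK₁ hχ₁
  obtain ⟨M, hM0, hM⟩ := L.d2.sup L.lu K _ z₀ hb.toCtx hb.out cs1 (disjoint_left.1 cs2)
  obtain ⟨N, ⟨⟨N1, N2⟩, N3, N4⟩, hN⟩ :=
    ((((core_large (F := fun t => 200 * t) (by fun_prop) (by simp) C hr).and
      (core_large (F := fun t => 200 * t) (by fun_prop) (by simp) C one_pos)).and
      ((core_large (F := fun t => √(200 * t)) (by fun_prop) (by simp) C (half_pos hη)).and
      (core_large (F := fun t => M * √(200 * t)) (by fun_prop) (by simp) C (half_pos hη)))).and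
      (eventually_gt_atTop 0)).exists
  have hN' : (0 : ℝ) < N := by exact_mod_cast hN
  have hN1 : (1 : ℝ) ≤ N := by exact_mod_cast hN
  obtain ⟨μ, hμ⟩ : ∃ μ, μ = η / (10 * N) := ⟨_, rfl⟩
  have hμ0 : 0 < μ := by rw [hμ]; positivity
  have hμη : 10 * μ * N = η := by rw [hμ]; field_simp
  have hμ1 : 10 * μ ≤ η := by nlinarith
  refine ⟨μ / 2, half_pos hμ0, fun A f ρ hs E1 E2 E3 e1 e2 hδ => ?_⟩
  have hD : 0 < C / N := by positivity
  have hρ : Sq ρ := hs.au.2.1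
  have af : Adm K (ru f) := hs.au.1
  obtain ⟨ε₀, hε₀, sw⟩ := sw K A hK hs.clo
  obtain ⟨δ', hδ', hdis⟩ := cs2.exists_thickenings cs1 hK.isClosed
  have hid : ∀ {t : ℝ}, 0 < t → ∀ᶠ ε in 𝓝[>] (0 : ℝ), ε ≤ t := fun ht =>
    core_small (F := fun ε => ε) continuous_id rfl ht
  obtain ⟨ε, ⟨⟨⟨⟨c1, c2⟩, c3, c4⟩, ⟨c5, c6⟩, c7, c8⟩, c9⟩, hε⟩ :=
    ((((((hid hε₀).and (hid hD)).and ((hid hE).and (hid he))).and
      (((hid hδ').and (core_small (F := fun ε => ε * sm K ρ ρ) (by fun_prop) (by simp)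
        (pow_pos hD 2))).and
      (((L.adm.small K _ hK af).eventually (eventually_le_nhds hD)).and
        (core_small (F := fun ε => √ε) (by fun_prop) (by simp) (half_pos hμ0))))).and
      (core_small (F := fun ε => Cs / (η / (10 * N)) * (√ε * (√e + 1))) (by fun_prop) (by simp)
        (show 0 < η / 4 by positivity))).and self_mem_nhdsWithin).exists
  obtain ⟨φ, s, hx⟩ := hs.au.2.2 ε hε
  have hsq : Sq s := hx.1.2.1
  choose lo hlo using fun p : Cmp K =>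
    L.comp.clu K p.1 φ (s p) (hsq.1 p) (hx.1.2.2 p (L.cmp.sub K p))
  have hsρ : ∀ p, s p ≤ ρ p + μ / 2 := fun p => by
    have h1 := (L.sm.single K K (s - ρ) p (L.sm.sqadd K s ρ hsq.2 hρ.2).2 (L.cmp.sub K p)).trans
      hx.2.2.2
    have h2 := (abs_le.1 ((Real.abs_le_sqrt h1).trans c8)).2
    rw [Pi.sub_apply] at h2
    linarith
  obtain ⟨h, b, hh, hsum, b0, b1, b2, b3, b4⟩ := plat μ N hμ0 hN
  have hh1 : ∀ k, ContDiff ℝ 1 (h k) ∧ ∀ x, 0 ≤ deriv (h k) x ∧ deriv (h k) x ≤ 1 :=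
    fun k => ⟨(hh k).1.of_le (by norm_num), (hh k).2.1⟩
  obtain ⟨k, ⟨k1, k2, k3⟩, k4, k5, k6⟩ := core_sel L G est (lo := lo) hN hb hs.toPre hχ₀ hK₁ hχ₁ hx
    hE he c3 c4 hh1 hsum E1 E2 e1 e2
  obtain ⟨hk1, hk2, ⟨Lk, hk3⟩, hk4, hk5⟩ := hh k
  rw [hμη] at hk5
  have ho := (est.pig K K ∅ s lo ρ h N φ φ hsq hρ hh1 hsum).1 k
  obtain ⟨T, hT, hTA, hT1, hT2⟩ := trans K A φ s μ (fun i => 10 * μ * k + 4 * μ + i * η) hK hs.clo
    hx.1 hμ0 fun p hp => by linarith [hsρ p, hδ p hp]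
  obtain ⟨g, τ, hg⟩ := sol K (A \ T) z₀ c hb (L.cmp.clo_diff K A T hs.clo hT)
  have hτ : Sq τ := hg.au.2.1
  have hED : 11 * E / N ≤ C / N := by gcongr
  have hd : d2 K f ρ g τ ≤ 200 * (C / N) := by
    refine sw T z₀ c f g ρ τ s (fun p => h k (lo p + s p) - h k (lo p)) χ₀ φ (h k) Lk ε (C / N) hb
      hs hT hTA hg hχ₀ hk1 hk2 hk3 c1 hx ?_ ?_ hD.le c2 c6 c7 (k1.trans hED) (k2.trans hED) ?_
      (k3.trans hED)
    · have := est.good K φ s lo (h k) (h k) 1 hK hx.1 hlo (hh1 k).1 (hh1 k).1 hk2 zero_le_one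
        fun x => ⟨(hk2 x).1, by rw [one_mul]⟩
      simpa only [one_mul] using this
    · refine hT1 (fun y => y - h k y) fun i =>
        core_const (hk1.differentiable (by norm_num)) fun x h1 h2 => hk5 i x ?_ ?_
      · linarith
      · linarith
    · refine (core_cutint L (u := ru f) (B := (E + η) / N) hK hχ₀ fun z hz => ?_).trans ?_
      · refine (hk4 _).trans ?_
        have h1 : |ru f z| / N ≤ E / N := by
          gcongr
          exact E3 z hz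
        have h2 : 10 * μ = η / N := by rw [← hμη]; field_simp
        rw [add_div]
        linarith
      · calc ((E + η) / N) ^ 2 * en Kᶜ χ₀ = (E + η) ^ 2 * en Kᶜ χ₀ / N / N := by
              field_simp
          _ ≤ C / N / 1 := by gcongr
          _ = C / N := div_one _
  have hsd := Real.sqrt_le_sqrt hd
  refine ⟨A \ T, g, τ, hg, hd.trans N1, fun q hq => ?_⟩
  have hΛ : 0 ≤ Cs / μ := by positivity
  have key := gap K (A \ T) K₁ z₀ c g τ χ₁ φ b q (lo q) (s q) η (10 * μ * k + 4 * μ) (2 * μ) hb hg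
    hK₁ hχ₁ hq (hsq.1 q) (hlo q) hη (by linarith) (by linarith) b1 b2 b3 ?_ ?_
  · refine core_osc key ?_
    have h1 := (abs_le.1 ((L.d2.pt K f g ρ τ q hρ hτ).trans (hsd.trans N3))).2
    linarith [hsρ q]
  · intro z hz
    have h1 : z ∉ thickening ε K := fun h1 =>
      disjoint_left.1 hdis (self_subset_thickening hδ' _ hz) (thickening_mono c5 K h1)
    rw [hx.2.1 z h1]
    have h2 := hM c f g ρ τ hs.hol hg.hol hs.nrm hg.nrm z hz
    have h3 := Complex.abs_re_le_norm (f z - g z)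
    have h4 := mul_le_mul_of_nonneg_left hsd hM0
    rw [Complex.sub_re] at h3
    change |(f z).re - (g z).re| ≤ _
    linarith
  · intro i _
    have hβ : ContDiff ℝ 1 fun y => b (y - (10 * μ * k + 4 * μ + i * η)) :=
      (b0.of_le (by norm_num)).comp (contDiff_id.sub contDiff_const)
    have hβ' := core_beta (h := h k) (x := 10 * μ * k + 4 * μ + i * η) hΛ (fun y => (hk2 y).1)
      (fun y h1 h2 => hk5 i y (by linarith) (by linarith)) b2 b3 b4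
    have hgood := est.good K φ s lo (h k) _ _ hK hx.1 hlo (hh1 k).1 hβ hk2 hΛ hβ'
    refine ⟨_, ⟨hgood.1, hgood.2.1, fun p _ => hgood.2.2 p (L.cmp.sub K p)⟩, ?_, ?_⟩
    · have := hT2 i (fun y => b (y - (10 * μ * k + 4 * μ + i * η)))
        (fun y hy => b2 _ (by linarith)) (fun y hy => b3 _ (by linarith))
      exact fun p hp => this p (hp.trans inter_subset_left)
    · refine (core_blk L est hK hK₁ hχ₁ hs.hol hg.hol hρ hτ hx hk1 hk2 hβ hΛ hβ' ho.1 ho.2 k4 k5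
        k6 hd e1).trans_lt ?_
      rw [hμ]
      exact core_num hCs hη hC0.le he hN' he1 c9 N2

end Vale.Agent.P116
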