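import Vale.Agent.P116.AStm2

/-! Transport of cutoffs to the image plane. -/

open Set Filter Topology MeasureTheory Metric Complex
open scoped ENNReal NNReal

noncomputable section
namespace Vale.Agent.P116

namespace ACorr

theorem ext {Ω C : Set ℂ} {ψ : ℂ → ℝ} (hΩ : IsOpen Ω) (hc : IsPreconnected Ω) (hC : IsClosed C)
    (hs : C ⊆ Ω) (hψ : ContDiffOn ℝ 2 ψ Ω) (h0 : ∀ w ∈ Ω, w ∉ C → fderiv ℝ ψ w = 0) :
    ∃ χ : ℂ → ℝ, ContDiff ℝ 2 χ ∧ EqOn χ ψ Ω ∧ ∀ w ∉ C, fderiv ℝ χ w = 0 := by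
  set u : ℂ → ℂ →L[ℝ] ℝ := Ω.indicator (fderiv ℝ ψ) with hu
  have z0 : ∀ w ∉ C, u w = 0 := fun w hw => by
    by_cases h : w ∈ Ω
    · rw [hu, indicator_of_mem h, h0 w h hw]
    · rw [hu, indicator_of_notMem h]
  have key : ∀ a, ContDiffAt ℝ 1 u a ∧ ∀ x y, fderiv ℝ u a x y = fderiv ℝ u a y x := by
    intro a
    by_cases ha : a ∈ Ω
    · have e : u =ᶠ[𝓝 a] fderiv ℝ ψ := by
        filter_upwards [hΩ.mem_nhds ha] with w hw
        rw [hu, indicator_of_mem hw]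
      have h2 := hψ.contDiffAt (hΩ.mem_nhds ha)
      refine ⟨(h2.fderiv_right (by norm_num)).congr_of_eventuallyEq e, ?_⟩
      rw [e.fderiv_eq]
      exact h2.isSymmSndFDerivAt (by simp)
    · have e : u =ᶠ[𝓝 a] fun _ => 0 := by
        filter_upwards [hC.isOpen_compl.mem_nhds fun h => ha (hs h)] with w hw
        exact z0 w hw
      refine ⟨contDiffAt_const.congr_of_eventuallyEq e, ?_⟩
      rw [e.fderiv_eq]
      simp
  have c1 : ContDiff ℝ 1 u := contDiff_iff_contDiffAt.2 fun a => (key a).1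
  obtain ⟨F, hF⟩ := (convex_univ (𝕜 := ℝ) (E := ℂ)).exists_forall_hasFDerivAt_of_fderiv_symmetric
    isOpen_univ (c1.differentiable one_ne_zero).differentiableOn fun a _ => (key a).2
  have dF : Differentiable ℝ F := fun a => (hF a (mem_univ a)).differentiableAt
  have eF : fderiv ℝ F = u := funext fun a => (hF a (mem_univ a)).fderiv
  obtain ⟨t, ht⟩ := hΩ.exists_eq_add_of_fderiv_eq hc (hψ.differentiableOn two_ne_zero)
    dF.differentiableOn (fun w hw => by rw [eF, hu, indicator_of_mem hw])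
  have c2 : ContDiff ℝ 2 F := by
    rw [show (2 : WithTop ℕ∞) = 1 + 1 from rfl, contDiff_succ_iff_fderiv, eF]
    exact ⟨dF, by simp, c1⟩
  refine ⟨fun w => F w + t, c2.add contDiff_const, ht.symm, fun w hw => ?_⟩
  rw [fderiv_add_const, eF, z0 w hw]

theorem loc {C : Set ℂ} {χ : ℂ → ℝ} (hC : IsClosed C) (hχ : Differentiable ℝ χ)
    (h0 : ∀ w ∉ C, fderiv ℝ χ w = 0) {w : ℂ} (hw : w ∉ C) :
    connectedComponentIn Cᶜ w ∈ 𝓝 w ∧ ∀ v ∈ connectedComponentIn Cᶜ w, χ v = χ w :=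
  ⟨connectedComponentIn_mem_nhds (hC.isOpen_compl.mem_nhds hw), fun _ hv =>
    hC.isOpen_compl.connectedComponentIn.is_const_of_fderiv_eq_zero
      isPreconnected_connectedComponentIn hχ.differentiableOn
      (fun v hv => h0 v (connectedComponentIn_subset _ _ hv)) hv (mem_connectedComponentIn hw)⟩

theorem val {K S C : Set ℂ} {f : ℂ → ℂ} {χ χ' : ℂ → ℝ} {t : ℝ} (hS : IsCompact S)
    (hC : IsClosed C) (hs : C ⊆ f '' Kᶜ) (hχ : Differentiable ℝ χ')
    (h0 : ∀ w ∉ C, fderiv ℝ χ' w = 0) (he : ∀ z ∉ K, χ' (f z) = χ z)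
    (ht : ∀ᶠ z in 𝓝ˢ S, χ z = t) : ∀ᶠ w in 𝓝ˢ (img K f S), χ' w = t := by
  refine eventually_nhdsSet_iff_forall.2 fun w ⟨h1, v, h2, h3⟩ => ?_
  obtain ⟨a1, a2⟩ := loc hC hχ h0 fun h => h1 (hs h)
  obtain ⟨U, hU, hSU, hUt⟩ := eventually_nhdsSet_iff_exists.1 ht
  obtain ⟨ε, hε, hεU⟩ := hS.exists_thickening_subset_open hU hSU
  have b1 : χ' v = t := by
    refine closure_minimal (t := {y | χ' y = t}) ?_ (isClosed_eq hχ.continuous continuous_const)
      (h3 ε hε)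
    rintro _ ⟨z, hz, rfl⟩
    exact (he z hz.2).trans (hUt z (hεU hz.1))
  have b2 := a2 v (connectedComponentIn_mono w (compl_subset_compl.2 hs) h2)
  filter_upwards [a1] with y hy
  rw [a2 y hy, ← b2, b1]

end ACorr

theorem s_corr (L : Lib) (imgA : S_imgA) : S_corr := by
  intro K Q c f χ hu hQ hχ
  have hG : IsOpen Kᶜ := hu.cpt.isClosed.isOpen_compl
  obtain ⟨o1, o2, o3⟩ := imgA.opn K c f hu
  obtain ⟨-, -, hg⟩ := L.cov.inv Kᶜ f hG hu.hol.1 hu.inj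
  obtain ⟨s1, s2, -⟩ := L.omC.cutsup K Q χ hu.cpt hQ hχ
  have s3 : tsupport (gr χ) ⊆ Kᶜ := s2.subset_compl_right
  have hC : IsClosed (f '' tsupport (gr χ)) :=
    (s1.image_of_continuousOn (hu.hol.1.continuousOn.mono s3)).isClosed
  have hs : f '' tsupport (gr χ) ⊆ f '' Kᶜ := image_mono s3
  have g2 : ContDiffOn ℝ 2 (Function.invFunOn f Kᶜ) (f '' Kᶜ) :=
    (hg.contDiffOn o1).restrict_scalars ℝ
  have gf : ∀ z ∉ K, Function.invFunOn f Kᶜ (f z) = z := fun z hz =>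
    hu.inj.leftInvOn_invFunOn hz
  obtain ⟨χ', c1, c2, c3⟩ := ACorr.ext o1 o3 hC hs (hχ.1.comp_contDiffOn g2) (by
    rintro _ ⟨z, hz, rfl⟩ hn
    have h1 : gr χ z = 0 := image_eq_zero_of_notMem_tsupport fun h => hn ⟨z, h, rfl⟩
    have h2 : fderiv ℝ χ (Function.invFunOn f Kᶜ (f z)) = 0 := by
      rw [gf z hz, ← norm_eq_zero, ← L.adm.nrm, h1, norm_zero]
    rw [fderiv_comp _ (hχ.1.differentiable two_ne_zero _)
      ((g2.differentiableOn two_ne_zero).differentiableAt (o1.mem_nhds ⟨z, hz, rfl⟩)), h2,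
      ContinuousLinearMap.zero_comp])
  have he : ∀ z ∉ K, χ' (f z) = χ z := fun z hz => by
    rw [c2 ⟨z, hz, rfl⟩, Function.comp_apply, gf z hz]
  have d := c1.differentiable two_ne_zero
  refine ⟨χ', c1, ?_, he,
    ACorr.val (hu.cpt.of_isClosed_subset hQ.2.1 hQ.1) hC hs d c3 he hχ.2.2.2.1, ?_⟩
  · obtain ⟨R, hR⟩ := hχ.2.1.isCompact.isBounded.subset_ball 0
    obtain ⟨M, hM⟩ := imgA.bdd K c f R hu
    refine HasCompactSupport.intro (o2.union (isCompact_closedBall 0 M)) fun w hw => ?_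
    rw [mem_union, not_or, notMem_compl_iff] at hw
    obtain ⟨⟨z, hz, rfl⟩, h2⟩ := hw
    rw [he z hz]
    exact image_eq_zero_of_notMem_tsupport fun h =>
      h2 (mem_closedBall_zero_iff.2 (hM z ⟨hR h, hz⟩))
  · refine (ACorr.val (hu.cpt.of_isClosed_subset hQ.2.2 sdiff_subset) hC hs d c3 he
      hχ.2.2.2.2).filter_mono (nhdsSet_mono fun w hw => ?_)
    obtain ⟨z, hz, h1⟩ := imgA.pt K c f w hu hw.1
    refine imgA.mono K _ (K \ Q) f (singleton_subset_iff.2 ⟨hz, fun h => hw.2 ?_⟩) h1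
    exact imgA.mono K _ _ f (singleton_subset_iff.2 h) h1

end Vale.Agent.P116
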