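import Vale.Agent.P116.AStm

/-! Change of variables under a univalent map. -/

open Set Filter Topology MeasureTheory Metric Complex
open scoped ENNReal NNReal

noncomputable section
namespace Vale.Agent.P116

namespace ACov

variable {U : Set ℂ} {f : ℂ → ℂ}

theorem det_eq (L : ℂ →L[ℝ] ℂ) : L.det = (L 1).re * (L I).im - (L I).re * (L 1).im := by
  rw [ContinuousLinearMap.det, ← LinearMap.det_toMatrix Complex.basisOneI, Matrix.det_fin_two]
  simp [LinearMap.toMatrix_apply]

theorem apply_eq (L : ℂ →L[ℝ] ℝ) (n : ℂ) : L n = n.re * L 1 + n.im * L I := by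
  conv_lhs => rw [← Complex.re_add_im n]
  have h1 : (n.re : ℂ) = n.re • (1 : ℂ) := by simp
  have h2 : (n.im : ℂ) * I = n.im • I := by simp
  rw [map_add, h1, h2, map_smul, map_smul, smul_eq_mul, smul_eq_mul]

theorem hasF {g : ℂ → ℂ} {z : ℂ} (hg : DifferentiableAt ℂ g z) :
    HasFDerivAt g ((ContinuousLinearMap.toSpanSingleton ℂ (deriv g z)).restrictScalars ℝ) z :=
  hg.hasDerivAt.hasFDerivAt.restrictScalars ℝ

theorem nsq (c : ℂ) : ‖c‖ ^ 2 = c.re ^ 2 + c.im ^ 2 := by
  rw [Complex.sq_norm, Complex.normSq_apply]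
  ring

theorem det_hol (c : ℂ) :
    |((ContinuousLinearMap.toSpanSingleton ℂ c).restrictScalars ℝ).det| = ‖c‖ ^ 2 := by
  simp only [det_eq, nsq]
  simp only [ContinuousLinearMap.coe_restrictScalars', ContinuousLinearMap.toSpanSingleton_apply,
    smul_eq_mul, one_mul, Complex.mul_re, Complex.mul_im, Complex.I_re, Complex.I_im,
    zero_mul, zero_sub, zero_add]
  rw [abs_of_nonneg (by nlinarith [sq_nonneg c.re, sq_nonneg c.im])]
  ring

theorem fd_comp {g : ℂ → ℂ} {z : ℂ} (hg : DifferentiableAt ℂ g z) {a : ℂ → ℝ}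
    (ha : DifferentiableAt ℝ a (g z)) (v : ℂ) : fderiv ℝ (fun w => a (g w)) z v =
      (v * deriv g z).re * fderiv ℝ a (g z) 1 + (v * deriv g z).im * fderiv ℝ a (g z) I := by
  have h : HasFDerivAt (fun w => a (g w)) _ z := ha.hasFDerivAt.comp z (hasF hg)
  rw [h.fderiv, ContinuousLinearMap.comp_apply, apply_eq]
  simp

theorem not_const (hU : IsOpen U) (hi : InjOn f U) {z : ℂ} (hz : z ∈ U) :
    ¬ ∀ᶠ w in 𝓝 z, f w = f z := by
  intro h
  have h1 : ∀ᶠ w in 𝓝[≠] z, (f w = f z ∧ w ∈ U) ∧ w ≠ z :=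
    ((h.and (hU.mem_nhds hz)).filter_mono nhdsWithin_le_nhds).and self_mem_nhdsWithin
  obtain ⟨w, ⟨h2, h3⟩, h4⟩ := h1.exists
  exact h4 (hi h3 hz h2)

theorem nhds_le (hU : IsOpen U) (hf : DifferentiableOn ℂ f U) (hi : InjOn f U) {z : ℂ}
    (hz : z ∈ U) : 𝓝 (f z) ≤ map f (𝓝 z) :=
  (hf.analyticAt (hU.mem_nhds hz)).eventually_constant_or_nhds_le_map_nhds.resolve_left
    (not_const hU hi hz)

theorem deriv_ne (hU : IsOpen U) (hf : DifferentiableOn ℂ f U) (hi : InjOn f U) {z : ℂ}
    (hz : z ∈ U) : deriv f z ≠ 0 := by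
  have ha : AnalyticAt ℂ (fun w => f w - f z) z :=
    (hf.analyticAt (hU.mem_nhds hz)).sub analyticAt_const
  obtain ⟨n, g, hg, hg0, he⟩ := ha.exists_eventuallyEq_pow_smul_nonzero_iff.2
    (by simpa only [sub_eq_zero] using not_const hU hi hz)
  rcases n with _ | _ | n
  · have := he.self_of_nhds
    simp only [sub_self, pow_zero, one_smul] at this
    exact absurd this.symm hg0
  · have h1 : HasDerivAt (fun w => f z + (w - z) * g w) (1 * g z + (z - z) * deriv g z) z :=
      (((hasDerivAt_id z).sub_const z).mul hg.differentiableAt.hasDerivAt).const_add (f z)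
    have h2 : f =ᶠ[𝓝 z] fun w => f z + (w - z) * g w := by
      filter_upwards [he] with w hw
      simp only [zero_add, pow_one, smul_eq_mul] at hw
      linear_combination hw
    rw [h2.deriv_eq, h1.deriv]
    simpa using hg0
  · exfalso
    obtain ⟨c, hc⟩ : ∃ c : ℂ, c ^ (n + 2) = g z := IsAlgClosed.exists_pow_nat_eq _ (by omega)
    have hn : ((n + 2 : ℕ) : ℂ) ≠ 0 := Nat.cast_ne_zero.2 (by omega)
    let h : ℂ → ℂ := fun w => (w - z) * (c * exp (log (g w / g z) / (n + 2 : ℕ)))
    have hh : AnalyticAt ℂ h z := by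
      refine (analyticAt_id.sub analyticAt_const).mul (analyticAt_const.mul ?_)
      refine AnalyticAt.cexp (AnalyticAt.div_const (AnalyticAt.clog (hg.div_const) ?_))
      rw [div_self hg0]
      exact one_mem_slitPlane
    have h1 : ∀ᶠ w in 𝓝 z, w ∈ U ∧ f w = f z + h w ^ (n + 2) := by
      filter_upwards [he, hU.mem_nhds hz, hg.continuousAt.eventually_ne hg0] with w hw hwU hgw
      refine ⟨hwU, ?_⟩
      simp only [h]
      rw [mul_pow, mul_pow, hc, ← exp_nat_mul, mul_div_cancel₀ _ hn,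
        exp_log (div_ne_zero hgw hg0), mul_div_cancel₀ _ hg0]
      rw [smul_eq_mul] at hw
      linear_combination hw
    have h0 : h z = 0 := by simp [h]
    rcases hh.eventually_constant_or_nhds_le_map_nhds with h2 | h2
    · refine not_const hU hi hz ?_
      filter_upwards [h1, h2] with w hw hw'
      rw [hw.2, hw', h0]
      simp
    · rw [h0] at h2
      have hS := h2 (image_mem_map h1)
      have hζ := Complex.isPrimitiveRoot_exp (n + 2) (by omega)
      set ζ := exp (2 * Real.pi * I / (n + 2 : ℕ))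
      have ht : Tendsto (fun w => ζ * w) (𝓝 0) (𝓝 0) := by
        have : Continuous fun w => ζ * w := by fun_prop
        simpa using this.tendsto 0
      set S := h '' {w | w ∈ U ∧ f w = f z + h w ^ (n + 2)}
      have h5 : ∀ᶠ w in 𝓝 (0 : ℂ), w ∈ S ∧ ζ * w ∈ S := Filter.Eventually.and hS (ht hS)
      have h3 : ∀ᶠ w in 𝓝[≠] (0 : ℂ), (w ∈ S ∧ ζ * w ∈ S) ∧ w ≠ 0 :=
        (h5.filter_mono nhdsWithin_le_nhds).and self_mem_nhdsWithin
      obtain ⟨w, ⟨⟨z1, hz1, e1⟩, ⟨z2, hz2, e2⟩⟩, hw⟩ := h3.exists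
      have h4 : z1 = z2 := hi hz1.1 hz2.1 (by
        rw [hz1.2, hz2.2, e1, e2, mul_pow, hζ.pow_eq_one, one_mul])
      rw [h4, e2] at e1
      exact hζ.ne_one (by omega) (mul_right_cancel₀ hw (e1.trans (one_mul w).symm))

theorem inv (hU : IsOpen U) (hf : DifferentiableOn ℂ f U) (hi : InjOn f U) :
    IsOpen (f '' U) ∧ (∀ z ∈ U, deriv f z ≠ 0) ∧
      DifferentiableOn ℂ (Function.invFunOn f U) (f '' U) := by
  have ho : IsOpen (f '' U) := by
    rw [isOpen_iff_mem_nhds]
    rintro _ ⟨z, hz, rfl⟩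
    exact nhds_le hU hf hi hz (image_mem_map (hU.mem_nhds hz))
  refine ⟨ho, fun z hz => deriv_ne hU hf hi hz, ?_⟩
  rintro _ ⟨z, hz, rfl⟩
  have e : Function.invFunOn f U (f z) = z := hi.leftInvOn_invFunOn hz
  have hc : ContinuousAt (Function.invFunOn f U) (f z) := by
    rw [ContinuousAt, e]
    refine Tendsto.mono_left ?_ (nhds_le hU hf hi hz)
    rw [tendsto_map'_iff]
    refine tendsto_id.congr' ?_
    filter_upwards [hU.mem_nhds hz] with w hw
    exact (hi.leftInvOn_invFunOn hw).symm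
  refine (HasDerivAt.of_local_left_inverse (f := f) (f' := deriv f z) hc ?_ (deriv_ne hU hf hi hz)
    ?_).differentiableAt.differentiableWithinAt
  · rw [e]
    exact (hf.differentiableAt (hU.mem_nhds hz)).hasDerivAt
  · filter_upwards [ho.mem_nhds ⟨z, hz, rfl⟩] with y hy
    exact Function.invFunOn_eq hy

end ACov

open ACov in
theorem s_cov : S_cov := by
  refine ⟨fun U S f g hU hf hi hS hSU => ?_, fun U S f g hU hf hi hS hSU => ⟨?_, ?_⟩,
    fun f a b z hf ha hb => ⟨?_, ?_⟩, fun U f hU hf hi => inv hU hf hi,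
    fun U N f hU hf hi hN => ?_⟩
  · rw [lintegral_image_eq_lintegral_abs_det_fderiv_mul volume hS
      (fun z hz => (hasF (hf.differentiableAt (hU.mem_nhds (hSU hz)))).hasFDerivWithinAt)
      (hi.mono hSU) g]
    refine lintegral_congr fun z => ?_
    rw [det_hol, mul_comm, ENNReal.ofReal_pow (norm_nonneg _), ofReal_norm]
  · rw [integrableOn_image_iff_integrableOn_abs_det_fderiv_smul volume hS
      (fun z hz => (hasF (hf.differentiableAt (hU.mem_nhds (hSU hz)))).hasFDerivWithinAt)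
      (hi.mono hSU) g]
    simp only [det_hol, smul_eq_mul, mul_comm]
  · rw [integral_image_eq_integral_abs_det_fderiv_smul volume hS
      (fun z hz => (hasF (hf.differentiableAt (hU.mem_nhds (hSU hz)))).hasFDerivWithinAt)
      (hi.mono hSU) g]
    simp only [det_hol, smul_eq_mul, mul_comm]
  · simp only [wd, fd_comp hf ha, fd_comp hf hb, nsq]
    simp
    ring
  · rw [← norm_mul, ← sq_eq_sq₀ (norm_nonneg _) (norm_nonneg _), norm_mul, mul_pow, nsq, nsq, nsq]
    simp only [gr, fd_comp hf ha]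
    simp
    ring
  · obtain ⟨-, -, hd⟩ := inv hU hf hi
    have h1 := addHaar_image_eq_zero_of_differentiableOn_of_addHaar_eq_zero volume
      ((hd.restrictScalars ℝ).mono (inter_subset_right (s := N)))
      (measure_mono_null inter_subset_left hN)
    refine measure_mono_null (fun z hz => ?_) h1
    exact ⟨f z, ⟨hz.2, z, hz.1, rfl⟩, hi.leftInvOn_invFunOn hz.1⟩

end Vale.Agent.P116
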