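import Vale.Agent.P116.AStm

/-! Step A: the crossing lemma for continua in a vertical strip. -/

open Set Filter Topology MeasureTheory Metric Complex
open scoped ENNReal NNReal

noncomputable section
namespace Vale.Agent.P116

theorem cross_uniq {A : Type} [TopologicalSpace A] [PreconnectedSpace A] {g1 g2 : A → ℂ}
    (h1 : Continuous g1) (h2 : Continuous g2) (he : ∀ a, exp (g1 a) = exp (g2 a)) (a : A)
    (ha : g1 a = g2 a) (b : A) : g1 b = g2 b :=
  congrFun (isCoveringMap_exp.eq_of_comp_eq h1 h2 (funext fun a => Subtype.ext (he a)) a ha) b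

theorem cross_log {w : ℂ} (h : w.im < 0) : log (-w) = log w + Real.pi * I := by
  apply Complex.ext
  · simp [log_re]
  · simp [log_im, arg_neg_eq_arg_add_pi_of_im_neg h]

theorem s_cross : S_cross := by
  intro Z P a b x y _ hZ ⟨z1, hz1, ha⟩ ⟨z2, hz2, hb⟩ hP ⟨γ, hγ⟩ hx hy
  by_contra hc
  have ne : ∀ (t : unitInterval) (z : Z), γ t - z ≠ 0 := fun t z h =>
    hc ⟨γ t, hγ t, by rw [sub_eq_zero.1 h]; exact z.2⟩
  have := Subtype.preconnectedSpace hZ
  have cx : Continuous fun z : Z => log (x - z) :=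
    Continuous.clog (by fun_prop) fun z => Or.inr (by
      rw [sub_im]; exact (sub_pos.2 (hx z z.2)).ne')
  have cy : Continuous fun z : Z => log (y - z) :=
    Continuous.clog (by fun_prop) fun z => Or.inr (by
      rw [sub_im]; exact (sub_neg.2 (hy z z.2)).ne)
  let H : C(unitInterval × Z, {z : ℂ // z ≠ 0}) :=
    ⟨fun q => ⟨γ q.1 - q.2, ne q.1 q.2⟩, Continuous.subtype_mk (by fun_prop) _⟩
  have H0 : ∀ z : Z, H (0, z) = (fun z : ℂ => (⟨_, z.exp_ne_zero⟩ : {z : ℂ // z ≠ 0}))
      ((⟨_, cx⟩ : C(Z, ℂ)) z) := fun z => Subtype.ext (by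
    have := ne 0 z
    rw [γ.source] at this
    show γ 0 - z = exp (log (x - z))
    rw [exp_log this, γ.source])
  obtain ⟨G, G1, G0⟩ : ∃ G : C(unitInterval × Z, ℂ), (∀ t z, exp (G (t, z)) = γ t - z) ∧
      ∀ z : Z, G (0, z) = log (x - z) :=
    ⟨isCoveringMap_exp.liftHomotopy H _ H0, fun t z =>
      congrArg Subtype.val (congrFun (isCoveringMap_exp.liftHomotopy_lifts H _ H0) (t, z)),
      isCoveringMap_exp.liftHomotopy_zero H _ H0⟩
  have k1 : G (1, ⟨z1, hz1⟩) = log (γ 1 - z1) :=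
    cross_uniq (g1 := fun t => G (t, ⟨z1, hz1⟩)) (g2 := fun t => log (γ t - z1)) (by fun_prop)
      (Continuous.clog (by fun_prop) fun t => Or.inl (by
        rw [sub_re]; linarith [(hP _ (hγ t)).1]))
      (fun t => by rw [G1, exp_log (ne t ⟨z1, hz1⟩)]) 0 (by rw [G0, γ.source]) 1
  rw [γ.target] at k1
  have k2 : G (1, ⟨z2, hz2⟩) = log (y - z2) :=
    cross_uniq (g1 := fun z => G (1, z)) (g2 := fun z : Z => log (y - z)) (by fun_prop) cy
      (fun z => by
        have := ne 1 z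
        rw [γ.target] at this
        rw [G1, exp_log this, γ.target]) ⟨z1, hz1⟩ k1 ⟨z2, hz2⟩
  have k3 : G (1, ⟨z2, hz2⟩) = log (z2 - γ 1) + Real.pi * I :=
    cross_uniq (g1 := fun t => G (t, ⟨z2, hz2⟩)) (g2 := fun t => log (z2 - γ t) + Real.pi * I)
      (by fun_prop)
      ((Continuous.clog (by fun_prop) fun t => Or.inl (by
        rw [sub_re]; linarith [(hP _ (hγ t)).2])).add continuous_const)
      (fun t => by
        have : z2 - γ t ≠ 0 := fun h => ne t ⟨z2, hz2⟩ (by rw [← neg_sub, h, neg_zero])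
        rw [G1, exp_add, exp_log this, exp_pi_mul_I]
        ring) 0 (by
        rw [G0, γ.source, ← cross_log (by rw [sub_im]; linarith [hx z2 hz2]), neg_sub]) 1
  rw [γ.target, k2] at k3
  have k4 := congrArg Complex.im k3
  have k5 : arg (y - z2) < 0 := arg_neg_iff.2 (by rw [sub_im]; linarith [hy z2 hz2])
  have k6 : 0 ≤ arg (z2 - y) := arg_nonneg_iff.2 (by rw [sub_im]; linarith [hy z2 hz2])
  simp only [log_im, add_im, mul_im, ofReal_re, I_im, mul_one, ofReal_im, I_re, mul_zero,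
    add_zero] at k4
  linarith [Real.pi_pos]

end Vale.Agent.P116
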