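import Vale.Agent.P116.AStm

/-! Existence of cutoffs. -/

open Set Filter Topology MeasureTheory Metric Complex
open scoped ENNReal NNReal Manifold

noncomputable section
namespace Vale.Agent.P116

theorem s_cut : S_cut := by
  intro K Q U hK hQ hU hQU
  obtain ⟨R, hR⟩ := hK.isBounded.subset_ball (0 : ℂ)
  have hV : IsOpen (U ∩ ball 0 R) := hU.inter isOpen_ball
  obtain ⟨f, h0, h1, h2⟩ := exists_contMDiffMap_zero_one_nhds_of_isClosed (n := 2) 𝓘(ℝ, ℂ)
    (hQ.2.2.union hV.isClosed_compl) hQ.2.1 (by
      rw [disjoint_union_left]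
      exact ⟨disjoint_sdiff_left,
        disjoint_compl_left_iff_subset.2 (subset_inter hQU (hQ.1.trans hR))⟩)
  have hs : tsupport f ⊆ U ∩ ball 0 R := by
    intro z hz
    by_contra hc
    exact (notMem_tsupport_iff_eventuallyEq.2
      (h0.filter_mono (nhds_le_nhdsSet (mem_union_right _ hc)))) hz
  refine ⟨f, ⟨f.contMDiff.contDiff, ?_, h2, h1, h0.filter_mono (nhdsSet_mono subset_union_left)⟩,
    hs.trans inter_subset_left⟩
  exact (isCompact_closedBall (0 : ℂ) R).of_isClosed_subset (isClosed_tsupport _)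
    (hs.trans (inter_subset_right.trans ball_subset_closedBall))

end Vale.Agent.P116
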