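import Vale.Agent.P116.AStm

/-! Step A: the distance between candidates. -/

open Set Filter Topology MeasureTheory Metric Complex
open scoped ENNReal NNReal

noncomputable section
namespace Vale.Agent.P116

namespace AD2

theorem sq_tri {x A B C : ℝ} (hA : 0 ≤ A) (hB : 0 ≤ B) (hx : x ≤ A + 2 * C + B)
    (hC : C ≤ √A * √B) : √x ≤ √A + √B := by
  refine Real.sqrt_le_iff.2 ⟨by positivity, ?_⟩
  rw [add_sq, Real.sq_sqrt hA, Real.sq_sqrt hB]
  linarith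

theorem comb {x y x1 y1 x2 y2 : ℝ} (hx : 0 ≤ x) (hy : 0 ≤ y) (h1 : 0 ≤ x1) (h2 : 0 ≤ y1)
    (h3 : 0 ≤ x2) (h4 : 0 ≤ y2) (a : √x ≤ √x1 + √x2) (b : √y ≤ √y1 + √y2) :
    √(x + y) ≤ √(x1 + y1) + √(x2 + y2) := by
  have a1 := pow_le_pow_left₀ (Real.sqrt_nonneg _) a 2
  have b1 := pow_le_pow_left₀ (Real.sqrt_nonneg _) b 2
  rw [add_sq, Real.sq_sqrt hx, Real.sq_sqrt h1, Real.sq_sqrt h3] at a1
  rw [add_sq, Real.sq_sqrt hy, Real.sq_sqrt h2, Real.sq_sqrt h4] at b1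
  refine sq_tri (C := √x1 * √x2 + √y1 * √y2) (add_nonneg h1 h2) (add_nonneg h3 h4)
    (by linarith) ?_
  rw [← Real.sqrt_mul (add_nonneg h1 h2)]
  refine Real.le_sqrt_of_sq_le ?_
  have e1 := Real.sq_sqrt h1
  have e2 := Real.sq_sqrt h2
  have e3 := Real.sq_sqrt h3
  have e4 := Real.sq_sqrt h4
  generalize √x1 = p at e1
  generalize √y1 = q at e2
  generalize √x2 = r at e3
  generalize √y2 = s at e4
  rw [← e1, ← e2, ← e3, ← e4]
  nlinarith [sq_nonneg (p * s - q * r)]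

variable {μ : Measure ℂ}

theorem expand {f g : ℂ → ℝ} (hf : MemLp f 2 μ) (hg : MemLp g 2 μ) (t : ℝ) :
    Integrable (fun x => (f x + t * g x) ^ 2) μ ∧ ∫ x, (f x + t * g x) ^ 2 ∂μ =
      (∫ x, f x ^ 2 ∂μ) + 2 * t * (∫ x, f x * g x ∂μ) + t ^ 2 * ∫ x, g x ^ 2 ∂μ := by
  have h0 : Integrable (fun x => f x * g x) μ := hf.integrable_mul hg
  have h1 := hf.integrable_sq
  have h2 := h0.const_mul (2 * t)
  have h3 := hg.integrable_sq.const_mul (t ^ 2)
  have h4 : Integrable (fun x => f x ^ 2 + 2 * t * (f x * g x)) μ := h1.add h2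
  refine ⟨(hf.add (hg.const_mul t)).integrable_sq, ?_⟩
  rw [← integral_const_mul, ← integral_const_mul, ← integral_add h1 h2, ← integral_add h4 h3]
  refine integral_congr_ae (Eventually.of_forall fun x => ?_)
  show _ = _
  ring

theorem cs {f g : ℂ → ℝ} (hf : MemLp f 2 μ) (hg : MemLp g 2 μ) :
    ∫ x, f x * g x ∂μ ≤ √(∫ x, f x ^ 2 ∂μ) * √(∫ x, g x ^ 2 ∂μ) := by
  have h : ∀ t : ℝ, 0 ≤ (∫ x, g x ^ 2 ∂μ) * (t * t) + (2 * ∫ x, f x * g x ∂μ) * t +
      ∫ x, f x ^ 2 ∂μ := by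
    intro t
    have h1 : 0 ≤ ∫ x, (f x + t * g x) ^ 2 ∂μ := integral_nonneg fun x => sq_nonneg _
    rw [(expand hf hg t).2] at h1
    linarith
  have h2 := discrim_le_zero h
  unfold discrim at h2
  rw [← Real.sqrt_mul (integral_nonneg fun x => sq_nonneg _)]
  exact Real.le_sqrt_of_sq_le (by linarith)

theorem mink {a b c : ℂ → ℂ} (ha : MemLp a 2 μ) (hb : MemLp b 2 μ) (h : ∀ z, c z = a z + b z) :
    √(∫ z, ‖c z‖ ^ 2 ∂μ) ≤ √(∫ z, ‖a z‖ ^ 2 ∂μ) + √(∫ z, ‖b z‖ ^ 2 ∂μ) := by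
  obtain ⟨h1, h2⟩ := expand ha.norm hb.norm 1
  have h3 : ∫ z, ‖c z‖ ^ 2 ∂μ ≤ ∫ z, (‖a z‖ + 1 * ‖b z‖) ^ 2 ∂μ :=
    integral_mono_of_nonneg (Eventually.of_forall fun z => sq_nonneg _) h1
      (Eventually.of_forall fun z => by
        beta_reduce
        rw [h, one_mul]
        exact pow_le_pow_left₀ (norm_nonneg _) (norm_add_le _ _) 2)
  exact sq_tri (integral_nonneg fun x => sq_nonneg _) (integral_nonneg fun x => sq_nonneg _)
    (by linarith) (cs ha.norm hb.norm)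

theorem mem2 {a : ℂ → ℂ} (hm : Measurable a) (h : Integrable (fun z => ‖a z‖ ^ 2) μ) :
    MemLp a 2 μ := (memLp_two_iff_integrable_sq_norm hm.aestronglyMeasurable).2 h

theorem smink (sm' : S_sm) {K : Set ℂ} (T : Set ℂ) {s t u : Cmp K → ℝ}
    (hs : Summable fun p => s p ^ 2) (ht : Summable fun p => t p ^ 2) (h : u = s + t) :
    √(sm T u u) ≤ √(sm T s s) + √(sm T t t) := by
  have h1 := (sm'.sqadd K s t hs ht).1
  have e1 := (sm'.add K T s t (s + t) hs ht h1).1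
  have e2 := (sm'.add K T s t s hs ht hs).1
  have e3 := (sm'.add K T s t t hs ht ht).1
  have e4 := sm'.comm K T s (s + t)
  have e5 := sm'.comm K T t (s + t)
  have e6 := sm'.comm K T t s
  rw [h]
  exact sq_tri (C := sm T s t) (sm'.nonneg K T s) (sm'.nonneg K T t) (by linarith)
    (le_trans (le_abs_self _) (sm'.cs K T s t hs ht))

theorem sneg {K : Set ℂ} (T : Set ℂ) (s t : Cmp K → ℝ) :
    sm T (s - t) (s - t) = sm T (t - s) (t - s) := by
  unfold sm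
  refine tsum_congr fun p => ?_
  simp only [Pi.sub_apply]
  split_ifs
  · ring
  · rfl

theorem inn (K : Set ℂ) (f g : ℂ → ℂ) : 0 ≤ ∫ z in Kᶜ, ‖deriv f z - deriv g z‖ ^ 2 :=
  integral_nonneg fun _ => sq_nonneg _

end AD2

open AD2 in
theorem s_d2 (adm : S_adm) (sm : S_sm) (hol : S_hol) : S_d2 := by
  have le1 : ∀ (K : Set ℂ) (f g : ℂ → ℂ) (ρ σ : Cmp K → ℝ),
      ∫ z in Kᶜ, ‖deriv f z - deriv g z‖ ^ 2 ≤ d2 K f ρ g σ := fun K f g ρ σ =>
    le_add_of_nonneg_right (sm.nonneg K K _)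
  have le2 : ∀ (K : Set ℂ) (f g : ℂ → ℂ) (ρ σ : Cmp K → ℝ),
      P116.sm K (ρ - σ) (ρ - σ) ≤ d2 K f ρ g σ := fun K f g ρ σ =>
    le_add_of_nonneg_left (inn K f g)
  have md : ∀ f g : ℂ → ℂ, Measurable fun z => deriv f z - deriv g z := fun f g =>
    (measurable_deriv f).sub (measurable_deriv g)
  refine ⟨fun K f g ρ σ => add_nonneg (inn K f g) (sm.nonneg K K _), fun K f g ρ σ => ?_,
    fun K c f g h ρ σ τ hK hf hg hh hρ hσ hτ => ?_, fun K f g ρ σ p hρ hσ => ?_,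
    fun K T f g ρ σ hρ hσ hT => ?_, fun K S c f g ρ σ hK hf hg hS hSK hb => ?_,
    fun lu K C z₀ hK hz hC hCK => ?_⟩
  · unfold d2
    rw [sneg K ρ σ]
    simp only [norm_sub_rev (deriv f _)]
  · refine comb (inn K f h) (sm.nonneg K K _) (inn K f g) (sm.nonneg K K _) (inn K g h)
      (sm.nonneg K K _) ?_ ?_
    · exact mink (mem2 (md f g) (hol.sub K c f g hK hf hg).2.1)
        (mem2 (md g h) (hol.sub K c g h hK hg hh).2.1) fun z => (sub_add_sub_cancel _ _ _).symm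
    · exact smink sm K (sm.sqadd K ρ σ hρ.2 hσ.2).2 (sm.sqadd K σ τ hσ.2 hτ.2).2
        (sub_add_sub_cancel _ _ _).symm
  · have h1 : p.1 ⊆ K := by
      obtain ⟨z, _, e⟩ := p.2
      rw [e]
      exact connectedComponentIn_subset K z
    exact Real.abs_le_sqrt ((sm.single K K (ρ - σ) p (sm.sqadd K ρ σ hρ.2 hσ.2).2 h1).trans
      (le2 K f g ρ σ))
  · have h1 := (sm.mono2 K T K (ρ - σ) (sm.sqadd K ρ σ hρ.2 hσ.2).2 hT).trans (le2 K f g ρ σ)
    refine ⟨?_, h1⟩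
    have h2 := smink sm T (u := σ) hρ.2 (sm.sqadd K σ ρ hσ.2 hρ.2).2 (add_sub_cancel _ _).symm
    rw [sneg T σ ρ] at h2
    exact h2.trans (add_le_add_right (Real.sqrt_le_sqrt h1) _)
  · obtain ⟨_, s2, _, _, s5, s6⟩ := hol.sub K c f g hK hf hg
    have fin : IsFiniteMeasure (volume.restrict S) :=
      isFiniteMeasure_restrict.2 hb.measure_lt_top.ne
    have m1 : MemLp (deriv f) 2 (volume.restrict S) := by
      have h1 := (mem2 ((measurable_deriv f).sub_const c) (hf.2.mono_set hSK)).add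
        (memLp_const c)
      exact h1.ae_eq (Eventually.of_forall fun z => sub_add_cancel _ _)
    have m2 := (mem2 (md f g) (s2.mono_set hSK)).neg
    have h1 := mink (c := deriv g) m1 m2 fun z => by simp
    have h2 : ∫ z in S, ‖deriv f z - deriv g z‖ ^ 2 ≤ ∫ z in Kᶜ, ‖deriv f z - deriv g z‖ ^ 2 :=
      setIntegral_mono_set s2 (Eventually.of_forall fun z => sq_nonneg _) hSK.eventuallyLE
    simp only [Pi.neg_apply, norm_neg] at h1
    have h3 := h1.trans (add_le_add_right (Real.sqrt_le_sqrt (h2.trans (le1 K f g ρ σ))) _)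
    obtain ⟨e1, e2⟩ := hol.eneq K S c f hK hf hS hSK
    obtain ⟨e3, e4⟩ := hol.eneq K S c g hK hg hS hSK
    rw [e1, e2, e3, e4, s5, s6]
    exact ⟨h3, h3, le1 K f g ρ σ, le1 K f g ρ σ⟩
  · obtain ⟨M, hM, h⟩ := lu K C z₀ hK hz hC hCK
    refine ⟨M, hM, fun c f g ρ σ hf hg f0 g0 z hzC => ?_⟩
    have hc := hK.cpt.isClosed
    have h1 := h (f - g) (hol.sub K c f g hc hf hg).1 (by simp [f0, g0]) z hzC
    have h2 : ∫ z in Kᶜ, ‖deriv (f - g) z‖ ^ 2 = ∫ z in Kᶜ, ‖deriv f z - deriv g z‖ ^ 2 :=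
      setIntegral_congr_fun hc.isOpen_compl.measurableSet fun w hw => by
        rw [deriv_sub (hf.1.differentiableAt (hc.isOpen_compl.mem_nhds hw))
          (hg.1.differentiableAt (hc.isOpen_compl.mem_nhds hw))]
    rw [h2] at h1
    exact h1.trans (mul_le_mul_of_nonneg_left (Real.sqrt_le_sqrt (le1 K f g ρ σ)) hM)

end Vale.Agent.P116
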