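import Vale.Agent.P116.AStm2

/-! Step A: behaviour at infinity. -/

open Set Filter Topology MeasureTheory Metric Complex
open scoped ENNReal NNReal

noncomputable section
namespace Vale.Agent.P116

theorem decay_circ {f : ℂ → ℂ} {s : ℝ} (hf : ∀ y ∈ closedBall (0 : ℂ) s, DifferentiableAt ℂ f y)
    {y : ℂ} (hy : y ∈ closedBall (0 : ℂ) s) :
    ∫ θ in Icc 0 (2 * Real.pi), f (circleMap 0 1 θ * y) = (2 * Real.pi) • f 0 := by
  have h1 : DifferentiableOn ℂ (fun ζ => f (ζ * y)) (closedBall 0 |(1 : ℝ)|) := by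
    intro ζ hζ
    have h2 : ζ * y ∈ closedBall (0 : ℂ) s := by
      rw [mem_closedBall_zero_iff] at hζ hy ⊢
      rw [norm_mul]
      rw [abs_one] at hζ
      nlinarith [norm_nonneg ζ, norm_nonneg y]
    exact ((hf _ h2).comp ζ (differentiableAt_id.mul_const y)).differentiableWithinAt
  have h3 : DiffContOnCl ℂ (fun ζ => f (ζ * y)) (ball 0 |(1 : ℝ)|) :=
    (h1.mono closure_ball_subset_closedBall).diffContOnCl
  have h4 := h3.circleAverage
  rw [Real.circleAverage_def] at h4
  have hp : (2 * Real.pi) ≠ 0 := by have := Real.pi_pos; positivity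
  rw [integral_Icc_eq_integral_Ioc, ← intervalIntegral.integral_of_le (by positivity)]
  simp only [zero_mul] at h4
  rw [← h4, smul_smul, mul_inv_cancel₀ hp, one_smul]

theorem decay_rot (f : ℂ → ℂ) (s θ : ℝ) :
    ∫ y in closedBall (0 : ℂ) s, f (circleMap 0 1 θ * y) = ∫ y in closedBall (0 : ℂ) s, f y := by
  have h1 := (rotation (Circle.exp θ)).measurePreserving
  have h2 := h1.setIntegral_preimage_emb
    (rotation (Circle.exp θ)).toHomeomorph.measurableEmbedding f (closedBall 0 s)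
  have h3 : (rotation (Circle.exp θ)) ⁻¹' (closedBall 0 s) = closedBall 0 s := by
    ext y; simp only [mem_preimage, mem_closedBall_zero_iff, LinearIsometryEquiv.norm_map]
  rw [h3] at h2
  rw [← h2]
  simp [circleMap, rotation_apply]

theorem decay_mean {f : ℂ → ℂ} {s : ℝ}
    (hf : ∀ y ∈ closedBall (0 : ℂ) s, DifferentiableAt ℂ f y) :
    ∫ y in closedBall (0 : ℂ) s, f y = (volume.real (closedBall (0 : ℂ) s)) • f 0 := by
  have hc : ContinuousOn f (closedBall 0 s) := fun y hy =>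
    (hf y hy).continuousAt.continuousWithinAt
  have hi : Integrable (Function.uncurry fun (θ : ℝ) (y : ℂ) => f (circleMap 0 1 θ * y))
      ((volume.restrict (Icc 0 (2 * Real.pi))).prod (volume.restrict (closedBall (0 : ℂ) s))) := by
    rw [Measure.prod_restrict]
    refine ContinuousOn.integrableOn_compact (isCompact_Icc.prod (isCompact_closedBall _ _)) ?_
    refine hc.comp (f := fun q : ℝ × ℂ => circleMap 0 1 q.1 * q.2) (by fun_prop) fun q hq => ?_
    have := hq.2
    rw [mem_closedBall_zero_iff] at this ⊢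
    simpa using this
  have h1 := integral_integral_swap hi
  simp only [decay_rot] at h1
  rw [setIntegral_congr_fun measurableSet_closedBall fun y hy => decay_circ hf hy] at h1
  have hp : 0 < 2 * Real.pi := by have := Real.pi_pos; positivity
  simp only [integral_const, measureReal_restrict_apply_univ, Real.volume_real_Icc, sub_zero,
    max_eq_left hp.le] at h1
  rw [smul_comm] at h1
  exact smul_right_injective ℂ hp.ne' h1

/-- The mean value inequality on discs. -/
theorem decay_submean {f : ℂ → ℂ} {c : ℂ} {s : ℝ} (hs : 0 < s)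
    (hf : ∀ y ∈ closedBall c s, DifferentiableAt ℂ f y) :
    Real.pi * s ^ 2 * ‖f c‖ ^ 2 ≤ ∫ y in closedBall c s, ‖f y‖ ^ 2 := by
  have hv : volume.real (closedBall (0 : ℂ) s) = Real.pi * s ^ 2 := by
    rw [Measure.real, Complex.volume_closedBall]
    simp [ENNReal.toReal_ofReal hs.le, mul_comm]
  have h1 := norm_integral_le_integral_norm (μ := volume.restrict (closedBall (0 : ℂ) s))
    fun z => f (c + z) ^ 2
  rw [decay_mean (f := fun z => f (c + z) ^ 2) fun y hy =>
    ((hf (c + y) (by simpa using hy)).comp y (differentiableAt_id.const_add c)).pow 2,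
    norm_smul, hv, Real.norm_eq_abs, abs_of_nonneg (by have := Real.pi_pos; positivity)] at h1
  have h2 := (measurePreserving_add_left volume c).setIntegral_preimage_emb
    (Homeomorph.addLeft c).measurableEmbedding (fun y => ‖f y‖ ^ 2) (closedBall c s)
  have h3 : (fun z => c + z) ⁻¹' closedBall c s = closedBall 0 s := by
    ext y; simp
  rw [h3] at h2
  rw [← h2]
  simpa using h1

theorem decay_zero {K : Set ℂ} {g : ℂ → ℂ} (hK : IsCompact K) (hg : DifferentiableOn ℂ g Kᶜ)
    (hi : IntegrableOn (fun z => ‖g z‖ ^ 2) Kᶜ) : Tendsto g (cocompact ℂ) (𝓝 0) := by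
  obtain ⟨R, hR⟩ := hK.isBounded.subset_ball 0
  have hanti : Antitone fun n : ℕ => (ball (0 : ℂ) (R + n))ᶜ := fun m n h =>
    compl_subset_compl.2 (ball_subset_ball (by gcongr))
  have hsub : ∀ n : ℕ, (ball (0 : ℂ) (R + n))ᶜ ⊆ Kᶜ := fun n =>
    compl_subset_compl.2 (hR.trans (ball_subset_ball (by linarith [n.cast_nonneg (α := ℝ)])))
  have ht := tendsto_setIntegral_of_antitone (μ := volume) (f := fun z => ‖g z‖ ^ 2)
    (fun n : ℕ => (measurableSet_ball (x := (0 : ℂ)) (ε := R + n)).compl) hanti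
    ⟨0, hi.mono_set (hsub 0)⟩
  have he : ⋂ n : ℕ, (ball (0 : ℂ) (R + n))ᶜ = ∅ := by
    refine eq_empty_of_forall_notMem fun z hz => ?_
    obtain ⟨n, hn⟩ := exists_nat_gt (‖z‖ - R)
    exact mem_iInter.1 hz n (mem_ball_zero_iff.2 (by linarith))
  rw [he, Measure.restrict_empty, integral_zero_measure] at ht
  rw [Metric.tendsto_nhds]
  intro ε hε
  obtain ⟨n, hn⟩ := (ht.eventually (gt_mem_nhds (show 0 < ε ^ 2 by positivity))).exists
  filter_upwards [(isCompact_closedBall (0 : ℂ) (R + n + 1)).compl_mem_cocompact] with z hz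
  have hz' : R + n + 1 < ‖z‖ := by simpa using hz
  have hs : closedBall z 1 ⊆ (ball (0 : ℂ) (R + n))ᶜ := fun w hw hw' => by
    rw [mem_ball_zero_iff] at hw'
    rw [mem_closedBall_iff_norm'] at hw
    linarith [norm_sub_norm_le z w]
  have h1 := decay_submean (f := g) (c := z) one_pos fun y hy =>
    hg.differentiableAt (hK.isClosed.isOpen_compl.mem_nhds (hsub n (hs hy)))
  have h2 : ∫ y in closedBall z 1, ‖g y‖ ^ 2 ≤ ∫ y in (ball (0 : ℂ) (R + n))ᶜ, ‖g y‖ ^ 2 :=
    setIntegral_mono_set (hi.mono_set (hsub n)) (ae_of_all _ fun y => sq_nonneg _) hs.eventuallyLE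
  rw [dist_zero_right]
  refine lt_of_pow_lt_pow_left₀ 2 hε.le ?_
  nlinarith [Real.pi_gt_three, sq_nonneg ‖g z‖]

theorem decay_lin {K : Set ℂ} {F : ℂ → ℂ} (hK : IsCompact K) (hF : DifferentiableOn ℂ F Kᶜ)
    (hd : Tendsto (deriv F) (cocompact ℂ) (𝓝 0)) {ε : ℝ} (hε : 0 < ε) :
    ∃ M, ∀ᶠ z in cocompact ℂ, ‖F z‖ ≤ M + ε * ‖z‖ := by
  obtain ⟨C, hC, hCs⟩ := mem_cocompact.1
    (inter_mem (Metric.tendsto_nhds.1 hd ε hε) hK.compl_mem_cocompact)
  obtain ⟨R, hR0, hR⟩ := hC.isBounded.subset_ball_lt 0 0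
  have hout : ∀ w : ℂ, R ≤ ‖w‖ → ‖deriv F w‖ ≤ ε ∧ DifferentiableAt ℂ F w := fun w hw => by
    have h := hCs (a := w) fun h => (mem_ball_zero_iff.1 (hR h)).not_ge hw
    exact ⟨le_of_lt (by simpa using h.1), hF.differentiableAt (hK.isClosed.isOpen_compl.mem_nhds h.2)⟩
  obtain ⟨M, hM⟩ := (isCompact_sphere (0 : ℂ) R).exists_bound_of_continuousOn (f := F)
    fun w hw => (hout w (mem_sphere_zero_iff_norm.1 hw).ge).2.continuousAt.continuousWithinAt
  refine ⟨M, ?_⟩
  filter_upwards [(isCompact_closedBall (0 : ℂ) R).compl_mem_cocompact] with z hz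
  have hz' : R < ‖z‖ := by simpa using hz
  have hz0 : 0 < ‖z‖ := hR0.trans hz'
  have ht1 : R / ‖z‖ ≤ 1 := (div_le_one hz0).2 hz'.le
  have ht0 : 0 < R / ‖z‖ := div_pos hR0 hz0
  have hn : ∀ t : ℝ, 0 ≤ t → ‖t • z‖ = t * ‖z‖ := fun t ht => by
    rw [norm_smul, Real.norm_of_nonneg ht]
  have hseg : ∀ w ∈ segment ℝ ((R / ‖z‖) • z) z, R ≤ ‖w‖ := by
    rintro _ ⟨a, b, ha, hb, hab, rfl⟩
    have e : a • (R / ‖z‖) • z + b • z = (a * (R / ‖z‖) + b) • z := by
      rw [add_smul, mul_smul]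
    rw [e, hn _ (by positivity), add_mul, mul_assoc, div_mul_cancel₀ _ hz0.ne']
    have : R = a * R + b * R := by rw [← add_mul, hab, one_mul]
    nlinarith
  have h1 := (convex_segment ((R / ‖z‖) • z) z).norm_image_sub_le_of_norm_deriv_le
    (fun w hw => (hout w (hseg w hw)).2) (fun w hw => (hout w (hseg w hw)).1)
    (left_mem_segment ℝ _ _) (right_mem_segment ℝ _ _)
  have h2 : ‖z - (R / ‖z‖) • z‖ ≤ ‖z‖ := by
    have e : z - (R / ‖z‖) • z = (1 - R / ‖z‖) • z := by rw [sub_smul, one_smul]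
    rw [e, hn _ (by linarith)]
    nlinarith
  have h3 := hM ((R / ‖z‖) • z) (by
    rw [mem_sphere_zero_iff_norm, hn _ ht0.le, div_mul_cancel₀ _ hz0.ne'])
  have h4 := norm_sub_norm_le (F z) (F ((R / ‖z‖) • z))
  nlinarith

theorem decay_lim {K : Set ℂ} {F : ℂ → ℂ} (hK : IsCompact K) (hF : DifferentiableOn ℂ F Kᶜ)
    (hd : Tendsto (deriv F) (cocompact ℂ) (𝓝 0)) : ∃ c₀, Tendsto F (cocompact ℂ) (𝓝 c₀) := by
  have hi : Tendsto (fun w : ℂ => w⁻¹) (𝓝[≠] 0) (cocompact ℂ) := by
    rw [← cobounded_eq_cocompact]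
    exact tendsto_inv₀_nhdsNE_zero
  have hj : Tendsto (fun w : ℂ => w⁻¹) (cocompact ℂ) (𝓝[≠] 0) := by
    rw [← cobounded_eq_cocompact]
    exact tendsto_inv₀_cobounded'
  have hn : Tendsto (fun z : ℂ => ‖z‖) (cocompact ℂ) atTop := tendsto_norm_cocompact_atTop
  have ho : (fun z => F z - F 0⁻¹) =o[cocompact ℂ] fun z => z := by
    refine Asymptotics.isLittleO_iff.2 fun ε hε => ?_
    obtain ⟨M, hM⟩ := decay_lin hK hF hd (half_pos hε)
    filter_upwards [hM, hn.eventually_ge_atTop ((M + ‖F 0⁻¹‖) / (ε / 2))] with z h1 h2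
    rw [div_le_iff₀ (half_pos hε)] at h2
    linarith [norm_sub_le (F z) (F 0⁻¹)]
  have h := tendsto_limUnder_of_differentiable_on_punctured_nhds_of_isLittleO
    (f := fun w => F w⁻¹) (c := 0) ?_ (by simp only [sub_zero]; exact ho.comp_tendsto hi)
  · exact ⟨_, by simpa [Function.comp_def] using h.comp hj⟩
  · filter_upwards [hi.eventually hK.compl_mem_cocompact, self_mem_nhdsWithin] with w h1 h2
    exact (hF.differentiableAt (hK.isClosed.isOpen_compl.mem_nhds h1)).comp w
      (differentiableAt_inv h2)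

theorem s_decay : S_decay := by
  intro K c f hK hf
  have ho := hK.isClosed.isOpen_compl
  have h1 := decay_zero hK ((hf.1.deriv ho).sub_const c) hf.2
  refine ⟨decay_lim hK (hf.1.sub ((differentiableOn_const c).mul differentiableOn_id))
    (h1.congr' ?_), tendsto_sub_nhds_zero_iff.1 h1⟩
  filter_upwards [hK.compl_mem_cocompact] with z hz
  exact (((hf.1.differentiableAt (ho.mem_nhds hz)).hasDerivAt.sub
    ((hasDerivAt_id z).const_mul c)).deriv.trans (by rw [mul_one])).symm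

end Vale.Agent.P116
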