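import Vale.Agent.P116.KoDefs

/-! Step A (square domains): definitions. -/

open Set Filter Topology MeasureTheory Metric Complex
open scoped ENNReal NNReal

noncomputable section
namespace Vale.Agent.P116

/-- The components of `K`, as sets. -/
def Cmp (K : Set ℂ) : Type := {p : Set ℂ // ∃ z ∈ K, p = connectedComponentIn K z}

/-- `K` is compact with connected complement. -/
structure Ctx (K : Set ℂ) : Prop where
  cpt : IsCompact K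
  con : IsPreconnected Kᶜ

/-- The gradient as a complex number. -/
def gr (θ : ℂ → ℝ) (z : ℂ) : ℂ := ⟨fderiv ℝ θ z 1, fderiv ℝ θ z I⟩

/-- The density of `da ∧ db`. -/
def wd (a b : ℂ → ℝ) (z : ℂ) : ℝ :=
  fderiv ℝ a z 1 * fderiv ℝ b z I - fderiv ℝ a z I * fderiv ℝ b z 1

/-- The energy on a set. -/
def en (S : Set ℂ) (θ : ℂ → ℝ) : ℝ := ∫ z in S, ‖gr θ z‖ ^ 2

/-- Locally Lipschitz off `K`, with finite energy on bounded sets. -/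
def Adm (K : Set ℂ) (θ : ℂ → ℝ) : Prop :=
  LocallyLipschitzOn Kᶜ θ ∧ ∀ R : ℝ, IntegrableOn (fun z => ‖gr θ z‖ ^ 2) (ball 0 R \ K)

/-- The oscillation of `θ` at the set `p`, from outside `K`, is at most `t`. -/
def Osc (K p : Set ℂ) (θ : ℂ → ℝ) (t : ℝ) : Prop :=
  ∀ ε > 0, ∃ U, IsOpen U ∧ p ⊆ U ∧ ∀ z ∈ U \ K, ∀ w ∈ U \ K, θ z - θ w ≤ t + ε

/-- Near `p`, off `K`, the values of `θ` are close to `[lo, lo + t]`. -/
def Clu (K p : Set ℂ) (θ : ℂ → ℝ) (lo t : ℝ) : Prop :=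
  ∀ ε > 0, ∃ U, IsOpen U ∧ p ⊆ U ∧ ∀ z ∈ U \ K, lo - ε ≤ θ z ∧ θ z ≤ lo + t + ε

/-- `θ` is constant near each component of `K` inside `T`. -/
def LocC (K T : Set ℂ) (θ : ℂ → ℝ) : Prop :=
  ∀ p : Cmp K, p.1 ⊆ T → ∃ U c, IsOpen U ∧ p.1 ⊆ U ∧ ∀ z ∈ U \ K, θ z = c

/-- Nonnegative and square summable. -/
def Sq {K : Set ℂ} (s : Cmp K → ℝ) : Prop := (∀ p, 0 ≤ s p) ∧ Summable fun p => s p ^ 2

open Classical in
/-- The pairing over the components inside `T`. -/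
def sm {K : Set ℂ} (T : Set ℂ) (s t : Cmp K → ℝ) : ℝ :=
  ∑' p : Cmp K, if p.1 ⊆ T then s p * t p else 0

/-- Good pairs on `T`. -/
def Good (K T : Set ℂ) (θ : ℂ → ℝ) (s : Cmp K → ℝ) : Prop :=
  Adm K θ ∧ Sq s ∧ ∀ p : Cmp K, p.1 ⊆ T → Osc K p.1 θ (s p)

/-- `Q` is clopen in `K`. -/
def Clo (K Q : Set ℂ) : Prop := Q ⊆ K ∧ IsClosed Q ∧ IsClosed (K \ Q)

/-- A cutoff for `Q`. -/
def Cut (K Q : Set ℂ) (χ : ℂ → ℝ) : Prop :=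
  ContDiff ℝ 2 χ ∧ HasCompactSupport χ ∧ (∀ z, 0 ≤ χ z ∧ χ z ≤ 1) ∧
    (∀ᶠ z in 𝓝ˢ Q, χ z = 1) ∧ ∀ᶠ z in 𝓝ˢ (K \ Q), χ z = 0

/-- The boundary form computed with a cutoff. -/
def omc (K : Set ℂ) (χ a b : ℂ → ℝ) : ℝ := ∫ z in Kᶜ, wd (fun w => χ w * a w) b z

/-- The boundary form of the clopen piece `Q`. -/
def om (K Q : Set ℂ) (a b : ℂ → ℝ) : ℝ := omc K (Classical.epsilon (Cut K Q)) a b

/-- The dual condition. -/
def Star (K T : Set ℂ) (ψ : ℂ → ℝ) (τ : Cmp K → ℝ) : Prop :=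
  Adm K ψ ∧ Sq τ ∧ ∀ θ s, Good K T θ s → |om K T θ ψ| ≤ sm T s τ

/-- `(φ, s)` is a good pair on `T` which is `ε` close to `(ψ, τ)`. -/
def Apx (K T : Set ℂ) (ψ : ℂ → ℝ) (τ : Cmp K → ℝ) (ε : ℝ) (φ : ℂ → ℝ) (s : Cmp K → ℝ) : Prop :=
  Good K T φ s ∧ (∀ z, z ∉ thickening ε K → φ z = ψ z) ∧ en Kᶜ (φ - ψ) ≤ ε ∧
    sm T (s - τ) (s - τ) ≤ ε

/-- Approximable by good pairs. -/
def Appr (K T : Set ℂ) (ψ : ℂ → ℝ) (τ : Cmp K → ℝ) : Prop :=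
  Adm K ψ ∧ Sq τ ∧ ∀ ε > 0, ∃ φ s, Apx K T ψ τ ε φ s

/-- Real part. -/
def ru (f : ℂ → ℂ) : ℂ → ℝ := fun z => (f z).re

/-- Imaginary part. -/
def iv (f : ℂ → ℂ) : ℂ → ℝ := fun z => (f z).im

/-- The point with real part `a z` and imaginary part `b z`. -/
def pr (a b : ℂ → ℝ) (z : ℂ) : ℂ := ⟨a z, b z⟩

/-- Holomorphic off `K` with derivative `c` up to a square integrable function. -/
def Hol (K : Set ℂ) (c : ℂ) (f : ℂ → ℂ) : Prop :=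
  DifferentiableOn ℂ f Kᶜ ∧ IntegrableOn (fun z => ‖deriv f z - c‖ ^ 2) Kᶜ

/-- Candidates, before univalence. -/
structure Pre0 (K : Set ℂ) (z₀ c : ℂ) (f : ℂ → ℂ) (ρ : Cmp K → ℝ) : Prop where
  hol : Hol K c f
  nrm : f z₀ = 0
  au : Appr K K (ru f) ρ
  av : Appr K K (iv f) ρ
  area : ∀ Q, Clo K Q → - om K Q (ru f) (iv f) = sm Q ρ ρ

/-- Candidates. -/
structure Pre (K : Set ℂ) (z₀ c : ℂ) (f : ℂ → ℂ) (ρ : Cmp K → ℝ) : Prop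
    extends Pre0 K z₀ c f ρ where
  inj : InjOn f Kᶜ

/-- Solutions of the mixed problem of type `A`. -/
structure Sol (K : Set ℂ) (z₀ c : ℂ) (A : Set ℂ) (f : ℂ → ℂ) (ρ : Cmp K → ℝ) : Prop
    extends Pre K z₀ c f ρ where
  clo : Clo K A
  sv : Star K A (iv f) ρ
  su : Star K (K \ A) (ru f) ρ

/-- The standing hypotheses. -/
structure Base (K : Set ℂ) (z₀ c : ℂ) : Prop extends Ctx K where
  out : z₀ ∉ K
  ne : c ≠ 0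

/-- A univalent map with the right behaviour at infinity. -/
structure Uni (K : Set ℂ) (c : ℂ) (f : ℂ → ℂ) : Prop extends Ctx K where
  ne : c ≠ 0
  hol : Hol K c f
  inj : InjOn f Kᶜ

/-- The squared distance. -/
def d2 (K : Set ℂ) (f : ℂ → ℂ) (ρ : Cmp K → ℝ) (g : ℂ → ℂ) (σ : Cmp K → ℝ) : ℝ :=
  (∫ z in Kᶜ, ‖deriv f z - deriv g z‖ ^ 2) + sm K (ρ - σ) (ρ - σ)

/-- The monotone functional. -/
def Lam (K : Set ℂ) (c : ℂ) (f : ℂ → ℂ) : ℝ :=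
  om K K (ru fun z => c * z) (iv f) - om K K (ru f) (iv fun z => c * z)

/-- The part of the complement of the image which corresponds to `S`. -/
def img (K : Set ℂ) (f : ℂ → ℂ) (S : Set ℂ) : Set ℂ :=
  {w | w ∉ f '' Kᶜ ∧ ∃ w' ∈ connectedComponentIn (f '' Kᶜ)ᶜ w,
    ∀ ε > 0, w' ∈ closure (f '' (thickening ε S \ K))}

/-- The mean width weight of `Φ` at a component. -/
def mw (K : Set ℂ) (f : ℂ → ℂ) (ρ : Cmp K → ℝ) (Φ : ℂ → ℝ) (p : Cmp K) : ℝ :=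
  (∫ w in img K f p.1, Φ w) / ρ p

/-- A certificate of small oscillation. -/
def Cert (K : Set ℂ) (θ : ℂ → ℝ) (ρ : Cmp K → ℝ) (η : ℝ) : Prop :=
  ∀ q : Cmp K, ∃ (p : Cmp K) (W : Set ℂ) (t : ℝ), IsOpen W ∧ q.1 ⊆ W ∧ W ⊆ thickening η p.1 ∧
    Disjoint (frontier W) K ∧ t < ρ p + η ∧ ∀ z ∈ W \ K, ∀ w ∈ W \ K, θ z - θ w ≤ t

/-- Monotone test functions with compactly supported derivative. -/
def Stp (a : ℝ → ℝ) : Prop :=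
  ContDiff ℝ 2 a ∧ (∀ x, 0 ≤ deriv a x) ∧ HasCompactSupport (deriv a)

/-- Transboundary paths in the closed unit disc. -/
def Pth (K A : Set ℂ) : Prop :=
  IsCompact A ∧ IsPreconnected A ∧ A ⊆ closedBall 0 1 ∧
    {p : Cmp K | (p.1 ∩ A).Nonempty}.Countable

open Classical in
/-- The cost of a path. -/
def cost (K : Set ℂ) (lam : ℂ → ℝ≥0∞) (s : Cmp K → ℝ) (A : Set ℂ) : ℝ≥0∞ :=
  (∫⁻ z in A \ K, lam z ∂μH[1]) +
    ∑' p : Cmp K, if (p.1 ∩ A).Nonempty then ENNReal.ofReal (s p) else 0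

/-- `w` is Lipschitz for the cost, between points of `D`. -/
def LipC (K : Set ℂ) (lam : ℂ → ℝ≥0∞) (s : Cmp K → ℝ) (D : Set ℂ) (w : ℂ → ℝ) : Prop :=
  ∀ A, Pth K A → ∀ z ∈ A ∩ D, ∀ z' ∈ A ∩ D, ENNReal.ofReal (w z' - w z) ≤ cost K lam s A

/-- Uniform local Lipschitz bounds on `U`. -/
def ULip (U : Set ℂ) (L : ℂ → ℝ≥0) (rad : ℂ → ℝ) (ζ : ℂ → ℝ) : Prop :=
  ∀ z ∈ U, LipschitzOnWith (L z) ζ (ball z (rad z))

/-- The pairing of a weight with a pair. -/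
def pg (K Ω : Set ℂ) (g : ℂ → ℝ≥0∞) (s : Cmp K → ℝ) (x : (ℂ → ℝ) × (Cmp K → ℝ)) : ℝ≥0∞ :=
  (∫⁻ z in Ω, g z * ‖gr x.1 z‖ₑ) + ∑' p : Cmp K, ENNReal.ofReal (s p * x.2 p)

/-- The squared norm of a weight. -/
def nq (K Ω : Set ℂ) (g : ℂ → ℝ≥0∞) (s : Cmp K → ℝ) : ℝ≥0∞ :=
  (∫⁻ z in Ω, g z ^ 2) + ∑' p : Cmp K, ENNReal.ofReal (s p ^ 2)

end Vale.Agent.P116
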