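import Vale.Agent.P116.AStm2

/-! Step A (square domains): the degree identity. -/

open Set Filter Topology MeasureTheory Metric Complex
open scoped ENNReal NNReal

noncomputable section
namespace Vale.Agent.P116

theorem deg_c1 {a : ℝ → ℝ} (h : Stp a) : ContDiff ℝ 1 (deriv a) := by
  have h1 : ContDiff ℝ (1 + 1) a := h.1
  exact h1.deriv'

theorem deg_wd {a b : ℝ → ℝ} (ha : Stp a) (hb : Stp b) {u v : ℂ → ℝ} {z : ℂ}
    (hu : DifferentiableAt ℝ u z) (hv : DifferentiableAt ℝ v z) :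
    wd (fun w => a (u w) * deriv b (v w)) v z = deriv a (u z) * deriv b (v z) * wd u v z := by
  have h1 := ((ha.1.differentiable (by norm_num)) (u z)).hasDerivAt.comp_hasFDerivAt z
    hu.hasFDerivAt
  have h2 := (((deg_c1 hb).differentiable (by norm_num)) (v z)).hasDerivAt.comp_hasFDerivAt z
    hv.hasFDerivAt
  have h3 : HasFDerivAt (fun w => a (u w) * deriv b (v w)) _ z := h1.mul h2
  unfold wd
  rw [h3.fderiv]
  simp only [_root_.add_apply, _root_.smul_apply, smul_eq_mul,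
    Function.comp_apply]
  ring

theorem deg_bd {a : ℝ → ℝ} (h : Stp a) : ∃ (M : ℝ) (L L' : ℝ≥0), (∀ x, |a x| ≤ M) ∧
    (∀ x, |deriv a x| ≤ M) ∧ (∀ x, deriv a x ≠ 0 → |x| ≤ M) ∧ LipschitzWith L a ∧
    LipschitzWith L' (deriv a) := by
  have c := (deg_c1 h).continuous
  have d := h.1.differentiable (by norm_num)
  obtain ⟨M1, h1⟩ := c.bounded_above_of_compact_support h.2.2
  obtain ⟨M2, h2⟩ := h.2.2.isBounded.subset_closedBall 0
  obtain ⟨L', h3⟩ := (deg_c1 h).lipschitzWith_of_hasCompactSupport h.2.2 (by norm_num)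
  have i : Integrable (deriv a) := c.integrable_of_hasCompactSupport h.2.2
  have h4 : ∀ x, |a x| ≤ |a 0| + ∫ t, ‖deriv a t‖ := fun x => by
    have e := intervalIntegral.integral_deriv_eq_sub (f := a) (a := 0) (b := x) (fun t _ => d t)
      i.intervalIntegrable
    have e1 := intervalIntegral.norm_integral_le_integral_norm_uIoc (f := deriv a) (a := 0)
      (b := x) (μ := volume)
    have e2 := setIntegral_le_integral (s := uIoc 0 x) i.norm (.of_forall fun t => norm_nonneg _)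
    rw [e, Real.norm_eq_abs] at e1
    have := abs_sub_abs_le_abs_sub (a x) (a 0)
    linarith
  refine ⟨max (|a 0| + ∫ t, ‖deriv a t‖) (max M1 M2), M1.toNNReal, L',
    fun x => (h4 x).trans (le_max_left _ _),
    fun x => (h1 x).trans ((le_max_left _ _).trans (le_max_right _ _)), fun x hx => ?_,
    lipschitzWith_of_nnnorm_deriv_le d fun x => ?_, h3⟩
  · have := h2 (subset_tsupport _ hx)
    rw [mem_closedBall_zero_iff] at this
    exact this.trans ((le_max_right _ _).trans (le_max_right _ _))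
  · exact Real.le_toNNReal_iff_coe_le ((norm_nonneg _).trans (h1 x)) |>.2 (h1 x)

theorem deg_adm (L : Lib) {K : Set ℂ} (hK : IsClosed K) {a b : ℝ → ℝ} (ha : Stp a) (hb : Stp b)
    {u v : ℂ → ℝ} (hu : Adm K u) (hv : Adm K v) :
    Adm K fun w => a (u w) * deriv b (v w) := by
  obtain ⟨M, La, -, a1, -, -, a2, -⟩ := deg_bd ha
  obtain ⟨N, -, Lb, -, b1, -, -, b2⟩ := deg_bd hb
  exact L.adm.mul K _ _ (max M N) hK (L.comp.adm1 K u a La hK hu a2).1
    (L.comp.adm1 K v _ Lb hK hv b2).1 (fun z _ => (a1 _).trans (le_max_left _ _))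
    fun z _ => (b1 _).trans (le_max_right _ _)

theorem deg_cut (L : Lib) (R : ℝ) : ∃ χ : ℂ → ℝ, (∀ K : Set ℂ, K ⊆ closedBall 0 R → Cut K K χ) ∧
    ∀ z, ‖z‖ ≤ R → χ =ᶠ[𝓝 z] fun _ => 1 := by
  obtain ⟨χ, h, -⟩ := L.cut (closedBall 0 R) (closedBall 0 R) univ (isCompact_closedBall 0 R)
    (L.cmp.clo_self _ isClosed_closedBall) isOpen_univ (subset_univ _)
  refine ⟨χ, fun K hK => ⟨h.1, h.2.1, h.2.2.1, h.2.2.2.1.filter_mono (nhdsSet_mono hK), ?_⟩,
    fun z hz => h.2.2.2.1.filter_mono (nhds_le_nhdsSet (mem_closedBall_zero_iff.2 hz))⟩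
  rw [sdiff_self, nhdsSet_empty]
  exact eventually_bot

theorem deg_congr {a b a' b' : ℂ → ℝ} {z : ℂ} (h : a =ᶠ[𝓝 z] a') (h' : b =ᶠ[𝓝 z] b') :
    wd a b z = wd a' b' z := by
  unfold wd
  rw [h.fderiv_eq, h'.fderiv_eq]

theorem deg_one {χ b : ℂ → ℝ} {z : ℂ} (h : χ =ᶠ[𝓝 z] fun _ => 1) : wd χ b z = 0 := by
  unfold wd
  rw [h.fderiv_eq]
  simp

theorem deg_hol (L : Lib) {f : ℂ → ℂ} {z : ℂ} (h : DifferentiableAt ℂ f z) :
    DifferentiableAt ℝ (ru f) z ∧ DifferentiableAt ℝ (iv f) z ∧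
      wd (ru f) (iv f) z = ‖deriv f z‖ ^ 2 := by
  have h1 : DifferentiableAt ℝ f z := h.restrictScalars ℝ
  refine ⟨reCLM.differentiableAt.comp z h1, imCLM.differentiableAt.comp z h1, ?_⟩
  rw [L.hol.wdf f f z h h, mul_conj, ofReal_re, normSq_eq_norm_sq]

/-- The affine case. -/
theorem deg_lin (L : Lib) {a b : ℝ → ℝ} (ha : Stp a) (hb : Stp b) {c c₀ : ℂ} (hc : c ≠ 0)
    {χ : ℂ → ℝ} (hχ : Cut ∅ ∅ χ)
    (h1 : ∀ z, χ z = 1 ∨ deriv a (c * z + c₀).re * deriv b (c * z + c₀).im = 0) :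
    ∫ z, a (c * z + c₀).re * deriv b (c * z + c₀).im * wd χ (iv fun w => c * w + c₀) z =
      -∫ w : ℂ, deriv a w.re * deriv b w.im := by
  have dl : ∀ z, HasDerivAt (fun w => c * w + c₀) c z := fun z => by
    simpa using ((hasDerivAt_id z).const_mul c).add_const c₀
  have cl : ContDiff ℝ 1 fun w : ℂ => c * w + c₀ := by fun_prop
  have u1 : Adm ∅ (ru fun w => c * w + c₀) :=
    L.adm.c1 _ _ isClosed_empty (reCLM.contDiff.comp cl)
  have v1 : Adm ∅ (iv fun w => c * w + c₀) :=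
    L.adm.c1 _ _ isClosed_empty (imCLM.contDiff.comp cl)
  have g1 := deg_adm L isClosed_empty ha hb u1 v1
  have ce := L.cmp.clo_self ∅ isClosed_empty
  have e1 := (L.omA.expand ∅ ∅ χ _ _ isCompact_empty ce hχ g1 v1).2.2
  rw [L.omB.locc ∅ ∅ _ _ isCompact_empty ce g1 v1
    (fun p hp => absurd ((L.cmp.ne _ p).mono hp) Set.not_nonempty_empty), compl_empty,
    Measure.restrict_univ] at e1
  have e2 := (L.cov.int univ univ (fun w => c * w + c₀) (fun w => deriv a w.re * deriv b w.im)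
    isOpen_univ (fun z _ => (dl z).differentiableAt.differentiableWithinAt)
    (fun z _ w _ h => mul_left_cancel₀ hc (add_right_cancel h)) MeasurableSet.univ Subset.rfl).2
  have sj : (fun w => c * w + c₀) '' univ = univ :=
    eq_univ_of_forall fun w => ⟨(w - c₀) / c, trivial, by field_simp; ring⟩
  rw [sj, Measure.restrict_univ] at e2
  have e3 : ∀ z, χ z * wd (fun w => a (ru (fun w => c * w + c₀) w) *
      deriv b (iv (fun w => c * w + c₀) w)) (iv fun w => c * w + c₀) z =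
      deriv a (c * z + c₀).re * deriv b (c * z + c₀).im * ‖deriv (fun w => c * w + c₀) z‖ ^ 2 :=
    fun z => by
      obtain ⟨d1, d2, d3⟩ := deg_hol L (dl z).differentiableAt
      rw [deg_wd ha hb d1 d2, d3]
      show χ z * (deriv a (c * z + c₀).re * deriv b (c * z + c₀).im * _) = _
      rcases h1 z with h | h <;> rw [h]
      · rw [one_mul]
      · rw [zero_mul, mul_zero]
  simp only [e3] at e1
  rw [e2]
  exact eq_neg_of_add_eq_zero_right e1.symm

theorem deg_far (L : Lib) {K : Set ℂ} {c : ℂ} {f : ℂ → ℂ} {a b : ℝ → ℝ} (hK : IsCompact K)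
    (hc : c ≠ 0) (hf : Hol K c f) (ha : Stp a) (hb : Stp b) : ∃ (c₀ : ℂ) (R : ℝ),
    K ⊆ closedBall 0 R ∧ ∀ z, ¬‖z‖ ≤ R → ∀ t : ℝ, 0 ≤ t → t ≤ 1 →
      deriv a ((c * z + c₀).re + t * ((f z).re - (c * z + c₀).re)) *
        deriv b ((c * z + c₀).im + t * ((f z).im - (c * z + c₀).im)) = 0 := by
  obtain ⟨M, -, -, -, -, a1, -⟩ := deg_bd ha
  obtain ⟨N, -, -, -, -, b1, -⟩ := deg_bd hb
  obtain ⟨c₀, h0⟩ := (L.decay K c f hK hf).1
  obtain ⟨T, hT, h1⟩ := mem_cocompact.1 (Metric.tendsto_nhds.1 h0 1 one_pos)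
  obtain ⟨R1, h2⟩ := (hK.union hT).isBounded.subset_closedBall 0
  have c0 : 0 < ‖c‖ := norm_pos_iff.2 hc
  refine ⟨c₀, max R1 ((M + N + 2 + ‖c₀‖) / ‖c‖), fun z hz =>
    closedBall_subset_closedBall (le_max_left _ _) (h2 (Or.inl hz)), fun z hz t t0 t1 => ?_⟩
  rw [not_le, max_lt_iff] at hz
  have n1 : dist (f z - c * z) c₀ < 1 :=
    h1 fun h => not_le.2 hz.1 (mem_closedBall_zero_iff.1 (h2 (Or.inr h)))
  rw [dist_eq_norm, sub_sub] at n1
  have n2 := (div_lt_iff₀ c0).1 hz.2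
  have n3 := norm_sub_le (c * z + c₀) c₀
  rw [add_sub_cancel_right, norm_mul] at n3
  have n4 := norm_le_abs_re_add_abs_im (c * z + c₀)
  have n5 := (abs_re_le_norm (f z - (c * z + c₀))).trans n1.le
  have n6 := (abs_im_le_norm (f z - (c * z + c₀))).trans n1.le
  rw [sub_re] at n5
  rw [sub_im] at n6
  have key : ∀ x y : ℝ, |y - x| ≤ 1 → |x| ≤ |x + t * (y - x)| + 1 := fun x y h => by
    have e1 := abs_sub (x + t * (y - x)) (t * (y - x))
    rw [add_sub_cancel_right, abs_mul, abs_of_nonneg t0] at e1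
    have := mul_le_mul t1 h (abs_nonneg _) zero_le_one
    linarith
  by_contra n
  have m1 := a1 _ (left_ne_zero_of_mul n)
  have m2 := b1 _ (right_ne_zero_of_mul n)
  have m3 := key _ _ n5
  have m4 := key _ _ n6
  linarith

theorem s_deg (L : Lib) : S_deg := by
  intro K c f a b hK hc hf ha hb
  obtain ⟨c₀, R, hR, far⟩ := deg_far L hK hc hf ha hb
  obtain ⟨η, η1, η2⟩ := deg_cut L R
  have ηK := η1 K hR
  obtain ⟨R1, hR1⟩ := ηK.2.1.isBounded.subset_closedBall 0
  obtain ⟨χ, χ1, χ2⟩ := deg_cut L (max R R1)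
  have hR' : K ⊆ closedBall 0 (max R R1) :=
    hR.trans (closedBall_subset_closedBall (le_max_left _ _))
  have kc := hK.isClosed
  have ck := L.cmp.clo_self K kc
  have cl : ContDiff ℝ 1 fun w : ℂ => c * w + c₀ := by fun_prop
  obtain ⟨U, hU⟩ : ∃ U, U = ru fun w => c * w + c₀ := ⟨_, rfl⟩
  obtain ⟨V, hV⟩ : ∃ V, V = iv fun w => c * w + c₀ := ⟨_, rfl⟩
  have cU : ContDiff ℝ 1 U := hU ▸ reCLM.contDiff.comp cl
  have cV : ContDiff ℝ 1 V := hV ▸ imCLM.contDiff.comp cl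
  have eU : ∀ z, U z = (c * z + c₀).re := fun z => by rw [hU]; rfl
  have eV : ∀ z, V z = (c * z + c₀).im := fun z => by rw [hV]; rfl
  obtain ⟨au, av⟩ := L.hol.adm K c f kc hf
  have mk : ∀ W w : ℂ → ℝ, ContDiff ℝ 1 W → Adm K w → ∃ p : ℂ → ℝ, Adm K p ∧
      (∀ z, p z = W z + η z * (w z - W z)) ∧
      (∀ z, DifferentiableAt ℝ w z → DifferentiableAt ℝ p z) ∧
      (∀ z, ‖z‖ ≤ R → p =ᶠ[𝓝 z] w) ∧ (∀ z, ¬‖z‖ ≤ max R R1 → p =ᶠ[𝓝 z] W) := fun W w h1 h2 => by
    have h3 := L.adm.c1 K W kc h1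
    refine ⟨W + fun z => η z * (w - W) z, L.adm.add K _ _ kc h3
      (L.adm.cut K K η _ hK ck ηK (L.adm.sub K _ _ kc h2 h3)), fun z => rfl, fun z h => ?_,
      fun z h => ?_, fun z h => ?_⟩
    · have d1 := h1.differentiable (by norm_num) z
      exact d1.add ((ηK.1.differentiable (by norm_num) z).mul (h.sub d1))
    · filter_upwards [η2 z h] with y hy
      simp only [Pi.add_apply, Pi.sub_apply, hy]
      ring
    · have : z ∉ tsupport η := fun n =>
        h ((mem_closedBall_zero_iff.1 (hR1 n)).trans (le_max_right _ _))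
      filter_upwards [notMem_tsupport_iff_eventuallyEq.1 this] with y hy
      simp only [Pi.add_apply, Pi.sub_apply, hy, Pi.zero_apply]
      ring
  obtain ⟨p, p1, p2, p3, p4, p5⟩ := mk U _ cU au
  obtain ⟨q, q1, q2, q3, q4, q5⟩ := mk V _ cV av
  have g1 := deg_adm L kc ha hb p1 q1
  have e0 : om K K (fun z => a (f z).re * deriv b (f z).im) (iv f) =
      om K K (fun z => a (p z) * deriv b (q z)) q := by
    refine L.omA.congr K K _ _ _ _ hK ck (deg_adm L kc ha hb au av) av g1 q1 ?_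
    refine eventually_nhdsSet_iff_forall.2 fun z hz => ?_
    have := mem_closedBall_zero_iff.1 (hR hz)
    filter_upwards [p4 z this, q4 z this] with y h1 h2 _
    rw [h1, h2]
    exact ⟨rfl, rfl⟩
  obtain ⟨i1, -, e1⟩ := L.omA.expand K K χ _ _ hK ck (χ1 K hR') g1 q1
  have pt : EqOn (fun z => χ z * wd (fun z => a (p z) * deriv b (q z)) q z)
      (fun z => deriv a (f z).re * deriv b (f z).im * ‖deriv f z‖ ^ 2) Kᶜ := fun z hz => by
    obtain ⟨d1, d2, d3⟩ := deg_hol L (hf.1.differentiableAt (kc.isOpen_compl.mem_nhds hz))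
    show χ z * _ = _
    rw [deg_wd ha hb (p3 z d1) (q3 z d2)]
    by_cases h : ‖z‖ ≤ R
    · rw [deg_congr (p4 z h) (q4 z h), d3, (p4 z h).eq_of_nhds, (q4 z h).eq_of_nhds,
        (χ2 z (h.trans (le_max_left _ _))).eq_of_nhds, one_mul]
      rfl
    · have f1 := far z h (η z) (ηK.2.2.1 z).1 (ηK.2.2.1 z).2
      have f2 := far z h 1 zero_le_one le_rfl
      rw [one_mul, one_mul, add_sub_cancel, add_sub_cancel] at f2
      rw [p2, q2, eU, eV]
      show χ z * (deriv a ((c * z + c₀).re + η z * ((f z).re - (c * z + c₀).re)) *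
        deriv b ((c * z + c₀).im + η z * ((f z).im - (c * z + c₀).im)) * _) =
        deriv a (f z).re * deriv b (f z).im * _
      rw [f1, f2, zero_mul, zero_mul, mul_zero]
  have e2 : ∫ z in Kᶜ, a (p z) * deriv b (q z) * wd χ q z =
      ∫ z, a (c * z + c₀).re * deriv b (c * z + c₀).im * wd χ V z := by
    rw [← setIntegral_eq_integral_of_forall_compl_eq_zero (s := Kᶜ)
      (f := fun z => a (c * z + c₀).re * deriv b (c * z + c₀).im * wd χ V z) fun z hz => by
      rw [deg_one (χ2 z (mem_closedBall_zero_iff.1 (hR' (not_notMem.1 hz)))), mul_zero]]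
    refine setIntegral_congr_fun kc.isOpen_compl.measurableSet fun z _ => ?_
    show a (p z) * deriv b (q z) * wd χ q z = _
    by_cases h : ‖z‖ ≤ max R R1
    · rw [deg_one (χ2 z h), deg_one (χ2 z h), mul_zero, mul_zero]
    · rw [deg_congr EventuallyEq.rfl (q5 z h), (p5 z h).eq_of_nhds, (q5 z h).eq_of_nhds, eU, eV]
  have e3 := deg_lin L ha hb (c₀ := c₀) hc (χ1 ∅ (empty_subset _)) fun z => by
    by_cases h : ‖z‖ ≤ R
    · exact Or.inl (χ2 z (h.trans (le_max_left _ _))).eq_of_nhds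
    · have f1 := far z h 0 le_rfl zero_le_one
      rw [zero_mul, zero_mul, add_zero, add_zero] at f1
      exact Or.inr f1
  rw [← hV] at e3
  refine ⟨i1.congr_fun pt kc.isOpen_compl.measurableSet, ?_⟩
  rw [e0, e1, e2, e3, setIntegral_congr_fun kc.isOpen_compl.measurableSet pt]
  ring

end Vale.Agent.P116
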