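import Vale.Agent.P116.AStm2

/-! Step A: the direct estimate in the image domain. -/

open Set Filter Topology MeasureTheory Metric Complex
open scoped ENNReal NNReal

noncomputable section
namespace Vale.Agent.P116

theorem dir_cs {μ : Measure ℂ} {p q : ℂ → ℝ} (hp : Integrable p μ) (hq : Integrable q μ)
    (p0 : ∀ z, 0 ≤ p z) (q0 : ∀ z, 0 ≤ q z) : Integrable (fun z => √(p z) * √(q z)) μ ∧
      ∫ z, √(p z) * √(q z) ∂μ ≤ √(∫ z, p z ∂μ) * √(∫ z, q z ∂μ) := by
  have m : ∀ {p : ℂ → ℝ}, Integrable p μ → (∀ z, 0 ≤ p z) → MemLp (fun z => √(p z)) 2 μ :=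
    fun {p} hp p0 => (memLp_two_iff_integrable_sq
      (Real.continuous_sqrt.comp_aestronglyMeasurable hp.1)).2
      (hp.congr (Eventually.of_forall fun z => (Real.sq_sqrt (p0 z)).symm))
  refine ⟨(m hp p0).integrable_mul (m hq q0), ?_⟩
  have h3 := integral_mul_le_Lp_mul_Lq_of_nonneg (μ := μ) Real.HolderConjugate.two_two
    (f := fun z => √(p z)) (g := fun z => √(q z))
    (Eventually.of_forall fun _ => Real.sqrt_nonneg _)
    (Eventually.of_forall fun _ => Real.sqrt_nonneg _) (by simpa using m hp p0)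
    (by simpa using m hq q0)
  simpa only [Real.rpow_two, Real.sq_sqrt (p0 _), Real.sq_sqrt (q0 _), ← Real.sqrt_eq_rpow]
    using h3

theorem dir_mul {a b u : ℂ → ℝ} {z : ℂ} (ha : DifferentiableAt ℝ a z)
    (hb : DifferentiableAt ℝ b z) :
    wd (fun w => a w * b w) u z = a z * wd b u z + b z * wd a u z := by
  simp only [wd, fderiv_fun_mul ha hb, add_apply,
    smul_apply, smul_eq_mul]
  ring

theorem dir_re (g : ℂ → ℝ) (w : ℂ) : wd g (fun w => w.re) w = -fderiv ℝ g w I := by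
  rw [wd, show (fun w : ℂ => w.re) = reCLM from rfl, ContinuousLinearMap.fderiv]
  simp

theorem s_dir (L : Lib) (imgA : S_imgA) : S_dir := by
  intro K Q c f χ θ Φ M M₁ Lc hU hQ hχ hθ bθ M1 bθ1 cΦ bΦ lΦ
  have hK := hU.cpt.isClosed
  have hG := hK.isOpen_compl
  have M0 : 0 ≤ M := (bΦ 0).1.trans (bΦ 0).2
  have oG := (imgA.opn K c f hU).1
  obtain ⟨R, hR⟩ := hχ.2.1.isCompact.isBounded.subset_ball 0
  have aη := L.adm.cut K Q χ θ hU.cpt hQ hχ hθ
  have iη := L.adm.glob K _ R hK aη fun z hz => by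
    rw [image_eq_zero_of_notMem_tsupport fun h => not_lt.2 hz (mem_ball_zero_iff.1 (hR h)),
      zero_mul]
  refine ⟨M * √(en Kᶜ fun z => χ z * θ z) + M₁ * Lc, by positivity,
    fun a S ca sa ba mS bS a0 => ?_⟩
  have cg : ContDiff ℝ 1 fun w => Φ w * a w := cΦ.mul ca
  obtain ⟨L', hL'⟩ := cg.lipschitzWith_of_hasCompactSupport sa.mul_left one_ne_zero
  obtain ⟨au, av⟩ := L.hol.adm K c f hK hU.hol
  have g0 : ∀ w, 0 ≤ Φ w * a w := fun w => mul_nonneg (bΦ w).1 (ba w).1
  have a1 : ∀ w, a w ≤ S.indicator 1 w := fun w => by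
    by_cases h : w ∈ S
    · rw [indicator_of_mem h]; exact (ba w).2
    · rw [indicator_of_notMem h, a0 w h]
  have s0 : ∀ w, 0 ≤ S.indicator (1 : ℂ → ℝ) w := fun w => (ba w).1.trans (a1 w)
  have s1 : ∀ w, √(S.indicator (1 : ℂ → ℝ) w) = S.indicator 1 w := fun w => by
    by_cases h : w ∈ S
    · simp [indicator_of_mem h]
    · simp [indicator_of_notMem h]
  have ag := L.adm.mul K θ (fun z => Φ (f z) * a (f z)) M hK hθ
    (L.comp.adm K (ru f) (iv f) _ L' hK au av hL').1 bθ fun z _ => by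
      rw [abs_of_nonneg (g0 _)]
      exact (mul_le_of_le_one_right (bΦ _).1 (ba _).2).trans (bΦ _).2
  rw [(L.omA.ind K Q χ _ _ hU.cpt hQ hχ ag au).2, omc]
  obtain ⟨c1, c2⟩ := L.cov.int Kᶜ Kᶜ f (S.indicator 1) hG hU.hol.1 hU.inj hG.measurableSet
    subset_rfl
  have i1 := c1.1 ((integrable_indicator_iff mS).2
    (integrableOn_const (C := (1 : ℝ)) bS.measure_lt_top.ne)).integrableOn
  rw [integral_indicator_one mS, measureReal_restrict_apply mS] at c2
  obtain ⟨d1, d2⟩ := L.cov.int Kᶜ Kᶜ f (fun w => Φ w * |fderiv ℝ a w I|) hG hU.hol.1 hU.inj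
    hG.measurableSet subset_rfl
  have cy : Continuous fun w => fderiv ℝ a w I :=
    (ca.continuous_fderiv one_ne_zero).clm_apply continuous_const
  have i2 := d1.1 ((cΦ.continuous.mul cy.abs).integrable_of_hasCompactSupport
    (HasCompactSupport.mul_left ((sa.fderiv_apply ℝ I).abs))).integrableOn
  obtain ⟨i3, e3⟩ := dir_cs iη i1 (fun z => sq_nonneg _)
    fun z => mul_nonneg (s0 _) (sq_nonneg _)
  have i4 := ((i3.const_mul M).add (i1.const_mul (M₁ * Lc))).add (i2.const_mul M₁)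
  have key := norm_integral_le_of_norm_le
    (f := wd (fun w => χ w * (θ w * (Φ (f w) * a (f w)))) (ru f)) i4 (by
    refine (ae_restrict_iff' hG.measurableSet).2 ?_
    filter_upwards [L.adm.dif Kᶜ θ hG hθ.1] with z dθ hz
    have df : DifferentiableAt ℂ f z := hU.hol.1.differentiableAt (hG.mem_nhds hz)
    have dg : DifferentiableAt ℝ (fun w => Φ w * a w) (f z) := cg.differentiable one_ne_zero _
    have dη : DifferentiableAt ℝ (fun w => χ w * θ w) z :=
      (hχ.1.differentiable two_ne_zero z).mul (dθ hz)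
    have e1 := dir_mul (u := ru f) dη (dg.comp z (df.restrictScalars ℝ))
    have e2 := (L.cov.wdc f (fun w => Φ w * a w) (fun w => w.re) z df dg
      reCLM.differentiableAt).1
    rw [dir_re, fderiv_fun_mul (cΦ.differentiable one_ne_zero _)
      (ca.differentiable one_ne_zero _)] at e2
    have e4 : wd (fun w => χ w * (θ w * (Φ (f w) * a (f w)))) (ru f) z =
        χ z * θ z * (-(Φ (f z) * fderiv ℝ a (f z) I + a (f z) * fderiv ℝ Φ (f z) I) *
          ‖deriv f z‖ ^ 2) + Φ (f z) * a (f z) * wd (fun w => χ w * θ w) (ru f) z := by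
      simp only [← mul_assoc]
      simp only [mul_assoc (χ _ * θ _)]
      exact e1.trans (congrArg (fun t => χ z * θ z * t + _) e2)
    have b1 : |χ z * θ z| ≤ M₁ := by
      by_cases h : z ∈ tsupport χ
      · rw [abs_mul, abs_of_nonneg (hχ.2.2.1 z).1]
        exact (mul_le_of_le_one_left (abs_nonneg _) (hχ.2.2.1 z).2).trans (bθ1 z ⟨h, hz⟩)
      · rw [image_eq_zero_of_notMem_tsupport h, zero_mul, abs_zero]; exact M1
    have b2 : |fderiv ℝ Φ (f z) I| ≤ Lc := by
      have := (fderiv ℝ Φ (f z)).le_opNorm I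
      rw [norm_I, mul_one] at this
      exact this.trans (norm_fderiv_le_of_lipschitz ℝ lΦ)
    have b3 : |Φ (f z) * fderiv ℝ a (f z) I + a (f z) * fderiv ℝ Φ (f z) I| ≤
        Φ (f z) * |fderiv ℝ a (f z) I| + S.indicator 1 (f z) * Lc := by
      refine (abs_add_le _ _).trans ?_
      rw [abs_mul, abs_mul, abs_of_nonneg (bΦ _).1, abs_of_nonneg (ba _).1]
      exact add_le_add le_rfl (mul_le_mul (a1 _) b2 (abs_nonneg _) (s0 _))
    have b4 := L.adm.wle (fun w => χ w * θ w) (ru f) z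
    rw [(L.hol.gru f z df).1, norm_conj] at b4
    have b5 : Φ (f z) * a (f z) ≤ M * S.indicator 1 (f z) :=
      mul_le_mul (bΦ _).2 (a1 _) (ba _).1 M0
    have b6 := mul_le_mul b5 b4 (abs_nonneg _) (mul_nonneg M0 (s0 _))
    have b7 := mul_le_mul b1 (mul_le_mul_of_nonneg_right b3 (sq_nonneg ‖deriv f z‖))
      (by positivity) M1
    simp only [Pi.add_apply]
    rw [e4, Real.norm_eq_abs, Real.sqrt_mul (s0 _), s1, Real.sqrt_sq (norm_nonneg _),
      Real.sqrt_sq (norm_nonneg _)]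
    refine (abs_add_le _ _).trans ?_
    rw [abs_mul, abs_mul (-_), abs_neg, abs_of_nonneg (sq_nonneg ‖deriv f z‖),
      abs_mul (Φ (f z) * a (f z)), abs_of_nonneg (g0 _)]
    linarith)
  have e5 := integral_add ((i3.const_mul M).add (i1.const_mul (M₁ * Lc))) (i2.const_mul M₁)
  have e6 := integral_add (i3.const_mul M) (i1.const_mul (M₁ * Lc))
  simp only [Pi.add_apply] at key e5
  rw [e5, e6, integral_const_mul, integral_const_mul, integral_const_mul, ← c2, ← d2,
    Real.norm_eq_abs] at key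
  rw [← c2] at e3
  have e7 := mul_le_mul_of_nonneg_left e3 M0
  have n1 : 0 ≤ M * √(en Kᶜ fun z => χ z * θ z) * volume.real (S ∩ f '' Kᶜ) := by positivity
  have n2 : 0 ≤ M₁ * Lc * √(volume.real (S ∩ f '' Kᶜ)) := by positivity
  unfold en at *
  linarith

end Vale.Agent.P116
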