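import Vale.Agent.P116.AStm2

open Set Filter Topology MeasureTheory Metric Complex
open scoped ENNReal NNReal

noncomputable section
namespace Vale.Agent.P116

namespace Est

theorem cs2 {μ : Measure ℂ} {a b : ℂ → ℝ} (ha : AEStronglyMeasurable a μ)
    (hb : AEStronglyMeasurable b μ) (ha2 : Integrable (fun z => a z ^ 2) μ)
    (hb2 : Integrable (fun z => b z ^ 2) μ) (ha0 : ∀ z, 0 ≤ a z) (hb0 : ∀ z, 0 ≤ b z) :
    Integrable (fun z => a z * b z) μ ∧
      ∫ z, a z * b z ∂μ ≤ √(∫ z, a z ^ 2 ∂μ) * √(∫ z, b z ^ 2 ∂μ) := by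
  have h1 : MemLp a 2 μ := (memLp_two_iff_integrable_sq ha).2 ha2
  have h2 : MemLp b 2 μ := (memLp_two_iff_integrable_sq hb).2 hb2
  refine ⟨h1.integrable_mul h2, ?_⟩
  have h3 := integral_mul_le_Lp_mul_Lq_of_nonneg (μ := μ) Real.HolderConjugate.two_two
    (Eventually.of_forall ha0) (Eventually.of_forall hb0) (by simpa using h1) (by simpa using h2)
  simpa [Real.sqrt_eq_rpow] using h3

theorem osc_mono {K p : Set ℂ} {θ : ℂ → ℝ} {s t : ℝ} (h : Osc K p θ s) (hst : s ≤ t) :
    Osc K p θ t := fun ε hε => by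
  obtain ⟨U, h1, h2, h3⟩ := h ε hε
  exact ⟨U, h1, h2, fun z hz w hw => (h3 z hz w hw).trans (by linarith)⟩

theorem incr {g : ℝ → ℝ} (hg : Differentiable ℝ g) (h0 : ∀ x, 0 ≤ deriv g x) (x : ℝ) {s : ℝ}
    (hs : 0 ≤ s) : g x ≤ g (x + s) :=
  monotone_of_deriv_nonneg hg h0 (by linarith)

theorem incr_le {g : ℝ → ℝ} (hg : Differentiable ℝ g) (h1 : ∀ x, deriv g x ≤ 1) (x : ℝ) {s : ℝ}
    (hs : 0 ≤ s) : g (x + s) - g x ≤ s := by
  have := incr (g := fun y => y - g y) (differentiable_id.sub hg) (fun y => by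
    rw [((hasDerivAt_id' y).fun_sub (hg y).hasDerivAt).deriv]
    linarith [h1 y]) x hs
  linarith

theorem wd_key {φ u u' : ℂ → ℝ} {β : ℝ → ℝ} {z : ℂ} (h1 : DifferentiableAt ℝ φ z)
    (h2 : DifferentiableAt ℝ u z) (h3 : DifferentiableAt ℝ u' z) (hβ : Differentiable ℝ β) :
    wd (fun z => β (φ z)) u' z = deriv β (φ z) * (wd (φ - u) u' z - wd u (u - u') z) := by
  have e := ((hβ (φ z)).hasDerivAt.comp_hasFDerivAt z h1.hasFDerivAt).fderiv
  have e' : fderiv ℝ (fun z => β (φ z)) z = deriv β (φ z) • fderiv ℝ φ z := e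
  simp only [wd, e', fderiv_sub h1 h2, fderiv_sub h2 h3, smul_apply,
    sub_apply, smul_eq_mul]
  ring

end Est

open Est in
theorem s_est (L : Lib) : S_est where
  int K Q χ φ u u' β κ Λ hK hQ hχ hφ hu hu' i1 i2 hβ hκ hκ1 hΛ hβκ := by
    have hO : IsOpen Kᶜ := hK.isClosed.isOpen_compl
    set S := tsupport χ \ K with hS
    have hSm : MeasurableSet S :=
      (isClosed_tsupport χ).measurableSet.diff hK.isClosed.measurableSet
    have hSK : S ⊆ Kᶜ := fun z hz => hz.2
    have m : ∀ θ : ℂ → ℝ, AEStronglyMeasurable (fun z => ‖gr θ z‖) (volume.restrict S) :=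
      fun θ => (L.adm.meas θ).norm.aestronglyMeasurable
    have mk : AEStronglyMeasurable (fun z => κ (φ z)) (volume.restrict S) :=
      (hκ.comp_continuousOn (hφ.1.continuousOn.mono hSK)).aestronglyMeasurable hSm
    have mk' : AEStronglyMeasurable (fun z => √(κ (φ z)) * ‖gr u z‖) (volume.restrict S) :=
      (Real.continuous_sqrt.comp_aestronglyMeasurable mk).mul (m u)
    have e2 : ∀ z, (√(κ (φ z)) * ‖gr u z‖) ^ 2 = κ (φ z) * ‖gr u z‖ ^ 2 := fun z => by
      rw [mul_pow, Real.sq_sqrt (hκ1 _).1]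
    have j1 := (L.omC.cuten K Q χ u' hK hQ hχ hu').2.1
    have j2 := (L.omC.cuten K Q χ u hK hQ hχ hu).2.1
    have j3 : Integrable (fun z => (√(κ (φ z)) * ‖gr u z‖) ^ 2) (volume.restrict S) := by
      simp only [e2]
      exact Integrable.bdd_mul (c := 1) j2 mk (Eventually.of_forall fun z => by
        rw [Real.norm_eq_abs, abs_of_nonneg (hκ1 _).1]; exact (hκ1 _).2)
    obtain ⟨a1, a2⟩ := cs2 (m (φ - u)) (m u') (i1.mono_set hSK) j1 (fun _ => norm_nonneg _)
      fun _ => norm_nonneg _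
    obtain ⟨b1, b2⟩ := cs2 mk' (m (u - u')) j3 (i2.mono_set hSK)
      (fun _ => by positivity) fun _ => norm_nonneg _
    simp only [e2] at b2
    have k1 : ∫ z in S, ‖gr (φ - u) z‖ ^ 2 ≤ en Kᶜ (φ - u) :=
      setIntegral_mono_set i1 (Eventually.of_forall fun _ => by positivity) hSK.eventuallyLE
    have k2 : ∫ z in S, ‖gr (u - u') z‖ ^ 2 ≤ en Kᶜ (u - u') :=
      setIntegral_mono_set i2 (Eventually.of_forall fun _ => by positivity) hSK.eventuallyLE
    have e0 : ∫ z in Kᶜ, χ z * |wd (fun z => β (φ z)) u' z| =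
        ∫ z in S, χ z * |wd (fun z => β (φ z)) u' z| := by
      refine setIntegral_eq_of_subset_of_forall_sdiff_eq_zero hO.measurableSet hSK fun z hz => ?_
      rw [image_eq_zero_of_notMem_tsupport (f := χ) fun h => hz.2 ⟨h, hz.1⟩, zero_mul]
    rw [e0]
    calc ∫ z in S, χ z * |wd (fun z => β (φ z)) u' z|
        ≤ ∫ z in S, Λ * (‖gr (φ - u) z‖ * ‖gr u' z‖ +
            √(κ (φ z)) * ‖gr u z‖ * ‖gr (u - u') z‖) := by
          refine integral_mono_of_nonneg
            (Eventually.of_forall fun z => mul_nonneg (hχ.2.2.1 z).1 (abs_nonneg _))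
            ((a1.add b1).const_mul Λ) ?_
          filter_upwards [ae_restrict_of_ae (L.adm.dif _ φ hO hφ.1),
            ae_restrict_of_ae (L.adm.dif _ u hO hu.1), ae_restrict_of_ae (L.adm.dif _ u' hO hu'.1),
            ae_restrict_mem hSm] with z d1 d2 d3 hz
          rw [wd_key (d1 hz.2) (d2 hz.2) (d3 hz.2) (hβ.differentiable one_ne_zero), abs_mul]
          have w1 := L.adm.wle (φ - u) u' z
          have w2 := L.adm.wle u (u - u') z
          have w3 := abs_sub (wd (φ - u) u' z) (wd u (u - u') z)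
          have q0 := (hκ1 (φ z)).1
          have q1 := (hκ1 (φ z)).2
          have q2 : κ (φ z) ≤ √(κ (φ z)) := Real.le_sqrt_of_sq_le (by nlinarith)
          have n1 : 0 ≤ ‖gr (φ - u) z‖ * ‖gr u' z‖ := by positivity
          have n2 : 0 ≤ ‖gr u z‖ * ‖gr (u - u') z‖ := by positivity
          calc χ z * (|deriv β (φ z)| * |wd (φ - u) u' z - wd u (u - u') z|)
              ≤ 1 * (Λ * κ (φ z) * (‖gr (φ - u) z‖ * ‖gr u' z‖ +
                  ‖gr u z‖ * ‖gr (u - u') z‖)) := by
                gcongr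
                · exact (hχ.2.2.1 z).2
                · exact hβκ _
                · linarith
            _ ≤ _ := by
                rw [one_mul, mul_assoc]
                refine mul_le_mul_of_nonneg_left ?_ hΛ
                nlinarith
      _ = Λ * ((∫ z in S, ‖gr (φ - u) z‖ * ‖gr u' z‖) +
            ∫ z in S, √(κ (φ z)) * ‖gr u z‖ * ‖gr (u - u') z‖) := by
          rw [integral_const_mul, integral_add a1 b1]
      _ ≤ _ := by
          refine mul_le_mul_of_nonneg_left (add_le_add (a2.trans ?_) (b2.trans ?_)) hΛ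
          · exact mul_le_mul_of_nonneg_right (Real.sqrt_le_sqrt k1) (Real.sqrt_nonneg _)
          · exact mul_le_mul_of_nonneg_left (Real.sqrt_le_sqrt k2) (Real.sqrt_nonneg _)
  good K φ s lo h β Λ hK hg hc hh hβ hh1 hΛ hβ1 := by
    have dh := hh.differentiable one_ne_zero
    have dβ := hβ.differentiable one_ne_zero
    have hl : LipschitzWith Λ.toNNReal β := lipschitzWith_of_nnnorm_deriv_le dβ fun x => by
      rw [← NNReal.coe_le_coe, coe_nnnorm, Real.norm_eq_abs, abs_of_nonneg (hβ1 x).1,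
        Real.coe_toNNReal _ hΛ]
      exact (hβ1 x).2.trans (mul_le_of_le_one_right hΛ (hh1 x).2)
    have n0 : ∀ p, 0 ≤ Λ * (h (lo p + s p) - h (lo p)) := fun p =>
      mul_nonneg hΛ (sub_nonneg.2 (incr dh (fun x => (hh1 x).1) _ (hg.2.1.1 p)))
    refine ⟨(L.comp.adm1 K φ β _ hK.isClosed hg.1 hl).1, ⟨n0, ?_⟩, fun p _ => ?_⟩
    · refine L.sm.sqle K _ (fun p => Λ * s p) ?_ fun p => ?_
      · simpa [mul_pow] using hg.2.1.2.mul_left (Λ ^ 2)
      · rw [abs_of_nonneg (n0 p)]
        exact mul_le_mul_of_nonneg_left (incr_le dh (fun x => (hh1 x).2) _ (hg.2.1.1 p)) hΛ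
    · refine osc_mono (L.comp.cluo K p.1 φ β (lo p) (s p) (hg.2.1.1 p) (hc p) hβ.continuous
        (monotone_of_deriv_nonneg dβ fun x => (hβ1 x).1)) ?_
      have := incr (g := fun y => Λ * h y - β y) ((dh.const_mul Λ).sub dβ) (fun y => by
        rw [(((dh y).hasDerivAt.const_mul Λ).fun_sub (dβ y).hasDerivAt).deriv]
        linarith [(hβ1 y).2]) (lo p) (hg.2.1.1 p)
      linarith
  pig K T S s lo ρ h N a j hs hρ hh hsum := by
    classical
    have dh := fun k => (hh k).1.differentiable one_ne_zero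
    have n0 : ∀ k p, 0 ≤ h k (lo p + s p) - h k (lo p) := fun k p =>
      sub_nonneg.2 (incr (dh k) (fun x => ((hh k).2 x).1) _ (hs.1 p))
    have n1 : ∀ k p, h k (lo p + s p) - h k (lo p) ≤ s p := fun k p =>
      incr_le (dh k) (fun x => ((hh k).2 x).2) _ (hs.1 p)
    have hq : ∀ k, Sq (fun p => h k (lo p + s p) - h k (lo p)) := fun k =>
      ⟨n0 k, L.sm.sqle K _ s hs.2 fun p => by rw [abs_of_nonneg (n0 k p)]; exact n1 k p⟩
    refine ⟨fun k => ⟨hq k, n1 k⟩, ?_, fun ha hj hj0 => ?_⟩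
    · have hs' := fun k (_ : k ∈ Finset.range N) => L.sm.summ K T _ ρ (hq k).2 hρ.2
      unfold sm
      rw [← Summable.tsum_finsetSum hs']
      refine Summable.tsum_le_tsum (fun p => ?_) (summable_sum hs') (L.sm.summ K T s ρ hs.2 hρ.2)
      split_ifs
      · rw [← Finset.sum_mul, Finset.sum_sub_distrib]
        refine mul_le_mul_of_nonneg_right ?_ (hρ.1 p)
        exact incr_le (g := fun y => ∑ k ∈ Finset.range N, h k y)
          (Differentiable.fun_sum fun k _ => dh k) (fun y => by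
            rw [(HasDerivAt.fun_sum fun k _ => (dh k y).hasDerivAt).deriv]
            exact hsum y) _ (hs.1 p)
      · simp
    · have hi : ∀ k ∈ Finset.range N,
          Integrable (fun z => deriv (h k) (a z) * j z) (volume.restrict S) := fun k _ =>
        Integrable.bdd_mul (c := 1) hj
          ((measurable_deriv (h k)).comp_aemeasurable ha).aestronglyMeasurable
          (Eventually.of_forall fun z => by
            rw [Real.norm_eq_abs, abs_of_nonneg ((hh k).2 _).1]; exact ((hh k).2 _).2)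
      rw [← integral_finsetSum _ hi]
      refine integral_mono (integrable_finsetSum _ hi) hj fun z => ?_
      simp only
      rw [← Finset.sum_mul]
      exact mul_le_of_le_one_left (hj0 z) (hsum _)

end Vale.Agent.P116
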