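import Vale.Agent.P116.AStm2

/-! Step A: filled cells. -/

open Set Filter Topology MeasureTheory Metric Complex

noncomputable section
namespace Vale.Agent.P116

namespace AFill

theorem out_con (R : ℝ) : IsPreconnected (ball (0 : ℂ) R)ᶜ := by
  have e : (ball (0 : ℂ) R)ᶜ =
      (fun p : ℝ × ℝ => (p.1 : ℂ) * exp (p.2 * I)) '' (Ici R ×ˢ univ) := by
    ext z
    rw [mem_compl_iff, mem_ball_zero_iff, not_lt]
    constructor
    · intro h
      exact ⟨(‖z‖, arg z), ⟨h, mem_univ _⟩, norm_mul_exp_arg_mul_I z⟩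
    · rintro ⟨p, ⟨h, -⟩, rfl⟩
      rw [norm_mul, norm_exp_ofReal_mul_I, mul_one, norm_real]
      exact le_trans h (le_abs_self _)
  rw [e]
  exact (isPreconnected_Ici.prod isPreconnected_univ).image _ (by fun_prop)

theorem piece {G : Set ℂ} (hG : IsOpen G) (hc : IsPreconnected G) {x z : ℂ} (hx : x ∈ G)
    (hz : z ∈ G) : ∃ A, IsClosed A ∧ IsPreconnected A ∧ A ⊆ G ∧ x ∈ A ∧ A ∈ 𝓝 z := by
  obtain ⟨γ, hγ⟩ := (hG.isConnected_iff_isPathConnected.1 ⟨⟨x, hx⟩, hc⟩).joinedIn x hx z hz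
  obtain ⟨r, hr, hb⟩ := nhds_basis_closedBall.mem_iff.1 (hG.mem_nhds hz)
  refine ⟨range γ ∪ closedBall z r, (isCompact_range γ.continuous).isClosed.union isClosed_closedBall,
    IsPreconnected.union z γ.target_mem_range (mem_closedBall_self hr.le)
      (isPreconnected_range γ.continuous) (convex_closedBall z r).isPreconnected,
    union_subset (range_subset_iff.2 hγ) hb, Or.inl γ.source_mem_range,
    mem_of_superset (closedBall_mem_nhds z hr) subset_union_right⟩

theorem exists_F {K U : Set ℂ} (h : Ctx K) (hU : IsOpen U) (hKU : K ⊆ U) :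
    ∃ F, IsClosed F ∧ IsPreconnected F ∧ F ⊆ Kᶜ ∧ Fᶜ ⊆ U ∧ F.Nonempty := by
  obtain ⟨R, hR⟩ := h.cpt.isBounded.subset_ball (0 : ℂ)
  have hO : (ball (0 : ℂ) R)ᶜ ⊆ Kᶜ := compl_subset_compl.2 hR
  have hx : (R : ℂ) ∈ (ball (0 : ℂ) R)ᶜ := by
    rw [mem_compl_iff, mem_ball_zero_iff, not_lt, norm_real]
    exact le_abs_self _
  have ex : ∀ z : ℂ, ∃ A, z ∈ Kᶜ →
      IsClosed A ∧ IsPreconnected A ∧ A ⊆ Kᶜ ∧ (R : ℂ) ∈ A ∧ A ∈ 𝓝 z := by
    intro z
    by_cases hz : z ∈ Kᶜ
    · obtain ⟨A, hA⟩ := piece h.cpt.isClosed.isOpen_compl h.con (hO hx) hz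
      exact ⟨A, fun _ => hA⟩
    · exact ⟨∅, fun h' => absurd h' hz⟩
  choose A hA using ex
  have hC : IsCompact (closedBall (0 : ℂ) R ∩ Uᶜ) :=
    (isCompact_closedBall _ _).inter_right hU.isClosed_compl
  have hC' : ∀ z ∈ closedBall (0 : ℂ) R ∩ Uᶜ, z ∈ Kᶜ := fun z hz hk => hz.2 (hKU hk)
  obtain ⟨t, t1, t2⟩ := hC.elim_nhds_subcover A fun z hz => (hA z (hC' z hz)).2.2.2.2
  refine ⟨(ball (0 : ℂ) R)ᶜ ∪ ⋃ z ∈ t, A z, isOpen_ball.isClosed_compl.union
    (isClosed_biUnion_finset fun z hz => (hA z (hC' z (t1 z hz))).1), ?_,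
    union_subset hO (iUnion₂_subset fun z hz => (hA z (hC' z (t1 z hz))).2.2.1), ?_,
    ⟨_, Or.inl hx⟩⟩
  · refine isPreconnected_of_forall (R : ℂ) ?_
    rintro y (hy | hy)
    · exact ⟨_, subset_union_left, hx, hy, out_con R⟩
    · obtain ⟨z, hz, hy⟩ := mem_iUnion₂.1 hy
      have := hA z (hC' z (t1 z hz))
      exact ⟨A z, (subset_biUnion_of_mem (u := A) hz).trans subset_union_right, this.2.2.2.1, hy,
        this.2.1⟩
  · intro y hy
    by_contra hn
    by_cases hb : y ∈ ball (0 : ℂ) R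
    · exact hy (Or.inr (t2 ⟨ball_subset_closedBall hb, hn⟩))
    · exact hy (Or.inl hb)

theorem clos {F : Set ℂ} (hF : IsClosed F) (z : ℂ) :
    closure (connectedComponentIn Fᶜ z) ⊆ connectedComponentIn Fᶜ z ∪ F := by
  intro y hy
  by_cases h : y ∈ F
  · exact Or.inr h
  · obtain ⟨w, w1, w2⟩ := mem_closure_iff.1 hy _ (hF.isOpen_compl.connectedComponentIn (x := y))
      (mem_connectedComponentIn h)
    left
    rw [connectedComponentIn_eq w2, ← connectedComponentIn_eq w1]
    exact mem_connectedComponentIn h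

theorem compl_con {F : Set ℂ} (hF : IsClosed F) (hc : IsPreconnected F) (hne : F.Nonempty)
    (z : ℂ) : IsPreconnected (connectedComponentIn Fᶜ z)ᶜ := by
  obtain ⟨x, hx⟩ := hne
  have h1 : F ⊆ (connectedComponentIn Fᶜ z)ᶜ := fun y hy h => connectedComponentIn_subset _ _ h hy
  refine isPreconnected_of_forall x fun y hy => ?_
  by_cases h : y ∈ F
  · exact ⟨F, h1, hx, h, hc⟩
  have h2 : (closure (connectedComponentIn Fᶜ y) ∩ F).Nonempty := by
    by_contra hn
    have h3 : IsClopen (connectedComponentIn Fᶜ y) :=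
      ⟨closure_subset_iff_isClosed.1 fun w hw => (clos hF y hw).resolve_right fun h' =>
        hn ⟨w, hw, h'⟩, hF.isOpen_compl.connectedComponentIn⟩
    have h4 := h3.eq_univ ⟨y, mem_connectedComponentIn h⟩
    exact connectedComponentIn_subset Fᶜ y (h4 ▸ mem_univ x) hx
  refine ⟨closure (connectedComponentIn Fᶜ y) ∪ F, union_subset ((clos hF y).trans
    (union_subset (fun w hw hw' => hy ?_) h1)) h1, Or.inr hx,
    Or.inl (subset_closure (mem_connectedComponentIn h)),
    IsPreconnected.union' h2 isPreconnected_connectedComponentIn.closure hc⟩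
  rw [connectedComponentIn_eq hw', ← connectedComponentIn_eq hw]
  exact mem_connectedComponentIn h

end AFill

open AFill in
theorem s_fill (cmp : S_cmp) : S_fill := by
  classical
  intro K T ε h hT hε
  have hTc : IsCompact T := h.cpt.of_isClosed_subset hT.2.1 hT.1
  obtain ⟨δ, hδ, hd⟩ := (disjoint_sdiff_right : Disjoint T (K \ T)).exists_thickenings hTc hT.2.2
  have hm : 0 < min δ ε := lt_min hδ hε
  obtain ⟨F, f1, f2, f3, f4, f5⟩ := exists_F h isOpen_thickening (self_subset_thickening hm K)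
  have hz : ∀ z ∈ T, z ∈ Fᶜ := fun z hz hf => f3 hf (hT.1 hz)
  obtain ⟨t, t1, t2⟩ := hTc.elim_nhds_subcover (fun z => connectedComponentIn Fᶜ z)
    fun z hz' => connectedComponentIn_mem_nhds (f1.isOpen_compl.mem_nhds (hz z hz'))
  refine ⟨t.image fun z => connectedComponentIn Fᶜ z, fun W hW => ?_, fun W hW W' hW' hne => ?_,
    fun y hy => ?_⟩
  · obtain ⟨z, hzt, rfl⟩ := Finset.mem_image.1 hW
    have z1 := hz z (t1 z hzt)
    have s1 := (connectedComponentIn_subset Fᶜ z).trans f4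
    have o1 : IsOpen (connectedComponentIn Fᶜ z) := f1.isOpen_compl.connectedComponentIn
    refine ⟨o1, h.cpt.isBounded.thickening.subset s1, isConnected_connectedComponentIn_iff.2 z1,
      compl_con f1 f2 f5 z, ?_, ?_, s1.trans (thickening_mono (min_le_right _ _) K)⟩
    · rw [o1.frontier_eq, disjoint_left]
      intro y hy hk
      exact f3 ((clos f1 z hy.1).resolve_left hy.2) hk
    · have s2 := s1.trans (thickening_mono (min_le_left _ _) K)
      rw [← union_sdiff_cancel hT.1, thickening_union] at s2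
      have s3 := isPreconnected_connectedComponentIn.subset_left_of_subset_union isOpen_thickening
        isOpen_thickening hd s2
        ⟨z, mem_connectedComponentIn z1, self_subset_thickening hδ T (t1 z hzt)⟩
      intro y hy
      by_contra hn
      exact disjoint_left.1 hd (s3 hy.1) (self_subset_thickening hδ _ ⟨hy.2, hn⟩)
  · obtain ⟨z, -, rfl⟩ := Finset.mem_image.1 hW
    obtain ⟨z', -, rfl⟩ := Finset.mem_image.1 hW'
    exact disjoint_left.2 fun y h1 h2 =>
      hne ((connectedComponentIn_eq h1).trans (connectedComponentIn_eq h2).symm)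
  · obtain ⟨z, hzt, hy'⟩ := mem_iUnion₂.1 (t2 hy)
    exact mem_iUnion₂.2 ⟨_, Finset.mem_image_of_mem _ hzt, hy'⟩

end Vale.Agent.P116
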