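import Vale.Agent.P116.AStm2

/-! Step A: the limit is a square domain. -/

open Set Filter Topology MeasureTheory Metric Complex
open scoped ENNReal NNReal

noncomputable section
namespace Vale.Agent.P116

theorem afin_osc (L : Lib) (G : Geo) {K : Set ℂ} {c : ℂ} {f : ℂ → ℂ} (hu : Uni K c f) (p : Cmp K)
    (l : ℂ →L[ℝ] ℝ) {t : ℝ} (ho : Osc K p.1 (fun z => l (f z)) t) {w1 w2 : ℂ}
    (h1 : w1 ∈ img K f p.1) (h2 : w2 ∈ img K f p.1) : l w1 - l w2 ≤ t := by
  refine le_of_forall_pos_le_add fun ε hε => ?_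
  obtain ⟨U, hU, hp, hb⟩ := ho ε hε
  obtain ⟨W, hW, hpW, hWU, hc, hd, -⟩ := L.cell K p U hu.toCtx hU hp
  have hK : p.1 ⊆ K ∩ W := by
    refine subset_inter ?_ hpW
    obtain ⟨z, -, hz⟩ := p.2
    rw [hz]
    exact connectedComponentIn_subset _ _
  have hfr : ∀ z ∈ frontier W, z ∈ U \ K := fun z hz =>
    ⟨hWU (frontier_subset_closure hz), disjoint_left.1 hd hz⟩
  have key : ∀ C : Set ℂ, IsClosed C → Convex ℝ C → (∀ z ∈ frontier W, f z ∈ C) →
      img K f p.1 ⊆ C := fun C hC hv h =>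
    (G.imgA.mono K _ _ f hK).trans (G.max K W C c f hu hW (hc.isBounded.subset subset_closure) hd
      hC hv (image_subset_iff.2 h)).2
  have k1 : ∀ z ∈ frontier W, l w1 - (t + ε) ≤ l (f z) := fun z hz => by
    have := key {y | l y ≤ l (f z) + (t + ε)} (isClosed_le l.continuous continuous_const)
      (convex_halfSpace_le l.isLinear _)
      (fun z' hz' => sub_le_iff_le_add'.1 (hb z' (hfr z' hz') z (hfr z hz))) h1
    exact sub_le_iff_le_add.2 this
  have k2 : l w1 - (t + ε) ≤ l w2 :=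
    key {y | l w1 - (t + ε) ≤ l y} (isClosed_le continuous_const l.continuous)
      (convex_halfSpace_ge l.isLinear _) k1 h2
  linarith

theorem afin_convex (a b r : ℝ) : Convex ℝ (sq a b r) :=
  (convex_halfSpace_re_ge a).inter ((convex_halfSpace_re_le (a + r)).inter
    ((convex_halfSpace_im_ge b).inter (convex_halfSpace_im_le (b + r))))

theorem afin_vol (a b : ℝ) {r : ℝ} (hr : 0 ≤ r) : volume (sq a b r) = ENNReal.ofReal (r ^ 2) := by
  have e : sq a b r = measurableEquivRealProd ⁻¹' (Icc a (a + r) ×ˢ Icc b (b + r)) := by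
    ext z
    simp only [sq, mem_ofPred_eq, mem_preimage, measurableEquivRealProd_apply, mem_prod, mem_Icc,
      and_assoc]
  rw [e, volume_preserving_equiv_real_prod.measure_preimage_equiv, Measure.volume_eq_prod,
    Measure.prod_prod, Real.volume_Icc, Real.volume_Icc, add_sub_cancel_left, add_sub_cancel_left,
    ← ENNReal.ofReal_mul hr, pow_two]

theorem afin_eq {J : Set ℂ} (hJ : IsCompact J) {a b r : ℝ} (hr : 0 < r) (hs : J ⊆ sq a b r)
    (hv : volume.real J = r ^ 2) : sq a b r ⊆ J := by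
  have h1 : volume (sq a b r \ J) = 0 := by
    rw [measure_sdiff hs hJ.measurableSet.nullMeasurableSet hJ.measure_lt_top.ne,
      afin_vol a b hr.le, ← hv, ofReal_measureReal hJ.measure_lt_top.ne, tsub_self]
  have h2 : interior (sq a b r) \ J = ∅ :=
    ((isOpen_interior.sdiff hJ.isClosed).measure_eq_zero_iff volume).1
      (measure_mono_null (sdiff_subset_sdiff_left interior_subset) h1)
  have h3 : (interior (sq a b r)).Nonempty := by
    refine ⟨⟨a + r / 2, b + r / 2⟩, mem_interior.2 ⟨{z : ℂ | a < z.re} ∩ ({z | z.re < a + r} ∩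
      ({z | b < z.im} ∩ {z | z.im < b + r})), fun z hz => ⟨hz.1.le, hz.2.1.le, hz.2.2.1.le,
        hz.2.2.2.le⟩, ?_, ?_⟩⟩
    · exact (isOpen_lt continuous_const continuous_re).inter
        ((isOpen_lt continuous_re continuous_const).inter
          ((isOpen_lt continuous_const continuous_im).inter
            (isOpen_lt continuous_im continuous_const)))
    · simp only [mem_inter_iff, mem_ofPred_eq]
      refine ⟨?_, ?_, ?_, ?_⟩ <;> linarith
  refine subset_closure.trans ?_
  rw [← (afin_convex a b r).closure_interior_eq_closure_of_nonempty_interior h3]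
  exact closure_minimal (sdiff_eq_empty.1 h2) hJ.isClosed

theorem s_fin (L : Lib) (G : Geo) : S_fin := by
  intro K z₀ c f ρ hb hp ho w hw
  have hu := hp.uni hb
  obtain ⟨p, hwp⟩ := G.imgB.cov K c f w hu hw
  have hJ := (G.imgB.seq K c f p hu).1
  have hρ : 0 ≤ ρ p := hp.au.2.1.1 p
  obtain ⟨x, hx, hxm⟩ := hJ.exists_isMinOn ⟨w, hwp⟩ continuous_re.continuousOn
  obtain ⟨y, hy, hym⟩ := hJ.exists_isMinOn ⟨w, hwp⟩ continuous_im.continuousOn
  have hs : img K f p.1 ⊆ sq x.re y.im (ρ p) := fun z hz =>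
    ⟨hxm hz, sub_le_iff_le_add'.1 (afin_osc L G hu p reCLM (ho p).1 hz hx), hym hz,
      sub_le_iff_le_add'.1 (afin_osc L G hu p imCLM (ho p).2 hz hy)⟩
  have hs' : sq x.re y.im (ρ p) ⊆ img K f p.1 := by
    rcases hρ.eq_or_lt with h0 | h0
    · intro z hz
      obtain ⟨a1, a2, a3, a4⟩ := hs hwp
      obtain ⟨b1, b2, b3, b4⟩ := hz
      have : z = w := Complex.ext (by linarith) (by linarith)
      rwa [this]
    · exact afin_eq hJ h0 hs (G.vol.pt K z₀ c f ρ p hb hp)
  refine ⟨x.re, y.im, ρ p, hρ, Subset.antisymm ((G.imgA.sat K _ f w hwp).trans hs) ?_⟩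
  exact (afin_convex _ _ _).isPreconnected.subset_connectedComponentIn (hs hwp)
    fun z hz => (hs' hz).1

end Vale.Agent.P116
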