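import Vale.Agent.P116.AStm

/-! Primitives of holomorphic functions whose periods vanish against cutoffs. -/

open Set Filter Topology MeasureTheory Metric Complex
open scoped ENNReal NNReal

noncomputable section
namespace Vale.Agent.P116

namespace Prim

/-- Smooth steps. -/
def St (A : ℝ → ℝ) (l u : ℝ) : Prop :=
  ContDiff ℝ 2 A ∧ (∀ x ≤ l, A x = 0) ∧ ∀ x, u ≤ x → A x = 1

variable {A A' : ℝ → ℝ} {l u l' u' x : ℝ}

theorem St.mono (h : St A l u) (h1 : l' ≤ l) (h2 : u ≤ u') : St A l' u' :=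
  ⟨h.1, fun x hx => h.2.1 x (hx.trans h1), fun x hx => h.2.2 x (h2.trans hx)⟩

theorem St.ex (h : l < u) : ∃ A, St A l u := by
  have h0 : 0 < u - l := sub_pos.2 h
  refine ⟨fun x => Real.smoothTransition ((x - l) / (u - l)),
    Real.smoothTransition.contDiff.comp (by fun_prop), fun x hx => ?_, fun x hx => ?_⟩
  · exact Real.smoothTransition.zero_of_nonpos (div_nonpos_of_nonpos_of_nonneg (by linarith) h0.le)
  · exact Real.smoothTransition.one_of_one_le ((one_le_div h0).2 (by linarith))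

theorem St.der (h : St A l u) (hx : x ∉ Icc l u) : deriv A x = 0 := by
  rcases not_and_or.1 hx with h1 | h1
  · have : A =ᶠ[𝓝 x] fun _ => 0 :=
      (eventually_lt_nhds (not_le.1 h1)).mono fun y hy => h.2.1 y hy.le
    rw [this.deriv_eq, deriv_const]
  · have : A =ᶠ[𝓝 x] fun _ => 1 :=
      (eventually_gt_nhds (not_le.1 h1)).mono fun y hy => h.2.2 y hy.le
    rw [this.deriv_eq, deriv_const]

theorem St.eq (h : St A l u) (h' : St A' l u) (hx : x ∉ Icc l u) : A x - A' x = 0 := by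
  rcases not_and_or.1 hx with h1 | h1
  · rw [h.2.1 x (not_le.1 h1).le, h'.2.1 x (not_le.1 h1).le, sub_self]
  · rw [h.2.2 x (not_le.1 h1).le, h'.2.2 x (not_le.1 h1).le, sub_self]

theorem St.c1 (h : St A l u) : ContDiff ℝ 1 (deriv A) := ContDiff.deriv' (n := 1) h.1

theorem St.dif (h : St A l u) : Differentiable ℝ A := h.1.differentiable (by norm_num)

theorem St.int (h : St A l u) : ∫ x, deriv A x = 1 := by
  have h1 : Integrable (deriv A) := h.c1.continuous.integrable_of_hasCompactSupport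
    (HasCompactSupport.intro isCompact_Icc fun x hx => h.der hx)
  rw [integral_of_hasDerivAt_of_tendsto (fun x => (h.dif x).hasDerivAt) h1
    (tendsto_const_nhds.congr' ((eventually_le_atBot l).mono fun y hy => (h.2.1 y hy).symm))
    (tendsto_const_nhds.congr' ((eventually_ge_atTop u).mono fun y hy => (h.2.2 y hy).symm)),
    sub_zero]

/-- Tensor products. -/
def tp (a b : ℝ → ℝ) (z : ℂ) : ℝ := a z.re * b z.im

theorem tp_cd {n : ℕ} {a b : ℝ → ℝ} (ha : ContDiff ℝ n a) (hb : ContDiff ℝ n b) :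
    ContDiff ℝ n (tp a b) := (ha.comp reCLM.contDiff).mul (hb.comp imCLM.contDiff)

theorem tp_fd {a b : ℝ → ℝ} (ha : Differentiable ℝ a) (hb : Differentiable ℝ b) (z : ℂ) :
    fderiv ℝ (tp a b) z 1 = deriv a z.re * b z.im ∧
      fderiv ℝ (tp a b) z I = a z.re * deriv b z.im := by
  have h : HasFDerivAt (tp a b) _ z :=
    ((ha z.re).hasDerivAt.comp_hasFDerivAt z reCLM.hasFDerivAt).mul
      ((hb z.im).hasDerivAt.comp_hasFDerivAt z imCLM.hasFDerivAt)
  rw [h.fderiv]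
  constructor <;> simp [mul_comm]

theorem tp_int (a b : ℝ → ℝ) : ∫ z, tp a b z = (∫ x, a x) * ∫ y, b y := by
  rw [← integral_prod_mul]
  exact volume_preserving_equiv_real_prod.integral_comp' fun p => a p.1 * b p.2

/-- Closed squares. -/
def Bx (a : ℂ) (ρ : ℝ) : Set ℂ := Icc (a.re - ρ) (a.re + ρ) ×ℂ Icc (a.im - ρ) (a.im + ρ)

theorem bx_cpt (a : ℂ) (ρ : ℝ) : IsCompact (Bx a ρ) := isCompact_Icc.reProdIm isCompact_Icc

theorem bx_sub (a : ℂ) {ρ : ℝ} (h : 0 < ρ) : Bx a ρ ⊆ ball a (3 * ρ) := by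
  rintro z ⟨⟨h1, h2⟩, h3, h4⟩
  have h5 := norm_le_abs_re_add_abs_im (z - a)
  have h6 : |(z - a).re| ≤ ρ := abs_le.2 ⟨by rw [sub_re]; linarith, by rw [sub_re]; linarith⟩
  have h7 : |(z - a).im| ≤ ρ := abs_le.2 ⟨by rw [sub_im]; linarith, by rw [sub_im]; linarith⟩
  rw [mem_ball, dist_eq_norm]
  linarith

theorem tp_zero {a : ℂ} {ρ : ℝ} {p q : ℝ → ℝ} (hp : ∀ x ∉ Icc (a.re - ρ) (a.re + ρ), p x = 0)
    (hq : ∀ x ∉ Icc (a.im - ρ) (a.im + ρ), q x = 0) (z : ℂ) (hz : z ∉ Bx a ρ) : tp p q z = 0 := by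
  rcases not_and_or.1 hz with h | h
  · rw [tp, hp _ h, zero_mul]
  · rw [tp, hq _ h, mul_zero]

/-- States. -/
abbrev Sa : Type := (ℝ → ℝ) × (ℝ → ℝ)

/-- The state is located in the square. -/
def In (s : Sa) (a : ℂ) (ρ : ℝ) : Prop :=
  St s.1 (a.re - ρ) (a.re + ρ) ∧ St s.2 (a.im - ρ) (a.im + ρ)

theorem in_ex (a : ℂ) {ρ : ℝ} (h : 0 < ρ) : ∃ s, In s a ρ := by
  obtain ⟨A, hA⟩ := St.ex (l := a.re - ρ) (u := a.re + ρ) (by linarith)
  obtain ⟨B, hB⟩ := St.ex (l := a.im - ρ) (u := a.im + ρ) (by linarith)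
  exact ⟨(A, B), hA, hB⟩

theorem in_two {a y : ℂ} {ρ ρ' : ℝ} (h : y ∈ ball a ρ) (h' : 0 < ρ') :
    ∃ s, In s a ρ ∧ In s y ρ' := by
  rw [mem_ball, dist_eq_norm] at h
  obtain ⟨s, h1, h2⟩ := in_ex y (lt_min h' (sub_pos.2 h))
  have h3 := min_le_left ρ' (ρ - ‖y - a‖)
  have h4 := min_le_right ρ' (ρ - ‖y - a‖)
  have h5 := abs_le.1 (abs_re_le_norm (y - a))
  have h6 := abs_le.1 (abs_im_le_norm (y - a))
  rw [sub_re] at h5
  rw [sub_im] at h6
  exact ⟨s, ⟨h1.mono (by linarith) (by linarith), h2.mono (by linarith) (by linarith)⟩,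
    h1.mono (by linarith) (by linarith), h2.mono (by linarith) (by linarith)⟩

theorem intg {E : Type} [NormedAddCommGroup E] {C : Set ℂ} (hC : IsCompact C) {F : ℂ → E}
    (h : ContinuousOn F C) (h0 : ∀ z ∉ C, F z = 0) : Integrable F :=
  (h.integrableOn_compact hC).integrable_of_forall_notMem_eq_zero h0

theorem ibp {C : Set ℂ} (hC : IsCompact C) {G g : ℂ → ℂ} (hG : ∀ z ∈ C, HasDerivAt G (g z) z)
    (hg : ContinuousOn g C) {ψ : ℂ → ℝ} (hψ : ContDiff ℝ 1 ψ) (h0 : ∀ z ∉ C, ψ z = 0) (v : ℂ) :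
    Integrable (fun z => ψ z • (v * g z)) ∧
      ∫ z, ψ z • (v * g z) = -∫ z, fderiv ℝ ψ z v • G z := by
  have h1 : tsupport ψ ⊆ C :=
    closure_minimal (fun z hz => by_contra fun h => hz (h0 z h)) hC.isClosed
  have h2 : ContinuousOn G C := fun z hz => (hG z hz).continuousAt.continuousWithinAt
  have h3 := hψ.continuous
  have h4 := hψ.continuous_fderiv one_ne_zero
  have h5 : Integrable (fun z => ψ z • (v * g z)) :=
    intg hC (by fun_prop) fun z hz => by rw [h0 z hz, zero_smul]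
  refine ⟨h5, integral_bilinear_hasLineDerivAt_right_eq_neg_left_of_integrable
    (B := ContinuousLinearMap.lsmul ℝ ℝ) (f := ψ) (g := G) (v := v)
    (intg hC (F := fun z => fderiv ℝ ψ z v • G z) (by fun_prop) fun z hz => ?_) h5
    (intg hC (F := fun z => ψ z • G z) (by fun_prop) fun z hz => by rw [h0 z hz, zero_smul])
    (fun z _ => (hψ.differentiable one_ne_zero z).hasFDerivAt.hasLineDerivAt v) fun z hz => ?_⟩
  · rw [fderiv_of_notMem_tsupport ℝ fun h => hz (h1 h), zero_apply, zero_smul]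
  · exact ((hG z (h1 hz)).hasFDerivAt.restrictScalars ℝ).hasLineDerivAt v

/-- The mean of `G` in the state `s`. -/
def mn (G : ℂ → ℂ) (s : Sa) : ℂ := ∫ z, tp (deriv s.1) (deriv s.2) z • G z

theorem In.zero {s : Sa} {a : ℂ} {ρ : ℝ} (h : In s a ρ) (z : ℂ) (hz : z ∉ Bx a ρ) :
    tp (deriv s.1) (deriv s.2) z = 0 :=
  tp_zero (fun _ => h.1.der) (fun _ => h.2.der) z hz

theorem mn_add {s : Sa} {a : ℂ} {ρ : ℝ} (h : In s a ρ) {G G' : ℂ → ℂ} {k : ℂ}
    (hG : ContinuousOn G (Bx a ρ))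
    (e : ∀ z, tp (deriv s.1) (deriv s.2) z ≠ 0 → G' z = G z + k) : mn G' s = mn G s + k := by
  have h1 := (tp_cd h.1.c1 h.2.c1).continuous
  have h2 : ∫ z, tp (deriv s.1) (deriv s.2) z • k = k := by
    rw [integral_smul_const, tp_int, h.1.int, h.2.int, one_mul, one_smul]
  rw [← h2, mn, mn, ← integral_add
    (intg (bx_cpt a ρ) (by fun_prop) fun z hz => by rw [h.zero z hz, zero_smul])
    (intg (bx_cpt a ρ) (by fun_prop) fun z hz => by rw [h.zero z hz, zero_smul])]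
  refine integral_congr_ae (Eventually.of_forall fun z => ?_)
  by_cases h3 : tp (deriv s.1) (deriv s.2) z = 0
  · simp only [h3, zero_smul, add_zero]
  · simp only [e z h3, smul_add]

/-- The smoothed path. -/
def VV (χ : ℂ → ℝ) (s t : Sa) (z : ℂ) : ℂ :=
  gr χ z - tp (deriv s.1) s.2 z + tp (deriv t.1) t.2 z

/-- Certificates: a smoothed path from `s` to `t` with period `c`. -/
def Ce (U : Set ℂ) (g : ℂ → ℂ) (s t : Sa) (c : ℂ) : Prop :=
  ∃ (χ : ℂ → ℝ) (C : Set ℂ) (M : ℝ), ContDiff ℝ 2 χ ∧ IsCompact C ∧ C ⊆ U ∧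
    (∀ z ∉ C, VV χ s t z = 0) ∧ Integrable (fun z => g z * VV χ s t z) ∧
    ∫ z, g z * VV χ s t z = c ∧
    ∀ z : ℂ, (M ≤ |z.re| ∨ z.im ≤ -M → χ z = 0) ∧ (M ≤ z.im → χ z = s.1 z.re - t.1 z.re)

theorem gr_add {χ χ' : ℂ → ℝ} (h : ContDiff ℝ 2 χ) (h' : ContDiff ℝ 2 χ') (z : ℂ) :
    gr (χ + χ') z = gr χ z + gr χ' z ∧ gr (χ - χ') z = gr χ z - gr χ' z := by
  have h1 := h.differentiable (by norm_num) z
  have h2 := h'.differentiable (by norm_num) z
  unfold gr
  rw [fderiv_add h1 h2, fderiv_sub h1 h2]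
  exact ⟨rfl, rfl⟩

variable {U : Set ℂ} {g : ℂ → ℂ} {s t w : Sa} {c c' : ℂ}

theorem Ce.trans (h : Ce U g s t c) (h' : Ce U g t w c') : Ce U g s w (c + c') := by
  obtain ⟨χ, C, M, h1, h2, h3, h4, h5, h6, h7⟩ := h
  obtain ⟨χ', C', M', k1, k2, k3, k4, k5, k6, k7⟩ := h'
  have e : ∀ z, VV (χ + χ') s w z = VV χ s t z + VV χ' t w z := fun z => by
    simp only [VV, (gr_add h1 k1 z).1]
    ring
  have m1 := le_max_left M M'
  have m2 := le_max_right M M'
  refine ⟨χ + χ', C ∪ C', max M M', h1.add k1, h2.union k2, union_subset h3 k3,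
    fun z hz => ?_, ?_, ?_, fun z => ⟨fun hz => ?_, fun hz => ?_⟩⟩
  · rw [e, h4 z fun h => hz (Or.inl h), k4 z fun h => hz (Or.inr h), add_zero]
  · simp only [e, mul_add]
    exact h5.add k5
  · simp only [e, mul_add]
    rw [integral_add h5 k5, h6, k6]
  · rw [Pi.add_apply, (h7 z).1 (hz.imp m1.trans fun h => by linarith),
      (k7 z).1 (hz.imp m2.trans fun h => by linarith), add_zero]
  · rw [Pi.add_apply, (h7 z).2 (m1.trans hz), (k7 z).2 (m2.trans hz), sub_add_sub_cancel]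

theorem Ce.uniq (H : ∀ χ : ℂ → ℝ, ContDiff ℝ 2 χ → HasCompactSupport χ → tsupport (gr χ) ⊆ U →
      ∫ z in U, g z * gr χ z = 0) (h : Ce U g s t c) (h' : Ce U g s t c') : c = c' := by
  obtain ⟨χ, C, M, h1, h2, h3, h4, h5, h6, h7⟩ := h
  obtain ⟨χ', C', M', k1, k2, k3, k4, k5, k6, k7⟩ := h'
  have e : ∀ z, gr (χ - χ') z = VV χ s t z - VV χ' s t z := fun z => by
    simp only [VV, (gr_add h1 k1 z).2]
    ring
  have e0 : ∀ z ∉ C ∪ C', gr (χ - χ') z = 0 := fun z hz => by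
    rw [e, h4 z fun h => hz (Or.inl h), k4 z fun h => hz (Or.inr h), sub_zero]
  have m1 := le_max_left M M'
  have m2 := le_max_right M M'
  have h8 := H (χ - χ') (h1.sub k1) (HasCompactSupport.intro (bx_cpt 0 (max M M')) fun z hz => ?_)
    ((closure_minimal (s := Function.support (gr (χ - χ')))
      (fun z hz => by_contra fun h => hz (e0 z h)) (h2.union k2).isClosed).trans
      (union_subset h3 k3))
  · rw [setIntegral_eq_integral_of_forall_compl_eq_zero fun z hz => by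
      rw [e0 z fun h => hz (union_subset h3 k3 h), mul_zero]] at h8
    simp only [e, mul_sub] at h8
    rw [integral_sub h5 k5, h6, k6] at h8
    exact sub_eq_zero.1 h8
  · by_cases h9 : max M M' ≤ z.im
    · rw [Pi.sub_apply, (h7 z).2 (m1.trans h9), (k7 z).2 (m2.trans h9), sub_self]
    · have h10 : max M M' ≤ |z.re| ∨ z.im ≤ -max M M' := by
        by_contra h11
        rw [not_or, not_le, not_le, abs_lt] at h11
        refine hz ⟨⟨?_, ?_⟩, ?_, ?_⟩ <;> simp only [zero_re, zero_im] <;> linarith [h11.1.1]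
      rw [Pi.sub_apply, (h7 z).1 (h10.imp m1.trans fun h => by linarith),
        (k7 z).1 (h10.imp m2.trans fun h => by linarith), sub_self]

theorem move {a : ℂ} {ρ : ℝ} {G : ℂ → ℂ} (hU : Bx a ρ ⊆ U)
    (hG : ∀ z ∈ Bx a ρ, HasDerivAt G (g z) z) (hg : ContinuousOn g (Bx a ρ)) (hs : In s a ρ)
    (ht : In t a ρ) : Ce U g s t (I * (mn G t - mn G s)) := by
  have d1 := hs.1.dif.sub ht.1.dif
  have d2 := ht.2.dif.sub hs.2.dif
  have z1 := tp_zero (p := s.1 - t.1) (fun _ => hs.1.eq ht.1) fun _ => hs.2.der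
  have z2 := tp_zero (q := t.2 - s.2) (fun _ => ht.1.der) fun _ => ht.2.eq hs.2
  obtain ⟨i1, e1⟩ := ibp (bx_cpt a ρ) hG hg
    (tp_cd (a := s.1 - t.1) ((hs.1.1.sub ht.1.1).of_le (by norm_num)) hs.2.c1) z1 1
  obtain ⟨i2, e2⟩ := ibp (bx_cpt a ρ) hG hg
    (tp_cd (b := t.2 - s.2) ht.1.c1 ((ht.2.1.sub hs.2.1).of_le (by norm_num))) z2 I
  have e : ∀ z, VV (tp (s.1 - t.1) s.2) s t z =
      I * tp (s.1 - t.1) (deriv s.2) z + tp (deriv t.1) (t.2 - s.2) z := fun z => by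
    have h := tp_fd d1 hs.2.dif z
    rw [VV, gr, h.1, h.2, deriv_sub (hs.1.dif _) (ht.1.dif _)]
    apply Complex.ext <;> simp [tp]
    ring
  have e' : ∀ z, g z * VV (tp (s.1 - t.1) s.2) s t z =
      I * tp (s.1 - t.1) (deriv s.2) z • (1 * g z) -
        I * tp (deriv t.1) (t.2 - s.2) z • (I * g z) := fun z => by
    rw [e, real_smul, real_smul]
    linear_combination (tp (deriv t.1) (t.2 - s.2) z * g z) * I_mul_I
  have hc : ContinuousOn G (Bx a ρ) := fun z hz => (hG z hz).continuousAt.continuousWithinAt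
  have i3 : ∀ p q : Sa, In p a ρ → In q a ρ →
      Integrable fun z => tp (deriv p.1) (deriv q.2) z • G z := fun p q hp hq => by
    have h1 := (tp_cd hp.1.c1 hq.2.c1).continuous
    exact intg (bx_cpt a ρ) (by fun_prop) fun z hz => by
      rw [tp_zero (fun _ => hp.1.der) (fun _ => hq.2.der) z hz, zero_smul]
  refine ⟨tp (s.1 - t.1) s.2, Bx a ρ, |a.re| + |a.im| + |ρ|, tp_cd (hs.1.1.sub ht.1.1) hs.2.1,
    bx_cpt a ρ, hU, fun z hz => ?_, ?_, ?_, fun z => ?_⟩
  · rw [e, z1 z hz, z2 z hz, ofReal_zero, mul_zero, add_zero]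
  · simp only [e']
    exact (i1.const_mul I).sub (i2.const_mul I)
  · simp only [e']
    rw [integral_sub (i1.const_mul I) (i2.const_mul I), integral_const_mul, integral_const_mul,
      e1, e2]
    have f1 : ∀ z, fderiv ℝ (tp (s.1 - t.1) (deriv s.2)) z 1 • G z =
        tp (deriv s.1) (deriv s.2) z • G z - tp (deriv t.1) (deriv s.2) z • G z := fun z => by
      rw [(tp_fd d1 (hs.2.c1.differentiable one_ne_zero) z).1,
        deriv_sub (hs.1.dif _) (ht.1.dif _), sub_mul, sub_smul]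
      rfl
    have f2 : ∀ z, fderiv ℝ (tp (deriv t.1) (t.2 - s.2)) z I • G z =
        tp (deriv t.1) (deriv t.2) z • G z - tp (deriv t.1) (deriv s.2) z • G z := fun z => by
      rw [(tp_fd (ht.1.c1.differentiable one_ne_zero) d2 z).2,
        deriv_sub (ht.2.dif _) (hs.2.dif _), mul_sub, sub_smul]
      rfl
    simp only [f1, f2]
    rw [integral_sub (i3 s s hs hs) (i3 t s ht hs), integral_sub (i3 t t ht ht) (i3 t s ht hs),
      mn, mn]
    ring
  · have a1 := abs_le.1 (le_refl |a.re|)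
    have a2 := abs_le.1 (le_refl |a.im|)
    have a3 := le_abs_self ρ
    refine ⟨fun hz => ?_, fun hz => ?_⟩
    · rcases hz with hz | hz
      · rcases le_abs'.1 hz with h | h
        · rw [tp, Pi.sub_apply, hs.1.2.1 _ (by linarith), ht.1.2.1 _ (by linarith), sub_self,
            zero_mul]
        · rw [tp, Pi.sub_apply, hs.1.2.2 _ (by linarith), ht.1.2.2 _ (by linarith), sub_self,
            zero_mul]
      · rw [tp, hs.2.2.1 _ (by linarith), mul_zero]
    · rw [tp, hs.2.2.2 _ (by linarith), mul_one, Pi.sub_apply]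

end Prim

open Prim in
theorem s_prim (stokes : S_stokes) : S_prim := by
  intro U g hU hc hg H
  rcases U.eq_empty_or_nonempty with rfl | ⟨a₀, h₀⟩
  · exact ⟨0, differentiableOn_empty, fun _ h => h.elim⟩
  have loc : ∀ a ∈ U, ∃ (ρ : ℝ) (G : ℂ → ℂ), 0 < ρ ∧ ball a (3 * ρ) ⊆ U ∧
      ∀ z ∈ ball a (3 * ρ), HasDerivAt G (g z) z := by
    intro a ha
    obtain ⟨r, hr, h⟩ := Metric.isOpen_iff.1 hU a ha
    obtain ⟨G, hG⟩ := (hg.mono h).isExactOn_ball
    refine ⟨r / 3, G, by positivity, ?_⟩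
    rw [mul_div_cancel₀ r three_ne_zero]
    exact ⟨h, hG⟩
  choose! ρ G h1 h2 h3 using loc
  have mv : ∀ a ∈ U, ∀ s t, In s a (ρ a) → In t a (ρ a) →
      Ce U g s t (I * (mn (G a) t - mn (G a) s)) := fun a ha s t =>
    move ((bx_sub a (h1 a ha)).trans (h2 a ha)) (fun z hz => h3 a ha z (bx_sub a (h1 a ha) hz))
      (hg.continuousOn.mono ((bx_sub a (h1 a ha)).trans (h2 a ha)))
  have all : ∀ a ∈ U, ∀ s t, In s a₀ (ρ a₀) → In t a (ρ a) → ∃ c, Ce U g s t c := by
    intro a ha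
    refine hc.induction₂' (fun x y => ∀ s t, In s x (ρ x) → In t y (ρ y) → ∃ c, Ce U g s t c)
      (fun x hx => ?_) (fun x y z _ hy _ p q s t hs ht => ?_) h₀ ha
    · filter_upwards [mem_nhdsWithin_of_mem_nhds (ball_mem_nhds x (h1 x hx)),
        self_mem_nhdsWithin] with y hy hy'
      obtain ⟨w, w1, w2⟩ := in_two hy (h1 y hy')
      exact ⟨fun s t hs ht => ⟨_, (mv x hx s w hs w1).trans (mv y hy' w t w2 ht)⟩,
        fun s t hs ht => ⟨_, (mv y hy' s w hs w2).trans (mv x hx w t w1 ht)⟩⟩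
    · obtain ⟨w, hw⟩ := in_ex y (h1 y hy)
      obtain ⟨c, h4⟩ := p s w hs hw
      obtain ⟨c', h5⟩ := q w t hw ht
      exact ⟨_, h4.trans h5⟩
  obtain ⟨s₀, hs₀⟩ := in_ex a₀ (h1 a₀ h₀)
  have ex : ∀ a ∈ U, ∃ k : ℂ, ∀ t, In t a (ρ a) → Ce U g s₀ t (I * (mn (G a) t + k)) := by
    intro a ha
    obtain ⟨w, hw⟩ := in_ex a (h1 a ha)
    obtain ⟨c, h4⟩ := all a ha s₀ w hs₀ hw
    refine ⟨-I * c - mn (G a) w, fun t ht => ?_⟩
    convert h4.trans (mv a ha w t hw ht) using 1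
    linear_combination -c * I_mul_I
  choose! k hk using ex
  have dif : ∀ a ∈ U, DifferentiableOn ℂ (G a) (ball a (3 * ρ a)) := fun a ha z hz =>
    (h3 a ha z hz).differentiableAt.differentiableWithinAt
  have key : ∀ a ∈ U, HasDerivAt (fun z => G z z + k z) (g a) a := by
    intro a ha
    have h4 := h1 a ha
    refine ((h3 a ha a (mem_ball_self (by positivity))).add_const (k a)).congr_of_eventuallyEq ?_
    filter_upwards [ball_mem_nhds a h4] with z hz
    have h5 : z ∈ ball a (3 * ρ a) := ball_subset_ball (by linarith) hz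
    have hz' := h2 a ha h5
    have h6 := h1 z hz'
    obtain ⟨w, w1, w2⟩ := in_two hz h6
    obtain ⟨κ, hκ⟩ := (isOpen_ball.inter isOpen_ball).exists_eq_add_of_deriv_eq
      ((convex_ball a (3 * ρ a)).inter (convex_ball z (3 * ρ z))).isPreconnected
      ((dif a ha).mono inter_subset_left) ((dif z hz').mono inter_subset_right)
      fun y hy => (h3 a ha y hy.1).deriv.trans (h3 z hz' y hy.2).deriv.symm
    have h7 := mn_add w2 ((dif z hz').continuousOn.mono (bx_sub z h6)) (G' := G a) (k := κ)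
      fun y hy => hκ ⟨bx_sub a h4 (by_contra fun h => hy (w1.zero y h)),
        bx_sub z h6 (by_contra fun h => hy (w2.zero y h))⟩
    have h8 := mul_left_cancel₀ I_ne_zero ((hk a ha w w1).uniq H (hk z hz' w w2))
    have h9 : G a z = G z z + κ := hκ ⟨h5, mem_ball_self (by positivity)⟩
    linear_combination h7 - h8 - h9
  exact ⟨fun z => G z z + k z, fun z hz => (key z hz).differentiableAt.differentiableWithinAt,
    fun z hz => (key z hz).deriv⟩

end Vale.Agent.P116
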