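import Vale.Agent.P116.AStm2
import Vale.Agent.P116.APrim

/-! Frames around a square. -/

open Set Filter Topology MeasureTheory Metric Complex
open scoped ENNReal NNReal

noncomputable section
namespace Vale.Agent.P116

namespace AFr

open Prim

theorem step_ex {l u : ℝ} (h : l < u) :
    ∃ A, St A l u ∧ (∀ x, 0 ≤ A x ∧ A x ≤ 1) ∧ ∀ x, 0 ≤ deriv A x := by
  have h0 : 0 < u - l := sub_pos.2 h
  refine ⟨fun x => Real.smoothTransition ((x - l) / (u - l)),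
    ⟨Real.smoothTransition.contDiff.comp (by fun_prop), fun x hx => ?_, fun x hx => ?_⟩,
    fun x => ⟨Real.smoothTransition.nonneg _, Real.smoothTransition.le_one _⟩,
    fun x => Monotone.deriv_nonneg fun x y hxy => Real.smoothTransition.monotone (by gcongr)⟩
  · exact Real.smoothTransition.zero_of_nonpos (div_nonpos_of_nonpos_of_nonneg (by linarith) h0.le)
  · exact Real.smoothTransition.one_of_one_le ((one_le_div h0).2 (by linarith))

theorem st_intg {A : ℝ → ℝ} {l u : ℝ} (h : St A l u) : Integrable (deriv A) :=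
  h.c1.continuous.integrable_of_hasCompactSupport
    (HasCompactSupport.intro isCompact_Icc fun _ hx => h.der hx)

theorem plateau (x₀ : ℝ) {r k : ℝ} (hr : 0 ≤ r) (hk : 0 < k) : ∃ a D : ℝ → ℝ, ContDiff ℝ 1 a ∧
    (∀ x, 0 ≤ a x ∧ a x ≤ 1) ∧ (∀ x ∈ Icc (x₀ - k) (x₀ + r + k), a x = 1) ∧
    (∀ x ∉ Icc (x₀ - 2 * k) (x₀ + r + 2 * k), a x = 0) ∧ Integrable D ∧ ∫ x, D x = 2 ∧
    (∀ x, |deriv a x| ≤ D x) ∧ ∀ x, D x ≠ 0 → |x - x₀| ≤ 2 * k ∨ |x - (x₀ + r)| ≤ 2 * k := by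
  obtain ⟨A, hA, a1, a2⟩ := step_ex (l := x₀ - 2 * k) (u := x₀ - k) (by linarith)
  obtain ⟨B, hB, b1, b2⟩ := step_ex (l := x₀ + r + k) (u := x₀ + r + 2 * k) (by linarith)
  refine ⟨A - B, deriv A + deriv B, (hA.1.sub hB.1).of_le (by norm_num), fun x => ?_,
    fun x hx => ?_, fun x hx => ?_, (st_intg hA).add (st_intg hB), ?_, fun x => ?_,
    fun x hx => ?_⟩
  · rcases le_total x (x₀ + r + k) with h | h
    · rw [Pi.sub_apply, hB.2.1 x h, sub_zero]
      exact a1 x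
    · rw [Pi.sub_apply, hA.2.2 x (by linarith)]
      constructor <;> linarith [b1 x]
  · rw [Pi.sub_apply, hA.2.2 x hx.1, hB.2.1 x hx.2, sub_zero]
  · exact (hA.mono le_rfl (by linarith)).eq (hB.mono (by linarith) le_rfl) hx
  · rw [integral_add' (st_intg hA) (st_intg hB), hA.int, hB.int]
    norm_num
  · rw [deriv_sub (hA.dif x) (hB.dif x), Pi.add_apply, abs_le]
    constructor <;> linarith [a2 x, b2 x]
  · by_contra h
    rw [not_or, abs_le, abs_le] at h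
    refine hx ?_
    rw [Pi.add_apply, hA.der fun h' => h.1 ⟨by linarith [h'.1], by linarith [h'.2]⟩,
      hB.der fun h' => h.2 ⟨by linarith [h'.1], by linarith [h'.2]⟩, add_zero]

theorem clamp {x₀ r k x : ℝ} (hr : 0 ≤ r) (hk : 0 ≤ k) (hx : x ∈ Icc (x₀ - k) (x₀ + r + k)) :
    ∃ x' ∈ Icc x₀ (x₀ + r), |x - x'| ≤ k := by
  rcases le_total x x₀ with h | h
  · exact ⟨x₀, ⟨le_rfl, by linarith⟩, abs_le.2 ⟨by linarith [hx.1], by linarith⟩⟩
  · rcases le_total x (x₀ + r) with h' | h'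
    · exact ⟨x, ⟨h, h'⟩, by rwa [sub_self, abs_zero]⟩
    · exact ⟨x₀ + r, ⟨by linarith, le_rfl⟩, abs_le.2 ⟨by linarith, by linarith [hx.2]⟩⟩

theorem dist_le (z w : ℂ) : dist z w ≤ |z.re - w.re| + |z.im - w.im| := by
  rw [dist_eq_norm]
  exact norm_le_abs_re_add_abs_im (z - w)

theorem vert {Φ : ℂ → ℝ} {x₀ y₀ r : ℝ} (hΦ : ContDiff ℝ 1 Φ)
    (hv : 0 < r → ∀ w ∈ sq x₀ y₀ r, fderiv ℝ Φ w I = 0) {x y : ℝ} (hx : x ∈ Icc x₀ (x₀ + r))
    (hy : y ∈ Icc y₀ (y₀ + r)) : Φ ⟨x, y⟩ = Φ ⟨x, y₀⟩ := by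
  rcases le_or_gt r 0 with h | h
  · rw [show y = y₀ by linarith [hy.1, hy.2]]
  have e : ∀ t : ℝ, (⟨x, t⟩ : ℂ) = x + t • I := fun t => by apply Complex.ext <;> simp
  have h1 : ∀ t : ℝ, HasDerivAt (fun t : ℝ => Φ ⟨x, t⟩) (fderiv ℝ Φ ⟨x, t⟩ I) t := fun t => by
    simp only [e]
    have h2 : HasDerivAt (fun t : ℝ => (x : ℂ) + t • I) I t := by
      simpa using ((hasDerivAt_id t).smul_const I).const_add (x : ℂ)
    exact (hΦ.differentiable one_ne_zero _).hasFDerivAt.comp_hasDerivAt t h2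
  refine constant_of_has_deriv_right_zero (f := fun t : ℝ => Φ ⟨x, t⟩)
    (fun t _ => (h1 t).continuousAt.continuousWithinAt) (fun t ht => ?_) y hy
  rw [← hv h ⟨x, t⟩ ⟨hx.1, hx.2, ht.1, ht.2.le⟩]
  exact (h1 t).hasDerivWithinAt

theorem mean {Φ : ℂ → ℝ} {x₀ y₀ r : ℝ} (hΦ : ContDiff ℝ 1 Φ) (hr : 0 ≤ r)
    (hv : 0 < r → ∀ w ∈ sq x₀ y₀ r, fderiv ℝ Φ w I = 0) :
    (∫ w in sq x₀ y₀ r, Φ w) / r = ∫ x in x₀..x₀ + r, Φ ⟨x, y₀⟩ := by
  rcases hr.eq_or_lt with rfl | h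
  · simp
  have hm : MeasurableSet (sq x₀ y₀ r) := by
    have e : sq x₀ y₀ r = Icc x₀ (x₀ + r) ×ℂ Icc y₀ (y₀ + r) := by
      ext z
      simp only [sq, mem_ofPred_eq, mem_reProdIm, mem_Icc, and_assoc]
    rw [e]
    exact (isClosed_Icc.reProdIm isClosed_Icc).measurableSet
  have e : (sq x₀ y₀ r).indicator Φ = tp ((Icc x₀ (x₀ + r)).indicator fun x => Φ ⟨x, y₀⟩)
      ((Icc y₀ (y₀ + r)).indicator fun _ => 1) := by
    funext z
    by_cases hz : z ∈ sq x₀ y₀ r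
    · rw [indicator_of_mem hz, tp, indicator_of_mem (mem_Icc.2 ⟨hz.1, hz.2.1⟩),
        indicator_of_mem (mem_Icc.2 hz.2.2), mul_one]
      exact vert hΦ hv ⟨hz.1, hz.2.1⟩ hz.2.2
    · rw [indicator_of_notMem hz, tp]
      by_cases h1 : z.re ∈ Icc x₀ (x₀ + r)
      · rw [indicator_of_notMem (s := Icc y₀ (y₀ + r)) fun h2 => hz ⟨h1.1, h1.2, h2⟩, mul_zero]
      · rw [indicator_of_notMem h1, zero_mul]
  rw [← integral_indicator hm, e, tp_int, integral_indicator measurableSet_Icc,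
    integral_indicator measurableSet_Icc, intervalIntegral.integral_of_le (by linarith),
    integral_Icc_eq_integral_Ioc]
  simp [hr, h.ne']

end AFr

open Prim AFr in
theorem s_frame : S_frame := by
  intro Φ x₀ y₀ r η κ₀ hΦ h0 hr hv hη hκ
  have hc : Continuous fun x : ℝ => Φ ⟨x, y₀⟩ := hΦ.continuous.comp (by
    have e : ∀ t : ℝ, (⟨t, y₀⟩ : ℂ) = t + y₀ * I := fun t => by apply Complex.ext <;> simp
    simp only [e]
    fun_prop)
  obtain ⟨δ, hδ, hδ'⟩ : ∃ δ > 0, δ * (r + 1) = η / 8 :=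
    ⟨η / 8 / (r + 1), by positivity, div_mul_cancel₀ _ (by positivity)⟩
  obtain ⟨ε, hε, hu⟩ := Metric.uniformContinuousOn_iff.1
    (((isCompact_Icc (a := x₀ - 1) (b := x₀ + r + 1)).reProdIm
      (isCompact_Icc (a := y₀ - 1) (b := y₀ + r + 1))).uniformContinuousOn_of_continuous
        hΦ.continuous.continuousOn) δ hδ
  have hF := intervalIntegral.continuous_primitive (μ := volume)
    (fun a b => hc.intervalIntegrable a b) x₀
  have hG : Continuous fun k : ℝ => (∫ x in x₀..x₀ + r + 2 * k, Φ ⟨x, y₀⟩) -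
      ∫ x in x₀..x₀ - 2 * k, Φ ⟨x, y₀⟩ := (hF.comp (by fun_prop)).sub (hF.comp (by fun_prop))
  have hE := (hG.tendsto 0).eventually_lt_const (u := (∫ x in x₀..x₀ + r, Φ ⟨x, y₀⟩) + η / 4)
    (by simpa using hη)
  obtain ⟨k, ⟨k1, k2⟩, hk⟩ := (((hE.and (eventually_lt_nhds
    (show 0 < min (1 / 4) (min ε κ₀ / 4) by positivity))).filter_mono
      nhdsWithin_le_nhds).and (self_mem_nhdsWithin (s := Ioi (0 : ℝ)))).exists
  have hk : 0 < k := hk
  have k3 : k < 1 / 4 := k2.trans_le (min_le_left _ _)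
  have k4 : 4 * k < ε := by linarith [min_le_right (1 / 4) (min ε κ₀ / 4), min_le_left ε κ₀]
  have k5 : 4 * k < κ₀ := by linarith [min_le_right (1 / 4) (min ε κ₀ / 4), min_le_right ε κ₀]
  obtain ⟨a, -, a1, a2, a3, a4, -⟩ := plateau x₀ hr hk
  obtain ⟨b, D, b1, b2, b3, b4, d1, d2, d3, d4⟩ := plateau y₀ hr hk
  have near : ∀ x x' y y' : ℝ, x' ∈ Icc (x₀ - 2 * k) (x₀ + r + 2 * k) →
      x ∈ Icc (x₀ - 2 * k) (x₀ + r + 2 * k) → y' ∈ Icc y₀ (y₀ + r) → |x - x'| ≤ 2 * k →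
      |y - y'| ≤ 2 * k → |Φ ⟨x, y⟩ - Φ ⟨x', y'⟩| < δ := by
    intro x x' y y' h1 h2 h3 h4 h5
    have h6 := abs_le.1 h5
    refine hu ⟨x, y⟩ ⟨⟨?_, ?_⟩, ?_, ?_⟩ ⟨x', y'⟩ ⟨⟨?_, ?_⟩, ?_, ?_⟩
      ((dist_le _ _).trans_lt ?_) <;> simp only <;>
      linarith [h1.1, h1.2, h2.1, h2.2, h3.1, h3.2]
  have key : ∀ w : ℂ, w.re ∈ Icc (x₀ - 2 * k) (x₀ + r + 2 * k) → D w.im ≠ 0 →
      Φ w ≤ Φ ⟨w.re, y₀⟩ + 2 * δ := by
    intro w h1 h2
    have y0 : y₀ ∈ Icc y₀ (y₀ + r) := ⟨le_rfl, by linarith⟩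
    have y1 : y₀ + r ∈ Icc y₀ (y₀ + r) := ⟨by linarith, le_rfl⟩
    rcases d4 _ h2 with h3 | h3
    · have h4 := abs_lt.1 (near w.re w.re w.im y₀ h1 h1 y0 (by simpa using hk.le) h3)
      change _ < Φ w - _ ∧ Φ w - _ < _ at h4
      linarith
    · obtain ⟨x', h4, h5⟩ := clamp hr (by positivity) h1
      have h6 : x' ∈ Icc (x₀ - 2 * k) (x₀ + r + 2 * k) := ⟨by linarith [h4.1], by linarith [h4.2]⟩
      have h7 := abs_lt.1 (near w.re x' w.im (y₀ + r) h6 h1 y1 h5 h3)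
      have h8 := abs_lt.1 (near w.re x' y₀ y₀ h6 h1 y0 h5 (by simpa using hk.le))
      rw [vert hΦ hv h4 y1] at h7
      change _ < Φ w - _ ∧ Φ w - _ < _ at h7
      linarith
  have z0 : ∀ w : ℂ, tp a b w ≠ 0 → w.re ∈ Icc (x₀ - 2 * k) (x₀ + r + 2 * k) ∧
      w.im ∈ Icc (y₀ - 2 * k) (y₀ + r + 2 * k) := fun w hw =>
    ⟨by_contra fun h => hw (by rw [tp, a4 _ h, zero_mul]),
      by_contra fun h => hw (by rw [tp, b4 _ h, mul_zero])⟩
  refine ⟨tp a b, k, hk, tp_cd a1 b1,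
    HasCompactSupport.intro (isCompact_Icc.reProdIm isCompact_Icc)
      fun w hw => by_contra fun h => hw (z0 w h),
    fun w => ⟨mul_nonneg (a2 _).1 (b2 _).1, mul_le_one₀ (a2 _).2 (b2 _).1 (b2 _).2⟩,
    fun w hw => ?_, fun w hw => by_contra fun h => hw ?_, ?_⟩
  · obtain ⟨z, ⟨h1, h2, h3, h4⟩, h5⟩ := mem_thickening_iff.1 hw
    rw [dist_eq_norm] at h5
    have h6 := abs_le.1 (abs_re_le_norm (w - z))
    have h7 := abs_le.1 (abs_im_le_norm (w - z))
    rw [sub_re] at h6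
    rw [sub_im] at h7
    rw [tp, a3 _ ⟨by linarith, by linarith⟩, b3 _ ⟨by linarith, by linarith⟩, mul_one]
  · obtain ⟨x, h1, h2⟩ := clamp hr (by positivity) (z0 w h).1
    obtain ⟨y, h3, h4⟩ := clamp hr (by positivity) (z0 w h).2
    exact mem_thickening_iff.2 ⟨⟨x, y⟩, ⟨h1.1, h1.2, h3⟩, (dist_le _ _).trans_lt (by
      simp only
      linarith)⟩
  · have hi : Integrable ((Icc (x₀ - 2 * k) (x₀ + r + 2 * k)).indicator
        fun x => Φ ⟨x, y₀⟩ + 2 * δ) :=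
      (integrable_indicator_iff measurableSet_Icc).2 (hc.add continuous_const).integrableOn_Icc
    have h1 : Integrable (tp ((Icc (x₀ - 2 * k) (x₀ + r + 2 * k)).indicator
        fun x => Φ ⟨x, y₀⟩ + 2 * δ) D) :=
      volume_preserving_equiv_real_prod.integrable_comp_of_integrable (hi.mul_prod d1)
    refine (integral_mono_of_nonneg (Eventually.of_forall fun w =>
      mul_nonneg (h0 w) (abs_nonneg _)) h1 (Eventually.of_forall fun w => ?_)).trans ?_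
    · have h2 := abs_nonneg (deriv b w.im)
      have h3 := d3 w.im
      simp only [(tp_fd (a1.differentiable one_ne_zero) (b1.differentiable one_ne_zero) w).2, tp]
      by_cases h4 : w.re ∈ Icc (x₀ - 2 * k) (x₀ + r + 2 * k)
      · rw [indicator_of_mem h4, abs_mul, abs_of_nonneg (a2 _).1]
        by_cases h5 : D w.im = 0
        · rw [h5, le_antisymm (h5 ▸ h3) h2, mul_zero, mul_zero, mul_zero]
        · exact mul_le_mul (key w h4 h5) ((mul_le_of_le_one_left h2 (a2 _).2).trans h3)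
            (mul_nonneg (a2 _).1 h2) ((h0 w).trans (key w h4 h5))
      · rw [indicator_of_notMem h4, a4 _ h4, zero_mul, abs_zero, mul_zero, zero_mul]
    · rw [intervalIntegral.integral_interval_sub_left (hc.intervalIntegrable _ _)
        (hc.intervalIntegrable _ _)] at k1
      rw [tp_int, d2, mean hΦ hr hv, integral_indicator measurableSet_Icc,
        integral_Icc_eq_integral_Ioc, ← intervalIntegral.integral_of_le (by linarith),
        intervalIntegral.integral_add (hc.intervalIntegrable _ _) intervalIntegrable_const,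
        intervalIntegral.integral_const, smul_eq_mul]
      nlinarith

end Vale.Agent.P116
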