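import Vale.Agent.P116.AStm2
import Vale.Agent.P116.AStar

/-! Step A: from blocking bounds to an oscillation bound. -/

open Set Filter Topology MeasureTheory Metric Complex
open scoped ENNReal NNReal

noncomputable section
namespace Vale.Agent.P116

namespace AGap

theorem levels {K p : Set ℂ} {u : ℂ → ℝ} {r M : ℝ} {W : Set ℂ} (hW : IsOpen W) (hp : p ⊆ W)
    (hM : ∀ z ∈ W \ K, |u z| ≤ M) (h : ¬ Osc K p u r) :
    ∃ α, (∀ x, α < x → ∀ U, IsOpen U → p ⊆ U → ∃ z ∈ U \ K, u z < x) ∧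
      ∀ y, y ≤ α + r → ∀ U, IsOpen U → p ⊆ U → ∃ z ∈ U \ K, y < u z := by
  simp only [Osc, not_forall, not_exists, not_and, not_le, exists_prop] at h
  obtain ⟨ε, hε, h⟩ := h
  set N : Set ℝ := {x | ∃ U, IsOpen U ∧ p ⊆ U ∧ ∀ z ∈ U \ K, x ≤ u z}
  have key : ∀ x ∈ N, ∀ y U, IsOpen U → p ⊆ U → (∀ z ∈ U \ K, u z ≤ y) → r + ε < y - x := by
    rintro x ⟨V, hV, hpV, H⟩ y U hU hpU H'
    obtain ⟨z, hz, w, hw, k⟩ := h (V ∩ U) (hV.inter hU) (subset_inter hpV hpU)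
    linarith [H w ⟨hw.1.1, hw.2⟩, H' z ⟨hz.1.2, hz.2⟩]
  have ne : N.Nonempty := ⟨-M, W, hW, hp, fun z hz => (abs_le.1 (hM z hz)).1⟩
  have bd : BddAbove N := ⟨M - (r + ε), fun x hx => by
    linarith [key x hx M W hW hp fun z hz => (abs_le.1 (hM z hz)).2]⟩
  refine ⟨sSup N, fun x hx U hU hpU => ?_, fun y hy U hU hpU => ?_⟩
  · by_contra hn
    push Not at hn
    exact absurd (le_csSup bd ⟨U, hU, hpU, hn⟩) (not_le.2 hx)
  · by_contra hn
    push Not at hn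
    obtain ⟨x, hx, hx'⟩ := exists_lt_of_lt_csSup ne (sub_lt_self (sSup N) hε)
    linarith [key x hx y U hU hpU hn]

theorem wd_one_sub (g u : ℂ → ℝ) (z : ℂ) : |wd (fun z => 1 - g z) u z| = |wd g u z| := by
  rw [← abs_neg, wd, wd, fderiv_const_sub]
  simp only [ContinuousLinearMap.neg_apply]
  congr 1
  ring

end AGap

theorem s_gap (L : Lib) (G : Geo) (bl : S_bl) : S_gap := by
  intro K A Q z₀ c f ρ χ φ b q lo t η x₀ l hB hS hQ hχ hq ht hc hη hl hlη b01 b0 b1 hφ H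
  by_contra hn
  have hK := hB.cpt
  obtain ⟨R, hR⟩ := hK.isBounded.subset_ball 0
  obtain ⟨M, hM⟩ := G.imgA.bdd K c f R (hS.toPre.uni hB)
  obtain ⟨α, h1, h2⟩ := AGap.levels isOpen_ball ((L.cmp.sub K q).trans hR)
    (fun z hz => (abs_re_le_norm (f z)).trans (hM z hz)) hn
  rcases le_total lo (α + 4 * η) with h | h
  · obtain ⟨a, a1, a2, a3⟩ : ∃ a, α ≤ a ∧ lo + t ≤ a ∧ a ≤ α + t + 4 * η :=
      ⟨max α (lo + t), le_max_left _ _, le_max_right _ _, max_le (by linarith) (by linarith)⟩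
    obtain ⟨i, ⟨i1, i2⟩, -⟩ := existsUnique_add_zsmul_mem_Ioc hη x₀ a
    rw [zsmul_eq_mul] at i1 i2
    obtain ⟨σ, g, lc, k⟩ := H i (disjoint_left.2 fun y h1 h2 => by linarith [h1.1, h2.2])
    have := bl K A Q z₀ c f ρ σ χ (fun z => 1 - b (φ z - (x₀ + i * η))) q (a + 2 * η) (a + 3 * η)
      hB hS hQ hχ ⟨L.adm.sub K _ _ hK.isClosed (L.adm.c1 K _ hK.isClosed contDiff_const) g.1, g.2.1,
        fun p hp ε hε => ?_⟩ (fun z => by constructor <;> linarith [(b01 (φ z - (x₀ + i * η))).1,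
        (b01 (φ z - (x₀ + i * η))).2]) (fun p hp => ?_) hq ?_ (fun z hz k1 _ => ?_)
      fun U hU hp => ⟨h1 _ (by linarith) U hU hp, h2 _ (by linarith) U hU hp⟩
    · simp only [AGap.wd_one_sub] at this
      linarith
    · obtain ⟨U, hU, hp, k⟩ := g.2.2 p hp ε hε
      exact ⟨U, hU, hp, fun z hz w hw => by linarith [k w hw z hz]⟩
    · obtain ⟨U, d, hU, hp, k⟩ := lc p hp
      exact ⟨U, 1 - d, hU, hp, fun z hz => congrArg (1 - ·) (k z hz)⟩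
    · obtain ⟨U, hU, hp, k⟩ := hc _ (sub_pos.2 i1)
      refine ⟨U, hU, hp, fun z hz => ?_⟩
      rw [b0 _ (by linarith [(k z hz).2]), sub_zero]
    · rw [b1 _ (by linarith [(abs_le.1 (hφ z hz)).1]), sub_self]
  · obtain ⟨a, a1, a2, a3⟩ : ∃ a, α + 4 * η ≤ a ∧ a ≤ lo ∧ a ≤ α + t + 8 * η :=
      ⟨α + 4 * η, le_rfl, h, by linarith⟩
    obtain ⟨i, ⟨i1, i2⟩, -⟩ := existsUnique_add_zsmul_mem_Ico hη x₀ (a - l - η)
    rw [zsmul_eq_mul] at i1 i2
    obtain ⟨σ, g, lc, k⟩ := H i (disjoint_left.2 fun y h1 h2 => by linarith [h1.2, h2.1])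
    have := bl K A Q z₀ c f ρ σ χ (fun z => b (φ z - (x₀ + i * η))) q (a - 3 * η) (a - 2 * η)
      hB hS hQ hχ g (fun z => b01 _) lc hq ?_ (fun z hz _ k1 => ?_)
      fun U hU hp => ⟨h1 _ (by linarith) U hU hp, h2 _ (by linarith) U hU hp⟩
    · linarith
    · obtain ⟨U, hU, hp, k⟩ := hc (a - l - (x₀ + i * η)) (by linarith)
      exact ⟨U, hU, hp, fun z hz => b1 _ (by linarith [(k z hz).1])⟩
    · exact b0 _ (by linarith [(abs_le.1 (hφ z hz)).2])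

end Vale.Agent.P116
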