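import Vale.Agent.P116.AStm2

/-! Real and imaginary parts of holomorphic functions. -/

open Set Filter Topology MeasureTheory Metric Complex
open scoped ENNReal NNReal

noncomputable section
namespace Vale.Agent.P116

namespace AHolAux

theorem fd {f : ℂ → ℂ} {z : ℂ} (h : DifferentiableAt ℂ f z) (v : ℂ) :
    fderiv ℝ (ru f) z v = (deriv f z * v).re ∧ fderiv ℝ (iv f) z v = (deriv f z * v).im := by
  have h1 := h.hasDerivAt.hasFDerivAt.restrictScalars ℝ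
  have h2 : HasFDerivAt (ru f) _ z := reCLM.hasFDerivAt.comp z h1
  have h3 : HasFDerivAt (iv f) _ z := imCLM.hasFDerivAt.comp z h1
  rw [h2.fderiv, h3.fderiv]
  simp [mul_comm]

theorem gru {f : ℂ → ℂ} {z : ℂ} (h : DifferentiableAt ℂ f z) :
    gr (ru f) z = (starRingEnd ℂ) (deriv f z) ∧ gr (iv f) z = I * (starRingEnd ℂ) (deriv f z) := by
  constructor <;> apply Complex.ext <;> simp [gr, (fd h _).1, (fd h _).2]

theorem ngr {f : ℂ → ℂ} {z : ℂ} (h : DifferentiableAt ℂ f z) :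
    ‖gr (ru f) z‖ ^ 2 = ‖deriv f z‖ ^ 2 ∧ ‖gr (iv f) z‖ ^ 2 = ‖deriv f z‖ ^ 2 := by
  simp [(gru h).1, (gru h).2]

theorem c1 {U : Set ℂ} {f : ℂ → ℂ} (hU : IsOpen U) (h : DifferentiableOn ℂ f U) :
    ContDiffOn ℝ 1 (ru f) U ∧ ContDiffOn ℝ 1 (iv f) U := by
  have h1 : ContDiffOn ℝ 1 f U := (h.contDiffOn hU).restrict_scalars ℝ
  exact ⟨reCLM.contDiff.comp_contDiffOn h1, imCLM.contDiff.comp_contDiffOn h1⟩

theorem lip {U : Set ℂ} {a : ℂ → ℝ} (hU : IsOpen U) (h : ContDiffOn ℝ 1 a U) :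
    LocallyLipschitzOn U a := fun z hz => by
  obtain ⟨L, t, ht, hL⟩ := (h.contDiffAt (hU.mem_nhds hz)).exists_lipschitzOnWith
  exact ⟨L, t, mem_nhdsWithin_of_mem_nhds ht, hL⟩

theorem sq_int {μ : Measure ℂ} {a b g : ℂ → ℂ} (ha : Integrable (fun z => ‖a z‖ ^ 2) μ)
    (hb : Integrable (fun z => ‖b z‖ ^ 2) μ) (hm : Measurable g) (hg : ∀ z, g z = a z - b z) :
    Integrable (fun z => ‖g z‖ ^ 2) μ := by
  refine ((ha.add hb).const_mul 2).mono' (hm.norm.pow_const 2).aestronglyMeasurable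
    (ae_of_all _ fun z => ?_)
  have h1 := pow_le_pow_left₀ (norm_nonneg _) (norm_sub_le (a z) (b z)) 2
  rw [Real.norm_of_nonneg (sq_nonneg _), hg, Pi.add_apply]
  nlinarith [sq_nonneg (‖a z‖ - ‖b z‖)]

end AHolAux

open AHolAux in
theorem s_hol (adm : S_adm) : S_hol := by
  have dif : ∀ {K : Set ℂ} {f : ℂ → ℂ}, IsClosed K → DifferentiableOn ℂ f Kᶜ → ∀ z ∈ Kᶜ,
      DifferentiableAt ℂ f z := fun hK h z hz => h.differentiableAt (hK.isOpen_compl.mem_nhds hz)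
  have eneq : ∀ (K S : Set ℂ) (c : ℂ) (f : ℂ → ℂ), IsClosed K → Hol K c f → MeasurableSet S →
      S ⊆ Kᶜ → en S (ru f) = ∫ z in S, ‖deriv f z‖ ^ 2 ∧ en S (iv f) = ∫ z in S, ‖deriv f z‖ ^ 2 :=
    fun K S c f hK hf hS hSK =>
      ⟨setIntegral_congr_fun hS fun z hz => (ngr (dif hK hf.1 z (hSK hz))).1,
        setIntegral_congr_fun hS fun z hz => (ngr (dif hK hf.1 z (hSK hz))).2⟩
  refine ⟨fun f z h => gru h, fun f g z hf hg => ?_, fun U f => c1, fun K c f hK hf => ?_,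
    fun K c => ⟨by fun_prop, by simp⟩, fun K c f g hK hf hg => ?_, eneq, fun K c f hK hf => ?_⟩
  · simp [wd, (fd hf _).1, (fd hg _).2]
  · have h1 := c1 hK.isOpen_compl hf.1
    have h2 : ∀ R : ℝ, IntegrableOn (fun z => ‖deriv f z‖ ^ 2) (ball 0 R \ K) := fun R =>
      sq_int (b := fun _ => -c) (hf.2.mono_set fun z hz => hz.2)
        (integrableOn_const ((measure_mono diff_subset).trans_lt measure_ball_lt_top).ne)
        (measurable_deriv f) fun z => by ring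
    have h3 : ∀ R : ℝ, MeasurableSet (ball (0 : ℂ) R \ K) := fun R =>
      measurableSet_ball.diff hK.measurableSet
    exact ⟨⟨lip hK.isOpen_compl h1.1, fun R => (h2 R).congr_fun
        (fun z hz => (ngr (dif hK hf.1 z hz.2)).1.symm) (h3 R)⟩,
      lip hK.isOpen_compl h1.2, fun R => (h2 R).congr_fun
        (fun z hz => (ngr (dif hK hf.1 z hz.2)).2.symm) (h3 R)⟩
  · have hm := hK.measurableSet.compl
    have h1 : IntegrableOn (fun z => ‖deriv f z - deriv g z‖ ^ 2) Kᶜ :=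
      sq_int hf.2 hg.2 ((measurable_deriv f).sub (measurable_deriv g)) fun z => by ring
    have h2 : ∀ z ∈ Kᶜ, deriv (f - g) z = deriv f z - deriv g z := fun z hz =>
      deriv_sub (dif hK hf.1 z hz) (dif hK hg.1 z hz)
    have h3 : ∀ z ∈ Kᶜ, ‖gr (ru f - ru g) z‖ ^ 2 = ‖deriv f z - deriv g z‖ ^ 2 ∧
        ‖gr (iv f - iv g) z‖ ^ 2 = ‖deriv f z - deriv g z‖ ^ 2 := fun z hz =>
      h2 z hz ▸ ngr (dif hK (hf.1.sub hg.1) z hz)
    exact ⟨⟨hf.1.sub hg.1, h1.congr_fun (fun z hz => by simp only [h2 z hz, sub_zero]) hm⟩, h1,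
      h1.congr_fun (fun z hz => (h3 z hz).1.symm) hm, h1.congr_fun (fun z hz => (h3 z hz).2.symm) hm,
      setIntegral_congr_fun hm fun z hz => (h3 z hz).1,
      setIntegral_congr_fun hm fun z hz => (h3 z hz).2⟩
  · refine ⟨hf.1.const_mul I, ?_⟩
    simpa only [deriv_const_mul_field, ← mul_sub, norm_mul, norm_I, one_mul] using hf.2

end Vale.Agent.P116
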