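import Vale.Agent.P116.ABx

/-! Step A: the width bound at components of the second type. -/

open Set Filter Topology MeasureTheory Metric Complex
open scoped ENNReal NNReal

noncomputable section
namespace Vale.Agent.P116

theorem s_hp (L : Lib) (G : Geo) (gap : S_gap) (plat : S_plat) (est : S_est) : S_hp := by
  classical
  intro K A z₀ c f ρ p hB hS hp ε hε
  obtain ⟨η, hη, rfl⟩ : ∃ η > 0, ε = 10 * η := ⟨ε / 10, by positivity, by ring⟩
  have hK := hB.cpt
  have hc := hK.isClosed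
  have hu := hS.au
  obtain ⟨Cs, hCs, plat⟩ := plat
  obtain ⟨-, b, -, -, b2, b01, b0, b1, bd⟩ := plat (η / 10) 1 (by positivity) one_pos
  obtain ⟨Λ, hΛ, bd⟩ : ∃ Λ > 0, ∀ x, |deriv b x| ≤ Λ :=
    ⟨Cs / (η / 10), by positivity, fun x => by rw [abs_of_nonneg (bd x).1]; exact (bd x).2⟩
  have bl : ∀ a, LipschitzWith ⟨Λ, hΛ.le⟩ fun x => b (x - a) := fun a =>
    lipschitzWith_of_nnnorm_deriv_le
      ((b2.differentiable two_ne_zero).comp (differentiable_id.sub_const a)) fun x => by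
        rw [deriv_comp_sub_const]
        exact bd _
  obtain ⟨U, hU, hpU, H⟩ := L.sm.punct K ρ p (η / (2 * Λ)) hK hu.2.1.2 (by positivity)
  obtain ⟨Q, hQ, hpQ, hQU⟩ := L.cmp.nbhd K p (U ∩ Aᶜ) hK (hU.inter hS.clo.2.1.isOpen_compl)
    (subset_inter hpU fun z hz => (hp hz).2)
  obtain ⟨χ, hχ, -⟩ := L.cut K Q univ hK hQ isOpen_univ (subset_univ _)
  obtain ⟨-, c2, -⟩ := L.omC.cutsup K Q χ hK hQ hχ
  obtain ⟨δ, hδ, hd⟩ := hK.exists_thickening_subset_open (isClosed_tsupport (gr χ)).isOpen_compl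
    (subset_compl_iff_disjoint_left.2 c2)
  have t0 : Tendsto (fun ε : ℝ => √ε) (𝓝[>] 0) (𝓝 0) := by
    simpa only [Real.sqrt_zero] using
      (Real.continuous_sqrt.tendsto 0).mono_left nhdsWithin_le_nhds
  have t1 := ((t0.mul_const √(en (tsupport χ \ K) (ru f))).add
    (t0.mul_const √(sm ((Q \ A) \ p.1) ρ ρ))).const_mul Λ
  simp only [zero_mul, add_zero, mul_zero] at t1
  obtain ⟨e, e1, ⟨e0, e2⟩, -, e3⟩ := ((t1.eventually (gt_mem_nhds (half_pos hη))).and
    ((show ∀ᶠ e in 𝓝[>] (0 : ℝ), e ∈ Ioc 0 δ from Ioc_mem_nhdsGT hδ).and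
      (Ioc_mem_nhdsGT (pow_pos hη 2)))).exists
  obtain ⟨φ, s, a⟩ := hu.2.2 e e0
  have k0 := (abs_le.1 (ABx.apx_pt L a hu.2.1 p hη.le e3)).2
  obtain ⟨g, h1, h2, h3⟩ := a
  obtain ⟨lo, hl⟩ := L.comp.clu K p.1 φ (s p) (g.2.1.1 p) (g.2.2 p (L.cmp.sub K p))
  have key := gap K A Q z₀ c f ρ χ φ b p lo (s p) η 0 (2 * (η / 10)) hB hS hQ hχ hpQ (g.2.1.1 p) hl
    hη (by positivity) (by linarith) b01 b0 b1 (fun z hz => ?_) fun i hi => ?_
  · obtain ⟨V, hV, hpV, k⟩ := key η hη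
    exact ⟨V, hV, hpV, fun z hz w hw => by linarith [k z hz w hw]⟩
  · rw [h1 z fun k => hd (thickening_mono e2 K k) hz, ru, sub_self, abs_zero]
    positivity
  generalize (0 + i * η : ℝ) = x at hi ⊢
  have s1 : Summable fun q => (Λ * s q) ^ 2 := by
    simp only [mul_pow]
    exact g.2.1.2.mul_left _
  have s0 : ∀ q, 0 ≤ Λ * s q := fun q => mul_nonneg hΛ.le (g.2.1.1 q)
  have sq : Sq fun q : Cmp K => if q = p then 0 else Λ * s q := by
    refine ⟨fun q => ?_, L.sm.sqle K _ _ s1 fun q => ?_⟩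
    · beta_reduce
      split_ifs
      exacts [le_rfl, s0 q]
    · split_ifs
      exacts [abs_zero.le.trans (s0 q), (abs_of_nonneg (s0 q)).le]
  refine ⟨_, ⟨(L.comp.adm1 K φ _ _ hc g.1 (bl x)).1, sq, fun q hq => ?_⟩, fun q hq => ?_, ?_⟩
  · split_ifs with h
    · subst h
      intro d hd
      rcases lt_or_ge (lo + s q) x with h | h
      · obtain ⟨V, hV, hq, k⟩ := hl _ (sub_pos.2 h)
        refine ⟨V, hV, hq, fun z hz w hw => ?_⟩
        beta_reduce
        rw [b0 _ (by linarith [(k z hz).2]), b0 _ (by linarith [(k w hw).2])]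
        linarith
      · have h' : x + 2 * (η / 10) < lo := by
          by_contra h'
          exact disjoint_left.1 hi (show max x lo ∈ _ from
            ⟨le_max_left _ _, max_le (by linarith) (not_lt.1 h')⟩)
            ⟨le_max_right _ _, max_le h (by linarith [g.2.1.1 q])⟩
        obtain ⟨V, hV, hq, k⟩ := hl _ (sub_pos.2 h')
        refine ⟨V, hV, hq, fun z hz w hw => ?_⟩
        beta_reduce
        rw [b1 _ (by linarith [(k z hz).1]), b1 _ (by linarith [(k w hw).1])]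
        linarith
    · exact L.comp.osc1 K q.1 φ _ _ _ (g.2.2 q (L.cmp.sub K q)) (bl x)
  · obtain ⟨z, hz⟩ := L.cmp.ne K q
    exact absurd (hq hz).1 (hQU (hq hz).2).2
  · have a := L.adm.sub K φ _ hc g.1 hu.1
    have k1 := est.int K Q χ φ (ru f) (ru f) (fun y => b (y - x)) (fun _ => 1) Λ hK hQ hχ g.1 hu.1
      hu.1 (AStar.glob L.adm hK a fun z hz => sub_eq_zero.2 (h1 z hz))
      (L.adm.glob K _ 0 hc (L.adm.sub K _ _ hc hu.1 hu.1) fun z _ => sub_self _)
      ((b2.of_le one_le_two).comp (contDiff_id.sub contDiff_const)) continuous_const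
      (fun _ => ⟨zero_le_one, le_rfl⟩) hΛ.le fun y => by
        rw [deriv_comp_sub_const, mul_one]
        exact bd _
    rw [sub_self, show en Kᶜ 0 = 0 from ABx.en_zero _, Real.sqrt_zero, mul_zero, add_zero] at k1
    have np : ∀ q : Cmp K, q.1 ⊆ (Q \ A) \ p.1 → q ≠ p := by
      rintro q hq rfl
      obtain ⟨z, hz⟩ := L.cmp.ne K q
      exact (hq hz).2 hz
    have sd := (L.sm.sqadd K s ρ g.2.1.2 hu.2.1.2).2
    have k2 := H ((Q \ A) \ p.1) (fun z hz => (hQU hz.1.1).1) fun h => np p h rfl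
    have k3 := (le_abs_self _).trans (L.sm.cs K ((Q \ A) \ p.1) _ ρ sd hu.2.1.2)
    have k4 := Real.sqrt_le_sqrt ((L.sm.mono2 K ((Q \ A) \ p.1) K _ sd
      fun z hz => hQ.1 hz.1.1).trans h3)
    rw [(L.sm.add K _ s ρ ρ g.2.1.2 hu.2.1.2 hu.2.1.2).2] at k3
    rw [L.sm.atom K (Q \ A) _ ρ p sq.2 hu.2.1.2
      fun z hz => mem_sdiff_of_mem (hpQ hz) (hp hz).2, if_pos rfl, zero_mul,
      zero_add, AStar.sm_congr (s' := fun q => Λ * s q) (t' := ρ)
        fun q hq => ⟨if_neg (np q hq), rfl⟩, L.sm.smul]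
    have k5 := mul_le_mul_of_nonneg_right (Real.sqrt_le_sqrt h2)
      (Real.sqrt_nonneg (en (tsupport χ \ K) (ru f)))
    have k6 := mul_le_mul_of_nonneg_right k4 (Real.sqrt_nonneg (sm ((Q \ A) \ p.1) ρ ρ))
    have k7 : Λ * (η / (2 * Λ)) = η / 2 := by field_simp
    have k8 := mul_le_mul_of_nonneg_left (add_le_add (add_le_add k5 (k3.trans k6)) k2) hΛ.le
    linarith

end Vale.Agent.P116
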