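import Vale.Agent.P116.AStm2

/-! Step A (square domains): basic facts on the image domain. -/

open Set Filter Topology MeasureTheory Metric Complex
open scoped ENNReal NNReal

noncomputable section
namespace Vale.Agent.P116

namespace ImgA

theorem con {ρ : ℝ} (h : 0 ≤ ρ) : IsPreconnected {z : ℂ | ρ < ‖z‖} := by
  have e : {z : ℂ | ρ < ‖z‖} =
      (fun q : ℝ × ℝ => (q.1 : ℂ) * exp (q.2 * I)) '' (Ioi ρ ×ˢ univ) := by
    ext z
    constructor
    · exact fun hz => ⟨(‖z‖, arg z), ⟨hz, trivial⟩, norm_mul_exp_arg_mul_I z⟩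
    · rintro ⟨q, hq, rfl⟩
      show ρ < ‖(q.1 : ℂ) * exp (q.2 * I)‖
      rw [norm_mul, norm_exp_ofReal_mul_I, mul_one, norm_real,
        Real.norm_of_nonneg (h.trans (le_of_lt hq.1))]
      exact hq.1
  rw [e]
  exact (isPreconnected_Ioi.prod isPreconnected_univ).image _ (by fun_prop)

variable {K : Set ℂ} {c : ℂ} {f : ℂ → ℂ}

theorem far (L : Lib) (h : Uni K c f) (M : ℝ) : ∃ R, ∀ z, R ≤ ‖z‖ → M ≤ ‖f z‖ := by
  obtain ⟨⟨c₀, h0⟩, -⟩ := L.decay K c f h.cpt h.hol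
  have e := h0.eventually (ball_mem_nhds c₀ one_pos)
  rw [← cobounded_eq_cocompact] at e
  obtain ⟨R, -, hR⟩ := (hasBasis_cobounded_compl_closedBall (0 : ℂ)).eventually_iff.1 e
  have hc : 0 < ‖c‖ := norm_pos_iff.2 h.ne
  refine ⟨max (R + 1) ((M + ‖c₀‖ + 1) / ‖c‖), fun z hz => ?_⟩
  have h1 : R + 1 ≤ ‖z‖ := (le_max_left _ _).trans hz
  have h2 : (M + ‖c₀‖ + 1) / ‖c‖ ≤ ‖z‖ := (le_max_right _ _).trans hz
  rw [div_le_iff₀ hc] at h2
  have h3 : ‖f z - c * z - c₀‖ < 1 := by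
    have := hR (x := z) (by simp only [mem_compl_iff, mem_closedBall, dist_zero_right]; linarith)
    rwa [dist_eq_norm] at this
  have h4 : ‖c * z‖ ≤ ‖f z‖ + ‖f z - c * z - c₀‖ + ‖c₀‖ := by
    have : c * z = f z - (f z - c * z - c₀) - c₀ := by ring
    calc ‖c * z‖ = ‖f z - (f z - c * z - c₀) - c₀‖ := by rw [← this]
      _ ≤ ‖f z - (f z - c * z - c₀)‖ + ‖c₀‖ := norm_sub_le _ _
      _ ≤ _ := by linarith [norm_sub_le (f z) (f z - c * z - c₀)]
  rw [norm_mul] at h4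
  linarith

theorem cover (L : Lib) (h : Uni K c f) {R : ℝ} (hK : K ⊆ ball 0 R) :
    ∃ R', ∀ w : ℂ, R' < ‖w‖ → w ∈ f '' {z | R < ‖z‖} := by
  have hc : ContinuousOn f Kᶜ := h.hol.1.continuousOn
  have s1 : {z : ℂ | R ≤ ‖z‖} ⊆ Kᶜ := fun z hz hz' => by
    have := mem_ball_zero_iff.1 (hK hz')
    exact absurd this (not_lt.2 hz)
  have s2 : {z : ℂ | R < ‖z‖} ⊆ Kᶜ := fun z hz => s1 (show R ≤ ‖z‖ from le_of_lt hz)
  have oA : IsOpen (f '' {z | R < ‖z‖}) :=
    (L.cov.inv _ f (isOpen_lt continuous_const continuous_norm) (h.hol.1.mono s2)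
      (h.inj.mono s2)).1
  have s3 : sphere (0 : ℂ) R ⊆ Kᶜ := fun z hz => s1 (mem_sphere_zero_iff_norm.1 hz).ge
  obtain ⟨M, hM⟩ := (isCompact_sphere (0 : ℂ) R).exists_bound_of_continuousOn (hc.mono s3)
  refine ⟨max M 0, fun w hw => ?_⟩
  refine (con (le_max_right M 0)).subset_of_closure_inter_subset oA ?_ ?_ hw
  · obtain ⟨R1, h1⟩ := far L h (max M 0 + 1)
    have e : ‖((max (R + 1) (max R1 0) : ℝ) : ℂ)‖ = max (R + 1) (max R1 0) := by
      rw [norm_real, Real.norm_of_nonneg ((le_max_right _ _).trans (le_max_right _ _))]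
    refine ⟨f ((max (R + 1) (max R1 0) : ℝ) : ℂ), ?_, mem_image_of_mem f ?_⟩
    · have := h1 _ (by rw [e]; exact (le_max_left _ _).trans (le_max_right _ _))
      show max M 0 < _
      linarith
    · show R < _
      rw [e]
      exact (lt_add_one R).trans_le (le_max_left _ _)
  · rintro w ⟨hw1, hw2⟩
    obtain ⟨R2, h2⟩ := far L h (‖w‖ + 1)
    have cC : IsCompact ({z : ℂ | R ≤ ‖z‖} ∩ closedBall 0 R2) :=
      (isCompact_closedBall _ _).inter_left (isClosed_le continuous_const continuous_norm)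
    have cI := (cC.image_of_continuousOn (hc.mono (inter_subset_left.trans s1))).isClosed
    have cl := cI.union (isClosed_le (continuous_const (y := ‖w‖ + 1)) continuous_norm)
    have hs := closure_minimal (t := _) (s := f '' {z | R < ‖z‖}) (by
      rintro _ ⟨z, hz, rfl⟩
      by_cases h3 : R2 ≤ ‖z‖
      · exact Or.inr (h2 z h3)
      · exact Or.inl ⟨z, ⟨show R ≤ ‖z‖ from le_of_lt hz,
          mem_closedBall_zero_iff.2 (not_le.1 h3).le⟩, rfl⟩) cl
    rcases hs hw1 with ⟨z, ⟨hz, -⟩, rfl⟩ | h4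
    · rcases eq_or_lt_of_le (show R ≤ ‖z‖ from hz) with h5 | h5
      · have := hM z (mem_sphere_zero_iff_norm.2 h5.symm)
        exact absurd (lt_of_le_of_lt (le_max_left M 0) hw2) (not_lt.2 this)
      · exact ⟨z, h5, rfl⟩
    · exact absurd (show ‖w‖ + 1 ≤ ‖w‖ from h4) (by linarith)

theorem opn (L : Lib) (h : Uni K c f) :
    IsOpen (f '' Kᶜ) ∧ IsCompact (f '' Kᶜ)ᶜ ∧ IsPreconnected (f '' Kᶜ) := by
  have o := (L.cov.inv _ f h.cpt.isClosed.isOpen_compl h.hol.1 h.inj).1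
  refine ⟨o, ?_, h.con.image _ h.hol.1.continuousOn⟩
  obtain ⟨R, hR⟩ := h.cpt.isBounded.subset_ball (0 : ℂ)
  obtain ⟨R', h'⟩ := cover L h hR
  refine (isCompact_closedBall (0 : ℂ) R').of_isClosed_subset o.isClosed_compl fun w hw => ?_
  rw [mem_closedBall_zero_iff]
  by_contra hn
  obtain ⟨z, hz, rfl⟩ := h' w (not_le.1 hn)
  exact hw ⟨z, fun hz' => absurd (mem_ball_zero_iff.1 (hR hz')) (not_lt.2 (le_of_lt hz)), rfl⟩

theorem bdd (L : Lib) (h : Uni K c f) (R : ℝ) : ∃ M, ∀ z ∈ ball (0 : ℂ) R \ K, ‖f z‖ ≤ M := by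
  obtain ⟨R0, hR⟩ := h.cpt.isBounded.subset_ball (0 : ℂ)
  have hR' : K ⊆ ball 0 (max R R0) := hR.trans (ball_subset_ball (le_max_right _ _))
  obtain ⟨R', h'⟩ := cover L h hR'
  refine ⟨R', fun z hz => ?_⟩
  by_contra hn
  obtain ⟨z', hz', e⟩ := h' (f z) (not_le.1 hn)
  have h1 : z' ∈ Kᶜ := fun h2 =>
    absurd (mem_ball_zero_iff.1 (hR' h2)) (not_lt.2 (le_of_lt hz'))
  have h3 := h.inj h1 hz.2 e
  subst h3
  have h4 := mem_ball_zero_iff.1 hz.1
  have h5 : max R R0 < ‖z'‖ := hz'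
  linarith [le_max_left R R0]

theorem tmono {S : Set ℂ} {a b : ℝ} (h : a ≤ b) :
    closure (f '' (thickening a S \ K)) ⊆ closure (f '' (thickening b S \ K)) :=
  closure_mono (image_mono (sdiff_subset_sdiff_left (thickening_mono h S)))

theorem mono {S S' : Set ℂ} (h : S ⊆ S') : img K f S ⊆ img K f S' := by
  rintro w ⟨h1, w', h2, h3⟩
  exact ⟨h1, w', h2, fun ε hε => closure_mono
    (image_mono (sdiff_subset_sdiff_left (thickening_subset_of_subset ε h))) (h3 ε hε)⟩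

theorem union (S S' : Set ℂ) : img K f (S ∪ S') = img K f S ∪ img K f S' := by
  refine Subset.antisymm ?_ (union_subset (mono subset_union_left) (mono subset_union_right))
  rintro w ⟨h1, w', h2, h3⟩
  by_cases h : ∀ ε > 0, w' ∈ closure (f '' (thickening ε S \ K))
  · exact Or.inl ⟨h1, w', h2, h⟩
  · push Not at h
    obtain ⟨a, ha, h⟩ := h
    refine Or.inr ⟨h1, w', h2, fun ε hε => ?_⟩
    have := h3 (min ε a) (lt_min hε ha)
    rw [thickening_union, union_sdiff_distrib, image_union, closure_union] at this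
    rcases this with h4 | h4
    · exact absurd (tmono (min_le_right _ _) h4) h
    · exact tmono (min_le_left _ _) h4

theorem sat {S : Set ℂ} {w : ℂ} (h : w ∈ img K f S) :
    connectedComponentIn (f '' Kᶜ)ᶜ w ⊆ img K f S := by
  obtain ⟨-, w', h2, h3⟩ := h
  intro v hv
  refine ⟨connectedComponentIn_subset _ _ hv, w', ?_, h3⟩
  rw [← connectedComponentIn_eq hv]
  exact h2

theorem pt (L : Lib) (h : Uni K c f) {w : ℂ} (hw : w ∉ f '' Kᶜ) : ∃ z ∈ K, w ∈ img K f {z} := by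
  obtain ⟨o, cp, -⟩ := opn L h
  obtain ⟨w', h1, h2⟩ : ∃ w' ∈ connectedComponentIn (f '' Kᶜ)ᶜ w, w' ∈ closure (f '' Kᶜ) := by
    by_contra hn
    push Not at hn
    obtain ⟨v, hv, hv'⟩ := L.cmp.acc (f '' Kᶜ)ᶜ ⟨_, w, hw, rfl⟩ (closure (f '' Kᶜ))ᶜ cp
      isClosed_closure.isOpen_compl hn
    exact hv (subset_closure (not_not.1 hv'))
  have h3 : w' ∉ f '' Kᶜ := connectedComponentIn_subset _ _ h1
  obtain ⟨y, hy, ty⟩ := mem_closure_iff_seq_limit.1 h2
  choose x hx ex using hy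
  obtain ⟨R, hR⟩ := far L h (‖w'‖ + 1)
  have e1 : ∀ᶠ n in atTop, x n ∈ ball (0 : ℂ) R := by
    filter_upwards [ty.norm.eventually (gt_mem_nhds (lt_add_one ‖w'‖))] with n hn
    rw [mem_ball_zero_iff]
    by_contra hc
    have := hR _ (not_lt.1 hc)
    rw [ex] at this
    linarith
  obtain ⟨z, -, φ, hφ, tz⟩ := tendsto_subseq_of_frequently_bounded isBounded_ball e1.frequently
  have t2 : Tendsto (fun n => f (x (φ n))) atTop (𝓝 w') := by
    simp only [ex]
    exact ty.comp hφ.tendsto_atTop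
  have hz : z ∈ K := by
    by_contra hn
    have c1 : ContinuousAt f z :=
      h.hol.1.continuousOn.continuousAt (h.cpt.isClosed.isOpen_compl.mem_nhds hn)
    exact h3 ⟨z, hn, tendsto_nhds_unique (c1.tendsto.comp tz) t2⟩
  refine ⟨z, hz, hw, w', h1, fun ε hε => mem_closure_of_tendsto t2 ?_⟩
  filter_upwards [tz.eventually (ball_mem_nhds z hε)] with n hn
  exact ⟨_, ⟨by rw [thickening_singleton]; exact hn, hx _⟩, rfl⟩

end ImgA

theorem s_imgA (L : Lib) : S_imgA :=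
  ⟨fun _ _ _ h => ImgA.opn L h, fun _ _ _ R h => ImgA.bdd L h R, fun _ _ _ M h => ImgA.far L h M,
    fun _ _ _ _ h => ImgA.mono h, fun _ S S' _ => ImgA.union S S', fun _ _ _ _ h => ImgA.sat h,
    fun _ _ _ _ h hw => ImgA.pt L h hw⟩

end Vale.Agent.P116
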