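import Vale.Agent.P116.AStm2

/-! Step A: images of clopen pieces and of components. -/

open Set Filter Topology MeasureTheory Metric Complex
open scoped ENNReal NNReal

noncomputable section
namespace Vale.Agent.P116

namespace AImgB

theorem all (imgA : S_imgA) {K : Set ℂ} {c : ℂ} {f : ℂ → ℂ} (h : Uni K c f) :
    img K f K = (f '' Kᶜ)ᶜ := by
  refine Subset.antisymm (fun w hw => hw.1) fun w hw => ?_
  obtain ⟨z, hz, h1⟩ := imgA.pt K c f w h hw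
  exact imgA.mono K _ _ f (singleton_subset_iff.2 hz) h1

theorem cov (L : Lib) (imgA : S_imgA) {K : Set ℂ} {c : ℂ} {f : ℂ → ℂ} {w : ℂ} (h : Uni K c f)
    (hw : w ∉ f '' Kᶜ) : ∃ p : Cmp K, w ∈ img K f p.1 := by
  obtain ⟨z, hz, h1⟩ := imgA.pt K c f w h hw
  obtain ⟨p, hp⟩ := L.cmp.mem K z hz
  exact ⟨p, imgA.mono K _ _ f (singleton_subset_iff.2 hp) h1⟩

theorem clo (L : Lib) (imgA : S_imgA) (corr : S_corr) {K Q : Set ℂ} {c : ℂ} {f : ℂ → ℂ}
    (h : Uni K c f) (hQ : Clo K Q) :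
    IsCompact (img K f Q) ∧ img K f (K \ Q) = (f '' Kᶜ)ᶜ \ img K f Q := by
  obtain ⟨χ, hχ, -⟩ := L.cut K Q univ h.cpt hQ isOpen_univ (subset_univ _)
  obtain ⟨χ', c1, -, c3, c4, c5⟩ := corr K Q c f χ h hQ hχ
  have d4 : ∀ w ∈ img K f Q, χ' w = 1 := c4.self_of_nhdsSet
  have d5 : ∀ w ∈ (f '' Kᶜ)ᶜ \ img K f Q, χ' w = 0 := c5.self_of_nhdsSet
  refine ⟨?_, Subset.antisymm (fun w hw => ⟨hw.1, fun hw' => ?_⟩) fun w hw => ?_⟩
  · have e : img K f Q = (f '' Kᶜ)ᶜ ∩ {w | χ' w = 1} := by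
      refine Subset.antisymm (fun w hw => ⟨hw.1, d4 w hw⟩) fun w hw => ?_
      by_contra hc
      exact zero_ne_one ((d5 w ⟨hw.1, hc⟩).symm.trans hw.2)
    rw [e]
    exact (imgA.opn K c f h).2.1.inter_right (isClosed_eq c1.continuous continuous_const)
  · obtain ⟨-, w', h1, h2⟩ := hw
    have hc : IsCompact (K \ Q) := h.cpt.of_isClosed_subset hQ.2.2 sdiff_subset
    obtain ⟨U, hU, hKU, hU0⟩ := eventually_nhdsSet_iff_exists.1 hχ.2.2.2.2
    obtain ⟨δ, hδ, h3⟩ := hc.exists_thickening_subset_open hU hKU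
    have h4 : closure (f '' (thickening δ (K \ Q) \ K)) ⊆ {w | χ' w = 0} := by
      refine closure_minimal ?_ (isClosed_eq c1.continuous continuous_const)
      rintro _ ⟨z, hz, rfl⟩
      exact (c3 z hz.2).trans (hU0 z (h3 hz.1))
    exact zero_ne_one ((h4 (h2 δ hδ)).symm.trans (d4 w' (imgA.sat K Q f w hw' h1)))
  · have h1 := hw.1
    rw [← all imgA h, ← union_sdiff_cancel hQ.1, imgA.union, union_sdiff_cancel hQ.1] at h1
    exact h1.resolve_left hw.2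

theorem sep (L : Lib) (imgA : S_imgA) (corr : S_corr) {K Q : Set ℂ} {c : ℂ} {f : ℂ → ℂ}
    (h : Uni K c f) (hQ : Clo K Q) {q : Cmp K} (hq : Q ⊆ (q.1)ᶜ) :
    Disjoint (img K f Q) (img K f q.1) := by
  refine disjoint_left.2 fun w h1 h2 => ?_
  have h3 := imgA.mono K q.1 (K \ Q) f (fun z hz => ⟨L.cmp.sub K q hz, fun h' => hq h' hz⟩) h2
  rw [(clo L imgA corr h hQ).2] at h3
  exact h3.2 h1

theorem ne_sub (L : Lib) {K : Set ℂ} {p q : Cmp K} (h : p ≠ q) : p.1 ⊆ (q.1)ᶜ :=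
  fun z h1 h2 => h (L.cmp.eq K p q ⟨z, h1, h2⟩)

theorem exq (L : Lib) {K : Set ℂ} (hK : IsCompact K) (p : Cmp K) :
    ∃ Q : ℕ → Set ℂ, (∀ n, Clo K (Q n) ∧ p.1 ⊆ Q n) ∧ Antitone Q ∧
      ∀ U, IsOpen U → p.1 ⊆ U → ∀ᶠ n in atTop, Q n ⊆ U := by
  have h0 : ∀ n : ℕ, ∃ Q, Clo K Q ∧ p.1 ⊆ Q ∧ Q ⊆ thickening (1 / ((n : ℝ) + 1)) p.1 := fun n =>
    L.cmp.nbhd K p _ hK isOpen_thickening (self_subset_thickening Nat.one_div_pos_of_nat _)
  choose P h1 h2 h3 using h0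
  let Q : ℕ → Set ℂ := fun n => Nat.rec (P 0) (fun n S => S ∩ P (n + 1)) n
  have hQ : ∀ n, Clo K (Q n) ∧ p.1 ⊆ Q n ∧ Q n ⊆ P n := by
    intro n
    induction n with
    | zero => exact ⟨h1 0, h2 0, Subset.rfl⟩
    | succ n ih =>
      exact ⟨L.cmp.clo_inter K _ _ ih.1 (h1 _), subset_inter ih.2.1 (h2 _), inter_subset_right⟩
  refine ⟨Q, fun n => ⟨(hQ n).1, (hQ n).2.1⟩,
    antitone_nat_of_succ_le fun n => inter_subset_left, fun U hU hp => ?_⟩
  obtain ⟨δ, hδ, h4⟩ := (L.cmp.cpt K p hK).exists_thickening_subset_open hU hp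
  filter_upwards [(tendsto_one_div_add_atTop_nhds_zero_nat (𝕜 := ℝ)).eventually
    (ge_mem_nhds hδ)] with n hn
  exact (hQ n).2.2.trans ((h3 n).trans ((thickening_mono hn _).trans h4))

end AImgB

theorem s_imgB (L : Lib) (imgA : S_imgA) (corr : S_corr) : S_imgB where
  clo _ _ _ _ h hQ := AImgB.clo L imgA corr h hQ
  all _ _ _ h := AImgB.all imgA h
  disj K c f p q h hpq := by
    obtain ⟨Q, h1, h2, h3⟩ := L.cmp.nbhd K p _ h.cpt
      (L.cmp.cpt K q h.cpt).isClosed.isOpen_compl (AImgB.ne_sub L hpq)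
    exact (AImgB.sep L imgA corr h h1 h3).mono_left (imgA.mono K _ _ f h2)
  seq K c f p h := by
    obtain ⟨Q, h1, h2, h3⟩ := AImgB.exq L h.cpt p
    have e : ⋂ n, img K f (Q n) = img K f p.1 := by
      refine Subset.antisymm (fun w hw => ?_)
        (subset_iInter fun n => imgA.mono K _ _ f (h1 n).2)
      obtain ⟨q, hq⟩ := AImgB.cov L imgA h (mem_iInter.1 hw 0).1
      by_cases hpq : p = q
      · rwa [hpq]
      · obtain ⟨n, hn⟩ := (h3 _ (L.cmp.cpt K q h.cpt).isClosed.isOpen_compl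
          (AImgB.ne_sub L hpq)).exists
        exact absurd hq (disjoint_left.1 (AImgB.sep L imgA corr h (h1 n).1 hn) (mem_iInter.1 hw n))
    refine ⟨?_, Q, h1, h2, h3, e⟩
    rw [← e]
    exact (AImgB.clo L imgA corr h (h1 0).1).1.of_isClosed_subset
      (isClosed_iInter fun n => (AImgB.clo L imgA corr h (h1 n).1).1.isClosed) (iInter_subset _ 0)
  cov _ _ _ _ h hw := AImgB.cov L imgA h hw

end Vale.Agent.P116
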