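import Vale.Agent.P116.AStm2

/-! Step A: univalence from the area inequality. -/

open Set Filter Topology MeasureTheory Metric Complex
open scoped ENNReal NNReal

noncomputable section
namespace Vale.Agent.P116

theorem inj_stp (x : ℝ) {δ : ℝ} (hδ : 0 < δ) : ∃ a : ℝ → ℝ, Stp a ∧ Continuous (deriv a) ∧
    deriv a x = 1 ∧ ∀ y, δ ≤ |y - x| → deriv a y = 0 := by
  let φ : ContDiffBump x := ⟨δ / 2, δ, half_pos hδ, half_lt_self hδ⟩
  have hd : ∀ y, HasDerivAt (fun u => ∫ t in (0 : ℝ)..u, φ t) (φ y) y := fun y =>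
    (φ.continuous.integral_hasStrictDerivAt 0 y).hasDerivAt
  have e : deriv (fun u => ∫ t in (0 : ℝ)..u, φ t) = φ := funext fun y => (hd y).deriv
  refine ⟨fun u => ∫ t in (0 : ℝ)..u, φ t, ⟨?_, ?_, ?_⟩, ?_, ?_, ?_⟩
  · rw [show (2 : WithTop ℕ∞) = 1 + 1 from rfl, contDiff_succ_iff_deriv, e]
    exact ⟨fun y => (hd y).differentiableAt, by simp, φ.contDiff⟩
  · rw [e]; exact fun _ => φ.nonneg
  · rw [e]; exact φ.hasCompactSupport
  · rw [e]; exact φ.continuous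
  · rw [e]; exact φ.one_of_mem_closedBall (mem_closedBall_self (half_pos hδ).le)
  · rw [e]; exact fun y hy => φ.zero_of_le_dist hy

theorem inj_loc {f : ℂ → ℂ} {z : ℂ} (hf : AnalyticAt ℂ f z) (h0 : deriv f z ≠ 0) {D : Set ℂ}
    (hD : D ∈ 𝓝 z) : ∃ U, IsOpen U ∧ z ∈ U ∧ U ⊆ D ∧ InjOn f U := by
  have h1 := (hf.hasStrictDerivAt.hasStrictFDerivAt_equiv h0).eventually_left_inverse
  obtain ⟨U, u1, u2, u3⟩ := _root_.mem_nhds_iff.1 (inter_mem h1 hD)
  exact ⟨U, u2, u3, fun x hx => (u1 hx).2, fun x hx y hy hxy => by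
    rw [← (u1 hx).1, hxy, (u1 hy).1]⟩

theorem s_inj (L : Lib) : S_inj := by
  intro K c f hK hc hf h z1 hz1 z2 hz2 e
  by_contra hne
  have hG := hK.cpt.isClosed.isOpen_compl
  have an := hf.1.analyticOnNhd hG
  obtain ⟨z0, h1, h2⟩ := (((L.decay K c f hK.cpt hf).2.eventually_ne hc).and
    hK.cpt.compl_mem_cocompact).exists
  have nz : ∀ z ∈ Kᶜ, ¬ ∀ᶠ w in 𝓝 z, deriv f w = 0 := fun z hz h0 =>
    h1 (an.deriv.eqOn_zero_of_preconnected_of_eventuallyEq_zero hK.con hz h0 h2)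
  have key : ∀ z ∈ Kᶜ, ∀ D ∈ 𝓝 z, ∀ᶠ w in 𝓝[≠] (f z), ∃ y ∈ D, f y = w ∧ deriv f y ≠ 0 := by
    intro z hz D hD
    have a1 := (an.deriv z hz).eventually_eq_zero_or_eventually_ne_zero.resolve_left (nz z hz)
    have a2 := (an z hz).eventually_constant_or_nhds_le_map_nhds.resolve_left fun h0 =>
      nz z hz (by
        filter_upwards [(show f =ᶠ[𝓝 z] fun _ => f z from h0).deriv] with w hw
        rw [hw, deriv_const])
    have a3 := a2 (image_mem_map (inter_mem (eventually_nhdsWithin_iff.1 a1) hD))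
    filter_upwards [nhdsWithin_le_nhds a3, self_mem_nhdsWithin] with w ⟨y, hy, hw⟩ hn
    exact ⟨y, hy.2, hw, hy.1 fun h' => hn (by rw [← hw, show y = z from h']; rfl)⟩
  obtain ⟨D1, D2, o1, o2, m1, m2, hd⟩ := t2_separation hne
  obtain ⟨w, ⟨y1, a1, b1, c1⟩, y2, a2, b2, c2⟩ :=
    ((key z1 hz1 _ ((o1.inter hG).mem_nhds ⟨m1, hz1⟩)).and
      (e ▸ key z2 hz2 _ ((o2.inter hG).mem_nhds ⟨m2, hz2⟩))).exists
  obtain ⟨U1, u1, u2, u3, u4⟩ := inj_loc (an y1 a1.2) c1 ((o1.inter hG).mem_nhds a1)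
  obtain ⟨U2, v1, v2, v3, v4⟩ := inj_loc (an y2 a2.2) c2 ((o2.inter hG).mem_nhds a2)
  have s1 : U1 ⊆ Kᶜ := u3.trans inter_subset_right
  have s2 : U2 ⊆ Kᶜ := v3.trans inter_subset_right
  obtain ⟨ε, hε, hb⟩ := Metric.isOpen_iff.1
    ((L.cov.inv U1 f u1 (hf.1.mono s1) u4).1.inter (L.cov.inv U2 f v1 (hf.1.mono s2) v4).1) w
    ⟨⟨y1, u2, b1⟩, y2, v2, b2⟩
  obtain ⟨a, p1, p2, p3, p4⟩ := inj_stp w.re (half_pos hε)
  obtain ⟨b, q1, q2, q3, q4⟩ := inj_stp w.im (half_pos hε)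
  have z : ∀ x, x ∉ ball w ε → deriv a x.re * deriv b x.im = 0 := fun x hx => by
    rw [mem_ball_iff_norm, not_lt] at hx
    have := norm_le_abs_re_add_abs_im (x - w)
    rw [sub_re, sub_im] at this
    rcases le_total (ε / 2) |x.re - w.re| with h | h
    · rw [p4 _ h, zero_mul]
    · rw [q4 _ (by linarith), mul_zero]
  have g0 : ∀ x : ℂ, 0 ≤ deriv a x.re * deriv b x.im := fun x => mul_nonneg (p1.2.1 _) (q1.2.1 _)
  have pos : 0 < ∫ x : ℂ, deriv a x.re * deriv b x.im :=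
    Continuous.integral_pos_of_hasCompactSupport_nonneg_nonzero (x := w) (by fun_prop)
      (HasCompactSupport.intro (isCompact_closedBall w ε) fun x hx =>
        z x fun h => hx (ball_subset_closedBall h)) g0 (by rw [p3, q3]; norm_num)
  obtain ⟨i1, i2⟩ := h a b p1 q1
  have k1 := (L.cov.int U1 U1 f (fun x => deriv a x.re * deriv b x.im) u1 (hf.1.mono s1) u4
    u1.measurableSet subset_rfl).2
  have k2 := (L.cov.int U2 U2 f (fun x => deriv a x.re * deriv b x.im) v1 (hf.1.mono s2) v4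
    v1.measurableSet subset_rfl).2
  rw [setIntegral_eq_integral_of_forall_compl_eq_zero fun x hx => z x fun h => hx (hb h).1] at k1
  rw [setIntegral_eq_integral_of_forall_compl_eq_zero fun x hx => z x fun h => hx (hb h).2] at k2
  have k3 := setIntegral_union (hd.mono (u3.trans inter_subset_left) (v3.trans inter_subset_left))
    v1.measurableSet (i1.mono_set s1) (i1.mono_set s2)
  have k4 := setIntegral_mono_set i1
    (Eventually.of_forall fun x => mul_nonneg (g0 (f x)) (sq_nonneg _))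
    (union_subset s1 s2).eventuallyLE
  linarith

end Vale.Agent.P116
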