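import Vale.Agent.P116.AStm2

/-! Step A: the localized dual inequality. -/

open Set Filter Topology MeasureTheory Metric Complex
open scoped ENNReal NNReal

noncomputable section
namespace Vale.Agent.P116

theorem s_ls (L : Lib) (G : Geo) (atom : S_atom) (tail : S_tail) : S_ls := by
  classical
  intro K T z₀ c f ρ τ F₀ θ Φ M M₀ Lp hb hp hT hS hG hθ hW
  have hK := hb.cpt
  have hM : 0 ≤ M := (hW.bd 0).1.trans (hW.bd 0).2
  have hρ : Sq ρ := hp.au.2.1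
  have hτ : Sq τ := hG.2.1
  have hΦ : ∀ w, |Φ w| ≤ M := fun w => by
    rw [abs_of_nonneg (hW.bd w).1]
    exact (hW.bd w).2
  obtain ⟨hu, hv⟩ := L.hol.adm K c f hK.isClosed hp.hol
  have ha : Adm K fun z => θ z * Φ (f z) :=
    L.adm.mul K θ (fun z => Φ (f z)) (max M M₀) hK.isClosed hG.1
      (L.comp.adm K (ru f) (iv f) Φ Lp hK.isClosed hu hv hW.lip).1
      (fun z hz => (hθ z hz).trans (le_max_right _ _)) fun z _ => (hΦ _).trans (le_max_left _ _)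
  obtain ⟨hmw, -, -⟩ := G.vol.mw K T z₀ c f ρ Φ M hb hp hT hW.c1.continuous hW.bd
  refine le_of_forall_pos_le_add fun d hd => ?_
  set N : ℝ := 2 * M * √(sm K τ τ) with hN
  have hN0 : 0 ≤ N := by positivity
  set ε : ℝ := d / (2 * (N + 1)) with hε
  have hε0 : 0 < ε := by positivity
  obtain ⟨F₁, -, hF₁⟩ := L.sm.tail K ρ (ε ^ 2) hρ.2 (by positivity)
  set F : Finset (Cmp K) := (F₀ ∪ F₁).filter fun p => p.1 ⊆ T with hF
  have hFT : ∀ p ∈ F, p.1 ⊆ T := fun p h => (Finset.mem_filter.1 h).2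
  set η : ℝ := d / (2 * (F.card + 1)) with hη
  have hη0 : 0 < η := by positivity
  have h1 : ∀ p : Cmp K, ∃ U, p ∈ F → IsOpen U ∧ p.1 ⊆ U ∧ ∀ Q, Clo K Q → p.1 ⊆ Q → Q ⊆ T ∩ U →
      |om K Q (fun z => θ z * Φ (f z)) (ru f)| ≤ τ p * mw K f ρ Φ p + η := by
    intro p
    by_cases hpF : p ∈ F
    · have ho : IsOpen ((K \ T) ∪ ⋃ q ∈ F₀.erase p, q.1)ᶜ :=
        (hT.2.2.union ((F₀.erase p).finite_toSet.isClosed_biUnion
          fun q _ => (L.cmp.cpt K q hK).isClosed)).isOpen_compl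
      obtain ⟨U, hU⟩ := atom K T ((K \ T) ∪ ⋃ q ∈ F₀.erase p, q.1)ᶜ z₀ c f ρ τ p θ Φ M M₀ Lp hb hp
        hT (hFT p hpF) ho
        (by
          rintro z hz (h | h)
          · exact h.2 (hFT p hpF hz)
          · obtain ⟨q, hq, hz'⟩ := mem_iUnion₂.1 h
            exact (Finset.mem_erase.1 hq).1 (L.cmp.eq K q p ⟨z, hz', hz⟩))
        (fun Q hQ hQU hpQ => hS Q hQ
          (fun z hz => by_contra fun h => hQU hz (Or.inl ⟨hQ.1 hz, h⟩))
          fun q hq hqQ => by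
            by_cases e : q = p
            · exact hpQ (e ▸ hqQ)
            · obtain ⟨z, hz⟩ := L.cmp.ne K q
              exact hQU (hqQ hz) (Or.inr (mem_iUnion₂.2 ⟨q, Finset.mem_erase.2 ⟨e, hq⟩, hz⟩)))
        hG hθ hW η hη0
      exact ⟨U, fun _ => hU⟩
    · exact ⟨∅, fun h => absurd h hpF⟩
  choose U hU using h1
  obtain ⟨V, hV, hVd⟩ := L.cmp.sep K F U hK fun p h => ⟨(hU p h).1, (hU p h).2.1⟩
  have h2 : ∀ p : Cmp K, ∃ Q, p ∈ F → Clo K Q ∧ p.1 ⊆ Q ∧ Q ⊆ V p ∩ (K \ T)ᶜ := by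
    intro p
    by_cases hpF : p ∈ F
    · obtain ⟨Q, hQ⟩ := L.cmp.nbhd K p (V p ∩ (K \ T)ᶜ) hK
        ((hV p hpF).1.inter hT.2.2.isOpen_compl)
        fun z hz => ⟨(hV p hpF).2.1 hz, fun h => h.2 (hFT p hpF hz)⟩
      exact ⟨Q, fun _ => hQ⟩
    · exact ⟨∅, fun h => absurd h hpF⟩
  choose Q hQ using h2
  have hQT : ∀ p ∈ F, Q p ⊆ T := fun p h z hz =>
    by_contra fun h' => ((hQ p h).2.2 hz).2 ⟨(hQ p h).1.1 hz, h'⟩
  have hQd : ∀ p ∈ F, ∀ q ∈ F, p ≠ q → Disjoint (Q p) (Q q) := fun p h q h' e =>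
    (hVd p h q h' e).mono (fun z hz => ((hQ p h).2.2 hz).1) fun z hz => ((hQ q h').2.2 hz).1
  have hA : Clo K (⋃ p ∈ F, Q p) :=
    (L.sm.biUnion K (Cmp K) F Q ρ ρ hK.isClosed (fun p h => (hQ p h).1) hQd hρ.2 hρ.2).1
  have hB : Clo K (T \ ⋃ p ∈ F, Q p) := L.cmp.clo_diff K _ _ hT hA
  have hno : ∀ p ∈ F₀ ∪ F₁, ¬ p.1 ⊆ T \ ⋃ p ∈ F, Q p := fun p h hsub => by
    have hpF : p ∈ F := Finset.mem_filter.2 ⟨h, hsub.trans diff_subset⟩
    obtain ⟨z, hz⟩ := L.cmp.ne K p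
    exact (hsub hz).2 (mem_iUnion₂.2 ⟨p, hpF, (hQ p hpF).2.1 hz⟩)
  have e1 : om K T (fun z => θ z * Φ (f z)) (ru f) =
      (∑ p ∈ F, om K (Q p) (fun z => θ z * Φ (f z)) (ru f)) +
        om K (T \ ⋃ p ∈ F, Q p) (fun z => θ z * Φ (f z)) (ru f) := by
    rw [← L.omB.biUnion K (Cmp K) F Q _ _ hK (fun p h => (hQ p h).1) hQd ha hu,
      ← L.omB.union K _ _ _ _ hK hA hB disjoint_sdiff_right ha hu,
      union_diff_cancel (iUnion₂_subset hQT)]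
  have t1 := tail K (T \ ⋃ p ∈ F, Q p) univ z₀ c f ρ τ θ Φ M M₀ |M₀| Lp hb hp hB
    (hS _ hB diff_subset fun p h => hno p (Finset.mem_union_left _ h))
    ⟨hG.1, hτ, fun p h => hG.2.2 p (h.trans diff_subset)⟩ hθ isOpen_univ (subset_univ _)
    (abs_nonneg _) (fun z hz => (hθ z hz.2).trans (le_abs_self _)) hW.c1 hΦ hW.lip
  rw [setIntegral_eq_zero_of_forall_eq_zero (fun w hw => by
    rw [hW.ver w (G.imgA.mono K _ T f diff_subset hw), abs_zero]), mul_zero, add_zero] at t1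
  have t2 : sm (T \ ⋃ p ∈ F, Q p) τ ρ ≤ √(sm K τ τ) * ε := by
    refine (le_abs_self _).trans ((L.sm.cs K _ τ ρ hτ.2 hρ.2).trans ?_)
    refine mul_le_mul (Real.sqrt_le_sqrt (L.sm.mono2 K _ K τ hτ.2 hB.1)) ?_ (Real.sqrt_nonneg _)
      (Real.sqrt_nonneg _)
    exact Real.sqrt_le_iff.2 ⟨hε0.le, hF₁ _ fun p h => hno p (Finset.mem_union_right _ h)⟩
  have t3 : 2 * M * sm (T \ ⋃ p ∈ F, Q p) τ ρ ≤ d / 2 := by
    have e2 : (N + 1) * ε = d / 2 := by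
      rw [hε]
      field_simp
    calc 2 * M * sm (T \ ⋃ p ∈ F, Q p) τ ρ ≤ 2 * M * (√(sm K τ τ) * ε) :=
          mul_le_mul_of_nonneg_left t2 (by positivity)
      _ = N * ε := by rw [hN, mul_assoc (2 * M)]
      _ ≤ d / 2 := by nlinarith
  have t4 : ∑ p ∈ F, τ p * mw K f ρ Φ p ≤ sm T τ (mw K f ρ Φ) := by
    refine le_trans (le_of_eq (Finset.sum_congr rfl fun p h => (if_pos (hFT p h)).symm))
      ((L.sm.summ K T τ _ hτ.2 hmw.2).sum_le_tsum F fun p _ => ?_)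
    split_ifs
    · exact mul_nonneg (hτ.1 p) (hmw.1 p)
    · exact le_rfl
  have t5 : |∑ p ∈ F, om K (Q p) (fun z => θ z * Φ (f z)) (ru f)| ≤
      ∑ p ∈ F, τ p * mw K f ρ Φ p + F.card * η := by
    refine (Finset.abs_sum_le_sum_abs _ _).trans ((Finset.sum_le_sum fun p h =>
      (hU p h).2.2 (Q p) (hQ p h).1 (hQ p h).2.1
        fun z hz => ⟨hQT p h hz, (hV p h).2.2 ((hQ p h).2.2 hz).1⟩).trans ?_)
    rw [Finset.sum_add_distrib, Finset.sum_const, nsmul_eq_mul]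
  have t6 : F.card * η ≤ d / 2 := by
    have e2 : ((F.card : ℝ) + 1) * η = d / 2 := by
      rw [hη]
      field_simp
    nlinarith
  rw [e1]
  refine (abs_add_le _ _).trans ?_
  linarith

end Vale.Agent.P116
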