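import Vale.Agent.P116.AStm
import Vale.Agent.P116.ALux

/-! Step A: locally uniform bounds from the energy. -/

open Set Filter Topology MeasureTheory Metric Complex
open scoped ENNReal NNReal

noncomputable section
namespace Vale.Agent.P116

theorem lu_loc {K : Set ℂ} (hK : IsClosed K) {z : ℂ} (hz : z ∈ Kᶜ) : ∃ r > 0, ∀ F : ℂ → ℂ,
    Hol K 0 F → ∀ w ∈ ball z r, ‖F w - F z‖ ≤ √(∫ z in Kᶜ, ‖deriv F z‖ ^ 2) := by
  obtain ⟨ε, hε, hb⟩ := Metric.isOpen_iff.1 hK.isOpen_compl z hz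
  have hr : 0 < ε / 3 := by positivity
  refine ⟨ε / 3, hr, fun F hF w hw => ?_⟩
  have an := hF.1.analyticOnNhd hK.isOpen_compl
  have hi : IntegrableOn (fun z => ‖deriv F z‖ ^ 2) Kᶜ := by simpa using hF.2
  have sub : ∀ u ∈ ball z (ε / 3), closedBall u (ε / 3) ⊆ Kᶜ := fun u hu y hy => hb (by
    rw [mem_ball] at hu ⊢
    rw [mem_closedBall] at hy
    linarith [dist_triangle y u z])
  have bd : ∀ u ∈ ball z (ε / 3), ‖deriv F u‖ ≤ √(∫ z in Kᶜ, ‖deriv F z‖ ^ 2) / (ε / 3) := by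
    intro u hu
    have h1 := lu_submean hr fun y hy => (an y (sub u hu hy)).deriv
    have h2 := setIntegral_mono_set hi (Eventually.of_forall fun y => by positivity)
      (sub u hu).eventuallyLE
    rw [le_div_iff₀ hr]
    refine Real.le_sqrt_of_sq_le (le_trans ?_ (h1.trans h2))
    have h3 := mul_le_mul_of_nonneg_right (show (1 : ℝ) ≤ Real.pi by linarith [Real.two_le_pi])
      (sq_nonneg (‖deriv F u‖ * (ε / 3)))
    linarith
  have h4 := (convex_ball z (ε / 3)).norm_image_sub_le_of_norm_deriv_le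
    (fun u hu => (an u (sub u hu (mem_closedBall_self hr.le))).differentiableAt) bd
    (mem_ball_self hr) hw
  refine h4.trans ?_
  rw [div_mul_eq_mul_div, div_le_iff₀ hr]
  exact mul_le_mul_of_nonneg_left (mem_ball_iff_norm.1 hw).le (Real.sqrt_nonneg _)

theorem s_lu : S_lu := by
  intro K C z₀ hK h0 hC hCK
  have hc := hK.cpt.isClosed
  have key : ∀ z ∈ Kᶜ, ∃ M ≥ 0, ∀ F : ℂ → ℂ, Hol K 0 F →
      ‖F z - F z₀‖ ≤ M * √(∫ z in Kᶜ, ‖deriv F z‖ ^ 2) := by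
    intro z hz
    refine hK.con.induction₂' (fun x y => ∃ M ≥ 0, ∀ F : ℂ → ℂ, Hol K 0 F →
      ‖F y - F x‖ ≤ M * √(∫ z in Kᶜ, ‖deriv F z‖ ^ 2)) (fun x hx => ?_) ?_ h0 hz
    · obtain ⟨r, hr, h⟩ := lu_loc hc hx
      filter_upwards [nhdsWithin_le_nhds (ball_mem_nhds x hr)] with y hy
      exact ⟨⟨1, zero_le_one, fun F hF => by rw [one_mul]; exact h F hF y hy⟩,
        1, zero_le_one, fun F hF => by rw [one_mul, norm_sub_rev]; exact h F hF y hy⟩
    · rintro x y w - - - ⟨M, hM, h1⟩ ⟨M', hM', h2⟩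
      refine ⟨M' + M, add_nonneg hM' hM, fun F hF => ?_⟩
      rw [add_mul]
      exact (norm_sub_le_norm_sub_add_norm_sub _ _ _).trans (add_le_add (h2 F hF) (h1 F hF))
  refine hC.induction_on (p := fun S => ∃ M ≥ 0, ∀ F : ℂ → ℂ, Hol K 0 F → F z₀ = 0 →
    ∀ z ∈ S, ‖F z‖ ≤ M * √(∫ z in Kᶜ, ‖deriv F z‖ ^ 2))
    ⟨0, le_rfl, fun _ _ _ _ h => h.elim⟩ ?_ ?_ fun x hx => ?_
  · rintro s t hst ⟨M, hM, h⟩
    exact ⟨M, hM, fun F a b z hz => h F a b z (hst hz)⟩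
  · rintro s t ⟨M, hM, h⟩ ⟨M', hM', h'⟩
    refine ⟨max M M', le_max_of_le_left hM, fun F a b z hz => ?_⟩
    rcases hz with hz | hz
    · exact (h F a b z hz).trans (mul_le_mul_of_nonneg_right (le_max_left _ _) (Real.sqrt_nonneg _))
    · exact (h' F a b z hz).trans
        (mul_le_mul_of_nonneg_right (le_max_right _ _) (Real.sqrt_nonneg _))
  · obtain ⟨r, hr, h⟩ := lu_loc hc (hCK hx)
    obtain ⟨M, hM, h1⟩ := key x (hCK hx)
    refine ⟨ball x r, nhdsWithin_le_nhds (ball_mem_nhds x hr), 1 + M, by positivity,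
      fun F a b z hz => ?_⟩
    have h2 := (norm_sub_le_norm_sub_add_norm_sub _ _ _).trans (add_le_add (h F a z hz) (h1 F a))
    rw [b, sub_zero] at h2
    linarith

end Vale.Agent.P116
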