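import Vale.Agent.P116.AStm2

/-! Step A: the maximum principle. -/

open Set Filter Topology MeasureTheory Metric Complex
open scoped ENNReal NNReal

noncomputable section
namespace Vale.Agent.P116

theorem amax_open {K U : Set ℂ} {c : ℂ} {f : ℂ → ℂ} (h : Uni K c f) (hU : IsOpen U) :
    IsOpen (f '' (U \ K)) := by
  have ho : IsOpen Kᶜ := h.cpt.isClosed.isOpen_compl
  rcases (h.hol.1.analyticOnNhd ho).is_constant_or_isOpen h.con with ⟨w, hw⟩ | hw
  · have hs : (Kᶜ).Subsingleton := fun a ha b hb => h.inj ha hb ((hw a ha).trans (hw b hb).symm)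
    have hc : IsCompact (K ∪ Kᶜ) := h.cpt.union hs.finite.isCompact
    rw [union_compl_self] at hc
    exact absurd hc (noncompact_univ ℂ)
  · exact hw _ (fun z hz => hz.2) (hU.sdiff h.cpt.isClosed)

theorem amax_nbhd (L : Lib) (corr : S_corr) {K Q U : Set ℂ} {c : ℂ} {f : ℂ → ℂ} (h : Uni K c f)
    (hQ : Clo K Q) (hU : IsOpen U) (hQU : Q ⊆ U) : IsOpen (f '' (U \ K) ∪ img K f Q) := by
  rw [isOpen_iff_mem_nhds]
  rintro w (hw | hw)
  · exact mem_of_superset ((amax_open h hU).mem_nhds hw) subset_union_left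
  obtain ⟨χ, hχ, hs⟩ := L.cut K Q U h.cpt hQ hU hQU
  obtain ⟨χ', -, -, h1, h2, h3⟩ := corr K Q c f χ h hQ hχ
  filter_upwards [(eventually_nhdsSet_iff_forall.1 h2) w hw] with y hy
  by_cases hf : y ∈ f '' Kᶜ
  · obtain ⟨z, hz, rfl⟩ := hf
    refine Or.inl ⟨z, ⟨hs (subset_tsupport _ ?_), hz⟩, rfl⟩
    rw [Function.mem_support, ← h1 z hz, hy]
    exact one_ne_zero
  · refine Or.inr ?_
    by_contra hc
    have h4 := h3.self_of_nhdsSet y ⟨hf, hc⟩
    rw [hy] at h4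
    exact one_ne_zero h4

theorem amax_unb (l : ℂ →L[ℝ] ℝ) {w : ℂ} {u : ℝ} (h : l w < u) :
    ¬ Bornology.IsBounded {y | l y < u} := by
  intro hb
  obtain ⟨M, hM⟩ := hb.exists_norm_le
  obtain ⟨v, hv, hl⟩ : ∃ v : ℂ, ‖v‖ = 1 ∧ l v ≤ 0 := by
    rcases le_total (l 1) 0 with h1 | h1
    · exact ⟨1, norm_one, h1⟩
    · exact ⟨-1, by simp, by rw [map_neg]; linarith⟩
  have hw : ‖w‖ ≤ M := hM w h
  have h0 : 0 ≤ 2 * M + 1 := by linarith [norm_nonneg w]
  have h1 : l (w + (2 * M + 1) • v) < u := by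
    rw [map_add, map_smul, smul_eq_mul]
    linarith [mul_nonneg h0 (neg_nonneg.2 hl)]
  have h2 := hM _ h1
  have h3 : ‖(2 * M + 1) • v‖ = 2 * M + 1 := by
    rw [norm_smul, hv, mul_one, Real.norm_of_nonneg h0]
  have h4 := norm_sub_le (w + (2 * M + 1) • v) w
  rw [add_sub_cancel_left, h3] at h4
  linarith

theorem s_max (L : Lib) (imgA : S_imgA) (corr : S_corr) (imgB : S_imgB) : S_max := by
  intro K W C c f h hW hb hd hC hcv hf
  have hQ := L.cmp.clo_open K W h.cpt.isClosed hW hd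
  obtain ⟨hc1, he⟩ := imgB.clo K _ c f h hQ
  have hsub : K \ (K ∩ W) ⊆ (closure W)ᶜ := fun z hz hc =>
    disjoint_left.1 hd (by rw [hW.frontier_eq]; exact ⟨hc, fun hw => hz.2 ⟨hz.1, hw⟩⟩) hz.1
  have o1 := amax_nbhd L corr h hQ hW inter_subset_right
  have o2 := amax_nbhd L corr h (L.cmp.clo_compl K _ hQ) isClosed_closure.isOpen_compl hsub
  rw [he] at o2
  have hdis : Disjoint (f '' (W \ K) ∪ img K f (K ∩ W))
      (f '' ((closure W)ᶜ \ K) ∪ ((f '' Kᶜ)ᶜ \ img K f (K ∩ W))) := by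
    rw [disjoint_left]
    rintro w (⟨a, ha, rfl⟩ | hw) (⟨b, hb, e⟩ | hw')
    · have e1 : b = a := h.inj hb.2 ha.2 e
      exact hb.1 (e1 ▸ subset_closure ha.1)
    · exact hw'.1 ⟨a, ha.2, rfl⟩
    · exact hw.1 ⟨b, hb.2, e⟩
    · exact hw'.2 hw
  have hbd : Bornology.IsBounded (f '' (W \ K) ∪ img K f (K ∩ W)) := by
    refine Bornology.IsBounded.union ?_ hc1.isBounded
    obtain ⟨R, hR⟩ := hb.subset_ball 0
    obtain ⟨M, hM⟩ := imgA.bdd K c f R h
    rw [isBounded_iff_forall_norm_le]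
    refine ⟨M, ?_⟩
    rintro _ ⟨z, hz, rfl⟩
    exact hM z ⟨hR hz.1, hz.2⟩
  rw [← union_subset_iff]
  intro w hw
  by_contra hwC
  obtain ⟨l, u, h1, h2⟩ := geometric_hahn_banach_point_closed hcv hC hwC
  have hH : IsPreconnected {y | l y < u} := (convex_halfSpace_lt l.toLinearMap.isLinear u).isPreconnected
  have hcov : {y | l y < u} ⊆ (f '' (W \ K) ∪ img K f (K ∩ W)) ∪
      (f '' ((closure W)ᶜ \ K) ∪ ((f '' Kᶜ)ᶜ \ img K f (K ∩ W))) := by
    intro y hy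
    by_cases hy1 : y ∈ f '' Kᶜ
    · obtain ⟨z, hz, rfl⟩ := hy1
      by_cases hz1 : z ∈ W
      · exact Or.inl (Or.inl ⟨z, ⟨hz1, hz⟩, rfl⟩)
      by_cases hz2 : z ∈ closure W
      · have h3 : z ∈ frontier W := by rw [hW.frontier_eq]; exact ⟨hz2, hz1⟩
        exact absurd (h2 _ (hf ⟨z, h3, rfl⟩)) (not_lt.2 (le_of_lt hy))
      · exact Or.inr (Or.inl ⟨z, ⟨hz2, hz⟩, rfl⟩)
    · by_cases hy2 : y ∈ img K f (K ∩ W)
      · exact Or.inl (Or.inr hy2)
      · exact Or.inr (Or.inr ⟨hy1, hy2⟩)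
  rcases hH.subset_or_subset o1 o2 hdis hcov with h3 | h3
  · exact amax_unb l h1 (hbd.subset h3)
  · exact disjoint_left.1 hdis hw (h3 h1)

end Vale.Agent.P116
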