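import Vale.Agent.P116.AStm2

/-! Step A: the two identities and monotonicity. -/

open Set Filter Topology MeasureTheory Metric Complex
open scoped ENNReal NNReal

noncomputable section
namespace Vale.Agent.P116

theorem mono_form (L : Lib) {K : Set ℂ} {c : ℂ} {f f' g g' : ℂ → ℂ} (hK : IsCompact K)
    (hf : Hol K c f) (hf' : Hol K c f') (hg : Hol K c g) (hg' : Hol K c g') :
    om K K (ru f) (iv g) - om K K (ru f) (iv g') - om K K (ru f') (iv g) +
      om K K (ru f') (iv g') =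
    ∫ z in Kᶜ, ((deriv f z - deriv f' z) * (starRingEnd ℂ) (deriv g z - deriv g' z)).re := by
  have hc := hK.isClosed
  have hKK := L.cmp.clo_self K hc
  have a1 := (L.hol.adm K c f hc hf).1
  have a2 := (L.hol.adm K c f' hc hf').1
  have b1 := (L.hol.adm K c g hc hg).2
  have b2 := (L.hol.adm K c g' hc hg').2
  have s1 := L.hol.sub K c f f' hc hf hf'
  have s2 := L.hol.sub K c g g' hc hg hg'
  obtain ⟨⟨c₀, h0⟩, -⟩ := L.decay K 0 (f - f') hK s1.1
  obtain ⟨C, hC, hCs⟩ := mem_cocompact.1 (Metric.tendsto_nhds.1 h0 1 one_pos)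
  obtain ⟨R, hR⟩ := hC.isBounded.subset_ball 0
  have h1 := L.omC.inf K _ _ (‖c₀‖ + 1) R hK (L.adm.sub K _ _ hc a1 a2)
    (L.adm.sub K _ _ hc b1 b2) s1.2.2.1 s2.2.2.2.1 fun z hz => by
      have h := hCs (a := z) fun h => (mem_ball_zero_iff.1 (hR h)).not_ge hz
      rw [mem_ofPred_eq, zero_mul, sub_zero, dist_eq_norm] at h
      have h2 := abs_re_le_norm ((f - f') z)
      have h3 := norm_sub_norm_le ((f - f') z) c₀
      change |((f - f') z).re| ≤ _
      linarith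
  rw [(L.omB.add K K _ _ _ hK hKK a1 a2 (L.adm.sub K _ _ hc b1 b2)).2.1,
    (L.omB.add K K _ _ _ hK hKK b1 b2 a1).2.2.2, (L.omB.add K K _ _ _ hK hKK b1 b2 a2).2.2.2] at h1
  rw [← setIntegral_congr_fun (f := wd (ru f - ru f') (iv g - iv g')) hc.measurableSet.compl
    fun z hz => ?_]
  · linarith
  · have d := fun (u : ℂ → ℂ) (hu : Hol K c u) =>
      hu.1.differentiableAt (hc.isOpen_compl.mem_nhds hz)
    have h2 := L.hol.wdf (f - f') (g - g') z ((d f hf).sub (d f' hf')) ((d g hg).sub (d g' hg'))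
    rw [deriv_sub (d f hf) (d f' hf'), deriv_sub (d g hg) (d g' hg')] at h2
    exact h2

theorem mono_iden (L : Lib) (K : Set ℂ) (c : ℂ) (f g : ℂ → ℂ) (ρ σ : Cmp K → ℝ)
    (hK : IsCompact K) (hf : Hol K c f) (hg : Hol K c g) (hρ : Sq ρ) (hσ : Sq σ)
    (e1 : - om K K (ru f) (iv f) = sm K ρ ρ) (e2 : - om K K (ru g) (iv g) = sm K σ σ) :
    d2 K f ρ g σ = - (om K K (ru f) (iv g) + sm K ρ σ) - (om K K (ru g) (iv f) + sm K ρ σ) ∧
      om K K (ru f) (iv g) - om K K (ru g) (iv f) = Lam K c g - Lam K c f := by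
  constructor
  · have h1 := mono_form L hK hf hg hf hg
    have h2 : ∀ w : ℂ, (w * (starRingEnd ℂ) w).re = ‖w‖ ^ 2 := fun w => by
      rw [mul_conj, ofReal_re, normSq_eq_norm_sq]
    simp only [h2] at h1
    have h3 := (L.sm.add K K ρ σ (ρ - σ) hρ.2 hσ.2 (L.sm.sqadd K ρ σ hρ.2 hσ.2).2).2
    rw [L.sm.comm K K ρ (ρ - σ), L.sm.comm K K σ (ρ - σ), (L.sm.add K K ρ σ ρ hρ.2 hσ.2 hρ.2).2,
      (L.sm.add K K ρ σ σ hρ.2 hσ.2 hσ.2).2, L.sm.comm K K σ ρ] at h3
    unfold d2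
    linarith
  · have h1 := mono_form L hK hf (L.hol.lin K c) hg (L.hol.lin K c)
    have h2 := mono_form L hK hg (L.hol.lin K c) hf (L.hol.lin K c)
    have h3 : ∀ a b : ℂ, (a * (starRingEnd ℂ) b).re = (b * (starRingEnd ℂ) a).re := fun a b => by
      simp only [mul_re, conj_re, conj_im]
      ring
    simp only [h3 (deriv g _ - _)] at h2
    unfold Lam
    linarith

theorem mono_half (L : Lib) (K A A' : Set ℂ) (z₀ c : ℂ) (f g : ℂ → ℂ) (ρ σ : Cmp K → ℝ)
    (hb : Base K z₀ c) (hf : Sol K z₀ c A f ρ) (hg : Sol K z₀ c A' g σ) (h : A' ⊆ A) :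
    0 ≤ om K K (ru g) (iv f) + sm K ρ σ := by
  have hK := hb.cpt
  have hA := hf.clo
  have hB := L.cmp.clo_compl K A hA
  have h1 := L.star.pair K A _ _ _ _ hK hA (L.star.amono K K A _ _ hA.1 hg.au) hf.sv
  have h2 := L.star.pair K (K \ A) _ _ _ _ hK hB (L.star.amono K K _ _ _ hB.1 hf.av)
    (L.star.mono K _ _ _ _ hK (L.cmp.clo_compl K A' hg.clo) hB (sdiff_subset_sdiff_right h) hg.su)
  have h3 := L.omB.union K A (K \ A) _ _ hK hA hB disjoint_sdiff_right hg.au.1 hf.av.1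
  have h4 := L.sm.union K A (K \ A) ρ σ hA hB disjoint_sdiff_right hf.au.2.1.2 hg.au.2.1.2
  rw [union_sdiff_cancel hA.1] at h3 h4
  rw [L.sm.comm K A σ ρ] at h1
  rw [L.omB.anti K _ _ _ hK hB hf.av.1 hg.au.1, abs_neg] at h2
  linarith [(abs_le.1 h1).1, (abs_le.1 h2).1]

theorem s_mono (L : Lib) : S_mono := by
  refine ⟨mono_iden L, mono_half L, fun K A A' z₀ c f g ρ σ hb hf hg h => ?_⟩
  have hKK := L.cmp.clo_self K hb.cpt.isClosed
  obtain ⟨h1, h2⟩ := mono_iden L K c f g ρ σ hb.cpt hf.hol hg.hol hf.au.2.1 hg.au.2.1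
    (hf.area K hKK) (hg.area K hKK)
  linarith [mono_half L K A A' z₀ c f g ρ σ hb hf hg h]

end Vale.Agent.P116
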