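import Vale.Agent.P116.AStm

/-! The boundary form: independence of the cutoff, locality. -/

open Set Filter Topology MeasureTheory Metric Complex
open scoped ENNReal NNReal

noncomputable section
namespace Vale.Agent.P116

namespace OmA

theorem wd_congr {a b a' b' : ℂ → ℝ} {z : ℂ} (ha : a =ᶠ[𝓝 z] a') (hb : b =ᶠ[𝓝 z] b') :
    wd a b z = wd a' b' z := by
  unfold wd
  rw [ha.fderiv_eq, hb.fderiv_eq]

theorem wd_zero {a b : ℂ → ℝ} {z : ℂ} (ha : a =ᶠ[𝓝 z] fun _ => 0) : wd a b z = 0 := by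
  unfold wd
  rw [ha.fderiv_eq]
  simp

theorem far {e : ℂ → ℝ} {R : ℝ} (h : ∀ z, R ≤ ‖z‖ → e z = 0) {z : ℂ} (hz : z ∉ ball 0 (R + 1)) :
    e =ᶠ[𝓝 z] fun _ => 0 := by
  have h1 : R < ‖z‖ := by
    rw [mem_ball_zero_iff, not_lt] at hz
    linarith
  filter_upwards [(isOpen_lt continuous_const continuous_norm).mem_nhds h1] with w hw
  exact h w (le_of_lt hw)

theorem intg (adm : S_adm) {K : Set ℂ} (hK : IsClosed K) {e b : ℂ → ℝ} (he : Adm K e)
    (hb : Adm K b) {R : ℝ} (h : ∀ z, R ≤ ‖z‖ → e z = 0) : IntegrableOn (wd e b) Kᶜ :=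
  (adm.cs _ e b (he.2 (R + 1)) (hb.2 (R + 1))).1.of_forall_sdiff_eq_zero
    hK.isOpen_compl.measurableSet fun _ hz => wd_zero (far h fun h' => hz.2 ⟨h', hz.1⟩)

theorem zero (stokes : S_stokes) {K : Set ℂ} (hK : IsClosed K) {e b : ℂ → ℝ}
    (he : LocallyLipschitzOn Kᶜ e) (hb : LocallyLipschitzOn Kᶜ b) {R : ℝ}
    (h : ∀ z, R ≤ ‖z‖ → e z = 0) (h0 : ∀ᶠ z in 𝓝ˢ K, z ∉ K → e z = 0) :
    ∫ z in Kᶜ, wd e b z = 0 := by
  obtain ⟨W, hW, hKW, hWe⟩ := eventually_nhdsSet_iff_exists.1 h0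
  have h1 : LocallyLipschitzOn Kᶜ (Kᶜ.indicator e) := fun x hx => by
    obtain ⟨L, t, ht, hL⟩ := he hx
    refine ⟨L, t ∩ Kᶜ, inter_mem ht self_mem_nhdsWithin, fun y hy w hw => ?_⟩
    rw [indicator_of_mem hy.2, indicator_of_mem hw.2]
    exact hL hy.1 hw.1
  have h2 : HasCompactSupport (Kᶜ.indicator e) := by
    refine HasCompactSupport.intro (isCompact_closedBall (0 : ℂ) R) fun x hx => ?_
    rw [mem_closedBall_zero_iff, not_le] at hx
    by_cases hxK : x ∈ Kᶜ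
    · rw [indicator_of_mem hxK, h x hx.le]
    · exact indicator_of_notMem hxK _
  have h3 : tsupport (Kᶜ.indicator e) ⊆ Kᶜ := by
    refine (closure_minimal (s := Function.support (Kᶜ.indicator e)) (t := Wᶜ)
      (fun x hx hxW => hx ?_) hW.isClosed_compl).trans (compl_subset_compl.2 hKW)
    by_cases hxK : x ∈ Kᶜ
    · rw [indicator_of_mem hxK, hWe x hxW hxK]
    · exact indicator_of_notMem hxK _
  rw [← (stokes Kᶜ _ b hK.isOpen_compl h1 hb h2 h3).2]
  refine setIntegral_congr_fun hK.isOpen_compl.measurableSet fun z hz => wd_congr ?_ .rfl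
  filter_upwards [hK.isOpen_compl.mem_nhds hz] with w hw using (indicator_of_mem hw _).symm

theorem same (adm : S_adm) (stokes : S_stokes) {K : Set ℂ} (hK : IsClosed K) {e e' b : ℂ → ℝ}
    (he : Adm K e) (he' : Adm K e') (hb : Adm K b) {R R' : ℝ} (h : ∀ z, R ≤ ‖z‖ → e z = 0)
    (h' : ∀ z, R' ≤ ‖z‖ → e' z = 0) (h0 : ∀ᶠ z in 𝓝ˢ K, z ∉ K → e z = e' z) :
    ∫ z in Kᶜ, wd e b z = ∫ z in Kᶜ, wd e' b z := by
  have h1 := zero stokes hK (adm.sub K e e' hK he he').1 hb.1 (R := max R R')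
    (fun z hz => by
      rw [Pi.sub_apply, h z ((le_max_left _ _).trans hz), h' z ((le_max_right _ _).trans hz),
        sub_zero])
    (h0.mono fun z hz hzK => by rw [Pi.sub_apply, hz hzK, sub_self])
  rw [← sub_eq_zero, ← integral_sub (intg adm hK he hb h) (intg adm hK he' hb h'), ← h1]
  refine setIntegral_congr_ae hK.isOpen_compl.measurableSet ?_
  filter_upwards [adm.dif _ e hK.isOpen_compl he.1, adm.dif _ e' hK.isOpen_compl he'.1]
    with z d1 d2 hz
  unfold wd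
  rw [fderiv_sub (d1 hz) (d2 hz)]
  simp only [sub_apply]
  ring

theorem near {K Q : Set ℂ} (hQ : Clo K Q) {p : ℂ → Prop} (h1 : ∀ᶠ z in 𝓝ˢ Q, p z)
    (h2 : ∀ᶠ z in 𝓝ˢ (K \ Q), p z) : ∀ᶠ z in 𝓝ˢ K, p z := by
  have e : K = Q ∪ (K \ Q) := (union_sdiff_cancel hQ.1).symm
  rw [e, nhdsSet_union]
  exact ⟨h1, h2⟩

theorem eps (cut : S_cut) {K Q : Set ℂ} (hK : IsCompact K) (hQ : Clo K Q) :
    Cut K Q (Classical.epsilon (Cut K Q)) := by
  obtain ⟨χ, h, -⟩ := cut K Q univ hK hQ isOpen_univ (subset_univ _)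
  exact Classical.epsilon_spec ⟨χ, h⟩

theorem ind (adm : S_adm) (cut : S_cut) (stokes : S_stokes) (K Q : Set ℂ) (χ a b : ℂ → ℝ)
    (hK : IsCompact K) (hQ : Clo K Q) (hχ : Cut K Q χ) (ha : Adm K a) (hb : Adm K b) :
    IntegrableOn (wd (fun w => χ w * a w) b) Kᶜ ∧ om K Q a b = omc K χ a b := by
  have h0 := eps cut hK hQ
  obtain ⟨R, -, hR⟩ := hχ.2.1.exists_pos_le_norm
  obtain ⟨R', -, hR'⟩ := h0.2.1.exists_pos_le_norm
  refine ⟨intg adm hK.isClosed (adm.cut K Q χ a hK hQ hχ ha) hb (R := R)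
    fun z hz => by rw [hR z hz, zero_mul], ?_⟩
  refine same adm stokes hK.isClosed (adm.cut K Q _ a hK hQ h0 ha) (adm.cut K Q χ a hK hQ hχ ha) hb
    (R := R') (R' := R) (fun z hz => by rw [hR' z hz, zero_mul])
    (fun z hz => by rw [hR z hz, zero_mul]) (near hQ ?_ ?_)
  · filter_upwards [h0.2.2.2.1, hχ.2.2.2.1] with z h1 h2 _ using by rw [h1, h2]
  · filter_upwards [h0.2.2.2.2, hχ.2.2.2.2] with z h1 h2 _ using by rw [h1, h2]

end OmA

theorem s_omA (adm : S_adm) (cut : S_cut) (stokes : S_stokes) : S_omA where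
  ind := OmA.ind adm cut stokes
  self := fun K Q a b R hK hQ ha hb hR h1 => by
    have h0 := OmA.eps cut hK hQ
    refine OmA.same adm stokes hK.isClosed (adm.cut K Q _ a hK hQ h0 ha) ha hb (R := R) (R' := R)
      (fun z hz => by rw [hR z hz, mul_zero]) hR (OmA.near hQ ?_ ?_)
    · filter_upwards [h0.2.2.2.1] with z h2 _ using by rw [h2, one_mul]
    · filter_upwards [h1] with z h2 hz using by rw [h2 hz, mul_zero]
  congr := fun K Q a b a' b' hK hQ ha hb ha' hb' h => by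
    obtain ⟨W, hW, hQW, hWe⟩ := eventually_nhdsSet_iff_exists.1 h
    obtain ⟨χ, hχ, hs⟩ := cut K Q W hK hQ hW hQW
    rw [(OmA.ind adm cut stokes K Q χ a b hK hQ hχ ha hb).2,
      (OmA.ind adm cut stokes K Q χ a' b' hK hQ hχ ha' hb').2]
    refine setIntegral_congr_fun hK.isClosed.isOpen_compl.measurableSet fun z hz => ?_
    by_cases hzW : z ∈ W
    · have hn : W ∩ Kᶜ ∈ 𝓝 z := (hW.inter hK.isClosed.isOpen_compl).mem_nhds ⟨hzW, hz⟩
      refine OmA.wd_congr ?_ ?_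
      · filter_upwards [hn] with w hw using by rw [(hWe w hw.1 hw.2).1]
      · filter_upwards [hn] with w hw using (hWe w hw.1 hw.2).2
    · have hn : χ =ᶠ[𝓝 z] 0 := notMem_tsupport_iff_eventuallyEq.1 fun h' => hzW (hs h')
      refine (OmA.wd_zero ?_).trans (OmA.wd_zero ?_).symm
      · filter_upwards [hn] with w hw using by rw [hw, Pi.zero_apply, zero_mul]
      · filter_upwards [hn] with w hw using by rw [hw, Pi.zero_apply, zero_mul]
  expand := fun K Q χ a b hK hQ hχ ha hb => by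
    have hm := hK.isClosed.isOpen_compl.measurableSet
    obtain ⟨h1, h2⟩ := OmA.ind adm cut stokes K Q χ a b hK hQ hχ ha hb
    obtain ⟨R, -, hR⟩ := hχ.2.1.exists_pos_le_norm
    have i1 : IntegrableOn (fun z => χ z * wd a b z) Kᶜ := by
      refine IntegrableOn.of_forall_sdiff_eq_zero (s := ball 0 R \ K) ?_ hm fun z hz => ?_
      · refine Integrable.bdd_mul (c := 1) (adm.cs _ a b (ha.2 R) (hb.2 R)).1
          hχ.1.continuous.aestronglyMeasurable (Eventually.of_forall fun z => ?_)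
        rw [Real.norm_eq_abs, abs_of_nonneg (hχ.2.2.1 z).1]
        exact (hχ.2.2.1 z).2
      · have : R ≤ ‖z‖ := by
          by_contra hc
          exact hz.2 ⟨mem_ball_zero_iff.2 (not_le.1 hc), hz.1⟩
        rw [hR z this, zero_mul]
    have e : ∀ᵐ z, z ∈ Kᶜ → wd (fun w => χ w * a w) b z = χ z * wd a b z + a z * wd χ b z := by
      filter_upwards [adm.dif _ a hK.isClosed.isOpen_compl ha.1] with z d1 hz
      have d2 : DifferentiableAt ℝ χ z := hχ.1.differentiable (by norm_num) z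
      unfold wd
      rw [fderiv_fun_mul d2 (d1 hz)]
      simp only [add_apply, smul_apply, smul_eq_mul]
      ring
    have i2 : IntegrableOn (fun z => a z * wd χ b z) Kᶜ := by
      refine (h1.sub i1).congr ?_
      filter_upwards [(ae_restrict_iff' hm).2 e, ae_restrict_mem hm] with z h3 _
      rw [Pi.sub_apply, h3]
      ring
    refine ⟨i1, i2, ?_⟩
    rw [h2, ← integral_add i1 i2]
    exact setIntegral_congr_ae hm e

end Vale.Agent.P116
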