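import Vale.Agent.P116.AStm

open Set Filter Topology MeasureTheory Metric Complex
open scoped ENNReal NNReal

noncomputable section
namespace Vale.Agent.P116

namespace AOmB

theorem ll_mul {U : Set ℂ} {a b : ℂ → ℝ} (ha : LocallyLipschitzOn U a)
    (hb : LocallyLipschitzOn U b) : LocallyLipschitzOn U fun z => a z * b z := by
  rw [locallyLipschitzOn_iff_restrict] at ha hb ⊢
  have h : ContDiff ℝ 1 fun p : ℝ × ℝ => p.1 * p.2 := contDiff_fst.mul contDiff_snd
  exact h.locallyLipschitz.comp (ha.prodMk hb)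

theorem wd_anti (a b : ℂ → ℝ) (z : ℂ) : wd a b z = - wd b a z := by
  unfold wd
  ring

theorem wd_add {a a' : ℂ → ℝ} (b : ℂ → ℝ) {z : ℂ} (h : DifferentiableAt ℝ a z)
    (h' : DifferentiableAt ℝ a' z) :
    wd (fun w => a w + a' w) b z = wd a b z + wd a' b z := by
  unfold wd
  rw [fderiv_fun_add h h']
  simp only [ContinuousLinearMap.add_apply]
  ring

theorem wd_smul {a : ℂ → ℝ} (t : ℝ) (b : ℂ → ℝ) {z : ℂ} (h : DifferentiableAt ℝ a z) :
    wd (fun w => t * a w) b z = t * wd a b z := by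
  unfold wd
  rw [fderiv_const_mul h]
  simp only [ContinuousLinearMap.smul_apply, smul_eq_mul]
  ring

theorem wd_mul (χ : ℂ → ℝ) {a b : ℂ → ℝ} {z : ℂ} (h : DifferentiableAt ℝ a z)
    (h' : DifferentiableAt ℝ b z) :
    wd χ (fun w => a w * b w) z = a z * wd χ b z + b z * wd χ a z := by
  unfold wd
  rw [fderiv_fun_mul h h']
  simp only [ContinuousLinearMap.add_apply, ContinuousLinearMap.smul_apply, smul_eq_mul]
  ring

theorem wd_const (t : ℝ) (b : ℂ → ℝ) (z : ℂ) : wd (fun _ => t) b z = 0 := by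
  unfold wd
  simp

theorem fd_sup {K Q : Set ℂ} {χ : ℂ → ℝ} (h : Cut K Q χ) : tsupport (fderiv ℝ χ) ⊆ Kᶜ := by
  intro z hz hK
  refine (notMem_tsupport_iff_eventuallyEq.2 ?_) hz
  have h1 : ∃ c : ℝ, ∀ᶠ w in 𝓝 z, χ w = c := by
    by_cases hQ : z ∈ Q
    · exact ⟨1, h.2.2.2.1.filter_mono (nhds_le_nhdsSet hQ)⟩
    · exact ⟨0, h.2.2.2.2.filter_mono (nhds_le_nhdsSet (mem_diff_of_mem hK hQ))⟩
  obtain ⟨c, hc⟩ := h1
  filter_upwards [hc.eventually_nhds] with w hw
  have h2 : χ =ᶠ[𝓝 w] fun _ => c := hw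
  rw [h2.fderiv_eq]
  simp

theorem key (cmp : S_cmp) (cut : S_cut) (stokes : S_stokes) {K Q : Set ℂ} {χ g : ℂ → ℝ}
    (hK : IsCompact K) (h : Cut K Q χ) (hg : LocallyLipschitzOn Kᶜ g) :
    ∫ z in Kᶜ, wd χ g z = 0 := by
  have hC : IsCompact (tsupport (fderiv ℝ χ)) := h.2.1.fderiv ℝ
  obtain ⟨η, hη, hηs⟩ := cut _ _ Kᶜ hC (cmp.clo_self _ hC.isClosed) hK.isClosed.isOpen_compl
    (fd_sup h)
  have h1 := (stokes Kᶜ (fun z => η z * g z) χ hK.isClosed.isOpen_compl
    (ll_mul (hη.1.of_le (by norm_num)).locallyLipschitz.locallyLipschitzOn hg)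
    (h.1.of_le (by norm_num)).locallyLipschitz.locallyLipschitzOn hη.2.1.mul_right
    ((tsupport_mul_subset_left (f := η) (g := g)).trans hηs)).2
  have h2 : ∀ z, wd χ g z = - wd (fun z => η z * g z) χ z := by
    intro z
    by_cases hz : z ∈ tsupport (fderiv ℝ χ)
    · have h3 : (fun z => η z * g z) =ᶠ[𝓝 z] g := by
        filter_upwards [hη.2.2.2.1.filter_mono (nhds_le_nhdsSet hz)] with w hw
        rw [hw, one_mul]
      rw [wd_anti]
      unfold wd
      rw [h3.fderiv_eq]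
    · unfold wd
      rw [image_eq_zero_of_notMem_tsupport hz]
      simp
  simp only [h2]
  rw [integral_neg, h1, neg_zero]

theorem ae_dif (adm : S_adm) {K : Set ℂ} {a : ℂ → ℝ} (hK : IsCompact K) (ha : Adm K a) :
    ∀ᵐ z ∂(volume.restrict Kᶜ), DifferentiableAt ℝ a z :=
  (ae_restrict_iff' hK.isClosed.isOpen_compl.measurableSet).2
    (adm.dif _ _ hK.isClosed.isOpen_compl ha.1)

theorem ex_cut (cut : S_cut) {K Q : Set ℂ} (hK : IsCompact K) (hQ : Clo K Q) : ∃ χ, Cut K Q χ :=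
  (cut K Q univ hK hQ isOpen_univ (subset_univ _)).imp fun _ h => h.1

section
variable (cmp : S_cmp) (adm : S_adm) (cut : S_cut) (stokes : S_stokes) (omA : S_omA)
include adm cut omA

include cmp stokes in
theorem anti {K Q : Set ℂ} {a b : ℂ → ℝ} (hK : IsCompact K) (hQ : Clo K Q) (ha : Adm K a)
    (hb : Adm K b) : om K Q a b = - om K Q b a := by
  obtain ⟨χ, hχ⟩ := ex_cut cut hK hQ
  obtain ⟨-, i1, e1⟩ := omA.expand K Q χ a b hK hQ hχ ha hb
  obtain ⟨-, i2, e2⟩ := omA.expand K Q χ b a hK hQ hχ hb ha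
  have h1 : ∫ z in Kᶜ, χ z * wd a b z = - ∫ z in Kᶜ, χ z * wd b a z := by
    rw [← integral_neg]
    refine integral_congr_ae (.of_forall fun z => ?_)
    simp only [wd_anti a b z, mul_neg]
  have h2 := key cmp cut stokes hK hχ (ll_mul ha.1 hb.1)
  have h3 : ∫ z in Kᶜ, wd χ (fun z => a z * b z) z =
      (∫ z in Kᶜ, a z * wd χ b z) + ∫ z in Kᶜ, b z * wd χ a z := by
    rw [← integral_add i1 i2]
    refine integral_congr_ae ?_
    filter_upwards [ae_dif adm hK ha, ae_dif adm hK hb] with z h4 h5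
    exact wd_mul χ h4 h5
  linarith

theorem add1 {K Q : Set ℂ} {a a' b : ℂ → ℝ} (hK : IsCompact K) (hQ : Clo K Q) (ha : Adm K a)
    (ha' : Adm K a') (hb : Adm K b) : om K Q (a + a') b = om K Q a b + om K Q a' b := by
  obtain ⟨χ, hχ⟩ := ex_cut cut hK hQ
  obtain ⟨i1, e1⟩ := omA.ind K Q χ a b hK hQ hχ ha hb
  obtain ⟨i2, e2⟩ := omA.ind K Q χ a' b hK hQ hχ ha' hb
  obtain ⟨-, e3⟩ := omA.ind K Q χ (a + a') b hK hQ hχ (adm.add K a a' hK.isClosed ha ha') hb
  rw [e1, e2, e3]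
  unfold omc
  rw [← integral_add i1 i2]
  refine integral_congr_ae ?_
  filter_upwards [ae_dif adm hK (adm.cut K Q χ a hK hQ hχ ha),
    ae_dif adm hK (adm.cut K Q χ a' hK hQ hχ ha')] with z h4 h5
  rw [← wd_add b h4 h5]
  simp only [Pi.add_apply, mul_add]

theorem sub1 {K Q : Set ℂ} {a a' b : ℂ → ℝ} (hK : IsCompact K) (hQ : Clo K Q) (ha : Adm K a)
    (ha' : Adm K a') (hb : Adm K b) : om K Q (a - a') b = om K Q a b - om K Q a' b := by
  have h := add1 adm cut omA hK hQ (adm.sub K a a' hK.isClosed ha ha') ha' hb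
  rw [sub_add_cancel] at h
  linarith

theorem smul1 {K Q : Set ℂ} (t : ℝ) {a b : ℂ → ℝ} (hK : IsCompact K) (hQ : Clo K Q) (ha : Adm K a)
    (hb : Adm K b) : om K Q (fun z => t * a z) b = t * om K Q a b := by
  obtain ⟨χ, hχ⟩ := ex_cut cut hK hQ
  obtain ⟨-, e1⟩ := omA.ind K Q χ a b hK hQ hχ ha hb
  obtain ⟨-, e3⟩ := omA.ind K Q χ _ b hK hQ hχ (adm.smul K t a hK.isClosed ha) hb
  rw [e1, e3]
  unfold omc
  rw [← integral_const_mul]
  refine integral_congr_ae ?_
  filter_upwards [ae_dif adm hK (adm.cut K Q χ a hK hQ hχ ha)] with z h4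
  rw [← wd_smul t b h4]
  simp only [mul_left_comm]

include cmp stokes in
theorem const {K Q : Set ℂ} (t : ℝ) {b : ℂ → ℝ} (hK : IsCompact K) (hQ : Clo K Q)
    (hb : Adm K b) : om K Q (fun _ => t) b = 0 := by
  obtain ⟨χ, hχ⟩ := ex_cut cut hK hQ
  obtain ⟨-, -, e1⟩ := omA.expand K Q χ (fun _ => t) b hK hQ hχ
    (adm.c1 K _ hK.isClosed contDiff_const) hb
  rw [e1, integral_const_mul, key cmp cut stokes hK hχ hb.1]
  simp [wd_const]

omit adm in
include cmp in
theorem union {K Q Q' : Set ℂ} {a b : ℂ → ℝ} (hK : IsCompact K) (hQ : Clo K Q) (hQ' : Clo K Q')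
    (hd : Disjoint Q Q') (ha : Adm K a) (hb : Adm K b) :
    om K (Q ∪ Q') a b = om K Q a b + om K Q' a b := by
  obtain ⟨U, U', hU, hU', h1, h2, hUU⟩ := normal_separation hQ.2.1 hQ'.2.1 hd
  obtain ⟨χ, hχ, hs⟩ := cut K Q U hK hQ hU h1
  obtain ⟨χ', hχ', hs'⟩ := cut K Q' U' hK hQ' hU' h2
  have hc : Cut K (Q ∪ Q') fun z => χ z + χ' z := by
    refine ⟨hχ.1.add hχ'.1, hχ.2.1.add hχ'.2.1, fun z => ?_, ?_, ?_⟩
    · have h3 := hχ.2.2.1 z
      have h4 := hχ'.2.2.1 z
      refine ⟨by linarith, ?_⟩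
      by_cases hz : z ∈ U
      · have h5 : χ' z = 0 :=
          image_eq_zero_of_notMem_tsupport fun h => disjoint_left.1 hUU hz (hs' h)
        linarith
      · have h5 : χ z = 0 := image_eq_zero_of_notMem_tsupport fun h => hz (hs h)
        linarith
    · rw [nhdsSet_union, eventually_sup]
      constructor
      · filter_upwards [hχ.2.2.2.1, hχ'.2.2.2.2.filter_mono (nhdsSet_mono
          fun z hz => mem_diff_of_mem (hQ.1 hz) (disjoint_left.1 hd hz))] with z h3 h4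
        rw [h3, h4, add_zero]
      · filter_upwards [hχ'.2.2.2.1, hχ.2.2.2.2.filter_mono (nhdsSet_mono
          fun z hz => mem_diff_of_mem (hQ'.1 hz) (disjoint_right.1 hd hz))] with z h3 h4
        rw [h3, h4, zero_add]
    · filter_upwards [hχ.2.2.2.2.filter_mono (nhdsSet_mono
          (diff_subset_diff_right subset_union_left)), hχ'.2.2.2.2.filter_mono (nhdsSet_mono
          (diff_subset_diff_right subset_union_right))] with z h3 h4
      rw [h3, h4, add_zero]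
  obtain ⟨i1, j1, e1⟩ := omA.expand K Q χ a b hK hQ hχ ha hb
  obtain ⟨i2, j2, e2⟩ := omA.expand K Q' χ' a b hK hQ' hχ' ha hb
  obtain ⟨-, -, e3⟩ := omA.expand K (Q ∪ Q') _ a b hK (cmp.clo_union K Q Q' hQ hQ') hc ha hb
  have h3 : ∀ z, wd (fun z => χ z + χ' z) b z = wd χ b z + wd χ' b z := fun z =>
    wd_add b (hχ.1.differentiable (by norm_num) z) (hχ'.1.differentiable (by norm_num) z)
  simp only [h3, add_mul, mul_add] at e3
  rw [e1, e2, e3, integral_add i1 i2, integral_add j1 j2]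
  ring

omit adm cut in
include cmp in
theorem empty {K : Set ℂ} {a b : ℂ → ℝ} (hK : IsCompact K) (ha : Adm K a) (hb : Adm K b) :
    om K ∅ a b = 0 := by
  have hc : Cut K ∅ fun _ => 0 :=
    ⟨contDiff_const, HasCompactSupport.zero, fun _ => ⟨le_rfl, zero_le_one⟩, by simp,
      .of_forall fun _ => rfl⟩
  obtain ⟨-, -, e⟩ := omA.expand K ∅ _ a b hK (cmp.clo_empty K hK.isClosed) hc ha hb
  rw [e]
  simp [wd_const]

omit adm in
include cmp in
theorem biUnion {K : Set ℂ} {ι : Type} (J : Finset ι) (Q : ι → Set ℂ) {a b : ℂ → ℝ}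
    (hK : IsCompact K) (hQ : ∀ i ∈ J, Clo K (Q i))
    (hd : ∀ i ∈ J, ∀ j ∈ J, i ≠ j → Disjoint (Q i) (Q j)) (ha : Adm K a) (hb : Adm K b) :
    Clo K (⋃ i ∈ J, Q i) ∧ om K (⋃ i ∈ J, Q i) a b = ∑ i ∈ J, om K (Q i) a b := by
  classical
  induction J using Finset.induction_on with
  | empty => simpa using ⟨cmp.clo_empty K hK.isClosed, empty cmp omA hK ha hb⟩
  | insert i J hi ih =>
    obtain ⟨h1, h2⟩ := ih (fun j hj => hQ j (Finset.mem_insert_of_mem hj))
      fun j hj l hl => hd j (Finset.mem_insert_of_mem hj) l (Finset.mem_insert_of_mem hl)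
    have h3 := hQ i (Finset.mem_insert_self i J)
    rw [Finset.set_biUnion_insert, Finset.sum_insert hi, ← h2]
    refine ⟨cmp.clo_union K _ _ h3 h1, union cmp cut omA hK h3 h1 ?_ ha hb⟩
    refine disjoint_iUnion₂_right.2 fun j hj => hd i (Finset.mem_insert_self i J) j
      (Finset.mem_insert_of_mem hj) ?_
    rintro rfl
    exact hi hj

end

end AOmB

open AOmB in
theorem s_omB (cmp : S_cmp) (part : S_part) (adm : S_adm) (cut : S_cut) (stokes : S_stokes)
    (omA : S_omA) : S_omB where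
  anti _ _ _ _ hK hQ ha hb := anti cmp adm cut stokes omA hK hQ ha hb
  add K Q a a' b hK hQ ha ha' hb := by
    have h1 := add1 adm cut omA hK hQ ha ha' hb
    have h2 := sub1 adm cut omA hK hQ ha ha' hb
    have h3 := anti cmp adm cut stokes omA hK hQ hb ha
    have h4 := anti cmp adm cut stokes omA hK hQ hb ha'
    have h5 := anti cmp adm cut stokes omA hK hQ hb (adm.add K a a' hK.isClosed ha ha')
    have h6 := anti cmp adm cut stokes omA hK hQ hb (adm.sub K a a' hK.isClosed ha ha')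
    exact ⟨h1, h2, by linarith, by linarith⟩
  smul K Q t a b hK hQ ha hb := by
    have h1 := smul1 adm cut omA t hK hQ ha hb
    refine ⟨h1, ?_⟩
    rw [anti cmp adm cut stokes omA hK hQ hb (adm.smul K t a hK.isClosed ha), h1,
      anti cmp adm cut stokes omA hK hQ hb ha, mul_neg]
  const _ _ t _ hK hQ hb := const cmp adm cut stokes omA t hK hQ hb
  union _ _ _ _ _ hK hQ hQ' hd ha hb := union cmp cut omA hK hQ hQ' hd ha hb
  biUnion _ _ J Q _ _ hK hQ hd ha hb := (biUnion cmp cut omA J Q hK hQ hd ha hb).2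
  locc K Q a b hK hQ ha hb hl := by
    choose! U c hU using hl
    obtain ⟨J, P, -, h1, -, h2, h3⟩ := part K Q U ∅ hK hQ
      (fun p hp => ⟨(hU p hp).1, (hU p hp).2.1⟩) (by simp)
    rw [← h3, (biUnion cmp cut omA J P hK (fun p hp => (h1 p hp).2.1) h2 ha hb).2]
    refine Finset.sum_eq_zero fun p hp => ?_
    obtain ⟨h4, h5, h6⟩ := h1 p hp
    obtain ⟨h7, -, h8⟩ := hU p h4
    rw [omA.congr K (P p) a b (fun _ => c p) b hK h5 ha hb
      (adm.c1 K _ hK.isClosed contDiff_const) hb ?_, const cmp adm cut stokes omA _ hK h5 hb]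
    filter_upwards [h7.mem_nhdsSet.2 (h6.trans inter_subset_right)] with z hz hzK
    exact ⟨h8 z ⟨hz, hzK⟩, rfl⟩

end Vale.Agent.P116
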