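import Vale.Agent.P116.AStm

/-! Step A: estimates for the boundary form. -/

open Set Filter Topology MeasureTheory Metric Complex
open scoped ENNReal NNReal

noncomputable section
namespace Vale.Agent.P116

namespace OmC

theorem bound {S T : Set ℂ} {f g : ℂ → ℝ} (hS : MeasurableSet S) (hT : MeasurableSet T)
    (hTS : T ⊆ S) (hg : IntegrableOn g T) (h1 : ∀ᵐ z, z ∈ S \ T → f z = 0)
    (h2 : ∀ z ∈ T, |f z| ≤ g z) : |∫ z in S, f z| ≤ ∫ z in T, g z := by
  rw [setIntegral_eq_of_subset_of_ae_sdiff_eq_zero hS.nullMeasurableSet hTS h1]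
  exact norm_integral_le_of_norm_le (f := f) hg ((ae_restrict_iff' hT).2 (.of_forall h2))

theorem en_mono {S T : Set ℂ} {a : ℂ → ℝ} (hTS : T ⊆ S)
    (h : IntegrableOn (fun z => ‖gr a z‖ ^ 2) S) : en T a ≤ en S a :=
  setIntegral_mono_set h (.of_forall fun _ => sq_nonneg _) hTS.eventuallyLE

theorem gr_const {χ : ℂ → ℝ} {z : ℂ} {c : ℝ} (h : ∀ᶠ w in 𝓝 z, χ w = c) : gr χ z = 0 := by
  have : fderiv ℝ χ z = 0 := by
    rw [Filter.EventuallyEq.fderiv_eq (f := fun _ => c) h, fderiv_fun_const]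
    rfl
  rw [gr, this]
  rfl

theorem gr_cont {χ : ℂ → ℝ} (h : ContDiff ℝ 2 χ) : Continuous (gr χ) := by
  have h1 : Continuous (fderiv ℝ χ) := h.continuous_fderiv (by norm_num)
  have e : gr χ = fun z => ((fderiv ℝ χ z 1 : ℝ) : ℂ) + (fderiv ℝ χ z I : ℝ) * I := by
    funext z
    exact Complex.mk_eq_add_mul_I _ _
  rw [e]
  fun_prop

theorem gr_mul {χ a : ℂ → ℝ} {z : ℂ} (h : DifferentiableAt ℝ χ z) (ha : DifferentiableAt ℝ a z) :
    gr (fun w => χ w * a w) z = χ z • gr a z + a z • gr χ z := by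
  apply Complex.ext <;> simp [gr, fderiv_fun_mul h ha]

theorem wd_zero (adm : S_adm) {a b : ℂ → ℝ} {z : ℂ} (h : gr a z = 0) : wd a b z = 0 := by
  have := adm.wle a b z
  rw [h, norm_zero, zero_mul] at this
  exact abs_nonpos_iff.1 this

theorem vanish {χ : ℂ → ℝ} (h : HasCompactSupport χ) :
    ∃ R, tsupport χ ⊆ ball 0 R ∧ ∀ z, R ≤ ‖z‖ → χ z = 0 := by
  obtain ⟨R, hR⟩ := h.isCompact.isBounded.subset_ball (0 : ℂ)
  refine ⟨R, hR, fun z hz => image_eq_zero_of_notMem_tsupport fun h' => ?_⟩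
  have := hR h'
  rw [mem_ball_zero_iff] at this
  linarith

theorem cutsup {K Q : Set ℂ} {χ : ℂ → ℝ} (h : Cut K Q χ) :
    IsCompact (tsupport (gr χ)) ∧ Disjoint (tsupport (gr χ)) K ∧
      tsupport (gr χ) ⊆ tsupport χ := by
  have h3 : tsupport (gr χ) ⊆ tsupport χ := by
    refine closure_minimal (fun z hz => ?_) (isClosed_tsupport χ)
    by_contra hc
    exact hz (gr_const (notMem_tsupport_iff_eventuallyEq.1 hc))
  refine ⟨h.2.1.isCompact.of_isClosed_subset (isClosed_tsupport _) h3, ?_, h3⟩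
  refine disjoint_right.2 fun z hz => notMem_tsupport_iff_eventuallyEq.2 ?_
  by_cases hQ : z ∈ Q
  · exact ((h.2.2.2.1.filter_mono (nhds_le_nhdsSet hQ)).eventually_nhds).mono
      fun w hw => gr_const hw
  · exact ((h.2.2.2.2.filter_mono (nhds_le_nhdsSet (s := K \ Q) ⟨hz, hQ⟩)).eventually_nhds).mono
      fun w hw => gr_const hw

theorem cut_int (adm : S_adm) {K Q : Set ℂ} {χ a : ℂ → ℝ} (hK : IsCompact K) (hQ : Clo K Q)
    (h : Cut K Q χ) (ha : Adm K a) :
    IntegrableOn (fun z => ‖gr (fun w => χ w * a w) z‖ ^ 2) Kᶜ := by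
  obtain ⟨R, -, hR⟩ := vanish h.2.1
  exact adm.glob K _ R hK.isClosed (adm.cut K Q χ a hK hQ h ha) fun z hz => by
    rw [hR z hz, zero_mul]

theorem far (adm : S_adm) (omA : S_omA) {K Q : Set ℂ} {χ a e : ℂ → ℝ} (hK : IsCompact K)
    (hQ : Clo K Q) (h : Cut K Q χ) (ha : Adm K a) (he : Adm K e)
    (hi : IntegrableOn (fun z => ‖gr e z‖ ^ 2) Kᶜ) :
    |om K Q a e| ≤ √(en Kᶜ fun z => χ z * a z) * √(en Kᶜ e) := by
  rw [(omA.ind K Q χ a e hK hQ h ha he).2, omc]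
  exact abs_integral_le_integral_abs.trans (adm.cs _ _ _ (cut_int adm hK hQ h ha) hi).2

theorem cuten (adm : S_adm) {K Q : Set ℂ} {χ a : ℂ → ℝ} (hK : IsCompact K)
    (h : Cut K Q χ) (ha : Adm K a) :
    IntegrableOn (fun z => a z ^ 2 * ‖gr χ z‖ ^ 2) Kᶜ ∧
    IntegrableOn (fun z => ‖gr a z‖ ^ 2) (tsupport χ \ K) ∧
    en Kᶜ (fun z => χ z * a z) ≤
      2 * en (tsupport χ \ K) a + 2 * ∫ z in Kᶜ, a z ^ 2 * ‖gr χ z‖ ^ 2 := by
  obtain ⟨c1, c2, -⟩ := cutsup h
  obtain ⟨R, hR, -⟩ := vanish h.2.1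
  have mK : MeasurableSet Kᶜ := hK.measurableSet.compl
  have mS : MeasurableSet (tsupport χ) := (isClosed_tsupport χ).measurableSet
  have h1 : IntegrableOn (fun z => a z ^ 2 * ‖gr χ z‖ ^ 2) Kᶜ := by
    refine IntegrableOn.of_ae_sdiff_eq_zero (s := tsupport (gr χ))
      (ContinuousOn.integrableOn_compact c1 ?_) mK.nullMeasurableSet (.of_forall fun z hz => ?_)
    · exact ((ha.1.continuousOn.mono c2.subset_compl_right).pow 2).mul
        ((gr_cont h.1).norm.pow 2).continuousOn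
    · rw [image_eq_zero_of_notMem_tsupport hz.2, norm_zero, zero_pow two_ne_zero, mul_zero]
  have h2 : IntegrableOn (fun z => ‖gr a z‖ ^ 2) (tsupport χ \ K) :=
    (ha.2 R).mono_set (sdiff_subset_sdiff_left hR)
  refine ⟨h1, h2, ?_⟩
  have h3 : IntegrableOn ((tsupport χ).indicator fun z => ‖gr a z‖ ^ 2) Kᶜ := by
    rw [IntegrableOn, integrable_indicator_iff mS, IntegrableOn, Measure.restrict_restrict mS]
    exact h2
  have e : en (tsupport χ \ K) a =
      ∫ z in Kᶜ, (tsupport χ).indicator (fun z => ‖gr a z‖ ^ 2) z := by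
    rw [integral_indicator mS, Measure.restrict_restrict mS]
    rfl
  rw [e, ← integral_const_mul, ← integral_const_mul,
    ← integral_add (h3.const_mul 2) (h1.const_mul 2)]
  refine integral_mono_of_nonneg (.of_forall fun _ => sq_nonneg _)
    ((h3.const_mul 2).add (h1.const_mul 2)) ((ae_restrict_iff' mK).2 ?_)
  filter_upwards [adm.dif Kᶜ a hK.isClosed.isOpen_compl ha.1] with z hz hzK
  have b1 : χ z ^ 2 * ‖gr a z‖ ^ 2 ≤ (tsupport χ).indicator (fun z => ‖gr a z‖ ^ 2) z := by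
    by_cases hc : z ∈ tsupport χ
    · rw [indicator_of_mem hc]
      exact mul_le_of_le_one_left (sq_nonneg _) (pow_le_one₀ (h.2.2.1 z).1 (h.2.2.1 z).2)
    · rw [indicator_of_notMem hc, image_eq_zero_of_notMem_tsupport hc, zero_pow two_ne_zero,
        zero_mul]
  have b2 := norm_add_le (χ z • gr a z) (a z • gr χ z)
  rw [norm_smul, norm_smul, Real.norm_eq_abs, Real.norm_eq_abs] at b2
  have b3 := pow_le_pow_left₀ (norm_nonneg _) b2 2
  show ‖gr (fun w => χ w * a w) z‖ ^ 2 ≤ _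
  rw [gr_mul (h.1.differentiable (by norm_num) z) (hz hzK), ← sq_abs (a z)]
  rw [← sq_abs (χ z)] at b1
  nlinarith [sq_nonneg (|χ z| * ‖gr a z‖ - |a z| * ‖gr χ z‖)]

theorem near (adm : S_adm) (cut : S_cut) (omA : S_omA) {K Q : Set ℂ} (hK : IsCompact K)
    (hQ : Clo K Q) : ∃ ε₀ > 0, ∀ (ε : ℝ) (e b : ℂ → ℝ), ε ≤ ε₀ →
      Adm K e → Adm K b → (∀ z, z ∉ thickening ε K → e z = 0) →
      |om K Q e b| ≤ √(en Kᶜ e) * √(en (thickening ε K \ K) b) := by
  obtain ⟨χ, h, -⟩ := cut K Q univ hK hQ isOpen_univ (subset_univ _)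
  obtain ⟨-, c2, -⟩ := cutsup h
  obtain ⟨ε₀, h0, h1⟩ := hK.exists_thickening_subset_open (isClosed_tsupport (gr χ)).isOpen_compl
    c2.subset_compl_left
  refine ⟨ε₀, h0, fun ε e b hε he hb hz => ?_⟩
  have mK : MeasurableSet Kᶜ := hK.measurableSet.compl
  obtain ⟨R, hR⟩ := (hK.isBounded.thickening (δ := ε)).subset_ball (0 : ℂ)
  have i1 : IntegrableOn (fun z => ‖gr e z‖ ^ 2) Kᶜ :=
    adm.glob K e R hK.isClosed he fun z h2 => hz z fun h3 => by
      have := hR h3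
      rw [mem_ball_zero_iff] at this
      linarith
  have hs : thickening ε K \ K ⊆ Kᶜ := fun z h => h.2
  have i2 : IntegrableOn (fun z => ‖gr b z‖ ^ 2) (thickening ε K \ K) :=
    (hb.2 R).mono_set (sdiff_subset_sdiff_left hR)
  obtain ⟨j1, j2⟩ := adm.cs _ e b (i1.mono_set hs) i2
  have z2 : (fun z => e z * wd χ b z) = fun _ => 0 := by
    funext z
    by_cases hc : z ∈ thickening ε K
    · rw [wd_zero adm (image_eq_zero_of_notMem_tsupport (h1 (thickening_mono hε K hc))), mul_zero]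
    · rw [hz z hc, zero_mul]
  rw [(omA.expand K Q χ e b hK hQ h he hb).2.2, z2, integral_zero, add_zero]
  refine (bound mK (isOpen_thickening.measurableSet.diff hK.measurableSet) hs j1.abs ?_
    fun z _ => ?_).trans (j2.trans (mul_le_mul_of_nonneg_right
      (Real.sqrt_le_sqrt (en_mono hs i1)) (Real.sqrt_nonneg _)))
  · filter_upwards [adm.zero Kᶜ e hK.isClosed.isOpen_compl he.1] with z h2 h3
    rw [wd_zero adm (h2 h3.1 (hz z fun h4 => h3.2 ⟨h4, h3.1⟩)), mul_zero]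
  · rw [abs_mul, abs_of_nonneg (h.2.2.1 z).1]
    exact mul_le_of_le_one_left (abs_nonneg _) (h.2.2.1 z).2

/-- Cutoffs at all scales with bounded energy. -/
theorem scale : ∃ C : ℝ, ∀ r : ℝ, 0 < r → ∃ χ : ℂ → ℝ, ContDiff ℝ 2 χ ∧ HasCompactSupport χ ∧
    (∀ z, 0 ≤ χ z ∧ χ z ≤ 1) ∧ (∀ z ∈ ball (0 : ℂ) r, χ z = 1) ∧
    Integrable (fun z => ‖gr χ z‖ ^ 2) ∧ en univ χ = C := by
  let φ : ContDiffBump (0 : ℂ) := ⟨1, 2, one_pos, one_lt_two⟩
  refine ⟨en univ φ, fun r hr => ?_⟩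
  have h1 : ContDiff ℝ 2 fun z : ℂ => φ (r⁻¹ • z) :=
    φ.contDiff.comp (contDiff_id.const_smul r⁻¹)
  have h2 : HasCompactSupport fun z : ℂ => φ (r⁻¹ • z) :=
    φ.hasCompactSupport.comp_smul (inv_ne_zero hr.ne')
  refine ⟨fun z => φ (r⁻¹ • z), h1, h2, fun z => ⟨φ.nonneg, φ.le_one⟩, fun z hz => ?_, ?_, ?_⟩
  · refine φ.one_of_mem_closedBall ?_
    rw [mem_ball_zero_iff] at hz
    rw [mem_closedBall_zero_iff, norm_smul, Real.norm_of_nonneg (inv_pos.2 hr).le]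
    exact (inv_mul_le_one₀ hr).2 hz.le
  · refine ((gr_cont h1).norm.pow 2).integrable_of_hasCompactSupport (h2.mono' fun z hz => ?_)
    by_contra hc
    refine hz ?_
    show ‖gr _ z‖ ^ 2 = 0
    rw [gr_const (notMem_tsupport_iff_eventuallyEq.1 hc), norm_zero, zero_pow two_ne_zero]
  · have e : ∀ z, ‖gr (fun z : ℂ => φ (r⁻¹ • z)) z‖ ^ 2 = r⁻¹ ^ 2 * ‖gr φ (r⁻¹ • z)‖ ^ 2 := by
      intro z
      have : gr (fun z : ℂ => φ (r⁻¹ • z)) z = r⁻¹ • gr φ (r⁻¹ • z) := by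
        rw [gr, fderiv_comp_smul]
        apply Complex.ext <;> simp [gr]
      rw [this, norm_smul, mul_pow, Real.norm_eq_abs, sq_abs]
    simp only [en, Measure.restrict_univ, e]
    rw [integral_const_mul, Measure.integral_comp_smul volume (fun z => ‖gr φ z‖ ^ 2) r⁻¹,
      Complex.finrank_real_complex, abs_of_nonneg (by positivity), smul_eq_mul, ← mul_assoc,
      mul_inv_cancel₀ (by positivity), one_mul]

theorem inf (adm : S_adm) (omA : S_omA) {K : Set ℂ} {a b : ℂ → ℝ} {M R : ℝ} (hK : IsCompact K)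
    (ha : Adm K a) (hb : Adm K b) (ia : IntegrableOn (fun z => ‖gr a z‖ ^ 2) Kᶜ)
    (ib : IntegrableOn (fun z => ‖gr b z‖ ^ 2) Kᶜ) (hM : ∀ z, R ≤ ‖z‖ → |a z| ≤ M) :
    om K K a b = ∫ z in Kᶜ, wd a b z := by
  obtain ⟨C, hC⟩ := scale
  obtain ⟨r₀, hr₀, hKr⟩ := hK.isBounded.subset_ball_lt 0 (0 : ℂ)
  have mK : MeasurableSet Kᶜ := hK.measurableSet.compl
  have hQ : Clo K K := ⟨subset_rfl, hK.isClosed, by rw [sdiff_self]; exact isClosed_empty⟩
  have sub : ∀ r, r₀ ≤ r → (ball (0 : ℂ) r)ᶜ ⊆ Kᶜ := fun r hr =>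
    compl_subset_compl.2 (hKr.trans (ball_subset_ball hr))
  have key : ∀ r, max r₀ R ≤ r → |om K K a b - ∫ z in Kᶜ, wd a b z| ≤
      (√(en Kᶜ a) + |M| * √C) * √(en (ball 0 r)ᶜ b) := by
    intro r hr
    have r1 := (le_max_left _ _).trans hr
    have r2 := (le_max_right _ _).trans hr
    obtain ⟨χ, c1, c2, c3, c4, c5, c6⟩ := hC r (hr₀.trans_le r1)
    have h : Cut K K χ := ⟨c1, c2, c3, Filter.eventually_of_mem
      (isOpen_ball.mem_nhdsSet.2 (hKr.trans (ball_subset_ball r1))) c4, by simp⟩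
    obtain ⟨e1, -, e3⟩ := omA.expand K K χ a b hK hQ h ha hb
    have mT : MeasurableSet (ball (0 : ℂ) r)ᶜ := measurableSet_ball.compl
    have hT := sub r r1
    obtain ⟨j1, j2⟩ := adm.cs _ a b (ia.mono_set hT) (ib.mono_set hT)
    obtain ⟨j3, j4⟩ := adm.cs _ χ b c5.integrableOn (ib.mono_set hT)
    have b1 := bound (f := fun z => χ z * wd a b z - wd a b z) mK mT hT j1.abs
      (.of_forall fun z hz => by rw [c4 z (not_not.1 hz.2), one_mul, sub_self]) fun z _ => by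
        rw [← sub_one_mul, abs_mul]
        refine mul_le_of_le_one_left (abs_nonneg _) (abs_le.2 ⟨?_, ?_⟩) <;>
          linarith [(c3 z).1, (c3 z).2]
    have b2 := bound (f := fun z => a z * wd χ b z) mK mT hT (j3.abs.const_mul |M|)
      (.of_forall fun z hz => by
        rw [wd_zero adm (gr_const (Filter.eventually_of_mem
          (isOpen_ball.mem_nhds (not_not.1 hz.2)) c4)), mul_zero]) fun z hz => by
        rw [abs_mul]
        refine mul_le_mul_of_nonneg_right ((hM z ?_).trans (le_abs_self M)) (abs_nonneg _)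
        rw [mem_compl_iff, mem_ball_zero_iff, not_lt] at hz
        exact r2.trans hz
    rw [integral_sub e1 (adm.cs _ a b ia ib).1] at b1
    rw [integral_const_mul] at b2
    have b3 := mul_le_mul_of_nonneg_right (Real.sqrt_le_sqrt (en_mono hT ia))
      (Real.sqrt_nonneg (en (ball 0 r)ᶜ b))
    have b4 := mul_le_mul_of_nonneg_right (Real.sqrt_le_sqrt
      ((en_mono (subset_univ (ball (0 : ℂ) r)ᶜ) c5.integrableOn).trans c6.le))
      (Real.sqrt_nonneg (en (ball 0 r)ᶜ b))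
    have b5 := mul_le_mul_of_nonneg_left (j4.trans b4) (abs_nonneg M)
    rw [e3, add_sub_right_comm]
    refine (abs_add_le _ _).trans ?_
    linarith
  have lim : Tendsto (fun r : ℝ => en (ball 0 r)ᶜ b) atTop (𝓝 0) := by
    have := tendsto_setIntegral_of_antitone (f := fun z => ‖gr b z‖ ^ 2) (μ := volume)
      (s := fun r : ℝ => (ball (0 : ℂ) r)ᶜ) (fun _ => measurableSet_ball.compl)
      (fun r s h => compl_subset_compl.2 (ball_subset_ball h))
      ⟨r₀, ib.mono_set (sub r₀ le_rfl)⟩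
    have e : ⋂ r : ℝ, (ball (0 : ℂ) r)ᶜ = ∅ :=
      eq_empty_of_forall_notMem fun z hz =>
        mem_iInter.1 hz (‖z‖ + 1) (mem_ball_zero_iff.2 (lt_add_one _))
    rwa [e, setIntegral_empty] at this
  have lim2 := lim.sqrt.const_mul (√(en Kᶜ a) + |M| * √C)
  rw [Real.sqrt_zero, mul_zero] at lim2
  exact sub_eq_zero.1 (abs_nonpos_iff.1
    (ge_of_tendsto lim2 ((eventually_ge_atTop _).mono key)))

end OmC

theorem s_omC (adm : S_adm) (cut : S_cut) (stokes : S_stokes) (omA : S_omA) : S_omC where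
  near _ _ hK hQ := OmC.near adm cut omA hK hQ
  far _ _ _ _ _ hK hQ h ha he hi := OmC.far adm omA hK hQ h ha he hi
  cuten _ _ _ _ hK _ h ha := OmC.cuten adm hK h ha
  cutsup _ _ _ _ _ h := OmC.cutsup h
  inf _ _ _ _ _ hK ha hb ia ib hM := OmC.inf adm omA hK ha hb ia ib hM

end Vale.Agent.P116
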