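import Vale.Agent.P116.AStm

/-! Step A: the boundary form on exact forms. -/

open Set Filter Topology MeasureTheory Metric Complex
open scoped ENNReal NNReal

noncomputable section
namespace Vale.Agent.P116

namespace AOmD

theorem pr_fderiv {a b Φ : ℂ → ℝ} {z : ℂ} (ha : DifferentiableAt ℝ a z)
    (hb : DifferentiableAt ℝ b z) (hΦ : DifferentiableAt ℝ Φ (pr a b z)) (v : ℂ) :
    fderiv ℝ (fun z => Φ (pr a b z)) z v =
      fderiv ℝ a z v * fderiv ℝ Φ (pr a b z) 1 + fderiv ℝ b z v * fderiv ℝ Φ (pr a b z) I := by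
  have e : pr a b = fun z => a z • (1 : ℂ) + b z • I := by
    funext w
    apply Complex.ext <;> simp [pr]
  have h1 : HasFDerivAt (pr a b)
      ((fderiv ℝ a z).smulRight (1 : ℂ) + (fderiv ℝ b z).smulRight I) z := by
    rw [e]
    exact (ha.hasFDerivAt.smul_const _).add (hb.hasFDerivAt.smul_const _)
  have h2 := (hΦ.hasFDerivAt.comp z h1).fderiv
  change fderiv ℝ (Φ ∘ pr a b) z v = _
  rw [h2]
  simp only [ContinuousLinearMap.comp_apply, add_apply,
    ContinuousLinearMap.smulRight_apply, map_add, map_smul, smul_eq_mul]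

theorem comp_fderiv {u : ℂ → ℝ} {h : ℝ → ℝ} {z : ℂ} (hu : DifferentiableAt ℝ u z)
    (hh : DifferentiableAt ℝ h (u z)) (v : ℂ) :
    fderiv ℝ (fun z => h (u z)) z v = deriv h (u z) * fderiv ℝ u z v := by
  have h2 := (hh.hasDerivAt.comp_hasFDerivAt z hu.hasFDerivAt).fderiv
  change fderiv ℝ (h ∘ u) z v = _
  rw [h2]
  simp

theorem mul_fderiv {a b : ℂ → ℝ} {z : ℂ} (ha : DifferentiableAt ℝ a z)
    (hb : DifferentiableAt ℝ b z) (v : ℂ) :
    fderiv ℝ (fun z => a z * b z) z v = a z * fderiv ℝ b z v + b z * fderiv ℝ a z v := by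
  rw [fderiv_fun_mul ha hb]
  simp

theorem symm2 {H : ℂ → ℝ} (hH : ContDiff ℝ 2 H) (p : ℂ) :
    fderiv ℝ (fun w => fderiv ℝ H w I) p 1 = fderiv ℝ (fun w => fderiv ℝ H w 1) p I := by
  have hd : DifferentiableAt ℝ (fderiv ℝ H) p :=
    ((hH.fderiv_right (m := 1) le_rfl).differentiable one_ne_zero) p
  rw [fderiv_clm_apply hd (differentiableAt_const _),
    fderiv_clm_apply hd (differentiableAt_const _)]
  have := (hH.contDiffAt (x := p)).isSymmSndFDerivAt (by simp) 1 I
  simpa using this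

theorem dif2 {H : ℂ → ℝ} (hH : ContDiff ℝ 2 H) (v p : ℂ) :
    DifferentiableAt ℝ (fun w => fderiv ℝ H w v) p :=
  (((hH.fderiv_right (m := 1) le_rfl).differentiable one_ne_zero) p).clm_apply
    (differentiableAt_const _)

theorem cut_core {K Q : Set ℂ} {χ : ℂ → ℝ} (h : Cut K Q χ) :
    ∃ S, IsCompact S ∧ S ⊆ Kᶜ ∧ ∀ z ∉ S, fderiv ℝ χ z = 0 := by
  obtain ⟨-, h2, -, h4, h5⟩ := h
  obtain ⟨U, hU, hQ, hU1⟩ := eventually_nhdsSet_iff_exists.1 h4
  obtain ⟨W, hW, hQ', hW0⟩ := eventually_nhdsSet_iff_exists.1 h5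
  refine ⟨tsupport χ \ (U ∪ W), IsCompact.diff h2 (hU.union hW), fun z hz hK => hz.2 ?_,
    fun z hz => ?_⟩
  · by_cases h : z ∈ Q
    · exact Or.inl (hQ h)
    · exact Or.inr (hQ' ⟨hK, h⟩)
  · by_cases h : z ∈ tsupport χ
    · have h' : z ∈ U ∪ W := by
        by_contra h'
        exact hz ⟨h, h'⟩
      rcases h' with h' | h'
      · have : χ =ᶠ[𝓝 z] fun _ => 1 := Filter.mem_of_superset (hU.mem_nhds h') hU1
        rw [this.fderiv_eq, fderiv_fun_const]; rfl
      · have : χ =ᶠ[𝓝 z] fun _ => 0 := Filter.mem_of_superset (hW.mem_nhds h') hW0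
        rw [this.fderiv_eq, fderiv_fun_const]; rfl
    · exact fderiv_of_notMem_tsupport ℝ h

theorem int_wd (adm : S_adm) (omA : S_omA) (omB : S_omB) {K Q : Set ℂ} {χ b : ℂ → ℝ}
    (hK : IsCompact K) (hQ : Clo K Q) (hχ : Cut K Q χ) (hb : Adm K b) :
    ∫ z in Kᶜ, wd χ b z = 0 := by
  have h1 := (omA.expand K Q χ (fun _ => 1) b hK hQ hχ
    (adm.c1 K _ hK.isClosed contDiff_const) hb).2.2
  rw [omB.const K Q 1 b hK hQ hb] at h1
  simpa [wd] using h1.symm

theorem closed (adm : S_adm) (comp : S_comp) (cut : S_cut) (omA : S_omA) (omB : S_omB)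
    {K Q : Set ℂ} {χ a b H : ℂ → ℝ} (hK : IsCompact K) (hQ : Clo K Q) (hχ : Cut K Q χ)
    (ha : Adm K a) (hb : Adm K b) (hH : ContDiff ℝ 2 H) :
    ∫ z in Kᶜ, (fderiv ℝ H (pr a b z) I * wd χ b z + fderiv ℝ H (pr a b z) 1 * wd χ a z) = 0 := by
  obtain ⟨S, hS, hSK, hS0⟩ := cut_core hχ
  have hP : ContinuousOn (pr a b) S := by
    have e : pr a b = fun z => (a z : ℂ) + (b z : ℂ) * I := by
      funext w
      apply Complex.ext <;> simp [pr]
    rw [e]
    exact ((continuous_ofReal.comp_continuousOn (ha.1.continuousOn.mono hSK))).add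
      ((continuous_ofReal.comp_continuousOn (hb.1.continuousOn.mono hSK)).mul continuousOn_const)
  have hT := hS.image_of_continuousOn hP
  obtain ⟨η, hη, -⟩ := cut _ _ univ hT ⟨Subset.rfl, hT.isClosed, by simp⟩ isOpen_univ
    (subset_univ _)
  have hc : ContDiff ℝ 2 fun w => η w * H w := hη.1.mul hH
  obtain ⟨L, hL⟩ := hc.lipschitzWith_of_hasCompactSupport hη.2.1.mul_right (by simp)
  have hG := (comp.adm K a b _ L hK.isClosed ha hb hL).1
  rw [← int_wd adm omA omB hK hQ hχ hG]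
  refine setIntegral_congr_ae hK.isClosed.isOpen_compl.measurableSet ?_
  filter_upwards [adm.dif _ a hK.isClosed.isOpen_compl ha.1,
    adm.dif _ b hK.isClosed.isOpen_compl hb.1] with z h1 h2 hz
  by_cases hzS : z ∈ S
  · have e1 : (fun w => η w * H w) =ᶠ[𝓝 (pr a b z)] H := by
      filter_upwards [hη.2.2.2.1.filter_mono (nhds_le_nhdsSet (mem_image_of_mem _ hzS))] with w hw
      rw [hw, one_mul]
    have e2 := pr_fderiv (h1 hz) (h2 hz) (hc.differentiable (by simp) (pr a b z))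
    rw [e1.fderiv_eq] at e2
    simp only [wd, Pi.mul_apply]
    rw [e2, e2]
    ring
  · simp [wd, hS0 z hzS]

theorem exact (adm : S_adm) (comp : S_comp) (cut : S_cut) (omA : S_omA) (omB : S_omB)
    (K Q : Set ℂ) (a b H : ℂ → ℝ) (L : ℝ≥0) (hK : IsCompact K) (hQ : Clo K Q) (ha : Adm K a)
    (hb : Adm K b) (hH : ContDiff ℝ 2 H) (hx : LipschitzWith L fun w => fderiv ℝ H w 1)
    (hy : LipschitzWith L fun w => fderiv ℝ H w I) :
    om K Q (fun z => fderiv ℝ H (pr a b z) I) b = om K Q a fun z => fderiv ℝ H (pr a b z) 1 := by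
  obtain ⟨χ, hχ, -⟩ := cut K Q univ hK hQ isOpen_univ (subset_univ _)
  have hX := (comp.adm K a b _ L hK.isClosed ha hb hx).1
  have hY := (comp.adm K a b _ L hK.isClosed ha hb hy).1
  obtain ⟨-, i1, e1⟩ := omA.expand K Q χ _ b hK hQ hχ hY hb
  obtain ⟨-, i2, e2⟩ := omA.expand K Q χ _ a hK hQ hχ hX ha
  have e3 := closed adm comp cut omA omB hK hQ hχ ha hb hH
  rw [integral_add i1 i2] at e3
  have e4 : ∫ z in Kᶜ, χ z * wd (fun z => fderiv ℝ H (pr a b z) I) b z =
      -∫ z in Kᶜ, χ z * wd (fun z => fderiv ℝ H (pr a b z) 1) a z := by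
    rw [← integral_neg]
    refine setIntegral_congr_ae hK.isClosed.isOpen_compl.measurableSet ?_
    filter_upwards [adm.dif _ a hK.isClosed.isOpen_compl ha.1,
      adm.dif _ b hK.isClosed.isOpen_compl hb.1] with z h1 h2 hz
    have f1 := pr_fderiv (h1 hz) (h2 hz) (dif2 hH I (pr a b z))
    have f2 := pr_fderiv (h1 hz) (h2 hz) (dif2 hH 1 (pr a b z))
    unfold wd
    rw [f1, f1, f2, f2, symm2 hH]
    ring
  rw [omB.anti K Q a _ hK hQ ha hX, e1, e2, e4]
  linarith

theorem prim {k : ℝ → ℝ} (hk : ContDiff ℝ 1 k) :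
    ∃ H : ℂ → ℝ, ContDiff ℝ 2 H ∧ ∀ w v, fderiv ℝ H w v = k w.im * v.im := by
  have hd : ∀ x, HasDerivAt (fun x => ∫ t in (0 : ℝ)..x, k t) (k x) x := fun x =>
    (hk.continuous.integral_hasStrictDerivAt 0 x).hasDerivAt
  have hc : ContDiff ℝ 2 fun x => ∫ t in (0 : ℝ)..x, k t := by
    rw [show (2 : WithTop ℕ∞) = 1 + 1 from rfl, contDiff_succ_iff_deriv]
    refine ⟨fun x => (hd x).differentiableAt, by simp, ?_⟩
    rw [show (deriv fun x => ∫ t in (0 : ℝ)..x, k t) = k from funext fun x => (hd x).deriv]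
    exact hk
  refine ⟨fun w => ∫ t in (0 : ℝ)..w.im, k t, hc.comp imCLM.contDiff, fun w v => ?_⟩
  have := comp_fderiv (u := fun w : ℂ => w.im) (z := w) imCLM.differentiableAt
    (hd w.im).differentiableAt v
  rw [this, (hd w.im).deriv]
  congr 1
  exact congrArg (fun f : ℂ →L[ℝ] ℝ => f v) imCLM.fderiv

end AOmD

open AOmD in
theorem s_omD (adm : S_adm) (comp : S_comp) (cut : S_cut) (stokes : S_stokes) (omA : S_omA)
    (omB : S_omB) : S_omD where
  exact := exact adm comp cut omA omB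
  fn := by
    intro K Q b k L hK hQ hb hk hL
    obtain ⟨H, hH, hd⟩ := prim hk
    have h1 := exact adm comp cut omA omB K Q b b H L hK hQ hb hb hH
      (by simpa [hd] using (LipschitzWith.const (0 : ℝ)).weaken (zero_le (a := L)))
      (by
        refine LipschitzWith.of_dist_le_mul fun x y => ?_
        simp only [hd, I_im, mul_one]
        refine (hL.dist_le_mul _ _).trans (mul_le_mul_of_nonneg_left ?_ L.coe_nonneg)
        rw [Real.dist_eq, Complex.dist_eq, ← sub_im]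
        exact abs_im_le_norm _)
    simp only [hd, pr, I_im, mul_one, one_im, mul_zero] at h1
    rw [h1, omB.anti K Q b _ hK hQ hb (adm.c1 K _ hK.isClosed contDiff_const),
      omB.const K Q 0 b hK hQ hb, neg_zero]
  chain := by
    intro K Q θ u h L hK hQ hθ hu hh hL hA
    obtain ⟨χ, hχ, -⟩ := cut K Q univ hK hQ isOpen_univ (subset_univ _)
    rw [(omA.ind K Q χ _ _ hK hQ hχ hθ (comp.adm1 K u h L hK.isClosed hu hL).1).2,
      (omA.ind K Q χ _ _ hK hQ hχ hA hu).2]
    refine setIntegral_congr_ae hK.isClosed.isOpen_compl.measurableSet ?_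
    filter_upwards [adm.dif _ θ hK.isClosed.isOpen_compl hθ.1,
      adm.dif _ u hK.isClosed.isOpen_compl hu.1] with z h1 h2 hz
    have d1 : DifferentiableAt ℝ χ z := hχ.1.differentiable (by simp) z
    have d2 : DifferentiableAt ℝ h (u z) := hh.differentiable (by simp) _
    have d3 : DifferentiableAt ℝ (deriv h) (u z) :=
      ((contDiff_succ_iff_deriv (n := 1)).1 hh).2.2.differentiable one_ne_zero _
    have d4 : DifferentiableAt ℝ (fun z => deriv h (u z)) z := d3.comp z (h2 hz)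
    have f1 := comp_fderiv (h2 hz) d2
    have f2 := comp_fderiv (h2 hz) d3
    have f3 := mul_fderiv d1 (h1 hz)
    have f4 := mul_fderiv (h1 hz) d4
    have f5 := mul_fderiv d1 ((h1 hz).fun_mul d4)
    unfold wd
    rw [f1, f1, f3, f3, f5, f5, f4, f4, f2, f2]
    ring

end Vale.Agent.P116
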