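import Vale.Agent.P116.AStm2

/-! Finite clopen partitions. -/

open Set Filter Topology MeasureTheory Metric Complex
open scoped ENNReal NNReal

noncomputable section
namespace Vale.Agent.P116

namespace APartAux

theorem clo_fin (cmp : S_cmp) {K : Set ℂ} (hK : IsClosed K) {ι : Type} (J : Finset ι)
    (Q : ι → Set ℂ) (h : ∀ p ∈ J, Clo K (Q p)) : Clo K (⋃ p ∈ J, Q p) := by
  classical
  induction J using Finset.induction_on with
  | empty => simpa using cmp.clo_empty K hK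
  | insert a J _ ih =>
    rw [Finset.set_biUnion_insert]
    exact cmp.clo_union _ _ _ (h a (Finset.mem_insert_self _ _))
      (ih fun p hp => h p (Finset.mem_insert_of_mem hp))

theorem disj (cmp : S_cmp) {K : Set ℂ} (hK : IsClosed K) {ι : Type} [DecidableEq ι]
    (F G : Finset ι) (C : ι → Set ℂ) (h : ∀ p ∈ G ∪ F, Clo K (C p))
    (hF : ∀ p ∈ F, ∀ q ∈ F, p ≠ q → Disjoint (C p) (C q)) :
    ∃ Q : ι → Set ℂ, (∀ p ∈ G ∪ F, Clo K (Q p) ∧ Q p ⊆ C p) ∧ (∀ p ∈ F, Q p = C p) ∧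
      (∀ p ∈ G ∪ F, ∀ q ∈ G ∪ F, p ≠ q → Disjoint (Q p) (Q q)) ∧
      ⋃ p ∈ G ∪ F, Q p = ⋃ p ∈ G ∪ F, C p := by
  induction G using Finset.induction_on with
  | empty => exact ⟨C, fun p hp => ⟨h p hp, le_rfl⟩, fun _ _ => rfl, by simpa using hF, rfl⟩
  | insert a G _ ih =>
    rw [Finset.insert_union] at h ⊢
    obtain ⟨Q, h1, h2, h3, h4⟩ := ih fun p hp => h p (Finset.mem_insert_of_mem hp)
    by_cases ha : a ∈ G ∪ F
    · rw [Finset.insert_eq_of_mem ha]
      exact ⟨Q, h1, h2, h3, h4⟩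
    have e0 : Function.update Q a (C a \ ⋃ p ∈ G ∪ F, Q p) a = C a \ ⋃ p ∈ G ∪ F, Q p :=
      Function.update_self ..
    have e1 : ∀ p ∈ G ∪ F, Function.update Q a (C a \ ⋃ p ∈ G ∪ F, Q p) p = Q p := fun p hp =>
      Function.update_of_ne (fun e : p = a => ha (e ▸ hp)) ..
    have e2 : ∀ p ∈ G ∪ F, Disjoint (C a \ ⋃ p ∈ G ∪ F, Q p) (Q p) := fun p hp =>
      disjoint_sdiff_left.mono_right (subset_biUnion_of_mem (u := Q) hp)
    refine ⟨Function.update Q a (C a \ ⋃ p ∈ G ∪ F, Q p), fun p hp => ?_,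
      fun p hp => (e1 p (Finset.mem_union_right _ hp)).trans (h2 p hp), fun p hp q hq hpq => ?_, ?_⟩
    · rcases Finset.mem_insert.1 hp with rfl | hp
      · rw [e0]
        exact ⟨cmp.clo_diff _ _ _ (h p (Finset.mem_insert_self _ _))
          (clo_fin cmp hK _ _ fun q hq => (h1 q hq).1), diff_subset⟩
      · rw [e1 p hp]
        exact h1 p hp
    · rcases Finset.mem_insert.1 hp with rfl | hp' <;> rcases Finset.mem_insert.1 hq with rfl | hq'
      · exact absurd rfl hpq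
      · rw [e0, e1 q hq']
        exact e2 q hq'
      · rw [e0, e1 p hp']
        exact (e2 p hp').symm
      · rw [e1 p hp', e1 q hq']
        exact h3 p hp' q hq' hpq
    · rw [Finset.set_biUnion_insert, Finset.set_biUnion_insert, e0, iUnion₂_congr e1,
        diff_union_self, h4]

end APartAux

open APartAux in
theorem s_part (cmp : S_cmp) : S_part := by
  classical
  intro K T U F hK hT hU hF
  obtain ⟨V, hV, hd⟩ := cmp.sep K F U hK fun p hp => hU p (hF p hp)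
  have h1 : ∀ p : Cmp K, ∃ C, p.1 ⊆ T → Clo K C ∧ p.1 ⊆ C ∧ C ⊆ T ∩ U p ∧ (p ∈ F → C ⊆ V p) := by
    intro p
    by_cases hp : p.1 ⊆ T
    swap
    · exact ⟨∅, fun h => absurd h hp⟩
    by_cases hpF : p ∈ F
    · obtain ⟨Q, a1, a2, a3⟩ := cmp.nbhd K p (V p) hK (hV p hpF).1 (hV p hpF).2.1
      exact ⟨T ∩ Q, fun _ => ⟨cmp.clo_inter _ _ _ hT a1, subset_inter hp a2,
        inter_subset_inter_right _ (a3.trans (hV p hpF).2.2), fun _ => inter_subset_right.trans a3⟩⟩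
    · obtain ⟨Q, a1, a2, a3⟩ := cmp.nbhd K p (U p) hK (hU p hp).1 (hU p hp).2
      exact ⟨T ∩ Q, fun _ => ⟨cmp.clo_inter _ _ _ hT a1, subset_inter hp a2,
        inter_subset_inter_right _ a3, fun h => absurd h hpF⟩⟩
  choose C hC using h1
  obtain ⟨G, g1, g2, g3⟩ := (hK.of_isClosed_subset hT.2.1 hT.1).elim_finite_subcover_image
    (b := {p : Cmp K | p.1 ⊆ T}) (c := fun p => (K \ C p)ᶜ)
    (fun p hp => (hC p hp).1.2.2.isOpen_compl) fun z hz => by
      obtain ⟨p, hp⟩ := cmp.mem K z (hT.1 hz)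
      have hpT : p.1 ⊆ T := (cmp.dich K T p hT).resolve_right fun h => (h hp).2 hz
      exact mem_biUnion hpT fun h => h.2 ((hC p hpT).2.1 hp)
  lift G to Finset (Cmp K) using g2
  have hJ : ∀ p ∈ G ∪ F, p.1 ⊆ T := fun p hp =>
    (Finset.mem_union.1 hp).elim (fun h => g1 h) (hF p)
  obtain ⟨Q, q1, q2, q3, q4⟩ := disj cmp hK.isClosed F G C (fun p hp => (hC p (hJ p hp)).1)
    fun p hp q hq hpq => (hd p hp q hq hpq).mono ((hC p (hF p hp)).2.2.2 hp)
      ((hC q (hF q hq)).2.2.2 hq)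
  refine ⟨G ∪ F, Q, Finset.subset_union_right,
    fun p hp => ⟨hJ p hp, (q1 p hp).1, (q1 p hp).2.trans (hC p (hJ p hp)).2.2.1⟩,
    fun p hp => q2 p hp ▸ (hC p (hF p hp)).2.1, q3, q4.trans (Subset.antisymm ?_ fun z hz => ?_)⟩
  · exact iUnion₂_subset fun p hp => (hC p (hJ p hp)).2.2.1.trans inter_subset_left
  · obtain ⟨p, hp, hz'⟩ := mem_iUnion₂.1 (g3 hz)
    exact mem_iUnion₂.2 ⟨p, Finset.mem_union_left _ hp, not_not.1 fun h => hz' ⟨hT.1 hz, h⟩⟩

end Vale.Agent.P116
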