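import Vale.Agent.P116.AStm2

/-! Plateau functions. -/

open Set Filter Topology MeasureTheory Metric Complex
open scoped ENNReal NNReal

noncomputable section
namespace Vale.Agent.P116

namespace APlatAux

theorem st_deriv : ∃ C > 0, ∀ x, 0 ≤ deriv Real.smoothTransition x ∧
    deriv Real.smoothTransition x ≤ C := by
  have hc : Continuous (deriv Real.smoothTransition) :=
    (Real.smoothTransition.contDiff (n := 1)).continuous_deriv le_rfl
  obtain ⟨C, hC⟩ := (isCompact_Icc (a := (0 : ℝ)) (b := 1)).exists_bound_of_continuousOn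
    hc.continuousOn
  refine ⟨|C| + 1, by positivity, fun x => ⟨Real.smoothTransition.monotone.deriv_nonneg, ?_⟩⟩
  rcases lt_or_ge x 0 with h | h
  · have : Real.smoothTransition =ᶠ[𝓝 x] fun _ => 0 :=
      (gt_mem_nhds h).mono fun y hy => Real.smoothTransition.zero_of_nonpos hy.le
    rw [this.deriv_eq, deriv_const]
    positivity
  rcases lt_or_ge 1 x with h' | h'
  · have : Real.smoothTransition =ᶠ[𝓝 x] fun _ => 1 :=
      (lt_mem_nhds h').mono fun y hy => Real.smoothTransition.one_of_one_le hy.le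
    rw [this.deriv_eq, deriv_const]
    positivity
  · have := (le_abs_self _).trans (hC x ⟨h, h'⟩)
    linarith [le_abs_self C]

theorem aff (a b : ℝ) : LipschitzWith ‖a‖₊ fun x : ℝ => a * x + b :=
  LipschitzWith.of_dist_le_mul fun x y => by
    rw [Real.dist_eq, Real.dist_eq, add_sub_add_right_eq_sub, ← mul_sub, abs_mul]
    rfl

theorem st_lip : ∃ L, LipschitzWith L Real.smoothTransition := by
  obtain ⟨C, hC, h⟩ := st_deriv
  refine ⟨⟨C, hC.le⟩, lipschitzWith_of_nnnorm_deriv_le
    ((Real.smoothTransition.contDiff (n := 1)).differentiable one_ne_zero) fun x => ?_⟩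
  show ‖deriv Real.smoothTransition x‖ ≤ C
  rw [Real.norm_eq_abs, abs_of_nonneg (h x).1]
  exact (h x).2

/-- The normalized periodic bump. -/
theorem bump {N : ℕ} (hN : 0 < N) : ∃ g : ℝ → ℝ, ContDiff ℝ 1 g ∧ (∀ t, 0 ≤ g t ∧ g t ≤ 1) ∧
    (∃ L, LipschitzWith L g) ∧ Function.Periodic g N ∧
    (∀ (i : ℤ) (t : ℝ), |t - i * N| ≤ 2 / 5 → g t = 1) ∧
    ∀ t, g t ≠ 0 → ∃ i : ℤ, |t - i * N| < 1 / 2 := by
  have hN' : (1 : ℝ) ≤ N := by exact_mod_cast hN
  have hN0 : (0 : ℝ) < N := by linarith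
  have hp := Real.pi_pos
  set a : ℝ := 2 * Real.pi / N with ha
  have ha0 : 0 < a := by positivity
  have haN : a * N = 2 * Real.pi := by rw [ha]; field_simp
  have ha1 : a * (1 / 2) ≤ Real.pi := by nlinarith
  have hlt : Real.cos (a * (1 / 2)) < Real.cos (a * (2 / 5)) :=
    Real.cos_lt_cos_of_nonneg_of_le_pi (by positivity) ha1 (by linarith)
  set A : ℝ := (Real.cos (a * (2 / 5)) - Real.cos (a * (1 / 2)))⁻¹ with hA
  have hA0 : 0 < A := inv_pos.2 (by linarith)
  have hA1 : A * (Real.cos (a * (2 / 5)) - Real.cos (a * (1 / 2))) = 1 :=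
    inv_mul_cancel₀ (by linarith)
  have hcos : ∀ (i : ℤ) (t : ℝ), Real.cos (a * t + 0) = Real.cos (a * |t - i * N|) := by
    intro i t
    rw [← abs_of_pos ha0, ← abs_mul, Real.cos_abs, abs_of_pos ha0, mul_sub, mul_left_comm, haN,
      Real.cos_sub_int_mul_two_pi, add_zero]
  refine ⟨fun t => Real.smoothTransition (A * Real.cos (a * t + 0) + -(A * Real.cos (a * (1 / 2)))),
    ?_, fun t => ⟨Real.smoothTransition.nonneg _, Real.smoothTransition.le_one _⟩, ?_,
    fun t => ?_, fun i t ht => ?_, fun t ht => ?_⟩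
  · exact (Real.smoothTransition.contDiff (n := 1)).comp (by fun_prop)
  · obtain ⟨L, hL⟩ := st_lip
    exact ⟨_, hL.comp ((aff A _).comp (Real.lipschitzWith_cos.comp (aff a 0)))⟩
  · simp only [add_zero, mul_add, haN, Real.cos_add_two_pi]
  · refine Real.smoothTransition.one_of_one_le ?_
    rw [hcos i]
    have h1 : Real.cos (a * (2 / 5)) ≤ Real.cos (a * |t - i * N|) :=
      Real.cos_le_cos_of_nonneg_of_le_pi (by positivity) (by linarith)
        (mul_le_mul_of_nonneg_left ht ha0.le)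
    nlinarith
  · refine ⟨round (t / N), not_le.1 fun h => ht (Real.smoothTransition.zero_of_nonpos ?_)⟩
    rw [hcos (round (t / N))]
    have h2 : |t - round (t / N) * N| ≤ N / 2 := by
      have e : t - round (t / N) * N = (t / N - round (t / N)) * N := by field_simp
      rw [e, abs_mul, abs_of_pos hN0]
      nlinarith [abs_sub_round (t / N)]
    have h1 : Real.cos (a * |t - round (t / N) * N|) ≤ Real.cos (a * (1 / 2)) :=
      Real.cos_le_cos_of_nonneg_of_le_pi (by positivity) (by nlinarith)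
        (mul_le_mul_of_nonneg_left h ha0.le)
    nlinarith

theorem prim {κ : ℝ → ℝ} (hc : Continuous κ) (h0 : ∀ x, 0 ≤ κ x) {η a : ℝ} (hη : 0 < η)
    (hp : Function.Periodic κ η) (ha : ∫ x in (0 : ℝ)..η, κ x ≤ a) (x : ℝ) :
    |∫ y in (0 : ℝ)..x, κ y| ≤ (|x| / η + 1) * a := by
  have hi : ∀ s t, IntervalIntegrable κ volume s t := fun s t => hc.intervalIntegrable s t
  have hI : 0 ≤ ∫ x in (0 : ℝ)..η, κ x := intervalIntegral.integral_nonneg hη.le fun y _ => h0 y
  have mono : ∀ s t, s ≤ t → ∫ y in (0 : ℝ)..s, κ y ≤ ∫ y in (0 : ℝ)..t, κ y := by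
    intro s t hst
    rw [← intervalIntegral.integral_add_adjacent_intervals (hi 0 s) (hi s t)]
    linarith [intervalIntegral.integral_nonneg (μ := volume) hst fun y _ => h0 y]
  have per : ∀ n : ℤ, ∫ y in (0 : ℝ)..(n * η), κ y = n * ∫ x in (0 : ℝ)..η, κ x := fun n => by
    simpa using hp.intervalIntegral_add_zsmul_eq n 0 hi
  have h1 : (⌊x / η⌋ : ℝ) ≤ x / η := Int.floor_le _
  have h2 : x / η < ⌊x / η⌋ + 1 := Int.lt_floor_add_one _
  have h3 := mono _ _ ((le_div_iff₀ hη).1 h1)
  have h4 := mono _ _ ((div_le_iff₀ hη).1 h2.le)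
  have h5 := per (⌊x / η⌋ + 1)
  push_cast at h5
  rw [per] at h3
  rw [h5] at h4
  have h6 : |x / η| = |x| / η := by rw [abs_div, abs_of_pos hη]
  have h7 := le_abs_self (x / η)
  have h8 := neg_abs_le (x / η)
  rw [← h6]
  refine le_trans ?_ (mul_le_mul_of_nonneg_left ha (by positivity))
  rw [abs_le]
  constructor <;> nlinarith

theorem sum_le {N : ℕ} {g : ℝ → ℝ} (h1 : ∀ t, 0 ≤ g t ∧ g t ≤ 1)
    (h0 : ∀ t, g t ≠ 0 → ∃ i : ℤ, |t - i * N| < 1 / 2) (t : ℝ) :
    ∑ k ∈ Finset.range N, g (t + -((k : ℝ) + 1 / 2)) ≤ 1 := by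
  have key : ∀ k : ℕ, k < N → g (t + -((k : ℝ) + 1 / 2)) ≠ 0 → ⌊t⌋ % (N : ℤ) = k := by
    intro k hk h
    obtain ⟨i, hi⟩ := h0 _ h
    rw [abs_lt] at hi
    have e : ⌊t⌋ = k + i * N := by
      rw [Int.floor_eq_iff]
      push_cast
      constructor <;> linarith [hi.1, hi.2]
    rw [e, Int.add_mul_emod_self_right]
    exact Int.emod_eq_of_lt (by positivity) (by exact_mod_cast hk)
  by_cases h : ∃ k < N, g (t + -((k : ℝ) + 1 / 2)) ≠ 0
  · obtain ⟨k, hk, hg⟩ := h
    rw [Finset.sum_eq_single k]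
    · exact (h1 _).2
    · intro j hj hjk
      by_contra hj0
      have := (key j (Finset.mem_range.1 hj) hj0).symm.trans (key k hk hg)
      exact hjk (by exact_mod_cast this)
    · intro hk'
      exact absurd (Finset.mem_range.2 hk) hk'
  · push Not at h
    rw [Finset.sum_eq_zero fun k hk => h k (Finset.mem_range.1 hk)]
    exact zero_le_one

end APlatAux

theorem s_plat : S_plat := by
  obtain ⟨Cs, hCs, hS⟩ := APlatAux.st_deriv
  refine ⟨Cs, hCs, fun μ N hμ hN => ?_⟩
  obtain ⟨g, gc, g01, ⟨L, gL⟩, gp, g1, g0⟩ := APlatAux.bump hN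
  have hN0 : (0 : ℝ) < N := by exact_mod_cast hN
  have hm : 0 < 10 * μ := by positivity
  have hη : 0 < 10 * μ * N := by positivity
  set κ : ℕ → ℝ → ℝ := fun k x => g ((10 * μ)⁻¹ * x + -((k : ℝ) + 1 / 2)) with hκ
  have kc : ∀ k, ContDiff ℝ 1 (κ k) := fun k => gc.comp (by fun_prop)
  have kp : ∀ k, Function.Periodic (κ k) (10 * μ * N) := fun k x => by
    simp only [hκ]
    rw [mul_add, inv_mul_cancel_left₀ hm.ne', add_right_comm, gp]
  have kd : ∀ k, deriv (fun x => ∫ y in (0 : ℝ)..x, κ k y) = κ k := fun k =>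
    funext fun x => (kc k).continuous.deriv_integral _ _ _
  have ks : ∀ x, ∑ k ∈ Finset.range N, κ k x ≤ 1 := fun x => APlatAux.sum_le g01 g0 _
  have ki : ∀ k, ∫ x in (0 : ℝ)..(10 * μ * N), κ k x = ∫ x in (0 : ℝ)..(10 * μ * N), κ 0 x := by
    intro k
    have e : κ k = fun x => κ 0 (x - 10 * μ * k) := funext fun x => by
      simp only [hκ]
      congr 1
      rw [mul_sub, inv_mul_cancel_left₀ hm.ne']
      push_cast
      ring
    rw [e, intervalIntegral.integral_comp_sub_right]
    have := (kp 0).intervalIntegral_add_eq (0 - 10 * μ * k) 0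
    rw [zero_add] at this
    rw [← this]
    congr 1
    ring
  have ka : ∫ x in (0 : ℝ)..(10 * μ * N), κ 0 x ≤ 10 * μ := by
    have h1 : ∫ x in (0 : ℝ)..(10 * μ * N), ∑ k ∈ Finset.range N, κ k x ≤
        ∫ _ in (0 : ℝ)..(10 * μ * N), (1 : ℝ) :=
      intervalIntegral.integral_mono_on hη.le
        ((continuous_finset_sum _ fun k _ => (kc k).continuous).intervalIntegrable _ _)
        (continuous_const.intervalIntegrable _ _) fun x _ => ks x
    rw [intervalIntegral.integral_finset_sum fun k _ => (kc k).continuous.intervalIntegrable _ _,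
      Finset.sum_congr rfl fun k _ => ki k] at h1
    simp only [Finset.sum_const, Finset.card_range, nsmul_eq_mul, intervalIntegral.integral_const,
      sub_zero, smul_eq_mul, mul_one] at h1
    exact le_of_mul_le_mul_left (h1.trans_eq (mul_comm _ _)) hN0
  have hb : ∀ x, deriv (fun x => Real.smoothTransition (x / (2 * μ))) x =
      deriv Real.smoothTransition (x / (2 * μ)) / (2 * μ) := fun x => by
    have h1 := (((Real.smoothTransition.contDiff (n := 1)).differentiable one_ne_zero)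
      (x / (2 * μ))).hasDerivAt.comp x ((hasDerivAt_id x).div_const (2 * μ))
    rw [show (fun x => Real.smoothTransition (x / (2 * μ))) =
      Real.smoothTransition ∘ fun x => id x / (2 * μ) from rfl, h1.deriv]
    ring
  refine ⟨fun k x => ∫ y in (0 : ℝ)..x, κ k y, fun x => Real.smoothTransition (x / (2 * μ)),
    fun k => ⟨?_, ?_, ?_, fun x => ?_, fun i x h1 h2 => ?_⟩, ?_, ?_,
    fun x => ⟨Real.smoothTransition.nonneg _, Real.smoothTransition.le_one _⟩,
    fun x hx => Real.smoothTransition.zero_of_nonpos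
      (div_nonpos_of_nonpos_of_nonneg hx (by positivity)),
    fun x hx => Real.smoothTransition.one_of_one_le ((one_le_div (by positivity)).2 hx),
    fun x => ?_⟩
  · rw [show (2 : WithTop ℕ∞) = 1 + 1 from rfl, contDiff_succ_iff_deriv, kd]
    exact ⟨fun x => ((kc k).continuous.integral_hasStrictDerivAt 0 x).hasDerivAt.differentiableAt,
      fun h => absurd h (by simp), kc k⟩
  · rw [kd]
    exact fun x => g01 _
  · rw [kd]
    exact ⟨_, gL.comp (APlatAux.aff _ _)⟩
  · refine (APlatAux.prim (kc k).continuous (fun x => (g01 _).1) hη (kp k)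
      ((ki k).trans_le ka) x).trans (le_of_eq ?_)
    field_simp
  · rw [kd]
    refine g1 i _ ?_
    have e : (10 * μ)⁻¹ * x + -((k : ℝ) + 1 / 2) - i * N =
        (x - (10 * μ * k + 5 * μ + i * (10 * μ * N))) / (10 * μ) := by
      field_simp
      ring
    rw [e, abs_div, abs_of_pos hm, div_le_iff₀ hm, abs_le]
    constructor <;> linarith
  · simp only [kd]
    exact ks
  · exact (Real.smoothTransition.contDiff (n := 2)).comp (by fun_prop)
  · rw [hb]
    refine ⟨div_nonneg (hS _).1 (by positivity), ?_⟩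
    exact div_le_div₀ hCs.le (hS _).2 hμ (by linarith)

end Vale.Agent.P116
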