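import Vale.Agent.P116.AStm2

/-! Step A: positivity. -/

open Set Filter Topology MeasureTheory Metric Complex
open scoped ENNReal NNReal

noncomputable section
namespace Vale.Agent.P116

namespace APos

/-- The data of the two test functions. -/
structure Dat (a β : ℝ → ℝ) (A Lb : ℝ≥0) (M e : ℝ) : Prop where
  mono : Monotone a
  la : LipschitzWith A a
  ba : ∀ x, |a x| ≤ M
  cb : ContDiff ℝ 1 β
  lb : LipschitzWith Lb β
  bb : ∀ y, 0 ≤ β y ∧ β y ≤ M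
  e0 : 0 < e
  e1 : e * M * A ≤ 1

theorem dat {a b : ℝ → ℝ} (ha : Stp a) (hb : Stp b) : ∃ A Lb M e, Dat a (deriv b) A Lb M e := by
  have hd : Differentiable ℝ a := ha.1.differentiable (by norm_num)
  have hc : Continuous (deriv a) := ha.1.continuous_deriv (by norm_num)
  obtain ⟨A, hA⟩ := ha.2.2.exists_bound_of_continuous hc
  have hA0 : 0 ≤ A := (norm_nonneg _).trans (hA 0)
  have hi : Integrable (deriv a) := hc.integrable_of_hasCompactSupport ha.2.2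
  have hb1 : ContDiff ℝ 1 (deriv b) := ContDiff.deriv' (n := 1) (hb.1.of_le (by norm_num))
  obtain ⟨Lb, hL⟩ := hb1.lipschitzWith_of_hasCompactSupport hb.2.2 one_ne_zero
  obtain ⟨B, hB⟩ := hb.2.2.exists_bound_of_continuous hb1.continuous
  have hB0 : 0 ≤ B := (norm_nonneg _).trans (hB 0)
  have hI : 0 ≤ ∫ t, ‖deriv a t‖ := integral_nonneg fun _ => norm_nonneg _
  set M := |a 0| + (∫ t, ‖deriv a t‖) + B with hM
  have hM0 : 0 ≤ M := by positivity
  refine ⟨⟨A, hA0⟩, Lb, M, 1 / (M * A + 1), monotone_of_deriv_nonneg hd ha.2.1,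
    lipschitzWith_of_nnnorm_deriv_le hd fun x => hA x, fun x => ?_, hb1, hL,
    fun y => ⟨hb.2.1 y, ?_⟩, by positivity, ?_⟩
  · have h1 := intervalIntegral.integral_deriv_eq_sub (f := a) (a := 0) (b := x)
      (fun t _ => hd t) hi.intervalIntegrable
    have h2 : ‖∫ t in (0 : ℝ)..x, deriv a t‖ ≤ ∫ t, ‖deriv a t‖ :=
      intervalIntegral.norm_integral_le_integral_norm_uIoc.trans
        (setIntegral_le_integral hi.norm (.of_forall fun _ => norm_nonneg _))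
    rw [h1, Real.norm_eq_abs] at h2
    have := abs_sub_abs_le_abs_sub (a x) (a 0)
    linarith
  · have := (le_abs_self _).trans (hB y)
    have := abs_nonneg (a 0)
    linarith
  · change 1 / (M * A + 1) * M * A ≤ 1
    rw [mul_assoc, one_div, inv_mul_le_iff₀ (by positivity)]
    linarith

variable {a β : ℝ → ℝ} {A Lb : ℝ≥0} {M e : ℝ}

theorem Dat.M0 (h : Dat a β A Lb M e) : 0 ≤ M := (abs_nonneg _).trans (h.ba 0)

/-- Monotone and `1`-Lipschitz in the first variable. -/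
theorem Dat.key (h : Dat a β A Lb M e) {x x' : ℝ} (hx : x' ≤ x) (y : ℝ) :
    0 ≤ e * (a x - a x') * β y ∧ e * (a x - a x') * β y ≤ x - x' := by
  have h1 : 0 ≤ a x - a x' := sub_nonneg.2 (h.mono hx)
  have h2 : a x - a x' ≤ A * (x - x') := by
    have := h.la.dist_le_mul x x'
    rw [Real.dist_eq, Real.dist_eq, abs_of_nonneg h1, abs_of_nonneg (sub_nonneg.2 hx)] at this
    exact this
  have h3 := h.bb y
  have h4 := h.e0
  have h5 : 0 ≤ x - x' := sub_nonneg.2 hx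
  refine ⟨mul_nonneg (mul_nonneg h4.le h1) h3.1, ?_⟩
  calc e * (a x - a x') * β y ≤ e * (A * (x - x')) * M :=
        mul_le_mul (mul_le_mul_of_nonneg_left h2 h4.le) h3.2 h3.1 (by positivity)
    _ = e * M * A * (x - x') := by ring
    _ ≤ 1 * (x - x') := mul_le_mul_of_nonneg_right h.e1 h5
    _ = x - x' := one_mul _

theorem Dat.osc1 (h : Dat a β A Lb M e) {K p : Set ℂ} {φ : ℂ → ℝ} (ψ : ℂ → ℝ) {lo s : ℝ}
    (hs : 0 ≤ s) (hc : Clu K p φ lo s) :
    Osc K p (fun z => φ z - e * (a (φ z) - a lo) * β (ψ z)) s := fun ε hε => by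
  obtain ⟨U, hU, hp, H⟩ := hc (ε / 2) (half_pos hε)
  have k : ∀ z ∈ U \ K, lo - ε / 2 ≤ φ z - e * (a (φ z) - a lo) * β (ψ z) ∧
      φ z - e * (a (φ z) - a lo) * β (ψ z) ≤ lo + s + ε / 2 := fun z hz => by
    obtain ⟨h1, h2⟩ := H z hz
    rcases le_total lo (φ z) with h3 | h3
    · obtain ⟨k1, k2⟩ := h.key h3 (ψ z)
      constructor <;> linarith
    · obtain ⟨k1, k2⟩ := h.key h3 (ψ z)
      have : e * (a (φ z) - a lo) * β (ψ z) = -(e * (a lo - a (φ z)) * β (ψ z)) := by ring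
      constructor <;> linarith
  exact ⟨U, hU, hp, fun z hz w hw => by linarith [(k z hz).2, (k w hw).1]⟩

theorem Dat.osc2 (h : Dat a β A Lb M e) {K p : Set ℂ} {φ ψ : ℂ → ℝ} (lo : ℝ) {s t : ℝ}
    (h1 : Osc K p φ s) (h2 : Osc K p ψ t) :
    Osc K p (fun z => φ z - e * (a (φ z) - a lo) * β (ψ z)) (s + e * (2 * M * Lb) * t) :=
  fun ε hε => by
  have hM := h.M0
  have he := h.e0
  have hC : 0 ≤ e * (2 * M * Lb) := by positivity
  set η := ε / (1 + e * (2 * M * Lb)) with hη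
  have η0 : 0 < η := by positivity
  have ηe : η + e * (2 * M * Lb) * η = ε := by
    rw [hη]
    field_simp
  obtain ⟨U, hU, hp, H⟩ := h1 η η0
  obtain ⟨V, hV, hq, H'⟩ := h2 η η0
  refine ⟨U ∩ V, hU.inter hV, subset_inter hp hq, fun z hz w hw => ?_⟩
  have a1 := H z ⟨hz.1.1, hz.2⟩ w ⟨hw.1.1, hw.2⟩
  have a2 := H w ⟨hw.1.1, hw.2⟩ z ⟨hz.1.1, hz.2⟩
  have b1 : |ψ z - ψ w| ≤ t + η := abs_le.2
    ⟨by linarith [H' w ⟨hw.1.2, hw.2⟩ z ⟨hz.1.2, hz.2⟩], H' z ⟨hz.1.2, hz.2⟩ w ⟨hw.1.2, hw.2⟩⟩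
  have c1 : φ z - φ w - e * (a (φ z) - a (φ w)) * β (ψ z) ≤ s + η := by
    rcases le_total (φ w) (φ z) with h3 | h3
    · linarith [(h.key h3 (ψ z)).1]
    · have : e * (a (φ z) - a (φ w)) * β (ψ z) = -(e * (a (φ w) - a (φ z)) * β (ψ z)) := by ring
      linarith [(h.key h3 (ψ z)).2]
  have c2 : |β (ψ z) - β (ψ w)| ≤ Lb * (t + η) := by
    have := h.lb.dist_le_mul (ψ z) (ψ w)
    rw [Real.dist_eq, Real.dist_eq] at this
    exact this.trans (mul_le_mul_of_nonneg_left b1 Lb.2)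
  have c3 : |a (φ w) - a lo| ≤ 2 * M := by
    have := abs_sub (a (φ w)) (a lo)
    linarith [h.ba (φ w), h.ba lo]
  have c4 : |(a (φ w) - a lo) * (β (ψ z) - β (ψ w))| ≤ 2 * M * (Lb * (t + η)) := by
    rw [abs_mul]
    exact mul_le_mul c3 c2 (abs_nonneg _) (by positivity)
  have c5 := mul_le_mul_of_nonneg_left (neg_le_of_abs_le c4) he.le
  beta_reduce
  nlinarith

theorem Dat.lip (h : Dat a β A Lb M e) :
    LipschitzWith (A * ⟨M, h.M0⟩ + ⟨M, h.M0⟩ * Lb) (fun w : ℂ => a w.re * β w.im) ∧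
    (∀ w : ℂ, |a w.re * β w.im| ≤ M * M + M + 1) ∧
    LipschitzWith Lb (fun w : ℂ => β w.im) ∧ ∀ w : ℂ, |β w.im| ≤ M * M + M + 1 := by
  have hM := h.M0
  have hb : ∀ y, |β y| ≤ M := fun y => (abs_of_nonneg (h.bb y).1).trans_le (h.bb y).2
  have l2 : ∀ w w' : ℂ, |β w.im - β w'.im| ≤ Lb * dist w w' := fun w w' =>
    (h.lb.dist_le_mul w.im w'.im).trans (mul_le_mul_of_nonneg_left (by
      rw [Real.dist_eq, ← sub_im, dist_eq_norm]
      exact abs_im_le_norm _) Lb.2)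
  have l1 : ∀ w w' : ℂ, |a w.re - a w'.re| ≤ A * dist w w' := fun w w' =>
    (h.la.dist_le_mul w.re w'.re).trans (mul_le_mul_of_nonneg_left (by
      rw [Real.dist_eq, ← sub_re, dist_eq_norm]
      exact abs_re_le_norm _) A.2)
  refine ⟨LipschitzWith.of_dist_le_mul fun w w' => ?_, fun w => ?_,
    LipschitzWith.of_dist_le_mul l2, fun w => ?_⟩
  · have e1 : a w.re * β w.im - a w'.re * β w'.im =
        (a w.re - a w'.re) * β w.im + a w'.re * (β w.im - β w'.im) := by ring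
    rw [Real.dist_eq, e1]
    refine (abs_add_le _ _).trans ?_
    rw [abs_mul, abs_mul]
    have k1 := mul_le_mul (l1 w w') (hb w.im) (abs_nonneg _) (by positivity)
    have k2 := mul_le_mul (h.ba w'.re) (l2 w w') (abs_nonneg _) hM
    change _ ≤ (A * M + M * Lb) * dist w w'
    nlinarith
  · rw [abs_mul]
    have := mul_le_mul (h.ba w.re) (hb w.im) (abs_nonneg _) hM
    linarith
  · have := hb w.im
    have := mul_nonneg hM hM
    linarith

variable {K Q : Set ℂ} {u v φ ψ : ℂ → ℝ} {ρ s t : Cmp K → ℝ}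

theorem Dat.adm (h : Dat a β A Lb M e) (L : Lib) (hK : IsCompact K) (h1 : Adm K φ)
    (h2 : Adm K ψ) : Adm K (fun z => a (φ z) * β (ψ z)) ∧ Adm K (fun z => β (ψ z)) :=
  ⟨(L.comp.adm K φ ψ _ _ hK.isClosed h1 h2 h.lip.1).1,
    (L.comp.adm1 K ψ β _ hK.isClosed h2 h.lb).1⟩

/-- The inequality for fixed approximants. -/
theorem Dat.step (h : Dat a β A Lb M e) (L : Lib) (hK : IsCompact K) (hQ : Clo K Q)
    (hs : Star K Q v ρ) (g1 : Good K K φ s) (g2 : Good K K ψ t) {F J : Finset (Cmp K)}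
    {P : Cmp K → Set ℂ} (hFJ : F ⊆ J) (hP : ∀ p ∈ J, Clo K (P p) ∧ P p ⊆ Q)
    (hF : ∀ p ∈ F, p.1 ⊆ P p) (hd : ∀ p ∈ J, ∀ q ∈ J, p ≠ q → Disjoint (P p) (P q))
    (hU : ⋃ p ∈ J, P p = Q) {δ : ℝ} (hδ : ∀ p ∈ J, |om K (P p) (fun z => β (ψ z)) v| ≤ δ) :
    - om K Q φ v + e * om K Q (fun z => a (φ z) * β (ψ z)) v ≤
      sm Q s ρ + e * (2 * M * Lb) * sm (Q \ ⋃ p ∈ F, p.1) t ρ + J.card * (e * M * δ) := by
  classical
  have hM := h.M0
  have he := h.e0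
  have hC : 0 ≤ e * (2 * M * Lb) := by positivity
  obtain ⟨aG, aB⟩ := h.adm L hK g1.1 g2.1
  have hc := hK.isClosed
  choose lo hlo using fun p : Cmp K =>
    L.comp.clu K p.1 φ (s p) (g1.2.1.1 p) (g1.2.2 p (L.cmp.sub K p))
  set t' : Cmp K → ℝ := fun q => if q ∈ F then 0 else t q with ht'
  have q1 : Sq t' := by
    refine ⟨fun q => ?_, L.sm.sqle K _ t g2.2.1.2 fun q => ?_⟩
    · simp only [ht']
      split_ifs
      exacts [le_rfl, g2.2.1.1 q]
    · simp only [ht']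
      split_ifs
      exacts [abs_zero.le.trans (g2.2.1.1 q), (abs_of_nonneg (g2.2.1.1 q)).le]
  have q2 : Summable fun q => (e * (2 * M * Lb) * t' q) ^ 2 := by
    simpa only [mul_pow] using q1.2.mul_left _
  have q3 : Sq (s + fun q => e * (2 * M * Lb) * t' q) :=
    ⟨fun q => add_nonneg (g1.2.1.1 q) (mul_nonneg hC (q1.1 q)),
      (L.sm.sqadd K _ _ g1.2.1.2 q2).1⟩
  have piece : ∀ p ∈ J, - om K (P p) φ v + e * om K (P p) (fun z => a (φ z) * β (ψ z)) v ≤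
      sm (P p) (s + fun q => e * (2 * M * Lb) * t' q) ρ + e * M * δ := fun p hp => by
    have a1 := L.adm.smul K e _ hc aG
    have a2 := L.adm.smul K (e * a (lo p)) _ hc aB
    have a3 := L.adm.sub K _ _ hc g1.1 a1
    have a4 := L.adm.add K _ _ hc a3 a2
    have eq : (φ - fun z => e * (a (φ z) * β (ψ z))) + (fun z => e * a (lo p) * β (ψ z)) =
        fun z => φ z - e * (a (φ z) - a (lo p)) * β (ψ z) := by
      funext z
      simp only [Pi.add_apply, Pi.sub_apply]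
      ring
    have g : Good K (P p) ((φ - fun z => e * (a (φ z) * β (ψ z))) +
        fun z => e * a (lo p) * β (ψ z)) (s + fun q => e * (2 * M * Lb) * t' q) := by
      refine ⟨a4, q3, fun q hq => ?_⟩
      rw [eq]
      simp only [Pi.add_apply, ht']
      split_ifs with hqF
      · have : q = p := by
          by_contra hne
          obtain ⟨z, hz⟩ := L.cmp.ne K q
          exact disjoint_left.1 (hd q (hFJ hqF) p hp hne) (hF q hqF hz) (hq hz)
        rw [this, mul_zero, add_zero]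
        exact h.osc1 ψ (g1.2.1.1 p) (hlo p)
      · exact h.osc2 _ (g1.2.2 q (L.cmp.sub K q)) (g2.2.2 q (L.cmp.sub K q))
    have k := (L.star.mono K Q (P p) v ρ hK hQ (hP p hp).1 (hP p hp).2 hs).2.2 _ _ g
    rw [(L.omB.add K _ _ _ v hK (hP p hp).1 a3 a2 hs.1).1,
      (L.omB.add K _ _ _ v hK (hP p hp).1 g1.1 a1 hs.1).2.1,
      (L.omB.smul K _ e _ v hK (hP p hp).1 aG hs.1).1,
      (L.omB.smul K _ (e * a (lo p)) _ v hK (hP p hp).1 aB hs.1).1] at k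
    have k2 : |a (lo p) * om K (P p) (fun z => β (ψ z)) v| ≤ M * δ := by
      rw [abs_mul]
      exact mul_le_mul (h.ba _) (hδ p hp) (abs_nonneg _) hM
    have k3 := mul_le_mul_of_nonneg_left (le_of_abs_le k2) he.le
    have k4 := neg_le_of_abs_le k
    nlinarith
  have sum := Finset.sum_le_sum piece
  have hP1 : ∀ p ∈ J, Clo K (P p) := fun p hp => (hP p hp).1
  rw [Finset.sum_add_distrib, Finset.sum_add_distrib, Finset.sum_neg_distrib, ← Finset.mul_sum,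
    ← L.omB.biUnion K _ J P _ v hK hP1 hd g1.1 hs.1, ← L.omB.biUnion K _ J P _ v hK hP1 hd aG hs.1,
    ← (L.sm.biUnion K _ J P _ ρ hc hP1 hd q3.2 hs.2.1.2).2, hU, Finset.sum_const, nsmul_eq_mul,
    (L.sm.add K Q _ _ ρ g1.2.1.2 q2 hs.2.1.2).1, L.sm.smul] at sum
  have e2 : sm Q t' ρ = sm (Q \ ⋃ p ∈ F, p.1) t ρ := by
    refine tsum_congr fun q => ?_
    by_cases hqF : q ∈ F
    · have : ¬ q.1 ⊆ Q \ ⋃ p ∈ F, p.1 := fun hq => by
        obtain ⟨z, hz⟩ := L.cmp.ne K q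
        exact (hq hz).2 (mem_biUnion hqF hz)
      simp only [ht', hqF, this, if_true, if_false, zero_mul, ite_self]
    · have : q.1 ⊆ Q \ ⋃ p ∈ F, p.1 ↔ q.1 ⊆ Q := by
        refine ⟨fun hq => hq.trans sdiff_subset, fun hq z hz => ⟨hq hz, fun hz' => ?_⟩⟩
        obtain ⟨p, hp, hzp⟩ := mem_iUnion₂.1 hz'
        exact hqF (L.cmp.eq K q p ⟨z, hz, hzp⟩ ▸ hp)
      simp only [ht', hqF, this, if_false]
  rw [e2] at sum
  exact sum

theorem ev_le {c : ℝ} (h : 0 < c) : ∀ᶠ ε in 𝓝[>] (0 : ℝ), ε ≤ c :=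
  eventually_nhdsWithin_of_eventually_nhds (eventually_le_nhds h)

theorem sm_le (L : Lib) {T : Set ℂ} (hT : T ⊆ K) (hρ : Sq ρ) {δ : ℝ} (hδ : 0 < δ) :
    ∀ᶠ ε in 𝓝[>] (0 : ℝ), ∀ s : Cmp K → ℝ, Sq s → sm K (s - ρ) (s - ρ) ≤ ε →
      sm T s ρ ≤ sm T ρ ρ + δ := by
  have h0 := L.sm.nonneg K T ρ
  filter_upwards [ev_le (c := δ ^ 2 / (sm T ρ ρ + 1)) (by positivity)] with ε hε s hs h
  have q := (L.sm.sqadd K s ρ hs.2 hρ.2).2
  have h1 := (L.sm.add K T s ρ ρ hs.2 hρ.2 hρ.2).2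
  have h2 := L.sm.cs K T _ ρ q hρ.2
  have h3 := ((L.sm.mono2 K T K _ q hT).trans h).trans hε
  have h4 := L.sm.nonneg K T (s - ρ)
  rw [← Real.sqrt_mul h4] at h2
  have h5 : √(sm T (s - ρ) (s - ρ) * sm T ρ ρ) ≤ δ := by
    rw [Real.sqrt_le_iff]
    refine ⟨hδ.le, ?_⟩
    rw [le_div_iff₀ (by positivity)] at h3
    nlinarith
  linarith [le_abs_self (sm T (s - ρ) ρ)]

theorem om_le (L : Lib) (hK : IsCompact K) (hQ : Clo K Q) (hu : Adm K u) (hv : Adm K v) {δ : ℝ}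
    (hδ : 0 < δ) : ∀ᶠ ε in 𝓝[>] (0 : ℝ), ∀ φ s, Apx K K u ρ ε φ s →
      om K Q φ v ≤ om K Q u v + δ := by
  obtain ⟨ε₀, h0, H⟩ := L.omC.near K Q hK hQ
  filter_upwards [ev_le h0, ev_le (c := δ ^ 2) (by positivity),
    (L.adm.small K v hK hv).eventually (eventually_le_nhds one_pos)] with ε h1 h2 h3 φ s h
  have k := H ε (φ - u) v h1 (L.adm.sub K _ _ hK.isClosed h.1.1 hu) hv fun z hz => by
    rw [Pi.sub_apply, h.2.1 z hz, sub_self]
  rw [(L.omB.add K Q φ u v hK hQ h.1.1 hu hv).2.1] at k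
  have k1 : √(en Kᶜ (φ - u)) ≤ δ := Real.sqrt_le_iff.2 ⟨hδ.le, h.2.2.1.trans h2⟩
  have k2 : √(en (thickening ε K \ K) v) ≤ 1 := Real.sqrt_le_one.2 h3
  have k3 := mul_le_mul k1 k2 (Real.sqrt_nonneg _) hδ.le
  linarith [le_abs_self (om K Q φ v - om K Q u v)]

theorem Dat.core (h : Dat a β A Lb M e) (L : Lib) (prod : S_prod) (hK : IsCompact K)
    (hQ : Clo K Q) (hu : Appr K K u ρ) (hv : Appr K K v ρ) (hs : Star K Q v ρ)
    (har : - om K Q u v = sm Q ρ ρ) {d : ℝ} (hd : 0 < d) :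
    om K Q (fun z => a (u z) * β (v z)) v ≤ 2 * M * Lb * d := by
  classical
  have hM := h.M0
  have he := h.e0
  obtain ⟨F₀, -, hF₀⟩ := L.sm.tail K ρ d hu.2.1.2 hd
  obtain ⟨J, P, hFJ, hP, hF, hdj, hU⟩ := L.part K Q (fun _ => univ)
    (F₀.filter fun p => p.1 ⊆ Q) hK hQ (fun _ _ => ⟨isOpen_univ, subset_univ _⟩)
    fun p hp => (Finset.mem_filter.1 hp).2
  set F := F₀.filter fun p => p.1 ⊆ Q
  have hT : sm (Q \ ⋃ p ∈ F, p.1) ρ ρ ≤ d := hF₀ _ fun p hp hq => by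
    obtain ⟨z, hz⟩ := L.cmp.ne K p
    exact (hq hz).2 (mem_biUnion (Finset.mem_filter.2 ⟨hp, hq.trans sdiff_subset⟩) hz)
  obtain ⟨l1, b1, l2, b2⟩ := h.lip
  have a1 : Adm K fun _ => (1 : ℝ) := L.adm.c1 K _ hK.isClosed contDiff_const
  have b0 : ∀ z ∉ K, |(fun _ : ℂ => (1 : ℝ)) z| ≤ M * M + M + 1 := fun z _ => by
    have := mul_nonneg hM hM
    simp only [abs_one]
    linarith
  have main : ∀ δ > 0, e * om K Q (fun z => a (u z) * β (v z)) v ≤
      e * (2 * M * Lb * d) + (e + 2 + e * (2 * M * Lb) + J.card * (e * M)) * δ := fun δ hδ => by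
    obtain ⟨ε₁, h1, H1⟩ := prod K Q u v v _ _ _ _ δ hK hQ hu.1 hv.1 hv.1 a1 b0 l1 b1 hδ
    have ev : ∀ᶠ ε in 𝓝[>] (0 : ℝ), ∀ p ∈ J, ∀ φ s ψ t, Apx K K u ρ ε φ s → Apx K K v ρ ε ψ t →
        |om K (P p) (fun z => β (ψ z)) v| ≤ δ := by
      refine (eventually_all_finset J).2 fun p hp => ?_
      obtain ⟨ε₂, h2, H2⟩ :=
        prod K (P p) u v v _ _ _ _ δ hK (hP p hp).2.1 hu.1 hv.1 hv.1 a1 b0 l2 b2 hδ
      filter_upwards [ev_le h2] with ε hε φ s ψ t x1 x2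
      have k := H2 ε K ρ ρ s t φ ψ hε x1 x2
      simp only [one_mul, pr] at k
      rwa [L.omD.fn K (P p) v β Lb hK (hP p hp).2.1 hv.1 h.cb h.lb, sub_zero] at k
    obtain ⟨ε, ⟨⟨⟨⟨e1, e2⟩, e3⟩, e4⟩, e5⟩, e0⟩ := (((((ev_le h1).and ev).and
      (sm_le L hQ.1 hu.2.1 hδ)).and
      (sm_le L (T := Q \ ⋃ p ∈ F, p.1) (sdiff_subset.trans hQ.1) hu.2.1 hδ)).and
      (om_le (ρ := ρ) L hK hQ hu.1 hv.1 hδ)).and self_mem_nhdsWithin |>.exists
    obtain ⟨φ, s, x1⟩ := hu.2.2 ε e0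
    obtain ⟨ψ, t, x2⟩ := hv.2.2 ε e0
    have k0 := h.step L hK hQ hs x1.1 x2.1 hFJ
      (fun p hp => ⟨(hP p hp).2.1, (hP p hp).2.2.trans inter_subset_left⟩) hF hdj hU
      fun p hp => e2 p hp φ s ψ t x1 x2
    have k1 := H1 ε K ρ ρ s t φ ψ e1 x1 x2
    simp only [one_mul, pr] at k1
    have k1' := mul_le_mul_of_nonneg_left (neg_le_of_abs_le k1) he.le
    have k3 := e3 s x1.1.2.1 x1.2.2.2
    have k4 := mul_le_mul_of_nonneg_left ((e4 t x2.1.2.1 x2.2.2.2).trans (add_le_add_left hT δ))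
      (show 0 ≤ e * (2 * M * Lb) by positivity)
    have k5 := e5 φ s x1
    nlinarith
  refine le_of_mul_le_mul_left (le_of_forall_pos_le_add fun η hη => ?_) he
  have c0 : 0 < e + 2 + e * (2 * M * Lb) + J.card * (e * M) := by positivity
  have := main (η / (e + 2 + e * (2 * M * Lb) + J.card * (e * M))) (by positivity)
  rwa [mul_div_cancel₀ _ c0.ne'] at this

end APos

theorem s_pos (L : Lib) (prod : S_prod) : S_pos := by
  intro K Q u v ρ a b hK hQ hu hv hs har ha hb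
  obtain ⟨A, Lb, M, e, h⟩ := APos.dat ha hb
  refine le_of_forall_pos_le_add fun η hη => ?_
  have hM := h.M0
  have c0 : 0 < 2 * M * Lb + 1 := by positivity
  have k := h.core L prod hK hQ hu hv hs har (d := η / (2 * M * Lb + 1)) (by positivity)
  refine k.trans ?_
  rw [zero_add, mul_div_assoc', div_le_iff₀ c0]
  nlinarith

end Vale.Agent.P116
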