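import Vale.Agent.P116.AStm2

open Set Filter Topology MeasureTheory Metric Complex
open scoped ENNReal NNReal

noncomputable section
namespace Vale.Agent.P116

namespace AProd

theorem gr_mul {a b : ℂ → ℝ} {z : ℂ} (ha : DifferentiableAt ℝ a z) (hb : DifferentiableAt ℝ b z) :
    gr (fun w => a w * b w) z = (a z : ℂ) * gr b z + (b z : ℂ) * gr a z := by
  apply Complex.ext <;> simp [gr, fderiv_fun_mul ha hb]

theorem gr_sq {a b : ℂ → ℝ} {z : ℂ} (ha : DifferentiableAt ℝ a z) (hb : DifferentiableAt ℝ b z) :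
    ‖gr (fun w => a w * b w) z‖ ^ 2 ≤
      2 * (a z ^ 2 * ‖gr b z‖ ^ 2) + 2 * (b z ^ 2 * ‖gr a z‖ ^ 2) := by
  have h1 : ‖gr (fun w => a w * b w) z‖ ≤ |a z| * ‖gr b z‖ + |b z| * ‖gr a z‖ := by
    rw [gr_mul ha hb]
    refine (norm_add_le _ _).trans (le_of_eq ?_)
    rw [norm_mul, norm_mul, norm_real, norm_real, Real.norm_eq_abs, Real.norm_eq_abs]
  have h2 := pow_le_pow_left₀ (norm_nonneg _) h1 2
  rw [← sq_abs (a z), ← sq_abs (b z)]
  nlinarith [sq_nonneg (|a z| * ‖gr b z‖ - |b z| * ‖gr a z‖)]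

theorem en_mul (L : Lib) {K : Set ℂ} {θ D : ℂ → ℝ} {M N ε : ℝ} (hK : IsCompact K) (hθ : Adm K θ)
    (hD : Adm K D) (h1 : ∀ z ∉ K, |θ z| ≤ M) (h2 : ∀ z, |D z| ≤ N)
    (h3 : ∀ z, z ∉ thickening ε K → D z = 0) :
    en Kᶜ (fun z => θ z * D z) ≤ 2 * M ^ 2 * en Kᶜ D + 2 * N ^ 2 * en (thickening ε K \ K) θ := by
  have hU : IsOpen Kᶜ := hK.isClosed.isOpen_compl
  obtain ⟨R, hR⟩ := (hK.isBounded.thickening (δ := ε)).subset_ball (0 : ℂ)
  have i1 : IntegrableOn (fun z => ‖gr D z‖ ^ 2) Kᶜ :=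
    L.adm.glob K D R hK.isClosed hD fun z hz => h3 z fun h => by
      have := mem_ball_zero_iff.1 (hR h)
      linarith
  have hm : MeasurableSet (thickening ε K) := isOpen_thickening.measurableSet
  have i2 : IntegrableOn (fun z => ‖gr θ z‖ ^ 2) (thickening ε K \ K) :=
    (hθ.2 R).mono_set (diff_subset_diff_left hR)
  have i3 : IntegrableOn ((thickening ε K).indicator fun z => ‖gr θ z‖ ^ 2) Kᶜ := by
    rw [IntegrableOn, integrable_indicator_iff hm, IntegrableOn, Measure.restrict_restrict hm]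
    exact i2
  have e3 : ∫ z in Kᶜ, (thickening ε K).indicator (fun z => ‖gr θ z‖ ^ 2) z =
      en (thickening ε K \ K) θ := by
    rw [setIntegral_indicator hm, inter_comm]
    rfl
  have i4 : IntegrableOn (fun z => 2 * M ^ 2 * ‖gr D z‖ ^ 2 +
      2 * N ^ 2 * (thickening ε K).indicator (fun z => ‖gr θ z‖ ^ 2) z) Kᶜ :=
    (i1.const_mul _).add (i3.const_mul _)
  have key : en Kᶜ (fun z => θ z * D z) ≤ ∫ z in Kᶜ, (2 * M ^ 2 * ‖gr D z‖ ^ 2 +
      2 * N ^ 2 * (thickening ε K).indicator (fun z => ‖gr θ z‖ ^ 2) z) := by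
    refine integral_mono_of_nonneg (Eventually.of_forall fun z => sq_nonneg _) i4 ?_
    filter_upwards [ae_restrict_of_ae (L.adm.dif _ θ hU hθ.1),
      ae_restrict_of_ae (L.adm.dif _ D hU hD.1), ae_restrict_mem hU.measurableSet] with z a b hz
    refine (gr_sq (a hz) (b hz)).trans (add_le_add ?_ ?_)
    · have := sq_le_sq' (abs_le.1 (h1 z hz)).1 (abs_le.1 (h1 z hz)).2
      nlinarith [sq_nonneg ‖gr D z‖]
    · by_cases ht : z ∈ thickening ε K
      · rw [indicator_of_mem ht]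
        have := sq_le_sq' (abs_le.1 (h2 z)).1 (abs_le.1 (h2 z)).2
        nlinarith [sq_nonneg ‖gr θ z‖]
      · rw [indicator_of_notMem ht, h3 z ht]
        simp
  rw [integral_add (i1.const_mul _) (i3.const_mul _), integral_const_mul, integral_const_mul,
    e3] at key
  exact key

end AProd

open AProd

theorem s_prod (L : Lib) : S_prod := by
  intro K Q u v w θ Φ Λ M δ hK hQ hu hv hw hθ hθM hΦ hΦM hδ
  have hM : 0 ≤ M := (abs_nonneg _).trans (hΦM 0)
  have hc := hK.isClosed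
  obtain ⟨ε1, hε1, hn⟩ := L.omC.near K Q hK hQ
  set C : ℝ := 2 * M ^ 2 * (12 * (Λ : ℝ) ^ 2 * 4) + 2 * (2 * M) ^ 2 with hC
  have hC0 : 0 ≤ C := by positivity
  have hd : 0 < δ ^ 2 / (C + 1) := by positivity
  have ev := ((L.adm.small K u hK hu).eventually (gt_mem_nhds one_pos)).and
    (((L.adm.small K v hK hv).eventually (gt_mem_nhds one_pos)).and
      (((L.adm.small K θ hK hθ).eventually (gt_mem_nhds one_pos)).and
        ((L.adm.small K w hK hw).eventually (gt_mem_nhds hd))))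
  obtain ⟨ε2, hε2, hs⟩ := mem_nhdsGT_iff_exists_Ioc_subset.1 ev
  refine ⟨min 1 (min ε1 ε2), lt_min one_pos (lt_min hε1 hε2), ?_⟩
  intro ε T ρ σ s t φ ψ hε hφ hψ
  have e1 : ε ≤ 1 := hε.trans (min_le_left _ _)
  have e2 : ε ≤ ε1 := hε.trans ((min_le_right _ _).trans (min_le_left _ _))
  have e3 : ε ≤ ε2 := hε.trans ((min_le_right _ _).trans (min_le_right _ _))
  have a1 := (L.comp.adm K φ ψ Φ Λ hc hφ.1.1 hψ.1.1 hΦ).1
  have a2 := (L.comp.adm K u v Φ Λ hc hu hv hΦ).1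
  set D : ℂ → ℝ := (fun z => Φ (pr φ ψ z)) - fun z => Φ (pr u v z) with hD
  have a3 : Adm K D := L.adm.sub K _ _ hc a1 a2
  have d1 : ∀ z, |D z| ≤ 2 * M := fun z => by
    have := abs_sub (Φ (pr φ ψ z)) (Φ (pr u v z))
    have h1 := hΦM (pr φ ψ z)
    have h2 := hΦM (pr u v z)
    simp only [hD, Pi.sub_apply]
    linarith
  have d0 : ∀ z, z ∉ thickening ε K → D z = 0 := fun z hz => by
    simp only [hD, Pi.sub_apply, pr, hφ.2.1 z hz, hψ.2.1 z hz, sub_self]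
  have b1 := L.adm.mul K θ _ M hc hθ a1 hθM fun z _ => hΦM _
  have b2 := L.adm.mul K θ _ M hc hθ a2 hθM fun z _ => hΦM _
  have b3 := L.adm.mul K θ D (2 * M) hc hθ a3 (fun z hz => (hθM z hz).trans (by linarith))
    fun z _ => d1 z
  have e4 : ((fun z => θ z * Φ (pr φ ψ z)) - fun z => θ z * Φ (pr u v z)) =
      fun z => θ z * D z := by
    funext z
    simp only [hD, Pi.sub_apply]
    ring
  rw [← (L.omB.add K Q _ _ w hK hQ b1 b2 hw).2.1, e4]
  refine (hn ε _ w e2 b3 hw fun z hz => by rw [d0 z hz, mul_zero]).trans ?_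
  rcases le_or_gt ε 0 with h0 | h0
  · rw [thickening_of_nonpos h0, empty_diff]
    simp [en, hδ.le]
  obtain ⟨k1, k2, k3, k4⟩ := hs ⟨h0, e3⟩
  have c1 := L.comp.close K u v φ ψ Φ Λ ε hK hu hv hφ.1.1 hψ.1.1 hΦ hφ.2.1 hψ.2.1
  have c2 : en Kᶜ D ≤ 12 * (Λ : ℝ) ^ 2 * 4 :=
    c1.trans (mul_le_mul_of_nonneg_left (by linarith [hφ.2.2.1, hψ.2.2.1]) (by positivity))
  have c3 : en Kᶜ (fun z => θ z * D z) ≤ C + 1 := by
    refine (en_mul L hK hθ a3 hθM d1 d0).trans ?_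
    have p1 := mul_le_mul_of_nonneg_left c2 (by positivity : 0 ≤ 2 * M ^ 2)
    have p2 := mul_le_mul_of_nonneg_left k3.le (by positivity : 0 ≤ 2 * (2 * M) ^ 2)
    linarith
  calc _ ≤ √(C + 1) * √(δ ^ 2 / (C + 1)) :=
        mul_le_mul (Real.sqrt_le_sqrt c3) (Real.sqrt_le_sqrt k4.le) (Real.sqrt_nonneg _)
          (Real.sqrt_nonneg _)
    _ = δ := by
        rw [← Real.sqrt_mul (by positivity), mul_div_cancel₀ _ (by positivity),
          Real.sqrt_sq hδ.le]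

end Vale.Agent.P116
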