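import Vale.Agent.P116.AStm2

/-! Step A: rotation by a right angle. -/

open Set Filter Topology MeasureTheory Metric Complex
open scoped ENNReal NNReal

noncomputable section
namespace Vale.Agent.P116

theorem s_rot (L : Lib) : S_rot := by
  have e1 : ∀ f : ℂ → ℂ, ru (fun z => I * f z) = fun z => - iv f z := fun f => by
    funext z; simp [ru, iv]
  have e2 : ∀ f : ℂ → ℂ, iv (fun z => I * f z) = ru f := fun f => by
    funext z; simp [ru, iv]
  have pre : ∀ (K : Set ℂ) (z₀ c : ℂ) (f : ℂ → ℂ) (ρ : Cmp K → ℝ), IsCompact K → Pre K z₀ c f ρ →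
      Pre K z₀ (I * c) (fun z => I * f z) ρ := fun K z₀ c f ρ hK h => by
    refine ⟨⟨⟨h.hol.1.const_mul I, ?_⟩, by simp [h.nrm], ?_, e2 f ▸ h.au, fun Q hQ => ?_⟩,
      fun x hx y hy e => h.inj hx hy (mul_left_cancel₀ I_ne_zero e)⟩
    · simpa only [deriv_const_mul_field, ← mul_sub, norm_mul, norm_I, one_mul] using h.hol.2
    · exact e1 f ▸ L.star.aneg K K _ ρ hK h.av
    · have h1 := (L.omB.smul K Q (-1) _ _ hK hQ h.av.1 h.au.1).1
      simp only [neg_one_mul] at h1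
      rw [e1, e2, h1, ← L.omB.anti K Q _ _ hK hQ h.au.1 h.av.1, h.area Q hQ]
  have sol : ∀ (K A : Set ℂ) (z₀ c : ℂ) (f : ℂ → ℂ) (ρ : Cmp K → ℝ), IsCompact K →
      Sol K z₀ c A f ρ → Sol K z₀ (I * c) (K \ A) (fun z => I * f z) ρ :=
    fun K A z₀ c f ρ hK h => ⟨pre K z₀ c f ρ hK h.toPre, L.cmp.clo_compl K A h.clo, e2 f ▸ h.su, by
      rw [e1, Set.sdiff_sdiff_cancel_left h.clo.1]
      exact L.star.neg K A _ ρ hK h.clo h.sv⟩
  refine ⟨fun K z₀ c h => ⟨h.toCtx, h.out, mul_ne_zero I_ne_zero h.ne⟩, pre, sol,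
    fun K A z₀ c f ρ hK h => ?_, fun K f g ρ σ => ?_⟩
  · have h1 := sol _ _ _ _ _ _ hK (sol _ _ _ _ _ _ hK (sol _ _ _ _ _ _ hK h))
    rw [Set.sdiff_sdiff_cancel_left Set.sdiff_subset] at h1
    simpa only [← mul_assoc, I_mul_I, neg_mul, one_mul, neg_neg, mul_neg] using h1
  · have : ∀ z, ‖deriv f z - -I * deriv g z‖ = ‖I * deriv f z - deriv g z‖ := fun z => by
      rw [show I * deriv f z - deriv g z = I * (deriv f z - -I * deriv g z) by
        linear_combination (-deriv g z) * I_mul_I, norm_mul, norm_I, one_mul]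
    simp only [d2, deriv_const_mul_field, this]

end Vale.Agent.P116
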