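import Vale.Agent.P116.AStm2

/-! Step A: switching the type near finitely many components. -/

open Set Filter Topology MeasureTheory Metric Complex
open scoped ENNReal NNReal

noncomputable section
namespace Vale.Agent.P116

theorem s1_clo_biUnion (L : Lib) {K : Set ℂ} (hK : IsClosed K) (F : Finset (Cmp K))
    (Q : Cmp K → Set ℂ) (hQ : ∀ p, Clo K (Q p)) : Clo K (⋃ p ∈ F, Q p) := by
  classical
  induction F using Finset.induction_on with
  | empty => simpa using L.cmp.clo_empty K hK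
  | insert p F hp ih =>
    rw [Finset.set_biUnion_insert]
    exact L.cmp.clo_union K _ _ (hQ p) ih

/-- The shrinking clopen pieces. -/
theorem s1_pieces (L : Lib) (G : Geo) {K A : Set ℂ} {c : ℂ} {f : ℂ → ℂ} (hU : Uni K c f)
    (hA : Clo K A) (F₀ : Finset (Cmp K)) :
    ∃ B : ℕ → Set ℂ, (∀ n, Clo K (B n) ∧ B n ⊆ A ∧ ∀ p ∈ F₀, p.1 ⊆ K \ B n) ∧ Monotone B ∧
      ∀ Q, Clo K Q → Q ⊆ A → (∀ p ∈ F₀, ¬ p.1 ⊆ Q) → ∀ᶠ n in atTop, Q ⊆ B n := by
  have h1 := fun p : Cmp K => (G.imgB.seq K c f p hU).2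
  choose Q hQ hanti hev _ using h1
  have hK : IsClosed K := hU.cpt.isClosed
  refine ⟨fun n => A \ ⋃ p ∈ F₀, Q p n, fun n => ⟨?_, sdiff_subset, ?_⟩, ?_, ?_⟩
  · exact L.cmp.clo_diff K _ _ hA (s1_clo_biUnion L hK F₀ (fun p => Q p n) fun p => (hQ p n).1)
  · intro p hp z hz
    refine ⟨L.cmp.sub K p hz, fun h => h.2 ?_⟩
    exact mem_biUnion (Finset.mem_coe.2 hp) ((hQ p n).2 hz)
  · intro m n hmn z hz
    refine ⟨hz.1, fun h => hz.2 ?_⟩
    obtain ⟨p, hp, hz'⟩ := mem_iUnion₂.1 h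
    exact mem_iUnion₂.2 ⟨p, hp, hanti p hmn hz'⟩
  · intro Q' hQ' hQA hF
    have h2 : ∀ p ∈ F₀, ∀ᶠ n in atTop, Q p n ⊆ Q'ᶜ := by
      intro p hp
      refine hev p _ hQ'.2.1.isOpen_compl ?_
      rcases L.cmp.dich K Q' p hQ' with h | h
      · exact absurd h (hF p hp)
      · exact fun z hz => (h hz).2
    filter_upwards [(eventually_all_finset F₀).2 h2] with n hn z hz
    refine ⟨hQA hz, fun h => ?_⟩
    obtain ⟨p, hp, hz'⟩ := mem_iUnion₂.1 h
    exact hn p hp hz' hz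

theorem s_s1 (L : Lib) (G : Geo) (sol : S_sol) (mono : S_mono) (al : S_al) : S_s1 := by
  classical
  intro K A z₀ c f ρ F r hB hf hr
  have hK : IsCompact K := hB.cpt
  have hU : Uni K c f := ⟨hB.toCtx, hB.ne, hf.hol, hf.inj⟩
  obtain ⟨B, hBn, hBm, hBe⟩ := s1_pieces L G hU hf.clo (F.filter fun p => p.1 ⊆ A)
  have h1 := fun n => sol K (B n) z₀ c hB (hBn n).1
  choose g σ hg using h1
  have hsq : ∀ n, Sq (σ n) := fun n => (hg n).au.2.1
  have hle : ∀ m n, m ≤ n → d2 K (g n) (σ n) (g m) (σ m) ≤ Lam K c (g n) - Lam K c (g m) :=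
    fun m n hmn => mono.mono K _ _ z₀ c _ _ _ _ hB (hg n) (hg m) (hBm hmn)
  have hmon : Monotone fun n => Lam K c (g n) := fun m n hmn => by
    have := hle m n hmn
    have h0 := L.d2.nonneg K (g n) (g m) (σ n) (σ m)
    show Lam K c (g m) ≤ Lam K c (g n)
    linarith
  have hbd : BddAbove (range fun n => Lam K c (g n)) := by
    refine ⟨Lam K c f, ?_⟩
    rintro _ ⟨n, rfl⟩
    have := mono.mono K _ _ z₀ c _ _ _ _ hB hf (hg n) (hBn n).2.1
    have h0 := L.d2.nonneg K f (g n) ρ (σ n)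
    show Lam K c (g n) ≤ Lam K c f
    linarith
  have hcau : CauchySeq fun n => Lam K c (g n) := (tendsto_atTop_ciSup hmon hbd).cauchySeq
  have hC : ∀ ε > 0, ∃ N, ∀ m ≥ N, ∀ n ≥ N, d2 K (g m) (σ m) (g n) (σ n) ≤ ε := by
    intro ε hε
    obtain ⟨N, hN⟩ := Metric.cauchySeq_iff.1 hcau ε hε
    refine ⟨N, fun m hm n hn => ?_⟩
    have h2 := hN m hm n hn
    rw [Real.dist_eq, abs_lt] at h2
    rcases le_total m n with h | h
    · rw [L.d2.symm]
      have := hle m n h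
      linarith [h2.1]
    · have := hle n m h
      linarith [h2.2]
  obtain ⟨g₀, σ₀, hhol, hz, hsq₀, hlim⟩ := L.compl K z₀ c g σ hB.toCtx hB.out
    (fun n => ⟨(hg n).hol, (hg n).nrm, hsq n⟩) hC
  have hpre : Pre K z₀ c g₀ σ₀ :=
    L.lim.pre K z₀ c g σ g₀ σ₀ hB (fun n => (hg n).toPre) hhol hz hsq₀ hlim
  have hKA : Clo K (K \ A) := L.cmp.clo_compl K A hf.clo
  have hsu : Star K (K \ A) (ru g₀) σ₀ := by
    refine (L.lim.star K (K \ A) c g σ g₀ σ₀ hK hKA (fun n => ⟨(hg n).hol, hsq n⟩) hhol hsq₀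
      hlim).1 (Eventually.of_forall fun n => ?_)
    exact L.star.mono K (K \ B n) (K \ A) _ _ hK (L.cmp.clo_compl K _ (hBn n).1) hKA
      (sdiff_subset_sdiff_right (hBn n).2.1) (hg n).su
  have hsv : Star K A (iv g₀) σ₀ := by
    refine (al K A z₀ c g₀ σ₀ (F.filter fun p => p.1 ⊆ A) hB hpre hf.clo).2 ?_
    intro Q hQ hQA hF
    refine (L.lim.star K Q c g σ g₀ σ₀ hK hQ (fun n => ⟨(hg n).hol, hsq n⟩) hhol hsq₀
      hlim).2 ?_
    filter_upwards [hBe Q hQ hQA hF] with n hn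
    exact L.star.mono K (B n) Q _ _ hK (hBn n).1 hQ hn (hg n).sv
  have hsol : Sol K z₀ c A g₀ σ₀ := ⟨hpre, hf.clo, hsv, hsu⟩
  have hzero : d2 K f ρ g₀ σ₀ ≤ 0 := by
    have a1 := mono.mono K _ _ z₀ c _ _ _ _ hB hf hsol Subset.rfl
    have a2 := mono.mono K _ _ z₀ c _ _ _ _ hB hsol hf Subset.rfl
    have a3 := L.d2.nonneg K g₀ f σ₀ ρ
    linarith
  obtain ⟨n, hn⟩ := (hlim.eventually (gt_mem_nhds hr)).exists
  refine ⟨B n, g n, σ n, hg n, (hBn n).2.1, fun p hp => ?_, ?_⟩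
  · rcases L.cmp.dich K A p hf.clo with h | h
    · exact (hBn n).2.2 p (Finset.mem_filter.2 ⟨hp, h⟩)
    · exact h.trans (sdiff_subset_sdiff_right (hBn n).2.1)
  · have h3 := L.d2.tri K c f g₀ (g n) ρ σ₀ (σ n) hK.isClosed hf.hol hhol (hg n).hol
      hf.au.2.1 hsq₀ (hsq n)
    rw [Real.sqrt_eq_zero'.2 hzero, zero_add, L.d2.symm K g₀ (g n) σ₀ (σ n),
      Real.sqrt_le_sqrt_iff (L.d2.nonneg _ _ _ _ _)] at h3
    exact h3.trans hn.le

end Vale.Agent.P116
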