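import Vale.Agent.P116.AStm

/-! Step A: the pairing over components. -/

open Set Filter Topology MeasureTheory Metric Complex
open scoped ENNReal NNReal

noncomputable section
namespace Vale.Agent.P116

namespace ASm

variable {K : Set ℂ}

open Classical in
theorem summ (T : Set ℂ) {s t : Cmp K → ℝ} (hs : Summable fun p => s p ^ 2)
    (ht : Summable fun p => t p ^ 2) :
    Summable fun p : Cmp K => if p.1 ⊆ T then s p * t p else 0 := by
  refine Summable.of_norm_bounded (hs.add ht) fun p => ?_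
  rw [Real.norm_eq_abs, abs_le]
  have h1 := sq_nonneg (s p + t p)
  have h2 := sq_nonneg (s p - t p)
  have h3 := sq_nonneg (s p)
  have h4 := sq_nonneg (t p)
  split_ifs
  · exact ⟨by linarith, by linarith⟩
  · exact ⟨by linarith, by linarith⟩

theorem sqadd {s t : Cmp K → ℝ} (hs : Summable fun p => s p ^ 2)
    (ht : Summable fun p => t p ^ 2) :
    Summable (fun p => (s + t) p ^ 2) ∧ Summable (fun p => (s - t) p ^ 2) := by
  refine ⟨Summable.of_nonneg_of_le (fun _ => sq_nonneg _) (fun p => ?_) ((hs.add ht).mul_left 2),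
    Summable.of_nonneg_of_le (fun _ => sq_nonneg _) (fun p => ?_) ((hs.add ht).mul_left 2)⟩
  · rw [Pi.add_apply]
    linarith [sq_nonneg (s p - t p)]
  · rw [Pi.sub_apply]
    linarith [sq_nonneg (s p + t p)]

theorem nonneg (T : Set ℂ) (s : Cmp K → ℝ) : 0 ≤ sm T s s := by
  refine tsum_nonneg fun p => ?_
  split_ifs
  · exact mul_self_nonneg _
  · exact le_rfl

theorem cs (T : Set ℂ) {s t : Cmp K → ℝ} (hs : Summable fun p => s p ^ 2)
    (ht : Summable fun p => t p ^ 2) : |sm T s t| ≤ √(sm T s s) * √(sm T t t) := by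
  have h : ∀ x : ℝ, 0 ≤ sm T s s * (x * x) + 2 * sm T s t * x + sm T t t := fun x => by
    refine (((((summ T hs hs).hasSum.mul_right (x * x)).add
      (((summ T hs ht).hasSum.mul_left 2).mul_right x)).add (summ T ht ht).hasSum).nonneg
      fun p => ?_)
    split_ifs
    · linarith [sq_nonneg (s p * x + t p)]
    · simp
  have h1 := discrim_le_zero h
  rw [← Real.sqrt_mul (nonneg T s)]
  refine Real.abs_le_sqrt ?_
  unfold discrim at h1
  linarith

theorem union (cmp : S_cmp) {T T' : Set ℂ} {s t : Cmp K → ℝ} (h : Clo K T) (hd : Disjoint T T')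
    (hs : Summable fun p => s p ^ 2) (ht : Summable fun p => t p ^ 2) :
    sm (T ∪ T') s t = sm T s t + sm T' s t := by
  classical
  unfold sm
  rw [← (summ T hs ht).tsum_add (summ T' hs ht)]
  refine tsum_congr fun p => ?_
  obtain ⟨z, hz⟩ := cmp.ne K p
  rcases cmp.dich K T p h with h1 | h1
  · rw [if_pos h1, if_pos (h1.trans subset_union_left),
      if_neg fun h2 => disjoint_left.1 hd (h1 hz) (h2 hz), add_zero]
  · rw [if_neg fun h2 : p.1 ⊆ T => (h1 hz).2 (h2 hz), zero_add]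
    exact if_congr ⟨fun h2 w hw => (h2 hw).resolve_left (h1 hw).2,
      fun h2 => h2.trans subset_union_right⟩ rfl rfl

theorem biUnion (cmp : S_cmp) {ι : Type} (J : Finset ι) {Q : ι → Set ℂ} {s t : Cmp K → ℝ}
    (hK : IsClosed K) (h1 : ∀ i ∈ J, Clo K (Q i))
    (h2 : ∀ i ∈ J, ∀ j ∈ J, i ≠ j → Disjoint (Q i) (Q j)) (hs : Summable fun p => s p ^ 2)
    (ht : Summable fun p => t p ^ 2) :
    Clo K (⋃ i ∈ J, Q i) ∧ sm (⋃ i ∈ J, Q i) s t = ∑ i ∈ J, sm (Q i) s t := by
  classical
  induction J using Finset.induction_on with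
  | empty =>
    have e : ⋃ i ∈ (∅ : Finset ι), Q i = ∅ := by simp
    rw [e, Finset.sum_empty]
    refine ⟨cmp.clo_empty K hK, ?_⟩
    unfold sm
    rw [tsum_congr fun p => if_neg fun h => (cmp.ne K p).ne_empty (subset_empty_iff.1 h),
      tsum_zero]
  | insert a J ha ih =>
    obtain ⟨h3, h4⟩ := ih (fun i hi => h1 i (Finset.mem_insert_of_mem hi))
      fun i hi j hj => h2 i (Finset.mem_insert_of_mem hi) j (Finset.mem_insert_of_mem hj)
    have h5 := h1 a (Finset.mem_insert_self a J)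
    rw [Finset.set_biUnion_insert, Finset.sum_insert ha, ← h4]
    refine ⟨cmp.clo_union K _ _ h5 h3, union cmp h5 ?_ hs ht⟩
    exact disjoint_iUnion₂_right.2 fun i hi => h2 a (Finset.mem_insert_self a J) i
      (Finset.mem_insert_of_mem hi) fun e => ha (e ▸ hi)

theorem tail {s : Cmp K → ℝ} {ε : ℝ} (hs : Summable fun p => s p ^ 2) (hε : 0 < ε) :
    ∃ F : Finset (Cmp K), (∀ p ∉ F, |s p| ≤ ε) ∧
      ∀ T : Set ℂ, (∀ p ∈ F, ¬ p.1 ⊆ T) → sm T s s ≤ ε := by
  obtain ⟨F, hF⟩ := ((tendsto_tsum_compl_atTop_zero fun p => s p ^ 2).eventually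
    (ge_mem_nhds (lt_min hε (sq_pos_of_pos hε)))).exists
  have e : ∑' p : {p // p ∉ F}, s p ^ 2 = ∑' p, {p | p ∉ F}.indicator (fun p => s p ^ 2) p :=
    tsum_subtype {p | p ∉ F} fun p => s p ^ 2
  rw [e] at hF
  have h0 : ∀ p, 0 ≤ {p | p ∉ F}.indicator (fun p => s p ^ 2) p :=
    indicator_nonneg fun _ _ => sq_nonneg _
  refine ⟨F, fun p hp => ?_, fun T hT => ?_⟩
  · have h1 := (hs.indicator {p | p ∉ F}).le_tsum p fun q _ => h0 q
    rw [indicator_of_mem (s := {p | p ∉ F}) hp] at h1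
    exact abs_le_of_sq_le_sq (h1.trans (hF.trans (min_le_right _ _))) hε.le
  · refine le_trans ((summ T hs hs).tsum_le_tsum (fun p => ?_) (hs.indicator _))
      (hF.trans (min_le_left _ _))
    split_ifs with h
    · rw [indicator_of_mem (s := {p | p ∉ F}) fun hp => hT p hp h, pow_two]
    · exact h0 p

end ASm

theorem s_sm (cmp : S_cmp) : S_sm where
  summ := fun _ T _ _ => ASm.summ T
  comm := fun _ _ _ _ => tsum_congr fun _ => by rw [mul_comm]
  add := fun _ T s s' t h1 h2 h3 => by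
    unfold sm
    rw [← (ASm.summ T h1 h3).tsum_add (ASm.summ T h2 h3),
      ← (ASm.summ T h1 h3).tsum_sub (ASm.summ T h2 h3)]
    refine ⟨tsum_congr fun p => ?_, tsum_congr fun p => ?_⟩ <;> split_ifs <;>
      simp [add_mul, sub_mul]
  smul := fun _ T a s t => by
    unfold sm
    rw [← tsum_mul_left]
    refine tsum_congr fun p => ?_
    split_ifs <;> simp [mul_assoc]
  sqadd := fun _ _ _ => ASm.sqadd
  sqle := fun _ _ _ ht h => Summable.of_nonneg_of_le (fun _ => sq_nonneg _)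
    (fun p => sq_le_sq' (abs_le.1 (h p)).1 (abs_le.1 (h p)).2) ht
  nonneg := fun _ => ASm.nonneg
  cs := fun _ T _ _ => ASm.cs T
  mono := fun _ T T' s t s' t' h1 h2 h3 h4 hT h => by
    refine (ASm.summ T h1.2 h2.2).tsum_le_tsum (fun p => ?_) (ASm.summ T' h3.2 h4.2)
    split_ifs with c1 c2
    · exact h p c1
    · exact absurd (c1.trans hT) c2
    · exact mul_nonneg (h3.1 p) (h4.1 p)
    · exact le_rfl
  mono2 := fun _ T T' s h hT => by
    refine (ASm.summ T h h).tsum_le_tsum (fun p => ?_) (ASm.summ T' h h)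
    split_ifs with c1 c2
    · exact le_rfl
    · exact absurd (c1.trans hT) c2
    · exact mul_self_nonneg _
    · exact le_rfl
  union := fun _ _ _ _ _ h _ => ASm.union cmp h
  biUnion := fun _ _ J _ _ _ => ASm.biUnion cmp J
  single := fun _ T s p h hp => by
    have h1 := (ASm.summ T h h).le_tsum p fun q _ => by
      split_ifs
      · exact mul_self_nonneg _
      · exact le_rfl
    rwa [if_pos hp, ← pow_two] at h1
  tail := fun _ _ _ => ASm.tail
  punct := fun K s p ε hK hs hε => by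
    classical
    obtain ⟨F, -, hF⟩ := ASm.tail hs hε
    refine ⟨(⋃ q ∈ F.erase p, q.1)ᶜ, (isClosed_biUnion_finset fun q _ =>
      (cmp.cpt K q hK).isClosed).isOpen_compl, fun z hz hz' => ?_,
      fun T hT hp => hF T fun q hq hqT => ?_⟩
    · obtain ⟨q, hq, hzq⟩ := mem_iUnion₂.1 hz'
      exact Finset.ne_of_mem_erase hq (cmp.eq K q p ⟨z, hzq, hz⟩)
    · obtain ⟨z, hz⟩ := cmp.ne K q
      exact hT (hqT hz) (mem_iUnion₂.2
        ⟨q, Finset.mem_erase.2 ⟨fun e => hp (e ▸ hqT), hq⟩, hz⟩)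
  atom := fun K T s t p hs ht hp => by
    classical
    unfold sm
    rw [(ASm.summ T hs ht).tsum_eq_add_tsum_ite p, if_pos hp]
    refine congrArg _ (tsum_congr fun q => ?_)
    by_cases e : q = p
    · obtain ⟨z, hz⟩ := cmp.ne K q
      rw [if_pos e, if_neg fun h : q.1 ⊆ T \ p.1 => (h hz).2 (e ▸ hz)]
    · rw [if_neg e]
      exact if_congr ⟨fun h z hz => ⟨h hz, fun hz' => e (cmp.eq K q p ⟨z, hz, hz'⟩)⟩,
        fun h => h.trans diff_subset⟩ rfl rfl

end Vale.Agent.P116
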