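import Vale.Agent.P116.AStm2

/-! A smooth step across a continuum in a vertical strip. -/

open Set Filter Topology MeasureTheory Metric Complex
open scoped ENNReal NNReal

noncomputable section
namespace Vale.Agent.P116

namespace AStep

/-- Fubini and the fundamental theorem of calculus along vertical lines. -/
theorem fub {Φ : ℂ → ℝ} {k : ℝ → ℝ} {R : ℝ} (hΦ : ContDiff ℝ 1 Φ)
    (h0 : ∀ w : ℂ, R ≤ ‖w‖ → fderiv ℝ Φ w I = 0)
    (h1 : ∀ w : ℂ, R ≤ w.im → Φ w = k w.re) (h2 : ∀ w : ℂ, w.im ≤ -R → Φ w = 0) :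
    ∫ w, fderiv ℝ Φ w I = ∫ x, k x := by
  have hc : Continuous fun w => fderiv ℝ Φ w I :=
    (hΦ.continuous_fderiv one_ne_zero).clm_apply continuous_const
  have hi : Integrable fun w => fderiv ℝ Φ w I :=
    hc.integrable_of_hasCompactSupport (HasCompactSupport.intro (isCompact_closedBall (0 : ℂ) R)
      fun w hw => h0 w (by rw [mem_closedBall_zero_iff] at hw; exact (not_le.1 hw).le))
  have hp := volume_preserving_equiv_real_prod.symm
  rw [← hp.integral_comp', Measure.volume_eq_prod,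
    integral_prod (fun p => fderiv ℝ Φ (measurableEquivRealProd.symm p) I)
      (hp.integrable_comp_of_integrable hi)]
  refine integral_congr_ae (Eventually.of_forall fun x => ?_)
  have e : ∀ y : ℝ, measurableEquivRealProd.symm (x, y) = x + y * I := fun y => by
    apply Complex.ext <;> simp
  simp only [e]
  have hd : ∀ y : ℝ, HasDerivAt (fun y : ℝ => Φ (x + y * I)) (fderiv ℝ Φ (x + y * I) I) y := by
    intro y
    have a1 : HasDerivAt (fun y : ℝ => (x : ℂ) + y * I) I y := by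
      simpa using ((hasDerivAt_id y).ofReal_comp.mul_const I).const_add (x : ℂ)
    exact (hΦ.differentiable one_ne_zero _).hasFDerivAt.comp_hasDerivAt y a1
  have hi2 : Integrable fun y : ℝ => fderiv ℝ Φ (x + y * I) I := by
    refine (hc.comp (by fun_prop : Continuous fun y : ℝ => (x : ℂ) + y * I)
      ).integrable_of_hasCompactSupport (HasCompactSupport.intro (isCompact_closedBall (0 : ℝ) R)
        fun y hy => h0 _ ?_)
    rw [mem_closedBall_zero_iff, Real.norm_eq_abs] at hy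
    refine (not_le.1 hy).le.trans (le_of_eq_of_le ?_ (abs_im_le_norm _))
    simp
  rw [integral_of_hasDerivAt_of_tendsto hd hi2 (m := 0) (n := k x), sub_zero]
  · refine tendsto_const_nhds.congr' ?_
    filter_upwards [eventually_le_atBot (-R)] with y hy
    rw [h2 _ (by simpa using hy)]
  · refine tendsto_const_nhds.congr' ?_
    filter_upwards [eventually_ge_atTop R] with y hy
    rw [h1 _ (by simpa using hy)]
    simp

/-- The points above `Z`. -/
def up (P Z : Set ℂ) : Set ℂ := {w | ∃ y, JoinedIn P w y ∧ ∀ z ∈ Z, z.im < y.im}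

theorem up_loc {P : Set ℂ} (Z : Set ℂ) (hP : IsOpen P) {w : ℂ} (hw : w ∈ P) :
    ∀ᶠ w' in 𝓝 w, (w' ∈ up P Z ↔ w ∈ up P Z) := by
  obtain ⟨ε, hε, h⟩ := Metric.isOpen_iff.1 hP w hw
  filter_upwards [ball_mem_nhds w hε] with w' hw'
  have := (((convex_ball w ε).isPathConnected ⟨w, mem_ball_self hε⟩).joinedIn w (mem_ball_self hε)
    w' hw').mono h
  exact ⟨fun ⟨y, a, b⟩ => ⟨y, this.trans a, b⟩, fun ⟨y, a, b⟩ => ⟨y, this.symm.trans a, b⟩⟩

end AStep

theorem s_step (L : Lib) : S_step := by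
  classical
  intro Z O x₁ x₂ δ hZ hc hl hr hO hZO hδ
  rcases le_or_gt (x₂ - x₁ - δ) 0 with hx | hx
  · exact ⟨fun _ => 0, 0, ∅, isCompact_empty, empty_subset _,
      ⟨contDiff_const, fun _ => ⟨le_rfl, zero_le_one⟩, LipschitzWith.const _, fun _ _ => by simp⟩,
      fun _ h => absurd rfl h, by simpa using hx⟩
  let k : ContDiffBump ((x₁ + x₂) / 2) :=
    ⟨(x₂ - x₁ - δ) / 2, (x₂ - x₁) / 2 - δ / 4, by linarith, by linarith⟩
  have hk : ∀ x ∈ tsupport k, x₁ < x ∧ x < x₂ := by
    intro x hx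
    rw [k.tsupport_eq, mem_closedBall, Real.dist_eq, abs_le] at hx
    obtain ⟨a1, a2⟩ : -((x₂ - x₁) / 2 - δ / 4) ≤ x - (x₁ + x₂) / 2 ∧
      x - (x₁ + x₂) / 2 ≤ (x₂ - x₁) / 2 - δ / 4 := hx
    constructor <;> linarith
  obtain ⟨η, ⟨e1, e2, e3, e4, -⟩, e5⟩ := L.cut Z Z O hZ (L.cmp.clo_self Z hZ.isClosed) hO hZO
  set P : Set ℂ := {w : ℂ | x₁ < w.re ∧ w.re < x₂} \ Z with hP
  have hPo : IsOpen P := ((isOpen_lt continuous_const continuous_re).inter
    (isOpen_lt continuous_re continuous_const)).sdiff hZ.isClosed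
  set g : ℂ → ℝ := fun w => k w.re - k w.re * η w with hg
  set Φ : ℂ → ℝ := fun w => if w ∈ AStep.up P Z then g w else 0 with hΦ
  have k1 : ContDiff ℝ 1 fun w : ℂ => k w.re := k.contDiff.comp reCLM.contDiff
  have k2 : ContDiff ℝ 1 fun w : ℂ => k w.re * η w := k1.mul (e1.of_le one_le_two)
  have g1 : ContDiff ℝ 1 g := k1.sub k2
  obtain ⟨L1, l1⟩ := (k.contDiff (n := 1)).lipschitzWith_of_hasCompactSupport k.hasCompactSupport
    one_ne_zero
  obtain ⟨L2, l2⟩ := k2.lipschitzWith_of_hasCompactSupport e2.mul_left one_ne_zero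
  have g2 : LipschitzWith (L1 * ‖reCLM‖₊ + L2) g := (l1.comp reCLM.lipschitz).sub l2
  have g3 : ∀ w, g w = k w.re * (1 - η w) := fun w => by simp only [hg]; ring
  have z0 : ∀ w, g w = 0 → Φ w = 0 := fun w h => by simp only [hΦ, h, ite_self]
  have loc : ∀ w, Φ =ᶠ[𝓝 w] g ∨ Φ =ᶠ[𝓝 w] fun _ => 0 := by
    intro w
    by_cases h1 : w ∈ Z
    · refine Or.inr ((e4.filter_mono (nhds_le_nhdsSet h1)).mono fun w' h => z0 w' ?_)
      rw [g3, h, sub_self, mul_zero]
    by_cases h2 : w.re ∈ tsupport k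
    · have h3 := AStep.up_loc Z hPo (⟨hk _ h2, h1⟩ : w ∈ P)
      by_cases h4 : w ∈ AStep.up P Z
      · exact Or.inl (h3.mono fun w' h => if_pos (h.2 h4))
      · exact Or.inr (h3.mono fun w' h => if_neg fun h' => h4 (h.1 h'))
    · refine Or.inr ((continuous_re.continuousAt.eventually
        (notMem_tsupport_iff_eventuallyEq.1 h2)).mono fun w' h => z0 w' ?_)
      rw [g3, h, Pi.zero_apply, zero_mul]
  have fd : ∀ w, fderiv ℝ Φ w = fderiv ℝ g w ∨ fderiv ℝ Φ w = 0 := fun w =>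
    (loc w).imp (fun h => h.fderiv_eq) fun h => by rw [h.fderiv_eq, fderiv_fun_const]; rfl
  have c1 : ContDiff ℝ 1 Φ := contDiff_iff_contDiffAt.2 fun w =>
    (loc w).elim (fun h => g1.contDiffAt.congr_of_eventuallyEq h)
      fun h => contDiffAt_const.congr_of_eventuallyEq h
  have ver : ∀ w ∈ (tsupport η)ᶜ, fderiv ℝ Φ w I = 0 := by
    intro w hw
    rcases fd w with h | h
    · have a1 : g =ᶠ[𝓝 w] fun w => k w.re :=
        (notMem_tsupport_iff_eventuallyEq.1 hw).mono fun w' h => by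
          rw [g3, h, Pi.zero_apply, sub_zero, mul_one]
      have a2 : HasFDerivAt (fun w : ℂ => k w.re) ((fderiv ℝ k w.re).comp reCLM) w :=
        ((k.contDiff (n := 1)).differentiable one_ne_zero _).hasFDerivAt.comp w reCLM.hasFDerivAt
      rw [h, a1.fderiv_eq, a2.fderiv]
      simp
    · rw [h]
      rfl
  obtain ⟨R, hR⟩ := (hZ.union e2.isCompact).isBounded.subset_ball (0 : ℂ)
  have hZR : ∀ z ∈ Z, |z.im| < R := fun z hz =>
    (abs_im_le_norm z).trans_lt (mem_ball_zero_iff.1 (hR (Or.inl hz)))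
  have hout : ∀ w : ℂ, R ≤ ‖w‖ → w ∉ tsupport η := fun w h h' =>
    (mem_ball_zero_iff.1 (hR (Or.inr h'))).not_ge h
  refine ⟨Φ, L1 * ‖reCLM‖₊ + L2, tsupport η, e2.isCompact, e5, ⟨c1, fun w => ?_, ?_, ver⟩,
    fun w hw => hk _ (subset_tsupport _ fun h => hw (z0 w (by rw [g3, h, zero_mul]))), ?_⟩
  · simp only [hΦ]
    split_ifs
    · rw [g3]
      exact ⟨mul_nonneg k.nonneg (by linarith [(e3 w).2]),
        mul_le_one₀ k.le_one (by linarith [(e3 w).2]) (by linarith [(e3 w).1])⟩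
    · exact ⟨le_rfl, zero_le_one⟩
  · refine lipschitzWith_of_nnnorm_fderiv_le (c1.differentiable one_ne_zero) fun w => ?_
    rcases fd w with h | h
    · rw [h]
      exact norm_fderiv_le_of_lipschitz ℝ g2
    · rw [h, nnnorm_zero]
      exact zero_le
  · rw [AStep.fub (k := k) (R := R) c1 (fun w h => ver w (hout w h)) (fun w h => ?_) fun w h => ?_]
    · refine le_of_eq_of_le ?_ (k.measure_closedBall_le_integral volume)
      rw [Real.volume_real_closedBall k.rIn_pos.le]
      show _ = 2 * ((x₂ - x₁ - δ) / 2)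
      ring
    · have a1 : ∀ z ∈ Z, z.im < w.im := fun z hz => by linarith [(abs_lt.1 (hZR z hz)).2]
      by_cases h2 : w.re ∈ tsupport k
      · have a2 : w ∈ AStep.up P Z :=
          ⟨w, JoinedIn.refl ⟨hk _ h2, fun h' => lt_irrefl _ (a1 w h')⟩, a1⟩
        simp only [hΦ, if_pos a2]
        rw [g3, image_eq_zero_of_notMem_tsupport
          (hout w (h.trans ((le_abs_self _).trans (abs_im_le_norm w)))), sub_zero, mul_one]
      · rw [z0 w (by rw [g3, image_eq_zero_of_notMem_tsupport h2, zero_mul]),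
          image_eq_zero_of_notMem_tsupport h2]
    · refine if_neg fun ⟨y, a1, a2⟩ => ?_
      obtain ⟨z, a3, a4⟩ := L.cross Z P x₁ x₂ y w hZ hc hl hr (fun _ h => h.1) a1.symm a2
        fun z hz => by linarith [(abs_lt.1 (hZR z hz)).1]
      exact a3.2 a4

end Vale.Agent.P116
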