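import Vale.Agent.P116.ADefs

/-! Step A (square domains): statements, library and isotropy. -/

open Set Filter Topology MeasureTheory Metric Complex
open scoped ENNReal NNReal

noncomputable section
namespace Vale.Agent.P116

/-! ### Topology -/

/-- Basic facts on components and clopen pieces. -/
structure S_cmp : Prop where
  sub : ∀ (K : Set ℂ) (p : Cmp K), p.1 ⊆ K
  ne : ∀ (K : Set ℂ) (p : Cmp K), p.1.Nonempty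
  con : ∀ (K : Set ℂ) (p : Cmp K), IsPreconnected p.1
  cpt : ∀ (K : Set ℂ) (p : Cmp K), IsCompact K → IsCompact p.1
  mem : ∀ (K : Set ℂ) (z : ℂ), z ∈ K → ∃ p : Cmp K, z ∈ p.1
  eq : ∀ (K : Set ℂ) (p q : Cmp K), (p.1 ∩ q.1).Nonempty → p = q
  max : ∀ (K : Set ℂ) (p : Cmp K) (A : Set ℂ), IsPreconnected A → A ⊆ K → (A ∩ p.1).Nonempty →
    A ⊆ p.1
  dich : ∀ (K Q : Set ℂ) (p : Cmp K), Clo K Q → p.1 ⊆ Q ∨ p.1 ⊆ K \ Q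
  clo_self : ∀ K : Set ℂ, IsClosed K → Clo K K
  clo_empty : ∀ K : Set ℂ, IsClosed K → Clo K ∅
  clo_compl : ∀ K Q : Set ℂ, Clo K Q → Clo K (K \ Q)
  clo_union : ∀ K Q Q' : Set ℂ, Clo K Q → Clo K Q' → Clo K (Q ∪ Q')
  clo_inter : ∀ K Q Q' : Set ℂ, Clo K Q → Clo K Q' → Clo K (Q ∩ Q')
  clo_diff : ∀ K Q Q' : Set ℂ, Clo K Q → Clo K Q' → Clo K (Q \ Q')
  clo_open : ∀ K W : Set ℂ, IsClosed K → IsOpen W → Disjoint (frontier W) K → Clo K (K ∩ W)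
  nbhd : ∀ (K : Set ℂ) (p : Cmp K) (U : Set ℂ), IsCompact K → IsOpen U → p.1 ⊆ U →
    ∃ Q, Clo K Q ∧ p.1 ⊆ Q ∧ Q ⊆ U
  sep : ∀ (K : Set ℂ) (F : Finset (Cmp K)) (U : Cmp K → Set ℂ), IsCompact K →
    (∀ p ∈ F, IsOpen (U p) ∧ p.1 ⊆ U p) → ∃ V : Cmp K → Set ℂ,
      (∀ p ∈ F, IsOpen (V p) ∧ p.1 ⊆ V p ∧ V p ⊆ U p) ∧
      ∀ p ∈ F, ∀ q ∈ F, p ≠ q → Disjoint (V p) (V q)
  acc : ∀ (K : Set ℂ) (p : Cmp K) (U : Set ℂ), IsCompact K → IsOpen U → p.1 ⊆ U →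
    (U \ K).Nonempty

/-- Finite clopen partitions subordinate to neighbourhoods of the components. -/
def S_part : Prop :=
  ∀ (K T : Set ℂ) (U : Cmp K → Set ℂ) (F : Finset (Cmp K)), IsCompact K → Clo K T →
    (∀ p : Cmp K, p.1 ⊆ T → IsOpen (U p) ∧ p.1 ⊆ U p) → (∀ p ∈ F, p.1 ⊆ T) →
    ∃ (J : Finset (Cmp K)) (Q : Cmp K → Set ℂ), F ⊆ J ∧
      (∀ p ∈ J, p.1 ⊆ T ∧ Clo K (Q p) ∧ Q p ⊆ T ∩ U p) ∧ (∀ p ∈ F, p.1 ⊆ Q p) ∧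
      (∀ p ∈ J, ∀ q ∈ J, p ≠ q → Disjoint (Q p) (Q q)) ∧ ⋃ p ∈ J, Q p = T

/-- Filled cells. -/
def S_fill : Prop :=
  ∀ (K T : Set ℂ) (ε : ℝ), Ctx K → Clo K T → 0 < ε →
    ∃ 𝒲 : Finset (Set ℂ), (∀ W ∈ 𝒲, IsOpen W ∧ Bornology.IsBounded W ∧ IsConnected W ∧
        IsPreconnected Wᶜ ∧ Disjoint (frontier W) K ∧ W ∩ K ⊆ T ∧ W ⊆ thickening ε K) ∧
      (∀ W ∈ 𝒲, ∀ W' ∈ 𝒲, W ≠ W' → Disjoint W W') ∧ T ⊆ ⋃ W ∈ 𝒲, W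

/-- Unicoherence of the plane. -/
def S_unic : Prop :=
  ∀ W : Set ℂ, IsOpen W → IsPreconnected W → IsPreconnected Wᶜ → IsPreconnected (frontier W)

/-- Small cells with connected frontier. -/
def S_cell : Prop :=
  ∀ (K : Set ℂ) (p : Cmp K) (U : Set ℂ), Ctx K → IsOpen U → p.1 ⊆ U →
    ∃ W, IsOpen W ∧ p.1 ⊆ W ∧ closure W ⊆ U ∧ IsCompact (closure W) ∧
      Disjoint (frontier W) K ∧ IsPreconnected (frontier W)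

/-- The crossing lemma for continua in a vertical strip. -/
def S_cross : Prop :=
  ∀ (Z P : Set ℂ) (a b : ℝ) (x y : ℂ), IsCompact Z → IsPreconnected Z → (∃ z ∈ Z, z.re ≤ a) →
    (∃ z ∈ Z, b ≤ z.re) → (∀ w ∈ P, a < w.re ∧ w.re < b) → JoinedIn P x y →
    (∀ z ∈ Z, z.im < x.im) → (∀ z ∈ Z, y.im < z.im) → (P ∩ Z).Nonempty

/-! ### Calculus -/

/-- Cutoffs exist. -/
def S_cut : Prop :=
  ∀ K Q U : Set ℂ, IsCompact K → Clo K Q → IsOpen U → Q ⊆ U →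
    ∃ χ, Cut K Q χ ∧ tsupport χ ⊆ U

/-- Stokes for Lipschitz functions. -/
def S_stokes : Prop :=
  ∀ (U : Set ℂ) (a b : ℂ → ℝ), IsOpen U → LocallyLipschitzOn U a → LocallyLipschitzOn U b →
    HasCompactSupport a → tsupport a ⊆ U → IntegrableOn (wd a b) U ∧ ∫ z in U, wd a b z = 0

/-- Gradients, energies and admissible functions. -/
structure S_adm : Prop where
  dif : ∀ (U : Set ℂ) (θ : ℂ → ℝ), IsOpen U → LocallyLipschitzOn U θ →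
    ∀ᵐ z, z ∈ U → DifferentiableAt ℝ θ z
  zero : ∀ (U : Set ℂ) (θ : ℂ → ℝ), IsOpen U → LocallyLipschitzOn U θ →
    ∀ᵐ z, z ∈ U → θ z = 0 → gr θ z = 0
  meas : ∀ θ : ℂ → ℝ, Measurable (gr θ)
  wmeas : ∀ a b : ℂ → ℝ, Measurable (wd a b)
  wle : ∀ (a b : ℂ → ℝ) (z : ℂ), |wd a b z| ≤ ‖gr a z‖ * ‖gr b z‖
  nrm : ∀ (θ : ℂ → ℝ) (z : ℂ), ‖gr θ z‖ = ‖fderiv ℝ θ z‖
  cs : ∀ (S : Set ℂ) (a b : ℂ → ℝ), IntegrableOn (fun z => ‖gr a z‖ ^ 2) S →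
    IntegrableOn (fun z => ‖gr b z‖ ^ 2) S →
    IntegrableOn (wd a b) S ∧ ∫ z in S, |wd a b z| ≤ √(en S a) * √(en S b)
  c1 : ∀ (K : Set ℂ) (θ : ℂ → ℝ), IsClosed K → ContDiff ℝ 1 θ → Adm K θ
  add : ∀ (K : Set ℂ) (a b : ℂ → ℝ), IsClosed K → Adm K a → Adm K b → Adm K (a + b)
  smul : ∀ (K : Set ℂ) (t : ℝ) (a : ℂ → ℝ), IsClosed K → Adm K a → Adm K (fun z => t * a z)
  sub : ∀ (K : Set ℂ) (a b : ℂ → ℝ), IsClosed K → Adm K a → Adm K b → Adm K (a - b)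
  cut : ∀ (K Q : Set ℂ) (χ a : ℂ → ℝ), IsCompact K → Clo K Q → Cut K Q χ → Adm K a →
    Adm K (fun z => χ z * a z)
  mul : ∀ (K : Set ℂ) (a b : ℂ → ℝ) (M : ℝ), IsClosed K → Adm K a → Adm K b →
    (∀ z ∉ K, |a z| ≤ M) → (∀ z ∉ K, |b z| ≤ M) → Adm K (fun z => a z * b z)
  glob : ∀ (K : Set ℂ) (a : ℂ → ℝ) (R : ℝ), IsClosed K → Adm K a → (∀ z, R ≤ ‖z‖ → a z = 0) →
    IntegrableOn (fun z => ‖gr a z‖ ^ 2) Kᶜ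
  tri : ∀ (U S : Set ℂ) (a b : ℂ → ℝ), IsOpen U → S ⊆ U → MeasurableSet S →
    LocallyLipschitzOn U a → LocallyLipschitzOn U b →
    IntegrableOn (fun z => ‖gr a z‖ ^ 2) S → IntegrableOn (fun z => ‖gr b z‖ ^ 2) S →
    (IntegrableOn (fun z => ‖gr (a + b) z‖ ^ 2) S ∧ √(en S (a + b)) ≤ √(en S a) + √(en S b)) ∧
    (IntegrableOn (fun z => ‖gr (a - b) z‖ ^ 2) S ∧ √(en S (a - b)) ≤ √(en S a) + √(en S b))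
  small : ∀ (K : Set ℂ) (a : ℂ → ℝ), IsCompact K → Adm K a →
    Tendsto (fun ε => en (thickening ε K \ K) a) (𝓝[>] 0) (𝓝 0)

/-- Compositions with Lipschitz functions, oscillation calculus. -/
structure S_comp : Prop where
  adm : ∀ (K : Set ℂ) (a b Φ : ℂ → ℝ) (L : ℝ≥0), IsClosed K → Adm K a → Adm K b →
    LipschitzWith L Φ → Adm K (fun z => Φ (pr a b z)) ∧
      ∀ᵐ z, z ∉ K → ‖gr (fun z => Φ (pr a b z)) z‖ ^ 2 ≤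
        2 * L ^ 2 * (‖gr a z‖ ^ 2 + ‖gr b z‖ ^ 2)
  adm1 : ∀ (K : Set ℂ) (a : ℂ → ℝ) (h : ℝ → ℝ) (L : ℝ≥0), IsClosed K → Adm K a →
    LipschitzWith L h → Adm K (fun z => h (a z)) ∧
      ∀ᵐ z, z ∉ K → ‖gr (fun z => h (a z)) z‖ ≤ L * ‖gr a z‖
  osc : ∀ (K p : Set ℂ) (a b Φ : ℂ → ℝ) (L : ℝ≥0) (s t : ℝ), Osc K p a s → Osc K p b t →
    LipschitzWith L Φ → Osc K p (fun z => Φ (pr a b z)) (L * (s + t))
  osc1 : ∀ (K p : Set ℂ) (a : ℂ → ℝ) (h : ℝ → ℝ) (L : ℝ≥0) (s : ℝ), Osc K p a s →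
    LipschitzWith L h → Osc K p (fun z => h (a z)) (L * s)
  oadd : ∀ (K p : Set ℂ) (a b : ℂ → ℝ) (s t : ℝ), Osc K p a s → Osc K p b t →
    Osc K p (a + b) (s + t) ∧ Osc K p (a - b) (s + t)
  omul : ∀ (K p U : Set ℂ) (a b : ℂ → ℝ) (s t M N : ℝ), IsOpen U → p ⊆ U → 0 ≤ M → 0 ≤ N →
    Osc K p a s → Osc K p b t → (∀ z ∈ U \ K, |a z| ≤ M) → (∀ z ∈ U \ K, |b z| ≤ N) →
    Osc K p (fun z => a z * b z) (N * s + M * t)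
  clu : ∀ (K p : Set ℂ) (a : ℂ → ℝ) (s : ℝ), 0 ≤ s → Osc K p a s → ∃ lo, Clu K p a lo s
  cluo : ∀ (K p : Set ℂ) (a : ℂ → ℝ) (h : ℝ → ℝ) (lo s : ℝ), 0 ≤ s → Clu K p a lo s →
    Continuous h → Monotone h → Osc K p (fun z => h (a z)) (h (lo + s) - h lo)
  bdd : ∀ (K T : Set ℂ) (θ : ℂ → ℝ) (s : Cmp K → ℝ), IsCompact K → Clo K T → Good K T θ s →
    ∃ U M, IsOpen U ∧ T ⊆ U ∧ ∀ z ∈ U \ K, |θ z| ≤ M
  close : ∀ (K : Set ℂ) (a b a' b' Φ : ℂ → ℝ) (L : ℝ≥0) (ε : ℝ), IsCompact K → Adm K a →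
    Adm K b → Adm K a' → Adm K b' → LipschitzWith L Φ →
    (∀ z, z ∉ thickening ε K → a' z = a z) → (∀ z, z ∉ thickening ε K → b' z = b z) →
    en Kᶜ ((fun z => Φ (pr a' b' z)) - fun z => Φ (pr a b z)) ≤
      12 * L ^ 2 * (en Kᶜ (a' - a) + en Kᶜ (b' - b) + en (thickening ε K \ K) a +
        en (thickening ε K \ K) b)

/-- Sums over components. -/
structure S_sm : Prop where
  summ : ∀ (K T : Set ℂ) (s t : Cmp K → ℝ), Summable (fun p => s p ^ 2) →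
    Summable (fun p => t p ^ 2) →
    Summable fun p : Cmp K => (open Classical in if p.1 ⊆ T then s p * t p else 0)
  comm : ∀ (K T : Set ℂ) (s t : Cmp K → ℝ), sm T s t = sm T t s
  add : ∀ (K T : Set ℂ) (s s' t : Cmp K → ℝ), Summable (fun p => s p ^ 2) →
    Summable (fun p => s' p ^ 2) → Summable (fun p => t p ^ 2) →
    sm T (s + s') t = sm T s t + sm T s' t ∧ sm T (s - s') t = sm T s t - sm T s' t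
  smul : ∀ (K T : Set ℂ) (a : ℝ) (s t : Cmp K → ℝ), sm T (fun p => a * s p) t = a * sm T s t
  sqadd : ∀ (K : Set ℂ) (s t : Cmp K → ℝ), Summable (fun p => s p ^ 2) →
    Summable (fun p => t p ^ 2) →
    Summable (fun p => (s + t) p ^ 2) ∧ Summable (fun p => (s - t) p ^ 2)
  sqle : ∀ (K : Set ℂ) (s t : Cmp K → ℝ), Summable (fun p => t p ^ 2) → (∀ p, |s p| ≤ t p) →
    Summable (fun p => s p ^ 2)
  nonneg : ∀ (K T : Set ℂ) (s : Cmp K → ℝ), 0 ≤ sm T s s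
  cs : ∀ (K T : Set ℂ) (s t : Cmp K → ℝ), Summable (fun p => s p ^ 2) →
    Summable (fun p => t p ^ 2) → |sm T s t| ≤ √(sm T s s) * √(sm T t t)
  mono : ∀ (K T T' : Set ℂ) (s t s' t' : Cmp K → ℝ), Sq s → Sq t → Sq s' → Sq t' → T ⊆ T' →
    (∀ p : Cmp K, p.1 ⊆ T → s p * t p ≤ s' p * t' p) → sm T s t ≤ sm T' s' t'
  mono2 : ∀ (K T T' : Set ℂ) (s : Cmp K → ℝ), Summable (fun p => s p ^ 2) → T ⊆ T' →
    sm T s s ≤ sm T' s s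
  union : ∀ (K T T' : Set ℂ) (s t : Cmp K → ℝ), Clo K T → Clo K T' → Disjoint T T' →
    Summable (fun p => s p ^ 2) → Summable (fun p => t p ^ 2) →
    sm (T ∪ T') s t = sm T s t + sm T' s t
  biUnion : ∀ (K : Set ℂ) (ι : Type) (J : Finset ι) (Q : ι → Set ℂ) (s t : Cmp K → ℝ),
    IsClosed K → (∀ i ∈ J, Clo K (Q i)) → (∀ i ∈ J, ∀ j ∈ J, i ≠ j → Disjoint (Q i) (Q j)) →
    Summable (fun p => s p ^ 2) → Summable (fun p => t p ^ 2) →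
    Clo K (⋃ i ∈ J, Q i) ∧ sm (⋃ i ∈ J, Q i) s t = ∑ i ∈ J, sm (Q i) s t
  single : ∀ (K T : Set ℂ) (s : Cmp K → ℝ) (p : Cmp K), Summable (fun p => s p ^ 2) →
    p.1 ⊆ T → s p ^ 2 ≤ sm T s s
  tail : ∀ (K : Set ℂ) (s : Cmp K → ℝ) (ε : ℝ), Summable (fun p => s p ^ 2) → 0 < ε →
    ∃ F : Finset (Cmp K), (∀ p ∉ F, |s p| ≤ ε) ∧
      ∀ T : Set ℂ, (∀ p ∈ F, ¬ p.1 ⊆ T) → sm T s s ≤ ε
  punct : ∀ (K : Set ℂ) (s : Cmp K → ℝ) (p : Cmp K) (ε : ℝ), IsCompact K →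
    Summable (fun p => s p ^ 2) → 0 < ε →
    ∃ U, IsOpen U ∧ p.1 ⊆ U ∧ ∀ T : Set ℂ, T ⊆ U → ¬ p.1 ⊆ T → sm T s s ≤ ε
  atom : ∀ (K T : Set ℂ) (s t : Cmp K → ℝ) (p : Cmp K), Summable (fun p => s p ^ 2) →
    Summable (fun p => t p ^ 2) → p.1 ⊆ T → sm T s t = s p * t p + sm (T \ p.1) s t

/-- The boundary form: independence of the cutoff, locality. -/
structure S_omA : Prop where
  ind : ∀ (K Q : Set ℂ) (χ a b : ℂ → ℝ), IsCompact K → Clo K Q → Cut K Q χ → Adm K a →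
    Adm K b → IntegrableOn (wd (fun w => χ w * a w) b) Kᶜ ∧ om K Q a b = omc K χ a b
  self : ∀ (K Q : Set ℂ) (a b : ℂ → ℝ) (R : ℝ), IsCompact K → Clo K Q → Adm K a → Adm K b →
    (∀ z, R ≤ ‖z‖ → a z = 0) → (∀ᶠ z in 𝓝ˢ (K \ Q), z ∉ K → a z = 0) →
    om K Q a b = ∫ z in Kᶜ, wd a b z
  congr : ∀ (K Q : Set ℂ) (a b a' b' : ℂ → ℝ), IsCompact K → Clo K Q → Adm K a → Adm K b →
    Adm K a' → Adm K b' → (∀ᶠ z in 𝓝ˢ Q, z ∉ K → a z = a' z ∧ b z = b' z) →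
    om K Q a b = om K Q a' b'
  expand : ∀ (K Q : Set ℂ) (χ a b : ℂ → ℝ), IsCompact K → Clo K Q → Cut K Q χ → Adm K a →
    Adm K b → IntegrableOn (fun z => χ z * wd a b z) Kᶜ ∧
      IntegrableOn (fun z => a z * wd χ b z) Kᶜ ∧
      om K Q a b = (∫ z in Kᶜ, χ z * wd a b z) + ∫ z in Kᶜ, a z * wd χ b z

/-- The boundary form: algebra. -/
structure S_omB : Prop where
  anti : ∀ (K Q : Set ℂ) (a b : ℂ → ℝ), IsCompact K → Clo K Q → Adm K a → Adm K b →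
    om K Q a b = - om K Q b a
  add : ∀ (K Q : Set ℂ) (a a' b : ℂ → ℝ), IsCompact K → Clo K Q → Adm K a → Adm K a' →
    Adm K b → om K Q (a + a') b = om K Q a b + om K Q a' b ∧
      om K Q (a - a') b = om K Q a b - om K Q a' b ∧
      om K Q b (a + a') = om K Q b a + om K Q b a' ∧
      om K Q b (a - a') = om K Q b a - om K Q b a'
  smul : ∀ (K Q : Set ℂ) (t : ℝ) (a b : ℂ → ℝ), IsCompact K → Clo K Q → Adm K a → Adm K b →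
    om K Q (fun z => t * a z) b = t * om K Q a b ∧ om K Q b (fun z => t * a z) = t * om K Q b a
  const : ∀ (K Q : Set ℂ) (t : ℝ) (b : ℂ → ℝ), IsCompact K → Clo K Q → Adm K b →
    om K Q (fun _ => t) b = 0
  union : ∀ (K Q Q' : Set ℂ) (a b : ℂ → ℝ), IsCompact K → Clo K Q → Clo K Q' → Disjoint Q Q' →
    Adm K a → Adm K b → om K (Q ∪ Q') a b = om K Q a b + om K Q' a b
  biUnion : ∀ (K : Set ℂ) (ι : Type) (J : Finset ι) (Q : ι → Set ℂ) (a b : ℂ → ℝ),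
    IsCompact K → (∀ i ∈ J, Clo K (Q i)) → (∀ i ∈ J, ∀ j ∈ J, i ≠ j → Disjoint (Q i) (Q j)) →
    Adm K a → Adm K b → om K (⋃ i ∈ J, Q i) a b = ∑ i ∈ J, om K (Q i) a b
  locc : ∀ (K Q : Set ℂ) (a b : ℂ → ℝ), IsCompact K → Clo K Q → Adm K a → Adm K b →
    LocC K Q a → om K Q a b = 0

/-- The boundary form: estimates. -/
structure S_omC : Prop where
  near : ∀ K Q : Set ℂ, IsCompact K → Clo K Q → ∃ ε₀ > 0, ∀ (ε : ℝ) (e b : ℂ → ℝ), ε ≤ ε₀ →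
    Adm K e → Adm K b → (∀ z, z ∉ thickening ε K → e z = 0) →
    |om K Q e b| ≤ √(en Kᶜ e) * √(en (thickening ε K \ K) b)
  far : ∀ (K Q : Set ℂ) (χ a e : ℂ → ℝ), IsCompact K → Clo K Q → Cut K Q χ → Adm K a →
    Adm K e → IntegrableOn (fun z => ‖gr e z‖ ^ 2) Kᶜ →
    |om K Q a e| ≤ √(en Kᶜ fun z => χ z * a z) * √(en Kᶜ e)
  cuten : ∀ (K Q : Set ℂ) (χ a : ℂ → ℝ), IsCompact K → Clo K Q → Cut K Q χ → Adm K a →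
    IntegrableOn (fun z => a z ^ 2 * ‖gr χ z‖ ^ 2) Kᶜ ∧
    IntegrableOn (fun z => ‖gr a z‖ ^ 2) (tsupport χ \ K) ∧
    en Kᶜ (fun z => χ z * a z) ≤
      2 * en (tsupport χ \ K) a + 2 * ∫ z in Kᶜ, a z ^ 2 * ‖gr χ z‖ ^ 2
  cutsup : ∀ (K Q : Set ℂ) (χ : ℂ → ℝ), IsCompact K → Clo K Q → Cut K Q χ →
    IsCompact (tsupport (gr χ)) ∧ Disjoint (tsupport (gr χ)) K ∧ tsupport (gr χ) ⊆ tsupport χ
  inf : ∀ (K : Set ℂ) (a b : ℂ → ℝ) (M R : ℝ), IsCompact K → Adm K a → Adm K b →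
    IntegrableOn (fun z => ‖gr a z‖ ^ 2) Kᶜ → IntegrableOn (fun z => ‖gr b z‖ ^ 2) Kᶜ →
    (∀ z, R ≤ ‖z‖ → |a z| ≤ M) → om K K a b = ∫ z in Kᶜ, wd a b z

/-- The boundary form: exact forms. -/
structure S_omD : Prop where
  exact : ∀ (K Q : Set ℂ) (a b H : ℂ → ℝ) (L : ℝ≥0), IsCompact K → Clo K Q → Adm K a →
    Adm K b → ContDiff ℝ 2 H → LipschitzWith L (fun w => fderiv ℝ H w 1) →
    LipschitzWith L (fun w => fderiv ℝ H w I) →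
    om K Q (fun z => fderiv ℝ H (pr a b z) I) b = om K Q a (fun z => fderiv ℝ H (pr a b z) 1)
  fn : ∀ (K Q : Set ℂ) (b : ℂ → ℝ) (k : ℝ → ℝ) (L : ℝ≥0), IsCompact K → Clo K Q → Adm K b →
    ContDiff ℝ 1 k → LipschitzWith L k → om K Q (fun z => k (b z)) b = 0
  chain : ∀ (K Q : Set ℂ) (θ u : ℂ → ℝ) (h : ℝ → ℝ) (L : ℝ≥0), IsCompact K → Clo K Q →
    Adm K θ → Adm K u → ContDiff ℝ 2 h → LipschitzWith L h →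
    Adm K (fun z => θ z * deriv h (u z)) →
    om K Q θ (fun z => h (u z)) = om K Q (fun z => θ z * deriv h (u z)) u

/-- The dual condition and approximation. -/
structure S_star : Prop where
  mono : ∀ (K T Q : Set ℂ) (ψ : ℂ → ℝ) (τ : Cmp K → ℝ), IsCompact K → Clo K T → Clo K Q →
    Q ⊆ T → Star K T ψ τ → Star K Q ψ τ
  union : ∀ (K T Q : Set ℂ) (ψ : ℂ → ℝ) (τ : Cmp K → ℝ), IsCompact K → Clo K T → Clo K Q →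
    Star K T ψ τ → Star K Q ψ τ → Star K (T ∪ Q) ψ τ
  neg : ∀ (K T : Set ℂ) (ψ : ℂ → ℝ) (τ : Cmp K → ℝ), IsCompact K → Clo K T → Star K T ψ τ →
    Star K T (fun z => - ψ z) τ
  amono : ∀ (K T Q : Set ℂ) (ψ : ℂ → ℝ) (τ : Cmp K → ℝ), Q ⊆ T → Appr K T ψ τ → Appr K Q ψ τ
  aunion : ∀ (K T : Set ℂ) (ψ : ℂ → ℝ) (τ : Cmp K → ℝ), IsCompact K → Clo K T →
    Appr K T ψ τ → Appr K (K \ T) ψ τ → Appr K K ψ τ
  aneg : ∀ (K T : Set ℂ) (ψ : ℂ → ℝ) (τ : Cmp K → ℝ), IsCompact K → Appr K T ψ τ →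
    Appr K T (fun z => - ψ z) τ
  pair : ∀ (K T : Set ℂ) (φ ψ : ℂ → ℝ) (σ τ : Cmp K → ℝ), IsCompact K → Clo K T →
    Appr K T φ σ → Star K T ψ τ → |om K T φ ψ| ≤ sm T σ τ
  pairw : ∀ (K T : Set ℂ) (φ ψ : ℂ → ℝ) (σ τ : Cmp K → ℝ), IsCompact K → Clo K T →
    Appr K T φ σ → Adm K ψ → Sq τ →
    (∀ θ s M, Good K T θ s → (∀ z ∉ K, |θ z| ≤ M) → |om K T θ ψ| ≤ sm T s τ) →
    |om K T φ ψ| ≤ sm T σ τ
  ofbdd : ∀ (K T : Set ℂ) (ψ : ℂ → ℝ) (τ : Cmp K → ℝ), IsCompact K → Clo K T → Adm K ψ → Sq τ →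
    (∀ θ s M, Good K T θ s → (∀ z ∉ K, |θ z| ≤ M) → |om K T θ ψ| ≤ sm T s τ) → Star K T ψ τ
  area : ∀ (K A : Set ℂ) (u v : ℂ → ℝ) (ρ : Cmp K → ℝ), IsCompact K → Clo K A →
    Appr K K u ρ → Appr K K v ρ → Star K A v ρ → Star K (K \ A) u ρ →
    - om K K u v = sm K ρ ρ → ∀ Q, Clo K Q → - om K Q u v = sm Q ρ ρ

/-- Change of variables under a univalent map. -/
structure S_cov : Prop where
  lin : ∀ (U S : Set ℂ) (f : ℂ → ℂ) (g : ℂ → ℝ≥0∞), IsOpen U → DifferentiableOn ℂ f U →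
    InjOn f U → MeasurableSet S → S ⊆ U →
    ∫⁻ w in f '' S, g w = ∫⁻ z in S, g (f z) * ‖deriv f z‖ₑ ^ 2
  int : ∀ (U S : Set ℂ) (f : ℂ → ℂ) (g : ℂ → ℝ), IsOpen U → DifferentiableOn ℂ f U →
    InjOn f U → MeasurableSet S → S ⊆ U →
    (IntegrableOn g (f '' S) ↔ IntegrableOn (fun z => g (f z) * ‖deriv f z‖ ^ 2) S) ∧
    ∫ w in f '' S, g w = ∫ z in S, g (f z) * ‖deriv f z‖ ^ 2
  wdc : ∀ (f : ℂ → ℂ) (a b : ℂ → ℝ) (z : ℂ), DifferentiableAt ℂ f z →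
    DifferentiableAt ℝ a (f z) → DifferentiableAt ℝ b (f z) →
    wd (fun w => a (f w)) (fun w => b (f w)) z = wd a b (f z) * ‖deriv f z‖ ^ 2 ∧
    ‖gr (fun w => a (f w)) z‖ = ‖gr a (f z)‖ * ‖deriv f z‖
  inv : ∀ (U : Set ℂ) (f : ℂ → ℂ), IsOpen U → DifferentiableOn ℂ f U → InjOn f U →
    IsOpen (f '' U) ∧ (∀ z ∈ U, deriv f z ≠ 0) ∧
      DifferentiableOn ℂ (Function.invFunOn f U) (f '' U)
  null : ∀ (U N : Set ℂ) (f : ℂ → ℂ), IsOpen U → DifferentiableOn ℂ f U → InjOn f U →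
    volume N = 0 → volume {z | z ∈ U ∧ f z ∈ N} = 0

/-- Real and imaginary parts of holomorphic functions. -/
structure S_hol : Prop where
  gru : ∀ (f : ℂ → ℂ) (z : ℂ), DifferentiableAt ℂ f z →
    gr (ru f) z = (starRingEnd ℂ) (deriv f z) ∧ gr (iv f) z = I * (starRingEnd ℂ) (deriv f z)
  wdf : ∀ (f g : ℂ → ℂ) (z : ℂ), DifferentiableAt ℂ f z → DifferentiableAt ℂ g z →
    wd (ru f) (iv g) z = (deriv f z * (starRingEnd ℂ) (deriv g z)).re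
  c1 : ∀ (U : Set ℂ) (f : ℂ → ℂ), IsOpen U → DifferentiableOn ℂ f U →
    ContDiffOn ℝ 1 (ru f) U ∧ ContDiffOn ℝ 1 (iv f) U
  adm : ∀ (K : Set ℂ) (c : ℂ) (f : ℂ → ℂ), IsClosed K → Hol K c f → Adm K (ru f) ∧ Adm K (iv f)
  lin : ∀ (K : Set ℂ) (c : ℂ), Hol K c (fun z => c * z)
  sub : ∀ (K : Set ℂ) (c : ℂ) (f g : ℂ → ℂ), IsClosed K → Hol K c f → Hol K c g →
    Hol K 0 (f - g) ∧ IntegrableOn (fun z => ‖deriv f z - deriv g z‖ ^ 2) Kᶜ ∧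
    IntegrableOn (fun z => ‖gr (ru f - ru g) z‖ ^ 2) Kᶜ ∧
    IntegrableOn (fun z => ‖gr (iv f - iv g) z‖ ^ 2) Kᶜ ∧
    en Kᶜ (ru f - ru g) = ∫ z in Kᶜ, ‖deriv f z - deriv g z‖ ^ 2 ∧
    en Kᶜ (iv f - iv g) = ∫ z in Kᶜ, ‖deriv f z - deriv g z‖ ^ 2
  eneq : ∀ (K S : Set ℂ) (c : ℂ) (f : ℂ → ℂ), IsClosed K → Hol K c f → MeasurableSet S →
    S ⊆ Kᶜ → en S (ru f) = ∫ z in S, ‖deriv f z‖ ^ 2 ∧ en S (iv f) = ∫ z in S, ‖deriv f z‖ ^ 2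
  rot : ∀ (K : Set ℂ) (c : ℂ) (f : ℂ → ℂ), IsClosed K → Hol K c f →
    Hol K (I * c) (fun z => I * f z)

/-- Behaviour at infinity. -/
def S_decay : Prop :=
  ∀ (K : Set ℂ) (c : ℂ) (f : ℂ → ℂ), IsCompact K → Hol K c f →
    (∃ c₀, Tendsto (fun z => f z - c * z) (cocompact ℂ) (𝓝 c₀)) ∧
      Tendsto (deriv f) (cocompact ℂ) (𝓝 c)

/-- Local uniform control by the Dirichlet integral. -/
def S_lu : Prop :=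
  ∀ (K C : Set ℂ) (z₀ : ℂ), Ctx K → z₀ ∉ K → IsCompact C → C ⊆ Kᶜ → ∃ M ≥ 0, ∀ F : ℂ → ℂ,
    Hol K 0 F → F z₀ = 0 → ∀ z ∈ C, ‖F z‖ ≤ M * √(∫ z in Kᶜ, ‖deriv F z‖ ^ 2)

/-- The distance. -/
structure S_d2 : Prop where
  nonneg : ∀ (K : Set ℂ) (f g : ℂ → ℂ) (ρ σ : Cmp K → ℝ), 0 ≤ d2 K f ρ g σ
  symm : ∀ (K : Set ℂ) (f g : ℂ → ℂ) (ρ σ : Cmp K → ℝ), d2 K f ρ g σ = d2 K g σ f ρ
  tri : ∀ (K : Set ℂ) (c : ℂ) (f g h : ℂ → ℂ) (ρ σ τ : Cmp K → ℝ), IsClosed K → Hol K c f →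
    Hol K c g → Hol K c h → Sq ρ → Sq σ → Sq τ →
    √(d2 K f ρ h τ) ≤ √(d2 K f ρ g σ) + √(d2 K g σ h τ)
  pt : ∀ (K : Set ℂ) (f g : ℂ → ℂ) (ρ σ : Cmp K → ℝ) (p : Cmp K), Sq ρ → Sq σ →
    |ρ p - σ p| ≤ √(d2 K f ρ g σ)
  sml : ∀ (K T : Set ℂ) (f g : ℂ → ℂ) (ρ σ : Cmp K → ℝ), Sq ρ → Sq σ → T ⊆ K →
    √(sm T σ σ) ≤ √(sm T ρ ρ) + √(d2 K f ρ g σ) ∧ sm T (ρ - σ) (ρ - σ) ≤ d2 K f ρ g σ
  enl : ∀ (K S : Set ℂ) (c : ℂ) (f g : ℂ → ℂ) (ρ σ : Cmp K → ℝ), IsClosed K → Hol K c f →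
    Hol K c g → MeasurableSet S → S ⊆ Kᶜ → Bornology.IsBounded S →
    √(en S (ru g)) ≤ √(en S (ru f)) + √(d2 K f ρ g σ) ∧
    √(en S (iv g)) ≤ √(en S (iv f)) + √(d2 K f ρ g σ) ∧
    en Kᶜ (ru f - ru g) ≤ d2 K f ρ g σ ∧ en Kᶜ (iv f - iv g) ≤ d2 K f ρ g σ
  sup : S_lu → ∀ (K C : Set ℂ) (z₀ : ℂ), Ctx K → z₀ ∉ K → IsCompact C → C ⊆ Kᶜ →
    ∃ M ≥ 0, ∀ (c : ℂ) (f g : ℂ → ℂ) (ρ σ : Cmp K → ℝ), Hol K c f → Hol K c g → f z₀ = 0 →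
      g z₀ = 0 → ∀ z ∈ C, ‖f z - g z‖ ≤ M * √(d2 K f ρ g σ)

/-- Completeness. -/
def S_compl : Prop :=
  ∀ (K : Set ℂ) (z₀ c : ℂ) (f : ℕ → ℂ → ℂ) (ρ : ℕ → Cmp K → ℝ), Ctx K → z₀ ∉ K →
    (∀ n, Hol K c (f n) ∧ f n z₀ = 0 ∧ Sq (ρ n)) →
    (∀ ε > 0, ∃ N, ∀ m ≥ N, ∀ n ≥ N, d2 K (f m) (ρ m) (f n) (ρ n) ≤ ε) →
    ∃ g σ, Hol K c g ∧ g z₀ = 0 ∧ Sq σ ∧ Tendsto (fun n => d2 K (f n) (ρ n) g σ) atTop (𝓝 0)

/-- Limits of candidates. -/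
structure S_lim : Prop where
  pre : ∀ (K : Set ℂ) (z₀ c : ℂ) (f : ℕ → ℂ → ℂ) (ρ : ℕ → Cmp K → ℝ) (g : ℂ → ℂ)
    (σ : Cmp K → ℝ), Base K z₀ c → (∀ n, Pre K z₀ c (f n) (ρ n)) → Hol K c g → g z₀ = 0 →
    Sq σ → Tendsto (fun n => d2 K (f n) (ρ n) g σ) atTop (𝓝 0) → Pre K z₀ c g σ
  star : ∀ (K Q : Set ℂ) (c : ℂ) (f : ℕ → ℂ → ℂ) (ρ : ℕ → Cmp K → ℝ) (g : ℂ → ℂ)
    (σ : Cmp K → ℝ), IsCompact K → Clo K Q → (∀ n, Hol K c (f n) ∧ Sq (ρ n)) → Hol K c g →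
    Sq σ → Tendsto (fun n => d2 K (f n) (ρ n) g σ) atTop (𝓝 0) →
    ((∀ᶠ n in atTop, Star K Q (ru (f n)) (ρ n)) → Star K Q (ru g) σ) ∧
    ((∀ᶠ n in atTop, Star K Q (iv (f n)) (ρ n)) → Star K Q (iv g) σ)

/-- Lower semicontinuity under pointwise limits with uniform local Lipschitz bounds. -/
def S_wg : Prop :=
  ∀ (U : Set ℂ) (L : ℂ → ℝ≥0) (rad : ℂ → ℝ) (ζ : ℕ → ℂ → ℝ) (ζ₀ : ℂ → ℝ) (g : ℂ → ℝ≥0∞),
    IsOpen U → (∀ z ∈ U, 0 < rad z) → (∀ n, ULip U L rad (ζ n)) →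
    (∀ z ∈ U, Tendsto (fun n => ζ n z) atTop (𝓝 (ζ₀ z))) → Measurable g →
    LocallyLipschitzOn U ζ₀ ∧
    ∫⁻ z in U, g z * ‖gr ζ₀ z‖ₑ ≤ liminf (fun n => ∫⁻ z in U, g z * ‖gr (ζ n) z‖ₑ) atTop

/-- Primitives: periods vanish when they vanish against locally constant cutoffs. -/
def S_prim : Prop :=
  ∀ (U : Set ℂ) (g : ℂ → ℂ), IsOpen U → IsPreconnected U → DifferentiableOn ℂ g U →
    (∀ χ : ℂ → ℝ, ContDiff ℝ 2 χ → HasCompactSupport χ → tsupport (gr χ) ⊆ U →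
      ∫ z in U, g z * gr χ z = 0) →
    ∃ G, DifferentiableOn ℂ G U ∧ ∀ z ∈ U, deriv G z = g z

/-! ### Isotropy and existence: the interfaces of the parts -/

/-- Part T: extension of boundary data to a good function. -/
def S_T : Prop :=
  ∀ (K : Set ℂ) (lam : ℂ → ℝ≥0∞) (s : Cmp K → ℝ) (b : ℂ → ℝ), IsCompact K → K ⊆ ball 0 1 →
    Measurable lam → (∃ c : ℝ≥0, 0 < c ∧ ∀ z ∈ closedBall (0 : ℂ) 1, (c : ℝ≥0∞) ≤ lam z) →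
    (∀ C, IsCompact C → C ⊆ closedBall 0 1 \ K → ∃ M : ℝ≥0, ∀ z ∈ C, lam z ≤ M) → Sq s →
    (∃ M, ∀ z ∈ sphere (0 : ℂ) 1, |b z| ≤ M) → LipC K lam s (sphere 0 1) b →
    ∃ θ : ℂ → ℝ, EqOn θ b (sphere 0 1) ∧ LipC K lam s (closedBall 0 1 \ K) θ ∧
      ∀ p : Cmp K, Osc K p.1 θ (s p)

/-- Part D: a good function of finite energy from a duality bound. -/
def S_D : Prop :=
  ∀ (K Ω : Set ℂ) (𝒮 : Set ((ℂ → ℝ) × (Cmp K → ℝ))) (L : ℂ → ℝ≥0) (rad : ℂ → ℝ) (C : ℝ≥0),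
    IsCompact K → IsOpen Ω → Ω ⊆ Kᶜ → Convex ℝ 𝒮 → (∀ z ∉ K, 0 < rad z) →
    (∀ x ∈ 𝒮, (∀ z, 0 ≤ x.1 z ∧ x.1 z ≤ 1) ∧ (∀ p, 0 ≤ x.2 p ∧ x.2 p ≤ 1) ∧
      (Function.support x.2).Countable ∧ (∀ p : Cmp K, Osc K p.1 x.1 (x.2 p)) ∧
      ULip Kᶜ L rad x.1) →
    (∀ (g : ℂ → ℝ≥0∞) (s : Cmp K → ℝ) (ε : ℝ≥0), Measurable g → Sq s → nq K Ω g s ≤ 1 → 0 < ε →
      ∃ x ∈ 𝒮, pg K Ω g s x ≤ C + ε) →
    ∃ (x : ℕ → (ℂ → ℝ) × (Cmp K → ℝ)) (ζ : ℂ → ℝ) (σ : Cmp K → ℝ), (∀ n, x n ∈ 𝒮) ∧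
      (∀ z ∉ K, Tendsto (fun n => (x n).1 z) atTop (𝓝 (ζ z))) ∧
      (∀ p, σ p = 0 ∨ Tendsto (fun n => (x n).2 p) atTop (𝓝 (σ p))) ∧
      LocallyLipschitzOn Kᶜ ζ ∧ IntegrableOn (fun z => ‖gr ζ z‖ ^ 2) Ω ∧ Sq σ ∧
      ∀ p : Cmp K, Osc K p.1 ζ (σ p)

/-- Part I: isotropy in the disc model. -/
def S_iso0 : Prop :=
  ∃ C₀ : ℝ, 0 ≤ C₀ ∧ ∀ (K : Set ℂ) (R : ℝ) (ψ : ℂ → ℝ) (τ : Cmp K → ℝ), IsCompact K →
    K ⊆ ball 0 1 → 1 < R → ContDiffOn ℝ 1 ψ (ball 0 R \ K) →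
    IntegrableOn (fun z => ‖gr ψ z‖ ^ 2) (ball 0 R \ K) → Sq τ →
    (∀ θ s, Good K K θ s → tsupport θ ⊆ ball 0 R →
      |∫ z in ball 0 R \ K, wd θ ψ z| ≤ sm K s τ) →
    ∀ ε > 0, ∃ (ζ : ℂ → ℝ) (s : Cmp K → ℝ), LocallyLipschitzOn (ball 0 R \ K) ζ ∧
      (∀ z, 1 ≤ ‖z‖ → ζ z = ψ z) ∧ IntegrableOn (fun z => ‖gr ζ z‖ ^ 2) (ball 0 R \ K) ∧
      en (ball 0 R \ K) ζ ≤ C₀ * en (ball 0 R \ K) ψ + ε ∧ Sq s ∧ sm K (s - τ) (s - τ) ≤ ε ∧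
      ∀ p : Cmp K, Osc K p.1 ζ (s p)

/-- Part R: isotropy. -/
def S_iso : Prop :=
  ∀ (K T : Set ℂ) (ψ : ℂ → ℝ) (τ : Cmp K → ℝ), Ctx K → Clo K T → ContDiffOn ℝ 1 ψ Kᶜ →
    Star K T ψ τ → Appr K T ψ τ

/-- Part E: existence for the mixed problem. -/
def S_ex : Prop :=
  ∀ (K A : Set ℂ) (z₀ c : ℂ), Base K z₀ c → Clo K A → ∃ (f : ℂ → ℂ) (ρ : Cmp K → ℝ),
    Hol K c f ∧ f z₀ = 0 ∧ Appr K A (ru f) ρ ∧ Appr K (K \ A) (iv f) ρ ∧ Star K A (iv f) ρ ∧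
      Star K (K \ A) (ru f) ρ ∧ - om K K (ru f) (iv f) = sm K ρ ρ

/-- The whole library. -/
structure Lib : Prop where
  cmp : S_cmp
  part : S_part
  fill : S_fill
  unic : S_unic
  cell : S_cell
  cross : S_cross
  cut : S_cut
  stokes : S_stokes
  adm : S_adm
  comp : S_comp
  sm : S_sm
  omA : S_omA
  omB : S_omB
  omC : S_omC
  omD : S_omD
  star : S_star
  cov : S_cov
  hol : S_hol
  decay : S_decay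
  lu : S_lu
  d2 : S_d2
  compl : S_compl
  lim : S_lim
  wg : S_wg
  prim : S_prim

end Vale.Agent.P116
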