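import Vale.Agent.P116.AStm

/-! Step A (square domains): statements, geometry and main line. -/

open Set Filter Topology MeasureTheory Metric Complex
open scoped ENNReal NNReal

noncomputable section
namespace Vale.Agent.P116

/-- Test functions built from approximants converge. -/
def S_prod : Prop :=
  ∀ (K Q : Set ℂ) (u v w θ Φ : ℂ → ℝ) (L : ℝ≥0) (M δ : ℝ), IsCompact K → Clo K Q → Adm K u →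
    Adm K v → Adm K w → Adm K θ → (∀ z ∉ K, |θ z| ≤ M) → LipschitzWith L Φ → (∀ y, |Φ y| ≤ M) →
    0 < δ → ∃ ε₀ > 0, ∀ (ε : ℝ) (T : Set ℂ) (ρ σ s t : Cmp K → ℝ) (φ ψ : ℂ → ℝ), ε ≤ ε₀ →
      Apx K T u ρ ε φ s → Apx K T v σ ε ψ t →
      |om K Q (fun z => θ z * Φ (pr φ ψ z)) w - om K Q (fun z => θ z * Φ (pr u v z)) w| ≤ δ

/-- The degree identity. -/
def S_deg : Prop :=
  ∀ (K : Set ℂ) (c : ℂ) (f : ℂ → ℂ) (a b : ℝ → ℝ), IsCompact K → c ≠ 0 → Hol K c f → Stp a →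
    Stp b →
    IntegrableOn (fun z => deriv a (f z).re * deriv b (f z).im * ‖deriv f z‖ ^ 2) Kᶜ ∧
    ∫ w : ℂ, deriv a w.re * deriv b w.im =
      (∫ z in Kᶜ, deriv a (f z).re * deriv b (f z).im * ‖deriv f z‖ ^ 2) -
        om K K (fun z => a (f z).re * deriv b (f z).im) (iv f)

/-- Positivity. -/
def S_pos : Prop :=
  ∀ (K Q : Set ℂ) (u v : ℂ → ℝ) (ρ : Cmp K → ℝ) (a b : ℝ → ℝ), IsCompact K → Clo K Q →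
    Appr K K u ρ → Appr K K v ρ → Star K Q v ρ → - om K Q u v = sm Q ρ ρ → Stp a → Stp b →
    om K Q (fun z => a (u z) * deriv b (v z)) v ≤ 0

/-- Univalence from the area inequality. -/
def S_inj : Prop :=
  ∀ (K : Set ℂ) (c : ℂ) (f : ℂ → ℂ), Ctx K → c ≠ 0 → Hol K c f →
    (∀ a b : ℝ → ℝ, Stp a → Stp b →
      IntegrableOn (fun z => deriv a (f z).re * deriv b (f z).im * ‖deriv f z‖ ^ 2) Kᶜ ∧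
      ∫ z in Kᶜ, deriv a (f z).re * deriv b (f z).im * ‖deriv f z‖ ^ 2 ≤
        ∫ w : ℂ, deriv a w.re * deriv b w.im) → InjOn f Kᶜ

/-- Solutions are univalent. -/
def S_uv : Prop :=
  ∀ (K A : Set ℂ) (z₀ c : ℂ) (f : ℂ → ℂ) (ρ : Cmp K → ℝ), Base K z₀ c → Pre0 K z₀ c f ρ →
    Clo K A → Star K A (iv f) ρ → Star K (K \ A) (ru f) ρ → InjOn f Kᶜ

/-- Solutions exist. -/
def S_sol : Prop :=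
  ∀ (K A : Set ℂ) (z₀ c : ℂ), Base K z₀ c → Clo K A → ∃ f ρ, Sol K z₀ c A f ρ

/-- The image domain, elementary facts. -/
structure S_imgA : Prop where
  opn : ∀ (K : Set ℂ) (c : ℂ) (f : ℂ → ℂ), Uni K c f →
    IsOpen (f '' Kᶜ) ∧ IsCompact (f '' Kᶜ)ᶜ ∧ IsPreconnected (f '' Kᶜ)
  bdd : ∀ (K : Set ℂ) (c : ℂ) (f : ℂ → ℂ) (R : ℝ), Uni K c f →
    ∃ M, ∀ z ∈ ball (0 : ℂ) R \ K, ‖f z‖ ≤ M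
  far : ∀ (K : Set ℂ) (c : ℂ) (f : ℂ → ℂ) (M : ℝ), Uni K c f → ∃ R, ∀ z, R ≤ ‖z‖ → M ≤ ‖f z‖
  mono : ∀ (K S S' : Set ℂ) (f : ℂ → ℂ), S ⊆ S' → img K f S ⊆ img K f S'
  union : ∀ (K S S' : Set ℂ) (f : ℂ → ℂ), img K f (S ∪ S') = img K f S ∪ img K f S'
  sat : ∀ (K S : Set ℂ) (f : ℂ → ℂ) (w : ℂ), w ∈ img K f S →
    connectedComponentIn (f '' Kᶜ)ᶜ w ⊆ img K f S
  pt : ∀ (K : Set ℂ) (c : ℂ) (f : ℂ → ℂ) (w : ℂ), Uni K c f → w ∉ f '' Kᶜ →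
    ∃ z ∈ K, w ∈ img K f {z}

/-- Transport of cutoffs. -/
def S_corr : Prop :=
  ∀ (K Q : Set ℂ) (c : ℂ) (f : ℂ → ℂ) (χ : ℂ → ℝ), Uni K c f → Clo K Q → Cut K Q χ →
    ∃ χ' : ℂ → ℝ, ContDiff ℝ 2 χ' ∧ HasCompactSupport χ' ∧ (∀ z ∉ K, χ' (f z) = χ z) ∧
      (∀ᶠ w in 𝓝ˢ (img K f Q), χ' w = 1) ∧ ∀ᶠ w in 𝓝ˢ ((f '' Kᶜ)ᶜ \ img K f Q), χ' w = 0

/-- The image domain, clopen pieces and components. -/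
structure S_imgB : Prop where
  clo : ∀ (K Q : Set ℂ) (c : ℂ) (f : ℂ → ℂ), Uni K c f → Clo K Q →
    IsCompact (img K f Q) ∧ img K f (K \ Q) = (f '' Kᶜ)ᶜ \ img K f Q
  all : ∀ (K : Set ℂ) (c : ℂ) (f : ℂ → ℂ), Uni K c f → img K f K = (f '' Kᶜ)ᶜ
  disj : ∀ (K : Set ℂ) (c : ℂ) (f : ℂ → ℂ) (p q : Cmp K), Uni K c f → p ≠ q →
    Disjoint (img K f p.1) (img K f q.1)
  seq : ∀ (K : Set ℂ) (c : ℂ) (f : ℂ → ℂ) (p : Cmp K), Uni K c f →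
    IsCompact (img K f p.1) ∧ ∃ Q : ℕ → Set ℂ, (∀ n, Clo K (Q n) ∧ p.1 ⊆ Q n) ∧ Antitone Q ∧
      (∀ U, IsOpen U → p.1 ⊆ U → ∀ᶠ n in atTop, Q n ⊆ U) ∧ ⋂ n, img K f (Q n) = img K f p.1
  cov : ∀ (K : Set ℂ) (c : ℂ) (f : ℂ → ℂ) (w : ℂ), Uni K c f → w ∉ f '' Kᶜ →
    ∃ p : Cmp K, w ∈ img K f p.1

/-- The maximum principle. -/
def S_max : Prop :=
  ∀ (K W C : Set ℂ) (c : ℂ) (f : ℂ → ℂ), Uni K c f → IsOpen W → Bornology.IsBounded W →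
    Disjoint (frontier W) K → IsClosed C → Convex ℝ C → f '' frontier W ⊆ C →
    f '' (W \ K) ⊆ C ∧ img K f (K ∩ W) ⊆ C

/-- The boundary form in the image plane. -/
def S_area : Prop :=
  ∀ (K Q : Set ℂ) (c : ℂ) (f : ℂ → ℂ) (Γ : ℂ → ℝ) (L : ℝ≥0), Uni K c f → Clo K Q →
    ContDiff ℝ 1 Γ → LipschitzWith L Γ →
    - om K Q (fun z => Γ (f z)) (iv f) = ∫ w in img K f Q, fderiv ℝ Γ w 1 ∧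
      om K Q (fun z => Γ (f z)) (ru f) = ∫ w in img K f Q, fderiv ℝ Γ w I

/-- Areas and mean width weights. -/
structure S_vol : Prop where
  clo : ∀ (K Q : Set ℂ) (z₀ c : ℂ) (f : ℂ → ℂ) (ρ : Cmp K → ℝ), Base K z₀ c → Pre K z₀ c f ρ →
    Clo K Q → volume.real (img K f Q) = sm Q ρ ρ
  pt : ∀ (K : Set ℂ) (z₀ c : ℂ) (f : ℂ → ℂ) (ρ : Cmp K → ℝ) (p : Cmp K), Base K z₀ c →
    Pre K z₀ c f ρ → volume.real (img K f p.1) = ρ p ^ 2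
  mw : ∀ (K T : Set ℂ) (z₀ c : ℂ) (f : ℂ → ℂ) (ρ : Cmp K → ℝ) (Φ : ℂ → ℝ) (M : ℝ), Base K z₀ c →
    Pre K z₀ c f ρ → Clo K T → Continuous Φ → (∀ w, 0 ≤ Φ w ∧ Φ w ≤ M) →
    Sq (mw K f ρ Φ) ∧ (∀ p, mw K f ρ Φ p ≤ M * ρ p) ∧
      sm T ρ (mw K f ρ Φ) ≤ ∫ w in img K f T, Φ w
  one : ∀ (K : Set ℂ) (z₀ c : ℂ) (f : ℂ → ℂ) (ρ : Cmp K → ℝ), Base K z₀ c → Pre K z₀ c f ρ →
    Vale.Agent.P116.mw K f ρ (fun _ => 1) = ρ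

/-- Approximants whose values near `p` are close to the set `B`. -/
def Bx (K : Set ℂ) (f : ℂ → ℂ) (ρ : Cmp K → ℝ) (p : Cmp K) (B : Set ℂ) : Prop :=
  ∀ ε > 0, ∃ φ s ψ t, Apx K K (ru f) ρ ε φ s ∧ Apx K K (iv f) ρ ε ψ t ∧
    ∃ U, IsOpen U ∧ p.1 ⊆ U ∧ ∀ z ∈ U \ K, pr φ ψ z ∈ thickening ε B

/-- Boxes exist. -/
def S_bx : Prop :=
  ∀ (K : Set ℂ) (z₀ c : ℂ) (f : ℂ → ℂ) (ρ : Cmp K → ℝ) (p : Cmp K), Base K z₀ c →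
    Pre K z₀ c f ρ → ∃ x₀ y₀ : ℝ, Bx K f ρ p (sq x₀ y₀ (ρ p))

/-- Weights vanishing near the box do not see the component. -/
def S_van : Prop :=
  ∀ (K T U₀ B : Set ℂ) (z₀ c : ℂ) (f : ℂ → ℂ) (ρ τ : Cmp K → ℝ) (p : Cmp K) (θ Ψ : ℂ → ℝ)
    (M κ : ℝ) (L : ℝ≥0), Base K z₀ c → Pre K z₀ c f ρ → Clo K T → p.1 ⊆ T → IsOpen U₀ →
    p.1 ⊆ U₀ → (∀ Q, Clo K Q → Q ⊆ U₀ → ¬ p.1 ⊆ Q → Star K Q (ru f) ρ) → Bx K f ρ p B →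
    Good K T θ τ → (∀ z ∉ K, |θ z| ≤ M) → LipschitzWith L Ψ → (∀ w, |Ψ w| ≤ M) → 0 < κ →
    (∀ w ∈ thickening κ B, Ψ w = 0) →
    ∀ η > 0, ∃ U, IsOpen U ∧ p.1 ⊆ U ∧ ∀ Q, Clo K Q → p.1 ⊆ Q → Q ⊆ T ∩ U →
      |om K Q (fun z => θ z * Ψ (f z)) (ru f)| ≤ η

/-- The box of a component. -/
def S_box : Prop :=
  ∀ (K U₀ : Set ℂ) (z₀ c : ℂ) (f : ℂ → ℂ) (ρ : Cmp K → ℝ) (p : Cmp K) (x₀ y₀ : ℝ), Base K z₀ c →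
    Pre K z₀ c f ρ → IsOpen U₀ → p.1 ⊆ U₀ →
    (∀ Q, Clo K Q → Q ⊆ U₀ → ¬ p.1 ⊆ Q → Star K Q (ru f) ρ) → Bx K f ρ p (sq x₀ y₀ (ρ p)) →
    volume (sq x₀ y₀ (ρ p) \ img K f p.1) = 0 ∧ volume (img K f p.1 \ sq x₀ y₀ (ρ p)) = 0 ∧
      (0 < ρ p → sq x₀ y₀ (ρ p) ⊆ img K f p.1)

/-- The direct estimate in the image domain. -/
def S_dir : Prop :=
  ∀ (K Q : Set ℂ) (c : ℂ) (f : ℂ → ℂ) (χ θ Φ : ℂ → ℝ) (M M₁ : ℝ) (L : ℝ≥0), Uni K c f → Clo K Q →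
    Cut K Q χ → Adm K θ → (∀ z ∉ K, |θ z| ≤ M) → 0 ≤ M₁ → (∀ z ∈ tsupport χ \ K, |θ z| ≤ M₁) →
    ContDiff ℝ 1 Φ → (∀ w, 0 ≤ Φ w ∧ Φ w ≤ M) → LipschitzWith L Φ →
    ∃ C ≥ 0, ∀ (a : ℂ → ℝ) (S : Set ℂ), ContDiff ℝ 1 a → HasCompactSupport a →
      (∀ w, 0 ≤ a w ∧ a w ≤ 1) → MeasurableSet S → Bornology.IsBounded S → (∀ w ∉ S, a w = 0) →
      |om K Q (fun z => θ z * (Φ (f z) * a (f z))) (ru f)| ≤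
        M₁ * (∫ w in f '' Kᶜ, Φ w * |fderiv ℝ a w I|) +
          C * (√(volume.real (S ∩ f '' Kᶜ)) + volume.real (S ∩ f '' Kᶜ))

/-- Frames around a square. -/
def S_frame : Prop :=
  ∀ (Φ : ℂ → ℝ) (x₀ y₀ r η κ₀ : ℝ), ContDiff ℝ 1 Φ → (∀ w, 0 ≤ Φ w) → 0 ≤ r →
    (0 < r → ∀ w ∈ sq x₀ y₀ r, fderiv ℝ Φ w I = 0) → 0 < η → 0 < κ₀ →
    ∃ (a : ℂ → ℝ) (κ : ℝ), 0 < κ ∧ ContDiff ℝ 1 a ∧ HasCompactSupport a ∧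
      (∀ w, 0 ≤ a w ∧ a w ≤ 1) ∧ (∀ w ∈ thickening κ (sq x₀ y₀ r), a w = 1) ∧
      (∀ w ∉ thickening κ₀ (sq x₀ y₀ r), a w = 0) ∧
      ∫ w, Φ w * |fderiv ℝ a w I| ≤ 2 * ((∫ w in sq x₀ y₀ r, Φ w) / r) + η

/-- The weights of the localized dual inequality. -/
structure Wt (Φ : ℂ → ℝ) (M : ℝ) (L : ℝ≥0) (S : Set ℂ) : Prop where
  c1 : ContDiff ℝ 1 Φ
  bd : ∀ w, 0 ≤ Φ w ∧ Φ w ≤ M
  lip : LipschitzWith L Φ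
  ver : ∀ w ∈ S, fderiv ℝ Φ w I = 0

/-- The localized dual inequality at one component. -/
def S_atom : Prop :=
  ∀ (K T U₀ : Set ℂ) (z₀ c : ℂ) (f : ℂ → ℂ) (ρ τ : Cmp K → ℝ) (p : Cmp K) (θ Φ : ℂ → ℝ)
    (M M₀ : ℝ) (L : ℝ≥0), Base K z₀ c → Pre K z₀ c f ρ → Clo K T → p.1 ⊆ T → IsOpen U₀ →
    p.1 ⊆ U₀ → (∀ Q, Clo K Q → Q ⊆ U₀ → ¬ p.1 ⊆ Q → Star K Q (ru f) ρ) → Good K T θ τ →
    (∀ z ∉ K, |θ z| ≤ M₀) → Wt Φ M L (img K f T) →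
    ∀ η > 0, ∃ U, IsOpen U ∧ p.1 ⊆ U ∧ ∀ Q, Clo K Q → p.1 ⊆ Q → Q ⊆ T ∩ U →
      |om K Q (fun z => θ z * Φ (f z)) (ru f)| ≤ τ p * mw K f ρ Φ p + η

/-- The crude form of the localized dual inequality. -/
def S_tail : Prop :=
  ∀ (K Q U : Set ℂ) (z₀ c : ℂ) (f : ℂ → ℂ) (ρ τ : Cmp K → ℝ) (θ Ψ : ℂ → ℝ) (M M₀ M₁ : ℝ)
    (L : ℝ≥0), Base K z₀ c → Pre K z₀ c f ρ → Clo K Q → Star K Q (ru f) ρ → Good K Q θ τ →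
    (∀ z ∉ K, |θ z| ≤ M₀) → IsOpen U → Q ⊆ U → 0 ≤ M₁ → (∀ z ∈ U \ K, |θ z| ≤ M₁) →
    ContDiff ℝ 1 Ψ → (∀ w, |Ψ w| ≤ M) → LipschitzWith L Ψ →
    |om K Q (fun z => θ z * Ψ (f z)) (ru f)| ≤
      2 * M * sm Q τ ρ + M₁ * ∫ w in img K f Q, |fderiv ℝ Ψ w I|

/-- The localized dual inequality. -/
def S_ls : Prop :=
  ∀ (K T : Set ℂ) (z₀ c : ℂ) (f : ℂ → ℂ) (ρ τ : Cmp K → ℝ) (F₀ : Finset (Cmp K)) (θ Φ : ℂ → ℝ)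
    (M M₀ : ℝ) (L : ℝ≥0), Base K z₀ c → Pre K z₀ c f ρ → Clo K T →
    (∀ Q, Clo K Q → Q ⊆ T → (∀ p ∈ F₀, ¬ p.1 ⊆ Q) → Star K Q (ru f) ρ) → Good K T θ τ →
    (∀ z ∉ K, |θ z| ≤ M₀) → Wt Φ M L (img K f T) →
    |om K T (fun z => θ z * Φ (f z)) (ru f)| ≤ sm T τ (mw K f ρ Φ)

/-- Rotation by a quarter turn. -/
structure S_rot : Prop where
  base : ∀ (K : Set ℂ) (z₀ c : ℂ), Base K z₀ c → Base K z₀ (I * c)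
  pre : ∀ (K : Set ℂ) (z₀ c : ℂ) (f : ℂ → ℂ) (ρ : Cmp K → ℝ), IsCompact K → Pre K z₀ c f ρ →
    Pre K z₀ (I * c) (fun z => I * f z) ρ
  sol : ∀ (K A : Set ℂ) (z₀ c : ℂ) (f : ℂ → ℂ) (ρ : Cmp K → ℝ), IsCompact K → Sol K z₀ c A f ρ →
    Sol K z₀ (I * c) (K \ A) (fun z => I * f z) ρ
  back : ∀ (K A : Set ℂ) (z₀ c : ℂ) (f : ℂ → ℂ) (ρ : Cmp K → ℝ), IsCompact K →
    Sol K z₀ (I * c) A f ρ → Sol K z₀ c (K \ A) (fun z => - I * f z) ρ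
  dist : ∀ (K : Set ℂ) (f g : ℂ → ℂ) (ρ σ : Cmp K → ℝ),
    d2 K f ρ (fun z => - I * g z) σ = d2 K (fun z => I * f z) ρ g σ

/-- The dual condition extends across finitely many components. -/
def S_al : Prop :=
  ∀ (K T : Set ℂ) (z₀ c : ℂ) (f : ℂ → ℂ) (ρ : Cmp K → ℝ) (F₀ : Finset (Cmp K)), Base K z₀ c →
    Pre K z₀ c f ρ → Clo K T →
    ((∀ Q, Clo K Q → Q ⊆ T → (∀ p ∈ F₀, ¬ p.1 ⊆ Q) → Star K Q (ru f) ρ) → Star K T (ru f) ρ) ∧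
    ((∀ Q, Clo K Q → Q ⊆ T → (∀ p ∈ F₀, ¬ p.1 ⊆ Q) → Star K Q (iv f) ρ) → Star K T (iv f) ρ)

/-- A smooth step across a continuum in a vertical strip. -/
def S_step : Prop :=
  ∀ (Z O : Set ℂ) (x₁ x₂ δ : ℝ), IsCompact Z → IsPreconnected Z → (∃ z ∈ Z, z.re ≤ x₁) →
    (∃ z ∈ Z, x₂ ≤ z.re) → IsOpen O → Z ⊆ O → 0 < δ →
    ∃ (Φ : ℂ → ℝ) (L : ℝ≥0) (C : Set ℂ), IsCompact C ∧ C ⊆ O ∧ Wt Φ 1 L Cᶜ ∧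
      (∀ w, Φ w ≠ 0 → x₁ < w.re ∧ w.re < x₂) ∧ x₂ - x₁ - δ ≤ ∫ w, fderiv ℝ Φ w I

/-- The blocking lemma. -/
def S_bl : Prop :=
  ∀ (K A Q : Set ℂ) (z₀ c : ℂ) (f : ℂ → ℂ) (ρ σ : Cmp K → ℝ) (χ β : ℂ → ℝ) (q : Cmp K)
    (x₁ x₂ : ℝ), Base K z₀ c → Sol K z₀ c A f ρ → Clo K Q → Cut K Q χ → Good K Q β σ →
    (∀ z, 0 ≤ β z ∧ β z ≤ 1) → LocC K (A ∩ Q) β → q.1 ⊆ Q →
    (∃ U, IsOpen U ∧ q.1 ⊆ U ∧ ∀ z ∈ U \ K, β z = 1) →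
    (∀ z ∈ tsupport (gr χ), x₁ ≤ (f z).re → (f z).re ≤ x₂ → β z = 0) →
    (∀ U, IsOpen U → q.1 ⊆ U → (∃ z ∈ U \ K, (f z).re < x₁) ∧ ∃ z ∈ U \ K, x₂ < (f z).re) →
    x₂ - x₁ ≤ (∫ z in Kᶜ, χ z * |wd β (ru f) z|) + sm (Q \ A) σ ρ

/-- From blocking bounds to an oscillation bound. -/
def S_gap : Prop :=
  ∀ (K A Q : Set ℂ) (z₀ c : ℂ) (f : ℂ → ℂ) (ρ : Cmp K → ℝ) (χ φ : ℂ → ℝ) (b : ℝ → ℝ) (q : Cmp K)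
    (lo t η x₀ l : ℝ), Base K z₀ c → Sol K z₀ c A f ρ → Clo K Q → Cut K Q χ → q.1 ⊆ Q → 0 ≤ t →
    Clu K q.1 φ lo t → 0 < η → 0 < l → l ≤ η / 5 → (∀ x, 0 ≤ b x ∧ b x ≤ 1) →
    (∀ x ≤ 0, b x = 0) → (∀ x, l ≤ x → b x = 1) →
    (∀ z ∈ tsupport (gr χ), |φ z - (f z).re| ≤ η / 2) →
    (∀ i : ℤ, Disjoint (Icc (x₀ + i * η) (x₀ + i * η + l)) (Icc lo (lo + t)) →
      ∃ σ, Good K Q (fun z => b (φ z - (x₀ + i * η))) σ ∧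
        LocC K (A ∩ Q) (fun z => b (φ z - (x₀ + i * η))) ∧
        (∫ z in Kᶜ, χ z * |wd (fun z => b (φ z - (x₀ + i * η))) (ru f) z|) +
          sm (Q \ A) σ ρ < η) →
    Osc K q.1 (ru f) (t + 8 * η)

/-- The width bound at components of the second type. -/
def S_hp : Prop :=
  ∀ (K A : Set ℂ) (z₀ c : ℂ) (f : ℂ → ℂ) (ρ : Cmp K → ℝ) (p : Cmp K), Base K z₀ c →
    Sol K z₀ c A f ρ → p.1 ⊆ K \ A → Osc K p.1 (ru f) (ρ p)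

/-- The two identities and monotonicity. -/
structure S_mono : Prop where
  iden : ∀ (K : Set ℂ) (c : ℂ) (f g : ℂ → ℂ) (ρ σ : Cmp K → ℝ), IsCompact K → Hol K c f →
    Hol K c g → Sq ρ → Sq σ → - om K K (ru f) (iv f) = sm K ρ ρ →
    - om K K (ru g) (iv g) = sm K σ σ →
    d2 K f ρ g σ = - (om K K (ru f) (iv g) + sm K ρ σ) - (om K K (ru g) (iv f) + sm K ρ σ) ∧
      om K K (ru f) (iv g) - om K K (ru g) (iv f) = Lam K c g - Lam K c f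
  half : ∀ (K A A' : Set ℂ) (z₀ c : ℂ) (f g : ℂ → ℂ) (ρ σ : Cmp K → ℝ), Base K z₀ c →
    Sol K z₀ c A f ρ → Sol K z₀ c A' g σ → A' ⊆ A → 0 ≤ om K K (ru g) (iv f) + sm K ρ σ
  mono : ∀ (K A A' : Set ℂ) (z₀ c : ℂ) (f g : ℂ → ℂ) (ρ σ : Cmp K → ℝ), Base K z₀ c →
    Sol K z₀ c A f ρ → Sol K z₀ c A' g σ → A' ⊆ A → d2 K f ρ g σ ≤ Lam K c f - Lam K c g

/-- Switching the type near finitely many components. -/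
def S_s1 : Prop :=
  ∀ (K A : Set ℂ) (z₀ c : ℂ) (f : ℂ → ℂ) (ρ : Cmp K → ℝ) (F : Finset (Cmp K)) (r : ℝ),
    Base K z₀ c → Sol K z₀ c A f ρ → 0 < r →
    ∃ A' g σ, Sol K z₀ c A' g σ ∧ A' ⊆ A ∧ (∀ p ∈ F, p.1 ⊆ K \ A') ∧ d2 K f ρ g σ ≤ r

/-- The switching estimate. -/
def S_sw : Prop :=
  ∀ K A : Set ℂ, IsCompact K → Clo K A → ∃ ε₀ > 0, ∀ (T : Set ℂ) (z₀ c : ℂ) (f g : ℂ → ℂ)
    (ρ σ s o : Cmp K → ℝ) (χ₀ φ : ℂ → ℝ) (h : ℝ → ℝ) (L : ℝ≥0) (ε D : ℝ), Base K z₀ c →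
    Sol K z₀ c A f ρ → Clo K T → T ⊆ A → Sol K z₀ c (A \ T) g σ → Cut K K χ₀ →
    ContDiff ℝ 2 h → (∀ x, 0 ≤ deriv h x ∧ deriv h x ≤ 1) → LipschitzWith L (deriv h) →
    ε ≤ ε₀ → Apx K K (ru f) ρ ε φ s → Good K K (fun z => h (φ z)) o →
    LocC K T (fun z => φ z - h (φ z)) → 0 ≤ D → ε ≤ D → ε * sm K ρ ρ ≤ D ^ 2 →
    en (thickening ε K \ K) (ru f) ≤ D → sm K o ρ ≤ D →
    ∫ z in tsupport χ₀ \ K, deriv h (f z).re * ‖gr (ru f) z‖ ^ 2 ≤ D →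
    ∫ z in Kᶜ, h (f z).re ^ 2 * ‖gr χ₀ z‖ ^ 2 ≤ D →
    ∫ w in img K f K, deriv h w.re ≤ D → d2 K f ρ g σ ≤ 200 * D

/-- Plateau functions. -/
def S_plat : Prop :=
  ∃ Cs > 0, ∀ (μ : ℝ) (N : ℕ), 0 < μ → 0 < N → ∃ (h : ℕ → ℝ → ℝ) (b : ℝ → ℝ),
    (∀ k, ContDiff ℝ 2 (h k) ∧ (∀ x, 0 ≤ deriv (h k) x ∧ deriv (h k) x ≤ 1) ∧
      (∃ L, LipschitzWith L (deriv (h k))) ∧ (∀ x, |h k x| ≤ |x| / N + 10 * μ) ∧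
      ∀ (i : ℤ) (x : ℝ), 10 * μ * k + μ + i * (10 * μ * N) ≤ x →
        x ≤ 10 * μ * k + 9 * μ + i * (10 * μ * N) → deriv (h k) x = 1) ∧
    (∀ x, ∑ k ∈ Finset.range N, deriv (h k) x ≤ 1) ∧
    ContDiff ℝ 2 b ∧ (∀ x, 0 ≤ b x ∧ b x ≤ 1) ∧ (∀ x ≤ 0, b x = 0) ∧ (∀ x, 2 * μ ≤ x → b x = 1) ∧
    ∀ x, 0 ≤ deriv b x ∧ deriv b x ≤ Cs / μ

/-- The transitional set. -/
def S_trans : Prop :=
  ∀ (K A : Set ℂ) (φ : ℂ → ℝ) (s : Cmp K → ℝ) (μ : ℝ) (x : ℤ → ℝ), IsCompact K → Clo K A →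
    Good K K φ s → 0 < μ → (∀ p : Cmp K, p.1 ⊆ A → s p ≤ μ) →
    ∃ T, Clo K T ∧ T ⊆ A ∧
      (∀ g : ℝ → ℝ, (∀ i, ∀ y ∈ Icc (x i - 3 * μ) (x i + 5 * μ),
        ∀ y' ∈ Icc (x i - 3 * μ) (x i + 5 * μ), g y = g y') → LocC K T fun z => g (φ z)) ∧
      ∀ (i : ℤ) (β : ℝ → ℝ), (∀ y ≤ x i, β y = 0) → (∀ y, x i + 2 * μ ≤ y → β y = 1) →
        LocC K (A \ T) fun z => β (φ z)

/-- Estimates for the blocking bound. -/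
structure S_est : Prop where
  int : ∀ (K Q : Set ℂ) (χ φ u u' : ℂ → ℝ) (β κ : ℝ → ℝ) (Λ : ℝ), IsCompact K → Clo K Q →
    Cut K Q χ → Adm K φ → Adm K u → Adm K u' → IntegrableOn (fun z => ‖gr (φ - u) z‖ ^ 2) Kᶜ →
    IntegrableOn (fun z => ‖gr (u - u') z‖ ^ 2) Kᶜ → ContDiff ℝ 1 β → Continuous κ →
    (∀ x, 0 ≤ κ x ∧ κ x ≤ 1) → 0 ≤ Λ → (∀ x, |deriv β x| ≤ Λ * κ x) →
    ∫ z in Kᶜ, χ z * |wd (fun z => β (φ z)) u' z| ≤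
      Λ * (√(en Kᶜ (φ - u)) * √(en (tsupport χ \ K) u') +
        √(∫ z in tsupport χ \ K, κ (φ z) * ‖gr u z‖ ^ 2) * √(en Kᶜ (u - u')))
  good : ∀ (K : Set ℂ) (φ : ℂ → ℝ) (s lo : Cmp K → ℝ) (h β : ℝ → ℝ) (Λ : ℝ), IsCompact K →
    Good K K φ s → (∀ p : Cmp K, Clu K p.1 φ (lo p) (s p)) → ContDiff ℝ 1 h → ContDiff ℝ 1 β →
    (∀ x, 0 ≤ deriv h x ∧ deriv h x ≤ 1) → 0 ≤ Λ →
    (∀ x, 0 ≤ deriv β x ∧ deriv β x ≤ Λ * deriv h x) →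
    Good K K (fun z => β (φ z)) fun p => Λ * (h (lo p + s p) - h (lo p))
  pig : ∀ (K T S : Set ℂ) (s lo ρ : Cmp K → ℝ) (h : ℕ → ℝ → ℝ) (N : ℕ) (a j : ℂ → ℝ), Sq s → Sq ρ →
    (∀ k, ContDiff ℝ 1 (h k) ∧ ∀ x, 0 ≤ deriv (h k) x ∧ deriv (h k) x ≤ 1) →
    (∀ x, ∑ k ∈ Finset.range N, deriv (h k) x ≤ 1) →
    (∀ k, Sq (fun p => h k (lo p + s p) - h k (lo p)) ∧ ∀ p, h k (lo p + s p) - h k (lo p) ≤ s p) ∧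
    ∑ k ∈ Finset.range N, sm T (fun p => h k (lo p + s p) - h k (lo p)) ρ ≤ sm T s ρ ∧
    (AEMeasurable a (volume.restrict S) → IntegrableOn j S → (∀ z, 0 ≤ j z) →
      ∑ k ∈ Finset.range N, ∫ z in S, deriv (h k) (a z) * j z ≤ ∫ z in S, j z)

/-- The core of the density step. -/
def S_core : Prop :=
  ∀ (K : Set ℂ) (z₀ c : ℂ) (χ₀ : ℂ → ℝ) (η E : ℝ), Base K z₀ c → Cut K K χ₀ → 0 < η → 0 < E →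
    ∃ e > 0, ∀ (K₁ : Set ℂ) (χ₁ : ℂ → ℝ) (r : ℝ), Clo K K₁ → Cut K K₁ χ₁ → 0 < r →
      ∃ δ > 0, ∀ (A : Set ℂ) (f : ℂ → ℂ) (ρ : Cmp K → ℝ), Sol K z₀ c A f ρ →
        en (tsupport χ₀ \ K) (ru f) ≤ E → sm K ρ ρ ≤ E →
        (∀ z ∈ tsupport (gr χ₀), |(f z).re| ≤ E) →
        en (tsupport χ₁ \ K) (ru f) ≤ e → sm K₁ ρ ρ ≤ e → (∀ p : Cmp K, p.1 ⊆ A → ρ p ≤ δ) →
        ∃ A' g σ, Sol K z₀ c A' g σ ∧ d2 K f ρ g σ ≤ r ∧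
          ∀ q : Cmp K, q.1 ⊆ K₁ → Osc K q.1 (ru g) (σ q + 9 * η)

/-- Certificates. -/
structure S_cert : Prop where
  cell : ∀ (K U : Set ℂ) (θ : ℂ → ℝ) (q : Cmp K) (t t' η : ℝ), Ctx K → Osc K q.1 θ t → t < t' →
    0 < η → IsOpen U → q.1 ⊆ U → ∃ W t'', IsOpen W ∧ q.1 ⊆ W ∧ W ⊆ thickening η q.1 ∧ W ⊆ U ∧
      Disjoint (frontier W) K ∧ t'' < t' ∧ ∀ z ∈ W \ K, ∀ w ∈ W \ K, θ z - θ w ≤ t''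
  stabW : ∀ (K W : Set ℂ) (z₀ c : ℂ) (f : ℂ → ℂ) (ρ : Cmp K → ℝ) (l : ℂ →L[ℝ] ℝ) (t δ : ℝ),
    Base K z₀ c → Pre K z₀ c f ρ → IsOpen W → Bornology.IsBounded W → Disjoint (frontier W) K →
    (∀ z ∈ W \ K, ∀ w ∈ W \ K, l (f z) - l (f w) ≤ t) → 0 < δ →
    ∃ r > 0, ∀ g σ, Pre K z₀ c g σ → d2 K f ρ g σ ≤ r →
      ∀ z ∈ W \ K, ∀ w ∈ W \ K, l (g z) - l (g w) ≤ t + δ
  stab : ∀ (K : Set ℂ) (z₀ c : ℂ) (f : ℂ → ℂ) (ρ : Cmp K → ℝ) (η : ℝ), Base K z₀ c →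
    Pre K z₀ c f ρ →
    (Cert K (ru f) ρ η → ∃ r > 0, ∀ g σ, Pre K z₀ c g σ → d2 K f ρ g σ ≤ r → Cert K (ru g) σ η) ∧
    (Cert K (iv f) ρ η → ∃ r > 0, ∀ g σ, Pre K z₀ c g σ → d2 K f ρ g σ ≤ r → Cert K (iv g) σ η)
  fin : ∀ (K : Set ℂ) (θ : ℂ → ℝ) (ρ : Cmp K → ℝ), IsCompact K → Sq ρ →
    (∀ n : ℕ, Cert K θ ρ (1 / (n + 1))) → ∀ q : Cmp K, Osc K q.1 θ (ρ q)

/-- The density step for the real part. -/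
def S_ustep : Prop :=
  ∀ (K A : Set ℂ) (z₀ c : ℂ) (f : ℂ → ℂ) (ρ : Cmp K → ℝ) (r η : ℝ), Base K z₀ c →
    Sol K z₀ c A f ρ → 0 < r → 0 < η →
    ∃ A' g σ, Sol K z₀ c A' g σ ∧ d2 K f ρ g σ ≤ r ∧ Cert K (ru g) σ η

/-- The limit of the iteration. -/
def S_baire : Prop :=
  ∀ (K : Set ℂ) (z₀ c : ℂ), Base K z₀ c → ∃ f ρ, Pre K z₀ c f ρ ∧
    ∀ p : Cmp K, Osc K p.1 (ru f) (ρ p) ∧ Osc K p.1 (iv f) (ρ p)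

/-- The limit is a square domain. -/
def S_fin : Prop :=
  ∀ (K : Set ℂ) (z₀ c : ℂ) (f : ℂ → ℂ) (ρ : Cmp K → ℝ), Base K z₀ c → Pre K z₀ c f ρ →
    (∀ p : Cmp K, Osc K p.1 (ru f) (ρ p) ∧ Osc K p.1 (iv f) (ρ p)) →
    ∀ w ∈ (f '' Kᶜ)ᶜ, ∃ a b r : ℝ, 0 ≤ r ∧ connectedComponentIn (f '' Kᶜ)ᶜ w = sq a b r

/-- The geometric library. -/
structure Geo : Prop where
  prod : S_prod
  imgA : S_imgA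
  corr : S_corr
  imgB : S_imgB
  max : S_max
  area : S_area
  vol : S_vol
  rot : S_rot

theorem Pre.uni {K : Set ℂ} {z₀ c : ℂ} {f : ℂ → ℂ} {ρ : Cmp K → ℝ} (hb : Base K z₀ c)
    (h : Pre K z₀ c f ρ) : Uni K c f := ⟨hb.toCtx, hb.ne, h.hol, h.inj⟩

theorem pr_ru_iv (f : ℂ → ℂ) (z : ℂ) : pr (ru f) (iv f) z = f z := rfl

theorem s_sol (L : Lib) (hex : S_ex) (hiso : S_iso) (huv : S_uv) : S_sol := by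
  intro K A z₀ c hb hA
  obtain ⟨f, ρ, hf, h0, hau, hav, hsv, hsu, har⟩ := hex K A z₀ c hb hA
  have hc := L.hol.c1 Kᶜ f hb.cpt.isClosed.isOpen_compl hf.1
  have hB := L.cmp.clo_compl K A hA
  have h1 : Appr K K (ru f) ρ :=
    L.star.aunion K A _ _ hb.cpt hA hau (hiso K _ _ _ hb.toCtx hB hc.1 hsu)
  have h2 : Appr K K (iv f) ρ :=
    L.star.aunion K A _ _ hb.cpt hA (hiso K _ _ _ hb.toCtx hA hc.2 hsv) hav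
  have hp : Pre0 K z₀ c f ρ :=
    ⟨hf, h0, h1, h2, L.star.area K A _ _ ρ hb.cpt hA h1 h2 hsv hsu har⟩
  exact ⟨f, ρ, ⟨hp, huv K A z₀ c f ρ hb hp hA hsv hsu⟩, hA, hsv, hsu⟩

theorem squareThm (L : Lib) (hb : S_baire) (hf : S_fin) : SquareThm := by
  intro K hK hG
  obtain ⟨z₀, hz⟩ : ∃ z₀, z₀ ∉ K := by
    by_contra h
    push Not at h
    have : K = univ := eq_univ_of_forall h
    exact noncompact_univ ℂ (this ▸ hK)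
  have hB : Base K z₀ 1 := ⟨⟨hK, hG⟩, hz, one_ne_zero⟩
  obtain ⟨f, ρ, hp, ho⟩ := hb K z₀ 1 hB
  obtain ⟨⟨c₀, hc⟩, -⟩ := L.decay K 1 f hK hp.hol
  refine ⟨f, c₀, hp.hol.1, hp.inj, by simpa using hc, hf K z₀ 1 f ρ hB hp ho⟩

end Vale.Agent.P116
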