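import Vale.Agent.P116.AStm

/-! Step A: Stokes for Lipschitz functions. -/

open Set Filter Topology MeasureTheory Metric Complex
open scoped ENNReal NNReal

noncomputable section
namespace Vale.Agent.P116

theorem stokes_quot {f : ℂ → ℝ} {C : ℝ≥0} (hf : LipschitzWith C f) (v x : ℂ) {t : ℝ}
    (ht : 0 < t) : ‖t⁻¹ • (f (x + t • v) - f x)‖ ≤ C * ‖v‖ :=
  calc ‖t⁻¹ • (f (x + t • v) - f x)‖ = t⁻¹ * ‖f (x + t • v) - f x‖ := by
        rw [norm_smul, Real.norm_of_nonneg (inv_nonneg.2 ht.le)]
    _ ≤ t⁻¹ * (C * ‖(x + t • v) - x‖) :=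
        mul_le_mul_of_nonneg_left (hf.norm_sub_le (x + t • v) x) (inv_nonneg.2 ht.le)
    _ = C * ‖v‖ := by
        rw [add_sub_cancel_left, norm_smul, Real.norm_of_nonneg ht.le]
        field_simp

theorem stokes_lim {f g : ℂ → ℝ} {C D : ℝ≥0} (hf : LipschitzWith C f) (h'f : HasCompactSupport f)
    (hg : LipschitzWith D g) (v w : ℂ) :
    Tendsto (fun t : ℝ => ∫ x, (t⁻¹ • (f (x + t • v) - f x)) * (t⁻¹ • (g (x + t • w) - g x)))
      (𝓝[>] 0) (𝓝 (∫ x, lineDeriv ℝ f x v * lineDeriv ℝ g x w)) := by
  have hK : IsCompact (cthickening ‖v‖ (tsupport f)) := IsCompact.cthickening h'f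
  have hfc := hf.continuous
  have hgc := hg.continuous
  apply tendsto_integral_filter_of_dominated_convergence
      ((cthickening ‖v‖ (tsupport f)).indicator fun _ => (C * ‖v‖) * (D * ‖w‖))
  · filter_upwards with t
    exact Continuous.aestronglyMeasurable (by fun_prop)
  · filter_upwards [Ioc_mem_nhdsGT zero_lt_one] with t ht
    filter_upwards with x
    by_cases hx : x ∈ cthickening ‖v‖ (tsupport f)
    · rw [indicator_of_mem hx, norm_mul]
      exact mul_le_mul (stokes_quot hf v x ht.1) (stokes_quot hg w x ht.1) (norm_nonneg _)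
        (by positivity)
    · have A : f x = 0 := by
        by_contra h
        exact hx (self_subset_cthickening _ (subset_tsupport _ h))
      have B : f (x + t • v) = 0 := by
        by_contra h
        refine hx (mem_cthickening_of_dist_le _ _ ‖v‖ (tsupport f) (subset_tsupport _ h) ?_)
        rw [dist_comm, dist_eq_norm, add_sub_cancel_left, norm_smul, Real.norm_of_nonneg ht.1.le]
        exact mul_le_of_le_one_left (norm_nonneg v) ht.2
      rw [indicator_of_notMem hx, A, B, sub_self, smul_zero, zero_mul, norm_zero]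
  · rw [integrable_indicator_iff hK.measurableSet]
    exact continuousOn_const.integrableOn_compact hK
  · filter_upwards [hf.ae_lineDifferentiableAt v, hg.ae_lineDifferentiableAt w] with x hx hx'
    exact hx.hasLineDerivAt.tendsto_slope_zero_right.mul hx'.hasLineDerivAt.tendsto_slope_zero_right

theorem stokes_exp {f g : ℂ → ℝ} (hf : Continuous f) (h'f : HasCompactSupport f)
    (hg : Continuous g) (p q : ℂ) :
    ∫ x, (f (x + p) - f x) * (g (x + q) - g x) = (∫ x, f x * g (x + (q - p))) -
      (∫ x, f x * g (x + -p)) - (∫ x, f x * g (x + q)) + ∫ x, f x * g x := by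
  have hi : ∀ a b : ℂ, Integrable fun x => f (x + a) * g (x + b) := fun a b =>
    Continuous.integrable_of_hasCompactSupport (by fun_prop)
      (h'f.comp_homeomorph (Homeomorph.addRight a)).mul_right
  have h1 := hi p q
  have h2 : Integrable fun x => f (x + p) * g x := by simpa using hi p 0
  have h3 : Integrable fun x => f x * g (x + q) := by simpa using hi 0 q
  have h4 : Integrable fun x => f x * g x := by simpa using hi 0 0
  have e1 : ∫ x, f (x + p) * g (x + q) = ∫ x, f x * g (x + (q - p)) := by
    rw [← integral_add_right_eq_self (fun x => f x * g (x + (q - p))) p]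
    refine integral_congr_ae (Eventually.of_forall fun x => ?_)
    have : x + p + (q - p) = x + q := by ring
    simp only [this]
  have e2 : ∫ x, f (x + p) * g x = ∫ x, f x * g (x + -p) := by
    rw [← integral_add_right_eq_self (fun x => f x * g (x + -p)) p]
    refine integral_congr_ae (Eventually.of_forall fun x => ?_)
    have : x + p + -p = x := by ring
    simp only [this]
  have h12 : Integrable fun x => f (x + p) * g (x + q) - f (x + p) * g x := h1.sub h2
  have h123 : Integrable fun x => f (x + p) * g (x + q) - f (x + p) * g x - f x * g (x + q) :=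
    h12.sub h3
  rw [← e1, ← e2, ← integral_sub h1 h2, ← integral_sub h12 h3, ← integral_add h123 h4]
  refine integral_congr_ae (Eventually.of_forall fun x => ?_)
  ring

theorem stokes_sym {f g : ℂ → ℝ} {C D : ℝ≥0} (hf : LipschitzWith C f) (h'f : HasCompactSupport f)
    (hg : LipschitzWith D g) (v w : ℂ) :
    ∫ x, lineDeriv ℝ f x v * lineDeriv ℝ g x w = ∫ x, lineDeriv ℝ f x w * lineDeriv ℝ g x v := by
  have A := stokes_lim hf h'f hg v w
  have B := stokes_lim hf h'f hg (-w) (-v)
  simp only [lineDeriv_neg, neg_mul_neg] at B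
  refine tendsto_nhds_unique A (B.congr fun t => ?_)
  have e : ∀ a b : ℝ, (t⁻¹ • a) * (t⁻¹ • b) = t⁻¹ * t⁻¹ * (a * b) := fun a b => by
    simp only [smul_eq_mul]
    ring
  simp only [e, integral_const_mul]
  rw [stokes_exp hf.continuous h'f hg.continuous, stokes_exp hf.continuous h'f hg.continuous]
  have e1 : t • -v - t • -w = t • w - t • v := by
    rw [smul_neg, smul_neg]
    ring
  rw [e1, smul_neg, smul_neg, neg_neg]
  ring

theorem stokes_int {f g : ℂ → ℝ} {C D : ℝ≥0} (hf : LipschitzWith C f) (h'f : HasCompactSupport f)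
    (hg : LipschitzWith D g) (v w : ℂ) :
    Integrable fun x => lineDeriv ℝ f x v * lineDeriv ℝ g x w := by
  have h1 : Integrable fun x => lineDeriv ℝ f x v := by
    refine (integrableOn_iff_integrable_of_support_subset (s := tsupport f) fun x hx => ?_).1
      ((hf.locallyIntegrable_lineDeriv v).integrableOn_isCompact h'f)
    by_contra h
    have h0 : f =ᶠ[𝓝 x] 0 := notMem_tsupport_iff_eventuallyEq.1 h
    refine hx ?_
    have h2 : HasFDerivAt f (0 : ℂ →L[ℝ] ℝ) x :=
      (hasFDerivAt_const (0 : ℝ) x).congr_of_eventuallyEq h0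
    exact (h2.hasLineDerivAt v).lineDeriv
  exact h1.mul_of_top_left (hg.memLp_lineDeriv w)

theorem stokes_lip {U : Set ℂ} {a : ℂ → ℝ} (hU : IsOpen U) (ha : LocallyLipschitzOn U a)
    (hc : HasCompactSupport a) (hs : tsupport a ⊆ U) : ∃ C, LipschitzWith C a := by
  obtain ⟨δ, hδ, hT⟩ := IsCompact.exists_cthickening_subset_open hc hU hs
  have hK : IsCompact (cthickening δ (tsupport a)) := IsCompact.cthickening hc
  obtain ⟨L, hL⟩ := (ha.mono hT).exists_lipschitzOnWith_of_compact hK
  obtain ⟨M, hM⟩ := IsCompact.exists_bound_of_continuousOn hc (ha.continuousOn.mono hs)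
  have key : ∀ x y, y ∉ cthickening δ (tsupport a) →
      dist (a x) (a y) ≤ (L + |M| / δ) * dist x y := by
    intro x y hy
    have hy0 : a y = 0 := by
      by_contra h
      exact hy (self_subset_cthickening _ (subset_tsupport _ h))
    by_cases hx : x ∈ tsupport a
    · have h1 : δ ≤ dist x y := by
        by_contra h
        exact hy (mem_cthickening_of_dist_le _ _ δ _ hx (by rw [dist_comm]; exact (not_le.1 h).le))
      rw [hy0, dist_zero_right]
      calc ‖a x‖ ≤ |M| := (hM x hx).trans (le_abs_self M)
        _ = |M| / δ * δ := by field_simp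
        _ ≤ (L + |M| / δ) * dist x y :=
          mul_le_mul (le_add_of_nonneg_left L.2) h1 hδ.le (by positivity)
    · rw [hy0, image_eq_zero_of_notMem_tsupport hx, dist_self]
      positivity
  refine ⟨⟨L + |M| / δ, by positivity⟩, LipschitzWith.of_dist_le_mul fun x y => ?_⟩
  show dist (a x) (a y) ≤ (L + |M| / δ) * dist x y
  by_cases hy : y ∈ cthickening δ (tsupport a)
  · by_cases hx : x ∈ cthickening δ (tsupport a)
    · exact (hL.dist_le_mul x hx y hy).trans
        (mul_le_mul_of_nonneg_right (le_add_of_nonneg_right (by positivity)) dist_nonneg)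
    · rw [dist_comm, dist_comm x]
      exact key y x hx
  · exact key x y hy

theorem s_stokes : S_stokes := by
  intro U a b hU ha hb hc hs
  obtain ⟨C, hC⟩ := stokes_lip hU ha hc hs
  obtain ⟨δ, hδ, hT⟩ := IsCompact.exists_cthickening_subset_open hc hU hs
  have hK : IsCompact (cthickening δ (tsupport a)) := IsCompact.cthickening hc
  obtain ⟨L, hL⟩ := (hb.mono hT).exists_lipschitzOnWith_of_compact hK
  obtain ⟨B, hB, hbB⟩ := hL.extend_real
  have h0 : ∀ z, z ∉ tsupport a → ∀ c, wd a c z = 0 := fun z hz c => by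
    have h1 : fderiv ℝ a z = 0 := by
      rw [(notMem_tsupport_iff_eventuallyEq.1 hz).fderiv_eq]
      simp
    simp [wd, h1]
  have h1 : wd a b = wd a B := by
    funext z
    by_cases hz : z ∈ tsupport a
    · have : b =ᶠ[𝓝 z] B := hbB.eventuallyEq_of_mem
        (mem_of_superset (isOpen_thickening.mem_nhds (self_subset_thickening hδ _ hz))
          (thickening_subset_cthickening _ _))
      simp only [wd, this.fderiv_eq]
    · rw [h0 z hz, h0 z hz]
  have h2 : wd a B =ᵐ[volume] fun z =>
      lineDeriv ℝ a z 1 * lineDeriv ℝ B z I - lineDeriv ℝ a z I * lineDeriv ℝ B z 1 := by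
    filter_upwards [hC.ae_differentiableAt, hB.ae_differentiableAt] with z h h'
    simp only [wd, h.lineDeriv_eq_fderiv, h'.lineDeriv_eq_fderiv]
  have i1 := stokes_int hC hc hB 1 I
  have i2 := stokes_int hC hc hB I 1
  refine ⟨?_, ?_⟩
  · rw [h1]
    exact ((i1.sub i2).congr h2.symm).integrableOn
  · rw [setIntegral_eq_integral_of_forall_compl_eq_zero fun z hz => h0 z (fun h => hz (hs h)) b,
      h1, integral_congr_ae h2, integral_sub i1 i2, stokes_sym hC hc hB, sub_self]

end Vale.Agent.P116
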