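import Vale.Agent.P116.AStm2

/-! Step A (square domains): the switching estimate. -/

open Set Filter Topology MeasureTheory Metric Complex
open scoped ENNReal NNReal

noncomputable section
namespace Vale.Agent.P116

theorem sw_lip {h : ℝ → ℝ} (hh : ContDiff ℝ 2 h) (hd : ∀ x, 0 ≤ deriv h x ∧ deriv h x ≤ 1) :
    LipschitzWith 1 h ∧ LipschitzWith 1 fun x => x - h x := by
  have h1 : Differentiable ℝ h := hh.differentiable (by norm_num)
  refine ⟨lipschitzWith_of_nnnorm_deriv_le h1 fun x => ?_,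
    lipschitzWith_of_nnnorm_deriv_le (differentiable_id.sub h1) fun x => ?_⟩
  · rw [← NNReal.coe_le_coe, coe_nnnorm, Real.norm_of_nonneg (hd x).1]
    exact (hd x).2
  · rw [((hasDerivAt_id' x).fun_sub (h1 x).hasDerivAt).deriv, ← NNReal.coe_le_coe, coe_nnnorm,
      Real.norm_of_nonneg (sub_nonneg.2 (hd x).2)]
    exact sub_le_self _ (hd x).1

theorem sw_re {h : ℝ → ℝ} {L : ℝ≥0} (hL : LipschitzWith L h) :
    LipschitzWith L fun w : ℂ => h w.re := by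
  have := hL.comp (RCLike.lipschitzWith_re (K := ℂ))
  rw [mul_one] at this
  exact this

theorem sw_wt {h : ℝ → ℝ} {L : ℝ≥0} (hh : ContDiff ℝ 2 h)
    (hd : ∀ x, 0 ≤ deriv h x ∧ deriv h x ≤ 1) (hL : LipschitzWith L (deriv h)) (S : Set ℂ) :
    Wt (fun w => deriv h w.re) 1 L S := by
  have h1 : ContDiff ℝ 1 (deriv h) := hh.iterate_deriv' 1 1
  refine ⟨h1.comp reCLM.contDiff, fun w => hd _, sw_re hL, fun w _ => ?_⟩
  have h2 := ((h1.differentiable one_ne_zero w.re).hasDerivAt.comp_hasFDerivAt w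
    reCLM.hasFDerivAt).fderiv
  have h3 : (fun w : ℂ => deriv h w.re) = deriv h ∘ re := rfl
  rw [h3, h2]
  simp

theorem sw_en (L : Lib) {K : Set ℂ} {χ : ℂ → ℝ} {c : ℂ} {f : ℂ → ℂ} {h : ℝ → ℝ} (hK : IsCompact K)
    (hχ : Cut K K χ) (hf : Hol K c f) (hh : ContDiff ℝ 2 h)
    (hd : ∀ x, 0 ≤ deriv h x ∧ deriv h x ≤ 1) :
    en (tsupport χ \ K) (fun z => h (ru f z)) ≤
      ∫ z in tsupport χ \ K, deriv h (f z).re * ‖gr (ru f) z‖ ^ 2 := by
  have hO := hK.isClosed.isOpen_compl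
  have hS : MeasurableSet (tsupport χ \ K) :=
    (isClosed_tsupport χ).measurableSet.diff hK.measurableSet
  have hu := (L.hol.c1 _ f hO hf.1).1
  have hi := (L.omC.cuten K K χ (ru f) hK (L.cmp.clo_self K hK.isClosed) hχ
    (L.hol.adm K c f hK.isClosed hf).1).2.1
  refine integral_mono_of_nonneg (.of_forall fun z => sq_nonneg _) ?_
    ((ae_restrict_iff' hS).2 (.of_forall fun z hz => ?_))
  · refine Integrable.bdd_mul (c := 1) hi (ContinuousOn.aestronglyMeasurable ?_ hS)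
      (.of_forall fun z => ?_)
    · exact (hh.continuous_deriv (by norm_num)).comp_continuousOn
        (hu.continuousOn.mono fun z hz => hz.2)
    · rw [Real.norm_of_nonneg (hd _).1]
      exact (hd _).2
  · have h1 : DifferentiableAt ℝ (ru f) z :=
      (hu.contDiffAt (hO.mem_nhds hz.2)).differentiableAt one_ne_zero
    have h2 := ((hh.differentiable (by norm_num) (ru f z)).hasDerivAt.comp_hasFDerivAt z
      h1.hasFDerivAt).fderiv
    have h3 : (fun z => h (ru f z)) = h ∘ ru f := rfl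
    have h4 : 0 ≤ deriv h (ru f z) ∧ deriv h (ru f z) ≤ 1 := hd _
    show ‖gr (fun z => h (ru f z)) z‖ ^ 2 ≤ deriv h (ru f z) * ‖gr (ru f) z‖ ^ 2
    rw [L.adm.nrm, L.adm.nrm, h3, h2, norm_smul, Real.norm_of_nonneg h4.1, mul_pow]
    exact mul_le_mul_of_nonneg_right (by nlinarith) (sq_nonneg _)

theorem sw_B (L : Lib) (G : Geo) (ls : S_ls) {K A : Set ℂ} {z₀ c : ℂ} {f : ℂ → ℂ} {ρ τ : Cmp K → ℝ}
    {h : ℝ → ℝ} {Lh : ℝ≥0} {w : ℂ → ℝ} (hb : Base K z₀ c) (hf : Sol K z₀ c A f ρ)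
    (hh : ContDiff ℝ 2 h) (hd : ∀ x, 0 ≤ deriv h x ∧ deriv h x ≤ 1)
    (hL : LipschitzWith Lh (deriv h)) (hw : Appr K K w τ) :
    |om K (K \ A) (fun z => h (ru f z)) w| ≤ sm (K \ A) τ (mw K f ρ fun w => deriv h w.re) := by
  have hK := hb.cpt
  have hB := L.cmp.clo_compl K A hf.clo
  have hu := (L.hol.adm K c f hK.isClosed hf.hol).1
  have h1 := (sw_lip hh hd).1
  have a1 := (L.comp.adm1 K _ h 1 hK.isClosed hu h1).1
  have a2 := (L.comp.adm1 K _ _ Lh hK.isClosed hu hL).1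
  have wt := sw_wt hh hd hL (img K f (K \ A))
  rw [L.omB.anti K _ _ w hK hB a1 hw.1, abs_neg]
  refine L.star.pairw K _ w _ τ _ hK hB (L.star.amono K K _ w τ diff_subset hw) a1
    (G.vol.mw K K z₀ c f ρ _ 1 hb hf.toPre (L.cmp.clo_self K hK.isClosed) wt.c1.continuous wt.bd).1
    fun θ s M hθ hM => ?_
  rw [L.omD.chain K _ θ _ h 1 hK hB hθ.1 hu hh h1 (L.adm.mul K θ _ (max M 1) hK.isClosed hθ.1 a2
    (fun z hz => (hM z hz).trans (le_max_left _ _)) fun z _ =>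
      le_trans (by rw [abs_of_nonneg (hd _).1]; exact (hd _).2) (le_max_right _ _))]
  exact ls K _ z₀ c f ρ s ∅ θ _ 1 M Lh hb hf.toPre hB
    (fun Q hQ hs _ => L.star.mono K _ Q _ ρ hK hB hQ hs hf.su) hθ hM wt

theorem sw_sqrt {x y k D : ℝ} (hk : 0 ≤ k) (h : x ≤ k ^ 2 * D) (hy : 0 ≤ y) :
    √x * y ≤ k * (√D * y) := by
  have := Real.sqrt_le_sqrt h
  rw [Real.sqrt_mul (sq_nonneg k), Real.sqrt_sq hk] at this
  rw [← mul_assoc]
  exact mul_le_mul_of_nonneg_right this hy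

theorem s_sw (L : Lib) (G : Geo) (mono : S_mono) (ls : S_ls) : S_sw := by
  intro K A hK hA
  obtain ⟨ε₀, hε₀, near⟩ := L.omC.near K A hK hA
  refine ⟨ε₀, hε₀, fun T z₀ c f g ρ σ s o χ₀ φ h Lh ε D hb hf hT hTA hg hχ hh hd hL hε hφ ho hloc
    hD e1 e2 e3 e4 e5 e6 e7 => ?_⟩
  have hC := hK.isClosed
  have hKK := L.cmp.clo_self K hC
  have hB := L.cmp.clo_compl K A hA
  have hA' := hg.clo
  obtain ⟨au, av⟩ := L.hol.adm K c f hC hf.hol
  obtain ⟨-, av'⟩ := L.hol.adm K c g hC hg.hol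
  have qρ := hf.au.2.1
  have qσ := hg.au.2.1
  obtain ⟨⟨aφ, qs, oφ⟩, f1, f2, f3⟩ := hφ
  obtain ⟨l1, l2⟩ := sw_lip hh hd
  have ahu := (L.comp.adm1 K _ h 1 hC au l1).1
  have ahφ := ho.1
  have agφ := (L.comp.adm1 K _ _ 1 hC aφ l2).1
  have ae := L.adm.sub K _ _ hC av av'
  have ie := (L.hol.sub K c f g hC hf.hol hg.hol).2.2.2.1
  have hε0 : 0 ≤ ε := (L.sm.nonneg K K _).trans f3
  have hS : MeasurableSet (thickening ε K \ K) :=
    isOpen_thickening.measurableSet.diff hK.measurableSet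
  obtain ⟨-, n1, -, n2⟩ := L.d2.enl K _ c f g ρ σ hC hf.hol hg.hol hS (fun z hz => hz.2)
    (hK.isBounded.thickening.subset diff_subset)
  have n3 := L.hol.eneq K _ c f hC hf.hol hS (fun z hz => hz.2)
  have n4 : √(en (thickening ε K \ K) (iv f)) ≤ √D := by
    rw [n3.2, ← n3.1]
    exact Real.sqrt_le_sqrt e3
  have n5 : en (thickening ε K \ K) (iv f - iv g) ≤ en Kᶜ (iv f - iv g) :=
    setIntegral_mono_set ie (.of_forall fun z => sq_nonneg _) (.of_forall fun z hz => hz.2)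
  have uA : A ∪ K \ A = K := union_diff_cancel hA.1
  have uT : A \ T ∪ T = A := diff_union_of_subset hTA
  have splitK : ∀ a b, Adm K a → Adm K b → om K K a b = om K A a b + om K (K \ A) a b :=
    fun a b ha hb => by rw [← L.omB.union K A _ a b hK hA hB disjoint_sdiff_right ha hb, uA]
  have m1 := (mono.iden K c f g ρ σ hK hf.hol hg.hol qρ qσ (hf.area K hKK) (hg.area K hKK)).1
  have m2 := mono.half K A _ z₀ c f g ρ σ hb hf hg diff_subset
  have m3 := splitK _ _ au av'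
  have m4 : sm K ρ σ = sm A ρ σ + sm (K \ A) ρ σ := by
    rw [← L.sm.union K A _ ρ σ hA hB disjoint_sdiff_right qρ.2 qσ.2, uA]
  -- the part on `K \ A`
  have s1 := (abs_le.1 (L.star.pair K _ _ _ σ ρ hK hB
    (L.star.amono K K _ _ σ diff_subset hg.av) hf.su)).2
  rw [L.sm.comm] at s1
  have s2 := L.omB.anti K _ _ _ hK hB au av'
  -- replacing `u` by `φ`
  have t1 := (L.omB.add K A φ (ru f) (iv g) hK hA aφ au av').2.1
  have t2 := (abs_le.1 (near ε _ _ hε (L.adm.sub K _ _ hC aφ au) av'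
    fun z hz => sub_eq_zero.2 (f1 z hz))).2
  have t3 := mul_le_mul (Real.sqrt_le_sqrt (f2.trans e1)) (n1.trans (add_le_add_left n4 _))
    (Real.sqrt_nonneg _) (Real.sqrt_nonneg _)
  -- the part `φ - h φ`
  have u1 := (L.omB.add K A φ _ (iv g) hK hA aφ ahφ av').2.1
  have u2 : om K A (φ - fun z => h (φ z)) (iv g) =
      om K (A \ T) (fun z => φ z - h (φ z)) (iv g) := by
    have := L.omB.union K _ T _ _ hK hA' hT disjoint_sdiff_left agφ av'
    rw [uT, L.omB.locc K T _ _ hK hT agφ av' hloc, add_zero] at this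
    exact this
  have u3 := (abs_le.1 (hg.sv.2.2 (fun z => φ z - h (φ z)) s ⟨agφ, qs, fun p _ => by
    have := L.comp.osc1 K p.1 φ _ 1 _ (oφ p (L.cmp.sub K p)) l2
    rwa [NNReal.coe_one, one_mul] at this⟩)).1
  have u4 := L.sm.mono K _ A s σ s σ qs qσ qs qσ (diff_subset (t := T)) fun _ _ => le_rfl
  have u5 := (L.sm.add K A s ρ σ qs.2 qρ.2 qσ.2).2
  have qd := (L.sm.sqadd K s ρ qs.2 qρ.2).2
  have u6 := (abs_le.1 (L.sm.cs K A _ σ qd qσ.2)).2
  have u7 := mul_le_mul (Real.sqrt_le_sqrt ((L.sm.mono2 K A K _ qd hA.1).trans f3))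
    (L.d2.sml K A f g ρ σ qρ qσ hA.1).1 (Real.sqrt_nonneg _) (Real.sqrt_nonneg _)
  have u8 : √ε * √(sm A ρ ρ) ≤ D := by
    rw [← Real.sqrt_mul hε0]
    exact Real.sqrt_le_iff.2 ⟨hD,
      (mul_le_mul_of_nonneg_left (L.sm.mono2 K A K ρ qρ.2 hA.1) hε0).trans e2⟩
  have u9 := mul_le_mul_of_nonneg_right (Real.sqrt_le_sqrt e1) (Real.sqrt_nonneg (d2 K f ρ g σ))
  -- the part `h φ`
  have v1 := (L.omB.add K A (iv f) (iv g) _ hK hA av av' ahφ).2.2.2
  have v2 := (abs_le.1 (hf.sv.2.2 _ o ⟨ahφ, ho.2.1, fun p _ => ho.2.2 p (L.cmp.sub K p)⟩)).1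
  have v3 := L.sm.mono K A K o ρ o ρ ho.2.1 qρ ho.2.1 qρ hA.1 fun _ _ => le_rfl
  have v4 := (L.omB.add K A _ _ _ hK hA ahφ ahu ae).2.1
  have v5 := (abs_le.1 (near ε _ _ hε (L.adm.sub K _ _ hC ahφ ahu) ae
    fun z hz => sub_eq_zero.2 (congrArg h (f1 z hz)))).2
  have v6 : en Kᶜ ((fun z => h (φ z)) - fun z => h (ru f z)) ≤ 7 ^ 2 * D := by
    refine le_trans (L.comp.close K (ru f) (ru f) φ φ (fun w => h w.re) 1 ε hK au au aφ aφ
      (sw_re l1) f1 f1) ?_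
    rw [NNReal.coe_one]
    linarith
  have v7 := (mul_le_mul_of_nonneg_left (Real.sqrt_le_sqrt (n5.trans n2)) (Real.sqrt_nonneg _)).trans
    (sw_sqrt (by norm_num) v6 (Real.sqrt_nonneg _))
  have v8 := splitK _ _ ahu ae
  have v9 := (abs_le.1 (L.omC.far K K χ₀ _ _ hK hKK hχ ahu ae ie)).2
  have w1 : en Kᶜ (fun z => χ₀ z * h (ru f z)) ≤ 2 ^ 2 * D := by
    have b1 := (L.omC.cuten K K χ₀ _ hK hKK hχ ahu).2.2
    have b2 := sw_en L hK hχ hf.hol hh hd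
    have b3 : ∫ z in Kᶜ, h (ru f z) ^ 2 * ‖gr χ₀ z‖ ^ 2 ≤ D := e6
    linarith
  have w2 := (mul_le_mul_of_nonneg_left (Real.sqrt_le_sqrt n2) (Real.sqrt_nonneg _)).trans
    (sw_sqrt (by norm_num) w1 (Real.sqrt_nonneg _))
  have w3 := (L.omB.add K _ (iv f) (iv g) _ hK hB av av' ahu).2.2.2
  have w4 := (abs_le.1 (sw_B L G ls hb hf hh hd hL hf.av)).1
  have w5 := (abs_le.1 (sw_B L G ls hb hf hh hd hL hg.av)).2
  have wt := sw_wt hh hd hL ∅
  obtain ⟨qm, x1, x2⟩ := G.vol.mw K K z₀ c f ρ _ 1 hb hf.toPre hKK wt.c1.continuous wt.bd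
  generalize (mw K f ρ fun w => deriv h w.re) = m at w4 w5 qm x1 x2
  have x3 := L.sm.mono K (K \ A) K ρ m ρ m qρ qm qρ qm diff_subset fun _ _ => le_rfl
  have x4 := L.sm.mono K (K \ A) K m m ρ m qm qm qρ qm diff_subset fun p _ =>
    mul_le_mul_of_nonneg_right ((x1 p).trans_eq (one_mul _)) (qm.1 p)
  have x5 := (L.sm.add K (K \ A) ρ σ m qρ.2 qσ.2 qm.2).2
  have x6 := (abs_le.1 (L.sm.cs K (K \ A) _ m (L.sm.sqadd K ρ σ qρ.2 qσ.2).2 qm.2)).1
  have x7 := mul_le_mul (Real.sqrt_le_sqrt (L.d2.sml K (K \ A) f g ρ σ qρ qσ diff_subset).2)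
    (Real.sqrt_le_sqrt (x4.trans (x2.trans e7))) (Real.sqrt_nonneg _) (Real.sqrt_nonneg _)
  have y1 := Real.mul_self_sqrt hD
  have y2 := Real.mul_self_sqrt (L.d2.nonneg K f g ρ σ)
  have y3 := sq_nonneg (12 * √D - √(d2 K f ρ g σ))
  linarith

end Vale.Agent.P116
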