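import Vale.Agent.P116.AStm2

/-! Step A: the crude form of the localized dual inequality. -/

open Set Filter Topology MeasureTheory Metric Complex
open scoped ENNReal NNReal

noncomputable section
namespace Vale.Agent.P116

namespace ATail

theorem osc_mono {K p : Set ℂ} {a : ℂ → ℝ} {s t : ℝ} (h : Osc K p a s) (hst : s ≤ t) :
    Osc K p a t := fun ε hε => by
  obtain ⟨U, h1, h2, h3⟩ := h ε hε
  exact ⟨U, h1, h2, fun z hz w hw => by linarith [h3 z hz w hw]⟩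

theorem sq_mul {K : Set ℂ} {s : Cmp K → ℝ} (h : Sq s) {a : ℝ} (ha : 0 ≤ a) :
    Sq fun p => a * s p :=
  ⟨fun p => mul_nonneg ha (h.1 p), (h.2.mul_left (a ^ 2)).congr fun p => by ring⟩

theorem sq_add (L : Lib) {K : Set ℂ} {s t : Cmp K → ℝ} (h : Sq s) (h' : Sq t) : Sq (s + t) :=
  ⟨fun p => add_nonneg (h.1 p) (h'.1 p), (L.sm.sqadd K s t h.2 h'.2).1⟩

theorem sm_two (L : Lib) {K : Set ℂ} (T : Set ℂ) {a b c : Cmp K → ℝ}
    (ha : Summable fun p => a p ^ 2) (hb : Summable fun p => b p ^ 2)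
    (hc : Summable fun p => c p ^ 2) (h : ∀ p, a p = b p + c p) :
    sm T a a ≤ 2 * sm T b b + 2 * sm T c c := by
  have h1 := L.sm.summ K T a a ha ha
  have h2 := (L.sm.summ K T b b hb hb).mul_left 2
  have h3 := (L.sm.summ K T c c hc hc).mul_left 2
  unfold sm
  rw [← tsum_mul_left, ← tsum_mul_left, ← h2.tsum_add h3]
  refine h1.tsum_le_tsum (fun p => ?_) (h2.add h3)
  split_ifs
  · rw [h p]
    nlinarith [sq_nonneg (b p - c p)]
  · simp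

theorem sqrt_le (x y : ℝ) (hx : 0 ≤ x) (hy : 0 ≤ y) : √x * √y ≤ (x + y) / 2 := by
  nlinarith [Real.sq_sqrt hx, Real.sq_sqrt hy, sq_nonneg (√x - √y)]

theorem min_pos {ι : Type} (J : Finset ι) (e : ι → ℝ) (h : ∀ p ∈ J, 0 < e p) :
    ∃ ε > 0, ε ≤ 1 ∧ ∀ p ∈ J, ε ≤ e p := by
  have h1 : ∀ᶠ ε in 𝓝[>] (0 : ℝ), ∀ p ∈ J, ε ≤ e p :=
    (Filter.eventually_all_finset J).2 fun p hp => nhdsWithin_le_nhds (ge_mem_nhds (h p hp))
  obtain ⟨ε, ⟨h2, h3⟩, h4⟩ := ((h1.and (nhdsWithin_le_nhds (ge_mem_nhds one_pos))).and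
    self_mem_nhdsWithin).exists
  exact ⟨ε, h4, h3, h2⟩

theorem adm_sub (L : Lib) {K : Set ℂ} (hK : IsClosed K) {θ : ℂ → ℝ} (h : Adm K θ) (c : ℝ) :
    Adm K fun z => θ z - c :=
  L.adm.sub K θ (fun _ => c) hK h (L.adm.c1 K _ hK contDiff_const)

theorem piece (L : Lib) {K P V : Set ℂ} {u θ Ψ φ ψ : ℂ → ℝ} {ρ τ s t : Cmp K → ℝ} {M N e c : ℝ}
    {Λ : ℝ≥0} (hK : IsClosed K) (hP : P ⊆ K) (hst : Star K P u ρ) (hg : Good K P θ τ)
    (hN : ∀ z ∉ K, |θ z - c| ≤ N) (hMN : M ≤ N) (hM : ∀ w, |Ψ w| ≤ M) (hΨ : LipschitzWith Λ Ψ)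
    (hV : IsOpen V) (hPV : P ⊆ V) (p : Cmp K) (he : 0 < e)
    (hc : ∀ z ∈ V \ K, |θ z - c| ≤ τ p / 2 + e) (hpun : sm (P \ p.1) ρ ρ ≤ e ^ 2)
    (hφ : Good K K φ s) (hψ : Good K K ψ t) :
    |om K P (fun z => (θ z - c) * Ψ (pr φ ψ z)) u| ≤ 2 * M * sm P τ ρ +
      e * Λ * ((sm P (s + t) (s + t) + sm P ρ ρ) / 2 + (τ p ^ 2 + sm P (s + t) (s + t)) / 4) := by
  classical
  have hM0 : 0 ≤ M := (abs_nonneg _).trans (hM 0)
  have hΛ : (0 : ℝ) ≤ Λ := Λ.2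
  have hτ := hg.2.1
  have hρ := hst.2.1
  have hs := sq_add L hφ.2.1 hψ.2.1
  set r : Cmp K → ℝ := fun q => if q = p then 0 else (s + t) q with hr
  have hrq : Sq r := by
    have h0 : ∀ q, 0 ≤ r q ∧ r q ≤ (s + t) q := fun q => by
      simp only [hr]
      split_ifs
      exacts [⟨le_rfl, hs.1 q⟩, ⟨hs.1 q, le_rfl⟩]
    exact ⟨fun q => (h0 q).1, L.sm.sqle K r _ hs.2 fun q => by
      rw [abs_of_nonneg (h0 q).1]; exact (h0 q).2⟩
  have q1 := sq_mul hτ (a := 2 * M) (by positivity)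
  have q2 := sq_mul hs (a := e * Λ) (by positivity)
  have q3 := sq_mul hrq (a := τ p / 2 * Λ) (by have := hτ.1 p; positivity)
  have hgood : Good K P (fun z => (θ z - c) * Ψ (pr φ ψ z))
      ((fun q => 2 * M * τ q) + (fun q => e * Λ * (s + t) q) + fun q => τ p / 2 * Λ * r q) := by
    refine ⟨L.adm.mul K _ _ N hK (adm_sub L hK hg.1 c)
      (L.comp.adm K φ ψ Ψ Λ hK hφ.1 hψ.1 hΨ).1 hN fun z _ => (hM _).trans hMN,
      sq_add L (sq_add L q1 q2) q3, fun q hq => ?_⟩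
    have o1 : Osc K q.1 (fun z => θ z - c) (τ q) := fun ε hε => by
      obtain ⟨U, h1, h2, h3⟩ := hg.2.2 q hq ε hε
      exact ⟨U, h1, h2, fun z hz w hw => by linarith [h3 z hz w hw]⟩
    have o2 := L.comp.osc K q.1 φ ψ Ψ Λ _ _ (hφ.2.2 q (hq.trans hP)) (hψ.2.2 q (hq.trans hP)) hΨ
    have o3 : Osc K q.1 (fun z => Ψ (pr φ ψ z)) (min (2 * M) (Λ * (s q + t q))) := by
      rcases min_choice (2 * M) (Λ * (s q + t q)) with h | h <;> rw [h]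
      · refine fun ε hε => ⟨univ, isOpen_univ, subset_univ _, fun z _ w _ => ?_⟩
        linarith [(abs_le.1 (hM (pr φ ψ z))).2, (abs_le.1 (hM (pr φ ψ w))).1]
      · exact o2
    have hτp := hτ.1 p
    refine osc_mono (L.comp.omul K q.1 V _ _ _ _ (τ p / 2 + e) M hV (hq.trans hPV) (by positivity)
      hM0 o1 o3 hc fun z _ => hM _) ?_
    have m1 := min_le_left (2 * M) (Λ * (s q + t q))
    have m2 := min_le_right (2 * M) (Λ * (s q + t q))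
    have m3 := mul_le_mul_of_nonneg_left m2 he.le
    simp only [Pi.add_apply, hr]
    split_ifs with h
    · subst h
      have m4 := mul_le_mul_of_nonneg_left m1 hτp
      nlinarith
    · have m4 := mul_le_mul_of_nonneg_left m2 hτp
      have m5 := mul_nonneg hM0 (hτ.1 q)
      nlinarith
  refine (hst.2.2 _ _ hgood).trans ?_
  rw [(L.sm.add K P _ _ ρ (sq_add L q1 q2).2 q3.2 hρ.2).1, (L.sm.add K P _ _ ρ q1.2 q2.2 hρ.2).1,
    L.sm.smul, L.sm.smul, L.sm.smul]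
  have e1 : sm P r ρ = sm (P \ p.1) (s + t) ρ := by
    unfold sm
    refine tsum_congr fun q => ?_
    by_cases h : q = p
    · subst h
      have h1 : ¬ q.1 ⊆ P \ q.1 := fun h1 => by
        obtain ⟨z, hz⟩ := L.cmp.ne K q
        exact (h1 hz).2 hz
      simp [hr, h1]
    · have h1 : q.1 ⊆ P \ p.1 ↔ q.1 ⊆ P := ⟨fun h1 => h1.trans sdiff_subset, fun h1 z hz =>
        ⟨h1 hz, fun hz' => h (L.cmp.eq K q p ⟨z, hz, hz'⟩)⟩⟩
      simp [hr, h, h1]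
  have n1 := L.sm.nonneg K P (s + t)
  have n2 := L.sm.nonneg K P ρ
  have b1 : sm P (s + t) ρ ≤ (sm P (s + t) (s + t) + sm P ρ ρ) / 2 :=
    (le_abs_self _).trans ((L.sm.cs K P _ _ hs.2 hρ.2).trans (sqrt_le _ _ n1 n2))
  have b2 : sm (P \ p.1) (s + t) ρ ≤ √(sm P (s + t) (s + t)) * e := by
    refine (le_abs_self _).trans ((L.sm.cs K _ _ _ hs.2 hρ.2).trans ?_)
    exact mul_le_mul (Real.sqrt_le_sqrt (L.sm.mono2 K _ _ _ hs.2 sdiff_subset))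
      (Real.sqrt_le_iff.2 ⟨he.le, hpun⟩) (Real.sqrt_nonneg _) (Real.sqrt_nonneg _)
  have b3 : τ p * √(sm P (s + t) (s + t)) ≤ (τ p ^ 2 + sm P (s + t) (s + t)) / 2 := by
    nlinarith [Real.sq_sqrt n1, sq_nonneg (τ p - √(sm P (s + t) (s + t)))]
  have b4 := mul_le_mul_of_nonneg_left b1 (mul_nonneg he.le hΛ)
  have b5 := mul_le_mul_of_nonneg_left b2 (mul_nonneg (hτ.1 p) hΛ)
  have b6 := mul_le_mul_of_nonneg_left b3 (mul_nonneg he.le hΛ)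
  rw [e1]
  nlinarith

theorem int_sum (G : Geo) {K Q : Set ℂ} {c : ℂ} {f : ℂ → ℂ} (hu : Uni K c f)
    (hQ : Clo K Q) (J : Finset (Cmp K)) (P : Cmp K → Set ℂ) (h1 : ∀ p ∈ J, Clo K (P p) ∧ P p ⊆ Q)
    (h2 : ∀ p ∈ J, ∀ q ∈ J, p ≠ q → Disjoint (P p) (P q)) {g : ℂ → ℝ} (hg : Continuous g)
    (h0 : ∀ w, 0 ≤ g w) : ∑ p ∈ J, ∫ w in img K f (P p), g w ≤ ∫ w in img K f Q, g w := by
  have hI : IntegrableOn g (img K f Q) :=
    hg.continuousOn.integrableOn_compact (G.imgB.clo K Q c f hu hQ).1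
  rw [← integral_biUnion_finset J
    (fun p hp => (G.imgB.clo K _ c f hu (h1 p hp).1).1.measurableSet) ?_
    fun p hp => hI.mono_set (G.imgA.mono K _ _ f (h1 p hp).2)]
  · refine setIntegral_mono_set hI (.of_forall h0) (LE.le.eventuallyLE ?_)
    exact iUnion₂_subset fun p hp => G.imgA.mono K _ _ f (h1 p hp).2
  · intro p hp q hq hpq
    have h3 : img K f (P q) ⊆ img K f (K \ P p) := G.imgA.mono K _ _ f fun z hz =>
      ⟨(h1 q hq).1.1 hz, fun hz' => Set.disjoint_left.1 (h2 p hp q hq hpq) hz' hz⟩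
    rw [(G.imgB.clo K _ c f hu (h1 p hp).1).2] at h3
    exact Set.disjoint_left.2 fun w hw hw' => (h3 hw').2 hw

end ATail

open ATail in
theorem s_tail (L : Lib) (G : Geo) : S_tail := by
  intro K Q U z₀ c f ρ τ θ Ψ M M₀ M₁ Λ hb hp hQ hst hg hM₀ hU hQU hM₁ hθ hΨ hM hΛ
  have hK := hb.cpt
  have hKc := hK.isClosed
  have hu := hp.uni hb
  have hρ := hst.2.1
  have hτ := hg.2.1
  have hM0 : 0 ≤ M := (abs_nonneg _).trans (hM 0)
  have hM00 : 0 ≤ M₀ := (abs_nonneg _).trans (hM₀ z₀ hb.out)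
  have hΛ0 : (0 : ℝ) ≤ Λ := Λ.2
  have hau := hp.au.1
  have hav := hp.av.1
  have hΨf : Adm K fun z => Ψ (f z) := (L.comp.adm K _ _ Ψ Λ hKc hau hav hΛ).1
  have hR := L.sm.nonneg K K ρ
  have hA : 0 ≤ ∑' p, τ p ^ 2 := tsum_nonneg fun p => sq_nonneg _
  set C : ℝ := 1 + Λ * ((8 + 8 * sm K ρ ρ + sm K ρ ρ) / 2 +
    (∑' p, τ p ^ 2 + (8 + 8 * sm K ρ ρ)) / 4) with hC
  have hC0 : 0 < C := by positivity
  refine le_of_forall_pos_le_add fun η hη => ?_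
  set e := η / C with he
  have he0 : 0 < e := by positivity
  have hex : ∀ p : Cmp K, ∃ (V : Set ℂ) (a : ℝ), p.1 ⊆ Q → IsOpen V ∧ p.1 ⊆ V ∧ |a| ≤ M₁ ∧
      (∀ z ∈ V \ K, |θ z - a| ≤ τ p / 2 + e) ∧ ∀ T ⊆ V, sm (T \ p.1) ρ ρ ≤ e ^ 2 := by
    intro p
    by_cases hpQ : p.1 ⊆ Q
    swap
    · exact ⟨∅, 0, fun h => absurd h hpQ⟩
    obtain ⟨lo, hlo⟩ := L.comp.clu K p.1 θ (τ p) (hτ.1 p) (hg.2.2 p hpQ)
    obtain ⟨V1, a1, a2, a3⟩ := hlo e he0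
    obtain ⟨V2, b1, b2, b3⟩ := L.sm.punct K ρ p (e ^ 2) hK hρ.2 (by positivity)
    refine ⟨V1 ∩ V2 ∩ U, max (-M₁) (min M₁ (lo + τ p / 2)), fun _ => ⟨(a1.inter b1).inter hU,
      subset_inter (subset_inter a2 b2) (hpQ.trans hQU), abs_le.2 ⟨le_max_left _ _,
      max_le (by linarith) (min_le_left _ _)⟩, fun z hz => ?_, fun T hT => b3 _
      (fun z hz => (hT hz.1).1.2) fun h => ?_⟩⟩
    · have h1 := a3 z ⟨hz.1.1.1, hz.2⟩
      have h2 := abs_le.1 (hθ z ⟨hz.1.2, hz.2⟩)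
      have h3 := hτ.1 p
      rw [abs_le]
      constructor
      · have : max (-M₁) (min M₁ (lo + τ p / 2)) ≤ θ z + (τ p / 2 + e) :=
          max_le (by linarith) ((min_le_right _ _).trans (by linarith))
        linarith
      · have : θ z - (τ p / 2 + e) ≤ max (-M₁) (min M₁ (lo + τ p / 2)) :=
          le_max_of_le_right (le_min (by linarith) (by linarith))
        linarith
    · obtain ⟨z, hz⟩ := L.cmp.ne K p
      exact (h hz).2 hz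
  choose V a hV using hex
  obtain ⟨J, P, -, hJ, -, hd, hun⟩ := L.part K Q V ∅ hK hQ
    (fun p h => ⟨(hV p h).1, (hV p h).2.1⟩) (by simp)
  have hN : ∀ p ∈ J, ∀ z ∉ K, |θ z - a p| ≤ M₀ + M₁ + M := fun p hpJ z hz =>
    (abs_sub _ _).trans (by linarith [hM₀ z hz, (hV p (hJ p hpJ).1).2.2.1])
  have hδ : 0 < e / (J.card + 1) := by positivity
  have hpr : ∀ p : Cmp K, ∃ ε₀ : ℝ, p ∈ J → 0 < ε₀ ∧ ∀ (ε : ℝ) (s t : Cmp K → ℝ) (φ ψ : ℂ → ℝ),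
      ε ≤ ε₀ → Apx K K (ru f) ρ ε φ s → Apx K K (iv f) ρ ε ψ t →
      |om K (P p) (fun z => (θ z - a p) * Ψ (pr φ ψ z)) (ru f) -
        om K (P p) (fun z => (θ z - a p) * Ψ (f z)) (ru f)| ≤ e / (J.card + 1) := by
    intro p
    by_cases hpJ : p ∈ J
    swap
    · exact ⟨0, fun h => absurd h hpJ⟩
    obtain ⟨ε₀, h1, h2⟩ := G.prod K (P p) (ru f) (iv f) (ru f) (fun z => θ z - a p) Ψ Λ
      (M₀ + M₁ + M) _ hK (hJ p hpJ).2.1 hau hav hau (adm_sub L hKc hg.1 _) (hN p hpJ) hΛ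
      (fun y => (hM y).trans (by linarith)) hδ
    exact ⟨ε₀, fun _ => ⟨h1, fun ε s t φ ψ h3 h4 h5 => h2 ε K ρ ρ s t φ ψ h3 h4 h5⟩⟩
  choose ε₀ hε₀ using hpr
  obtain ⟨ε, hε, hε1, hεJ⟩ := min_pos J ε₀ fun p h => (hε₀ p h).1
  obtain ⟨φ, s, hφ⟩ := hp.au.2.2 ε hε
  obtain ⟨ψ, t, hψ⟩ := hp.av.2.2 ε hε
  have hs := sq_add L hφ.1.2.1 hψ.1.2.1
  have hone : ∀ p ∈ J, |om K (P p) (fun z => θ z * Ψ (f z)) (ru f)| ≤ 2 * M * sm (P p) τ ρ +
      e * Λ * ((sm (P p) (s + t) (s + t) + sm (P p) ρ ρ) / 2 +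
        (τ p ^ 2 + sm (P p) (s + t) (s + t)) / 4) + e / (J.card + 1) +
      M₁ * ∫ w in img K f (P p), |fderiv ℝ Ψ w I| := by
    intro p hpJ
    obtain ⟨j1, j2, j3⟩ := hJ p hpJ
    obtain ⟨v1, -, v3, v4, v5⟩ := hV p j1
    have hPQ : P p ⊆ Q := j3.trans inter_subset_left
    have hPV : P p ⊆ V p := j3.trans inter_subset_right
    have k1 := piece L hKc j2.1 (L.star.mono K Q _ _ _ hK hQ j2 hPQ hst)
      ⟨hg.1, hτ, fun q hq => hg.2.2 q (hq.trans hPQ)⟩ (hN p hpJ) (by linarith) hM hΛ v1 hPV p he0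
      v4 (v5 _ hPV) hφ.1 hψ.1
    have k2 := (hε₀ p hpJ).2 ε s t φ ψ (hεJ p hpJ) hφ hψ
    have k3 := (L.omB.add K (P p) (fun z => (θ z - a p) * Ψ (f z)) (fun z => a p * Ψ (f z)) (ru f)
      hK j2 (L.adm.mul K _ _ _ hKc (adm_sub L hKc hg.1 _) hΨf (hN p hpJ)
        fun z _ => (hM _).trans (by linarith)) (L.adm.smul K _ _ hKc hΨf) hau).1
    have k4 : ((fun z => (θ z - a p) * Ψ (f z)) + fun z => a p * Ψ (f z)) =
        fun z => θ z * Ψ (f z) := by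
      funext z
      simp only [Pi.add_apply]
      ring
    rw [k4, (L.omB.smul K (P p) (a p) _ _ hK j2 hΨf hau).1,
      (G.area K (P p) c f Ψ Λ hu j2 hΨ hΛ).2] at k3
    have k5 : |a p * ∫ w in img K f (P p), fderiv ℝ Ψ w I| ≤
        M₁ * ∫ w in img K f (P p), |fderiv ℝ Ψ w I| := by
      rw [abs_mul]
      exact mul_le_mul v3 abs_integral_le_integral_abs (abs_nonneg _) hM₁
    rw [k3]
    refine (abs_add_le _ _).trans ?_
    have k6 := abs_sub_abs_le_abs_sub (om K (P p) (fun z => (θ z - a p) * Ψ (f z)) (ru f))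
      (om K (P p) (fun z => (θ z - a p) * Ψ (pr φ ψ z)) (ru f))
    rw [abs_sub_comm] at k6
    linarith
  have hcl : ∀ p ∈ J, Clo K (P p) := fun p h => (hJ p h).2.1
  have hsm : ∀ x y : Cmp K → ℝ, Sq x → Sq y → ∑ p ∈ J, sm (P p) x y = sm Q x y := by
    intro x y hx hy
    rw [← (L.sm.biUnion K _ J P x y hKc hcl hd hx.2 hy.2).2, hun]
  have hom := L.omB.biUnion K _ J P (fun z => θ z * Ψ (f z)) (ru f) hK hcl hd
    (L.adm.mul K _ _ (M₀ + M) hKc hg.1 hΨf (fun z hz => (hM₀ z hz).trans (by linarith))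
      fun z _ => (hM _).trans (by linarith)) hau
  rw [hun] at hom
  have hcont : Continuous fun w => |fderiv ℝ Ψ w I| :=
    ((hΨ.continuous_fderiv one_ne_zero).clm_apply continuous_const).abs
  have s1 := int_sum G hu hQ J P (fun p h => ⟨hcl p h, (hJ p h).2.2.trans inter_subset_left⟩) hd
    hcont fun w => abs_nonneg _
  have s2 : ∑ p ∈ J, τ p ^ 2 ≤ ∑' p, τ p ^ 2 := hτ.2.sum_le_tsum J fun p _ => sq_nonneg _
  have s3 : sm Q ρ ρ ≤ sm K ρ ρ := L.sm.mono2 K _ _ _ hρ.2 hQ.1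
  have s4 : sm Q (s + t) (s + t) ≤ 8 + 8 * sm K ρ ρ := by
    have a1 := sm_two L K hs.2 hφ.1.2.1.2 hψ.1.2.1.2 fun _ => rfl
    have a2 := sm_two L K hφ.1.2.1.2 (L.sm.sqadd K s ρ hφ.1.2.1.2 hρ.2).2 hρ.2 fun p => by simp
    have a3 := sm_two L K hψ.1.2.1.2 (L.sm.sqadd K t ρ hψ.1.2.1.2 hρ.2).2 hρ.2 fun p => by simp
    have a4 := L.sm.mono2 K _ _ _ hs.2 hQ.1
    linarith [hφ.2.2.2, hψ.2.2.2]
  have s5 : (J.card : ℝ) * e / (J.card + 1) ≤ e := by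
    rw [div_le_iff₀ (by positivity)]
    nlinarith
  rw [hom]
  refine (Finset.abs_sum_le_sum_abs _ _).trans ((Finset.sum_le_sum hone).trans ?_)
  simp only [Finset.sum_add_distrib, ← Finset.mul_sum, ← Finset.sum_div, Finset.sum_const,
    nsmul_eq_mul, hsm τ ρ hτ hρ, hsm _ _ hs hs, hsm ρ ρ hρ hρ]
  have s6 : η = e * C := by rw [he]; field_simp
  have s7 := mul_le_mul_of_nonneg_left s1 hM₁
  have s8 : (sm Q (s + t) (s + t) + sm Q ρ ρ) / 2 + (∑ p ∈ J, τ p ^ 2 + sm Q (s + t) (s + t)) / 4 ≤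
      (8 + 8 * sm K ρ ρ + sm K ρ ρ) / 2 + (∑' p, τ p ^ 2 + (8 + 8 * sm K ρ ρ)) / 4 := by linarith
  have s9 := mul_le_mul_of_nonneg_left s8 (mul_nonneg he0.le hΛ0)
  rw [s6, hC]
  linarith

end Vale.Agent.P116
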