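import Vale.Agent.P116.AStm2

/-! Step A (square domains): the transitional set. -/

open Set Filter Topology MeasureTheory Metric Complex
open scoped ENNReal NNReal

noncomputable section
namespace Vale.Agent.P116

theorem trans_clo (L : Lib) {K : Set ℂ} (hK : IsClosed K) (J : Finset (Cmp K))
    (Q : Cmp K → Set ℂ) (hQ : ∀ p ∈ J, Clo K (Q p)) : Clo K (⋃ p ∈ J, Q p) := by
  classical
  induction J using Finset.induction_on with
  | empty => simpa using L.cmp.clo_empty K hK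
  | insert a J _ ih =>
    rw [Finset.set_biUnion_insert]
    exact L.cmp.clo_union K _ _ (hQ a (Finset.mem_insert_self _ _))
      (ih fun p hp => hQ p (Finset.mem_insert_of_mem hp))

theorem trans_sub (L : Lib) {K Q : Set ℂ} (hQ : Clo K Q) (q : Cmp K) {z : ℂ} (hz : z ∈ q.1)
    (hzQ : z ∈ Q) : q.1 ⊆ Q := by
  rcases L.cmp.dich K Q q hQ with h | h
  · exact h
  · exact absurd hzQ (h hz).2

theorem s_trans (L : Lib) : S_trans := by
  classical
  intro K A φ s μ x hK hA hG hμ hs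
  have hex : ∀ p : Cmp K, ∃ U : Set ℂ, p.1 ⊆ A → (IsOpen U ∧ p.1 ⊆ U) ∧
      ∀ z ∈ U \ K, ∀ w ∈ U \ K, φ z - φ w ≤ 3 * μ / 2 := by
    intro p
    obtain ⟨U, hU, hpU, hosc⟩ := hG.2.2 p (L.cmp.sub K p) (μ / 2) (by linarith)
    refine ⟨U, fun hp => ⟨⟨hU, hpU⟩, fun z hz w hw => ?_⟩⟩
    have h1 := hosc z hz w hw
    have h2 := hs p hp
    linarith
  choose U hU using hex
  obtain ⟨J, Q, -, hJ, -, -, hcov⟩ := L.part K A U ∅ hK hA (fun p hp => (hU p hp).1)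
    (fun p hp => absurd hp (Finset.notMem_empty p))
  set J' : Finset (Cmp K) :=
    J.filter fun p => ∃ i, ∃ z ∈ U p \ K, φ z ∈ Icc (x i) (x i + 2 * μ) with hJ'
  refine ⟨⋃ p ∈ J', Q p, ?_, ?_, ?_, ?_⟩
  · exact trans_clo L hK.isClosed J' Q fun p hp => (hJ p (Finset.mem_filter.1 hp).1).2.1
  · intro z hz
    obtain ⟨p, hp, hzp⟩ := mem_iUnion₂.1 hz
    exact ((hJ p (Finset.mem_filter.1 hp).1).2.2 hzp).1
  · intro g hg q hq
    obtain ⟨z₀, hz₀⟩ := L.cmp.ne K q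
    obtain ⟨p, hp, hzp⟩ := mem_iUnion₂.1 (hq hz₀)
    obtain ⟨hpJ, i, w, hw, hwI⟩ := Finset.mem_filter.1 hp
    obtain ⟨hpA, hclo, hsub⟩ := hJ p hpJ
    have hqQ : q.1 ⊆ Q p := trans_sub L hclo q hz₀ hzp
    refine ⟨U p, g (φ w), (hU p hpA).1.1, fun z hz => (hsub (hqQ hz)).2, fun z hz => ?_⟩
    have h1 := (hU p hpA).2 z hz w hw
    have h2 := (hU p hpA).2 w hw z hz
    refine hg i _ ⟨?_, ?_⟩ _ ⟨?_, ?_⟩ <;> linarith [hwI.1, hwI.2]
  · intro i β hβ0 hβ1 q hq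
    obtain ⟨z₀, hz₀⟩ := L.cmp.ne K q
    have hz₀A : z₀ ∈ ⋃ p ∈ J, Q p := by rw [hcov]; exact (hq hz₀).1
    obtain ⟨p, hpJ, hzp⟩ := mem_iUnion₂.1 hz₀A
    obtain ⟨hpA, hclo, hsub⟩ := hJ p hpJ
    have hqQ : q.1 ⊆ Q p := trans_sub L hclo q hz₀ hzp
    have hnot : p ∉ J' := fun hp => (hq hz₀).2 (mem_iUnion₂.2 ⟨p, hp, hzp⟩)
    have hav : ∀ z ∈ U p \ K, φ z < x i ∨ x i + 2 * μ < φ z := by
      intro z hz
      by_contra hc
      push Not at hc
      exact hnot (Finset.mem_filter.2 ⟨hpJ, i, z, hz, hc.1, hc.2⟩)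
    by_cases hlow : ∃ w ∈ U p \ K, φ w < x i
    · obtain ⟨w, hw, hwl⟩ := hlow
      refine ⟨U p, 0, (hU p hpA).1.1, fun z hz => (hsub (hqQ hz)).2, fun z hz => ?_⟩
      have h1 := (hU p hpA).2 z hz w hw
      rcases hav z hz with h | h
      · exact hβ0 _ h.le
      · exfalso
        linarith
    · refine ⟨U p, 1, (hU p hpA).1.1, fun z hz => (hsub (hqQ hz)).2, fun z hz => ?_⟩
      rcases hav z hz with h | h
      · exact absurd ⟨z, hz, h⟩ hlow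
      · exact hβ1 _ h.le

end Vale.Agent.P116
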