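import Vale.Agent.P116.AStm

/-! Step A: the plane is unicoherent. -/

open Set Filter Topology MeasureTheory Metric Complex
open scoped ENNReal NNReal

noncomputable section
namespace Vale.Agent.P116

theorem s_unic : S_unic := by
  classical
  intro W hW h1 h2
  rw [isPreconnected_iff_subset_of_fully_disjoint_closed isClosed_frontier]
  intro u v hu hv huv hd
  by_contra hc
  rw [not_or, not_subset, not_subset] at hc
  obtain ⟨⟨z2, hz2, hz2u⟩, z1, hz1, hz1v⟩ := hc
  obtain ⟨χ, c0, c1, -⟩ := exists_continuous_zero_one_of_isClosed hu hv hd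
  have fr : ∀ z ∈ frontier W, Circle.exp (Real.pi * χ z) = Circle.exp (-(Real.pi * χ z)) := by
    intro z hz
    rcases huv hz with h | h
    · rw [c0 h]; simp
    · rw [c1 h, Circle.exp_eq_exp]
      exact ⟨1, by simp; ring⟩
  have hg : Continuous fun z : ℂ =>
      if z ∈ W then Circle.exp (Real.pi * χ z) else Circle.exp (-(Real.pi * χ z)) :=
    Continuous.if fr (by fun_prop) (by fun_prop)
  obtain ⟨θ, ⟨-, hθ⟩, -⟩ := Circle.isCoveringMap_exp.existsUnique_continuousMap_lifts
    (⟨_, hg⟩ : C(ℂ, Circle)) 0 _ (Circle.exp_arg _)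
  have e0 : ∀ z, Circle.exp (θ z) =
      if z ∈ W then Circle.exp (Real.pi * χ z) else Circle.exp (-(Real.pi * χ z)) :=
    fun z => congrFun hθ z
  have e1 : ∀ z ∈ closure W, Circle.exp (θ z - Real.pi * χ z) = 1 := by
    intro z hz
    rw [Circle.exp_sub, e0, div_eq_one]
    split_ifs with h
    · rfl
    · exact (fr z (by rw [hW.frontier_eq]; exact ⟨hz, h⟩)).symm
  have e2 : ∀ z ∈ Wᶜ, Circle.exp (θ z - -(Real.pi * χ z)) = 1 := by
    intro z hz
    rw [Circle.exp_sub, e0, div_eq_one, if_neg hz]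
  have k1 := Circle.isCoveringMap_exp.constOn_of_comp (g := fun z => θ z - Real.pi * χ z)
    h1.closure (by fun_prop) (fun a ha b hb => by rw [e1 a ha, e1 b hb])
    (frontier_subset_closure hz1) (frontier_subset_closure hz2)
  have k2 := Circle.isCoveringMap_exp.constOn_of_comp (g := fun z => θ z - -(Real.pi * χ z))
    h2 (by fun_prop) (fun a ha b hb => by rw [e2 a ha, e2 b hb])
    (show z1 ∈ Wᶜ from (hW.frontier_eq ▸ hz1).2) (show z2 ∈ Wᶜ from (hW.frontier_eq ▸ hz2).2)
  have a1 : χ z1 = 0 := c0 ((huv hz1).resolve_right hz1v)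
  have a2 : χ z2 = 1 := c1 ((huv hz2).resolve_left hz2u)
  simp only [a1, a2] at k1 k2
  linarith [Real.pi_pos]

end Vale.Agent.P116
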