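import Vale.Agent.P116.AStm2

/-! The density step for the real part. -/

open Set Filter Topology MeasureTheory Metric Complex
open scoped ENNReal NNReal

noncomputable section
namespace Vale.Agent.P116

namespace AUstep

theorem fin_min {ι : Type*} (F : Finset ι) (a : ι → ℝ) (h : ∀ i ∈ F, 0 < a i) :
    ∃ m > 0, ∀ i ∈ F, m ≤ a i := by
  classical
  induction F using Finset.induction_on with
  | empty => exact ⟨1, one_pos, by simp⟩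
  | insert j F _ ih =>
    obtain ⟨m, hm, h1⟩ := ih fun i hi => h i (Finset.mem_insert_of_mem hi)
    refine ⟨min m (a j), lt_min hm (h j (Finset.mem_insert_self _ _)), fun i hi => ?_⟩
    rcases Finset.mem_insert.1 hi with rfl | hi
    · exact min_le_right _ _
    · exact (min_le_left _ _).trans (h1 i hi)

theorem clo_fin (L : Lib) {K : Set ℂ} (hK : IsClosed K) {ι : Type*} (F : Finset ι)
    (Q : ι → Set ℂ) (h : ∀ i ∈ F, Clo K (Q i)) : Clo K (⋃ i ∈ F, Q i) := by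
  classical
  induction F using Finset.induction_on with
  | empty => simpa using L.cmp.clo_empty K hK
  | insert j F _ ih =>
    rw [Finset.set_biUnion_insert]
    exact L.cmp.clo_union K _ _ (h j (Finset.mem_insert_self _ _))
      (ih fun i hi => h i (Finset.mem_insert_of_mem hi))

theorem le_sq {x y : ℝ} (h : √x ≤ y) : x ≤ y ^ 2 := (Real.sqrt_le_iff.1 h).2

theorem sqrt_le {x y : ℝ} (hy : 0 ≤ y) (h : x ≤ y ^ 2) : √x ≤ y := Real.sqrt_le_iff.2 ⟨hy, h⟩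

/-- uniform bounds near a solution -/
theorem bnd (L : Lib) {K : Set ℂ} {z₀ c : ℂ} {f : ℂ → ℂ} {ρ : Cmp K → ℝ} {χ : ℂ → ℝ}
    (hb : Base K z₀ c) (hf : Pre K z₀ c f ρ) (hχ : Cut K K χ) :
    ∃ E > 0, ∀ g σ, Pre K z₀ c g σ → √(d2 K f ρ g σ) ≤ 1 →
      en (tsupport χ \ K) (ru g) ≤ E ∧ sm K σ σ ≤ E ∧
        ∀ z ∈ tsupport (gr χ), |(g z).re| ≤ E := by
  have hK := hb.cpt
  obtain ⟨c1, c2, -⟩ := L.omC.cutsup K K χ hK (L.cmp.clo_self K hK.isClosed) hχ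
  have c3 : tsupport (gr χ) ⊆ Kᶜ := c2.subset_compl_right
  obtain ⟨M, hM, h1⟩ := L.d2.sup L.lu K _ z₀ hb.toCtx hb.out c1 c3
  obtain ⟨B, hB⟩ := c1.exists_bound_of_continuousOn (hf.hol.1.continuousOn.mono c3)
  have p1 := sq_nonneg (√(en (tsupport χ \ K) (ru f)) + 1)
  have p2 := sq_nonneg (√(sm K ρ ρ) + 1)
  have p3 := abs_nonneg B
  refine ⟨(√(en (tsupport χ \ K) (ru f)) + 1) ^ 2 + (√(sm K ρ ρ) + 1) ^ 2 + |B| + M + 1,
    by positivity, fun g σ hg hd => ⟨?_, ?_, fun z hz => ?_⟩⟩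
  · have := (L.d2.enl K (tsupport χ \ K) c f g ρ σ hK.isClosed hf.hol hg.hol
      ((isClosed_tsupport _).measurableSet.diff hK.isClosed.measurableSet)
      (fun z hz => hz.2) (hχ.2.1.isCompact.isBounded.subset sdiff_subset)).1
    have := le_sq (this.trans (add_le_add_right hd _))
    linarith
  · have := (L.d2.sml K K f g ρ σ hf.au.2.1 hg.au.2.1 Subset.rfl).1
    have := le_sq (this.trans (add_le_add_right hd _))
    linarith
  · have h2 := h1 c f g ρ σ hf.hol hg.hol hf.nrm hg.nrm z hz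
    have h3 : M * √(d2 K f ρ g σ) ≤ M := by
      simpa using mul_le_mul_of_nonneg_left hd hM
    have h4 : ‖g z‖ ≤ ‖f z‖ + ‖f z - g z‖ := by
      simpa using norm_sub_le (f z) (f z - g z)
    have h5 := hB z hz
    have h6 := abs_re_le_norm (g z)
    have h7 := le_abs_self B
    linarith

/-- a stable cell around a component with small oscillation -/
theorem cell (L : Lib) (cert : S_cert) {K : Set ℂ} {z₀ c : ℂ} {f : ℂ → ℂ} {ρ : Cmp K → ℝ}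
    (hb : Base K z₀ c) (hf : Pre K z₀ c f ρ) {p : Cmp K} (ho : Osc K p.1 (ru f) (ρ p)) {η : ℝ}
    (hη : 0 < η) : ∃ (W : Set ℂ) (a : ℝ), 0 < a ∧ IsOpen W ∧ p.1 ⊆ W ∧ W ⊆ thickening η p.1 ∧
      Disjoint (frontier W) K ∧ ∀ g σ, Pre K z₀ c g σ → √(d2 K f ρ g σ) ≤ a →
        ∃ t, t < σ p + η ∧ ∀ z ∈ W \ K, ∀ w ∈ W \ K, ru g z - ru g w ≤ t := by
  obtain ⟨W, t, h1, h2, h3, -, h5, h6, h7⟩ := cert.cell K univ (ru f) p (ρ p) (ρ p + η) η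
    hb.toCtx ho (by linarith) hη isOpen_univ (subset_univ _)
  have hs : 0 < (ρ p + η - t) / 3 := by linarith
  have hW : Bornology.IsBounded W :=
    ((L.cmp.cpt K p hb.cpt).isBounded.thickening).subset h3
  obtain ⟨r, hr, h8⟩ := cert.stabW K W z₀ c f ρ reCLM t _ hb hf h1 hW h5 h7 hs
  refine ⟨W, min √r ((ρ p + η - t) / 3), lt_min (Real.sqrt_pos.2 hr) hs, h1, h2, h3, h5,
    fun g σ hg hd => ⟨t + (ρ p + η - t) / 3, ?_, h8 g σ hg ?_⟩⟩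
  · have := (L.d2.pt K f g ρ σ p hf.au.2.1 hg.au.2.1).trans (hd.trans (min_le_right _ _))
    have := (abs_le.1 this).2
    linarith
  · have := le_sq (hd.trans (min_le_left _ _))
    rwa [Real.sq_sqrt hr.le] at this

/-- a cutoff with small energy -/
theorem thin (L : Lib) {K Q : Set ℂ} (hK : IsCompact K) (hQ : Clo K Q) {u : ℂ → ℝ}
    (hu : Adm K u) {e : ℝ} (he : 0 < e) : ∃ χ, Cut K Q χ ∧ en (tsupport χ \ K) u ≤ e := by
  obtain ⟨ε, h1, h2⟩ := (((L.adm.small K u hK hu).eventually (ge_mem_nhds he)).and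
    self_mem_nhdsWithin).exists
  obtain ⟨χ, h3, h4⟩ := L.cut K Q (thickening ε K) hK hQ isOpen_thickening
    (hQ.1.trans (self_subset_thickening h2 _))
  obtain ⟨R, hR⟩ := (hK.isBounded.thickening (δ := ε)).subset_ball 0
  refine ⟨χ, h3, le_trans ?_ h1⟩
  exact setIntegral_mono_set ((hu.2 R).mono_set (sdiff_subset_sdiff_left hR))
    (Eventually.of_forall fun _ => by positivity) (sdiff_subset_sdiff_left h4).eventuallyLE

end AUstep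

open AUstep in
theorem s_ustep (L : Lib) (G : Geo) (s1 : S_s1) (hp : S_hp) (core : S_core) (cert : S_cert) :
    S_ustep := by
  intro K A z₀ c f ρ r η hb hf hr hη
  have hK := hb.cpt
  have hc := hK.isClosed
  obtain ⟨χ₀, hχ₀, -⟩ := L.cut K K univ hK (L.cmp.clo_self K hc) isOpen_univ (subset_univ _)
  obtain ⟨E, hE, hbd⟩ := bnd L hb hf.toPre hχ₀
  obtain ⟨e, he, hco⟩ := core K z₀ c χ₀ (η / 10) E hb hχ₀ (by linarith) hE
  obtain ⟨q, hq, rfl⟩ : ∃ q > 0, e = q ^ 2 := ⟨√e, Real.sqrt_pos.2 he, (Real.sq_sqrt he.le).symm⟩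
  obtain ⟨s, hs, rfl⟩ : ∃ s > 0, r = s ^ 2 := ⟨√r, Real.sqrt_pos.2 hr, (Real.sq_sqrt hr.le).symm⟩
  obtain ⟨b₀, hb₀, b1, b2, b3⟩ : ∃ b > 0, b ≤ s / 3 ∧ b ≤ 1 / 3 ∧ b ≤ q / 4 :=
    ⟨min (s / 3) (min (1 / 3) (q / 4)), by positivity, min_le_left _ _,
      (min_le_right _ _).trans (min_le_left _ _), (min_le_right _ _).trans (min_le_right _ _)⟩
  obtain ⟨F, -, hF⟩ := L.sm.tail K ρ ((q / 4) ^ 2) hf.au.2.1.2 (by positivity)
  obtain ⟨A₁, f₁, ρ₁, hf₁, -, hF₁, hd₁⟩ := s1 K A z₀ c f ρ F (b₀ ^ 2) hb hf (by positivity)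
  replace hd₁ := sqrt_le hb₀.le hd₁
  have h1 := fun p (h : p ∈ F) => cell L cert hb hf₁.toPre (hp K A₁ z₀ c f₁ ρ₁ p hb hf₁ (hF₁ p h)) hη
  choose! W a ha hWo hpW hWt hWf hst using h1
  obtain ⟨m, hm, hma⟩ := fin_min F a ha
  have hcl : ∀ p ∈ F, Clo K (K ∩ W p) := fun p h => L.cmp.clo_open K _ hc (hWo p h) (hWf p h)
  have hK₁ : Clo K (K \ ⋃ p ∈ F, K ∩ W p) := L.cmp.clo_compl K _ (clo_fin L hc F _ hcl)
  obtain ⟨χ₁, hχ₁, hen⟩ := thin L hK hK₁ hf₁.au.1 (e := (q / 2) ^ 2) (by positivity)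
  obtain ⟨b, hb0, b4, b5⟩ : ∃ b > 0, b ≤ b₀ ∧ b ≤ m / 2 :=
    ⟨min b₀ (m / 2), by positivity, min_le_left _ _, min_le_right _ _⟩
  obtain ⟨δ, hδ, hco⟩ := hco _ χ₁ (b ^ 2) hK₁ hχ₁ (by positivity)
  obtain ⟨F', hF', -⟩ := L.sm.tail K ρ₁ (δ / 2) hf₁.au.2.1.2 (by positivity)
  have hb' : 0 < min b (δ / 2) := by positivity
  obtain ⟨A₂, f₂, ρ₂, hf₂, -, hF₂, hd₂⟩ := s1 K A₁ z₀ c f₁ ρ₁ F' (min b (δ / 2) ^ 2) hb hf₁
    (by positivity)
  replace hd₂ := sqrt_le hb'.le hd₂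
  have hd₃ := hd₂.trans (min_le_left _ _)
  have hd₄ := hd₂.trans (min_le_right _ _)
  have t1 := L.d2.tri K c f f₁ f₂ ρ ρ₁ ρ₂ hc hf.hol hf₁.hol hf₂.hol hf.au.2.1 hf₁.au.2.1
    hf₂.au.2.1
  obtain ⟨e1, e2, e3⟩ := hbd f₂ ρ₂ hf₂.toPre (by linarith)
  have e4 : en (tsupport χ₁ \ K) (ru f₂) ≤ q ^ 2 := by
    have h2 := (L.d2.enl K (tsupport χ₁ \ K) c f₁ f₂ ρ₁ ρ₂ hc hf₁.hol hf₂.hol
      ((isClosed_tsupport _).measurableSet.diff hc.measurableSet)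
      (fun z hz => hz.2) (hχ₁.2.1.isCompact.isBounded.subset sdiff_subset)).1
    have h3 := sqrt_le (by positivity) hen
    exact le_sq (by linarith)
  have e5 : sm (K \ ⋃ p ∈ F, K ∩ W p) ρ₂ ρ₂ ≤ q ^ 2 := by
    have h2 := (L.d2.sml K (K \ ⋃ p ∈ F, K ∩ W p) f f₂ ρ ρ₂ hf.au.2.1 hf₂.au.2.1 sdiff_subset).1
    have h3 := sqrt_le (by positivity) (hF (K \ ⋃ p ∈ F, K ∩ W p) fun p h hh => by
      obtain ⟨z, hz⟩ := L.cmp.ne K p
      exact (hh hz).2 (mem_iUnion₂.2 ⟨p, h, (hh hz).1, hpW p h hz⟩))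
    exact le_sq (by linarith)
  have e6 : ∀ p : Cmp K, p.1 ⊆ A₂ → ρ₂ p ≤ δ := by
    intro p h
    have h2 : p ∉ F' := fun hh => by
      obtain ⟨z, hz⟩ := L.cmp.ne K p
      exact (hF₂ p hh hz).2 (h hz)
    have h3 := (abs_le.1 (hF' p h2)).2
    have h4 := (abs_le.1 ((L.d2.pt K f₁ f₂ ρ₁ ρ₂ p hf₁.au.2.1 hf₂.au.2.1).trans hd₄)).1
    linarith
  obtain ⟨A', g, σ, hg, hd₅, hosc⟩ := hco A₂ f₂ ρ₂ hf₂ e1 e2 e3 e4 e5 e6
  replace hd₅ := sqrt_le hb0.le hd₅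
  have t2 := L.d2.tri K c f f₂ g ρ ρ₂ σ hc hf.hol hf₂.hol hg.hol hf.au.2.1 hf₂.au.2.1
    hg.au.2.1
  have t3 := L.d2.tri K c f₁ f₂ g ρ₁ ρ₂ σ hc hf₁.hol hf₂.hol hg.hol hf₁.au.2.1 hf₂.au.2.1
    hg.au.2.1
  refine ⟨A', g, σ, hg, le_sq (by linarith), fun y => ?_⟩
  by_cases hy : ∃ p ∈ F, y.1 ⊆ W p
  · obtain ⟨p, h, hy⟩ := hy
    obtain ⟨t, h2, h3⟩ := hst p h g σ hg.toPre (by linarith [hma p h])
    exact ⟨p, W p, t, hWo p h, hy, hWt p h, hWf p h, h2, h3⟩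
  · have h2 : y.1 ⊆ K \ ⋃ p ∈ F, K ∩ W p := by
      intro z hz
      refine ⟨L.cmp.sub K y hz, fun hh => ?_⟩
      obtain ⟨p, h, hz'⟩ := mem_iUnion₂.1 hh
      rcases L.cmp.dich K _ y (hcl p h) with h3 | h3
      · exact hy ⟨p, h, h3.trans inter_subset_right⟩
      · exact (h3 hz).2 hz'
    obtain ⟨V, t, k1, k2, k3, -, k5, k6, k7⟩ := cert.cell K univ (ru g) y _ (σ y + η) η hb.toCtx
      (hosc y h2) (by linarith) hη isOpen_univ (subset_univ _)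
    exact ⟨y, V, t, k1, k2, k3, k5, k6, k7⟩

end Vale.Agent.P116
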