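import Vale.Agent.P116.AStm2

/-! Step A: solutions of the mixed problem are univalent. -/

open Set Filter Topology MeasureTheory Metric Complex
open scoped ENNReal NNReal

noncomputable section
namespace Vale.Agent.P116

namespace AUv

theorem d1 {a : ℝ → ℝ} (h : Stp a) : ContDiff ℝ 1 (deriv a) := by
  have h2 : ContDiff ℝ (1 + 1) a := by
    have e : ((1 : WithTop ℕ∞) + 1) = 2 := one_add_one_eq_two
    rw [e]; exact h.1
  exact (contDiff_succ_iff_deriv.1 h2).2.2

theorem dif {a : ℝ → ℝ} (h : Stp a) : Differentiable ℝ a := h.1.differentiable (by simp)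

/-- bounded and Lipschitz -/
def BL (p : ℝ → ℝ) : Prop := ∃ (L : ℝ≥0) (M : ℝ), LipschitzWith L p ∧ ∀ x, |p x| ≤ M

theorem bl1 {a : ℝ → ℝ} (h : Stp a) : BL (deriv a) := by
  obtain ⟨L, hL⟩ := ContDiff.lipschitzWith_of_hasCompactSupport h.2.2 (d1 h) one_ne_zero
  obtain ⟨M, hM⟩ := (d1 h).continuous.bounded_above_of_compact_support h.2.2
  exact ⟨L, M, hL, hM⟩

theorem bl0 {a : ℝ → ℝ} (h : Stp a) : BL a := by
  obtain ⟨M, hM⟩ := (d1 h).continuous.bounded_above_of_compact_support h.2.2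
  have hi : Integrable (deriv a) := (d1 h).continuous.integrable_of_hasCompactSupport h.2.2
  refine ⟨⟨M, (norm_nonneg _).trans (hM 0)⟩, |a 0| + ∫ x, ‖deriv a x‖,
    lipschitzWith_of_nnnorm_deriv_le (dif h) fun x => hM x, fun x => ?_⟩
  have e := intervalIntegral.integral_deriv_eq_sub (f := a) (a := 0) (b := x)
    (fun y _ => dif h y) hi.intervalIntegrable
  have h1 := intervalIntegral.norm_integral_le_integral_norm_uIoc (f := deriv a) (a := 0) (b := x)
    (μ := volume)
  have h2 : ∫ y in uIoc 0 x, ‖deriv a y‖ ≤ ∫ y, ‖deriv a y‖ :=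
    setIntegral_le_integral hi.norm (Eventually.of_forall fun _ => norm_nonneg _)
  rw [e, Real.norm_eq_abs] at h1
  have h3 := abs_add_le (a 0) (a x - a 0)
  rw [add_sub_cancel] at h3
  linarith

theorem lipmul {p q : ℝ → ℝ} (hp : BL p) (hq : BL q) :
    ∃ L : ℝ≥0, LipschitzWith L fun w : ℂ => p w.re * q w.im := by
  obtain ⟨L, M, h1, h2⟩ := hp
  obtain ⟨L', M', h3, h4⟩ := hq
  have hM : 0 ≤ M := (abs_nonneg _).trans (h2 0)
  have hM' : 0 ≤ M' := (abs_nonneg _).trans (h4 0)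
  refine ⟨⟨L * M' + M * L', by positivity⟩, LipschitzWith.of_dist_le_mul fun x y => ?_⟩
  have a1 := h1.dist_le_mul x.re y.re
  have a2 := h3.dist_le_mul x.im y.im
  have b1 : dist x.re y.re ≤ dist x y := by
    rw [Real.dist_eq, dist_eq_norm, ← sub_re]; exact abs_re_le_norm _
  have b2 : dist x.im y.im ≤ dist x y := by
    rw [Real.dist_eq, dist_eq_norm, ← sub_im]; exact abs_im_le_norm _
  have c1 : |p x.re - p y.re| ≤ L * dist x y :=
    a1.trans (mul_le_mul_of_nonneg_left b1 L.2)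
  have c2 : |q x.im - q y.im| ≤ L' * dist x y :=
    a2.trans (mul_le_mul_of_nonneg_left b2 L'.2)
  have e : p x.re * q x.im - p y.re * q y.im =
      (p x.re - p y.re) * q x.im + p y.re * (q x.im - q y.im) := by ring
  rw [Real.dist_eq, e]
  refine (abs_add_le _ _).trans ?_
  rw [abs_mul, abs_mul]
  have d1 : |p x.re - p y.re| * |q x.im| ≤ L * dist x y * M' :=
    mul_le_mul c1 (h4 _) (abs_nonneg _) (by positivity)
  have d2 : |p y.re| * |q x.im - q y.im| ≤ M * (L' * dist x y) :=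
    mul_le_mul (h2 _) c2 (abs_nonneg _) hM
  show _ ≤ (L * M' + M * L' : ℝ) * dist x y
  nlinarith

theorem fd {a b : ℝ → ℝ} (ha : Stp a) (hb : Stp b) (w v : ℂ) :
    fderiv ℝ (fun w : ℂ => a w.re * b w.im) w v =
      a w.re * (deriv b w.im * v.im) + b w.im * (deriv a w.re * v.re) := by
  have h1 := (dif ha w.re).hasDerivAt.comp_hasFDerivAt w reCLM.hasFDerivAt
  have h2 := (dif hb w.im).hasDerivAt.comp_hasFDerivAt w imCLM.hasFDerivAt
  have h3 := (h1.mul h2).fderiv
  have e : (fun w : ℂ => a w.re * b w.im) = (a ∘ re) * (b ∘ im) := rfl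
  rw [e, h3]
  simp

theorem refl {a : ℝ → ℝ} (h : Stp a) :
    Stp (fun t => - a (-t)) ∧ ∀ t, deriv (fun t => - a (-t)) t = deriv a (-t) := by
  have e : ∀ t, deriv (fun t => - a (-t)) t = deriv a (-t) := fun t => by
    have : HasDerivAt (fun t => - a (-t)) (-(deriv a (-t) * -1)) t :=
      (((dif h (-t)).hasDerivAt).comp t (hasDerivAt_neg t)).neg
    rw [this.deriv]; ring
  refine ⟨⟨(h.1.comp contDiff_neg).neg, fun x => by rw [e]; exact h.2.1 _, ?_⟩, e⟩
  rw [show deriv (fun t => - a (-t)) = deriv a ∘ (Homeomorph.neg ℝ) from funext e]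
  exact h.2.2.comp_homeomorph _

end AUv

theorem s_uv (L : Lib) (deg : S_deg) (pos : S_pos) (inj : S_inj) : S_uv := by
  intro K A z₀ c f ρ hb hp hA hsv hsu
  have hK := hb.cpt
  refine inj K c f hb.toCtx hb.ne hp.hol fun a b ha hb' => ?_
  obtain ⟨h1, h2⟩ := deg K c f a b hK hb.ne hp.hol ha hb'
  refine ⟨h1, ?_⟩
  have hB := L.cmp.clo_compl K A hA
  have hu := hp.au.1
  have hv := hp.av.1
  obtain ⟨L1, hL1⟩ := AUv.lipmul (AUv.bl0 ha) (AUv.bl1 hb')
  obtain ⟨L2, hL2⟩ := AUv.lipmul (AUv.bl1 ha) (AUv.bl0 hb')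
  have hX : Adm K fun z => a (ru f z) * deriv b (iv f z) :=
    (L.comp.adm K _ _ _ L1 hK.isClosed hu hv hL1).1
  have hY : Adm K fun z => deriv a (ru f z) * b (iv f z) :=
    (L.comp.adm K _ _ _ L2 hK.isClosed hu hv hL2).1
  have e0 := L.omB.union K A (K \ A) _ _ hK hA hB disjoint_sdiff_right hX hv
  rw [union_diff_cancel hA.1] at e0
  have p1 := pos K A (ru f) (iv f) ρ a b hK hA hp.au hp.av hsv (hp.area A hA) ha hb'
  have f1 : (fun w : ℂ => fderiv ℝ (fun w : ℂ => a w.re * b w.im) w 1) =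
      fun w => deriv a w.re * b w.im := funext fun w => by
    rw [AUv.fd ha hb']; simp [mul_comm]
  have fI : (fun w : ℂ => fderiv ℝ (fun w : ℂ => a w.re * b w.im) w I) =
      fun w => a w.re * deriv b w.im := funext fun w => by
    rw [AUv.fd ha hb']; simp
  have hH : ContDiff ℝ 2 fun w : ℂ => a w.re * b w.im :=
    (ha.1.comp reCLM.contDiff).mul (hb'.1.comp imCLM.contDiff)
  have e1 := L.omD.exact K (K \ A) (ru f) (iv f) _ (max L1 L2) hK hB hu hv hH
    (by rw [f1]; exact hL2.weaken (le_max_right _ _))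
    (by rw [fI]; exact hL1.weaken (le_max_left _ _))
  have g1 : (fun z => fderiv ℝ (fun w : ℂ => a w.re * b w.im) (pr (ru f) (iv f) z) 1) =
      fun z => deriv a (ru f z) * b (iv f z) := funext fun z => congrFun f1 _
  have gI : (fun z => fderiv ℝ (fun w : ℂ => a w.re * b w.im) (pr (ru f) (iv f) z) I) =
      fun z => a (ru f z) * deriv b (iv f z) := funext fun z => congrFun fI _
  rw [g1, gI, L.omB.anti K _ _ _ hK hB hu hY] at e1
  have neg : ∀ θ, Adm K θ → om K (K \ A) θ (fun z => - ru f z) = - om K (K \ A) θ (ru f) :=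
    fun θ hθ => by simpa using (L.omB.smul K _ (-1) (ru f) θ hK hB hu hθ).2
  obtain ⟨hr, er⟩ := AUv.refl ha
  have p2 := pos K (K \ A) (iv f) (fun z => - ru f z) ρ b _ hK hB hp.av
    (L.star.aneg K K _ _ hK hp.au) (L.star.neg K _ _ _ hK hB hsu)
    (by rw [neg _ hv, neg_neg, L.omB.anti K _ _ _ hK hB hv hu]; exact hp.area _ hB) hb' hr
  have g2 : (fun z => b (iv f z) * deriv (fun t => - a (-t)) (- ru f z)) =
      fun z => deriv a (ru f z) * b (iv f z) := funext fun z => by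
    rw [er, neg_neg, mul_comm]
  rw [g2, neg _ hY] at p2
  have e2 : om K K (fun z => a (f z).re * deriv b (f z).im) (iv f) =
      om K K (fun z => a (ru f z) * deriv b (iv f z)) (iv f) := rfl
  linarith

end Vale.Agent.P116
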