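import Vale.Agent.P116.AStm2

/-! Step A: weights vanishing near the box. -/

open Set Filter Topology MeasureTheory Metric Complex
open scoped ENNReal NNReal

noncomputable section
namespace Vale.Agent.P116

namespace AVan

theorem smul_sq {K : Set ℂ} (a : ℝ) {s : Cmp K → ℝ} (h : Summable fun p => s p ^ 2) :
    Summable fun p => (a * s p) ^ 2 :=
  (h.mul_left (a ^ 2)).congr fun p => by ring

theorem near (S : S_sm) {K R : Set ℂ} {s ρ : Cmp K → ℝ} {a : ℝ} (hR : R ⊆ K) (hs : Sq s)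
    (hρ : Sq ρ) (ha : 0 < a) (ha1 : a ≤ 1) (h1 : sm K (s - ρ) (s - ρ) ≤ 1)
    (h2 : sm R ρ ρ ≤ a ^ 2) : sm R s ρ ≤ 2 * a := by
  have d := (S.sqadd K s ρ hs.2 hρ.2).2
  have e1 := (S.add K R s ρ ρ hs.2 hρ.2 hρ.2).2
  have e2 := (le_abs_self _).trans (S.cs K R (s - ρ) ρ d hρ.2)
  have e3 : √(sm R (s - ρ) (s - ρ)) ≤ 1 :=
    Real.sqrt_le_iff.2 ⟨zero_le_one, by linarith [S.mono2 K R K (s - ρ) d hR]⟩
  have e4 : √(sm R ρ ρ) ≤ a := Real.sqrt_le_iff.2 ⟨ha.le, h2⟩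
  have e5 := mul_le_mul e3 e4 (Real.sqrt_nonneg _) zero_le_one
  nlinarith

theorem bound (S : S_sm) {K R : Set ℂ} {s t τ ρ : Cmp K → ℝ} {a M L : ℝ} (hR : R ⊆ K) (hs : Sq s)
    (ht : Sq t) (hτ : Sq τ) (hρ : Sq ρ) (ha : 0 < a) (ha1 : a ≤ 1) (hM : 0 ≤ M) (hL : 0 ≤ L)
    (h1 : sm K (s - ρ) (s - ρ) ≤ 1) (h1' : sm K (t - ρ) (t - ρ) ≤ 1) (h2 : sm R ρ ρ ≤ a ^ 2) :
    Sq ((fun q => M * τ q) + fun q => (M * L) * (s + t) q) ∧
      sm R ((fun q => M * τ q) + fun q => (M * L) * (s + t) q) ρ ≤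
        (M * √(sm K τ τ) + 4 * (M * L)) * a := by
  have d1 := (S.sqadd K s t hs.2 ht.2).1
  have d2 := smul_sq M hτ.2
  have d3 := smul_sq (M * L) d1
  refine ⟨⟨fun q => ?_, (S.sqadd K _ _ d2 d3).1⟩, ?_⟩
  · have := hs.1 q
    have := ht.1 q
    have := hτ.1 q
    simp only [Pi.add_apply]
    positivity
  rw [(S.add K R _ _ ρ d2 d3 hρ.2).1, S.smul, S.smul, (S.add K R s t ρ hs.2 ht.2 hρ.2).1]
  have e1 := near S hR hs hρ ha ha1 h1 h2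
  have e2 := near S hR ht hρ ha ha1 h1' h2
  have e3 := (le_abs_self _).trans (S.cs K R τ ρ hτ.2 hρ.2)
  have e4 : √(sm R ρ ρ) ≤ a := Real.sqrt_le_iff.2 ⟨ha.le, h2⟩
  have e5 : √(sm R τ τ) ≤ √(sm K τ τ) := Real.sqrt_le_sqrt (S.mono2 K R K τ hτ.2 hR)
  have e6 := mul_le_mul e5 e4 (Real.sqrt_nonneg _) (Real.sqrt_nonneg _)
  have e7 := mul_le_mul_of_nonneg_left (e3.trans e6) hM
  have e8 := mul_le_mul_of_nonneg_left (add_le_add e1 e2) (mul_nonneg hM hL)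
  linarith

end AVan

theorem s_van (L : Lib) (G : Geo) : S_van := by
  intro K T U₀ B z₀ c f ρ τ p θ Ψ M κ Lp hb hp hT hpT hU₀ hpU hst hbx hg hθ hΨ hΨM hκ hΨ0 η hη
  have hK := hb.cpt
  have hKc := hK.isClosed
  have hM : 0 ≤ M := (abs_nonneg _).trans (hΨM 0)
  have hρ : Sq ρ := hp.au.2.1
  set C := M * √(sm K τ τ) + 4 * (M * Lp) with hC
  have C0 : 0 ≤ C := by positivity
  set a := min 1 (η / 2 / (C + 1)) with ha
  have a0 : 0 < a := lt_min one_pos (by positivity)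
  have a1 : a ≤ 1 := min_le_left _ _
  have a2 : C * a ≤ η / 2 := by
    have h1 : a ≤ η / 2 / (C + 1) := min_le_right _ _
    rw [le_div_iff₀ (by positivity)] at h1
    nlinarith
  obtain ⟨U, hU, hpU', hUs⟩ := L.sm.punct K ρ p (a ^ 2) hK hρ.2 (by positivity)
  refine ⟨U ∩ U₀, hU.inter hU₀, subset_inter hpU' hpU, fun Q hQ hpQ hQT => ?_⟩
  obtain ⟨ε₀, e0, hpr⟩ := G.prod K Q (ru f) (iv f) (ru f) θ Ψ Lp M (η / 2) hK hQ hp.au.1 hp.av.1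
    hp.au.1 hg.1 hθ hΨ hΨM (by positivity)
  set ε := min ε₀ (min κ 1) with hε
  have ε1 : ε ≤ κ := (min_le_right _ _).trans (min_le_left _ _)
  have ε2 : ε ≤ 1 := (min_le_right _ _).trans (min_le_right _ _)
  obtain ⟨φ, s, ψ, t, hφ, hψ, U₁, hU₁, hpU₁, hB⟩ := hbx ε (lt_min e0 (lt_min hκ one_pos))
  have h1 := hpr ε K ρ ρ s t φ ψ (min_le_left _ _) hφ hψ
  obtain ⟨Q', hQ', hpQ', hQU⟩ := L.cmp.nbhd K p U₁ hK hU₁ hpU₁
  have c1 := L.cmp.clo_inter K Q Q' hQ hQ'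
  have c2 := L.cmp.clo_diff K Q Q' hQ hQ'
  have aΨ := (L.comp.adm K φ ψ Ψ Lp hKc hφ.1.1 hψ.1.1 hΨ).1
  have aG : Adm K fun z => θ z * Ψ (pr φ ψ z) :=
    L.adm.mul K θ _ M hKc hg.1 aΨ hθ fun z _ => hΨM _
  have h2 := L.omB.union K (Q ∩ Q') (Q \ Q') _ (ru f) hK c1 c2
    (disjoint_sdiff_right.mono_left inter_subset_right) aG hp.au.1
  rw [inter_union_sdiff] at h2
  have h3 : om K (Q ∩ Q') (fun z => θ z * Ψ (pr φ ψ z)) (ru f) = 0 := by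
    refine L.omB.locc K _ _ _ hK c1 aG hp.au.1 fun q hq => ⟨U₁, 0, hU₁,
      hq.trans (inter_subset_right.trans hQU), fun z hz => ?_⟩
    rw [hΨ0 _ (thickening_mono ε1 B (hB z hz)), mul_zero]
  have np : ¬ p.1 ⊆ Q \ Q' := fun h => by
    obtain ⟨z, hz⟩ := L.cmp.ne K p
    exact (h hz).2 (hpQ' hz)
  have hRU : Q \ Q' ⊆ U := fun z hz => (hQT hz.1).2.1
  obtain ⟨b1, b2⟩ := AVan.bound L.sm (R := Q \ Q') (L := Lp) c2.1 hφ.1.2.1 hψ.1.2.1 hg.2.1 hρ a0 a1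
    hM Lp.2 (hφ.2.2.2.trans ε2) (hψ.2.2.2.trans ε2) (hUs _ hRU np)
  have h4 := (hst (Q \ Q') c2 (fun z hz => (hQT hz.1).2.2) np).2.2 _ _ ⟨aG, b1, fun q hq => by
    have o1 := hg.2.2 q fun z hz => (hQT (hq hz).1).1
    have o2 := L.comp.osc K q.1 φ ψ Ψ Lp _ _ (hφ.1.2.2 q (L.cmp.sub K q))
      (hψ.1.2.2 q (L.cmp.sub K q)) hΨ
    have o3 := L.comp.omul K q.1 univ θ _ _ _ M M isOpen_univ (subset_univ _) hM hM o1 o2
      (fun z hz => hθ z hz.2) fun z _ => hΨM _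
    simpa only [Pi.add_apply, mul_assoc] using o3⟩
  simp only [pr_ru_iv] at h1
  rw [h3, zero_add] at h2
  rw [h2] at h1
  have h5 := abs_le.1 h1
  have h6 := abs_le.1 (h4.trans (b2.trans a2))
  exact abs_le.2 ⟨by linarith [h5.2, h6.1], by linarith [h5.1, h6.2]⟩

end Vale.Agent.P116
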