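import Vale.Agent.P116.AStm2

/-! Step A: areas and mean width weights. -/

open Set Filter Topology MeasureTheory Metric Complex
open scoped ENNReal NNReal

noncomputable section
namespace Vale.Agent.P116

theorem vol_clo (area : S_area) (K Q : Set ℂ) (z₀ c : ℂ) (f : ℂ → ℂ) (ρ : Cmp K → ℝ)
    (hb : Base K z₀ c) (h : Pre K z₀ c f ρ) (hQ : Clo K Q) :
    volume.real (img K f Q) = sm Q ρ ρ := by
  have h1 := (area K Q c f (fun w => w.re) 1 (h.uni hb) hQ reCLM.contDiff
    (LipschitzWith.of_dist_le_mul fun x y => by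
      rw [Real.dist_eq, ← sub_re, dist_eq_norm, NNReal.coe_one, one_mul]
      exact abs_re_le_norm _)).1
  have h2 : ∀ w : ℂ, fderiv ℝ (fun w : ℂ => w.re) w 1 = 1 := fun w => by
    rw [show (fun w : ℂ => w.re) = reCLM from rfl, ContinuousLinearMap.fderiv]
    rfl
  simp only [h2, integral_const, measureReal_restrict_apply_univ, smul_eq_mul, mul_one] at h1
  rw [← h1]
  exact h.area Q hQ

theorem vol_pt (L : Lib) (imgA : S_imgA) (imgB : S_imgB) (area : S_area) (K : Set ℂ) (z₀ c : ℂ)
    (f : ℂ → ℂ) (ρ : Cmp K → ℝ) (p : Cmp K) (hb : Base K z₀ c) (h : Pre K z₀ c f ρ) :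
    volume.real (img K f p.1) = ρ p ^ 2 := by
  obtain ⟨-, Q, q1, q2, q3, q4⟩ := imgB.seq K c f p (h.uni hb)
  have cq := fun n => (imgB.clo K (Q n) c f (h.uni hb) (q1 n).1).1
  have sq := h.au.2.1.2
  have t1 := tendsto_measure_iInter_atTop (μ := volume) (s := fun n => img K f (Q n))
    (fun n => (cq n).measurableSet.nullMeasurableSet)
    (fun m n hmn => imgA.mono K _ _ f (q2 hmn)) ⟨0, (cq 0).measure_lt_top.ne⟩
  have fin : volume (⋂ n, img K f (Q n)) ≠ ⊤ :=
    ((measure_mono (iInter_subset _ 0)).trans_lt (cq 0).measure_lt_top).ne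
  have t2 := (ENNReal.tendsto_toReal fin).comp t1
  rw [q4] at t2
  have t3 : Tendsto (fun n => sm (Q n \ p.1) ρ ρ) atTop (𝓝 0) := by
    refine tendsto_order.2 ⟨fun a ha => Eventually.of_forall fun n =>
      ha.trans_le (L.sm.nonneg K _ ρ), fun a ha => ?_⟩
    obtain ⟨U, u1, u2, u3⟩ := L.sm.punct K ρ p (a / 2) hb.cpt sq (half_pos ha)
    filter_upwards [q3 U u1 u2] with n hn
    refine (u3 _ (sdiff_subset.trans hn) fun hs => ?_).trans_lt (half_lt_self ha)
    obtain ⟨x, hx⟩ := L.cmp.ne K p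
    exact (hs hx).2 hx
  have t4 := t3.const_add (ρ p * ρ p)
  rw [add_zero, ← pow_two] at t4
  refine tendsto_nhds_unique t2 (t4.congr fun n => ?_)
  rw [pow_two, ← L.sm.atom K (Q n) ρ ρ p sq sq (q1 n).2,
    ← vol_clo area K (Q n) z₀ c f ρ hb h (q1 n).1]
  rfl

theorem s_vol (L : Lib) (imgA : S_imgA) (imgB : S_imgB) (area : S_area) : S_vol := by
  classical
  refine ⟨vol_clo area, vol_pt L imgA imgB area, ?_, ?_⟩
  · intro K T z₀ c f ρ Φ M hb h hT cΦ bΦ
    have r0 := h.au.2.1.1
    have cp := fun p => (imgB.seq K c f p (h.uni hb)).1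
    have cT := (imgB.clo K T c f (h.uni hb) hT).1
    have i0 : ∀ p : Cmp K, 0 ≤ ∫ w in img K f p.1, Φ w := fun p =>
      integral_nonneg fun w => (bΦ w).1
    have m0 : ∀ p, 0 ≤ mw K f ρ Φ p := fun p => div_nonneg (i0 p) (r0 p)
    have m1 : ∀ p, mw K f ρ Φ p ≤ M * ρ p := fun p => by
      rcases (r0 p).eq_or_lt with h0 | h0
      · rw [mw, ← h0, div_zero, mul_zero]
      · rw [mw, div_le_iff₀ h0]
        have := integral_mono (cΦ.continuousOn.integrableOn_compact (cp p))
          ((continuousOn_const (c := M)).integrableOn_compact (μ := volume) (cp p))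
          fun w => (bΦ w).2
        rw [integral_const, measureReal_restrict_apply_univ,
          vol_pt L imgA imgB area K z₀ c f ρ p hb h, smul_eq_mul] at this
        linarith
    have m2 : ∀ p, ρ p * mw K f ρ Φ p ≤ ∫ w in img K f p.1, Φ w := fun p => by
      rcases (r0 p).eq_or_lt with h0 | h0
      · rw [← h0, zero_mul]; exact i0 p
      · rw [mw, mul_div_cancel₀ _ h0.ne']
    refine ⟨⟨m0, L.sm.sqle K _ (fun p => M * ρ p) ?_ fun p => ?_⟩, m1, ?_⟩
    · simpa only [mul_pow] using h.au.2.1.2.mul_left (M ^ 2)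
    · rw [abs_of_nonneg (m0 p)]; exact m1 p
    · refine Real.tsum_le_of_sum_le (fun p => ?_) fun u => ?_
      · dsimp only
        split_ifs
        · exact mul_nonneg (r0 p) (m0 p)
        · exact le_rfl
      · rw [← Finset.sum_filter]
        refine (Finset.sum_le_sum fun p _ => m2 p).trans ?_
        rw [← integral_biUnion_finset _ (fun p _ => (cp p).measurableSet)
          (fun p _ q _ hpq => imgB.disj K c f p q (h.uni hb) hpq)
          fun p _ => cΦ.continuousOn.integrableOn_compact (cp p)]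
        refine setIntegral_mono_set (cΦ.continuousOn.integrableOn_compact cT)
          (Eventually.of_forall fun w => (bΦ w).1) (LE.le.eventuallyLE ?_)
        exact iUnion₂_subset fun p hp => imgA.mono K _ _ f (Finset.mem_filter.1 hp).2
  · intro K z₀ c f ρ hb h
    funext p
    rw [mw, integral_const, measureReal_restrict_apply_univ,
      vol_pt L imgA imgB area K z₀ c f ρ p hb h, smul_eq_mul, mul_one, pow_two]
    rcases eq_or_ne (ρ p) 0 with h0 | h0
    · rw [h0, div_zero]
    · exact mul_div_cancel_right₀ _ h0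

end Vale.Agent.P116
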