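import Vale.Agent.P116.AStm

/-! Step A: lower semicontinuity of weighted gradient integrals. -/

open Set Filter Topology MeasureTheory Metric Complex
open scoped ENNReal NNReal

noncomputable section
namespace Vale.Agent.P116

namespace AWg

theorem bd {C : ℝ≥0} {F : ℂ → ℝ} (hF : LipschitzWith C F) (v x : ℂ) :
    |fderiv ℝ F x v| ≤ C * ‖v‖ :=
  ((fderiv ℝ F x).le_opNorm v).trans
    (mul_le_mul_of_nonneg_right (norm_fderiv_le_of_lipschitz ℝ hF) (norm_nonneg _))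

theorem int {C : ℝ≥0} {F h : ℂ → ℝ} (hF : LipschitzWith C F) (v : ℂ) {μ : Measure ℂ}
    (hh : Integrable h μ) : Integrable (fun x => fderiv ℝ F x v * h x) μ :=
  hh.bdd_mul (measurable_fderiv_apply_const ℝ F v).aestronglyMeasurable
    (Eventually.of_forall (bd hF v))

theorem ibp {C : ℝ≥0} {F φ : ℂ → ℝ} (hF : LipschitzWith C F) (h1 : HasCompactSupport φ)
    (h2 : ContDiff ℝ 1 φ) (v : ℂ) :
    ∫ x, fderiv ℝ F x v * φ x = ∫ x, fderiv ℝ φ x (-v) * F x := by
  obtain ⟨D, hD⟩ := h2.lipschitzWith_of_hasCompactSupport h1 one_ne_zero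
  have h := hF.integral_lineDeriv_mul_eq (μ := volume) hD h1 v
  have e1 : ∫ x, fderiv ℝ F x v * φ x = ∫ x, lineDeriv ℝ F x v * φ x := by
    refine integral_congr_ae ?_
    filter_upwards [hF.ae_differentiableAt (μ := volume)] with x hx
    rw [hx.lineDeriv_eq_fderiv]
  rw [e1, h]
  refine integral_congr_ae (Eventually.of_forall fun x => ?_)
  simp only
  rw [(h2.differentiable one_ne_zero x).lineDeriv_eq_fderiv]

theorem lip0 {C : ℝ≥0} {F : ℕ → ℂ → ℝ} {F₀ : ℂ → ℝ} (hF : ∀ n, LipschitzWith C (F n))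
    (hl : ∀ x, Tendsto (fun n => F n x) atTop (𝓝 (F₀ x))) : LipschitzWith C F₀ :=
  LipschitzWith.of_dist_le_mul fun x y =>
    le_of_tendsto' ((hl x).dist (hl y)) fun n => (hF n).dist_le_mul x y

theorem smooth {C : ℝ≥0} {F : ℕ → ℂ → ℝ} {F₀ φ : ℂ → ℝ} (hF : ∀ n, LipschitzWith C (F n))
    (hl : ∀ x, Tendsto (fun n => F n x) atTop (𝓝 (F₀ x))) (h1 : HasCompactSupport φ)
    (h2 : ContDiff ℝ 1 φ) (v : ℂ) :
    Tendsto (fun n => ∫ x, fderiv ℝ (F n) x v * φ x) atTop (𝓝 (∫ x, fderiv ℝ F₀ x v * φ x)) := by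
  simp only [ibp (hF _) h1 h2, ibp (lip0 hF hl) h1 h2]
  obtain ⟨M, hM⟩ := (Metric.isBounded_range_of_tendsto _ (hl 0)).exists_norm_le
  have hc : Continuous fun x => fderiv ℝ φ x (-v) :=
    (h2.continuous_fderiv one_ne_zero).clm_apply continuous_const
  have hs : HasCompactSupport fun x => fderiv ℝ φ x (-v) := h1.fderiv_apply ℝ (-v)
  refine tendsto_integral_of_dominated_convergence
    (fun x => ‖fderiv ℝ φ x (-v)‖ * (M + C * ‖x‖))
    (fun n => (hc.mul (hF n).continuous).aestronglyMeasurable) ?_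
    (fun n => Eventually.of_forall fun x => ?_)
    (Eventually.of_forall fun x => (hl x).const_mul _)
  · exact Continuous.integrable_of_hasCompactSupport (by fun_prop) hs.norm.mul_right
  · rw [norm_mul]
    refine mul_le_mul_of_nonneg_left ?_ (norm_nonneg _)
    have a := (hF n).dist_le_mul x 0
    rw [dist_zero_right, dist_eq_norm] at a
    have b := hM _ (mem_range_self n)
    linarith [norm_sub_norm_le (F n x) (F n 0)]

theorem weak {C : ℝ≥0} {F : ℕ → ℂ → ℝ} {F₀ h : ℂ → ℝ} (hF : ∀ n, LipschitzWith C (F n))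
    (hl : ∀ x, Tendsto (fun n => F n x) atTop (𝓝 (F₀ x))) (hh : Integrable h) (v : ℂ) :
    Tendsto (fun n => ∫ x, fderiv ℝ (F n) x v * h x) atTop (𝓝 (∫ x, fderiv ℝ F₀ x v * h x)) := by
  rw [Metric.tendsto_atTop]
  intro ε hε
  have hB : (0 : ℝ) ≤ C * ‖v‖ := by positivity
  obtain ⟨φ, h1, h2, h3⟩ := (memLp_one_iff_integrable.2 hh).exist_eLpNorm_sub_le
    ENNReal.one_ne_top le_rfl (ε := ε / 3 / (C * ‖v‖ + 1)) (by positivity)
  have h2' : ContDiff ℝ 1 φ := h2.of_le (by exact_mod_cast le_top)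
  have hφ : Integrable φ := h2'.continuous.integrable_of_hasCompactSupport h1
  have h4 : ∫ x, ‖h x - φ x‖ ≤ ε / 3 / (C * ‖v‖ + 1) := by
    rw [eLpNorm_one_eq_lintegral_enorm, ← ofReal_integral_norm_eq_lintegral_enorm (hh.sub hφ),
      ENNReal.ofReal_le_ofReal_iff (by positivity)] at h3
    exact h3
  have key : ∀ G : ℂ → ℝ, LipschitzWith C G →
      |(∫ x, fderiv ℝ G x v * h x) - ∫ x, fderiv ℝ G x v * φ x| ≤ ε / 3 := by
    intro G hG
    rw [← integral_sub (int hG v hh) (int hG v hφ)]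
    have a : ‖∫ x, (fderiv ℝ G x v * h x - fderiv ℝ G x v * φ x)‖ ≤
        ∫ x, C * ‖v‖ * ‖h x - φ x‖ := by
      refine norm_integral_le_of_norm_le ((hh.sub hφ).norm.const_mul _)
        (Eventually.of_forall fun x => ?_)
      rw [← mul_sub, norm_mul]
      exact mul_le_mul_of_nonneg_right (bd hG v x) (norm_nonneg _)
    rw [integral_const_mul] at a
    have b : (C * ‖v‖ : ℝ) * ∫ x, ‖h x - φ x‖ ≤ (C * ‖v‖ + 1) * (ε / 3 / (C * ‖v‖ + 1)) :=
      mul_le_mul (by linarith) h4 (integral_nonneg fun x => norm_nonneg _) (by positivity)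
    rw [mul_div_cancel₀ _ (by positivity)] at b
    exact a.trans b
  obtain ⟨N, hN⟩ := Metric.tendsto_atTop.1 (smooth hF hl h1 h2' v) (ε / 3) (by positivity)
  refine ⟨N, fun n hn => ?_⟩
  have a := abs_le.1 (key _ (hF n))
  have b := abs_le.1 (key _ (lip0 hF hl))
  have c := hN n hn
  rw [Real.dist_eq, abs_lt] at c ⊢
  constructor <;> linarith [a.1, a.2, b.1, b.2, c.1, c.2]

theorem weakOn {C : ℝ≥0} {F : ℕ → ℂ → ℝ} {F₀ h : ℂ → ℝ} (hF : ∀ n, LipschitzWith C (F n))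
    (hl : ∀ x, Tendsto (fun n => F n x) atTop (𝓝 (F₀ x))) {W : Set ℂ} (hW : MeasurableSet W)
    (hh : IntegrableOn h W) (v : ℂ) : Tendsto (fun n => ∫ x in W, fderiv ℝ (F n) x v * h x) atTop
      (𝓝 (∫ x in W, fderiv ℝ F₀ x v * h x)) := by
  have := weak hF hl ((integrable_indicator_iff hW).2 hh) v
  have e : ∀ G : ℂ → ℝ, ∫ x, fderiv ℝ G x v * W.indicator h x = ∫ x in W, fderiv ℝ G x v * h x :=
    fun G => by
      rw [← integral_indicator hW]
      exact integral_congr_ae (Eventually.of_forall fun x =>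
        (indicator_mul_right W (fun x => fderiv ℝ G x v) h).symm)
  simpa only [e] using this

theorem cs (a b : ℂ) : |a.re * b.re + a.im * b.im| ≤ ‖a‖ * ‖b‖ := by
  have h := Complex.abs_re_le_norm (a * (starRingEnd ℂ) b)
  simpa using h

theorem pt (a b : ℂ) {t : ℝ} (ht : 0 ≤ t) :
    |a.re * (t * (b.re / ‖b‖)) + a.im * (t * (b.im / ‖b‖))| ≤ t * ‖a‖ := by
  rw [show a.re * (t * (b.re / ‖b‖)) + a.im * (t * (b.im / ‖b‖)) =
    t * ((a.re * b.re + a.im * b.im) / ‖b‖) by ring, abs_mul, abs_of_nonneg ht, abs_div, abs_norm]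
  exact mul_le_mul_of_nonneg_left (div_le_of_le_mul₀ (norm_nonneg _) (norm_nonneg _) (cs a b)) ht

theorem pt0 (b : ℂ) (t : ℝ) :
    b.re * (t * (b.re / ‖b‖)) + b.im * (t * (b.im / ‖b‖)) = t * ‖b‖ := by
  rw [show b.re * (t * (b.re / ‖b‖)) + b.im * (t * (b.im / ‖b‖)) =
    t * ((b.re * b.re + b.im * b.im) / ‖b‖) by ring, ← Complex.normSq_apply,
    Complex.normSq_eq_norm_sq, pow_two, mul_self_div_self]

theorem glob (adm : S_adm) {C : ℝ≥0} {F : ℕ → ℂ → ℝ} {F₀ : ℂ → ℝ}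
    (hF : ∀ n, LipschitzWith C (F n)) (hl : ∀ x, Tendsto (fun n => F n x) atTop (𝓝 (F₀ x)))
    {W : Set ℂ} (hW : MeasurableSet W) (hv : volume W ≠ ⊤) {g : ℂ → ℝ≥0∞} (hg : Measurable g) :
    ∫⁻ z in W, g z * ‖gr F₀ z‖ₑ ≤ liminf (fun n => ∫⁻ z in W, g z * ‖gr (F n) z‖ₑ) atTop := by
  have m0 := adm.meas F₀
  have e : ∀ z, g z * ‖gr F₀ z‖ₑ = ⨆ m : ℕ, min (g z) m * ‖gr F₀ z‖ₑ := fun z => by
    rw [← ENNReal.iSup_mul, ← inf_iSup_eq, ENNReal.iSup_natCast, inf_top_eq]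
  rw [lintegral_congr e, lintegral_iSup (f := fun (m : ℕ) z => min (g z) m * ‖gr F₀ z‖ₑ)
    (fun m => (hg.min measurable_const).mul m0.enorm)
    (fun a b hab z => mul_le_mul_left (min_le_min_left _ (by exact_mod_cast hab)) _)]
  refine iSup_le fun m => ?_
  have fin : ∀ z, min (g z) m ≠ ⊤ := fun z =>
    ne_top_of_le_ne_top (ENNReal.natCast_ne_top m) (min_le_right _ _)
  obtain ⟨t, ht, t0, tm, et⟩ : ∃ t : ℂ → ℝ, Measurable t ∧ (∀ z, 0 ≤ t z) ∧ (∀ z, t z ≤ m) ∧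
      ∀ z, ENNReal.ofReal (t z) = min (g z) m :=
    ⟨fun z => (min (g z) m).toReal, (hg.min measurable_const).ennreal_toReal,
      fun z => ENNReal.toReal_nonneg,
      fun z => ENNReal.toReal_le_of_le_ofReal (Nat.cast_nonneg m) (by simp),
      fun z => ENNReal.ofReal_toReal (fin z)⟩
  have ib : ∀ c : ℂ → ℝ, Measurable c → (∀ z, |c z| ≤ ‖gr F₀ z‖) →
      IntegrableOn (fun z => t z * (c z / ‖gr F₀ z‖)) W := fun c hc hb => by
    refine Measure.integrableOn_of_bounded (M := m) hv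
      (ht.mul (hc.div m0.norm)).aestronglyMeasurable (Eventually.of_forall fun z => ?_)
    rw [Real.norm_eq_abs, abs_mul, abs_of_nonneg (t0 z), abs_div, abs_norm]
    exact (mul_le_of_le_one_right (t0 z) (div_le_one_of_le₀ (hb z) (norm_nonneg _))).trans (tm z)
  have i1 := ib _ (Complex.measurable_re.comp m0) fun z => Complex.abs_re_le_norm _
  have i2 := ib _ (Complex.measurable_im.comp m0) fun z => Complex.abs_im_le_norm _
  have lim := ((weakOn hF hl hW i1 1).add (weakOn hF hl hW i2 I)).enorm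
  have l0 := lip0 hF hl
  have e0 : ∫⁻ z in W, min (g z) m * ‖gr F₀ z‖ₑ = ‖(∫ z in W, fderiv ℝ F₀ z 1 *
      (t z * ((gr F₀ z).re / ‖gr F₀ z‖))) + ∫ z in W, fderiv ℝ F₀ z I *
        (t z * ((gr F₀ z).im / ‖gr F₀ z‖))‖ₑ := by
    have j := (int l0 1 i1).add (int l0 I i2)
    have e1 : ∀ z, fderiv ℝ F₀ z 1 * (t z * ((gr F₀ z).re / ‖gr F₀ z‖)) +
        fderiv ℝ F₀ z I * (t z * ((gr F₀ z).im / ‖gr F₀ z‖)) = t z * ‖gr F₀ z‖ :=
      fun z => pt0 (gr F₀ z) (t z)
    have j' : IntegrableOn (fun z => t z * ‖gr F₀ z‖) W := j.congr (Eventually.of_forall e1)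
    have p0 : ∀ z, 0 ≤ t z * ‖gr F₀ z‖ := fun z => mul_nonneg (t0 z) (norm_nonneg _)
    erw [← integral_add (int l0 1 i1) (int l0 I i2)]
    simp only [Function.comp_apply, e1]
    rw [Real.enorm_eq_ofReal (integral_nonneg p0),
      ofReal_integral_eq_lintegral_ofReal j' (Eventually.of_forall p0)]
    refine lintegral_congr fun z => ?_
    rw [ENNReal.ofReal_mul (t0 z), et, ofReal_norm]
  rw [e0]
  refine lim.liminf_eq.symm.trans_le (liminf_le_liminf (Eventually.of_forall fun n => ?_))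
  rw [← integral_add (int (hF n) 1 i1) (int (hF n) I i2)]
  refine (enorm_integral_le_lintegral_enorm _).trans (lintegral_mono fun z => ?_)
  have a := ENNReal.ofReal_le_ofReal (pt (gr (F n) z) (gr F₀ z) (t0 z))
  rw [ENNReal.ofReal_mul (t0 z), et, ofReal_norm, ← Real.enorm_eq_ofReal_abs] at a
  exact a.trans (mul_le_mul_left (min_le_left _ _) _)

theorem clamp (a r : ℝ) (hr : 0 ≤ r) : ∃ c : ℝ → ℝ, (∀ x y, |c x - c y| ≤ |x - y|) ∧
    (∀ x, |c x - a| ≤ r) ∧ ∀ x, |x - a| ≤ r → c x = x := by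
  refine ⟨fun x => max (a - r) (min (a + r) x), fun x y => ?_, fun x => ?_, fun x hx => ?_⟩
  · simp only [max_comm (a - r)]
    refine (abs_max_sub_max_le_abs _ _ _).trans ?_
    simpa using abs_min_sub_min_le_max (a + r) x (a + r) y
  · rw [abs_le]
    constructor
    · linarith [le_max_left (a - r) (min (a + r) x)]
    · linarith [max_le (by linarith : a - r ≤ a + r) (min_le_left (a + r) x)]
  · obtain ⟨h1, h2⟩ := abs_le.1 hx
    simp only
    rw [min_eq_right (by linarith), max_eq_right (by linarith)]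

theorem retr (z : ℂ) {r : ℝ} (hr : 0 < r) : ∃ P : ℂ → ℂ, LipschitzWith 2 P ∧
    (∀ w, P w ∈ ball z (3 * r)) ∧ ∀ w ∈ ball z r, P w = w := by
  obtain ⟨c, c1, c2, c3⟩ := clamp z.re r hr.le
  obtain ⟨d, d1, d2, d3⟩ := clamp z.im r hr.le
  refine ⟨fun w => ⟨c w.re, d w.im⟩, LipschitzWith.of_dist_le_mul fun x y => ?_, fun w => ?_,
    fun w hw => ?_⟩
  · rw [dist_eq_norm, dist_eq_norm]
    have a := Complex.norm_le_abs_re_add_abs_im (⟨c x.re, d x.im⟩ - ⟨c y.re, d y.im⟩)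
    have b1 := Complex.abs_re_le_norm (x - y)
    have b2 := Complex.abs_im_le_norm (x - y)
    simp only [Complex.sub_re, Complex.sub_im] at a b1 b2
    push_cast
    linarith [c1 x.re y.re, d1 x.im y.im]
  · rw [mem_ball, dist_eq_norm]
    have a := Complex.norm_le_abs_re_add_abs_im (⟨c w.re, d w.im⟩ - z)
    simp only [Complex.sub_re, Complex.sub_im] at a
    linarith [c2 w.re, d2 w.im]
  · rw [mem_ball, dist_eq_norm] at hw
    have b1 := Complex.abs_re_le_norm (w - z)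
    have b2 := Complex.abs_im_le_norm (w - z)
    simp only [Complex.sub_re, Complex.sub_im] at b1 b2
    exact Complex.ext (c3 _ (by linarith)) (d3 _ (by linarith))

theorem gr_eq {θ : ℂ → ℝ} {P : ℂ → ℂ} {z w : ℂ} {r : ℝ} (hP : ∀ w ∈ ball z r, P w = w)
    (hw : w ∈ ball z r) : gr (fun x => θ (P x)) w = gr θ w := by
  have : (fun x => θ (P x)) =ᶠ[𝓝 w] θ := by
    filter_upwards [isOpen_ball.mem_nhds hw] with x hx
    rw [hP x hx]
  unfold gr
  rw [this.fderiv_eq]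

end AWg

open AWg in
theorem s_wg (adm : S_adm) : S_wg := by
  intro U L rad ζ ζ₀ g hU hrad hL hl hg
  have loc : ∀ z ∈ U, ∃ r > 0, ball z r ⊆ U ∧ LipschitzOnWith (L z * 2) ζ₀ (ball z r) ∧
      ∀ A, MeasurableSet A → A ⊆ ball z r → ∫⁻ w in A, g w * ‖gr ζ₀ w‖ₑ ≤
        liminf (fun n => ∫⁻ w in A, g w * ‖gr (ζ n) w‖ₑ) atTop := by
    intro z hz
    obtain ⟨ε, hε, hεU⟩ := Metric.isOpen_iff.1 hU z hz
    have h0 := hrad z hz
    obtain ⟨r, hr, r1, r2⟩ : ∃ r : ℝ, 0 < r ∧ 3 * r ≤ ε ∧ 3 * r ≤ rad z :=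
      ⟨min ε (rad z) / 3, by positivity, by linarith [min_le_left ε (rad z)],
        by linarith [min_le_right ε (rad z)]⟩
    obtain ⟨P, p1, p2, p3⟩ := retr z hr
    have hF : ∀ n, LipschitzWith (L z * 2) fun x => ζ n (P x) := fun n => by
      rw [← lipschitzOnWith_univ]
      exact (hL n z hz).comp p1.lipschitzOnWith fun w _ => ball_subset_ball r2 (p2 w)
    have hl' : ∀ x, Tendsto (fun n => ζ n (P x)) atTop (𝓝 (ζ₀ (P x))) := fun x =>
      hl _ (hεU (ball_subset_ball r1 (p2 x)))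
    refine ⟨r, hr, (ball_subset_ball (by linarith)).trans hεU, fun x hx y hy => ?_,
      fun A hA hAb => ?_⟩
    · have := lip0 hF hl' x y
      rwa [p3 x hx, p3 y hy] at this
    · have := glob adm hF hl' hA (ne_top_of_le_ne_top measure_ball_lt_top.ne (measure_mono hAb)) hg
      have e : ∀ θ : ℂ → ℝ, ∫⁻ w in A, g w * ‖gr (fun x => θ (P x)) w‖ₑ =
          ∫⁻ w in A, g w * ‖gr θ w‖ₑ := fun θ =>
        setLIntegral_congr_fun hA fun w hw => by simp only [gr_eq p3 (hAb hw)]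
      simpa only [e] using this
  choose! r hr h1 h2 h3 using loc
  refine ⟨fun z hz => ⟨_, _, mem_nhdsWithin_of_mem_nhds (ball_mem_nhds z (hr z hz)), h2 z hz⟩, ?_⟩
  rcases U.eq_empty_or_nonempty with rfl | hne
  · simp
  obtain ⟨t, htU, htc, hcov⟩ := TopologicalSpace.countable_cover_nhdsWithin
    (f := fun z => ball z (r z)) fun z hz => mem_nhdsWithin_of_mem_nhds (ball_mem_nhds z (hr z hz))
  have tne : t.Nonempty := by
    obtain ⟨z, hz⟩ := hne
    obtain ⟨x, hx, -⟩ := mem_iUnion₂.1 (hcov hz)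
    exact ⟨x, hx⟩
  obtain ⟨c, rfl⟩ := htc.exists_eq_range tne
  have cU : ∀ k, c k ∈ U := fun k => htU (mem_range_self k)
  have eU : U = ⋃ k, disjointed (fun k => ball (c k) (r (c k))) k := by
    rw [iUnion_disjointed]
    exact Subset.antisymm (by simpa using hcov) (iUnion_subset fun k => h1 _ (cU k))
  have hm : ∀ k, MeasurableSet (disjointed (fun k => ball (c k) (r (c k))) k) :=
    MeasurableSet.disjointed fun k => measurableSet_ball
  have e : ∀ f : ℂ → ℝ≥0∞, ∫⁻ z in U, f z = ∫⁻ k, (∫⁻ z in disjointed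
      (fun k => ball (c k) (r (c k))) k, f z) ∂Measure.count := fun f => by
    rw [lintegral_count, ← lintegral_iUnion hm (disjoint_disjointed _), ← eU]
  simp only [e]
  exact (lintegral_mono fun k => h3 _ (cU k) _ (hm k) (disjointed_subset _ k)).trans
    (lintegral_liminf_le fun n => measurable_from_top)

end Vale.Agent.P116
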