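import Vale.Agent.P116.DStm

/-! Part D: cells around the components of a compact set. -/

open Set Filter Topology MeasureTheory Metric
open scoped ENNReal NNReal

noncomputable section
namespace Vale.Agent.P116

namespace DCell

/-- The cell of level `n` around `p`. -/
def cl (h : S_cmp) (K : Set ℂ) (n : ℕ) (p : Cmp K) : Set ℂ :=
  connectedComponentIn (thickening (1 / ((n : ℝ) + 1)) K) (h.ne K p).some

variable (h : S_cmp) (K : Set ℂ)

theorem pos (n : ℕ) : (0 : ℝ) < 1 / ((n : ℝ) + 1) := Nat.one_div_pos_of_nat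

theorem op (n : ℕ) (p : Cmp K) : IsOpen (cl h K n p) :=
  isOpen_thickening.connectedComponentIn

theorem sub (n : ℕ) (p : Cmp K) : p.1 ⊆ cl h K n p :=
  (h.con K p).subset_connectedComponentIn (h.ne K p).some_mem
    ((h.sub K p).trans (self_subset_thickening (pos n) K))

theorem anti (n n' : ℕ) (p : Cmp K) (hn : n ≤ n') : cl h K n' p ⊆ cl h K n p :=
  connectedComponentIn_mono _ (thickening_mono (Nat.one_div_le_one_div hn) K)

theorem eq_of_mem (n : ℕ) (p q : Cmp K) {z : ℂ} (hp : z ∈ cl h K n p) (hq : z ∈ cl h K n q) :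
    cl h K n p = cl h K n q :=
  (connectedComponentIn_eq hp).trans (connectedComponentIn_eq hq).symm

theorem small (hK : IsCompact K) (p : Cmp K) (U : Set ℂ) (hU : IsOpen U) (hp : p.1 ⊆ U) :
    ∃ n, cl h K n p ⊆ U := by
  obtain ⟨Q, ⟨hQK, hQ, hQ'⟩, hpQ, hQU⟩ := h.nbhd K p U hK hU hp
  have hQc : IsCompact Q := hK.of_isClosed_subset hQ hQK
  obtain ⟨δ, hδ, hd⟩ := Disjoint.exists_thickenings (disjoint_sdiff_right (s := Q) (t := K)) hQc hQ'
  obtain ⟨δ', hδ', hs⟩ := hQc.exists_thickening_subset_open hU hQU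
  obtain ⟨n, hn⟩ := exists_nat_one_div_lt (lt_min hδ hδ')
  have h1 : 1 / ((n : ℝ) + 1) ≤ δ := hn.le.trans (min_le_left _ _)
  have h2 : 1 / ((n : ℝ) + 1) ≤ δ' := hn.le.trans (min_le_right _ _)
  refine ⟨n, Subset.trans ?_ ((thickening_mono h2 Q).trans hs)⟩
  refine IsPreconnected.subset_left_of_subset_union (v := thickening (1 / ((n : ℝ) + 1)) (K \ Q))
    isOpen_thickening isOpen_thickening
    (hd.mono (thickening_mono h1 _) (thickening_mono h1 _)) ?_ ?_ isPreconnected_connectedComponentIn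
  · rw [← thickening_union, union_sdiff_cancel hQK]
    exact connectedComponentIn_subset _ _
  · obtain ⟨z, hz⟩ := h.ne K p
    exact ⟨z, sub h K n p hz, self_subset_thickening (pos n) Q (hpQ hz)⟩

theorem sep (hK : IsCompact K) (p q : Cmp K) (hpq : p ≠ q) : ∃ n, cl h K n p ≠ cl h K n q := by
  have hc : IsClosed q.1 := (h.cpt K q hK).isClosed
  have hp : p.1 ⊆ q.1ᶜ := fun z hz hq => hpq (h.eq K p q ⟨z, hz, hq⟩)
  obtain ⟨n, hn⟩ := small h K hK p _ hc.isOpen_compl hp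
  refine ⟨n, fun he => ?_⟩
  obtain ⟨z, hz⟩ := h.ne K q
  exact hn (he ▸ sub h K n q hz) hz

theorem cpt (hK : IsCompact K) (N : Cmp K → ℕ) :
    ∃ G : Finset (Cmp K), ∀ q, ∃ p ∈ G, cl h K (N p) q = cl h K (N p) p := by
  obtain ⟨G, hG⟩ := hK.elim_finite_subcover (fun p => cl h K (N p) p) (fun p => op h K _ p)
    fun z hz => by
      obtain ⟨p, hp⟩ := h.mem K z hz
      exact mem_iUnion.2 ⟨p, sub h K _ p hp⟩
  refine ⟨G, fun q => ?_⟩
  obtain ⟨z, hz⟩ := h.ne K q
  obtain ⟨p, hp, hz'⟩ := mem_iUnion₂.1 (hG (h.sub K q hz))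
  exact ⟨p, hp, eq_of_mem h K _ q p (sub h K _ q hz) hz'⟩

end DCell

open DCell in
theorem s_DCell (h : S_cmp) : S_DCell := fun K hK =>
  ⟨cl h K, ⟨fun n n' p q hn he => by
      obtain ⟨z, hz⟩ := h.ne K p
      exact eq_of_mem h K n p q (sub h K n p hz) (anti h K n n' q hn (he ▸ sub h K n' p hz)),
    sep h K hK, cpt h K hK⟩, fun n p => ⟨op h K n p, sub h K n p⟩, anti h K, small h K hK⟩

end Vale.Agent.P116
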