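import Vale.Agent.P116.DStm

/-! Part D: an element of bounded energy. -/

open Set Filter Topology MeasureTheory Metric
open scoped ENNReal NNReal

noncomputable section
namespace Vale.Agent.P116

namespace DDu

variable {Z : Type} [MeasurableSpace Z] {ν : Measure Z}

theorem inner_eq (u w : Lp ℝ 2 ν) : inner ℝ u w = ∫ z, u z * w z ∂ν := by
  rw [L2.inner_def]
  refine integral_congr_ae (Eventually.of_forall fun z => ?_)
  simp [mul_comm]

theorem lint_sq (u : Lp ℝ 2 ν) :
    ∫⁻ z, ENNReal.ofReal (u z ^ 2) ∂ν = ENNReal.ofReal (‖u‖ ^ 2) := by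
  rw [← real_inner_self_eq_norm_sq, inner_eq, ← ofReal_integral_eq_lintegral_ofReal
    (Lp.memLp u).integrable_sq (Eventually.of_forall fun z => sq_nonneg _)]
  simp only [pow_two]

theorem ae_fin {v : Z → ℝ≥0∞} (hv : Measurable v) (h : ∫⁻ z, v z ^ 2 ∂ν < ∞) :
    ∀ᵐ z ∂ν, v z ≠ ∞ := by
  filter_upwards [ae_lt_top (hv.pow_const 2) h.ne] with z hz h0
  simp [h0] at hz

theorem mem2 {v : Z → ℝ≥0∞} (hv : Measurable v) (h : ∫⁻ z, v z ^ 2 ∂ν < ∞) :
    MemLp (fun z => (v z).toReal) 2 ν := by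
  rw [memLp_two_iff_integrable_sq hv.ennreal_toReal.aestronglyMeasurable]
  have := integrable_toReal_of_lintegral_ne_top (hv.pow_const 2).aemeasurable h.ne
  simpa only [ENNReal.toReal_pow] using this

end DDu

open DDu in
theorem s_DDu : S_DDu := by
  intro Z X _ _ _ μ v S A C hS hv hcv hA hfin hDP
  by_contra hcon
  push Not at hcon
  set ν := μ.restrict A with hν
  set D : Set (Lp ℝ 2 ν) := {u | ∃ x ∈ S, ∀ᵐ z ∂ν, (v x z).toReal ≤ u z} with hD
  have hmem : ∀ x (hx : x ∈ S), (mem2 (hv x) (hfin x hx)).toLp _ ∈ D := fun x hx =>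
    ⟨x, hx, (MemLp.coeFn_toLp (mem2 (hv x) (hfin x hx))).mono fun z hz => hz.ge⟩
  have hne : D.Nonempty := by
    obtain ⟨x, hx, -⟩ := hDP (fun _ => 0) 1 measurable_const (by simp) one_pos
    exact ⟨_, hmem x hx⟩
  have hconv : Convex ℝ D := by
    rintro u ⟨x, hx, hu⟩ u' ⟨x', hx', hu'⟩ t t' h0 h0' h1
    refine ⟨t • x + t' • x', hS hx hx' h0 h0' h1, ?_⟩
    filter_upwards [hu, hu', ae_restrict_of_ae (hcv x hx x' hx' t t' h0 h0' h1),
      ae_fin (hv x) (hfin x hx), ae_fin (hv x') (hfin x' hx'), Lp.coeFn_add (t • u) (t' • u'),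
      Lp.coeFn_smul t u, Lp.coeFn_smul t' u'] with z a1 a2 a3 a4 a5 a6 a7 a8
    have b1 := ENNReal.mul_ne_top (ENNReal.ofReal_ne_top (r := t)) a4
    have b2 := ENNReal.mul_ne_top (ENNReal.ofReal_ne_top (r := t')) a5
    have b3 := ENNReal.toReal_mono (ENNReal.add_ne_top.2 ⟨b1, b2⟩) a3
    rw [ENNReal.toReal_add b1 b2, ENNReal.toReal_mul, ENNReal.toReal_mul,
      ENNReal.toReal_ofReal h0, ENNReal.toReal_ofReal h0'] at b3
    rw [a6, Pi.add_apply, a7, a8, Pi.smul_apply, Pi.smul_apply, smul_eq_mul, smul_eq_mul]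
    have := mul_le_mul_of_nonneg_left a1 h0
    have := mul_le_mul_of_nonneg_left a2 h0'
    linarith
  have hbig : ∀ u ∈ closure D, (C : ℝ) + 1 ≤ ‖u‖ := by
    refine fun u hu => (isClosed_le continuous_const continuous_norm).closure_subset_iff.2 ?_ hu
    rintro u ⟨x, hx, hu⟩
    by_contra hlt
    have hlt' : ‖u‖ < (C : ℝ) + 1 := not_le.1 hlt
    refine (hcon x hx).not_ge ?_
    calc ∫⁻ z, v x z ^ 2 ∂ν ≤ ∫⁻ z, ENNReal.ofReal (u z ^ 2) ∂ν := by
          refine lintegral_mono_ae ?_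
          filter_upwards [hu, ae_fin (hv x) (hfin x hx)] with z a1 a2
          rw [← ENNReal.ofReal_toReal a2, ← ENNReal.ofReal_pow ENNReal.toReal_nonneg]
          exact ENNReal.ofReal_le_ofReal (pow_le_pow_left₀ ENNReal.toReal_nonneg a1 2)
      _ ≤ ENNReal.ofReal (((C : ℝ) + 1) ^ 2) := by
          rw [lint_sq]
          exact ENNReal.ofReal_le_ofReal (pow_le_pow_left₀ (norm_nonneg _) hlt'.le 2)
      _ = _ := by
          rw [ENNReal.ofReal_pow (by positivity), ENNReal.ofReal_add C.coe_nonneg zero_le_one]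
          simp
  obtain ⟨u0, hu0, hmin⟩ := exists_norm_eq_iInf_of_complete_convex hne.closure
    isClosed_closure.isComplete hconv.closure 0
  rw [norm_eq_iInf_iff_real_inner_le_zero hconv.closure hu0] at hmin
  have hn := hbig u0 hu0
  have hC : (0 : ℝ) ≤ C := C.2
  have hpos : 0 < ‖u0‖ := by linarith
  have hm : Measurable fun z => ENNReal.ofReal (u0 z / ‖u0‖) :=
    ((Lp.stronglyMeasurable u0).measurable.div_const _).ennreal_ofReal
  obtain ⟨x, hx, hle⟩ := hDP (A.indicator fun z => ENNReal.ofReal (u0 z / ‖u0‖)) (1 / 2)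
    (hm.indicator hA) (by
      have e : ∀ z, (A.indicator fun z => ENNReal.ofReal (u0 z / ‖u0‖)) z ^ 2 ≤
          A.indicator (fun z => ENNReal.ofReal (1 / ‖u0‖ ^ 2) * ENNReal.ofReal (u0 z ^ 2)) z := by
        intro z
        by_cases hz : z ∈ A
        · rw [indicator_of_mem hz, indicator_of_mem hz, ← ENNReal.ofReal_mul (by positivity),
            show 1 / ‖u0‖ ^ 2 * u0 z ^ 2 = |u0 z / ‖u0‖| ^ 2 by rw [sq_abs]; ring,
            ENNReal.ofReal_pow (abs_nonneg _)]
          exact pow_le_pow_left' (ENNReal.ofReal_le_ofReal (le_abs_self _)) 2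
        · simp [hz]
      refine (lintegral_mono e).trans ?_
      rw [lintegral_indicator hA, lintegral_const_mul' _ _ ENNReal.ofReal_ne_top, ← hν, lint_sq,
        ← ENNReal.ofReal_mul (by positivity), one_div_mul_cancel (by positivity)]
      simp) (by norm_num)
  have e1 : ∀ z, (A.indicator fun z => ENNReal.ofReal (u0 z / ‖u0‖)) z * v x z =
      A.indicator (fun z => ENNReal.ofReal (u0 z / ‖u0‖) * v x z) z := by
    intro z
    by_cases hz : z ∈ A <;> simp [hz]
  simp only [e1] at hle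
  rw [lintegral_indicator hA, ← hν] at hle
  have h1 := hmin _ (subset_closure (hmem x hx))
  rw [zero_sub, inner_neg_left, inner_sub_right, real_inner_self_eq_norm_sq, inner_eq,
    integral_congr_ae ((MemLp.coeFn_toLp (mem2 (hv x) (hfin x hx))).mono fun z hz =>
      show u0 z * _ = ‖u0‖ * (u0 z / ‖u0‖ * (v x z).toReal) by rw [hz]; field_simp),
    integral_const_mul] at h1
  have h2 : ∫ z, u0 z / ‖u0‖ * (v x z).toReal ∂ν ≤ C + 1 / 2 := by
    have i1 : Integrable (fun z => u0 z / ‖u0‖ * (v x z).toReal) ν := by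
      have := ((Lp.memLp u0).integrable_mul (mem2 (hv x) (hfin x hx))).div_const ‖u0‖
      refine this.congr (Eventually.of_forall fun z => ?_)
      simp only [Pi.mul_apply]
      ring
    rw [integral_eq_lintegral_pos_part_sub_lintegral_neg_part i1]
    have h3 : ∫⁻ z, ENNReal.ofReal (u0 z / ‖u0‖ * (v x z).toReal) ∂ν ≤
        C + ((1 / 2 : ℝ≥0) : ℝ≥0∞) := by
      refine le_trans (lintegral_mono fun z => ?_) hle
      rw [ENNReal.ofReal_mul' ENNReal.toReal_nonneg]
      exact mul_le_mul_right ENNReal.ofReal_toReal_le _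
    have h4 := ENNReal.toReal_mono (by finiteness) h3
    rw [← ENNReal.coe_add, ENNReal.coe_toReal] at h4
    push_cast at h4
    linarith [ENNReal.toReal_nonneg
      (a := ∫⁻ z, ENNReal.ofReal (-(u0 z / ‖u0‖ * (v x z).toReal)) ∂ν)]
  nlinarith [mul_le_mul_of_nonneg_left h2 hpos.le]

end Vale.Agent.P116
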