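import Vale.Agent.P116.DStm

/-! Part D: Mazur and Fuglede. -/

open Set Filter Topology MeasureTheory Metric
open scoped ENNReal NNReal

noncomputable section
namespace Vale.Agent.P116

namespace DF

theorem nested {H : Type} [NormedAddCommGroup H] [InnerProductSpace ℝ H] {K : ℕ → Set H}
    (hm : Antitone K) {M : ℝ} (hb : ∀ n, ∃ x ∈ K n, ‖x‖ ≤ M) (hc : ∀ n, Convex ℝ (K n)) :
    ∃ x : ℕ → H, (∀ n, x n ∈ K n) ∧ CauchySeq x := by
  have hbb : ∀ n, BddBelow (norm '' K n) := fun n => ⟨0, by rintro _ ⟨x, -, rfl⟩; positivity⟩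
  have hne : ∀ n, (norm '' K n).Nonempty := fun n => (hb n).elim fun x hx => ⟨_, x, hx.1, rfl⟩
  set d : ℕ → ℝ := fun n => sInf (norm '' K n) with hd
  have hdm : Monotone d := fun m n hmn => csInf_le_csInf (hbb m) (hne n) (image_mono (hm hmn))
  have hdM : BddAbove (range d) := ⟨M, by
    rintro _ ⟨n, rfl⟩
    obtain ⟨x, hx, hxM⟩ := hb n
    exact (csInf_le (hbb n) ⟨x, hx, rfl⟩).trans hxM⟩
  have hd0 : ∀ n, 0 ≤ d n := fun n => le_csInf (hne n) (by rintro _ ⟨x, -, rfl⟩; positivity)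
  have hx : ∀ n : ℕ, ∃ x ∈ K n, ‖x‖ < d n + 1 / ((n : ℝ) + 1) := fun n => by
    obtain ⟨_, ⟨x, hx, rfl⟩, h2⟩ := exists_lt_of_csInf_lt (hne n)
      (lt_add_of_pos_right (d n) (Nat.one_div_pos_of_nat (n := n)))
    exact ⟨x, hx, h2⟩
  choose x hxK hxd using hx
  refine ⟨x, hxK, cauchySeq_of_le_tendsto_0
    (fun N : ℕ => √(4 * ((⨆ n, d n) + 1 / ((N : ℝ) + 1)) ^ 2 - 4 * d N ^ 2))
    (fun n m N hn hm' => ?_) ?_⟩
  · have h1 : ∀ n, N ≤ n → ‖x n‖ ^ 2 ≤ ((⨆ n, d n) + 1 / ((N : ℝ) + 1)) ^ 2 := by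
      intro n hn
      refine pow_le_pow_left₀ (norm_nonneg _) ((hxd n).le.trans ?_) 2
      exact add_le_add (le_ciSup hdM n) (Nat.one_div_le_one_div hn)
    have h2 : d N ≤ ‖(1 / 2 : ℝ) • x n + (1 / 2 : ℝ) • x m‖ :=
      csInf_le (hbb N) ⟨_, hc N (hm hn (hxK n)) (hm hm' (hxK m)) (by norm_num) (by norm_num)
        (by norm_num), rfl⟩
    rw [← smul_add, norm_smul, Real.norm_of_nonneg (by norm_num)] at h2
    have h3 := parallelogram_law_with_norm ℝ (x n) (x m)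
    have h4 := pow_le_pow_left₀ (hd0 N) h2 2
    rw [dist_eq_norm]
    refine Real.le_sqrt_of_sq_le ?_
    nlinarith [h1 n hn, h1 m hm']
  · have h1 := tendsto_atTop_ciSup hdm hdM
    have h2 := ((((tendsto_const_nhds (x := ⨆ n, d n)).add
      tendsto_one_div_add_atTop_nhds_zero_nat).pow 2).const_mul 4).sub ((h1.pow 2).const_mul 4)
    simpa using h2.sqrt

theorem mazur {H : Type} [NormedAddCommGroup H] [InnerProductSpace ℝ H] [CompleteSpace H]
    (Y : ℕ → H) {M : ℝ} (hM : ∀ k, ‖Y k‖ ≤ M) : ∃ (Y0 : H) (W : ℕ → H),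
      (∀ N, W N ∈ convexHull ℝ (Y '' Ici N)) ∧ (∀ N, ‖W N - Y0‖ₑ ≤ (2⁻¹ ^ N) ^ 2) ∧
        Tendsto W atTop (𝓝 Y0) := by
  have hm : Antitone fun N => convexHull ℝ (Y '' Ici N) := fun a b h =>
    convexHull_mono (image_mono (Ici_subset_Ici.2 h))
  obtain ⟨x, hx, hc⟩ := nested hm (fun n => ⟨Y n, subset_convexHull _ _ ⟨n, self_mem_Ici, rfl⟩, hM n⟩)
    fun n => convex_convexHull _ _
  obtain ⟨Y0, h0⟩ := cauchySeq_tendsto_of_complete hc
  have h1 : Tendsto (fun n => ‖x n - Y0‖ₑ) atTop (𝓝 0) := by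
    simpa using (h0.sub_const Y0).enorm
  obtain ⟨φ, hφ, h2⟩ := extraction_forall_of_eventually fun N : ℕ =>
    h1.eventually (ge_mem_nhds (a := ((2 : ℝ≥0∞)⁻¹ ^ N) ^ 2)
      (ENNReal.pow_pos (ENNReal.pow_pos (by simp) _) _))
  exact ⟨Y0, fun N => x (φ N), fun N => hm (hφ.id_le N) (hx _), h2, h0.comp hφ.tendsto_atTop⟩

variable {Z : Type} [MeasurableSpace Z] {μ : Measure Z}

theorem elp (g : Z → ℝ) : eLpNorm g 2 μ ^ 2 = ∫⁻ z, ‖g z‖ₑ ^ 2 ∂μ := by
  simpa using eLpNorm_nnreal_pow_eq_lintegral (f := g) (μ := μ) (p := 2) two_ne_zero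

theorem nsq (g : Lp ℝ 2 μ) : ‖g‖ₑ ^ 2 = ∫⁻ z, ‖g z‖ₑ ^ 2 ∂μ := by rw [Lp.enorm_def, elp]

theorem toL {y : Z → ℝ≥0∞} (hy : Measurable y) (h : ∫⁻ z, y z ^ 2 ∂μ < ∞) :
    ∃ Y : Lp ℝ 2 μ, ∀ᵐ z ∂μ, 0 ≤ Y z ∧ ENNReal.ofReal (Y z) = y z := by
  have h1 : ∀ᵐ z ∂μ, y z ≠ ∞ := by
    filter_upwards [ae_lt_top (hy.pow_const 2) h.ne] with z hz e
    simp [e] at hz
  have h2 : MemLp (fun z => (y z).toReal) 2 μ := by
    refine ⟨hy.ennreal_toReal.aestronglyMeasurable, ?_⟩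
    rw [← ENNReal.pow_lt_top_iff.trans (or_iff_left two_ne_zero), elp]
    refine lt_of_le_of_lt (lintegral_mono fun z => pow_le_pow_left' ?_ 2) h
    rw [Real.enorm_eq_ofReal ENNReal.toReal_nonneg]
    exact ENNReal.ofReal_toReal_le
  refine ⟨h2.toLp _, ?_⟩
  filter_upwards [h2.coeFn_toLp, h1] with z a b
  rw [a]
  exact ⟨ENNReal.toReal_nonneg, ENNReal.ofReal_toReal b⟩

theorem dom {f : ℕ → Z → ℝ≥0∞} (hf : ∀ n, Measurable (f n))
    (h : ∀ n, ∫⁻ z, f n z ^ 2 ∂μ ≤ 2⁻¹ ^ n) : ∫⁻ z, (⨆ n, f n z) ^ 2 ∂μ < ∞ := by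
  calc ∫⁻ z, (⨆ n, f n z) ^ 2 ∂μ ≤ ∫⁻ z, ∑' n, f n z ^ 2 ∂μ := by
        refine lintegral_mono fun z => ?_
        rw [ENNReal.iSup_pow]
        exact iSup_le fun n => ENNReal.le_tsum n
    _ = ∑' n, ∫⁻ z, f n z ^ 2 ∂μ := lintegral_tsum fun n => ((hf n).pow_const 2).aemeasurable
    _ ≤ ∑' n : ℕ, 2⁻¹ ^ n := ENNReal.tsum_le_tsum h
    _ < ∞ := by simp

theorem cvx {v : Z → ℝ≥0∞} (hv : Measurable v) (c : ℝ≥0∞) :
    Convex ℝ {W : Lp ℝ 2 μ | (∀ᵐ z ∂μ, 0 ≤ W z) ∧ c ≤ ∫⁻ z, ENNReal.ofReal (W z) * v z ∂μ} := by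
  intro W hW W' hW' a b ha hb hab
  have e : ∀ᵐ z ∂μ, (a • W + b • W') z = a * W z + b * W' z := by
    filter_upwards [Lp.coeFn_add (a • W) (b • W'), Lp.coeFn_smul a W, Lp.coeFn_smul b W']
      with z h1 h2 h3
    rw [h1, Pi.add_apply, h2, h3]
    rfl
  have m : ∀ W : Lp ℝ 2 μ, Measurable fun z => ENNReal.ofReal (W z) * v z := fun W =>
    (Lp.stronglyMeasurable W).measurable.ennreal_ofReal.mul hv
  constructor
  · filter_upwards [e, hW.1, hW'.1] with z h1 h2 h3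
    rw [h1]
    positivity
  · calc c = ENNReal.ofReal a * c + ENNReal.ofReal b * c := by
          rw [← add_mul, ← ENNReal.ofReal_add ha hb, hab, ENNReal.ofReal_one, one_mul]
      _ ≤ ENNReal.ofReal a * ∫⁻ z, ENNReal.ofReal (W z) * v z ∂μ +
          ENNReal.ofReal b * ∫⁻ z, ENNReal.ofReal (W' z) * v z ∂μ := by
          gcongr
          exacts [hW.2, hW'.2]
      _ = _ := by
          rw [← lintegral_const_mul _ (m W), ← lintegral_const_mul _ (m W'),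
            ← lintegral_add_left ((m W).const_mul _)]
          refine lintegral_congr_ae ?_
          filter_upwards [e, hW.1, hW'.1] with z h1 h2 h3
          rw [h1, ENNReal.ofReal_add (by positivity) (by positivity), ENNReal.ofReal_mul ha,
            ENNReal.ofReal_mul hb]
          ring

theorem rst (A : Set Z) (b : ℝ≥0∞) (W : Lp ℝ 2 μ) :
    W ∈ LpToLpRestrictCLM Z ℝ ℝ μ 2 A ⁻¹' closedEBall 0 (b ^ (2 : ℝ)⁻¹) ↔
      ∫⁻ z in A, ‖W z‖ₑ ^ 2 ∂μ ≤ b := by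
  rw [mem_preimage, mem_closedEBall, edist_zero_right, ENNReal.le_rpow_inv_iff two_pos,
    ENNReal.rpow_two, nsq, lintegral_congr_ae]
  filter_upwards [LpToLpRestrictCLM_coeFn ℝ A W] with z hz
  rw [hz]

end DF

open DF in
theorem s_DF : S_DF := by
  intro Z X _ μ v y T T' c B hv hB hy hT
  choose Y hY using fun k => toL (hy k).1 ((hy k).2.1.trans_lt hB)
  have eY : ∀ k, ∀ᵐ z ∂μ, ‖Y k z‖ₑ = y k z := fun k => by
    filter_upwards [hY k] with z hz
    rw [Real.enorm_eq_ofReal hz.1, hz.2]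
  have hM : ∀ k, ‖Y k‖ ≤ (B ^ (2 : ℝ)⁻¹).toReal := fun k => by
    rw [← toReal_enorm]
    refine ENNReal.toReal_mono (ENNReal.rpow_ne_top_of_nonneg (by norm_num) hB.ne) ?_
    rw [ENNReal.le_rpow_inv_iff two_pos, ENNReal.rpow_two, nsq]
    refine le_trans (le_of_eq (lintegral_congr_ae ?_)) (hy k).2.1
    filter_upwards [eY k] with z hz
    rw [hz]
  obtain ⟨Y0, W, hW, hd, hl⟩ := mazur Y hM
  choose U mU iU hU using fun k => (hy k).2.2
  choose d d0 hd' using fun k => ENNReal.exists_pos_mul_lt (iU k).ne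
    (b := 2⁻¹ ^ k) (by simp)
  have m0 : Measurable fun z => ENNReal.ofReal (Y0 z) :=
    (Lp.stronglyMeasurable Y0).measurable.ennreal_ofReal
  have m1 : ∀ N, Measurable fun z => ‖(W N - Y0) z‖ₑ := fun N =>
    (Lp.stronglyMeasurable _).measurable.enorm
  have p2 : ∀ N : ℕ, (2 : ℝ≥0∞)⁻¹ ^ N * 2 ^ N = 1 := fun N => by
    rw [← mul_pow, ENNReal.inv_mul_cancel two_ne_zero ENNReal.ofNat_ne_top, one_pow]
  have m2 : Measurable fun z => ⨆ N, 2 ^ N * ‖(W N - Y0) z‖ₑ :=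
    Measurable.iSup fun N => (m1 N).const_mul _
  have m3 : Measurable fun z => ⨆ k, min (d k) 1 * U k z :=
    Measurable.iSup fun k => (mU k).const_mul _
  have i2 := dom (μ := μ) (fun N => (m1 N).const_mul (2 ^ N)) fun N => by
    simp only [mul_pow]
    rw [lintegral_const_mul _ ((m1 N).pow_const 2), ← nsq, ← mul_pow]
    have h1 : 2 ^ N * ‖W N - Y0‖ₑ ≤ 2⁻¹ ^ N := by
      refine (mul_le_mul_right (hd N) _).trans (le_of_eq ?_)
      rw [pow_two, ← mul_assoc, mul_comm (2 ^ N), p2, one_mul]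
    exact (pow_le_pow_left' h1 2).trans
      (pow_le_of_le_one zero_le (pow_le_one₀ zero_le (by simp)) two_ne_zero)
  have i3 := dom (μ := μ) (fun k => (mU k).const_mul (min (d k) 1)) fun k => by
    simp only [mul_pow]
    rw [lintegral_const_mul _ ((mU k).pow_const 2)]
    refine le_trans (mul_le_mul_left ?_ _) (hd' k).le
    exact (pow_le_of_le_one zero_le (min_le_right _ _) two_ne_zero).trans (min_le_left _ _)
  refine ⟨_, m0, ⟨_, m2.max m3, ?_, fun x hx hu => ?_⟩, fun A b _ hb => ?_⟩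
  · refine lt_of_le_of_lt (lintegral_mono fun z => ?_)
      ((lintegral_add_left (m2.pow_const 2) _).trans_lt (ENNReal.add_lt_top.2 ⟨i2, i3⟩))
    rcases le_total (⨆ N, 2 ^ N * ‖(W N - Y0) z‖ₑ) (⨆ k, min (d k) 1 * U k z) with h | h
    · rw [max_eq_right h]
      exact le_add_self
    · rw [max_eq_left h]
      exact le_self_add
  · obtain ⟨N0, hN0⟩ := eventually_atTop.1 (hT x hx)
    have h1 : ∀ N, N0 ≤ N → c ≤ ∫⁻ z, ENNReal.ofReal (W N z) * v x z ∂μ := by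
      intro N hN
      refine (convexHull_min ?_ (cvx (hv x) c) (hW N)).2
      rintro _ ⟨k, hk, rfl⟩
      refine ⟨(hY k).mono fun z hz => hz.1, (hU k x (hN0 k (hN.trans hk)) ?_).trans
        (le_of_eq (lintegral_congr_ae ((hY k).mono fun z hz => by simp only [hz.2])))⟩
      have h2 : min (d k) 1 * ∫⁻ z, U k z * v x z ∂μ < ∞ := by
        rw [← lintegral_const_mul _ ((mU k).fun_mul (hv x))]
        refine lt_of_le_of_lt (lintegral_mono fun z => ?_) hu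
        rw [← mul_assoc]
        exact mul_le_mul_left ((le_iSup (fun k => min (d k) 1 * U k z) k).trans
          (le_max_right _ _)) _
      exact ENNReal.lt_top_of_mul_ne_top_right h2.ne (lt_min (d0 k) one_pos).ne'
    have h3 := ENNReal.Tendsto.mul_const
      (ENNReal.tendsto_pow_atTop_nhds_zero_of_lt_one ENNReal.one_half_lt_one) (Or.inr hu.ne)
    have h4 := h3.const_add (∫⁻ z, ENNReal.ofReal (Y0 z) * v x z ∂μ)
    rw [zero_mul, add_zero] at h4
    refine ge_of_tendsto h4 (eventually_atTop.2 ⟨N0, fun N hN => (h1 N hN).trans ?_⟩)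
    rw [← lintegral_const_mul _ ((m2.max m3).fun_mul (hv x)),
      ← lintegral_add_left (m0.fun_mul (hv x))]
    refine lintegral_mono_ae ?_
    filter_upwards [Lp.coeFn_sub (W N) Y0] with z hz
    rw [← mul_assoc, ← add_mul]
    refine mul_le_mul_left ?_ _
    calc ENNReal.ofReal (W N z) = ENNReal.ofReal (Y0 z + (W N - Y0) z) := by
          rw [hz, Pi.sub_apply, add_sub_cancel]
      _ ≤ ENNReal.ofReal (Y0 z) + 2⁻¹ ^ N * (2 ^ N * ‖(W N - Y0) z‖ₑ) := by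
          rw [← mul_assoc, p2, one_mul]
          exact ENNReal.ofReal_add_le.trans (add_le_add_right (Real.ofReal_le_enorm _) _)
      _ ≤ _ := add_le_add_right (mul_le_mul_right
          ((le_iSup (fun N => 2 ^ N * ‖(W N - Y0) z‖ₑ) N).trans (le_max_left _ _)) _) _
  · obtain ⟨N0, hN0⟩ := eventually_atTop.1 hb
    refine le_trans (lintegral_mono fun z => pow_le_pow_left' (Real.ofReal_le_enorm _) 2)
      ((rst A b Y0).1 ?_)
    refine (isClosed_closedEBall.preimage (ContinuousLinearMap.continuous _)).mem_of_tendsto hl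
      (eventually_atTop.2 ⟨N0, fun N hN => convexHull_min ?_
        ((convex_closedEBall _ _).linear_preimage
          (LpToLpRestrictCLM Z ℝ ℝ μ 2 A).toLinearMap) (hW N)⟩)
    rintro _ ⟨k, hk, rfl⟩
    refine (rst A b _).2 (le_trans (le_of_eq (lintegral_congr_ae ?_)) (hN0 k (hN.trans hk)))
    filter_upwards [ae_restrict_of_ae (eY k)] with z hz
    rw [hz]

end Vale.Agent.P116
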