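import Vale.Agent.P116.DStm

/-! Part D: the limit of the sequence given by the iteration. -/

open Set Filter Topology MeasureTheory Metric
open scoped ENNReal NNReal

noncomputable section
namespace Vale.Agent.P116
namespace DLim

theorem exh {Ω : Set ℂ} (h : IsOpen Ω) : ∃ A : ℕ → Set ℂ, Monotone A ∧ (∀ k, IsCompact (A k)) ∧
    ⋃ k, A k = Ω := by
  have := h.locallyCompactSpace
  have hs : IsSigmaCompact Ω := isSigmaCompact_iff_sigmaCompactSpace.mpr inferInstance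
  obtain ⟨A, hA, hU⟩ := hs
  exact ⟨accumulate A, monotone_accumulate, isCompact_accumulate hA, by
    rw [iUnion_accumulate, hU]⟩

theorem ulip {U : Set ℂ} {L : ℂ → ℝ≥0} {rad : ℂ → ℝ} {ζ : ℂ → ℝ} (hr : ∀ z ∈ U, 0 < rad z)
    (h : ULip U L rad ζ) : LocallyLipschitzOn U ζ := fun z hz =>
  ⟨L z, ball z (rad z), mem_nhdsWithin_of_mem_nhds (ball_mem_nhds z (hr z hz)), h z hz⟩

theorem amgm (a b : ℂ) : 2 * ‖a‖ₑ * ‖b‖ₑ ≤ ‖a‖ₑ ^ 2 + ‖b‖ₑ ^ 2 := by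
  have := two_mul_le_add_sq ‖a‖₊ ‖b‖₊
  simp only [enorm_eq_nnnorm]
  exact_mod_cast this

theorem energy (ha : S_adm) (hw : S_wg) {U Ω : Set ℂ} {L : ℂ → ℝ≥0} {rad : ℂ → ℝ}
    {ζ : ℕ → ℂ → ℝ} {ζ₀ : ℂ → ℝ} {A : ℕ → Set ℂ} {B : ℝ≥0} (hU : IsOpen U)
    (hr : ∀ z ∈ U, 0 < rad z) (hl : ∀ n, ULip U L rad (ζ n))
    (ht : ∀ z ∈ U, Tendsto (fun n => ζ n z) atTop (𝓝 (ζ₀ z))) (hm : Monotone A)
    (hc : ∀ k, IsCompact (A k)) (hA : ⋃ k, A k = Ω) (hΩ : Ω ⊆ U)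
    (hB : ∀ j, ∀ᶠ n in atTop, ∫⁻ z in A j, ‖gr (ζ n) z‖ₑ ^ 2 ≤ B)
    (hf : ∀ j, ∫⁻ z in A j, ‖gr ζ₀ z‖ₑ ^ 2 < ∞) :
    IntegrableOn (fun z => ‖gr ζ₀ z‖ ^ 2) Ω := by
  have key : ∀ j, ∫⁻ z in A j, ‖gr ζ₀ z‖ₑ ^ 2 ≤ B := fun j => by
    have mA := (hc j).measurableSet
    have hs : A j ⊆ U := (hA ▸ subset_iUnion A j).trans hΩ
    have m0 := (ha.meas ζ₀).enorm
    have e : ∀ θ : ℂ → ℝ, ∫⁻ z in U, (A j).indicator (fun z => 2 * ‖gr ζ₀ z‖ₑ) z * ‖gr θ z‖ₑ =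
        ∫⁻ z in A j, 2 * ‖gr ζ₀ z‖ₑ * ‖gr θ z‖ₑ := fun θ => by
      have e0 : ∀ z, (A j).indicator (fun z => 2 * ‖gr ζ₀ z‖ₑ) z * ‖gr θ z‖ₑ =
          (A j).indicator (fun z => 2 * ‖gr ζ₀ z‖ₑ * ‖gr θ z‖ₑ) z := fun z => by
        by_cases h : z ∈ A j <;> simp [indicator, h]
      simp only [e0]
      rw [lintegral_indicator mA, Measure.restrict_restrict mA, inter_eq_left.mpr hs]
    have h1 := (hw U L rad ζ ζ₀ _ hU hr hl ht ((m0.const_mul 2).indicator mA)).2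
    simp only [e] at h1
    have h2 : liminf (fun n => ∫⁻ z in A j, 2 * ‖gr ζ₀ z‖ₑ * ‖gr (ζ n) z‖ₑ) atTop ≤
        (∫⁻ z in A j, ‖gr ζ₀ z‖ₑ ^ 2) + B := by
      refine liminf_le_of_frequently_le' (Eventually.frequently ((hB j).mono fun n hn => ?_))
      refine (lintegral_mono fun z => amgm _ _).trans ?_
      rw [lintegral_add_left (m0.pow_const 2)]
      exact add_le_add le_rfl hn
    have h3 : ∫⁻ z in A j, 2 * ‖gr ζ₀ z‖ₑ * ‖gr ζ₀ z‖ₑ =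
        (∫⁻ z in A j, ‖gr ζ₀ z‖ₑ ^ 2) + ∫⁻ z in A j, ‖gr ζ₀ z‖ₑ ^ 2 := by
      rw [← lintegral_add_left (m0.pow_const 2)]
      exact lintegral_congr fun z => by ring
    rw [h3] at h1
    exact (ENNReal.add_le_add_iff_left (hf j).ne).mp (h1.trans h2)
  refine ⟨((ha.meas ζ₀).norm.pow_const 2).aestronglyMeasurable, ?_⟩
  rw [hasFiniteIntegral_iff_enorm]
  simp only [enorm_pow, enorm_norm]
  rw [← hA, setLIntegral_iUnion_of_directed _ hm.directed_le]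
  exact (iSup_le key).trans_lt ENNReal.coe_lt_top

theorem sq_lim {P : Type} {F : ℕ → Finset P} {σ : ℕ → P → ℝ} {σ₀ : P → ℝ} {φ : ℕ → ℕ} {B : ℝ}
    (hF : Monotone F) (hφ : StrictMono φ) (hB : ∀ k, ∑ p ∈ F k, σ k p ^ 2 ≤ B)
    (h1 : ∀ p ∈ ⋃ k, (F k : Set P), Tendsto (fun k => σ (φ k) p) atTop (𝓝 (σ₀ p)))
    (h2 : ∀ p ∉ ⋃ k, (F k : Set P), σ₀ p = 0) : Summable fun p => σ₀ p ^ 2 := by
  classical
  refine summable_of_sum_le (c := B) (fun p => sq_nonneg _) fun G => ?_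
  rw [← Finset.sum_filter_of_ne (p := fun p => p ∈ ⋃ k, (F k : Set P))
    fun p _ hp => by_contra fun h => hp (by simp [h2 p h])]
  refine le_of_tendsto (tendsto_finsetSum _ fun p hp =>
    (h1 p (Finset.mem_filter.mp hp).2).pow 2) ?_
  have : ∀ᶠ k in atTop, ∀ p ∈ G.filter (fun p => p ∈ ⋃ k, (F k : Set P)), p ∈ F (φ k) := by
    rw [eventually_all_finset]
    intro p hp
    obtain ⟨j, hj⟩ := mem_iUnion.mp (Finset.mem_filter.mp hp).2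
    exact (eventually_ge_atTop j).mono fun k hk => hF (hk.trans (hφ.id_le k)) hj
  exact this.mono fun k hk =>
    (Finset.sum_le_sum_of_subset_of_nonneg hk fun _ _ _ => sq_nonneg _).trans (hB _)

theorem far {P T : Type} {c : ℕ → P → T} (hc : Cel c) {σ : P → ℝ}
    (hs : Summable fun p => σ p ^ 2) {p : P} (hp : σ p = 0) {ε : ℝ} (hε : 0 < ε) :
    ∀ᶠ m in atTop, ∀ q, c m p = c m q → σ q ≤ ε := by
  have h1 : {q | ¬σ q ^ 2 < ε ^ 2}.Finite :=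
    eventually_cofinite.mp (hs.tendsto_cofinite_zero.eventually (gt_mem_nhds (by positivity)))
  have h2 : ∀ᶠ m in atTop, ∀ q ∈ {q | ¬σ q ^ 2 < ε ^ 2}, c m p ≠ c m q := by
    rw [eventually_all_finite h1]
    intro q hq
    obtain ⟨n, hn⟩ := hc.sep p q (by
      rintro rfl
      exact hq (by rw [hp]; simpa using pow_pos hε 2))
    exact (eventually_ge_atTop n).mono fun m hm h => hn (hc.nest n m p q hm h)
  refine h2.mono fun m hm q hq => ?_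
  have : σ q ^ 2 < ε ^ 2 := by_contra fun h => hm q h hq
  exact (abs_lt_of_sq_lt_sq' this hε.le).2.le

end DLim

open DLim in
theorem s_D_of (L : Lib) (hC : S_DCell) (hS : S_DSys) (hP : S_DProc) (hU : S_DSub) : S_D := by
  intro K Ω 𝒮 Lp rad C hK hΩ hΩK hcv hrad h𝒮 hDP
  let _ : MeasurableSpace (Cmp K) := ⊤
  have _ : DiscreteMeasurableSpace (Cmp K) := ⟨fun _ => trivial⟩
  obtain ⟨V, hV⟩ := hC K hK
  obtain ⟨ok, dp, hosc, hfin⟩ := hS K Ω 𝒮 Lp rad C V hK hΩ hΩK hcv ⟨hrad, h𝒮⟩ hV hDP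
  obtain ⟨A, hm, hc, hA⟩ := exh hΩ
  have hAΩ : ∀ k, A k ⊆ Ω := fun k => hA ▸ subset_iUnion A k
  have hKo : IsOpen Kᶜ := hK.isClosed.isOpen_compl
  have eA : ∀ k, (volume.restrict Ω).restrict (A k) = volume.restrict (A k) := fun k => by
    rw [Measure.restrict_restrict (hc k).measurableSet, inter_eq_left.mpr (hAΩ k)]
  obtain ⟨x, F, m, n, B, hF, hmi, hx⟩ := hP _ _ _ _ (sys K Ω V) 𝒮 C A ok dp
    (fun k => (hc k).measurableSet) (fun k x hx => by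
      have := hfin x.1 (A k) (ulip hrad (h𝒮 x hx).2.2.2.2) (hc k) ((hAΩ k).trans hΩK)
      rwa [← eA] at this)
  have xS : ∀ k, x k ∈ 𝒮 := fun k => ((hx k).2.2 k le_rfl).1
  obtain ⟨φ, ζ, σ, hφ, t1, t2, t3⟩ := hU (Cmp K) Kᶜ (⋃ k, (F k : Set (Cmp K))) Lp rad
    (fun k => (x k).1) (fun k => (x k).2) hKo (countable_iUnion fun k => (F k).countable_toSet)
    hrad fun k => ⟨(h𝒮 _ (xS k)).1, (h𝒮 _ (xS k)).2.1, (h𝒮 _ (xS k)).2.2.2.2⟩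
  have hl : ∀ k, ULip Kᶜ Lp rad (x (φ k)).1 := fun k => (h𝒮 _ (xS _)).2.2.2.2
  have lip := (L.wg Kᶜ Lp rad _ ζ 0 hKo hrad hl t1 measurable_const).1
  have hsq : Summable fun p => σ p ^ 2 := sq_lim hF hφ (fun k => (hx k).2.1) t2 t3
  have h0 : ∀ p, 0 ≤ σ p := fun p => by
    by_cases hp : p ∈ ⋃ k, (F k : Set (Cmp K))
    · exact ge_of_tendsto' (t2 p hp) fun k => ((h𝒮 _ (xS _)).2.1 p).1
    · exact (t3 p hp).ge
  refine ⟨fun k => x (φ k), ζ, σ, fun k => xS _, t1, fun p => ?_, lip, ?_, ⟨h0, hsq⟩, ?_⟩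
  · by_cases hp : p ∈ ⋃ k, (F k : Set (Cmp K))
    · exact Or.inr (t2 p hp)
    · exact Or.inl (t3 p hp)
  · refine energy L.adm L.wg (B := B) hKo hrad hl t1 hm hc hA hΩK (fun j => ?_)
      fun j => hfin ζ (A j) lip (hc j) ((hAΩ j).trans hΩK)
    refine (eventually_ge_atTop j).mono fun k hk => le_trans ?_ (hx (φ k)).1
    refine (lintegral_mono_set (hm (hk.trans (hφ.id_le k)))).trans (le_of_eq ?_)
    rw [← eA]; rfl
  have ev : ∀ i, ∀ᶠ k in atTop, x (φ k) ∈ (sys K Ω V).cut 𝒮 (F i) (m i) (n i) ((1 / 2) ^ i) :=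
    fun i => (eventually_ge_atTop i).mono fun k hk => (hx _).2.2 i (hk.trans (hφ.id_le k))
  have c1 : ∀ i, ∀ p ∈ F i, ∀ z ∈ V (m i) p \ K, ∀ w ∈ V (m i) p \ K,
      ζ z - ζ w ≤ σ p + (1 / 2) ^ i := fun i p hp z hz w hw =>
    le_of_tendsto_of_tendsto ((t1 z hz.2).sub (t1 w hw.2))
      ((t2 p (mem_iUnion.mpr ⟨i, hp⟩)).add_const _) ((ev i).mono fun k hk =>
        (hosc _ (xS _) _ z hz w hw).trans (hk.2.1 p hp))
  have c2 : ∀ i q, (∀ p ∈ F i, V (m i) q ≠ V (m i) p) → ∀ z ∈ V (n i) q \ K,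
      ∀ w ∈ V (n i) q \ K, ζ z - ζ w ≤ (1 / 2) ^ i := fun i q hq z hz w hw =>
    le_of_tendsto ((t1 z hz.2).sub (t1 w hw.2)) ((ev i).mono fun k hk =>
      (hosc _ (xS _) _ z hz w hw).trans (hk.2.2 q hq))
  intro p ε hε
  have e1 : ∀ᶠ i : ℕ in atTop, (1 / 2 : ℝ) ^ i < ε / 2 :=
    (tendsto_pow_atTop_nhds_zero_of_lt_one (by norm_num) (by norm_num)).eventually
      (gt_mem_nhds (by positivity))
  by_cases hp : p ∈ ⋃ k, (F k : Set (Cmp K))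
  · obtain ⟨j, hj⟩ := mem_iUnion.mp hp
    obtain ⟨i, a, b⟩ := (e1.and (eventually_ge_atTop j)).exists
    exact ⟨V (m i) p, (hV.op _ _).1, (hV.op _ _).2, fun z hz w hw => by
      linarith [c1 i p (hF b hj) z hz w hw]⟩
  · have tm : Tendsto m atTop atTop := tendsto_atTop_mono hmi tendsto_id
    obtain ⟨i, a, b⟩ := (e1.and (tm.eventually (far hV.cel hsq (t3 p hp) (half_pos hε)))).exists
    by_cases hq : ∀ q ∈ F i, V (m i) p ≠ V (m i) q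
    · exact ⟨V (n i) p, (hV.op _ _).1, (hV.op _ _).2, fun z hz w hw => by
        linarith [c2 i p hq z hz w hw, h0 p]⟩
    · push Not at hq
      obtain ⟨q, hq, e⟩ := hq
      exact ⟨V (m i) p, (hV.op _ _).1, (hV.op _ _).2, fun z hz w hw => by
        linarith [c1 i q hq z (e ▸ hz) w (e ▸ hw), b q e, h0 p]⟩

end Vale.Agent.P116
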