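import Vale.Agent.P116.DStm

/-! Part D: finite minimax. -/

open Set Filter Topology MeasureTheory Metric
open scoped ENNReal NNReal

noncomputable section
namespace Vale.Agent.P116

theorem s_DMm : S_DMm := by
  classical
  intro X ι _ _ T J f hJ hf hT
  obtain ⟨i0, hi0⟩ := hJ
  rcases T.eq_empty_or_nonempty with rfl | ⟨x0, hx0⟩
  · refine ⟨Pi.single i0 1, fun i => ?_, by simp [hi0], fun x hx => absurd hx (notMem_empty x)⟩
    by_cases h : i = i0
    · simp [h]
    · simp [h]
  have c1 : Convex ℝ {u : J → ℝ | ∀ i, u i < 0} := by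
    have : {u : J → ℝ | ∀ i, u i < 0} = univ.pi fun _ => Iio 0 := by
      ext u
      simp
    rw [this]
    exact convex_pi fun _ _ => convex_Iio 0
  have o1 : IsOpen {u : J → ℝ | ∀ i, u i < 0} := by
    rw [ofPred_forall]
    exact isOpen_iInter_of_finite fun i => isOpen_lt (continuous_apply i) continuous_const
  have c2 : Convex ℝ {u : J → ℝ | ∃ x ∈ T, ∀ i : J, f i x ≤ u i} := by
    rintro u ⟨x, hx, hu⟩ v ⟨y, hy, hv⟩ a b ha hb hab
    refine ⟨a • x + b • y, (hf i0 hi0).1 hx hy ha hb hab, fun i => ?_⟩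
    refine ((hf i i.2).2 hx hy ha hb hab).trans ?_
    exact add_le_add (mul_le_mul_of_nonneg_left (hu i) ha) (mul_le_mul_of_nonneg_left (hv i) hb)
  obtain ⟨φ, u, h1, h2⟩ := geometric_hahn_banach_open c1 o1 c2 (Set.disjoint_left.2 (by
    rintro u hu ⟨x, hx, hv⟩
    obtain ⟨i, hi, h⟩ := hT x hx
    exact absurd ((h.trans (hv ⟨i, hi⟩)).trans_lt (hu ⟨i, hi⟩)) (lt_irrefl _)))
  have e : ∀ a : J → ℝ, φ a = ∑ i, a i * φ (Pi.single i 1) := fun a => by
    conv_lhs => rw [pi_eq_sum_univ' a]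
    simp only [map_sum, map_smul, smul_eq_mul]
  have hl : ∀ i : J, 0 ≤ φ (Pi.single i 1) := fun i => by
    by_contra hc
    have hc' : 0 < -φ (Pi.single i 1) := by linarith
    obtain ⟨n, hn⟩ := exists_nat_ge ((u - φ (fun _ => -1)) / -φ (Pi.single i 1))
    rw [div_le_iff₀ hc'] at hn
    have h3 := h1 ((fun _ => -1) - (n : ℝ) • Pi.single i 1) fun j => by
      have : (0 : ℝ) ≤ (n : ℝ) * (Pi.single i 1 : J → ℝ) j :=
        mul_nonneg n.cast_nonneg
          ((Pi.single_nonneg (i := i) (α := fun _ : J => ℝ)).2 zero_le_one j)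
      simp only [Pi.sub_apply, Pi.smul_apply, smul_eq_mul]
      linarith
    rw [map_sub, map_smul, smul_eq_mul] at h3
    linarith
  have hu : 0 ≤ u := by
    have t1 : Tendsto (fun t : ℝ => φ fun _ => -t) (𝓝[>] 0) (𝓝 (φ fun _ => -0)) :=
      ((φ.continuous.comp (continuous_pi fun _ => continuous_neg)).tendsto 0).mono_left
        nhdsWithin_le_nhds
    have z : (φ fun _ => -0) = 0 := by
      rw [e]
      simp
    rw [z] at t1
    refine le_of_tendsto t1 ?_
    filter_upwards [self_mem_nhdsWithin] with t ht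
    exact (h1 _ fun _ => neg_neg_of_pos ht).le
  have hs : 0 < ∑ i : J, φ (Pi.single i 1) := by
    refine (Finset.sum_nonneg fun i _ => hl i).lt_of_ne fun h => ?_
    have h0 := (Finset.sum_eq_zero_iff_of_nonneg fun i _ => hl i).1 h.symm
    have z : ∀ a, φ a = 0 := fun a => by
      rw [e]
      exact Finset.sum_eq_zero fun i hi => by rw [h0 i hi, mul_zero]
    have h3 := h1 (fun _ => -1) fun _ => by norm_num
    have h4 := h2 (fun i => f i x0) ⟨x0, hx0, fun _ => le_rfl⟩
    rw [z] at h3 h4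
    linarith
  refine ⟨fun i => if h : i ∈ J then φ (Pi.single ⟨i, h⟩ 1) / ∑ j : J, φ (Pi.single j 1) else 0,
    fun i => ?_, ?_, fun x hx => ?_⟩
  · show 0 ≤ dite _ _ _
    split_ifs
    exacts [div_nonneg (hl _) hs.le, le_rfl]
  · rw [← Finset.sum_coe_sort]
    simp only [SetLike.coe_mem, dite_true, Subtype.coe_eta]
    rw [← Finset.sum_div, div_self hs.ne']
  · have h4 := hu.trans (h2 (fun i => f i x) ⟨x, hx, fun _ => le_rfl⟩)
    rw [e] at h4
    rw [← Finset.sum_coe_sort]
    simp only [SetLike.coe_mem, dite_true, Subtype.coe_eta]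
    refine le_of_le_of_eq (div_nonneg h4 hs.le) ?_
    rw [Finset.sum_div]
    exact Finset.sum_congr rfl fun i _ => by ring

end Vale.Agent.P116
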