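import Vale.Agent.P116.DStm

/-! Limits of finite measures on cells. -/

open Set Filter Topology MeasureTheory Metric
open scoped ENNReal NNReal

noncomputable section
namespace Vale.Agent.P116

namespace DN

variable {P T : Type}

open Classical in
/-- The mass of a cell. -/
def Bn (c : ℕ → P → T) (J : ℕ → Finset P) (β : ℕ → P → ℝ) (n N : ℕ) (t : T) : ℝ :=
  ∑ q ∈ (J n).filter fun q => c N q = t, β n q

variable {c : ℕ → P → T} {J : ℕ → Finset P} {β : ℕ → P → ℝ} {M : ℝ}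

theorem Bn_nonneg (h0 : ∀ n q, 0 ≤ β n q) (n N : ℕ) (t : T) : 0 ≤ Bn c J β n N t :=
  Finset.sum_nonneg fun q _ => h0 n q

theorem Bn_le (h0 : ∀ n q, 0 ≤ β n q) (hM : ∀ n, ∑ q ∈ J n, β n q ≤ M) (n N : ℕ) (t : T) :
    Bn c J β n N t ≤ M := by
  classical
  exact (Finset.sum_le_sum_of_subset_of_nonneg (Finset.filter_subset _ _)
    fun q _ _ => h0 n q).trans (hM n)

theorem Bn_anti (hc : Cel c) (h0 : ∀ n q, 0 ≤ β n q) (n : ℕ) {N N' : ℕ} (h : N ≤ N') (p : P) :
    Bn c J β n N' (c N' p) ≤ Bn c J β n N (c N p) := by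
  classical
  refine Finset.sum_le_sum_of_subset_of_nonneg (fun q hq => ?_) fun q _ _ => h0 n q
  rw [Finset.mem_filter] at hq ⊢
  exact ⟨hq.1, hc.nest N N' q p h hq.2⟩

theorem Bn_sum (h0 : ∀ n q, 0 ≤ β n q) (hM : ∀ n, ∑ q ∈ J n, β n q ≤ M) (n N : ℕ)
    (G : Finset P) (hG : InjOn (c N) G) : ∑ p ∈ G, Bn c J β n N (c N p) ≤ M := by
  classical
  rw [← Finset.sum_image (f := Bn c J β n N) hG]
  refine le_trans ?_ (hM n)
  unfold Bn
  convert Finset.sum_fiberwise_le_sum_of_sum_fiber_nonneg (s := J n) (t := G.image (c N))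
    (g := c N) (f := β n) fun y _ => Finset.sum_nonneg fun q _ => h0 n q

theorem sep_ex (hc : Cel c) (G : Finset P) : ∃ N, InjOn (c N) G := by
  have h : ∀ p q : P, ∀ᶠ N in atTop, c N p = c N q → p = q := by
    intro p q
    by_cases hpq : p = q
    · exact Eventually.of_forall fun _ _ => hpq
    · obtain ⟨n, hn⟩ := hc.sep p q hpq
      filter_upwards [eventually_ge_atTop n] with N hN e using absurd (hc.nest n N p q hN e) hn
  have h2 : ∀ᶠ N in atTop, ∀ p ∈ G, ∀ q ∈ G, c N p = c N q → p = q :=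
    (eventually_all_finset G).2 fun p _ => (eventually_all_finset G).2 fun q _ => h p q
  obtain ⟨N, hN⟩ := h2.exists
  exact ⟨N, fun p hp q hq => hN p hp q hq⟩

theorem sub_ex (hc : Cel c) (h0 : ∀ n q, 0 ≤ β n q) (hM : ∀ n, ∑ q ∈ J n, β n q ≤ M) :
    ∃ (φ : ℕ → ℕ) (B : ℕ → P → ℝ), StrictMono φ ∧
      ∀ N p, Tendsto (fun n => Bn c J β (φ n) N (c N p)) atTop (𝓝 (B N p)) := by
  have hfin : ∀ N, Finite (range (c N)) := fun N => by
    obtain ⟨G, hG⟩ := hc.cpt fun _ => N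
    refine (G.finite_toSet.image (c N)).subset ?_
    rintro _ ⟨q, rfl⟩
    obtain ⟨p, hp, e⟩ := hG q
    exact ⟨p, hp, e.symm⟩
  have hK : IsCompact (Set.pi univ fun _ : (Σ N : ℕ, range (c N)) => Icc (0 : ℝ) M) :=
    isCompact_univ_pi fun _ => isCompact_Icc
  obtain ⟨a, -, φ, hφ, ha⟩ := hK.tendsto_subseq
    (x := fun n (i : Σ N : ℕ, range (c N)) => Bn c J β n i.1 i.2)
    fun n i _ => ⟨Bn_nonneg h0 _ _ _, Bn_le h0 hM _ _ _⟩
  exact ⟨φ, fun N p => a ⟨N, c N p, mem_range_self p⟩, hφ,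
    fun N p => tendsto_pi_nhds.1 ha ⟨N, c N p, mem_range_self p⟩⟩

end DN

open DN in
theorem s_DN : S_DN := by
  classical
  intro P T c J β M hc h0 hM
  obtain ⟨φ, B, hφ, hB⟩ := sub_ex hc h0 hM
  have hM0 : 0 ≤ M := (Finset.sum_nonneg fun q _ => h0 0 q).trans (hM 0)
  have B0 : ∀ N p, 0 ≤ B N p := fun N p => ge_of_tendsto' (hB N p) fun n => Bn_nonneg h0 _ _ _
  have Ba : ∀ N N' p, N ≤ N' → B N' p ≤ B N p := fun N N' p h =>
    le_of_tendsto_of_tendsto' (hB N' p) (hB N p) fun n => Bn_anti hc h0 _ h p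
  have bdd : ∀ p, BddBelow (range fun N => B N p) := fun p =>
    ⟨0, by rintro _ ⟨N, rfl⟩; exact B0 N p⟩
  have w0 : ∀ p, 0 ≤ ⨅ N, B N p := fun p => Real.iInf_nonneg fun N => B0 N p
  have wle : ∀ p N, ⨅ N, B N p ≤ B N p := fun p N => ciInf_le (bdd p) N
  have wsum : ∀ G : Finset P, ∑ p ∈ G, ⨅ N, B N p ≤ M := fun G => by
    obtain ⟨N, hN⟩ := sep_ex hc G
    exact (Finset.sum_le_sum fun p _ => wle p N).trans
      (le_of_tendsto' (tendsto_finsetSum G fun p _ => hB N p) fun n => Bn_sum h0 hM _ N G hN)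
  refine ⟨φ, fun p => ⨅ N, B N p, hφ, w0, wsum, fun p m h => ?_,
    fun o σ δ hδ hσ hcnt hanti hlim => ?_⟩
  · refine le_antisymm ((wle p m).trans (le_of_tendsto' (hB m p) fun n => le_of_eq ?_)) (w0 p)
    exact Finset.sum_eq_zero fun q hq =>
      absurd (Finset.mem_filter.1 hq).2 (h _ q (Finset.mem_filter.1 hq).1)
  · obtain ⟨η, hη, hηs⟩ := hcnt.exists_pos_forall_sum_le (half_pos hδ)
    set d := δ / 2 / (M + 1) with hd
    have d0 : 0 < d := by positivity
    have hN : ∀ p, ∃ N, B N p < (⨅ N, B N p) + η p ∧ o (c N p) ≤ σ p + d := fun p => by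
      obtain ⟨N1, h1⟩ := exists_lt_of_ciInf_lt (f := fun N => B N p)
        (lt_add_of_pos_right (⨅ N, B N p) (hη p))
      obtain ⟨N2, h2⟩ := hlim p d d0
      exact ⟨max N1 N2, (Ba _ _ p (le_max_left _ _)).trans_lt h1,
        (hanti _ _ p (le_max_right _ _)).trans h2⟩
    choose N hN1 hN2 using hN
    obtain ⟨G, hG⟩ := hc.cpt N
    have e1 : ∀ᶠ n in atTop, ∀ p ∈ G, N p ≤ φ n := (eventually_all_finset G).2 fun p _ =>
      hφ.tendsto_atTop.eventually (eventually_ge_atTop _)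
    have e2 : ∀ᶠ n in atTop, ∀ p ∈ G,
        Bn c J β (φ n) (N p) (c (N p) p) < (⨅ N, B N p) + η p :=
      (eventually_all_finset G).2 fun p _ => (hB (N p) p).eventually (gt_mem_nhds (hN1 p))
    filter_upwards [e1, e2] with n a1 a2
    have hq : ∀ q, o (c (φ n) q) ≤ d + ∑ p ∈ G, if c (N p) q = c (N p) p then σ p else 0 := by
      intro q
      obtain ⟨p, hp, e⟩ := hG q
      have b1 := hanti _ _ q (a1 p hp)
      have b2 := Finset.single_le_sum (f := fun p => if c (N p) q = c (N p) p then σ p else 0)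
        (fun p _ => by split_ifs; exacts [(hσ p).1, le_rfl]) hp
      simp only [e, if_true] at b1 b2
      linarith [hN2 p]
    have hs : Summable fun p => (⨅ N, B N p) * σ p :=
      summable_of_sum_le (fun p => mul_nonneg (w0 p) (hσ p).1) fun G =>
        (Finset.sum_le_sum fun p _ => mul_le_of_le_one_right (w0 p) (hσ p).2).trans (wsum G)
    have s1 : ∑ p ∈ G, (⨅ N, B N p) * σ p ≤ ∑' p, (⨅ N, B N p) * σ p :=
      hs.sum_le_tsum G fun p _ => mul_nonneg (w0 p) (hσ p).1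
    have s2 : ∑ p ∈ G, η p * σ p ≤ δ / 2 := by
      refine le_trans ?_ (hηs (G.filter fun p => σ p ≠ 0) fun p hp => (Finset.mem_filter.1 hp).2)
      rw [Finset.sum_filter]
      refine Finset.sum_le_sum fun p _ => ?_
      split_ifs with h
      · exact mul_le_of_le_one_right (hη p).le (hσ p).2
      · rw [not_not.1 h, mul_zero]
    have s3 : d * M ≤ δ / 2 := by
      rw [hd, div_mul_eq_mul_div, div_le_iff₀ (by positivity)]
      nlinarith
    have s4 : ∑ q ∈ J (φ n), β (φ n) q * (d + ∑ p ∈ G, if c (N p) q = c (N p) p then σ p else 0) =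
        d * ∑ q ∈ J (φ n), β (φ n) q + ∑ p ∈ G, Bn c J β (φ n) (N p) (c (N p) p) * σ p := by
      simp only [mul_add, Finset.sum_add_distrib, Finset.mul_sum, Bn, Finset.sum_mul,
        Finset.sum_filter]
      rw [Finset.sum_comm]
      congr 1
      · exact Finset.sum_congr rfl fun q _ => mul_comm _ _
      · refine Finset.sum_congr rfl fun p _ => Finset.sum_congr rfl fun q _ => ?_
        split_ifs <;> simp
    have s5 : ∑ p ∈ G, Bn c J β (φ n) (N p) (c (N p) p) * σ p ≤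
        ∑ p ∈ G, (⨅ N, B N p) * σ p + ∑ p ∈ G, η p * σ p := by
      rw [← Finset.sum_add_distrib]
      refine Finset.sum_le_sum fun p hp => ?_
      rw [← add_mul]
      exact mul_le_mul_of_nonneg_right (a2 p hp).le (hσ p).1
    have s6 := mul_le_mul_of_nonneg_left (hM (φ n)) d0.le
    have s7 := Finset.sum_le_sum fun q (_ : q ∈ J (φ n)) =>
      mul_le_mul_of_nonneg_left (hq q) (h0 (φ n) q)
    linarith

end Vale.Agent.P116
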