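import Vale.Agent.P116.DStm

/-! Part D: the iteration. -/

open Set Filter Topology MeasureTheory Metric
open scoped ENNReal NNReal

noncomputable section
namespace Vale.Agent.P116

theorem s_DProc (hS : S_DStep) (hD : S_DDu) : S_DProc := by
  intro Z P X T _ _ _ _ _ s S C A hok hdp hA hfin
  let St := {t : Set X × ℝ≥0 × Finset P // s.Ok t.1 ∧ DP s.μ s.v t.1 t.2.1}
  have step : ∀ (i : ℕ) (t : St), ∃ F m n, t.1.2.2 ⊆ F ∧ i ≤ m ∧
      DP s.μ s.v (s.cut t.1.1 F m n ((1 / 2 : ℝ≥0) ^ i : ℝ≥0)) (t.1.2.1 + (1 / 2) ^ i) :=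
    fun i t => hS Z P X T s t.1.1 t.1.2.1 _ t.1.2.2 i t.2.1 t.2.2 (by positivity)
  choose F m n h1 h2 h3 using step
  let q : ℕ → St := fun i => Nat.rec ⟨(S, C, ∅), hok, hdp⟩
    (fun i t => ⟨(s.cut t.1.1 (F i t) (m i t) (n i t) ((1 / 2 : ℝ≥0) ^ i : ℝ≥0),
      t.1.2.1 + (1 / 2) ^ i, F i t), t.2.1.cut _ _ _ _, h3 i t⟩) i
  have anti : Antitone fun i => (q i).1.1 := antitone_nat_of_succ_le fun i x hx => hx.1
  have sub : ∀ i, (q i).1.1 ⊆ S := fun i => anti (Nat.zero_le i)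
  have hC : ∀ i, (q i).1.2.1 + 2 * (1 / 2) ^ i = C + 2 := by
    intro i
    induction i with
    | zero => show C + 2 * (1 / 2) ^ 0 = C + 2; simp
    | succ i ih =>
      rw [← ih]
      show (q i).1.2.1 + (1 / 2) ^ i + 2 * (1 / 2) ^ (i + 1) = _
      rw [pow_succ]
      ring
  have hE : ∀ k x, ∫⁻ z in Sum.inl '' A k ∪ Sum.inr '' (F k (q k) : Set P), s.v x z ^ 2 ∂s.μ =
      (∫⁻ z in A k, s.a x z ^ 2 ∂s.ν) + ∑ p ∈ F k (q k), ENNReal.ofReal (s.σ x p) ^ 2 := by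
    intro k x
    rw [s.lintF _ (hA k), ← sum_eq_tsum_indicator]
    rfl
  have hx : ∀ k, ∃ x ∈ (q (k + 1)).1.1, (∫⁻ z in A k, s.a x z ^ 2 ∂s.ν) +
      ∑ p ∈ F k (q k), ENNReal.ofReal (s.σ x p) ^ 2 ≤ (((C + 3) ^ 2 : ℝ≥0) : ℝ≥0∞) := by
    intro k
    obtain ⟨x, hx, h⟩ := hD _ X s.μ s.v (q (k + 1)).1.1
      (Sum.inl '' A k ∪ Sum.inr '' (F k (q k) : Set P)) (q (k + 1)).1.2.1 (q (k + 1)).2.1.cvx
      hok.mv (q (k + 1)).2.1.cv
      ((hA k).inl_image.union (MeasurableSet.of_discrete (s := (F k (q k) : Set P))).inr_image)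
      (fun x hx => by
        rw [hE]
        exact ENNReal.add_lt_top.2 ⟨hfin k x (sub (k + 1) hx), ENNReal.sum_lt_top.2 fun p _ =>
          ENNReal.pow_lt_top ENNReal.ofReal_lt_top⟩) (q (k + 1)).2.2
    refine ⟨x, hx, ?_⟩
    rw [hE] at h
    refine h.trans ?_
    have h4 : (q (k + 1)).1.2.1 + 1 ≤ C + 3 := by
      have := hC (k + 1)
      calc (q (k + 1)).1.2.1 + 1 ≤ (q (k + 1)).1.2.1 + 2 * (1 / 2) ^ (k + 1) + 1 :=
            add_le_add le_self_add le_rfl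
        _ = C + 3 := by rw [this]; ring
    exact_mod_cast pow_le_pow_left₀ zero_le h4 2
  choose x hx1 hx2 using hx
  refine ⟨x, fun i => F i (q i), fun i => m i (q i), fun i => n i (q i), (C + 3) ^ 2,
    monotone_nat_of_le_succ fun i => h1 (i + 1) (q (i + 1)), fun i => h2 i _, fun k =>
    ⟨le_self_add.trans (hx2 k), ?_, fun i hi => ?_⟩⟩
  · have h5 := le_add_self.trans (hx2 k)
    have h6 : ∀ p ∈ F k (q k), ENNReal.ofReal (s.σ (x k) p) ^ 2 = ENNReal.ofReal (s.σ (x k) p ^ 2) :=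
      fun p _ => (ENNReal.ofReal_pow (hok.bσ _ (sub (k + 1) (hx1 k)) p).1 2).symm
    rwa [Finset.sum_congr rfl h6, ← ENNReal.ofReal_sum_of_nonneg fun p _ => sq_nonneg _,
      ENNReal.ofReal_le_coe] at h5
  · have h7 : x k ∈ s.cut (q i).1.1 (F i (q i)) (m i (q i)) (n i (q i))
        ((1 / 2 : ℝ≥0) ^ i : ℝ≥0) := anti (Nat.succ_le_succ hi) (hx1 k)
    have e : (((1 / 2 : ℝ≥0) ^ i : ℝ≥0) : ℝ) = (1 / 2) ^ i := by simp
    rw [e] at h7
    exact ⟨sub i h7.1, h7.2⟩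

end Vale.Agent.P116
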