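import Vale.Agent.P116.DStm

/-! Part D: an admissible weight of norm one contradicts the duality bound. -/

open Set Filter Topology MeasureTheory Metric
open scoped ENNReal NNReal

noncomputable section
namespace Vale.Agent.P116
namespace DQe

theorem cvx {a b : ℝ≥0} (h : a + b = 1) (y u : ℝ≥0∞) :
    ((a : ℝ≥0∞) * y + b * u) ^ 2 ≤ a * y ^ 2 + b * u ^ 2 := by
  have h2 : ∀ y u : ℝ≥0∞, 2 * y * u ≤ y ^ 2 + u ^ 2 := fun y u => by
    induction y with
    | top => simp
    | coe y =>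
      induction u with
      | top => simp
      | coe u => exact_mod_cast two_mul_le_add_sq y u
  have h1 : (a : ℝ≥0∞) + b = 1 := by exact_mod_cast h
  calc ((a : ℝ≥0∞) * y + b * u) ^ 2 = a * a * y ^ 2 + b * b * u ^ 2 + a * b * (2 * y * u) := by ring
    _ ≤ a * a * y ^ 2 + b * b * u ^ 2 + a * b * (y ^ 2 + u ^ 2) := by gcongr; exact h2 y u
    _ = (a + b) * (a * y ^ 2 + b * u ^ 2) := by ring
    _ = _ := by rw [h1, one_mul]

end DQe

theorem s_DQe : S_DQe := by
  rintro Z X _ μ v S y C e hv hDP he hy h1 ⟨u, hu, hU, hq⟩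
  lift ∫⁻ z, u z ^ 2 ∂μ to ℝ≥0 using hU.ne with U hU'
  obtain ⟨r, hr⟩ : ∃ r : ℝ≥0, r = (1 + U)⁻¹ := ⟨_, rfl⟩
  obtain ⟨b, hb⟩ : ∃ b : ℝ≥0, b = e / (2 * (C + e)) := ⟨_, rfl⟩
  have r0 : 0 < r := by rw [hr]; positivity
  have b0 : 0 < b := by rw [hb]; positivity
  have b1 : b * (C + e) = e / 2 := by rw [hb]; field_simp
  have b2 : b ≤ 1 := by
    rw [hb, div_le_one (by positivity)]
    nlinarith [zero_le (a := C), zero_le (a := e)]
  have ab : (1 - b) + b = 1 := tsub_add_cancel_of_le b2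
  generalize 1 - b = a at ab
  have r1 : r ^ 2 * U ≤ 1 := by
    rw [hr, inv_pow, inv_mul_le_one₀ (by positivity)]
    nlinarith [zero_le (a := U), zero_le (a := U ^ 2)]
  obtain ⟨x, hx, h⟩ := hDP (fun z => a * y z + b * (r * u z)) (e / 4)
    ((hy.const_mul _).add ((hu.const_mul _).const_mul _)) (by
      refine (lintegral_mono fun z => DQe.cvx ab _ _).trans ?_
      simp only [mul_pow]
      rw [lintegral_add_left ((hy.pow_const 2).const_mul _), lintegral_const_mul _ (hy.pow_const 2),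
        lintegral_const_mul _ ((hu.pow_const 2).const_mul _),
        lintegral_const_mul _ (hu.pow_const 2), ← hU']
      calc (a : ℝ≥0∞) * ∫⁻ z, y z ^ 2 ∂μ + b * (r ^ 2 * U) ≤ a * 1 + b * 1 := by
            gcongr; exact_mod_cast r1
        _ = 1 := by rw [mul_one, mul_one]; exact_mod_cast ab) (by positivity)
  simp only [add_mul, mul_assoc] at h
  have m1 : Measurable fun z => y z * v x z := hy.mul (hv x)
  have m2 : Measurable fun z => u z * v x z := hu.mul (hv x)
  rw [lintegral_add_left (m1.const_mul _), lintegral_const_mul _ m1,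
    lintegral_const_mul _ (m2.const_mul _), lintegral_const_mul _ m2] at h
  have f1 : ∫⁻ z, u z * v x z ∂μ < ∞ := by
    by_contra hc
    rw [not_lt, top_le_iff] at hc
    rw [hc, ENNReal.mul_top (by exact_mod_cast r0.ne'), ENNReal.mul_top (by exact_mod_cast b0.ne'),
      add_top, top_le_iff] at h
    exact (ENNReal.add_ne_top.mpr ⟨ENNReal.coe_ne_top, ENNReal.coe_ne_top⟩) h
  have f2 : (a : ℝ≥0∞) * (C + e) ≤ C + (e / 4 : ℝ≥0) :=
    ((mul_le_mul_right (hq x hx f1) _).trans le_self_add).trans h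
  have f3 : a * (C + e) ≤ C + e / 4 := by exact_mod_cast f2
  have f4 : a * (C + e) + b * (C + e) = C + e := by rw [← add_mul, ab, one_mul]
  rw [b1] at f4
  have g3 : (a : ℝ) * (C + e) ≤ C + e / 4 := by exact_mod_cast f3
  have g4 : (a : ℝ) * (C + e) + e / 2 = C + e := by exact_mod_cast f4
  have g0 : (0 : ℝ) < e := he
  linarith

end Vale.Agent.P116
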