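import Vale.Agent.P116.DStm

/-! Part D: the two inner limits of the step. -/

open Set Filter Topology MeasureTheory Metric
open scoped ENNReal NNReal

noncomputable section
namespace Vale.Agent.P116

namespace DS1

variable {Z P X T : Type} [MeasurableSpace Z] [MeasurableSpace P] [DiscreteMeasurableSpace P]
  [AddCommGroup X] [Module ℝ X] {s : Sys Z P X T} {S : Set X}

/-- Small oscillation on the cells of the points of `F`. -/
def TT (s : Sys Z P X T) (S : Set X) (F : Finset P) (e : ℝ) (m : ℕ) : Set X :=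
  {x | x ∈ S ∧ ∀ p ∈ F, s.o (s.c m p) x ≤ s.σ x p + e}

theorem cvI (h : s.Ok S) {y : Z ⊕ P → ℝ≥0∞} (hy : Measurable y) {x x' : X} (hx : x ∈ S)
    (hx' : x' ∈ S) {t t' : ℝ} (h0 : 0 ≤ t) (h0' : 0 ≤ t') (h1 : t + t' = 1) :
    ∫⁻ z, y z * s.v (t • x + t' • x') z ∂s.μ ≤ ENNReal.ofReal t * ∫⁻ z, y z * s.v x z ∂s.μ +
      ENNReal.ofReal t' * ∫⁻ z, y z * s.v x' z ∂s.μ := by
  rw [← lintegral_const_mul _ (hy.fun_mul (h.mv x)), ← lintegral_const_mul _ (hy.fun_mul (h.mv x')),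
    ← lintegral_add_left ((hy.fun_mul (h.mv x)).const_mul _)]
  refine lintegral_mono_ae ((h.cv x hx x' hx' t t' h0 h0' h1).mono fun z hz => ?_)
  rw [mul_left_comm, mul_left_comm (ENNReal.ofReal t'), ← mul_add]
  gcongr

theorem inner (hM : S_DMm) (h : s.Ok S) {C e : ℝ≥0} (he : 0 < e) (F : Finset P) (m n : ℕ)
    (hD : ¬DP s.μ s.v (s.cut S F m n e) C) :
    ∃ (y y' : Z ⊕ P → ℝ≥0∞) (J : Finset P) (β : P → ℝ), Measurable y ∧ Measurable y' ∧
      ∫⁻ z, y z ^ 2 ∂s.μ ≤ 1 ∧ ∫⁻ z, y' z ^ 2 ∂s.μ ≤ 1 ∧ (∀ q, 0 ≤ β q) ∧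
      ∑ q ∈ J, β q ≤ (C / e : ℝ≥0) ∧ (∀ q ∈ J, ∀ p ∈ F, s.c m q ≠ s.c m p) ∧
      ∀ x ∈ TT s S F e m, ∫⁻ z, y z * s.v x z ∂s.μ < ∞ →
        C ≤ (∫⁻ z, y' z * s.v x z ∂s.μ).toReal + ∑ q ∈ J, β q * s.o (s.c n q) x := by
  classical
  simp only [DP, not_forall, not_exists, not_and, not_le] at hD
  obtain ⟨y, ε, hy, hy1, -, hD⟩ := hD
  obtain ⟨G, hG⟩ := h.cel.cpt fun _ => max m n
  have he' : (0 : ℝ) < e := he
  have hc : Convex ℝ {x | x ∈ TT s S F e m ∧ ∫⁻ z, y z * s.v x z ∂s.μ < ∞} := by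
    intro x hx x' hx' t t' h0 h0' h1
    refine ⟨⟨h.cvx hx.1.1 hx'.1.1 h0 h0' h1, fun p hp => ?_⟩,
      (cvI h hy hx.1.1 hx'.1.1 h0 h0' h1).trans_lt (ENNReal.add_lt_top.2
        ⟨ENNReal.mul_lt_top ENNReal.ofReal_lt_top hx.2,
          ENNReal.mul_lt_top ENNReal.ofReal_lt_top hx'.2⟩)⟩
    have a := mul_le_mul_of_nonneg_left (hx.1.2 p hp) h0
    have b := mul_le_mul_of_nonneg_left (hx'.1.2 p hp) h0'
    have c := (h.co (s.c m p)).2 hx.1.1 hx'.1.1 h0 h0' h1
    have d : (e : ℝ) = t * e + t' * e := by rw [← add_mul, h1, one_mul]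
    rw [h.cσ]
    simp only [smul_eq_mul] at c
    linarith
  obtain ⟨l, l0, l1, l2⟩ := hM X (Option P)
    {x | x ∈ TT s S F e m ∧ ∫⁻ z, y z * s.v x z ∂s.μ < ∞}
    (Finset.insertNone (G.filter fun q => ∀ p ∈ F, s.c m q ≠ s.c m p))
    (fun j x => j.elim (∫⁻ z, y z * s.v x z ∂s.μ).toReal
      (fun q => (C / e : ℝ) * s.o (s.c n q) x) - C) ⟨none, by simp⟩
    (fun j _ => by
      refine ConvexOn.add_const (f := fun x => j.elim (∫⁻ z, y z * s.v x z ∂s.μ).toReal
        fun q => (C / e : ℝ) * s.o (s.c n q) x) ?_ (-C : ℝ)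
      cases j with
      | none =>
        refine ⟨hc, fun x hx x' hx' t t' h0 h0' h1 => ?_⟩
        have a := ENNReal.mul_ne_top (ENNReal.ofReal_ne_top (r := t)) hx.2.ne
        have b := ENNReal.mul_ne_top (ENNReal.ofReal_ne_top (r := t')) hx'.2.ne
        have := ENNReal.toReal_mono (ENNReal.add_ne_top.2 ⟨a, b⟩)
          (cvI h hy hx.1.1 hx'.1.1 h0 h0' h1)
        rwa [ENNReal.toReal_add a b, ENNReal.toReal_mul, ENNReal.toReal_mul,
          ENNReal.toReal_ofReal h0, ENNReal.toReal_ofReal h0'] at this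
      | some q => exact ((h.co _).subset (fun x hx => hx.1.1) hc).smul (by positivity))
    (fun x hx => by
      by_cases hq : ∀ q, (∀ p ∈ F, s.c m q ≠ s.c m p) → s.o (s.c n q) x ≤ e
      · refine ⟨none, by simp, sub_nonneg.2 ?_⟩
        exact ENNReal.toReal_mono hx.2.ne (le_self_add.trans (hD x ⟨hx.1.1, hx.1.2, hq⟩).le)
      · obtain ⟨q, q1, q2⟩ : ∃ q, (∀ p ∈ F, s.c m q ≠ s.c m p) ∧ e < s.o (s.c n q) x := by
          simpa using hq
        obtain ⟨q', a, b⟩ := hG q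
        rw [h.cel.nest _ _ _ _ (le_max_left m n) b] at q1
        rw [h.cel.nest _ _ _ _ (le_max_right m n) b] at q2
        refine ⟨some q', by simpa using ⟨a, q1⟩, sub_nonneg.2 ?_⟩
        exact (div_mul_cancel₀ (C : ℝ) he'.ne').ge.trans
          (mul_le_mul_of_nonneg_left q2.le (by positivity)))
  rw [Finset.sum_insertNone] at l1
  have l3 := Finset.sum_nonneg (s := G.filter fun q => ∀ p ∈ F, s.c m q ≠ s.c m p)
    fun q _ => l0 (some q)
  refine ⟨y, fun z => ENNReal.ofReal (l none) * y z, G.filter fun q => ∀ p ∈ F, s.c m q ≠ s.c m p,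
    fun q => l (some q) * (C / e), hy, hy.const_mul _, hy1, (lintegral_mono fun z => ?_).trans hy1,
    fun q => mul_nonneg (l0 _) (by positivity), ?_, fun q hq => (Finset.mem_filter.1 hq).2,
    fun x hx h1 => ?_⟩
  · exact pow_le_pow_left' (mul_le_of_le_one_left' (ENNReal.ofReal_le_one.2 (by linarith))) 2
  · rw [← Finset.sum_mul, NNReal.coe_div]
    exact mul_le_of_le_one_left (by positivity) (by linarith [l0 none])
  · have := l2 x ⟨hx, h1⟩
    simp only [Finset.sum_insertNone, Option.elim, mul_sub, Finset.sum_sub_distrib,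
      ← Finset.sum_mul] at this
    simp only [mul_assoc]
    rw [lintegral_const_mul _ (hy.fun_mul (h.mv x)), ENNReal.toReal_mul,
      ENNReal.toReal_ofReal (l0 _)]
    have h2 := congrArg (· * (C : ℝ)) l1
    simp only [add_mul, one_mul] at h2
    linarith

theorem mid (hF : S_DF) (hM : S_DMm) (hN : S_DN) (h : s.Ok S) {C e : ℝ≥0} (he : 0 < e)
    (F : Finset P) (m : ℕ) (hD : ∀ n, ¬DP s.μ s.v (s.cut S F m n e) (C + e)) :
    ∃ y : Z ⊕ P → ℝ≥0∞, (Measurable y ∧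
      ∫⁻ z, y z ^ 2 ∂s.μ ≤ 2 + 2 * (((C + e) / e : ℝ≥0) : ℝ≥0∞) ^ 2 ∧
      QE s.μ s.v (TT s S F e m) y (C + e / 2)) ∧
      ∫⁻ z in Sum.inl '' univ ∪ Sum.inr '' (↑F : Set P), y z ^ 2 ∂s.μ ≤ 1 := by
  choose y y' J β a1 a2 a3 a4 a5 a6 a7 a8 using fun n => inner hM h he F m n (hD n)
  obtain ⟨φ, w, -, w0, w1, w2, w3⟩ := hN P T s.c J β _ h.cel a5 a6
  set M : ℝ≥0 := (C + e) / e
  have hA : MeasurableSet (Sum.inl '' univ ∪ Sum.inr '' (↑F : Set P) : Set (Z ⊕ P)) :=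
    MeasurableSet.univ.inl_image.union (MeasurableSet.of_discrete (s := (F : Set P))).inr_image
  set W : Z ⊕ P → ℝ≥0∞ := Sum.elim 0 fun p => ENNReal.ofReal (w p)
  have mW : Measurable W := meas_elim measurable_zero _
  have b0 : ∀ G : Finset P, ∑ p ∈ G, ENNReal.ofReal (w p) ≤ M := fun G => by
    rw [← ENNReal.ofReal_sum_of_nonneg fun p _ => w0 p]
    exact ENNReal.ofReal_le_coe.2 (w1 G)
  have b1 : ∫⁻ z, W z ^ 2 ∂s.μ ≤ M ^ 2 := by
    rw [s.lint]
    simp only [W, Sum.elim_inl, Sum.elim_inr, Pi.zero_apply, pow_two, mul_zero, lintegral_zero,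
      zero_add]
    refine (ENNReal.tsum_le_tsum fun p => mul_le_mul_left
      ((Finset.sum_singleton (fun p => ENNReal.ofReal (w p)) p).ge.trans (b0 _)) _).trans ?_
    rw [ENNReal.tsum_mul_left, ENNReal.tsum_eq_iSup_sum]
    exact mul_le_mul_right (iSup_le b0) _
  have b2 : ∀ k, ∫⁻ z, (y' k z + W z) ^ 2 ∂s.μ ≤ 2 + 2 * (M : ℝ≥0∞) ^ 2 := fun k => by
    calc _ ≤ ∫⁻ z, 2 * y' k z ^ 2 + 2 * W z ^ 2 ∂s.μ := lintegral_mono fun z => by
          have := ENNReal.rpow_add_le_mul_rpow_add_rpow (y' k z) (W z) one_le_two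
          norm_num [mul_add] at this
          exact this
      _ ≤ _ := by
          rw [lintegral_add_right _ ((mW.pow_const 2).const_mul _),
            lintegral_const_mul _ ((a2 k).pow_const 2), lintegral_const_mul _ (mW.pow_const 2)]
          exact add_le_add (mul_le_of_le_one_right' (a4 k)) (mul_le_mul_right b1 _)
  obtain ⟨u, u1, u2, u3⟩ := hF _ X s.μ s.v (fun k z => y' (φ k) z + W z)
    (fun k => {x | x ∈ TT s S F e m ∧ ∑ q ∈ J (φ k), β (φ k) q * s.o (s.c (φ k) q) x ≤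
      (∑' p, w p * s.σ x p) + e / 2}) (TT s S F e m) (C + e / 2) _ h.mv
    (by finiteness : 2 + 2 * (M : ℝ≥0∞) ^ 2 < ∞)
    (fun k => ⟨(a2 _).add mW, b2 _, y (φ k), a1 _, (a3 _).trans_lt ENNReal.one_lt_top,
      fun x hx h1 => by
        have h2 := (a8 _ x hx.1 h1).trans (add_le_add_right hx.2 _)
        have h3 := h.bσ x hx.1.1
        have h4 : ∫⁻ z, W z * s.v x z ∂s.μ = ENNReal.ofReal (∑' p, w p * s.σ x p) := by
          rw [s.lint, ENNReal.ofReal_tsum_of_nonneg (fun p => mul_nonneg (w0 p) (h3 p).1)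
            ((summable_of_sum_le w0 w1).of_nonneg_of_le (fun p => mul_nonneg (w0 p) (h3 p).1)
              fun p => mul_le_of_le_one_right (w0 p) (h3 p).2)]
          simp [W, Sys.v, ENNReal.ofReal_mul (w0 _)]
        simp only [add_mul]
        rw [lintegral_add_right _ (mW.fun_mul (h.mv x)), h4]
        calc (C + e / 2 : ℝ≥0∞) = ENNReal.ofReal (C + e / 2) := by
              rw [ENNReal.ofReal_add C.coe_nonneg (by positivity), ENNReal.ofReal_div_of_pos two_pos]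
              simp
          _ ≤ _ := by
              refine (ENNReal.ofReal_le_ofReal ?_).trans
                (ENNReal.ofReal_add_le.trans (add_le_add_left ENNReal.ofReal_toReal_le _))
              push_cast at h2
              linarith⟩)
    fun x hx => (w3 (fun V => s.o V x) (s.σ x) (e / 2) (by positivity) (h.bσ x hx.1)
      (h.cnt x hx.1) (h.anti x hx.1) (h.lim x hx.1)).mono fun k hk => ⟨hx, hk⟩
  refine ⟨u, ⟨u1, ?_, u2⟩, u3 _ _ hA (Eventually.of_forall fun k => ?_)⟩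
  · simpa using u3 univ _ MeasurableSet.univ (Eventually.of_forall fun k => by simpa using b2 _)
  · refine le_trans (le_of_eq (setLIntegral_congr_fun hA ?_))
      ((setLIntegral_le_lintegral _ _).trans (a4 (φ k)))
    rintro _ (⟨z, -, rfl⟩ | ⟨p, hp, rfl⟩)
    · simp [W]
    · simp [W, w2 p m fun n q hq => a7 n q hq p hp]

end DS1

theorem s_DS1 (hF : S_DF) (hM : S_DMm) (hN : S_DN) : S_DS1 := by
  intro Z P X T _ _ _ _ _ s S C e F i h he hD
  choose y y1 y2 using fun k =>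
    DS1.mid hF hM hN h he F (i + k) fun n => hD _ n (Nat.le_add_right _ _)
  obtain ⟨u, u1, u2, u3⟩ := hF _ X s.μ s.v y _ S _ _ h.mv (by finiteness) y1 fun x hx => by
    refine ((eventually_all_finset F).2 fun p _ => ?_).mono fun k hk => ⟨hx, hk⟩
    obtain ⟨n, hn⟩ := h.lim x hx p e he
    exact (eventually_ge_atTop n).mono fun k hk => (h.anti x hx n _ p (by omega)).trans hn
  refine ⟨u, u1, u2, ?_, u3 _ _ (MeasurableSet.univ.inl_image.union
    (MeasurableSet.of_discrete (s := (F : Set P))).inr_image) (Eventually.of_forall y2)⟩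
  simpa using u3 univ _ MeasurableSet.univ
    (Eventually.of_forall fun k => by simpa using (y1 k).2.1)

end Vale.Agent.P116
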