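import Vale.Agent.P116.DStm

/-! Part D: the step. -/

open Set Filter Topology MeasureTheory Metric
open scoped ENNReal NNReal

noncomputable section
namespace Vale.Agent.P116

namespace DStep

variable {Z P X T : Type} [MeasurableSpace Z] [MeasurableSpace P] [DiscreteMeasurableSpace P]

theorem tail (s : Sys Z P X T) {f : Z ⊕ P → ℝ≥0∞} (hf : ∫⁻ z, f z ∂s.μ < ∞) (F : Finset P)
    {δ : ℝ≥0∞} (hδ : 0 < δ) :
    ∃ F', F ⊆ F' ∧ ∫⁻ z in Sum.inr '' (↑F' : Set P)ᶜ, f z ∂s.μ ≤ δ := by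
  rw [s.lint] at hf
  have h1 := ENNReal.tendsto_tsum_compl_atTop_zero (f := fun p => f (Sum.inr p))
    (le_add_self.trans_lt hf).ne
  obtain ⟨F', h2, h3⟩ := ((eventually_ge_atTop F).and (h1.eventually (ge_mem_nhds hδ))).exists
  refine ⟨F', h2, ?_⟩
  have e := s.lintF ∅ MeasurableSet.empty (↑F' : Set P)ᶜ f
  rw [image_empty, empty_union, Measure.restrict_empty, lintegral_zero_measure, zero_add,
    ← tsum_subtype] at e
  rw [e]
  exact h3

theorem total (s : Sys Z P X T) {f : Z ⊕ P → ℝ≥0∞} {b : ℝ≥0∞}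
    (h : ∀ G : Finset P, ∫⁻ z in Sum.inl '' univ ∪ Sum.inr '' (↑G : Set P), f z ∂s.μ ≤ b) :
    ∫⁻ z, f z ∂s.μ ≤ b := by
  rw [s.lint, ENNReal.tsum_eq_iSup_sum, ENNReal.add_iSup]
  refine iSup_le fun G => ?_
  have := h G
  rwa [s.lintF univ MeasurableSet.univ, Measure.restrict_univ, ← sum_eq_tsum_indicator] at this

end DStep

theorem s_DStep (hF : S_DF) (hQ : S_DQe) (h1 : S_DS1) : S_DStep := by
  intro Z P X T _ _ _ _ _ s S C e F₀ i hs hD he
  classical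
  by_contra hc
  have hy : ∀ F : Finset P, ∃ y : Z ⊕ P → ℝ≥0∞, Measurable y ∧ QE s.μ s.v S y (C + e / 2) ∧
      ∫⁻ z, y z ^ 2 ∂s.μ ≤ 2 + 2 * (((C + e) / e : ℝ≥0) : ℝ≥0∞) ^ 2 ∧
      ∫⁻ z in Sum.inl '' univ ∪ Sum.inr '' (↑F : Set P), y z ^ 2 ∂s.μ ≤ 1 := by
    intro F
    obtain ⟨y, a1, a2, a3, a4⟩ := h1 Z P X T s S C e (F₀ ∪ F) i hs he fun m n hm h =>
      hc ⟨_, m, n, Finset.subset_union_left, hm, h⟩
    exact ⟨y, a1, a2, a3, (lintegral_mono_set (union_subset_union_right _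
      (image_mono (Finset.coe_subset.2 Finset.subset_union_right)))).trans a4⟩
  choose y y1 y2 y3 y4 using hy
  have hB : 2 + 2 * (((C + e) / e : ℝ≥0) : ℝ≥0∞) ^ 2 < ∞ := by finiteness
  choose nx n1 n2 using fun (F : Finset P) (k : ℕ) =>
    DStep.tail s ((y3 F).trans_lt hB) F (δ := (k : ℝ≥0∞)⁻¹) (by simp)
  obtain ⟨F, hFs⟩ : ∃ F : ℕ → Finset P, ∀ k, F (k + 1) = nx (F k) k :=
    ⟨fun k => Nat.rec ∅ (fun k G => nx G k) k, fun _ => rfl⟩
  have hm : Monotone F := monotone_nat_of_le_succ fun k => by rw [hFs]; exact n1 _ _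
  obtain ⟨y', a1, a2, a3⟩ := hF _ X s.μ s.v (fun k => y (F k)) (fun _ => S) S _ _ hs.mv hB
    (fun k => ⟨y1 _, y3 _, y2 _⟩) fun x hx => Eventually.of_forall fun _ => hx
  refine hQ _ X s.μ s.v S y' C (e / 2) hs.mv hD (half_pos he) a1 (DStep.total s fun G => ?_)
    (by simpa using a2)
  refine ENNReal.le_of_forall_pos_le_add fun δ hδ _ => a3 _ _
    (MeasurableSet.univ.inl_image.union (MeasurableSet.of_discrete (s := (↑G : Set P))).inr_image) ?_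
  have e1 : ∀ᶠ k in atTop, ∀ p ∈ G, p ∈ F k ∨ p ∉ F (k + 1) := by
    refine (eventually_all_finset G).2 fun p _ => ?_
    by_cases h : ∃ j, p ∈ F j
    · obtain ⟨j, hj⟩ := h
      exact (eventually_ge_atTop j).mono fun k hk => Or.inl (hm hk hj)
    · exact Eventually.of_forall fun k => Or.inr fun h' => h ⟨_, h'⟩
  have e2 := ENNReal.tendsto_inv_nat_nhds_zero.eventually
    (ge_mem_nhds (show (0 : ℝ≥0∞) < δ by exact_mod_cast hδ))
  filter_upwards [e1, e2] with k k1 k2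
  have hsub : (Sum.inl '' univ ∪ Sum.inr '' (↑G : Set P) : Set (Z ⊕ P)) ⊆
      (Sum.inl '' univ ∪ Sum.inr '' (↑(F k) : Set P)) ∪ Sum.inr '' (↑(F (k + 1)) : Set P)ᶜ := by
    rintro _ (h | ⟨p, hp, rfl⟩)
    · exact Or.inl (Or.inl h)
    · exact (k1 p hp).elim (fun h => Or.inl (Or.inr ⟨p, h, rfl⟩)) fun h => Or.inr ⟨p, h, rfl⟩
  refine ((lintegral_mono_set hsub).trans (lintegral_union_le _ _ _)).trans
    (add_le_add (y4 _) (le_trans ?_ k2))
  rw [hFs]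
  exact n2 _ _

end Vale.Agent.P116
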