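import Vale.Agent.P116.DStm

/-! Part D: a convergent subsequence. -/

open Set Filter Topology MeasureTheory Metric
open scoped ENNReal NNReal

noncomputable section
namespace Vale.Agent.P116

namespace DSub

theorem diag {ι : Type} [Countable ι] (f : ℕ → ι → ℝ) (h : ∀ k i, 0 ≤ f k i ∧ f k i ≤ 1) :
    ∃ (φ : ℕ → ℕ) (g : ι → ℝ), StrictMono φ ∧ ∀ i, Tendsto (fun k => f (φ k) i) atTop (𝓝 (g i)) := by
  obtain ⟨g, -, φ, h1, h2⟩ := (isCompact_univ_pi fun _ : ι => isCompact_Icc (a := (0 : ℝ))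
    (b := 1)).tendsto_subseq (x := f) fun k i _ => h k i
  exact ⟨φ, g, h1, tendsto_pi_nhds.1 h2⟩

end DSub

theorem s_DSub : S_DSub := by
  intro P U E L rad ζ σ _ hE hr h
  classical
  obtain ⟨D, hD, hd⟩ := TopologicalSpace.exists_countable_dense ℂ
  have := hD.to_subtype
  have := hE.to_subtype
  obtain ⟨φ, g, h1, h2⟩ := DSub.diag (ι := D ⊕ E)
    (fun k => Sum.elim (fun d => ζ k d) (fun p => σ k p)) fun k i => by
      rcases i with d | p
      · exact (h k).1 d
      · exact (h k).2.1 p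
  refine ⟨φ, fun z => limUnder atTop fun k => ζ (φ k) z,
    fun p => if hp : p ∈ E then g (Sum.inr ⟨p, hp⟩) else 0, h1, fun z hz => ?_, fun p hp => ?_,
    fun p hp => dif_neg hp⟩
  · refine CauchySeq.tendsto_limUnder (Metric.cauchySeq_iff.2 fun ε hε => ?_)
    have hL : (0 : ℝ) ≤ L z := (L z).2
    have hδ : 0 < min (rad z) (ε / 3 / (L z + 1)) := lt_min (hr z hz) (by positivity)
    obtain ⟨d, hd1, hd2⟩ := hd.exists_dist_lt z hδ
    obtain ⟨N, hN⟩ := Metric.cauchySeq_iff.1 (h2 (Sum.inl ⟨d, hd1⟩)).cauchySeq (ε / 3)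
      (by positivity)
    have key : ∀ k, dist (ζ k z) (ζ k d) ≤ ε / 3 := fun k => by
      have a1 := ((h k).2.2 z hz).dist_le_mul z (mem_ball_self (hr z hz)) d
        (mem_ball'.2 (hd2.trans_le (min_le_left _ _)))
      have a2 := (lt_div_iff₀ (by positivity)).1 (hd2.trans_le (min_le_right _ _))
      nlinarith [dist_nonneg (x := z) (y := d)]
    refine ⟨N, fun m hm n hn => ?_⟩
    have a1 : dist (ζ (φ m) d) (ζ (φ n) d) < ε / 3 := hN m hm n hn
    linarith [dist_triangle4_right (ζ (φ m) z) (ζ (φ n) z) (ζ (φ m) d) (ζ (φ n) d), key (φ m),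
      key (φ n)]
  · simp only [dif_pos hp]
    exact h2 (Sum.inr ⟨p, hp⟩)

end Vale.Agent.P116
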