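import Vale.Agent.P116.DStm

/-! Part D: the concrete data satisfy the abstract hypotheses. -/

open Set Filter Topology MeasureTheory Metric
open scoped ENNReal NNReal

noncomputable section
namespace Vale.Agent.P116

namespace DSys

variable {K W : Set ℂ} {θ : ℂ → ℝ}

theorem le_osc (h : ∀ z, 0 ≤ θ z ∧ θ z ≤ 1) {z w : ℂ} (hz : z ∈ W \ K) (hw : w ∈ W \ K) :
    θ z - θ w ≤ osc K W θ := by
  refine le_csSup ⟨1, ?_⟩ ⟨z, hz, w, hw, rfl⟩
  rintro _ ⟨a, -, b, -, rfl⟩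
  linarith [(h a).2, (h b).1]

theorem osc_le {c : ℝ} (hc : 0 ≤ c) (h : ∀ z ∈ W \ K, ∀ w ∈ W \ K, θ z - θ w ≤ c) :
    osc K W θ ≤ c := by
  refine Real.sSup_le ?_ hc
  rintro _ ⟨a, ha, b, hb, rfl⟩
  exact h a ha b hb

theorem osc_nonneg (h : ∀ z, 0 ≤ θ z ∧ θ z ≤ 1) : 0 ≤ osc K W θ := by
  rcases (W \ K).eq_empty_or_nonempty with h0 | ⟨z, hz⟩
  · simp [osc, h0]
  · simpa using le_osc h hz hz

theorem gr_comb {a b : ℂ → ℝ} {z : ℂ} (ha : DifferentiableAt ℝ a z) (hb : DifferentiableAt ℝ b z)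
    (t t' : ℝ) : gr (t • a + t' • b) z = t • gr a z + t' • gr b z := by
  have := ((ha.hasFDerivAt.const_smul t).add (hb.hasFDerivAt.const_smul t')).fderiv
  unfold gr
  rw [this]
  apply Complex.ext <;> simp

theorem loc (h : S_adm) (hK : IsClosed K) {A : Set ℂ} (hθ : LocallyLipschitzOn Kᶜ θ)
    (hA : IsCompact A) (hs : A ⊆ Kᶜ) : ∫⁻ z in A, ‖gr θ z‖ₑ ^ 2 < ∞ := by
  refine hA.induction_on (p := fun A => ∫⁻ z in A, ‖gr θ z‖ₑ ^ 2 < ∞) (by simp)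
    (fun s t hst ht => (lintegral_mono_set hst).trans_lt ht)
    (fun s t h1 h2 => (lintegral_union_le _ _ _).trans_lt (ENNReal.add_lt_top.2 ⟨h1, h2⟩))
    fun x hx => ?_
  obtain ⟨L, t, ht, hL⟩ := hθ (hs hx)
  rw [hK.isOpen_compl.nhdsWithin_eq (hs hx)] at ht
  obtain ⟨r, hr, hb⟩ := Metric.mem_nhds_iff.1 ht
  refine ⟨ball x r, mem_nhdsWithin_of_mem_nhds (ball_mem_nhds x hr), ?_⟩
  refine (setLIntegral_mono' (g := fun _ => (L : ℝ≥0∞) ^ 2) measurableSet_ball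
    fun z hz => ?_).trans_lt ?_
  · have := norm_fderiv_le_of_lipschitzOn ℝ (mem_of_superset (isOpen_ball.mem_nhds hz) hb) hL
    rw [← h.nrm] at this
    gcongr
    rw [← ofReal_norm, ← ENNReal.ofReal_coe_nnreal]
    exact ENNReal.ofReal_le_ofReal this
  · rw [setLIntegral_const]
    exact ENNReal.mul_lt_top (ENNReal.pow_lt_top ENNReal.coe_lt_top) measure_ball_lt_top

end DSys

open DSys in
theorem s_DSys (h : S_adm) : S_DSys := by
  intro K Ω 𝒮 L rad C V _ _ hK hΩ hs hc hF hV hd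
  have ll : ∀ x ∈ 𝒮, LocallyLipschitzOn Kᶜ x.1 := fun x hx z hz =>
    ⟨L z, _, mem_nhdsWithin_of_mem_nhds (ball_mem_nhds z (hF.1 z hz)), (hF.2 x hx).2.2.2.2 z hz⟩
  refine ⟨⟨hV.cel, hc, fun x => (h.meas x.1).enorm, fun x hx x' hx' t t' h0 h0' _ => ?_,
    fun x x' t t' p => rfl, fun W => ⟨hc, fun x hx x' hx' t t' h0 h0' _ => ?_⟩,
    fun x hx => (hF.2 x hx).2.1, fun x hx => (hF.2 x hx).2.2.1, fun x hx n n' p hn => ?_,
    fun x hx p ε hε => ?_⟩, fun y ε hy h1 hε => ?_, fun x hx W z hz w hw =>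
    le_osc (hF.2 x hx).1 hz hw, fun θ A => loc h hK.isClosed⟩
  · refine (ae_restrict_iff' hΩ.measurableSet).2 ?_
    filter_upwards [h.dif _ _ hK.isClosed.isOpen_compl (ll x hx),
      h.dif _ _ hK.isClosed.isOpen_compl (ll x' hx')] with z d1 d2 hz
    show ‖gr (t • x.1 + t' • x'.1) z‖ₑ ≤ _ * ‖gr x.1 z‖ₑ + _ * ‖gr x'.1 z‖ₑ
    rw [gr_comb (d1 (hs hz)) (d2 (hs hz)), ← Real.enorm_eq_ofReal h0, ← Real.enorm_eq_ofReal h0',
      ← enorm_smul, ← enorm_smul]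
    exact enorm_add_le _ _
  · show osc K W (t • x.1 + t' • x'.1) ≤ t * osc K W x.1 + t' * osc K W x'.1
    refine osc_le (add_nonneg (mul_nonneg h0 (osc_nonneg (hF.2 x hx).1))
      (mul_nonneg h0' (osc_nonneg (hF.2 x' hx').1))) fun z hz w hw => ?_
    have a := mul_le_mul_of_nonneg_left (le_osc (hF.2 x hx).1 hz hw) h0
    have b := mul_le_mul_of_nonneg_left (le_osc (hF.2 x' hx').1 hz hw) h0'
    simp only [Pi.add_apply, Pi.smul_apply, smul_eq_mul]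
    linarith
  · exact osc_le (osc_nonneg (hF.2 x hx).1) fun z hz w hw => le_osc (hF.2 x hx).1
      ⟨hV.anti n n' p hn hz.1, hz.2⟩ ⟨hV.anti n n' p hn hw.1, hw.2⟩
  · obtain ⟨U, hU, hp, hb⟩ := (hF.2 x hx).2.2.2.1 p ε hε
    obtain ⟨n, hn⟩ := hV.small p U hU hp
    exact ⟨n, osc_le (add_nonneg ((hF.2 x hx).2.1 p).1 hε.le) fun z hz w hw =>
      hb z ⟨hn hz.1, hz.2⟩ w ⟨hn hw.1, hw.2⟩⟩
  · rw [Sys.lint] at h1
    have h2 : ∑' p, y (Sum.inr p) ^ 2 ≠ ⊤ :=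
      ne_top_of_le_ne_top ENNReal.one_ne_top (le_add_self.trans h1)
    have h3 : ∀ p, y (Sum.inr p) ≠ ⊤ := fun p hp => by
      have := ENNReal.ne_top_of_tsum_ne_top h2 p
      simp [hp] at this
    obtain ⟨x, hx, hb⟩ := hd (fun z => y (Sum.inl z)) (fun p => (y (Sum.inr p)).toReal) ε
      (hy.comp measurable_inl) ⟨fun _ => ENNReal.toReal_nonneg, by
        simpa only [ENNReal.toReal_pow] using ENNReal.summable_toReal h2⟩ (by
        simp only [nq, ENNReal.ofReal_pow ENNReal.toReal_nonneg, ENNReal.ofReal_toReal (h3 _)]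
        exact h1) hε
    refine ⟨x, hx, ?_⟩
    rw [Sys.lint]
    simp only [pg, ENNReal.ofReal_mul ENNReal.toReal_nonneg, ENNReal.ofReal_toReal (h3 _)] at hb
    exact hb

end Vale.Agent.P116
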