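import Vale.Agent.P116.DLim
import Vale.Agent.P116.DF
import Vale.Agent.P116.DMm
import Vale.Agent.P116.DN
import Vale.Agent.P116.DQe
import Vale.Agent.P116.DDu
import Vale.Agent.P116.DS1
import Vale.Agent.P116.DStep
import Vale.Agent.P116.DProc
import Vale.Agent.P116.DCell
import Vale.Agent.P116.DSys
import Vale.Agent.P116.DSub

/-! Part D: assembly. -/

namespace Vale.Agent.P116

theorem s_D (L : Lib) : S_D :=
  s_D_of L (s_DCell L.cmp) (s_DSys L.adm)
    (s_DProc (s_DStep s_DF s_DQe (s_DS1 s_DF s_DMm s_DN)) s_DDu) s_DSub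

end Vale.Agent.P116
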