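import Vale.Agent.P116.AStm

/-! Part D: definitions and statements of the pieces. -/

open Set Filter Topology MeasureTheory Metric
open scoped ENNReal NNReal

noncomputable section
namespace Vale.Agent.P116

/-- The weight `y` is admissible for `T` off an exceptional family. -/
def QE {Z X : Type} [MeasurableSpace Z] (μ : Measure Z) (v : X → Z → ℝ≥0∞) (T : Set X)
    (y : Z → ℝ≥0∞) (c : ℝ≥0∞) : Prop :=
  ∃ u : Z → ℝ≥0∞, Measurable u ∧ ∫⁻ z, u z ^ 2 ∂μ < ∞ ∧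
    ∀ x ∈ T, ∫⁻ z, u z * v x z ∂μ < ∞ → c ≤ ∫⁻ z, y z * v x z ∂μ

/-- The duality bound. -/
def DP {Z X : Type} [MeasurableSpace Z] (μ : Measure Z) (v : X → Z → ℝ≥0∞) (S : Set X)
    (C : ℝ≥0) : Prop :=
  ∀ (y : Z → ℝ≥0∞) (ε : ℝ≥0), Measurable y → ∫⁻ z, y z ^ 2 ∂μ ≤ 1 → 0 < ε →
    ∃ x ∈ S, ∫⁻ z, y z * v x z ∂μ ≤ C + ε

/-- `v` is convex on `S`, almost everywhere. -/
def Cvx {Z X : Type} [MeasurableSpace Z] [AddCommGroup X] [Module ℝ X] (μ : Measure Z)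
    (v : X → Z → ℝ≥0∞) (S : Set X) : Prop :=
  ∀ x ∈ S, ∀ x' ∈ S, ∀ t t' : ℝ, 0 ≤ t → 0 ≤ t' → t + t' = 1 →
    ∀ᵐ z ∂μ, v (t • x + t' • x') z ≤ ENNReal.ofReal t * v x z + ENNReal.ofReal t' * v x' z

/-- A system of cells: `c n p` is the cell of level `n` of the point `p`. -/
structure Cel {P T : Type} (c : ℕ → P → T) : Prop where
  nest : ∀ n n' p q, n ≤ n' → c n' p = c n' q → c n p = c n q
  sep : ∀ p q, p ≠ q → ∃ n, c n p ≠ c n q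
  cpt : ∀ N : P → ℕ, ∃ G : Finset P, ∀ q, ∃ p ∈ G, c (N p) q = c (N p) p

/-- The abstract data. -/
structure Sys (Z P X T : Type) [MeasurableSpace Z] where
  ν : Measure Z
  a : X → Z → ℝ≥0∞
  σ : X → P → ℝ
  c : ℕ → P → T
  o : T → X → ℝ

section sys

variable {Z P X T : Type} [MeasurableSpace Z] [MeasurableSpace P]

/-- The measure on the disjoint union. -/
def Sys.μ (s : Sys Z P X T) : Measure (Z ⊕ P) :=
  s.ν.map Sum.inl + (Measure.count : Measure P).map Sum.inr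

/-- The function attached to `x` on the disjoint union. -/
def Sys.v (s : Sys Z P X T) (x : X) : Z ⊕ P → ℝ≥0∞ :=
  Sum.elim (s.a x) fun p => ENNReal.ofReal (s.σ x p)

/-- The elements of `S` with small oscillation on the cells. -/
def Sys.cut (s : Sys Z P X T) (S : Set X) (F : Finset P) (m n : ℕ) (e : ℝ) : Set X :=
  {x | x ∈ S ∧ (∀ p ∈ F, s.o (s.c m p) x ≤ s.σ x p + e) ∧
    ∀ q, (∀ p ∈ F, s.c m q ≠ s.c m p) → s.o (s.c n q) x ≤ e}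

/-- The standing hypotheses. -/
structure Sys.Ok [AddCommGroup X] [Module ℝ X] (s : Sys Z P X T) (S : Set X) : Prop where
  cel : Cel s.c
  cvx : Convex ℝ S
  ma : ∀ x, Measurable (s.a x)
  ca : Cvx s.ν s.a S
  cσ : ∀ (x x' : X) (t t' : ℝ) (p : P), s.σ (t • x + t' • x') p = t * s.σ x p + t' * s.σ x' p
  co : ∀ W, ConvexOn ℝ S (s.o W)
  bσ : ∀ x ∈ S, ∀ p, 0 ≤ s.σ x p ∧ s.σ x p ≤ 1
  cnt : ∀ x ∈ S, (Function.support (s.σ x)).Countable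
  anti : ∀ x ∈ S, ∀ n n' p, n ≤ n' → s.o (s.c n' p) x ≤ s.o (s.c n p) x
  lim : ∀ x ∈ S, ∀ p, ∀ ε > 0, ∃ n, s.o (s.c n p) x ≤ s.σ x p + ε

theorem emb_inl : MeasurableEmbedding (Sum.inl : Z → Z ⊕ P) :=
  ⟨Sum.inl_injective, measurable_inl, fun _ h => h.inl_image⟩

theorem emb_inr : MeasurableEmbedding (Sum.inr : P → Z ⊕ P) :=
  ⟨Sum.inr_injective, measurable_inr, fun _ h => h.inr_image⟩

theorem Sys.lint [DiscreteMeasurableSpace P] (s : Sys Z P X T) (f : Z ⊕ P → ℝ≥0∞) :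
    ∫⁻ z, f z ∂s.μ = (∫⁻ z, f (Sum.inl z) ∂s.ν) + ∑' p, f (Sum.inr p) := by
  rw [Sys.μ, lintegral_add_measure, emb_inl.lintegral_map,
    emb_inr.lintegral_map, lintegral_count]

theorem Sys.lintF [DiscreteMeasurableSpace P] (s : Sys Z P X T) (A : Set Z) (hA : MeasurableSet A)
    (G : Set P) (f : Z ⊕ P → ℝ≥0∞) :
    ∫⁻ z in Sum.inl '' A ∪ Sum.inr '' G, f z ∂s.μ =
      (∫⁻ z in A, f (Sum.inl z) ∂s.ν) + ∑' p, G.indicator (fun p => f (Sum.inr p)) p := by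
  rw [← lintegral_indicator (hA.inl_image.union (MeasurableSet.of_discrete (s := G)).inr_image),
    s.lint, ← lintegral_indicator hA]
  refine congrArg₂ _ (lintegral_congr fun z => ?_) (tsum_congr fun p => ?_)
  · by_cases h : z ∈ A <;> simp [indicator, h]
  · by_cases h : p ∈ G <;> simp [indicator, h]

theorem meas_elim [DiscreteMeasurableSpace P] {g : Z → ℝ≥0∞} (hg : Measurable g)
    (w : P → ℝ≥0∞) : Measurable (Sum.elim g w) :=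
  hg.sumElim Measurable.of_discrete

theorem Sys.ae [DiscreteMeasurableSpace P] (s : Sys Z P X T) {Q : Z ⊕ P → Prop}
    (h1 : ∀ᵐ z ∂s.ν, Q (Sum.inl z)) (h2 : ∀ p, Q (Sum.inr p)) : ∀ᵐ z ∂s.μ, Q z := by
  rw [Sys.μ, ae_add_measure_iff, emb_inl.ae_map_iff,
    emb_inr.ae_map_iff]
  exact ⟨h1, ae_of_all _ h2⟩

variable [AddCommGroup X] [Module ℝ X]

theorem Sys.Ok.mv [DiscreteMeasurableSpace P] {s : Sys Z P X T} {S : Set X} (h : s.Ok S) (x : X) :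
    Measurable (s.v x) := meas_elim (h.ma x) _

theorem Sys.Ok.cv [DiscreteMeasurableSpace P] {s : Sys Z P X T} {S : Set X} (h : s.Ok S) :
    Cvx s.μ s.v S := fun x hx x' hx' t t' h0 h0' h1 =>
  s.ae (h.ca x hx x' hx' t t' h0 h0' h1) fun p => by
    simp only [Sys.v, Sum.elim_inr]
    rw [h.cσ, ← ENNReal.ofReal_mul h0, ← ENNReal.ofReal_mul h0']
    exact ENNReal.ofReal_add_le

omit [MeasurableSpace P] in
theorem Sys.Ok.sub {s : Sys Z P X T} {S S' : Set X} (h : s.Ok S) (hc : Convex ℝ S')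
    (hs : S' ⊆ S) : s.Ok S' :=
  ⟨h.cel, hc, h.ma, fun x hx x' hx' => h.ca x (hs hx) x' (hs hx'), h.cσ,
    fun W => (h.co W).subset hs hc, fun x hx => h.bσ x (hs hx), fun x hx => h.cnt x (hs hx),
    fun x hx => h.anti x (hs hx), fun x hx => h.lim x (hs hx)⟩

omit [MeasurableSpace P] in
theorem Sys.Ok.cut {s : Sys Z P X T} {S : Set X} (h : s.Ok S) (F : Finset P) (m n : ℕ) (e : ℝ) :
    s.Ok (s.cut S F m n e) := by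
  refine h.sub ?_ fun x hx => hx.1
  intro x hx x' hx' t t' h0 h0' h1
  have key : ∀ W, s.o W (t • x + t' • x') ≤ t * s.o W x + t' * s.o W x' := fun W =>
    (h.co W).2 hx.1 hx'.1 h0 h0' h1
  have he : e = t * e + t' * e := by rw [← add_mul, h1, one_mul]
  refine ⟨h.cvx hx.1 hx'.1 h0 h0' h1, fun p hp => ?_, fun q hq => ?_⟩
  · have a := mul_le_mul_of_nonneg_left (hx.2.1 p hp) h0
    have b := mul_le_mul_of_nonneg_left (hx'.2.1 p hp) h0'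
    have := key (s.c m p)
    rw [h.cσ]; linarith
  · have a := mul_le_mul_of_nonneg_left (hx.2.2 q hq) h0
    have b := mul_le_mul_of_nonneg_left (hx'.2.2 q hq) h0'
    have := key (s.c n q)
    linarith

end sys

/-- Mazur and Fuglede. -/
def S_DF : Prop :=
  ∀ (Z X : Type) [MeasurableSpace Z] (μ : Measure Z) (v : X → Z → ℝ≥0∞) (y : ℕ → Z → ℝ≥0∞)
    (T : ℕ → Set X) (T' : Set X) (c B : ℝ≥0∞), (∀ x, Measurable (v x)) → B < ∞ →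
    (∀ k, Measurable (y k) ∧ ∫⁻ z, y k z ^ 2 ∂μ ≤ B ∧ QE μ v (T k) (y k) c) →
    (∀ x ∈ T', ∀ᶠ k in atTop, x ∈ T k) →
    ∃ y' : Z → ℝ≥0∞, Measurable y' ∧ QE μ v T' y' c ∧ ∀ (A : Set Z) (b : ℝ≥0∞), MeasurableSet A →
      (∀ᶠ k in atTop, ∫⁻ z in A, y k z ^ 2 ∂μ ≤ b) → ∫⁻ z in A, y' z ^ 2 ∂μ ≤ b

/-- Finite minimax. -/
def S_DMm : Prop :=
  ∀ (X ι : Type) [AddCommGroup X] [Module ℝ X] (T : Set X) (J : Finset ι) (f : ι → X → ℝ),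
    J.Nonempty → (∀ i ∈ J, ConvexOn ℝ T (f i)) → (∀ x ∈ T, ∃ i ∈ J, 0 ≤ f i x) →
    ∃ l : ι → ℝ, (∀ i, 0 ≤ l i) ∧ ∑ i ∈ J, l i = 1 ∧ ∀ x ∈ T, 0 ≤ ∑ i ∈ J, l i * f i x

/-- Limits of finite measures on cells. -/
def S_DN : Prop :=
  ∀ (P T : Type) (c : ℕ → P → T) (J : ℕ → Finset P) (β : ℕ → P → ℝ) (M : ℝ), Cel c →
    (∀ n q, 0 ≤ β n q) → (∀ n, ∑ q ∈ J n, β n q ≤ M) →
    ∃ (φ : ℕ → ℕ) (w : P → ℝ), StrictMono φ ∧ (∀ p, 0 ≤ w p) ∧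
      (∀ G : Finset P, ∑ p ∈ G, w p ≤ M) ∧
      (∀ p m, (∀ n, ∀ q ∈ J n, c m q ≠ c m p) → w p = 0) ∧
      ∀ (o : T → ℝ) (σ : P → ℝ) (δ : ℝ), 0 < δ → (∀ p, 0 ≤ σ p ∧ σ p ≤ 1) →
        (Function.support σ).Countable → (∀ n n' p, n ≤ n' → o (c n' p) ≤ o (c n p)) →
        (∀ p, ∀ ε > 0, ∃ n, o (c n p) ≤ σ p + ε) →
        ∀ᶠ n in atTop, ∑ q ∈ J (φ n), β (φ n) q * o (c (φ n) q) ≤ (∑' p, w p * σ p) + δ

/-- An admissible weight of norm one contradicts the duality bound. -/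
def S_DQe : Prop :=
  ∀ (Z X : Type) [MeasurableSpace Z] (μ : Measure Z) (v : X → Z → ℝ≥0∞) (S : Set X)
    (y : Z → ℝ≥0∞) (C e : ℝ≥0), (∀ x, Measurable (v x)) → DP μ v S C → 0 < e → Measurable y →
    ∫⁻ z, y z ^ 2 ∂μ ≤ 1 → ¬QE μ v S y (C + e)

/-- An element of bounded energy. -/
def S_DDu : Prop :=
  ∀ (Z X : Type) [MeasurableSpace Z] [AddCommGroup X] [Module ℝ X] (μ : Measure Z)
    (v : X → Z → ℝ≥0∞) (S : Set X) (A : Set Z) (C : ℝ≥0), Convex ℝ S → (∀ x, Measurable (v x)) →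
    Cvx μ v S → MeasurableSet A → (∀ x ∈ S, ∫⁻ z in A, v x z ^ 2 ∂μ < ∞) → DP μ v S C →
    ∃ x ∈ S, ∫⁻ z in A, v x z ^ 2 ∂μ ≤ (C + 1) ^ 2

/-- The two inner limits of the step. -/
def S_DS1 : Prop :=
  ∀ (Z P X T : Type) [MeasurableSpace Z] [MeasurableSpace P] [DiscreteMeasurableSpace P]
    [AddCommGroup X] [Module ℝ X] (s : Sys Z P X T) (S : Set X) (C e : ℝ≥0) (F : Finset P)
    (i : ℕ), s.Ok S → 0 < e → (∀ m n, i ≤ m → ¬DP s.μ s.v (s.cut S F m n e) (C + e)) →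
    ∃ y : Z ⊕ P → ℝ≥0∞, Measurable y ∧ QE s.μ s.v S y (C + e / 2) ∧
      ∫⁻ z, y z ^ 2 ∂s.μ ≤ 2 + 2 * (((C + e) / e : ℝ≥0) : ℝ≥0∞) ^ 2 ∧
      ∫⁻ z in Sum.inl '' univ ∪ Sum.inr '' (↑F : Set P), y z ^ 2 ∂s.μ ≤ 1

/-- The step. -/
def S_DStep : Prop :=
  ∀ (Z P X T : Type) [MeasurableSpace Z] [MeasurableSpace P] [DiscreteMeasurableSpace P]
    [AddCommGroup X] [Module ℝ X] (s : Sys Z P X T) (S : Set X) (C e : ℝ≥0) (F₀ : Finset P)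
    (i : ℕ), s.Ok S → DP s.μ s.v S C → 0 < e →
    ∃ F m n, F₀ ⊆ F ∧ i ≤ m ∧ DP s.μ s.v (s.cut S F m n e) (C + e)

/-- The iteration. -/
def S_DProc : Prop :=
  ∀ (Z P X T : Type) [MeasurableSpace Z] [MeasurableSpace P] [DiscreteMeasurableSpace P]
    [AddCommGroup X] [Module ℝ X] (s : Sys Z P X T) (S : Set X) (C : ℝ≥0) (A : ℕ → Set Z),
    s.Ok S → DP s.μ s.v S C → (∀ k, MeasurableSet (A k)) →
    (∀ k, ∀ x ∈ S, ∫⁻ z in A k, s.a x z ^ 2 ∂s.ν < ∞) →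
    ∃ (x : ℕ → X) (F : ℕ → Finset P) (m n : ℕ → ℕ) (B : ℝ≥0), Monotone F ∧ (∀ i, i ≤ m i) ∧
      ∀ k, ∫⁻ z in A k, s.a (x k) z ^ 2 ∂s.ν ≤ B ∧ ∑ p ∈ F k, s.σ (x k) p ^ 2 ≤ B ∧
        ∀ i ≤ k, x k ∈ s.cut S (F i) (m i) (n i) ((1 / 2) ^ i)

/-- Cells around the components. -/
structure Cells (K : Set ℂ) (V : ℕ → Cmp K → Set ℂ) : Prop where
  cel : Cel V
  op : ∀ n p, IsOpen (V n p) ∧ p.1 ⊆ V n p
  anti : ∀ n n' p, n ≤ n' → V n' p ⊆ V n p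
  small : ∀ (p : Cmp K) (U : Set ℂ), IsOpen U → p.1 ⊆ U → ∃ n, V n p ⊆ U

def S_DCell : Prop := ∀ K : Set ℂ, IsCompact K → ∃ V, Cells K V

/-- The oscillation on `W \ K`. -/
def osc (K W : Set ℂ) (θ : ℂ → ℝ) : ℝ := sSup {t | ∃ z ∈ W \ K, ∃ w ∈ W \ K, t = θ z - θ w}

/-- The concrete data. -/
def sys (K Ω : Set ℂ) (V : ℕ → Cmp K → Set ℂ) :
    Sys ℂ (Cmp K) ((ℂ → ℝ) × (Cmp K → ℝ)) (Set ℂ) :=
  ⟨volume.restrict Ω, fun x z => ‖gr x.1 z‖ₑ, fun x => x.2, V, fun W x => osc K W x.1⟩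

/-- The hypotheses on the family. -/
def Fam (K : Set ℂ) (𝒮 : Set ((ℂ → ℝ) × (Cmp K → ℝ))) (L : ℂ → ℝ≥0) (rad : ℂ → ℝ) : Prop :=
  (∀ z ∉ K, 0 < rad z) ∧
    ∀ x ∈ 𝒮, (∀ z, 0 ≤ x.1 z ∧ x.1 z ≤ 1) ∧ (∀ p, 0 ≤ x.2 p ∧ x.2 p ≤ 1) ∧
      (Function.support x.2).Countable ∧ (∀ p : Cmp K, Osc K p.1 x.1 (x.2 p)) ∧
      ULip Kᶜ L rad x.1

/-- The concrete data satisfy the hypotheses. -/
def S_DSys : Prop :=
  ∀ (K Ω : Set ℂ) (𝒮 : Set ((ℂ → ℝ) × (Cmp K → ℝ))) (L : ℂ → ℝ≥0) (rad : ℂ → ℝ) (C : ℝ≥0)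
    (V : ℕ → Cmp K → Set ℂ) [MeasurableSpace (Cmp K)] [DiscreteMeasurableSpace (Cmp K)],
    IsCompact K → IsOpen Ω → Ω ⊆ Kᶜ → Convex ℝ 𝒮 → Fam K 𝒮 L rad → Cells K V →
    (∀ (g : ℂ → ℝ≥0∞) (s : Cmp K → ℝ) (ε : ℝ≥0), Measurable g → Sq s → nq K Ω g s ≤ 1 → 0 < ε →
      ∃ x ∈ 𝒮, pg K Ω g s x ≤ C + ε) →
    (sys K Ω V).Ok 𝒮 ∧ DP (sys K Ω V).μ (sys K Ω V).v 𝒮 C ∧
      (∀ x ∈ 𝒮, ∀ (W : Set ℂ), ∀ z ∈ W \ K, ∀ w ∈ W \ K, x.1 z - x.1 w ≤ osc K W x.1) ∧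
      ∀ (θ : ℂ → ℝ) (A : Set ℂ), LocallyLipschitzOn Kᶜ θ → IsCompact A → A ⊆ Kᶜ →
        ∫⁻ z in A, ‖gr θ z‖ₑ ^ 2 < ∞

/-- A convergent subsequence. -/
def S_DSub : Prop :=
  ∀ (P : Type) (U : Set ℂ) (E : Set P) (L : ℂ → ℝ≥0) (rad : ℂ → ℝ) (ζ : ℕ → ℂ → ℝ)
    (σ : ℕ → P → ℝ), IsOpen U → E.Countable → (∀ z ∈ U, 0 < rad z) →
    (∀ k, (∀ z, 0 ≤ ζ k z ∧ ζ k z ≤ 1) ∧ (∀ p, 0 ≤ σ k p ∧ σ k p ≤ 1) ∧ ULip U L rad (ζ k)) →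
    ∃ (φ : ℕ → ℕ) (ζ₀ : ℂ → ℝ) (σ₀ : P → ℝ), StrictMono φ ∧
      (∀ z ∈ U, Tendsto (fun k => ζ (φ k) z) atTop (𝓝 (ζ₀ z))) ∧
      (∀ p ∈ E, Tendsto (fun k => σ (φ k) p) atTop (𝓝 (σ₀ p))) ∧ ∀ p ∉ E, σ₀ p = 0

end Vale.Agent.P116
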