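import Vale.Agent.P116.EStm

/-! Part E: the strong form of the approximation. -/

open Set Filter Topology MeasureTheory Metric Complex
open scoped ENNReal NNReal ComplexConjugate

noncomputable section
namespace Vale.Agent.P116.E

open Classical in
theorem s_appr (L : Lib) (hi : S_ip) (hb : S_bas) (hp : S_poin) : S_appr := by
  intro K T ψ U W ρ hK hψ hU hψU hW hWU hT hρ hcl
  refine ⟨hψ, hρ, fun ε hε => ?_⟩
  have hc := hK.cpt.isClosed
  have hG := hc.isOpen_compl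
  have hKK := L.cmp.clo_self K hc
  obtain ⟨χ, hχ, hs⟩ := L.cut K K (thickening ε K) hK.cpt hKK isOpen_thickening
    (self_subset_thickening hε K)
  obtain ⟨c1, c2, -⟩ := L.omC.cutsup K K χ hK.cpt hKK hχ
  have c3 : tsupport (gr χ) ⊆ Kᶜ := c2.subset_compl_right
  obtain ⟨N, hN⟩ := (hχ.1.continuous_fderiv (by norm_num)).bounded_above_of_compact_support
    (hχ.2.1.fderiv ℝ)
  obtain ⟨M, hM, hP⟩ := hp Kᶜ _ hG hK.con c1 c3
  obtain ⟨δ, hδ, hδ'⟩ : ∃ δ > 0, δ * (2 + 2 * N ^ 2 * M) = ε :=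
    ⟨ε / (2 + 2 * N ^ 2 * M), by positivity, div_mul_cancel₀ _ (by positivity)⟩
  obtain ⟨θ, s, ⟨g1, g2, g3⟩, h1, h2⟩ := hcl δ hδ
  have a0 := L.adm.sub K θ U hc g1.1 hU
  have e0 : ∀ᵐ z, z ∉ K → (gr θ - W) z = gr (θ - U) z := by
    filter_upwards [L.adm.dif Kᶜ θ hG g1.1.1, L.adm.dif Kᶜ U hG hU.1, hWU] with z z1 z2 z3 hz
    rw [(hi.gadd θ U z (z1 hz) (z2 hz)).2, Pi.sub_apply, z3 hz]
  have i0 := (hi.lgr K _).1 (hi.lcongr K _ _ hc (MemLp.sub (hb.l2 K θ hc g1) hW) e0)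
  have e1 : ∫ z in Kᶜ, ‖gr (θ - U) z‖ ^ 2 ≤ δ := by
    refine le_trans (le_of_eq (setIntegral_congr_ae hG.measurableSet ?_)) h1
    filter_upwards [e0] with z h hz
    rw [← h hz, Pi.sub_apply]
  obtain ⟨k, hk⟩ := hP _ a0.1 i0
  have a1 : Adm K fun z => (θ - U) z - k :=
    L.adm.sub K _ (fun _ => k) hc a0 (L.adm.c1 K _ hc contDiff_const)
  obtain ⟨b1, -, b2⟩ := L.omC.cuten K K χ _ hK.cpt hKK hχ a1
  have b3 : en (tsupport χ \ K) (fun z => (θ - U) z - k) ≤ δ := by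
    rw [en, hi.gconst]
    exact (setIntegral_mono_set i0 (Eventually.of_forall fun z => sq_nonneg _)
      (LE.le.eventuallyLE fun z hz => hz.2)).trans e1
  have b4 : ∫ z in Kᶜ, ((θ - U) z - k) ^ 2 * ‖gr χ z‖ ^ 2 ≤ N ^ 2 * (M * δ) := by
    rw [setIntegral_eq_of_subset_of_forall_sdiff_eq_zero hG.measurableSet c3 fun z hz => by
      rw [image_eq_zero_of_notMem_tsupport hz.2, norm_zero, zero_pow two_ne_zero, mul_zero]]
    refine (setIntegral_mono_on (b1.mono_set c3) (g := fun z => N ^ 2 * ((θ - U) z - k) ^ 2)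
      ((continuousOn_const.mul ((a1.1.continuousOn.mono c3).pow 2)).integrableOn_compact c1)
      c1.measurableSet fun z _ => ?_).trans ?_
    · rw [mul_comm, L.adm.nrm]
      exact mul_le_mul_of_nonneg_right (pow_le_pow_left₀ (norm_nonneg _) (hN z) 2) (sq_nonneg _)
    · rw [integral_const_mul]
      exact mul_le_mul_of_nonneg_left (hk.trans (mul_le_mul_of_nonneg_left e1 hM)) (sq_nonneg _)
  obtain ⟨W₀, w1, w2, w3⟩ := eventually_nhdsSet_iff_exists.1 (hχ.2.2.2.1.and hψU)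
  refine ⟨ψ + fun z => χ z * ((θ - U) z - k), fun p => if p.1 ⊆ T then s p else 0,
    ⟨L.adm.add K _ _ hc hψ (L.adm.cut K K χ _ hK.cpt hKK hχ a1), ⟨fun p => ?_, ?_⟩,
      fun p hp η hη => ?_⟩, fun z hz => ?_, ?_, ?_⟩
  · beta_reduce
    split_ifs with h
    · exact (g3 p h).1
    · exact le_rfl
  · refine g2.of_nonneg_of_le (fun p => sq_nonneg _) fun p => ?_
    beta_reduce
    split_ifs
    · exact le_rfl
    · simpa using sq_nonneg (s p)
  · obtain ⟨V, v1, v2, v3⟩ := (g3 p hp).2 η hη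
    refine ⟨V ∩ W₀, v1.inter w1, subset_inter v2 ((hp.trans hT).trans w2), fun z hz w hw => ?_⟩
    have h3 := v3 z ⟨hz.1.1, hz.2⟩ w ⟨hw.1.1, hw.2⟩
    simp only [Pi.add_apply, Pi.sub_apply, if_pos hp, (w3 z hz.1.2).1, (w3 z hz.1.2).2,
      (w3 w hw.1.2).1, (w3 w hw.1.2).2]
    linarith
  · rw [Pi.add_apply, image_eq_zero_of_notMem_tsupport fun h => hz (hs h), zero_mul, add_zero]
  · rw [add_sub_cancel_left]
    linarith
  · refine le_trans (le_of_eq (tsum_congr fun p => ?_)) ((L.sm.mono2 K T K _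
      (L.sm.sqadd K s ρ g2 hρ.2).2 hT).trans (h2.trans ?_))
    · split_ifs with h
      · simp only [Pi.sub_apply, if_pos h]
      · rfl
    · nlinarith [mul_nonneg (sq_nonneg N) hM]

end Vale.Agent.P116.E
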