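import Vale.Agent.P116.EStm

/-! Test functions. -/

open Set Filter Topology MeasureTheory Metric Complex
open scoped ENNReal NNReal ComplexConjugate

noncomputable section
namespace Vale.Agent.P116.E

namespace EBas

theorem far {χ : ℂ → ℝ} (hs : HasCompactSupport χ) : ∃ R : ℝ, ∀ z, R ≤ ‖z‖ → χ z = 0 := by
  obtain ⟨R, hR⟩ := hs.isCompact.isBounded.subset_ball 0
  refine ⟨R, fun z hz => image_eq_zero_of_notMem_tsupport fun h => ?_⟩
  have := hR h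
  rw [mem_ball_zero_iff] at this
  linarith

theorem locc {K T : Set ℂ} {θ : ℂ → ℝ} (h : Tst K θ) (hl : LocC K T θ) : Gd K T θ 0 := by
  refine ⟨h, by simp, fun p hp => ⟨le_rfl, fun ε hε => ?_⟩⟩
  obtain ⟨U, c, hU, hpU, hc⟩ := hl p hp
  refine ⟨U, hU, hpU, fun z hz w hw => ?_⟩
  rw [hc z hz, hc w hw]
  simp [hε.le]

theorem t0 (L : Lib) {K : Set ℂ} (T : Set ℂ) {χ : ℂ → ℝ} (hK : IsCompact K) (h : T0 K χ) :
    Tst K χ ∧ LocC K T χ := by
  refine ⟨⟨L.adm.c1 K χ hK.isClosed (h.1.of_le (by norm_num)), far h.2.1⟩, fun p _ => ?_⟩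
  obtain ⟨x, hx⟩ := L.cmp.ne K p
  have hO : IsOpen (tsupport (gr χ))ᶜ := (isClosed_tsupport _).isOpen_compl
  have hp : p.1 ⊆ (tsupport (gr χ))ᶜ := fun z hz h' => h.2.2 h' (L.cmp.sub K p hz)
  have hU : IsOpen (connectedComponentIn (tsupport (gr χ))ᶜ x) := hO.connectedComponentIn
  have hd : Differentiable ℝ χ := h.1.differentiable (by norm_num)
  obtain ⟨c, hc⟩ := hU.exists_is_const_of_fderiv_eq_zero (𝕜 := ℝ) isPreconnected_connectedComponentIn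
    hd.differentiableOn (fun z hz => by
      have h0 : gr χ z = 0 := image_eq_zero_of_notMem_tsupport (connectedComponentIn_subset _ _ hz)
      have h1 := L.adm.nrm χ z
      rw [h0, norm_zero] at h1
      exact norm_eq_zero.1 h1.symm)
  exact ⟨_, c, hU, (L.cmp.con K p).subset_connectedComponentIn hx hp, fun z hz => hc z hz.1⟩

theorem zero (L : Lib) (hi : S_ip) {K A B : Set ℂ} {a b : ℂ → ℝ} (hK : IsCompact K)
    (hP : Par K A B) (ha : Tst K a) (hA : LocC K A a) (hb : Adm K b) (hB : LocC K B b) :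
    ip K (rot (gr a)) (gr b) = 0 := by
  obtain ⟨R, hR⟩ := ha.2
  rw [hi.wd, ← L.omA.self K K a b R hK (L.cmp.clo_self K hK.isClosed) ha.1 hb hR (by simp)]
  have h1 := L.omB.union K A B a b hK hP.a hP.b hP.dis ha.1 hb
  rw [hP.un] at h1
  rw [h1, L.omB.locc K A a b hK hP.a ha.1 hb hA, L.omB.anti K B a b hK hP.b ha.1 hb,
    L.omB.locc K B b a hK hP.b hb ha.1 hB]
  simp

theorem osc_smul {K p : Set ℂ} {a : ℂ → ℝ} {s t : ℝ} (ht : 0 ≤ t) (h : Osc K p a s) :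
    Osc K p (t • a) (t * s) := by
  intro ε hε
  obtain ⟨U, hU, hp, hz⟩ := h (ε / (t + 1)) (by positivity)
  refine ⟨U, hU, hp, fun z hz1 w hw => ?_⟩
  have h1 := mul_le_mul_of_nonneg_left (hz z hz1 w hw) ht
  have h2 : t * (ε / (t + 1)) ≤ ε := by
    rw [← mul_div_assoc, div_le_iff₀ (by positivity)]
    nlinarith
  simp only [Pi.smul_apply, smul_eq_mul]
  nlinarith

theorem osc_neg {K p : Set ℂ} {a : ℂ → ℝ} {s : ℝ} (h : Osc K p a s) : Osc K p (-a) s := by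
  intro ε hε
  obtain ⟨U, hU, hp, hz⟩ := h ε hε
  refine ⟨U, hU, hp, fun z hz1 w hw => ?_⟩
  have := hz w hw z hz1
  simp only [Pi.neg_apply]
  linarith

theorem tst_smul (L : Lib) {K : Set ℂ} {a : ℂ → ℝ} (t : ℝ) (hK : IsClosed K) (h : Tst K a) :
    Tst K (t • a) := by
  obtain ⟨R, hR⟩ := h.2
  exact ⟨L.adm.smul K t a hK h.1, R, fun z hz => by simp [hR z hz]⟩

end EBas

open EBas in
theorem s_bas (L : Lib) (hi : S_ip) : S_bas where
  l2 K θ hK h := by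
    obtain ⟨R, hR⟩ := h.2
    exact (hi.lgr K θ).2 (L.adm.glob K θ R hK h.1 hR)
  t0 K T χ hK h := ⟨locc (t0 L T hK h).1 (t0 L T hK h).2, (t0 L T hK h).2⟩
  locc K T θ h hl := locc h hl
  cut K A B χ a hK hP hχ ha := by
    obtain ⟨R, hR⟩ := far hχ.2.1
    refine ⟨⟨L.adm.cut K A χ a hK hP.a hχ ha, R, fun z hz => by simp [hR z hz]⟩, fun p hp => ?_,
      fun p t hp ho ε hε => ?_⟩
    · obtain ⟨U, hU, hBU, h0⟩ := eventually_nhdsSet_iff_exists.1 hχ.2.2.2.2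
      rw [hP.ab] at hBU
      exact ⟨U, 0, hU, hp.trans hBU, fun z hz => by simp [h0 z hz.1]⟩
    · obtain ⟨U, hU, hAU, h1⟩ := eventually_nhdsSet_iff_exists.1 hχ.2.2.2.1
      obtain ⟨V, hV, hpV, hz⟩ := ho ε hε
      refine ⟨U ∩ V, hU.inter hV, subset_inter (hp.trans hAU) hpV, fun z hz1 w hw => ?_⟩
      simp only [h1 z hz1.1.1, h1 w hw.1.1, one_mul]
      exact hz z ⟨hz1.1.2, hz1.2⟩ w ⟨hw.1.2, hw.2⟩
  zero K A B a b hK hP ha hA hb hB := zero L hi hK hP ha hA hb hB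
  zero1 K χ b hK h hb := by
    have hP : Par K K ∅ :=
      ⟨L.cmp.clo_self K hK.isClosed, L.cmp.clo_empty K hK.isClosed, Set.sdiff_self, Set.sdiff_empty⟩
    have h0 := zero L hi hK hP (t0 L K hK h).1 (t0 L K hK h).2 hb (fun p hp => by
      obtain ⟨x, hx⟩ := L.cmp.ne K p
      exact (hp hx).elim)
    refine ⟨h0, ?_⟩
    rw [hi.skew] at h0
    linarith
  gz K T hK := by
    have hl : LocC K T 0 := fun p _ => ⟨univ, 0, isOpen_univ, subset_univ _, fun _ _ => rfl⟩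
    refine ⟨locc ⟨L.adm.c1 K 0 hK contDiff_const, 0, fun _ _ => rfl⟩ hl, hl, ?_⟩
    have := hi.gsmul 0 0
    simpa using this
  gneg K T θ s hK h := by
    refine ⟨?_, h.2.1, fun p hp => ⟨(h.2.2 p hp).1, osc_neg (h.2.2 p hp).2⟩⟩
    have := tst_smul L (-1) hK h.1
    simpa using this
  lneg K T θ h p hp := by
    obtain ⟨U, c, hU, hpU, hc⟩ := h p hp
    exact ⟨U, -c, hU, hpU, fun z hz => by simp [hc z hz]⟩
  gadd K T a b s t hK ha hb := by
    obtain ⟨R, hR⟩ := ha.1.2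
    obtain ⟨R', hR'⟩ := hb.1.2
    refine ⟨⟨⟨L.adm.add K a b hK ha.1.1 hb.1.1, max R R', fun z hz => ?_⟩,
      (L.sm.sqadd K s t ha.2.1 hb.2.1).1, fun p hp => ⟨add_nonneg (ha.2.2 p hp).1 (hb.2.2 p hp).1,
        (L.comp.oadd K p.1 a b _ _ (ha.2.2 p hp).2 (hb.2.2 p hp).2).1⟩⟩, ?_⟩
    · simp [hR z ((le_max_left _ _).trans hz), hR' z ((le_max_right _ _).trans hz)]
    · filter_upwards [L.adm.dif Kᶜ a hK.isOpen_compl ha.1.1.1,
        L.adm.dif Kᶜ b hK.isOpen_compl hb.1.1.1] with z h1 h2 hz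
      exact (hi.gadd a b z (h1 hz) (h2 hz)).1
  gsmul K T t a s hK ht h := by
    refine ⟨tst_smul L t hK h.1, ?_, fun p hp => ⟨mul_nonneg ht (h.2.2 p hp).1,
      osc_smul ht (h.2.2 p hp).2⟩⟩
    simpa [mul_pow] using h.2.1.mul_left (t ^ 2)

end Vale.Agent.P116.E
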