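import Vale.Agent.P116.EStm

/-! Orthogonal projection of fields. -/

open Set Filter Topology MeasureTheory Metric Complex
open scoped ENNReal NNReal ComplexConjugate

noncomputable section
namespace Vale.Agent.P116.E

namespace EDec

theorem inner_eq {K : Set ℂ} (x y : Lp ℂ 2 (volume.restrict Kᶜ : Measure ℂ)) {W Z : ℂ → ℂ}
    (hx : (x : ℂ → ℂ) =ᵐ[volume.restrict Kᶜ] W) (hy : (y : ℂ → ℂ) =ᵐ[volume.restrict Kᶜ] Z) :
    inner ℝ x y = ip K W Z := by
  rw [L2.inner_def, ip]
  refine integral_congr_ae ?_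
  filter_upwards [hx, hy] with z h1 h2
  rw [h1, h2]

end EDec

open EDec in
theorem s_dec : S_dec := by
  intro K S Z hS hZ
  let T : Set (Lp ℂ 2 (volume.restrict Kᶜ : Measure ℂ)) :=
    {x | ∃ g, ∃ hg : g ∈ S, x = MemLp.toLp g (hS g hg)}
  let P : Submodule ℝ (Lp ℂ 2 (volume.restrict Kᶜ : Measure ℂ)) := (Submodule.span ℝ T)ᗮ
  let y := P.starProjection (MemLp.toLp Z hZ)
  have hy : y ∈ P := P.starProjection_apply_mem _
  refine ⟨y, Lp.memLp y, fun g hg => ?_, fun W hW hWS => ?_⟩
  · rw [← inner_eq (MemLp.toLp g (hS g hg)) y (MemLp.coeFn_toLp _) (EventuallyEq.refl _ _)]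
    exact (Submodule.mem_orthogonal _ _).1 hy _ (Submodule.subset_span ⟨g, hg, rfl⟩)
  · have hWP : MemLp.toLp W hW ∈ P := by
      refine (Submodule.mem_orthogonal _ _).2 fun u hu => ?_
      induction hu using Submodule.span_induction with
      | mem x hx =>
        obtain ⟨g, hg, rfl⟩ := hx
        exact (inner_eq _ _ (MemLp.coeFn_toLp (hS g hg)) (MemLp.coeFn_toLp hW)).trans (hWS g hg)
      | zero => simp
      | add x y _ _ hx hy => rw [inner_add_left, hx, hy, add_zero]
      | smul a x _ hx => rw [real_inner_smul_left, hx, mul_zero]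
    rw [← inner_eq (MemLp.toLp W hW) y (MemLp.coeFn_toLp _) (EventuallyEq.refl _ _),
      ← inner_eq (MemLp.toLp W hW) (MemLp.toLp Z hZ) (MemLp.coeFn_toLp _) (MemLp.coeFn_toLp _)]
    have h0 := (Submodule.mem_orthogonal _ _).1
      (P.sub_starProjection_mem_orthogonal (MemLp.toLp Z hZ)) _ hWP
    rw [inner_sub_right] at h0
    linarith

end Vale.Agent.P116.E
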