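import Vale.Agent.P116.EStm

/-! Part E: the dual condition. -/

open Set Filter Topology MeasureTheory Metric Complex
open scoped ENNReal NNReal ComplexConjugate

noncomputable section
namespace Vale.Agent.P116.E

theorem s_dstar (L : Lib) (hi : S_ip) (hb : S_bas) : S_dstar := by
  intro K A B ψ U W ρ hK hP hψ hU hψU hW hρ hD
  refine ⟨hψ, hρ, fun θ s hg => ?_⟩
  obtain ⟨χ, hχ, -⟩ := L.cut K A univ hK hP.a isOpen_univ (subset_univ _)
  obtain ⟨h1, h2, h3⟩ := hb.cut K A B χ θ hK hP hχ hg.1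
  have h4 := hD _ s ⟨h1, hg.2.1.2, fun p hp => ⟨hg.2.1.1 p, h3 p _ hp (hg.2.2 p hp)⟩⟩ h2
  rwa [hi.congr K _ W _ (gr U) hK.isClosed (Eventually.of_forall fun _ _ => rfl) hW, hi.wd,
    ← omc, ← (L.omA.ind K A χ θ U hK hP.a hχ hg.1 hU).2,
    ← L.omA.congr K A θ ψ θ U hK hP.a hg.1 hψ hg.1 hU
      ((hψU.filter_mono (nhdsSet_mono hP.a.1)).mono fun z hz _ => ⟨rfl, hz⟩)] at h4

end Vale.Agent.P116.E
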