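import Vale.Agent.P116.EStm

/-! Part E: from the pair of fields to the holomorphic function. -/

open Set Filter Topology MeasureTheory Metric Complex
open scoped ENNReal NNReal ComplexConjugate

noncomputable section
namespace Vale.Agent.P116.E

theorem glue (L : Lib) (hi : S_ip) (hb : S_bas) (hH : S_hilb) (hh : S_harm) (ha : S_appr)
    (hs : S_dstar) : S_ex := by
  intro K A z₀ c hB hA
  have hK := hB.cpt
  have hc := hK.isClosed
  have hP : Par K A (K \ A) := ⟨hA, L.cmp.clo_compl K A hA, rfl, sdiff_sdiff_eq_self hA.1⟩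
  have hKK := L.cmp.clo_self K hc
  have hP0 : Par K K ∅ := ⟨hKK, L.cmp.clo_empty K hc, Set.sdiff_self, Set.sdiff_empty⟩
  obtain ⟨χ, hχ, -⟩ := L.cut K K univ hK hKK isOpen_univ (subset_univ _)
  obtain ⟨ax, ay⟩ := L.hol.adm K c _ hc (L.hol.lin K c)
  set x := ru fun z => c * z with hx
  set y := iv fun z => c * z with hy
  have tx := (hb.cut K K ∅ χ x hK hP0 hχ ax).1
  have ty := (hb.cut K K ∅ χ y hK hP0 hχ ay).1
  set a : ℂ → ℝ := fun z => χ z * x z with ha'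
  set b : ℂ → ℝ := fun z => χ z * y z with hb'
  have la := hb.l2 K a hc tx
  have lb := hb.l2 K b hc ty
  obtain ⟨W1, W2, ρ, l1, l2, hρ, e1, e2, c1, c2, d1, d2⟩ :=
    hH K A (K \ A) (gr a + rot (gr b)) hB.toCtx hP (la.add (hi.lrot K _ lb))
  have s0 : ∀ T : Set ℂ, sm T (0 : Cmp K → ℝ) ρ = 0 := fun T => by simp [sm]
  have e3 : ∀ᵐ z, z ∉ K → rot (W1 - gr a) z = (W2 - gr b) z := by
    filter_upwards [e1] with z h hz
    have := h hz
    simp only [rot, Pi.add_apply, Pi.sub_apply] at this ⊢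
    linear_combination I * this - (W2 z - gr b z) * I_mul_I
  obtain ⟨F, hF, e4⟩ := hh K (W1 - gr a) hB.toCtx (l1.sub la) fun ξ hξ => by
    have lξ := hi.lrot K _ (hb.l2 K ξ hc (hb.t0 K A ξ hK hξ).1.1)
    constructor
    · have h1 := d1 ξ 0 (hb.t0 K A ξ hK hξ).1 (hb.t0 K (K \ A) ξ hK hξ).2
      rw [s0, abs_nonpos_iff] at h1
      rw [← hi.rr, hi.congr K _ _ _ _ hc (Eventually.of_forall fun _ _ => rfl) e3,
        (hi.add K _ _ _ lξ l2 lb).2, h1, (hb.zero1 K ξ b hK hξ ty.1).1, sub_zero]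
    · have h1 := d2 ξ 0 (hb.t0 K (K \ A) ξ hK hξ).1 (hb.t0 K A ξ hK hξ).2
      rw [s0, abs_nonpos_iff] at h1
      rw [(hi.add K _ _ _ lξ l1 la).2, h1, (hb.zero1 K ξ a hK hξ tx.1).1, sub_zero]
  have dF : ∀ z ∉ K, DifferentiableAt ℂ F z := fun z hz =>
    hF.1.differentiableAt (hc.isOpen_compl.mem_nhds hz)
  obtain ⟨au, av⟩ := L.hol.adm K 0 F hc hF
  let f : ℂ → ℂ := fun z => c * z + F z - (c * z₀ + F z₀)
  have df : ∀ z ∉ K, HasDerivAt f (c + deriv F z) z := fun z hz =>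
    ((((hasDerivAt_id z).const_mul c).add (dF z hz).hasDerivAt).sub_const
      (c * z₀ + F z₀)).congr_deriv (by rw [mul_one])
  have hf : Hol K c f := ⟨fun z hz => (df z hz).differentiableAt.differentiableWithinAt,
    hF.2.congr_fun (fun z hz => by simp only [(df z hz).deriv, add_sub_cancel_left, sub_zero])
      hc.isOpen_compl.measurableSet⟩
  obtain ⟨fu, fv⟩ := L.hol.adm K c f hc hf
  let U : ℂ → ℝ := fun z => (ru F + a) z - (c * z₀ + F z₀).re
  let V : ℂ → ℝ := fun z => (iv F + b) z - (c * z₀ + F z₀).im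
  have aU : Adm K U := L.adm.sub K _ _ hc (L.adm.add K _ _ hc au tx.1)
    (L.adm.c1 K _ hc contDiff_const)
  have aV : Adm K V := L.adm.sub K _ _ hc (L.adm.add K _ _ hc av ty.1)
    (L.adm.c1 K _ hc contDiff_const)
  have nU : ∀ᶠ z in 𝓝ˢ K, ru f z = U z := hχ.2.2.2.1.mono fun z hz => by
    simp only [U, f, a, x, ru, hz, Pi.add_apply, sub_re, add_re]; ring
  have nV : ∀ᶠ z in 𝓝ˢ K, iv f z = V z := hχ.2.2.2.1.mono fun z hz => by
    simp only [V, f, b, y, iv, hz, Pi.add_apply, sub_im, add_im]; ring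
  have gU : ∀ᵐ z, z ∉ K → W1 z = gr U z := by
    filter_upwards [e4, L.adm.dif _ _ hc.isOpen_compl au.1, L.adm.dif _ _ hc.isOpen_compl tx.1.1]
      with z h1 h2 h3 hz
    rw [hi.gconst, (hi.gadd _ _ z (h2 hz) (h3 hz)).1, (L.hol.gru F z (dF z hz)).1, ← h1 hz,
      Pi.sub_apply, sub_add_cancel]
  have gV : ∀ᵐ z, z ∉ K → W2 z = gr V z := by
    filter_upwards [e3, e4, L.adm.dif _ _ hc.isOpen_compl av.1,
      L.adm.dif _ _ hc.isOpen_compl ty.1.1] with z h0 h1 h2 h3 hz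
    rw [hi.gconst, (hi.gadd _ _ z (h2 hz) (h3 hz)).1, (L.hol.gru F z (dF z hz)).2, ← h1 hz]
    exact sub_eq_iff_eq_add.1 (h0 hz).symm
  refine ⟨f, ρ, hf, sub_self _, ha K A _ U W1 ρ hB.toCtx fu aU nU l1 gU hA.1 hρ c1,
    ha K _ _ V W2 ρ hB.toCtx fv aV nV l2 gV sdiff_subset hρ c2,
    hs K A _ _ V W2 ρ hK hP fv aV nV gV hρ d1, hs K _ A _ U W1 ρ hK hP.symm fu aU nU gU hρ d2, ?_⟩
  obtain ⟨⟨c₀, h0⟩, -⟩ := L.decay K 0 F hK hF
  obtain ⟨R, hR⟩ := tx.2
  obtain ⟨R', hR'⟩ : ∃ R' : ℝ, ∀ z, R' ≤ ‖z‖ → ‖F z‖ ≤ ‖c₀‖ + 1 := by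
    have h1 := h0.norm.eventually (eventually_le_nhds (lt_add_one ‖c₀‖))
    obtain ⟨S, hS, h2⟩ := mem_cocompact.1 h1
    obtain ⟨r, hr⟩ := hS.isBounded.subset_ball 0
    refine ⟨r, fun z hz => ?_⟩
    simpa using h2 (show z ∉ S from fun h => (mem_ball_zero_iff.1 (hr h)).not_ge hz)
  rw [L.omA.congr K K _ _ U V hK hKK fu fv aU aV ((nU.and nV).mono fun z h _ => h),
    L.omC.inf K U V (‖c₀‖ + 1 + |(c * z₀ + F z₀).re|) (max R R') hK aU aV
      ((hi.lgr K U).1 (hi.lcongr K _ _ hc l1 gU)) ((hi.lgr K V).1 (hi.lcongr K _ _ hc l2 gV))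
      fun z hz => ?_, ← hi.wd,
    ← hi.congr K (rot W1) W2 _ _ hc (gU.mono fun z h hz => by simp only [rot, h hz]) gV]
  · linarith
  · simp only [U, Pi.add_apply, hR z ((le_max_left _ _).trans hz), add_zero]
    exact (abs_sub _ _).trans (add_le_add_left
      ((abs_re_le_norm _).trans (hR' z ((le_max_right _ _).trans hz))) _)

end Vale.Agent.P116.E
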