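import Vale.Agent.P116.EStm
import Vale.Agent.P271.HWeyl

/-! Harmonic fields without periods are conjugate derivatives. -/

open Set Filter Topology MeasureTheory Metric Complex
open scoped ENNReal NNReal ComplexConjugate

noncomputable section
namespace Vale.Agent.P116.E

namespace EHarm

theorem gr_eq (χ : ℂ → ℝ) :
    gr χ = fun z => ((fderiv ℝ χ z 1 : ℝ) : ℂ) + ((fderiv ℝ χ z I : ℝ) : ℂ) * I := by
  funext z
  apply Complex.ext <;> simp [gr]

theorem gr_cont {χ : ℂ → ℝ} (h : ContDiff ℝ 2 χ) : Continuous (gr χ) := by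
  have hc : Continuous (fderiv ℝ χ) := h.continuous_fderiv (by norm_num)
  rw [gr_eq]
  fun_prop

theorem gr_tsupp (χ : ℂ → ℝ) : tsupport (gr χ) ⊆ tsupport χ := by
  refine subset_trans (closure_mono ?_) (tsupport_fderiv_subset ℝ (f := χ))
  intro z hz h0
  apply hz
  rw [gr_eq]
  simp [h0]

theorem gr_l2 {χ : ℂ → ℝ} (h : ContDiff ℝ 2 χ) (hs : HasCompactSupport χ) (μ : Measure ℂ)
    [IsFiniteMeasureOnCompacts μ] : MemLp (gr χ) 2 μ :=
  (gr_cont h).memLp_of_hasCompactSupport (hs.of_isClosed_subset (isClosed_tsupport _) (gr_tsupp χ))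

theorem conj_l2 {K : Set ℂ} {W : ℂ → ℂ} (hW : L2 K W) :
    MemLp (fun z => conj (W z)) 2 (volume.restrict Kᶜ) :=
  conjCLE.toContinuousLinearMap.comp_memLp' hW

theorem key {K : Set ℂ} {W : ℂ → ℂ} (hW : L2 K W) {χ : ℂ → ℝ} (h : ContDiff ℝ 2 χ)
    (hs : HasCompactSupport χ) (h1 : ip K (gr χ) W = 0) (h2 : ip K (rot (gr χ)) W = 0) :
    ∫ z in Kᶜ, conj (W z) * gr χ z = 0 := by
  have hint : Integrable (fun z => conj (W z) * gr χ z) (volume.restrict Kᶜ) :=
    (conj_l2 hW).integrable_mul (gr_l2 h hs _)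
  apply Complex.ext
  · have e := reCLM.integral_comp_comm hint
    simp only [reCLM_apply] at e
    rw [← e, zero_re, ← h1, ip]
    congr 1
    funext z
    simp [Complex.inner, mul_comm]
  · have e := imCLM.integral_comp_comm hint
    simp only [imCLM_apply] at e
    rw [← e, zero_im, ← neg_eq_zero, ← h2, ip, ← integral_neg]
    congr 1
    funext z
    simp [Complex.inner, rot]
    ring

theorem dzr_conj {ζ : ℂ → ℝ} {z : ℂ} (h : DifferentiableAt ℝ ζ z) (ξ : ℂ) :
    conj (Fuj.dzr ζ z ξ) = conj ξ / 2 * gr ζ z := by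
  have lin : ∀ v : ℂ, fderiv ℝ ζ z v = v.re * fderiv ℝ ζ z 1 + v.im * fderiv ℝ ζ z I := by
    intro v
    have e : v = v.re • (1 : ℂ) + v.im • I := by
      apply Complex.ext <;> simp
    conv_lhs => rw [e]
    rw [map_add, map_smul, map_smul]
    simp
  have h2 : conj (2 : ℂ) = 2 := map_ofNat _ 2
  rw [Fuj.dzr_eq h, lin ξ, lin (I • ξ), gr_eq, map_div₀, h2, div_mul_eq_mul_div]
  congr 1
  apply Complex.ext
  · simp
  · simp
    ring

end EHarm

open EHarm in
theorem s_harm (L : Lib) : S_harm := by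
  intro K W hK hW h
  have ho : IsOpen Kᶜ := hK.cpt.isClosed.isOpen_compl
  have hc := conj_l2 hW
  have hloc : LocallyIntegrableOn (fun z => conj (W z)) Kᶜ volume := by
    exact locallyIntegrableOn_of_locallyIntegrable_restrict (hc.locallyIntegrable (by norm_num))
  obtain ⟨F0, hF0, hae⟩ := Fuj.weyl (vol := (volume : Measure ℂ)) ho hloc (by
    intro ζ hζ ξ
    have h2 : ContDiff ℝ 2 ζ := hζ.1.of_le (WithTop.coe_le_coe.2 (le_top : (2 : ℕ∞) ≤ ⊤))
    obtain ⟨a1, a2⟩ := h ζ ⟨h2, hζ.2.1, (gr_tsupp ζ).trans hζ.2.2⟩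
    have e : (fun z => conj (Fuj.dzr ζ z ξ) * conj (W z)) =
        fun z => conj ξ / 2 * (conj (W z) * gr ζ z) := by
      funext z
      rw [dzr_conj (h2.differentiable (by norm_num) z)]
      ring
    rw [e, integral_const_mul, key hW h2 hζ.2.1 a1 a2, mul_zero])
  obtain ⟨F, hF, hd⟩ := L.prim Kᶜ F0 ho hK.con hF0 (by
    intro χ h2 hs ht
    obtain ⟨a1, a2⟩ := h χ ⟨h2, hs, ht⟩
    rw [← key hW h2 hs a1 a2]
    refine integral_congr_ae ?_
    filter_upwards [hae] with z hz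
    rw [hz])
  have hae2 : ∀ᵐ z ∂(volume.restrict Kᶜ : Measure ℂ), deriv F z = conj (W z) := by
    filter_upwards [hae, ae_restrict_mem ho.measurableSet] with z h1 h2
    rw [hd z h2, h1]
  refine ⟨F, ⟨hF, ?_⟩, ?_⟩
  · have h1 : Integrable (fun z => ‖conj (W z)‖ ^ 2) (volume.restrict Kᶜ) :=
      (memLp_two_iff_integrable_sq_norm hc.1).1 hc
    refine h1.congr ?_
    filter_upwards [hae2] with z hz
    rw [hz, sub_zero]
  · rw [ae_restrict_iff' ho.measurableSet] at hae2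
    filter_upwards [hae2] with z hz hzK
    rw [hz hzK, conj_conj]

end Vale.Agent.P116.E
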