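import Vale.Agent.P116.EStm

/-! Part E: the solution as a pair of fields. -/

open Set Filter Topology MeasureTheory Metric Complex
open scoped ENNReal NNReal ComplexConjugate

noncomputable section
namespace Vale.Agent.P116.E

namespace EHilb

variable {K A B T : Set ℂ}

open Classical in
/-- The indicator of one component. -/
def one (p : Cmp K) (c : ℝ) : Cmp K → ℝ := fun q => if q = p then c else 0

open Classical in
/-- Restriction to the components inside `T`. -/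
def res (T : Set ℂ) (s : Cmp K → ℝ) : Cmp K → ℝ := fun p => if p.1 ⊆ T then s p else 0

theorem one_sum (p : Cmp K) (c : ℝ) : Summable fun q => one p c q ^ 2 :=
  summable_of_ne_finset_zero (s := {p}) fun q hq => by
    simp [one, Finset.notMem_singleton.1 hq]

theorem sm_one (p : Cmp K) (hp : p.1 ⊆ T) (c : ℝ) (t : Cmp K → ℝ) :
    sm T (one p c) t = c * t p := by
  rw [sm, tsum_eq_single p fun q hq => by simp [one, hq]]
  simp [one, hp]

theorem sm_res (L : Lib) (s t : Cmp K → ℝ) : sm K (res T s) t = sm T s t :=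
  tsum_congr fun p => by
    rw [if_pos (L.cmp.sub K p), res]
    split_ifs <;> simp

theorem gd_res {θ : ℂ → ℝ} {s : Cmp K → ℝ} (h : Gd K T θ s) : Gd K T θ (res T s) := by
  refine ⟨h.1, h.2.1.of_nonneg_of_le (fun _ => sq_nonneg _) fun p => ?_, fun p hp => ?_⟩
  · rw [res]
    split_ifs
    · exact le_rfl
    · rw [zero_pow two_ne_zero]; exact sq_nonneg _
  · rw [res, if_pos hp]
    exact h.2.2 p hp

theorem gd_one (hb : S_bas) (hc : IsClosed K) (p : Cmp K) (c : ℝ) (h : p.1 ⊆ T → 0 ≤ c) :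
    Gd K T 0 (one p c) := by
  refine ⟨(hb.gz K T hc).1.1, one_sum p c, fun q hq => ?_⟩
  have h0 : 0 ≤ one p c q := by
    rw [one]
    split_ifs with e
    · exact h (e ▸ hq)
    · exact le_rfl
  exact ⟨h0, fun ε hε => ⟨univ, isOpen_univ, subset_univ _, fun z _ w _ => by
    simp only [Pi.zero_apply, sub_self]; linarith⟩⟩

theorem ip_zero (W : ℂ → ℂ) : ip K 0 W = 0 := by simp [ip]

theorem rot_neg (W : ℂ → ℂ) : rot (-W) = -rot W := funext fun z => by simp [rot]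

theorem not_both (L : Lib) (hP : Par K A B) (p : Cmp K) (h : p.1 ⊆ A) : ¬p.1 ⊆ B := fun h' => by
  obtain ⟨z, hz⟩ := L.cmp.ne K p
  exact disjoint_left.1 hP.dis (h hz) (h' hz)

/-- Cones of gradients, after a real linear map of the plane. -/
theorem cone (hi : S_ip) (hb : S_bas) (hc : IsClosed K) (w : ℂ) :
    ConeF K {x | ∃ θ, Gd K T θ x.2 ∧ x.1 = fun z => w * gr θ z} := by
  refine ⟨⟨(fun z => w * gr 0 z, 0), 0, (hb.gz K T hc).1, rfl⟩, ?_, ?_, ?_⟩
  · rintro ⟨W, s⟩ ⟨θ, h, rfl⟩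
    exact ⟨(hb.l2 K θ hc h.1).const_mul w, h.2.1⟩
  · rintro ⟨W, s⟩ ⟨θ, h, rfl⟩ ⟨W', s'⟩ ⟨θ', h', rfl⟩
    obtain ⟨h1, h2⟩ := hb.gadd K T θ θ' s s' hc h h'
    refine ⟨(fun z => w * gr (θ + θ') z, s + s'), ⟨_, h1, rfl⟩, h2.mono fun z h3 hz => ?_, rfl⟩
    simp only [Prod.fst_add, Pi.add_apply, h3 hz, mul_add]
  · rintro t ht ⟨W, s⟩ ⟨θ, h, rfl⟩
    refine ⟨(fun z => w * gr (t • θ) z, t • s), ⟨_, hb.gsmul K T t θ s hc ht h, rfl⟩,
      Eventually.of_forall fun z _ => ?_, rfl⟩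
    simp only [hi.gsmul, Prod.smul_fst, Pi.smul_apply, mul_smul_comm]

/-- Elements of the dual cone. -/
theorem dual (L : Lib) (hi : S_ip) (hb : S_bas) (hc : IsClosed K) (w : ℂ) {y : PP K}
    (h : ∀ g ∈ {x : PP K | ∃ θ, Gd K T θ x.2 ∧ x.1 = fun z => w * gr θ z}, 0 ≤ ipp K g y) :
    (∀ p : Cmp K, ¬p.1 ⊆ T → y.2 p = 0) ∧
      ∀ θ, Tst K θ → LocC K T θ → ip K (fun z => w * gr θ z) y.1 = 0 := by
  constructor
  · intro p hp
    have key : ∀ c : ℝ, 0 ≤ c * y.2 p := fun c => by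
      have := h (0, one p c) ⟨0, gd_one hb hc p c fun h => absurd h hp,
        funext fun z => by simp [(hb.gz K T hc).2.2]⟩
      rwa [ipp, ip_zero, zero_add, sm_one p (L.cmp.sub K p)] at this
    linarith [key 1, key (-1)]
  · intro θ h1 h2
    have h3 := h (fun z => w * gr θ z, 0) ⟨θ, hb.locc K T θ h1 h2, rfl⟩
    have h4 := h (-fun z => w * gr θ z, 0) ⟨-θ, hb.gneg K T θ 0 hc (hb.locc K T θ h1 h2),
      funext fun z => by simp [hi.gneg]⟩
    simp only [ipp, (hi.neg K _ _).1, sm, Pi.zero_apply, zero_mul, ite_self, tsum_zero] at h3 h4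
    linarith

end EHilb

open EHilb in
theorem s_hilb (L : Lib) (hi : S_ip) (hb : S_bas) (hm : S_morf) (ho : S_orth) : S_hilb := by
  intro K A B E hK hP hE
  have hc := hK.cpt.isClosed
  have r1 : ∀ θ : ℂ → ℝ, (fun z => 1 * gr θ z) = gr θ := fun θ => funext fun z => one_mul _
  have r2 : ∀ θ : ℂ → ℝ, (fun z => -I * gr θ z) = -rot (gr θ) := fun θ =>
    funext fun z => neg_mul _ _
  obtain ⟨⟨Y1, ρ⟩, ⟨Y2, ρ'⟩, m1, m2, ⟨e1, e2⟩, e3, n1, n2, d1, d2⟩ := hm K
    {x | ∃ θ, Gd K A θ x.2 ∧ x.1 = fun z => 1 * gr θ z}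
    {x | ∃ θ, Gd K B θ x.2 ∧ x.1 = fun z => -I * gr θ z}
    {x | ∃ θ s, Gd K B θ s ∧ LocC K A θ ∧ x = (-rot (gr θ), res B s)} (E, 0) hc
    ⟨hE, by simp⟩ (cone hi hb hc 1) (cone hi hb hc (-I))
    (by rintro _ ⟨θ, s, h, -, rfl⟩; exact ⟨θ, gd_res h, (r2 θ).symm⟩) fun y z my mz hy hz => by
      obtain ⟨a1, a2⟩ := dual L hi hb hc 1 hy
      obtain ⟨b1, b2⟩ := dual L hi hb hc (-I) hz
      have h1 : sm K y.2 z.2 = 0 := by
        refine (tsum_congr fun p => ?_).trans tsum_zero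
        by_cases hp : p.1 ⊆ A
        · simp [b1 p (not_both L hP p hp)]
        · simp [a1 p hp]
      rw [ipp, h1, ho K A B y.1 z.1 hK hP my.1 mz.1 (fun θ h h' => r1 θ ▸ a2 θ h h')
        fun θ h h' => by
          have := b2 θ h h'
          rwa [r2, (hi.neg K _ _).1, neg_eq_zero] at this, add_zero]
  obtain rfl : ρ = ρ' := sub_eq_zero.1 e2.symm
  have D1 : Du K A B (rot Y2) ρ := by
    have key : ∀ θ s, Gd K A θ s → LocC K B θ → 0 ≤ ip K (gr θ) Y2 + sm A s ρ := by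
      intro θ s h h'
      have := d2 (gr θ, res A s) ⟨θ, gd_res h, (r1 θ).symm⟩ (by
        rintro _ ⟨θ', s', g, g', rfl⟩
        have h1 : sm K (res B s') (res A s) = 0 := by
          refine (tsum_congr fun p => ?_).trans tsum_zero
          by_cases hp : p.1 ⊆ A
          · simp [res, not_both L hP p hp]
          · simp [res, hp]
        rw [ipp, h1, (hi.neg K _ _).1, hb.zero K A B θ' θ hK.cpt hP g.1 g' h.1.1 h']
        simp)
      rwa [ipp, sm_res L] at this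
    intro θ s h h'
    have h1 := key θ s h h'
    have h2 := key (-θ) s (hb.gneg K A θ s hc h) (hb.lneg K B θ h')
    rw [hi.gneg, (hi.neg K _ _).1] at h2
    rw [hi.rr, abs_le]
    constructor <;> linarith
  have D2 : Du K B A Y1 ρ := by
    have key : ∀ θ s, Gd K B θ s → LocC K A θ → 0 ≤ -ip K (rot (gr θ)) Y1 + sm B s ρ := by
      intro θ s h h'
      have := d1 _ ⟨θ, s, h, h', rfl⟩
      rwa [ipp, sm_res L, (hi.neg K _ _).1] at this
    intro θ s h h'
    have h1 := key θ s h h'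
    have h2 := key (-θ) s (hb.gneg K B θ s hc h) (hb.lneg K A θ h')
    rw [hi.gneg, rot_neg, (hi.neg K _ _).1] at h2
    rw [abs_le]
    constructor <;> linarith
  have nn : ∀ {T T' : Set ℂ} {W : ℂ → ℂ}, Du K T T' W ρ → ∀ p : Cmp K, p.1 ⊆ T → 0 ≤ ρ p := by
    intro T T' W h p hp
    have := h 0 (one p 1) (gd_one hb hc p 1 fun _ => zero_le_one) (hb.gz K T' hc).2.1
    rw [sm_one p hp, one_mul] at this
    exact (abs_nonneg _).trans this
  refine ⟨Y1, rot Y2, ρ, m1.1, hi.lrot K _ m2.1, ⟨fun p => ?_, m1.2⟩, e1.mono fun z h hz => ?_,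
    by rw [hi.rr]; exact e3, fun δ hδ => ?_, fun δ hδ => ?_, D1, D2⟩
  · rcases L.cmp.dich K A p hP.a with h | h
    · exact nn D1 p h
    · exact nn D2 p (hP.ab ▸ h)
  · have := h hz
    simp only [Prod.fst_sub, Pi.sub_apply] at this
    rw [this, rot, ← mul_assoc, I_mul_I]
    ring
  · obtain ⟨⟨W, s⟩, ⟨θ, h1, rfl⟩, h2, h3⟩ := n1 δ hδ
    exact ⟨θ, s, h1, by simpa only [one_mul] using h2, h3⟩
  · obtain ⟨⟨W, s⟩, ⟨θ, h1, rfl⟩, h2, h3⟩ := n2 δ hδ
    refine ⟨θ, s, h1, le_of_eq_of_le (integral_congr_ae (Eventually.of_forall fun z => ?_)) h2, h3⟩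
    have : gr θ z - rot Y2 z = I * (-I * gr θ z - Y2 z) := by
      rw [rot]; linear_combination (gr θ z) * I_mul_I
    simp only [this, norm_mul, norm_I, one_mul]

end Vale.Agent.P116.E
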