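import Vale.Agent.P116.EStm
import Vale.Agent.P116.AAdm

/-! Part E: algebra of the inner product. -/

open Set Filter Topology MeasureTheory Metric Complex
open scoped ENNReal NNReal ComplexConjugate

noncomputable section
namespace Vale.Agent.P116.E

namespace EIp

theorem int {K : Set ℂ} {W Z : ℂ → ℂ} (hW : L2 K W) (hZ : L2 K Z) :
    Integrable (fun z => inner ℝ (W z) (Z z)) (volume.restrict Kᶜ) :=
  (hW.norm.integrable_mul hZ.norm).mono' (hW.1.inner hZ.1)
    (.of_forall fun z => norm_inner_le_norm (W z) (Z z))

theorem skew (a b : ℂ) : inner ℝ (I * a) b = - inner ℝ a (I * b) := by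
  simp only [Complex.inner, mul_re, mul_im, I_re, I_im, conj_re, conj_im]
  ring

theorem rr (a b : ℂ) : inner ℝ (I * a) (I * b) = inner ℝ a b := by
  simp only [Complex.inner, mul_re, mul_im, I_re, I_im, conj_re, conj_im]
  ring

end EIp

theorem s_ip : S_ip where
  comm K W Z := by simp only [ip, real_inner_comm]
  rr K W Z := by simp only [ip, rot, EIp.rr]
  skew K W Z := by simp only [ip, rot, EIp.skew, integral_neg]
  neg K W Z := by simp only [ip, Pi.neg_apply, inner_neg_left, inner_neg_right, integral_neg, and_self]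
  add K W Z Z' hW hZ hZ' := by
    simp only [ip, Pi.add_apply, Pi.sub_apply, inner_add_right, inner_sub_right]
    exact ⟨integral_add (EIp.int hW hZ) (EIp.int hW hZ'),
      integral_sub (EIp.int hW hZ) (EIp.int hW hZ')⟩
  congr K W Z W' Z' hK h h' := by
    refine integral_congr_ae ((ae_restrict_iff' hK.isOpen_compl.measurableSet).2 ?_)
    filter_upwards [h, h'] with z a b hz
    rw [a hz, b hz]
  wd K a b := by
    refine integral_congr_ae (.of_forall fun z => ?_)
    simp only [rot, gr, wd, Complex.inner, mul_re, mul_im, I_re, I_im, conj_re, conj_im]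
    ring
  lrot K W h := h.const_mul I
  lcongr K W W' hK h h' :=
    MemLp.ae_eq ((ae_restrict_iff' hK.isOpen_compl.measurableSet).2 h') h
  lgr K θ := memLp_two_iff_integrable_sq_norm (AAdm.meas θ).aestronglyMeasurable
  gneg θ := funext fun z => by
    rw [gr, fderiv_neg]
    rfl
  gadd a b z ha hb := by
    rw [gr, fderiv_add ha hb, gr.eq_1 (a - b), fderiv_sub ha hb]
    exact ⟨rfl, rfl⟩
  gsmul t a := funext fun z => by
    rw [gr, fderiv_const_smul_field]
    apply Complex.ext <;> simp [gr]
  gconst k a := funext fun z => by rw [gr, gr, fderiv_sub_const]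

end Vale.Agent.P116.E
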