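import Vale.Agent.P116.EStm

/-! Moreau decomposition for a pair of cones. -/

open Set Filter Topology MeasureTheory Metric Complex
open scoped ENNReal NNReal ComplexConjugate

noncomputable section
namespace Vale.Agent.P116.E

namespace EMor

variable {H : Type} [NormedAddCommGroup H] [InnerProductSpace ℝ H]

theorem cone_zero {M : Set H} (hM : Cone M) : (0 : H) ∈ M := by
  obtain ⟨x, hx⟩ := hM.1
  simpa using hM.2.2 0 le_rfl x hx

theorem cone_convex {M : Set H} (hM : Cone M) : Convex ℝ M :=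
  fun x hx y hy a b ha hb _ => hM.2.1 _ (hM.2.2 a ha x hx) _ (hM.2.2 b hb y hy)

theorem cone_closure {M : Set H} (hM : Cone M) : Cone (closure M) := by
  refine ⟨hM.1.mono subset_closure, fun x hx y hy => ?_, fun t ht x hx => ?_⟩
  · exact map_mem_closure₂ continuous_add hx hy hM.2.1
  · exact map_mem_closure (continuous_const_smul t) hx (hM.2.2 t ht)

theorem moreau [CompleteSpace H] {M : Set H} (hc : IsClosed M) (hM : Cone M) (h : H) :
    ∃ m ∈ M, ∃ n, h = m - n ∧ inner ℝ m n = 0 ∧ ∀ w ∈ M, 0 ≤ inner ℝ w n := by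
  obtain ⟨m, hm, hmin⟩ :=
    exists_norm_eq_iInf_of_complete_convex hM.1 hc.isComplete (cone_convex hM) h
  have key := (norm_eq_iInf_iff_real_inner_le_zero (cone_convex hM) hm).1 hmin
  have h0 := key 0 (cone_zero hM)
  have h2 := key ((2 : ℝ) • m) (hM.2.2 2 (by norm_num) m hm)
  have e2 : (2 : ℝ) • m - m = m := by rw [two_smul]; abel
  rw [e2] at h2
  rw [zero_sub, inner_neg_right] at h0
  have hz : inner ℝ (h - m) m = 0 := by linarith
  refine ⟨m, hm, m - h, by abel, ?_, fun w hw => ?_⟩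
  · rw [← neg_sub h m, inner_neg_right, real_inner_comm, hz, neg_zero]
  · have := key w hw
    rw [inner_sub_right, hz, sub_zero] at this
    rw [← neg_sub h m, inner_neg_right, real_inner_comm]
    linarith

theorem bipolar [CompleteSpace H] {Γ : Set H} (hΓ : Cone Γ) {x : H}
    (hx : ∀ y, (∀ g ∈ Γ, 0 ≤ inner ℝ g y) → 0 ≤ inner ℝ y x) : x ∈ closure Γ := by
  obtain ⟨m, hm, n, e, hmn, hn⟩ := moreau isClosed_closure (cone_closure hΓ) x
  have h1 := hx n fun g hg => hn g (subset_closure hg)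
  rw [e, inner_sub_right, real_inner_comm, hmn, zero_sub, real_inner_self_eq_norm_sq] at h1
  have h2 : ‖n‖ ^ 2 = 0 := le_antisymm (by linarith) (sq_nonneg _)
  have h3 : n = 0 := by simpa using h2
  rw [e, h3, sub_zero]
  exact hm

end EMor

open EMor in
theorem s_mor : S_mor := by
  intro H _ _ _ Γ1 Γ3 C2 h h1 h3 hC hdu
  set M : Set H := closure Γ1 ∩ {x | ∀ g ∈ C2, 0 ≤ inner ℝ g x} with hMdef
  have hc : IsClosed M := by
    refine isClosed_closure.inter ?_
    have : {x : H | ∀ g ∈ C2, 0 ≤ inner ℝ g x} = ⋂ g ∈ C2, {x : H | 0 ≤ inner ℝ g x} := by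
      ext x; simp
    rw [this]
    exact isClosed_biInter fun g _ => isClosed_le continuous_const (by fun_prop)
  have hcl := cone_closure h1
  have hM : Cone M := by
    refine ⟨⟨0, cone_zero hcl, fun g _ => by simp⟩, fun x hx y hy => ⟨hcl.2.1 x hx.1 y hy.1, ?_⟩,
      fun t ht x hx => ⟨hcl.2.2 t ht x hx.1, ?_⟩⟩
    · intro g hg
      rw [inner_add_right]
      exact add_nonneg (hx.2 g hg) (hy.2 g hg)
    · intro g hg
      rw [real_inner_smul_right]
      exact mul_nonneg ht (hx.2 g hg)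
  obtain ⟨m, hm, n, e, hmn, hn⟩ := moreau hc hM h
  refine ⟨m, n, e, hmn, hm.1, ?_, hm.2, fun g hg hg' => hn g ⟨subset_closure hg, hg'⟩⟩
  refine bipolar h3 fun z hz => hn z ⟨bipolar h1 fun y hy => hdu y z hy hz, ?_⟩
  exact fun g hg => hz g (hC hg)

end Vale.Agent.P116.E
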