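import Vale.Agent.P116.EStm

/-! Part E: the Moreau decomposition for pairs of functions. -/

open Set Filter Topology MeasureTheory Metric Complex
open scoped ENNReal NNReal ComplexConjugate

noncomputable section
namespace Vale.Agent.P116.E

namespace EMorf

/-- The Hilbert space of pairs. -/
abbrev H (K : Set ℂ) : Type :=
  WithLp 2 (Lp ℂ 2 (volume.restrict Kᶜ) × lp (fun _ : Cmp K => ℝ) 2)

variable {K : Set ℂ}

/-- The canonical representative. -/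
def re (v : H K) : PP K := (⇑v.fst, ⇑v.snd)

theorem sub_K (p : Cmp K) : p.1 ⊆ K := by
  obtain ⟨z, -, h⟩ := p.2
  rw [h]
  exact connectedComponentIn_subset K z

theorem sm_eq (s t : Cmp K → ℝ) : sm K s t = ∑' p, s p * t p := by
  simp only [sm, sub_K, if_true]

theorem lp_iff (s : Cmp K → ℝ) : Memℓp s 2 ↔ Summable fun p => s p ^ 2 := by
  rw [memℓp_gen_iff (by norm_num)]
  simp

theorem mem_re (v : H K) : Mem K (re v) := ⟨Lp.memLp _, (lp_iff _).1 (lp.memℓp v.snd)⟩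

theorem ipp_re (v w : H K) : ipp K (re v) (re w) = inner ℝ v w := by
  rw [WithLp.prod_inner_apply, L2.inner_def, lp.inner_eq_tsum, ipp, sm_eq]
  congr 1
  refine tsum_congr fun p => ?_
  simp only [re, RCLike.inner_apply, conj_trivial]
  exact mul_comm _ _

theorem refl (x : PP K) : Eqv K x x := ⟨Eventually.of_forall fun _ _ => rfl, rfl⟩

theorem symm {x y : PP K} (h : Eqv K x y) : Eqv K y x :=
  ⟨h.1.mono fun _ a b => (a b).symm, h.2.symm⟩

theorem trans {x y z : PP K} (h : Eqv K x y) (h' : Eqv K y z) : Eqv K x z :=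
  ⟨(h.1.and h'.1).mono fun _ a b => (a.1 b).trans (a.2 b), h.2.trans h'.2⟩

theorem add {x y x' y' : PP K} (h : Eqv K x x') (h' : Eqv K y y') : Eqv K (x + y) (x' + y') :=
  ⟨(h.1.and h'.1).mono fun _ a b => by simp only [Prod.fst_add, Pi.add_apply, a.1 b, a.2 b],
    by simp only [Prod.snd_add, h.2, h'.2]⟩

theorem sub {x y x' y' : PP K} (h : Eqv K x x') (h' : Eqv K y y') : Eqv K (x - y) (x' - y') :=
  ⟨(h.1.and h'.1).mono fun _ a b => by simp only [Prod.fst_sub, Pi.sub_apply, a.1 b, a.2 b],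
    by simp only [Prod.snd_sub, h.2, h'.2]⟩

theorem smul (t : ℝ) {x x' : PP K} (h : Eqv K x x') : Eqv K (t • x) (t • x') :=
  ⟨h.1.mono fun _ a b => by simp only [Prod.smul_fst, Pi.smul_apply, a b],
    by simp only [Prod.smul_snd, h.2]⟩

theorem ae_iff (hK : IsClosed K) {W Z : ℂ → ℂ} :
    W =ᵐ[volume.restrict Kᶜ] Z ↔ ∀ᵐ z, z ∉ K → W z = Z z :=
  ae_restrict_iff' hK.isOpen_compl.measurableSet

theorem ipp_congr (hK : IsClosed K) {x y x' y' : PP K} (h : Eqv K x x') (h' : Eqv K y y') :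
    ipp K x y = ipp K x' y' := by
  rw [ipp, ipp, h.2, h'.2]
  congr 1
  refine integral_congr_ae ?_
  filter_upwards [(ae_iff hK).2 h.1, (ae_iff hK).2 h'.1] with z a b
  rw [a, b]

theorem surj (hK : IsClosed K) {x : PP K} (h : Mem K x) : ∃ v : H K, Eqv K (re v) x :=
  ⟨WithLp.toLp 2 (MemLp.toLp x.1 h.1, ⟨x.2, (lp_iff _).2 h.2⟩),
    (ae_iff hK).1 (MemLp.coeFn_toLp h.1), rfl⟩

theorem re_add (hK : IsClosed K) (v w : H K) : Eqv K (re (v + w)) (re v + re w) :=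
  ⟨(ae_iff hK).1 (Lp.coeFn_add v.fst w.fst), lp.coeFn_add v.snd w.snd⟩

theorem re_sub (hK : IsClosed K) (v w : H K) : Eqv K (re (v - w)) (re v - re w) :=
  ⟨(ae_iff hK).1 (Lp.coeFn_sub v.fst w.fst), lp.coeFn_sub v.snd w.snd⟩

theorem re_smul (hK : IsClosed K) (t : ℝ) (v : H K) : Eqv K (re (t • v)) (t • re v) :=
  ⟨(ae_iff hK).1 (Lp.coeFn_smul t v.fst), lp.coeFn_smul t v.snd⟩

/-- The image of a set of pairs. -/
def im (Γ : Set (PP K)) : Set (H K) := {v | ∃ x ∈ Γ, Eqv K (re v) x}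

theorem cone (hK : IsClosed K) {Γ : Set (PP K)} (h : ConeF K Γ) : Cone (im Γ) := by
  obtain ⟨⟨x, hx⟩, h1, h2, h3⟩ := h
  refine ⟨?_, ?_, ?_⟩
  · obtain ⟨v, hv⟩ := surj hK (h1 x hx)
    exact ⟨v, x, hx, hv⟩
  · rintro v ⟨a, ha, ea⟩ w ⟨b, hb, eb⟩
    obtain ⟨z, hz, ez⟩ := h2 a ha b hb
    exact ⟨z, hz, trans (re_add hK v w) (trans (add ea eb) (symm ez))⟩
  · rintro t ht v ⟨a, ha, ea⟩
    obtain ⟨z, hz, ez⟩ := h3 t ht a ha
    exact ⟨z, hz, trans (re_smul hK t v) (trans (smul t ea) (symm ez))⟩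

theorem dual (hK : IsClosed K) {Γ : Set (PP K)} (h : ∀ x ∈ Γ, Mem K x) (y : H K) :
    (∀ g ∈ im Γ, 0 ≤ inner ℝ g y) ↔ ∀ g ∈ Γ, 0 ≤ ipp K g (re y) := by
  constructor
  · intro k g hg
    obtain ⟨v, hv⟩ := surj hK (h g hg)
    rw [← ipp_congr hK hv (refl _), ipp_re]
    exact k v ⟨g, hg, hv⟩
  · rintro k v ⟨g, hg, hv⟩
    rw [← ipp_re, ipp_congr hK hv (refl _)]
    exact k g hg

theorem near (hK : IsClosed K) {Γ : Set (PP K)} {m : H K} (h : m ∈ closure (im Γ)) :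
    Near K Γ (re m) := by
  intro δ hδ
  obtain ⟨v, ⟨g, hg, hv⟩, hd⟩ := Metric.mem_closure_iff.1 h √δ (Real.sqrt_pos.2 hδ)
  refine ⟨g, hg, ?_⟩
  have e : Eqv K (re (v - m)) (g - re m) := trans (re_sub hK v m) (sub hv (refl _))
  have k : ipp K (g - re m) (g - re m) ≤ δ := by
    rw [← ipp_congr hK e e, ipp_re, real_inner_self_eq_norm_sq, ← dist_eq_norm, dist_comm]
    exact ((Real.lt_sqrt dist_nonneg).1 hd).le
  have e1 : ip K (g - re m).1 (g - re m).1 = ∫ z in Kᶜ, ‖g.1 z - (re m).1 z‖ ^ 2 := by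
    simp only [ip, real_inner_self_eq_norm_sq, Prod.fst_sub, Pi.sub_apply]
  have n1 : 0 ≤ ∫ z in Kᶜ, ‖g.1 z - (re m).1 z‖ ^ 2 := integral_nonneg fun _ => sq_nonneg _
  have n2 : 0 ≤ sm K (g.2 - (re m).2) (g.2 - (re m).2) := by
    rw [sm_eq]
    exact tsum_nonneg fun _ => mul_self_nonneg _
  rw [ipp, e1, Prod.snd_sub] at k
  exact ⟨by linarith, by linarith⟩

end EMorf

open EMorf in
theorem s_morf (hm : S_mor) : S_morf := by
  intro K Γ1 Γ3 C2 h hK hh c1 c3 hC hd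
  obtain ⟨v, hv⟩ := surj hK hh
  have m2 : ∀ x ∈ C2, Mem K x := fun x hx => c3.2.1 x (hC hx)
  obtain ⟨m, n, e, o, k1, k3, d1, d2⟩ := hm (H K) (im Γ1) (im Γ3) (im C2) v (cone hK c1)
    (cone hK c3) (fun w ⟨x, hx, ex⟩ => ⟨x, hC hx, ex⟩) fun y z hy hz => by
      rw [← ipp_re]
      exact hd _ _ (mem_re y) (mem_re z) ((dual hK c1.2.1 y).1 hy) ((dual hK c3.2.1 z).1 hz)
  refine ⟨re m, re n, mem_re m, mem_re n, EMorf.trans (EMorf.symm hv) (e ▸ re_sub hK m n),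
    by rw [ipp_re, o], near hK k1, near hK k3, (dual hK m2 m).1 d1, fun g hg k => ?_⟩
  obtain ⟨w, hw⟩ := surj hK (c1.2.1 g hg)
  rw [← ipp_congr hK hw (EMorf.refl _), ipp_re]
  refine d2 w ⟨g, hg, hw⟩ ((dual hK m2 w).2 fun g' hg' => ?_)
  rw [ipp_congr hK (EMorf.refl _) hw]
  exact k g' hg'

end Vale.Agent.P116.E
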