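import Vale.Agent.P116.EStm

/-! Part E: the two dual cones are orthogonal. -/

open Set Filter Topology MeasureTheory Metric Complex
open scoped ENNReal NNReal ComplexConjugate

noncomputable section
namespace Vale.Agent.P116.E

namespace EOrth

theorem bd (L : Lib) {K : Set ℂ} {F : ℂ → ℂ} (hK : IsCompact K) (h : Hol K 0 F) :
    ∃ M R : ℝ, ∀ z, R ≤ ‖z‖ → |ru F z| ≤ M := by
  obtain ⟨⟨c, hc⟩, -⟩ := L.decay K 0 F hK h
  have h1 := hc.eventually (closedBall_mem_nhds c one_pos)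
  obtain ⟨C, hC, h2⟩ := mem_cocompact.1 h1
  obtain ⟨R, hR⟩ := hC.isBounded.subset_ball (0 : ℂ)
  refine ⟨‖c‖ + 1, R, fun z hz => (abs_re_le_norm _).trans ?_⟩
  have h3 := h2 (a := z) fun h' => by simpa using (mem_ball_zero_iff.1 (hR h')).trans_le hz
  simp only [mem_ofPred_eq, zero_mul, sub_zero, dist_eq_norm] at h3
  linarith [norm_sub_norm_le (F z) c]

theorem om_eq (L : Lib) (hi : S_ip) (hb : S_bas) {K A B : Set ℂ} {a b : ℂ → ℝ} (hK : IsCompact K)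
    (hp : Par K A B) (ha : Adm K a) (hb' : Adm K b) :
    ∃ θ, Tst K θ ∧ LocC K B θ ∧ om K A a b = ip K (rot (gr θ)) (gr b) := by
  obtain ⟨χ, hχ, -⟩ := L.cut K A univ hK hp.a isOpen_univ (subset_univ _)
  obtain ⟨t1, t2, -⟩ := hb.cut K A B χ a hK hp hχ ha
  exact ⟨_, t1, t2, by rw [hi.wd, (L.omA.ind K A χ a b hK hp.a hχ ha hb').2, omc]⟩

end EOrth

open EOrth in
theorem s_orth (L : Lib) (hi : S_ip) (hb : S_bas) (hd : S_dec) (hh : S_harm) : S_orth := by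
  intro K A B Y Z hK hp hY hZ h1 h2
  have kc := hK.cpt.isClosed
  have t0 : ∀ χ, T0 K χ → Tst K χ := fun χ h => (hb.t0 K A χ hK.cpt h).1.1
  obtain ⟨Zh, z1, z2, z3⟩ := hd K {g | ∃ χ, T0 K χ ∧ g = gr χ} Z
    (by rintro _ ⟨χ, h, rfl⟩; exact hb.l2 K χ kc (t0 χ h)) hZ
  obtain ⟨Yh, y1, y2, y3⟩ := hd K {g | ∃ χ, T0 K χ ∧ g = rot (gr χ)} Y
    (by rintro _ ⟨χ, h, rfl⟩; exact hi.lrot K _ (hb.l2 K χ kc (t0 χ h))) hY
  have z4 : ∀ θ, Tst K θ → LocC K B θ → ip K (rot (gr θ)) Zh = 0 := fun θ a b =>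
    (z3 _ (hi.lrot K _ (hb.l2 K θ kc a)) (by
      rintro _ ⟨χ, h, rfl⟩
      exact (hb.zero1 K χ θ hK.cpt h a.1).2)).trans (h2 θ a b)
  have y4 : ∀ θ, Tst K θ → LocC K A θ → ip K (gr θ) Yh = 0 := fun θ a b =>
    (y3 _ (hb.l2 K θ kc a) (by
      rintro _ ⟨χ, h, rfl⟩
      exact (hb.zero1 K χ θ hK.cpt h a.1).1)).trans (h1 θ a b)
  have z5 : ∀ χ, T0 K χ → ip K (rot (gr χ)) Zh = 0 := fun χ h =>
    z4 χ (t0 χ h) (hb.t0 K B χ hK.cpt h).2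
  obtain ⟨F, f1, f2⟩ := hh K Zh hK z1 fun χ h => ⟨z2 _ ⟨χ, h, rfl⟩, z5 χ h⟩
  obtain ⟨G, g1, g2⟩ := hh K Yh hK y1 fun χ h =>
    ⟨y4 χ (t0 χ h) (hb.t0 K A χ hK.cpt h).2, y2 _ ⟨χ, h, rfl⟩⟩
  have ea : ∀ᵐ z, z ∉ K → Zh z = gr (ru F) z := f2.mono fun z h hz => by
    rw [h hz, (L.hol.gru F z (f1.1.differentiableAt (kc.isOpen_compl.mem_nhds hz))).1]
  have eb : ∀ᵐ z, z ∉ K → rot Yh z = gr (iv G) z := g2.mono fun z h hz => by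
    rw [rot, h hz, (L.hol.gru G z (g1.1.differentiableAt (kc.isOpen_compl.mem_nhds hz))).2]
  have aa := (L.hol.adm K 0 F kc f1).1
  have ab := (L.hol.adm K 0 G kc g1).2
  have tr : ∀ W : ℂ → ℂ, ∀ᵐ z, z ∉ K → W z = W z := fun W => Eventually.of_forall fun _ _ => rfl
  obtain ⟨M, R, hM⟩ := bd L hK.cpt f1
  have e1 := L.omC.inf K _ _ M R hK.cpt aa ab ((hi.lgr K _).1 (hi.lcongr K _ _ kc z1 ea))
    ((hi.lgr K _).1 (hi.lcongr K _ _ kc (hi.lrot K _ y1) eb)) hM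
  have e2 := L.omB.union K A B _ _ hK.cpt hp.a hp.b hp.dis aa ab
  obtain ⟨θ, t1, t2, e3⟩ := om_eq L hi hb hK.cpt hp.symm aa ab
  obtain ⟨θ', t3, t4, e4⟩ := om_eq L hi hb hK.cpt hp ab aa
  rw [← hi.congr K _ _ _ _ kc (tr _) eb, hi.rr, y4 θ t1 t2] at e3
  rw [← hi.congr K _ _ _ _ kc (tr _) ea, z4 θ' t3 t4] at e4
  rw [hp.un, e3, L.omB.anti K A _ _ hK.cpt hp.a aa ab, e4, e1, ← hi.wd,
    ← hi.congr K (rot Zh) _ _ _ kc (ea.mono fun z h hz => by rw [rot, rot, h hz]) eb, hi.rr,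
    y3 Zh z1 (by rintro _ ⟨χ, h, rfl⟩; exact z5 χ h), hi.comm,
    z3 Y hY (by
      rintro _ ⟨χ, h, rfl⟩
      exact h1 χ (t0 χ h) (hb.t0 K A χ hK.cpt h).2)] at e2
  simpa using e2

end Vale.Agent.P116.E
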