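import Vale.Agent.P116.EStm

/-! Part E: the Poincare inequality on compact subsets of a domain. -/

open Set Filter Topology MeasureTheory Metric Complex
open scoped ENNReal NNReal ComplexConjugate

noncomputable section
namespace Vale.Agent.P116.E

namespace EPoin

variable {G : Set ℂ}

/-- Admissible functions. -/
def Ad (G : Set ℂ) (φ : ℂ → ℝ) : Prop :=
  LocallyLipschitzOn G φ ∧ IntegrableOn (fun z => ‖gr φ z‖ ^ 2) G

/-- The inequality on `D` with the constants `k`. -/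
def Pn (G : Set ℂ) (k : (ℂ → ℝ) → ℝ) (D : Set ℂ) : Prop :=
  ∃ M ≥ 0, ∀ φ, Ad G φ → IntegrableOn (fun z => (φ z - k φ) ^ 2) D ∧
    ∫ z in D, (φ z - k φ) ^ 2 ≤ M * ∫ z in G, ‖gr φ z‖ ^ 2

theorem en_nonneg (S : Set ℂ) (φ : ℂ → ℝ) : 0 ≤ ∫ z in S, ‖gr φ z‖ ^ 2 :=
  integral_nonneg fun _ => sq_nonneg _

theorem Pn.mono {k : (ℂ → ℝ) → ℝ} {D D' : Set ℂ} (h : Pn G k D) (hD : D' ⊆ D) : Pn G k D' := by
  obtain ⟨M, h0, h1⟩ := h
  refine ⟨M, h0, fun φ hφ => ⟨(h1 φ hφ).1.mono_set hD, le_trans ?_ (h1 φ hφ).2⟩⟩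
  exact setIntegral_mono_set (h1 φ hφ).1 (Eventually.of_forall fun _ => sq_nonneg _)
    hD.eventuallyLE

theorem Pn.union {k : (ℂ → ℝ) → ℝ} {D D' : Set ℂ} (h : Pn G k D) (h' : Pn G k D') :
    Pn G k (D ∪ D') := by
  obtain ⟨M, h0, h1⟩ := h
  obtain ⟨M', h0', h1'⟩ := h'
  refine ⟨M + M', add_nonneg h0 h0', fun φ hφ => ⟨(h1 φ hφ).1.union (h1' φ hφ).1, ?_⟩⟩
  have h2 := integral_mono_measure (Measure.restrict_union_le (μ := volume) D D')
    (Eventually.of_forall fun z => sq_nonneg (φ z - k φ))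
    (Integrable.add_measure (h1 φ hφ).1 (h1' φ hφ).1)
  rw [integral_add_measure (h1 φ hφ).1 (h1' φ hφ).1] at h2
  linarith [(h1 φ hφ).2, (h1' φ hφ).2]

theorem loc (h0 : S_poin0) {z : ℂ} {r : ℝ} (hr : 0 < r) (hG : ball z (4 * r) ⊆ G) :
    ∃ k, Pn G k (ball z r) := by
  obtain ⟨M, hM, h⟩ := h0 z r hr
  have h1 : ∀ φ, ∃ k, Ad G φ → ∫ w in ball z r, (φ w - k) ^ 2 ≤ M * ∫ w in G, ‖gr φ w‖ ^ 2 := by
    intro φ
    by_cases hφ : Ad G φ
    · obtain ⟨k, hk⟩ := h φ (hφ.1.mono hG) (hφ.2.mono_set hG)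
      exact ⟨k, fun _ => hk.trans (mul_le_mul_of_nonneg_left (setIntegral_mono_set hφ.2
        (Eventually.of_forall fun _ => sq_nonneg _) hG.eventuallyLE) hM)⟩
    · exact ⟨0, fun h => absurd h hφ⟩
  choose k hk using h1
  refine ⟨k, M, hM, fun φ hφ => ⟨?_, hk φ hφ⟩⟩
  have h2 : closedBall z r ⊆ G := (closedBall_subset_ball (by linarith)).trans hG
  exact ((((hφ.1.continuousOn.mono h2).sub continuousOn_const).pow 2).integrableOn_compact
    (isCompact_closedBall z r)).mono_set ball_subset_closedBall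

/-- Changing the constants. -/
theorem change {k k' : (ℂ → ℝ) → ℝ} {D D' : Set ℂ} (h : Pn G k D') (h' : Pn G k' D) (hD : D' ⊆ D)
    (h0 : volume D' ≠ 0) (h1 : volume D ≠ ⊤) (hm : MeasurableSet D) (hG : D ⊆ G) : Pn G k D := by
  obtain ⟨M, a0, a1⟩ := h
  obtain ⟨N, -, c1⟩ := h'.mono hD
  obtain ⟨M', b0, b1⟩ := h'
  have h2 : volume D' ≠ ⊤ := ne_top_of_le_ne_top h1 (measure_mono hD)
  have hv : 0 < volume.real D' := ENNReal.toReal_pos h0 h2
  refine ⟨2 * M' + 2 * volume.real D * ((2 * M + 2 * |N|) / volume.real D'), by positivity,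
    fun φ hφ => ?_⟩
  have i1 : IntegrableOn (fun z => 2 * (φ z - k' φ) ^ 2 + 2 * (k φ - k' φ) ^ 2) D :=
    ((b1 φ hφ).1.const_mul 2).add (integrableOn_const h1)
  have i2 : IntegrableOn (fun z => (φ z - k φ) ^ 2) D := by
    have m : AEStronglyMeasurable (fun z => (φ z - k φ) ^ 2) (volume.restrict D) :=
      (((hφ.1.continuousOn.mono hG).sub continuousOn_const).pow 2).aestronglyMeasurable hm
    refine i1.mono' m (Eventually.of_forall fun z => ?_)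
    rw [Real.norm_eq_abs, abs_of_nonneg (sq_nonneg _)]
    nlinarith [sq_nonneg (φ z - k' φ + (k φ - k' φ))]
  have e1 : ∫ z in D, (φ z - k φ) ^ 2 ≤
      2 * (∫ z in D, (φ z - k' φ) ^ 2) + volume.real D * (2 * (k φ - k' φ) ^ 2) := by
    refine (integral_mono i2 i1 fun z => ?_).trans (le_of_eq ?_)
    · nlinarith [sq_nonneg (φ z - k' φ + (k φ - k' φ))]
    · rw [integral_add ((b1 φ hφ).1.const_mul 2) (integrableOn_const h1), integral_const_mul,
        setIntegral_const, smul_eq_mul]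
  have e2 : volume.real D' * (k φ - k' φ) ^ 2 ≤
      2 * (∫ z in D', (φ z - k φ) ^ 2) + 2 * ∫ z in D', (φ z - k' φ) ^ 2 := by
    rw [← integral_const_mul, ← integral_const_mul,
      ← integral_add ((a1 φ hφ).1.const_mul 2) ((c1 φ hφ).1.const_mul 2), ← smul_eq_mul,
      ← setIntegral_const]
    refine integral_mono (integrableOn_const h2)
      (((a1 φ hφ).1.const_mul 2).add ((c1 φ hφ).1.const_mul 2)) fun z => ?_
    nlinarith [sq_nonneg (φ z - k φ + (φ z - k' φ))]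
  have e3 : (k φ - k' φ) ^ 2 ≤ (2 * M + 2 * |N|) / volume.real D' * ∫ z in G, ‖gr φ z‖ ^ 2 := by
    rw [div_mul_eq_mul_div, le_div_iff₀' hv]
    linarith [(a1 φ hφ).2, (c1 φ hφ).2,
      mul_le_mul_of_nonneg_right (le_abs_self N) (en_nonneg G φ)]
  refine ⟨i2, ?_⟩
  linarith [(b1 φ hφ).2, mul_le_mul_of_nonneg_left e3 (measureReal_nonneg (μ := volume) (s := D))]

end EPoin

open EPoin in
theorem s_poin (h0 : S_poin0) : S_poin := by
  intro G C hG hc hC hCG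
  rcases C.eq_empty_or_nonempty with rfl | ⟨z₀, hz₀⟩
  · exact ⟨0, le_rfl, fun φ _ _ => ⟨0, by simp⟩⟩
  have loc' : ∀ z ∈ G, ∃ r > 0, ball z r ⊆ G ∧ ∃ k, Pn G k (ball z r) := fun z hz => by
    obtain ⟨r, hr, h⟩ := Metric.isOpen_iff.1 hG z hz
    exact ⟨r / 4, by positivity, (ball_subset_ball (by linarith)).trans h,
      loc h0 (by positivity) (by rwa [mul_div_cancel₀ r four_ne_zero])⟩
  obtain ⟨r₀, hr₀, -, k, hk⟩ := loc' z₀ (hCG hz₀)
  have key : G ⊆ {z | ∃ D, IsOpen D ∧ z ∈ D ∧ Pn G k D} := by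
    refine hc.subset_of_closure_inter_subset ?_
      ⟨z₀, hCG hz₀, _, isOpen_ball, mem_ball_self hr₀, hk⟩ ?_
    · exact isOpen_iff_mem_nhds.2 fun z ⟨D, h1, h2, h3⟩ =>
        mem_of_superset (h1.mem_nhds h2) fun w hw => ⟨D, h1, hw, h3⟩
    · rintro z ⟨h1, h2⟩
      obtain ⟨r, hr, hs, k', hk'⟩ := loc' z h2
      obtain ⟨w, h3, D, h4, h5, h6⟩ := mem_closure_iff.1 h1 _ isOpen_ball (mem_ball_self hr)
      exact ⟨_, isOpen_ball, mem_ball_self hr, change (h6.mono inter_subset_left) hk'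
        inter_subset_right ((h4.inter isOpen_ball).measure_ne_zero _ ⟨w, h5, h3⟩)
        measure_ball_lt_top.ne measurableSet_ball hs⟩
  obtain ⟨M, hM, h⟩ : Pn G k C := by
    refine hC.induction_on ⟨0, le_rfl, fun φ _ => by simp⟩ (fun s t hst h => h.mono hst)
      (fun s t h h' => h.union h') fun z hz => ?_
    obtain ⟨D, h1, h2, h3⟩ := key (hCG hz)
    exact ⟨D, mem_nhdsWithin_of_mem_nhds (h1.mem_nhds h2), h3⟩
  exact ⟨M, hM, fun φ h1 h2 => ⟨k φ, (h φ ⟨h1, h2⟩).2⟩⟩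

end Vale.Agent.P116.E
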