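import Vale.Agent.P116.EStm

/-! Part E: the Poincare inequality in discs. -/

open Set Filter Topology MeasureTheory Metric Complex
open scoped ENNReal NNReal ComplexConjugate

noncomputable section
namespace Vale.Agent.P116.E

namespace EPoin0

theorem mem4 {c z h : ℂ} {r : ℝ} (hr : 0 < r) (hz : z ∈ closedBall c r)
    (hh : h ∈ closedBall (0 : ℂ) (2 * r)) : z + h ∈ ball c (4 * r) := by
  rw [mem_closedBall, dist_eq_norm] at hz
  rw [mem_closedBall_zero_iff] at hh
  rw [mem_ball, dist_eq_norm, add_sub_right_comm]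
  linarith [norm_add_le (z - c) h]

theorem shift (f : ℂ → ℝ) (z : ℂ) (s : ℝ) :
    ∫ h in closedBall (0 : ℂ) s, f (z + h) = ∫ w in closedBall z s, f w := by
  rw [← (measurePreserving_add_left volume z).setIntegral_preimage_emb
    (measurableEmbedding_addLeft z) f]
  congr 2
  ext x
  simp [dist_eq_norm]

end EPoin0

theorem s_poin0 (ht : S_tr) : S_poin0 := by
  intro c r hr
  refine ⟨(volume.real (ball c r))⁻¹ * (volume.real (closedBall (0 : ℂ) (2 * r)) * (2 * r) ^ 2),
    by positivity, fun φ hφ hi => ?_⟩
  have hc := hφ.continuousOn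
  have s1 : closedBall c r ⊆ ball c (4 * r) := closedBall_subset_ball (by linarith)
  have s3 : ball c (3 * r) ⊆ ball c (4 * r) := ball_subset_ball (by linarith)
  have h1 : IntegrableOn (fun p : ℂ × ℂ => (φ (p.1 + p.2) - φ p.1) ^ 2)
      (ball c r ×ˢ closedBall 0 (2 * r)) (volume.prod volume) := by
    refine (ContinuousOn.integrableOn_compact ((isCompact_closedBall c r).prod
      (isCompact_closedBall 0 (2 * r))) ?_).mono_set (prod_mono ball_subset_closedBall subset_rfl)
    exact ((hc.comp (continuous_fst.add continuous_snd).continuousOn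
      fun p hp => EPoin0.mem4 hr hp.1 hp.2).sub
      (hc.comp continuous_fst.continuousOn fun p hp => s1 hp.1)).pow 2
  rw [IntegrableOn, ← Measure.prod_restrict] at h1
  have h2 : ∫ z in ball c r, ∫ h in closedBall (0 : ℂ) (2 * r), (φ (z + h) - φ z) ^ 2 ≤
      volume.real (closedBall (0 : ℂ) (2 * r)) * (2 * r) ^ 2 *
        ∫ z in ball c (4 * r), ‖gr φ z‖ ^ 2 := by
    rw [integral_integral_swap (f := fun z h : ℂ => (φ (z + h) - φ z) ^ 2) h1, mul_assoc,
      ← smul_eq_mul (volume.real _), ← setIntegral_const]
    refine setIntegral_mono_on h1.integral_prod_right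
      (integrableOn_const measure_closedBall_lt_top.ne) measurableSet_closedBall fun h hh => ?_
    rw [mem_closedBall_zero_iff] at hh
    refine (ht c h r φ hh (hφ.mono s3) (hi.mono_set s3)).trans (mul_le_mul
      (pow_le_pow_left₀ (norm_nonneg _) hh 2) ?_ (integral_nonneg fun z => sq_nonneg _)
      (sq_nonneg _))
    exact setIntegral_mono_set hi (Eventually.of_forall fun z => sq_nonneg _) s3.eventuallyLE
  obtain ⟨z, hz, h3⟩ := exists_le_setAverage (measure_ball_pos volume c hr).ne'
    measure_ball_lt_top.ne h1.integral_prod_left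
  rw [setAverage_eq, smul_eq_mul] at h3
  refine ⟨φ z, ?_⟩
  have s4 : closedBall z (2 * r) ⊆ ball c (4 * r) := closedBall_subset_ball' (by
    have := mem_ball.1 hz
    linarith)
  have s5 : ball c r ⊆ closedBall z (2 * r) := ball_subset_closedBall.trans
    (closedBall_subset_closedBall' (by
      have := mem_ball.1 hz
      rw [dist_comm]
      linarith))
  have h4 : ∫ w in ball c r, (φ w - φ z) ^ 2 ≤ ∫ w in closedBall z (2 * r), (φ w - φ z) ^ 2 :=
    setIntegral_mono_set ((((hc.mono s4).sub continuousOn_const).pow 2).integrableOn_compact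
      (isCompact_closedBall _ _)) (Eventually.of_forall fun z => sq_nonneg _) s5.eventuallyLE
  rw [← EPoin0.shift fun w => (φ w - φ z) ^ 2] at h4
  rw [mul_assoc]
  exact h4.trans (h3.trans (mul_le_mul_of_nonneg_left h2 (by positivity)))

end Vale.Agent.P116.E
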