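import Vale.Agent.P116.EStm

/-! Part E: the translation estimate. -/

open Set Filter Topology MeasureTheory Metric Complex
open scoped ENNReal NNReal ComplexConjugate

noncomputable section
namespace Vale.Agent.P116.E

namespace ETr

theorem cs {μ : Measure ℝ} (hμ : μ univ = 1) {g : ℝ → ℝ≥0∞} (hg : AEMeasurable g μ) :
    (∫⁻ t, g t ∂μ) ^ 2 ≤ ∫⁻ t, g t ^ 2 ∂μ := by
  have h := ENNReal.lintegral_mul_le_Lp_mul_Lq μ Real.HolderConjugate.two_two hg
    (aemeasurable_const (b := (1 : ℝ≥0∞)))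
  simp only [Pi.mul_apply, mul_one, ENNReal.one_rpow, lintegral_const, hμ, ENNReal.rpow_two,
    one_pow] at h
  refine (pow_le_pow_left' h 2).trans (le_of_eq ?_)
  rw [← ENNReal.rpow_two, ← ENNReal.rpow_mul]
  norm_num

theorem seg {c h z : ℂ} {r t : ℝ} (hh : ‖h‖ ≤ 2 * r) (hz : z ∈ ball c r) (ht : t ∈ Icc (0 : ℝ) 1) :
    z + t • h ∈ ball c (3 * r) := by
  rw [mem_ball, dist_eq_norm] at hz ⊢
  have h1 : ‖t • h‖ ≤ ‖h‖ := by
    rw [norm_smul, Real.norm_of_nonneg ht.1]
    exact mul_le_of_le_one_left (norm_nonneg _) ht.2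
  have h2 := norm_add_le (z - c) (t • h)
  rw [add_sub_right_comm]
  linarith

theorem point (L : Lib) {c h z : ℂ} {r : ℝ} {φ : ℂ → ℝ} (hh : ‖h‖ ≤ 2 * r)
    (hφ : LocallyLipschitzOn (ball c (3 * r)) φ) (hz : z ∈ ball c r)
    (hd : ∀ᵐ t : ℝ, z + t • h ∈ ball c (3 * r) → DifferentiableAt ℝ φ (z + t • h)) :
    ENNReal.ofReal ((φ (z + h) - φ z) ^ 2) ≤ ‖h‖ₑ ^ 2 * ∫⁻ t in Ioc (0 : ℝ) 1,
      (ball c (3 * r)).indicator (fun w => ‖gr φ w‖ₑ ^ 2) (z + t • h) := by
  have hγ : LipschitzWith ‖h‖₊ fun t : ℝ => z + t • h := LipschitzWith.of_dist_le_mul fun s t => by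
    rw [dist_add_left, dist_eq_norm, ← sub_smul, norm_smul, dist_eq_norm, mul_comm]
    rfl
  obtain ⟨M, hM⟩ := (hφ.mono (s := (fun t : ℝ => z + t • h) '' Icc 0 1) (by
    rintro _ ⟨t, ht, rfl⟩
    exact seg hh hz ht)).exists_lipschitzOnWith_of_compact (isCompact_Icc.image hγ.continuous)
  have h1 : LipschitzOnWith (M * ‖h‖₊) (fun t : ℝ => φ (z + t • h)) (uIcc 0 1) := by
    rw [uIcc_of_le zero_le_one]
    exact hM.comp hγ.lipschitzOnWith (mapsTo_image _ _)
  have h2 := h1.absolutelyContinuousOnInterval.integral_deriv_eq_sub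
  rw [one_smul, zero_smul, add_zero, intervalIntegral.integral_of_le zero_le_one] at h2
  have hm : Measurable fun t : ℝ => ‖gr φ (z + t • h)‖ₑ :=
    ((L.adm.meas φ).comp hγ.continuous.measurable).enorm
  have h3 : ‖φ (z + h) - φ z‖ₑ ≤ ‖h‖ₑ * ∫⁻ t in Ioc (0 : ℝ) 1, ‖gr φ (z + t • h)‖ₑ := by
    rw [← h2, ← lintegral_const_mul _ hm]
    refine (enorm_integral_le_lintegral_enorm _).trans (lintegral_mono_ae ?_)
    filter_upwards [ae_restrict_of_ae hd, ae_restrict_mem measurableSet_Ioc] with t h4 ht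
    have h5 : HasDerivAt (fun t : ℝ => z + t • h) h t := by
      simpa using ((hasDerivAt_id t).smul_const h).const_add z
    have h6 := ((h4 (seg hh hz (Ioc_subset_Icc_self ht))).hasFDerivAt.comp_hasDerivAt t h5).deriv
    rw [show deriv (fun t : ℝ => φ (z + t • h)) t = _ from h6, ← ofReal_norm,
      ← ofReal_norm, ← ofReal_norm, ← ENNReal.ofReal_mul (norm_nonneg _),
      L.adm.nrm, mul_comm]
    exact ENNReal.ofReal_le_ofReal (ContinuousLinearMap.le_opNorm _ _)
  rw [← sq_abs, ENNReal.ofReal_pow (abs_nonneg _), ← Real.norm_eq_abs, ofReal_norm]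
  refine (pow_le_pow_left' h3 2).trans ?_
  rw [mul_pow]
  gcongr
  refine (cs (by simp) hm.aemeasurable).trans (le_of_eq (setLIntegral_congr_fun measurableSet_Ioc
    fun t ht => ?_))
  simp only [indicator_of_mem (seg hh hz (Ioc_subset_Icc_self ht))]

end ETr

theorem s_tr (L : Lib) : S_tr := by
  intro c h r φ hh hφ hi
  have h0 : 0 ≤ ∫ z in ball c (3 * r), ‖gr φ z‖ ^ 2 := integral_nonneg fun z => sq_nonneg _
  by_cases hint : IntegrableOn (fun z => (φ (z + h) - φ z) ^ 2) (ball c r)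
  swap
  · rw [integral_undef hint]
    positivity
  have hc : Continuous fun p : ℂ × ℝ => p.1 + p.2 • h := by fun_prop
  have hd : ∀ᵐ z : ℂ, ∀ᵐ t : ℝ, z + t • h ∈ ball c (3 * r) → DifferentiableAt ℝ φ (z + t • h) := by
    have hN : MeasurableSet {w : ℂ | w ∈ ball c (3 * r) → DifferentiableAt ℝ φ w} :=
      MeasurableSet.imp measurableSet_ball (measurableSet_of_differentiableAt ℝ φ)
    refine (Measure.ae_ae_comm (p := fun (z : ℂ) (t : ℝ) => z + t • h ∈ ball c (3 * r) →
      DifferentiableAt ℝ φ (z + t • h)) (hc.measurable hN)).2 (Eventually.of_forall fun t => ?_)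
    exact (measurePreserving_add_right volume (t • h)).quasiMeasurePreserving.ae
      (L.adm.dif _ φ isOpen_ball hφ)
  have hG : Measurable ((ball c (3 * r)).indicator fun w => ‖gr φ w‖ₑ ^ 2) :=
    ((L.adm.meas φ).enorm.pow_const 2).indicator measurableSet_ball
  rw [← ENNReal.ofReal_le_ofReal_iff (by positivity),
    ofReal_integral_eq_lintegral_ofReal hint (Eventually.of_forall fun z => sq_nonneg _),
    ENNReal.ofReal_mul (sq_nonneg _),
    ofReal_integral_eq_lintegral_ofReal hi (Eventually.of_forall fun z => sq_nonneg _)]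
  simp only [ENNReal.ofReal_pow (norm_nonneg _), ofReal_norm]
  calc ∫⁻ z in ball c r, ENNReal.ofReal ((φ (z + h) - φ z) ^ 2)
      ≤ ∫⁻ z in ball c r, ‖h‖ₑ ^ 2 * ∫⁻ t in Ioc (0 : ℝ) 1,
          (ball c (3 * r)).indicator (fun w => ‖gr φ w‖ₑ ^ 2) (z + t • h) := by
        refine lintegral_mono_ae ?_
        filter_upwards [ae_restrict_of_ae hd, ae_restrict_mem measurableSet_ball] with z h1 h2
        exact ETr.point L hh hφ h2 h1
    _ ≤ ‖h‖ₑ ^ 2 * ∫⁻ z, ∫⁻ t in Ioc (0 : ℝ) 1,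
          (ball c (3 * r)).indicator (fun w => ‖gr φ w‖ₑ ^ 2) (z + t • h) := by
        rw [lintegral_const_mul' _ _ (ENNReal.pow_ne_top enorm_ne_top)]
        gcongr
        exact Measure.restrict_le_self
    _ = _ := by
        rw [lintegral_lintegral_swap (f := fun (z : ℂ) (t : ℝ) =>
          (ball c (3 * r)).indicator (fun w => ‖gr φ w‖ₑ ^ 2) (z + t • h))
          (hG.comp hc.measurable).aemeasurable]
        simp only [lintegral_add_right_eq_self
          ((ball c (3 * r)).indicator fun w => ‖gr φ w‖ₑ ^ 2)]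
        rw [lintegral_const, lintegral_indicator measurableSet_ball]
        simp

end Vale.Agent.P116.E
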