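import Vale.Agent.P116.EGlue
import Vale.Agent.P116.EIp
import Vale.Agent.P116.EBas
import Vale.Agent.P116.EMor
import Vale.Agent.P116.EMorf
import Vale.Agent.P116.EDec
import Vale.Agent.P116.EHarm
import Vale.Agent.P116.EOrth
import Vale.Agent.P116.EHilb
import Vale.Agent.P116.ETr
import Vale.Agent.P116.EPoin0
import Vale.Agent.P116.EPoin
import Vale.Agent.P116.EAppr
import Vale.Agent.P116.EDstar

/-! Part E: existence for the mixed problem. -/

namespace Vale.Agent.P116

open E in
theorem s_ex (L : Lib) : S_ex :=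
  have hb := s_bas L s_ip
  glue L s_ip hb (s_hilb L s_ip hb (s_morf s_mor) (s_orth L s_ip hb s_dec (s_harm L))) (s_harm L)
    (s_appr L s_ip hb (s_poin (s_poin0 (s_tr L)))) (s_dstar L s_ip hb)

end Vale.Agent.P116
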