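import Vale.Agent.P116.AStm

/-! Part E (existence for the mixed problem): definitions and statements. -/

open Set Filter Topology MeasureTheory Metric Complex
open scoped ENNReal NNReal ComplexConjugate

noncomputable section
namespace Vale.Agent.P116.E

/-- Square integrable fields off `K`. -/
def L2 (K : Set ℂ) (W : ℂ → ℂ) : Prop := MemLp W 2 (volume.restrict Kᶜ)

/-- The real inner product of fields. -/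
def ip (K : Set ℂ) (W Z : ℂ → ℂ) : ℝ := ∫ z in Kᶜ, inner ℝ (W z) (Z z)

/-- Rotation by a right angle. -/
def rot (W : ℂ → ℂ) : ℂ → ℂ := fun z => I * W z

/-- `K` is split in two clopen pieces. -/
structure Par (K A B : Set ℂ) : Prop where
  a : Clo K A
  b : Clo K B
  ab : K \ A = B
  ba : K \ B = A

theorem Par.symm {K A B : Set ℂ} (h : Par K A B) : Par K B A := ⟨h.b, h.a, h.ba, h.ab⟩

theorem Par.dis {K A B : Set ℂ} (h : Par K A B) : Disjoint A B := h.ab ▸ disjoint_sdiff_right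

theorem Par.un {K A B : Set ℂ} (h : Par K A B) : A ∪ B = K := h.ab ▸ union_sdiff_cancel h.a.1

/-- Test functions. -/
def Tst (K : Set ℂ) (θ : ℂ → ℝ) : Prop := Adm K θ ∧ ∃ R : ℝ, ∀ z, R ≤ ‖z‖ → θ z = 0

/-- Smooth functions which are locally constant near `K`. -/
def T0 (K : Set ℂ) (χ : ℂ → ℝ) : Prop :=
  ContDiff ℝ 2 χ ∧ HasCompactSupport χ ∧ tsupport (gr χ) ⊆ Kᶜ

/-- Test pairs that are good on `T`, with free values off `T`. -/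
def Gd (K T : Set ℂ) (θ : ℂ → ℝ) (s : Cmp K → ℝ) : Prop :=
  Tst K θ ∧ Summable (fun p => s p ^ 2) ∧ ∀ p : Cmp K, p.1 ⊆ T → 0 ≤ s p ∧ Osc K p.1 θ (s p)

/-- `(W, ρ)` is a limit of gradients of good pairs. -/
def Cl (K T : Set ℂ) (W : ℂ → ℂ) (ρ : Cmp K → ℝ) : Prop :=
  ∀ δ > 0, ∃ θ s, Gd K T θ s ∧ ∫ z in Kᶜ, ‖gr θ z - W z‖ ^ 2 ≤ δ ∧ sm K (s - ρ) (s - ρ) ≤ δ

/-- The dual condition for fields. -/
def Du (K T T' : Set ℂ) (W : ℂ → ℂ) (ρ : Cmp K → ℝ) : Prop :=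
  ∀ θ s, Gd K T θ s → LocC K T' θ → |ip K (rot (gr θ)) W| ≤ sm T s ρ

/-- Pairs of a field and a function on the components. -/
abbrev PP (K : Set ℂ) : Type := (ℂ → ℂ) × (Cmp K → ℝ)

/-- Square integrable pairs. -/
def Mem (K : Set ℂ) (x : PP K) : Prop := L2 K x.1 ∧ Summable fun p => x.2 p ^ 2

/-- The inner product of pairs. -/
def ipp (K : Set ℂ) (x y : PP K) : ℝ := ip K x.1 y.1 + sm K x.2 y.2

/-- Equality of pairs up to null sets. -/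
def Eqv (K : Set ℂ) (x y : PP K) : Prop := (∀ᵐ z, z ∉ K → x.1 z = y.1 z) ∧ x.2 = y.2

/-- Convex cones of pairs. -/
def ConeF (K : Set ℂ) (Γ : Set (PP K)) : Prop :=
  Γ.Nonempty ∧ (∀ x ∈ Γ, Mem K x) ∧ (∀ x ∈ Γ, ∀ y ∈ Γ, ∃ z ∈ Γ, Eqv K z (x + y)) ∧
    ∀ t : ℝ, 0 ≤ t → ∀ x ∈ Γ, ∃ z ∈ Γ, Eqv K z (t • x)

/-- Membership in the closure. -/
def Near (K : Set ℂ) (Γ : Set (PP K)) (m : PP K) : Prop :=
  ∀ δ > 0, ∃ g ∈ Γ, ∫ z in Kᶜ, ‖g.1 z - m.1 z‖ ^ 2 ≤ δ ∧ sm K (g.2 - m.2) (g.2 - m.2) ≤ δ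

/-- Convex cones in a vector space. -/
def Cone {H : Type} [AddCommGroup H] [Module ℝ H] (Γ : Set H) : Prop :=
  Γ.Nonempty ∧ (∀ x ∈ Γ, ∀ y ∈ Γ, x + y ∈ Γ) ∧ ∀ t : ℝ, 0 ≤ t → ∀ x ∈ Γ, t • x ∈ Γ

/-- Algebra of the inner product. -/
structure S_ip : Prop where
  comm : ∀ (K : Set ℂ) (W Z : ℂ → ℂ), ip K W Z = ip K Z W
  rr : ∀ (K : Set ℂ) (W Z : ℂ → ℂ), ip K (rot W) (rot Z) = ip K W Z
  skew : ∀ (K : Set ℂ) (W Z : ℂ → ℂ), ip K (rot W) Z = - ip K W (rot Z)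
  neg : ∀ (K : Set ℂ) (W Z : ℂ → ℂ), ip K (-W) Z = - ip K W Z ∧ ip K W (-Z) = - ip K W Z
  add : ∀ (K : Set ℂ) (W Z Z' : ℂ → ℂ), L2 K W → L2 K Z → L2 K Z' →
    ip K W (Z + Z') = ip K W Z + ip K W Z' ∧ ip K W (Z - Z') = ip K W Z - ip K W Z'
  congr : ∀ (K : Set ℂ) (W Z W' Z' : ℂ → ℂ), IsClosed K → (∀ᵐ z, z ∉ K → W z = W' z) →
    (∀ᵐ z, z ∉ K → Z z = Z' z) → ip K W Z = ip K W' Z'
  wd : ∀ (K : Set ℂ) (a b : ℂ → ℝ), ip K (rot (gr a)) (gr b) = ∫ z in Kᶜ, wd a b z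
  lrot : ∀ (K : Set ℂ) (W : ℂ → ℂ), L2 K W → L2 K (rot W)
  lcongr : ∀ (K : Set ℂ) (W W' : ℂ → ℂ), IsClosed K → L2 K W → (∀ᵐ z, z ∉ K → W z = W' z) →
    L2 K W'
  lgr : ∀ (K : Set ℂ) (θ : ℂ → ℝ), L2 K (gr θ) ↔ IntegrableOn (fun z => ‖gr θ z‖ ^ 2) Kᶜ
  gneg : ∀ θ : ℂ → ℝ, gr (-θ) = - gr θ
  gadd : ∀ (a b : ℂ → ℝ) (z : ℂ), DifferentiableAt ℝ a z → DifferentiableAt ℝ b z →
    gr (a + b) z = gr a z + gr b z ∧ gr (a - b) z = gr a z - gr b z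
  gsmul : ∀ (t : ℝ) (a : ℂ → ℝ), gr (t • a) = t • gr a
  gconst : ∀ (k : ℝ) (a : ℂ → ℝ), gr (fun z => a z - k) = gr a

/-- Test functions. -/
structure S_bas : Prop where
  l2 : ∀ (K : Set ℂ) (θ : ℂ → ℝ), IsClosed K → Tst K θ → L2 K (gr θ)
  t0 : ∀ (K T : Set ℂ) (χ : ℂ → ℝ), IsCompact K → T0 K χ → Gd K T χ 0 ∧ LocC K T χ
  locc : ∀ (K T : Set ℂ) (θ : ℂ → ℝ), Tst K θ → LocC K T θ → Gd K T θ 0
  cut : ∀ (K A B : Set ℂ) (χ a : ℂ → ℝ), IsCompact K → Par K A B → Cut K A χ → Adm K a →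
    Tst K (fun z => χ z * a z) ∧ LocC K B (fun z => χ z * a z) ∧
      ∀ (p : Cmp K) (t : ℝ), p.1 ⊆ A → Osc K p.1 a t → Osc K p.1 (fun z => χ z * a z) t
  zero : ∀ (K A B : Set ℂ) (a b : ℂ → ℝ), IsCompact K → Par K A B → Tst K a → LocC K A a →
    Adm K b → LocC K B b → ip K (rot (gr a)) (gr b) = 0
  zero1 : ∀ (K : Set ℂ) (χ b : ℂ → ℝ), IsCompact K → T0 K χ → Adm K b →
    ip K (rot (gr χ)) (gr b) = 0 ∧ ip K (gr χ) (rot (gr b)) = 0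
  gz : ∀ K T : Set ℂ, IsClosed K → Gd K T 0 0 ∧ LocC K T 0 ∧ gr (0 : ℂ → ℝ) = 0
  gneg : ∀ (K T : Set ℂ) (θ : ℂ → ℝ) (s : Cmp K → ℝ), IsClosed K → Gd K T θ s → Gd K T (-θ) s
  lneg : ∀ (K T : Set ℂ) (θ : ℂ → ℝ), LocC K T θ → LocC K T (-θ)
  gadd : ∀ (K T : Set ℂ) (a b : ℂ → ℝ) (s t : Cmp K → ℝ), IsClosed K → Gd K T a s → Gd K T b t →
    Gd K T (a + b) (s + t) ∧ ∀ᵐ z, z ∉ K → gr (a + b) z = gr a z + gr b z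
  gsmul : ∀ (K T : Set ℂ) (t : ℝ) (a : ℂ → ℝ) (s : Cmp K → ℝ), IsClosed K → 0 ≤ t → Gd K T a s →
    Gd K T (t • a) (t • s)

/-- Moreau decomposition for a pair of cones. -/
def S_mor : Prop :=
  ∀ (H : Type) [NormedAddCommGroup H] [InnerProductSpace ℝ H] [CompleteSpace H]
    (Γ1 Γ3 C2 : Set H) (h : H), Cone Γ1 → Cone Γ3 → C2 ⊆ Γ3 →
    (∀ y z, (∀ g ∈ Γ1, 0 ≤ inner ℝ g y) → (∀ g ∈ Γ3, 0 ≤ inner ℝ g z) → 0 ≤ inner ℝ y z) →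
    ∃ m n, h = m - n ∧ inner ℝ m n = 0 ∧ m ∈ closure Γ1 ∧ n ∈ closure Γ3 ∧
      (∀ g ∈ C2, 0 ≤ inner ℝ g m) ∧
      ∀ g ∈ Γ1, (∀ g' ∈ C2, 0 ≤ inner ℝ g' g) → 0 ≤ inner ℝ g n

/-- The same for pairs of functions. -/
def S_morf : Prop :=
  ∀ (K : Set ℂ) (Γ1 Γ3 C2 : Set (PP K)) (h : PP K), IsClosed K → Mem K h → ConeF K Γ1 →
    ConeF K Γ3 → C2 ⊆ Γ3 →
    (∀ y z, Mem K y → Mem K z → (∀ g ∈ Γ1, 0 ≤ ipp K g y) → (∀ g ∈ Γ3, 0 ≤ ipp K g z) →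
      0 ≤ ipp K y z) →
    ∃ m n, Mem K m ∧ Mem K n ∧ Eqv K h (m - n) ∧ ipp K m n = 0 ∧ Near K Γ1 m ∧ Near K Γ3 n ∧
      (∀ g ∈ C2, 0 ≤ ipp K g m) ∧ ∀ g ∈ Γ1, (∀ g' ∈ C2, 0 ≤ ipp K g' g) → 0 ≤ ipp K g n

/-- Orthogonal projection. -/
def S_dec : Prop :=
  ∀ (K : Set ℂ) (S : Set (ℂ → ℂ)) (Z : ℂ → ℂ), (∀ g ∈ S, L2 K g) → L2 K Z →
    ∃ Zh, L2 K Zh ∧ (∀ g ∈ S, ip K g Zh = 0) ∧
      ∀ W, L2 K W → (∀ g ∈ S, ip K g W = 0) → ip K W Zh = ip K W Z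

/-- Harmonic fields without periods. -/
def S_harm : Prop :=
  ∀ (K : Set ℂ) (W : ℂ → ℂ), Ctx K → L2 K W →
    (∀ χ, T0 K χ → ip K (gr χ) W = 0 ∧ ip K (rot (gr χ)) W = 0) →
    ∃ F, Hol K 0 F ∧ ∀ᵐ z, z ∉ K → W z = conj (deriv F z)

/-- The two dual cones are orthogonal. -/
def S_orth : Prop :=
  ∀ (K A B : Set ℂ) (Y Z : ℂ → ℂ), Ctx K → Par K A B → L2 K Y → L2 K Z →
    (∀ θ, Tst K θ → LocC K A θ → ip K (gr θ) Y = 0) →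
    (∀ θ, Tst K θ → LocC K B θ → ip K (rot (gr θ)) Z = 0) → ip K Y Z = 0

/-- The solution as a pair of fields. -/
def S_hilb : Prop :=
  ∀ (K A B : Set ℂ) (E : ℂ → ℂ), Ctx K → Par K A B → L2 K E →
    ∃ (W1 W2 : ℂ → ℂ) (ρ : Cmp K → ℝ), L2 K W1 ∧ L2 K W2 ∧ Sq ρ ∧
      (∀ᵐ z, z ∉ K → W1 z + I * W2 z = E z) ∧ ip K (rot W1) W2 + sm K ρ ρ = 0 ∧
      Cl K A W1 ρ ∧ Cl K B W2 ρ ∧ Du K A B W2 ρ ∧ Du K B A W1 ρ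

/-- Translations. -/
def S_tr : Prop :=
  ∀ (c h : ℂ) (r : ℝ) (φ : ℂ → ℝ), ‖h‖ ≤ 2 * r → LocallyLipschitzOn (ball c (3 * r)) φ →
    IntegrableOn (fun z => ‖gr φ z‖ ^ 2) (ball c (3 * r)) →
    ∫ z in ball c r, (φ (z + h) - φ z) ^ 2 ≤ ‖h‖ ^ 2 * ∫ z in ball c (3 * r), ‖gr φ z‖ ^ 2

/-- The Poincare inequality in discs. -/
def S_poin0 : Prop :=
  ∀ (c : ℂ) (r : ℝ), 0 < r → ∃ M ≥ 0, ∀ φ : ℂ → ℝ, LocallyLipschitzOn (ball c (4 * r)) φ →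
    IntegrableOn (fun z => ‖gr φ z‖ ^ 2) (ball c (4 * r)) →
    ∃ k, ∫ z in ball c r, (φ z - k) ^ 2 ≤ M * ∫ z in ball c (4 * r), ‖gr φ z‖ ^ 2

/-- The Poincare inequality on compact subsets of a domain. -/
def S_poin : Prop :=
  ∀ G C : Set ℂ, IsOpen G → IsPreconnected G → IsCompact C → C ⊆ G → ∃ M ≥ 0, ∀ φ : ℂ → ℝ,
    LocallyLipschitzOn G φ → IntegrableOn (fun z => ‖gr φ z‖ ^ 2) G →
    ∃ k, ∫ z in C, (φ z - k) ^ 2 ≤ M * ∫ z in G, ‖gr φ z‖ ^ 2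

/-- The strong form of the approximation. -/
def S_appr : Prop :=
  ∀ (K T : Set ℂ) (ψ U : ℂ → ℝ) (W : ℂ → ℂ) (ρ : Cmp K → ℝ), Ctx K → Adm K ψ →
    Adm K U → (∀ᶠ z in 𝓝ˢ K, ψ z = U z) → L2 K W → (∀ᵐ z, z ∉ K → W z = gr U z) → T ⊆ K →
    Sq ρ → Cl K T W ρ → Appr K T ψ ρ

/-- The dual condition. -/
def S_dstar : Prop :=
  ∀ (K A B : Set ℂ) (ψ U : ℂ → ℝ) (W : ℂ → ℂ) (ρ : Cmp K → ℝ), IsCompact K → Par K A B →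
    Adm K ψ → Adm K U → (∀ᶠ z in 𝓝ˢ K, ψ z = U z) → (∀ᵐ z, z ∉ K → W z = gr U z) → Sq ρ →
    Du K A B W ρ → Star K A ψ ρ

end Vale.Agent.P116.E
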