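import Vale.Agent.P116.IStm

/-! Part I: the area of a neighbourhood of a long set. -/

open Set Filter Topology MeasureTheory Metric Complex
open scoped ENNReal NNReal

noncomputable section
namespace Vale.Agent.P116

namespace IArea

theorem swap (ν : Measure ℂ) [SFinite ν] (r : ℝ) :
    ∫⁻ w, ν (ball w r) = ENNReal.ofReal r ^ 2 * NNReal.pi * ν univ := by
  have hm : MeasurableSet {p : ℂ × ℂ | dist p.2 p.1 < r} :=
    (isOpen_lt (continuous_snd.dist continuous_fst) continuous_const).measurableSet
  have h1 := Measure.prod_apply (μ := volume) (ν := ν) hm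
  have h2 := Measure.prod_apply_symm (μ := volume) (ν := ν) hm
  have h3 : ∀ y : ℂ, (fun w => (w, y)) ⁻¹' {p : ℂ × ℂ | dist p.2 p.1 < r} = ball y r :=
    fun y => Set.ext fun w => mem_ball'.symm
  simp only [h3, Complex.volume_ball, lintegral_const] at h2
  exact h1.symm.trans h2

end IArea

theorem s_iarea (hh : S_ihm) : S_iarea := by
  intro E S B t hE hS hB ht hb
  by_cases h0 : μH[1] (E ∩ B) = ∞
  · rw [h0, ENNReal.mul_top (ENNReal.ofReal_pos.2 (by positivity)).ne']
    exact le_top
  have : IsFiniteMeasure (μH[1].restrict (E ∩ B)) := isFiniteMeasure_restrict.2 h0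
  have h1 : ENNReal.ofReal t * volume (thickening t S) ≤
      ∫⁻ w, (μH[1].restrict (E ∩ B)) (ball w (2 * t)) := by
    rw [← setLIntegral_const]
    refine (setLIntegral_mono_ae' isOpen_thickening.measurableSet
      (Eventually.of_forall fun w hw => ?_)).trans (setLIntegral_le_lintegral _ _)
    obtain ⟨x, hx, h2⟩ := mem_thickening_iff.1 hw
    rw [Measure.restrict_apply measurableSet_ball]
    refine (hh.long E x t hE (hS hx)).trans (measure_mono fun y hy => ⟨?_, hy.1, hb x hx hy.2⟩)
    rw [mem_ball]
    linarith [dist_triangle y x w, dist_comm w x, mem_ball.1 hy.2]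
  rw [IArea.swap, Measure.restrict_apply_univ] at h1
  refine (ENNReal.mul_le_mul_iff_right (ENNReal.ofReal_pos.2 ht).ne' ENNReal.ofReal_ne_top).1
    (h1.trans (le_of_eq ?_))
  rw [← mul_assoc, ← ENNReal.ofReal_mul ht.le, ← ENNReal.ofReal_pow (by positivity),
    ← ENNReal.ofReal_coe_nnreal, ← ENNReal.ofReal_mul (by positivity), NNReal.coe_real_pi]
  congr 2
  ring

end Vale.Agent.P116
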