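import Vale.Agent.P116.IStm

/-! Part I: choice of the parameters. -/

open Set Filter Topology MeasureTheory Metric Complex
open scoped ENNReal NNReal

noncomputable section
namespace Vale.Agent.P116

namespace IAsm

theorem sq2 (a b : ℝ≥0∞) : (a + b) ^ 2 ≤ 2 * (a ^ 2 + b ^ 2) := by
  rcases eq_or_ne a ∞ with rfl | ha
  · simp
  rcases eq_or_ne b ∞ with rfl | hb
  · simp
  lift a to ℝ≥0 using ha
  lift b to ℝ≥0 using hb
  exact_mod_cast (add_sq_le : (a + b) ^ 2 ≤ 2 * (a ^ 2 + b ^ 2))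

theorem sq4 (a b c d : ℝ≥0∞) : (a + b + c + d) ^ 2 ≤ 4 * (a ^ 2 + b ^ 2 + c ^ 2 + d ^ 2) := by
  calc (a + b + c + d) ^ 2 = ((a + b) + (c + d)) ^ 2 := by rw [add_assoc (a + b)]
    _ ≤ 2 * ((a + b) ^ 2 + (c + d) ^ 2) := sq2 _ _
    _ ≤ 2 * (2 * (a ^ 2 + b ^ 2) + 2 * (c ^ 2 + d ^ 2)) := by gcongr <;> exact sq2 _ _
    _ = 4 * (a ^ 2 + b ^ 2 + c ^ 2 + d ^ 2) := by ring

/-- The margin and the Lipschitz constant. -/
theorem margin {K : Set ℂ} {R : ℝ} {ψ : ℂ → ℝ} (hK : IsCompact K) (hK1 : K ⊆ ball 0 1)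
    (hR : 1 < R) (hψ : ContDiffOn ℝ 1 ψ (ball 0 R \ K)) :
    ∃ d0 : ℝ, 0 < d0 ∧ ∃ Lp : ℝ≥0, ∀ a, 0 < a → a ≤ d0 → IC K R ψ a Lp := by
  obtain ⟨r', hr', hKr⟩ := exists_lt_subset_ball hK.isClosed hK1
  set d0 := min (1 - r') ((R - 1) / 4) with hd0
  have h0 : 0 < d0 := lt_min (by linarith) (by linarith)
  have h1 : d0 ≤ 1 - r' := min_le_left _ _
  have h2 : d0 ≤ (R - 1) / 4 := min_le_right _ _
  set X : Set ℂ := closedBall 0 (1 + 3 * d0) \ ball 0 (1 - d0) with hX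
  have hXc : IsCompact X := (isCompact_closedBall _ _).diff isOpen_ball
  have hmem : ∀ w : ℂ, 1 - d0 ≤ ‖w‖ → ‖w‖ ≤ 1 + 3 * d0 → w ∈ X := fun w ha hb =>
    ⟨by simpa using hb, by simpa using ha⟩
  have hU : IsOpen (ball (0 : ℂ) R \ K) := isOpen_ball.sdiff hK.isClosed
  have hXU : X ⊆ ball 0 R \ K := by
    intro w hw
    have ha : ‖w‖ ≤ 1 + 3 * d0 := by simpa using hw.1
    have hb : 1 - d0 ≤ ‖w‖ := by simpa using hw.2
    refine ⟨by simp only [mem_ball, dist_zero_right]; linarith, fun hk => ?_⟩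
    have : ‖w‖ < r' := by simpa using hKr hk
    linarith
  have hloc : LocallyLipschitzOn X ψ := by
    intro w hw
    obtain ⟨C, t, ht, hl⟩ := (hψ.contDiffAt (hU.mem_nhds (hXU hw))).exists_lipschitzOnWith
    exact ⟨C, t, mem_nhdsWithin_of_mem_nhds ht, hl⟩
  obtain ⟨Lp, hLp⟩ := hloc.exists_lipschitzOnWith_of_compact hXc
  refine ⟨d0, h0, Lp, fun a ha had => ⟨hK, ha, hKr.trans (ball_subset_ball (by linarith)),
    by linarith, hψ, fun w hw1 hw2 => ?_, hLp.mono fun w hw => hmem w (by linarith [hw.1])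
      (by linarith [hw.2])⟩⟩
  refine norm_fderiv_le_of_lipschitzOn ℝ ?_ hLp
  have ho : IsOpen {w : ℂ | 1 - a < ‖w‖ ∧ ‖w‖ < 1 + 3 * a} :=
    (isOpen_lt continuous_const continuous_norm).inter (isOpen_lt continuous_norm continuous_const)
  exact mem_of_superset (ho.mem_nhds ⟨hw1, hw2⟩) fun u hu =>
    hmem u (by linarith [hu.1]) (by linarith [hu.2])

/-- Local bounds of the operator. -/
theorem locb (hb : S_ibas) (hk : S_iker) {K Ω C : Set ℂ} {a : ℝ} {r : ℂ → ℝ} {g : ℂ → ℝ≥0∞}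
    (hr : Rad K a r) (hg : Measurable g) (hfin : ∫⁻ z in Ω, g z ^ 2 ≠ ∞) (hC : IsCompact C)
    (hCK : ∀ z ∈ C, z ∉ K) : ∃ M : ℝ≥0, ∀ z ∈ C, Tg Ω r g z ≤ M := by
  obtain ⟨r0, hr0, hle⟩ := hC.exists_forall_le' (hb.cont K a r hr).continuousOn
    (fun z hz => hr.pos z (hCK z hz))
  set X := ∫⁻ z in Ω, g z ^ 2 with hX
  have hB : X ≤ (X + 1) ^ 2 := by
    calc X = X * 1 := (mul_one _).symm
      _ ≤ (X + 1) * (X + 1) := by gcongr; exacts [le_self_add, le_add_self]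
      _ = (X + 1) ^ 2 := (pow_two _).symm
  have hne : ENNReal.ofReal (170 / r0) * (X + 1) ≠ ∞ :=
    ENNReal.mul_ne_top ENNReal.ofReal_ne_top (ENNReal.add_ne_top.2 ⟨hfin, ENNReal.one_ne_top⟩)
  refine ⟨(ENNReal.ofReal (170 / r0) * (X + 1)).toNNReal, fun z hz => ?_⟩
  rw [ENNReal.coe_toNNReal hne]
  refine (hk.two K Ω a r g z (X + 1) hr hg hB (hCK z hz)).trans ?_
  gcongr
  exact hle z hz

theorem en_eq {S : Set ℂ} {ψ : ℂ → ℝ} (h : IntegrableOn (fun z => ‖gr ψ z‖ ^ 2) S) :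
    ∫⁻ z in S, ‖gr ψ z‖ₑ ^ 2 = ENNReal.ofReal (en S ψ) := by
  rw [en, ofReal_integral_eq_lintegral_ofReal h (ae_of_all _ fun z => by positivity)]
  refine lintegral_congr fun z => ?_
  rw [ENNReal.ofReal_pow (norm_nonneg _), ofReal_norm_eq_enorm]

theorem sum_le {K Ω : Set ℂ} {g : ℂ → ℝ≥0∞} {s : Cmp K → ℝ} {d : ℝ≥0} (hs : Sq s)
    (h : nq K Ω g s ≤ d ^ 2) : ∑' p, s p ^ 2 ≤ (d : ℝ) ^ 2 := by
  have h1 : ENNReal.ofReal (∑' p, s p ^ 2) ≤ (d : ℝ≥0∞) ^ 2 := by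
    rw [ENNReal.ofReal_tsum_of_nonneg (fun p => sq_nonneg _) hs.2]
    exact le_add_self.trans h
  rw [← ENNReal.ofReal_coe_nnreal, ← ENNReal.ofReal_pow d.coe_nonneg] at h1
  exact (ENNReal.ofReal_le_ofReal_iff (by positivity)).1 h1

end IAsm

open IAsm in
theorem iso_of (L : Lib) (hb : S_ibas) (hk : S_iker) (hs : S_ischur) (hc : S_iclaim)
    (hl : S_ilipc) (hf : S_ifin) : S_iso0 := by
  refine ⟨1280001, by norm_num, fun K R ψ τ hK hK1 hR hψ hint hτ hH ε hε => ?_⟩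
  obtain ⟨d0, hd0, Lp, hIC⟩ := margin hK hK1 hR hψ
  set M : ℝ≥0 := 2 * Lp with hM
  set N : ℝ := 1280000 * (M : ℝ) ^ 2 + 64 * ((Lp : ℝ) + 1) ^ 2 + 32 with hN
  have hN0 : 0 < N := by positivity
  set η : ℝ := min (min d0 1) (ε / N) with hη
  have hη0 : 0 < η := lt_min (lt_min hd0 one_pos) (by positivity)
  have hηd : η ≤ d0 := (min_le_left _ _).trans (min_le_left _ _)
  have hη1 : η ≤ 1 := (min_le_left _ _).trans (min_le_right _ _)
  have hηN : η * N ≤ ε := (le_div_iff₀ hN0).1 (min_le_right _ _)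
  obtain ⟨c, hcη⟩ : ∃ c : ℝ≥0, (c : ℝ) = η := ⟨⟨η, hη0.le⟩, rfl⟩
  have hc0 : 0 < c := by rw [← NNReal.coe_pos, hcη]; exact hη0
  set a : ℝ := min d0 (η / (30000 * ((Lp : ℝ) + 1))) with ha
  have ha0 : 0 < a := lt_min hd0 (by positivity)
  have hI : IC K R ψ a Lp := hIC a ha0 (min_le_left _ _)
  have haη : 30000 * (Lp : ℝ) * a ≤ η := by
    have h1 : a * (30000 * ((Lp : ℝ) + 1)) ≤ η :=
      (le_div_iff₀ (by positivity)).1 (min_le_right _ _)
    nlinarith [Lp.2]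
  obtain ⟨r, hr⟩ := hb.rad K a hK ha0 hI.sub
  obtain ⟨g, s, hg, hsq, hn, hJ⟩ := hc K R ψ a Lp (M / c) c r τ η hI hr hint hτ hH hη0 haη hc0
  obtain ⟨-, -, hOo, hOR, -, -⟩ := hb.an K R ψ a Lp hI
  have hcr := hb.cont K a r hr
  have hg0 : Measurable fun z => ‖gr ψ z‖ₑ := (L.adm.meas ψ).enorm
  have hm1 := hk.meas (Om K a) r _ hcr hg0
  have hm2 := hk.meas (Om K a) r _ hcr hg
  obtain ⟨hcol, hcolv⟩ := hb.col η hη0.le
  have hlipS : LipschitzOnWith Lp ψ (sphere 0 1) := hI.lip.mono fun w hw => by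
    have : ‖w‖ = 1 := by simpa using hw
    exact ⟨this.ge, by linarith⟩
  have hosc : ∀ z ∈ sphere (0 : ℂ) 1, ∀ z' ∈ sphere (0 : ℂ) 1, ψ z' - ψ z ≤ M := by
    intro z hz z' hz'
    have h1 := hlipS.dist_le_mul z' hz' z hz
    have h2 : dist z' z ≤ 2 := by
      have h3 : ‖z‖ = 1 := by simpa using hz
      have h4 : ‖z'‖ = 1 := by simpa using hz'
      rw [dist_eq_norm]; linarith [norm_sub_le z' z]
    have h5 := le_abs_self (ψ z' - ψ z)
    rw [Real.dist_eq] at h1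
    rw [hM]; push_cast
    nlinarith [Lp.2]
  have hLC := hl K ψ _ _ τ s Lp M c (M / c) η hK hη0 (hIC η hη0 hηd).sub hlipS hosc
    (by rw [mul_div_cancel₀ _ hc0.ne']) hm1 hm2 hτ.1 hsq.1 hJ
  have hen0 : 0 ≤ en (ball 0 R \ K) ψ := integral_nonneg fun z => by positivity
  have hE1 : ∫⁻ z in Om K a, ‖gr ψ z‖ₑ ^ 2 ≤ ENNReal.ofReal (en (ball 0 R \ K) ψ) :=
    (lintegral_mono_set hOR).trans (en_eq hint).le
  have hE2 : ∫⁻ z in Om K a, g z ^ 2 ≤ ENNReal.ofReal (η ^ 2) := by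
    refine (le_self_add.trans hn).trans (le_of_eq ?_)
    rw [← hcη, ENNReal.ofReal_pow c.coe_nonneg, ENNReal.ofReal_coe_nnreal]
  have hsq' : Sq fun p => τ p + M * s p := by
    refine ⟨fun p => add_nonneg (hτ.1 p) (mul_nonneg M.2 (hsq.1 p)), ?_⟩
    have h1 : Summable fun p => ((M : ℝ) * s p) ^ 2 := by
      simp only [mul_pow]; exact hsq.2.mul_left _
    exact (L.sm.sqadd K τ (fun p => M * s p) hτ.2 h1).1
  set B : ℝ := 4 * (160000 * en (ball 0 R \ K) ψ + (M : ℝ) ^ 2 * (160000 * η ^ 2) +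
    ((Lp : ℝ) + 1) ^ 2 * (8 * η) + η ^ 2 * 4) with hB
  have hmi : Measurable ((Col η).indicator fun _ : ℂ => (Lp : ℝ≥0∞) + 1) :=
    measurable_const.indicator hcol
  have key := hf K R B ψ _ _ hK hK1 hR hψ hint
    (((hm1.add (hm2.const_mul _)).add hmi).add measurable_const)
    ⟨c, hc0, fun z _ => le_add_self⟩ ?_ hsq' hLC (by positivity) ?_
  · obtain ⟨ζ, z1, z2, z3, z4, z5⟩ := key
    refine ⟨ζ, _, z1, z2, z3, ?_, hsq', ?_, z5⟩
    · have h1 : η ^ 2 ≤ η := by nlinarith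
      have h2 : (M : ℝ) ^ 2 * η ^ 2 ≤ (M : ℝ) ^ 2 * η := by gcongr
      rw [hN] at hηN
      nlinarith
    · have h1 : sm K ((fun p => τ p + M * s p) - τ) ((fun p => τ p + M * s p) - τ) =
          (M : ℝ) ^ 2 * ∑' p, s p ^ 2 := by
        rw [sm, ← tsum_mul_left]
        refine tsum_congr fun p => ?_
        rw [if_pos (L.cmp.sub K p)]
        simp only [Pi.sub_apply]; ring
      have h2 := sum_le hsq hn
      rw [hcη] at h2
      have h3 : η ^ 2 ≤ η := by nlinarith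
      have h4 : (M : ℝ) ^ 2 * ∑' p, s p ^ 2 ≤ (M : ℝ) ^ 2 * η := by gcongr; linarith
      have h5 : 0 ≤ η * (64 * ((Lp : ℝ) + 1) ^ 2 + 32) := by positivity
      have h6 : 0 ≤ (M : ℝ) ^ 2 * η := by positivity
      rw [h1]
      rw [hN] at hηN
      nlinarith
  · intro C hC hCK
    obtain ⟨M1, hM1⟩ := locb hb hk hr hg0 (ne_top_of_le_ne_top ENNReal.ofReal_ne_top hE1) hC
      fun z hz => (hCK hz).2
    obtain ⟨M2, hM2⟩ := locb hb hk hr hg (ne_top_of_le_ne_top ENNReal.ofReal_ne_top hE2) hC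
      fun z hz => (hCK hz).2
    refine ⟨M1 + M * M2 + (Lp + 1) + c, fun z hz => ?_⟩
    rw [ENNReal.coe_add, ENNReal.coe_add, ENNReal.coe_add, ENNReal.coe_mul M, ENNReal.coe_add,
      ENNReal.coe_one]
    exact add_le_add (add_le_add (add_le_add (hM1 z hz) (mul_le_mul_right (hM2 z hz) _))
      (indicator_le_self' (fun _ _ => zero_le) z)) le_rfl
  · have hv : volume (ball (0 : ℂ) 1 \ K) ≤ ENNReal.ofReal 4 := by
      refine (measure_mono diff_subset).trans ?_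
      rw [Complex.volume_ball, ENNReal.ofReal_one, one_pow, one_mul, ← ENNReal.ofReal_coe_nnreal]
      exact ENNReal.ofReal_le_ofReal Real.pi_le_four
    have i1 : ∫⁻ z in ball 0 1 \ K, Tg (Om K a) r (fun z => ‖gr ψ z‖ₑ) z ^ 2 ≤
        ENNReal.ofReal (160000 * en (ball 0 R \ K) ψ) := by
      refine (setLIntegral_le_lintegral _ _).trans ((hs.l2 K _ a r _ hr hg0).trans ?_)
      rw [ENNReal.ofReal_mul (by norm_num), ENNReal.ofReal_ofNat]
      gcongr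
    have i2 : ∫⁻ z in ball 0 1 \ K, (M * Tg (Om K a) r g z) ^ 2 ≤
        ENNReal.ofReal ((M : ℝ) ^ 2 * (160000 * η ^ 2)) := by
      simp only [mul_pow]
      rw [lintegral_const_mul _ (hm2.pow_const 2), ENNReal.ofReal_mul (by positivity),
        ENNReal.ofReal_pow M.coe_nonneg, ENNReal.ofReal_coe_nnreal, ENNReal.ofReal_mul (by norm_num),
        ENNReal.ofReal_ofNat]
      gcongr
      refine (setLIntegral_le_lintegral _ _).trans ((hs.l2 K _ a r _ hr hg).trans ?_)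
      gcongr
    have i3 : ∫⁻ z in ball 0 1 \ K, ((Col η).indicator (fun _ => (Lp : ℝ≥0∞) + 1) z) ^ 2 ≤
        ENNReal.ofReal (((Lp : ℝ) + 1) ^ 2 * (8 * η)) := by
      refine (setLIntegral_le_lintegral _ _).trans ?_
      have : ∀ z, ((Col η).indicator (fun _ => (Lp : ℝ≥0∞) + 1) z) ^ 2 =
          (Col η).indicator (fun _ => ((Lp : ℝ≥0∞) + 1) ^ 2) z := fun z => by
        by_cases hz : z ∈ Col η <;> simp [hz]
      simp only [this]
      rw [lintegral_indicator_const hcol, ENNReal.ofReal_mul (by positivity),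
        ENNReal.ofReal_pow (by positivity), ENNReal.ofReal_add Lp.coe_nonneg zero_le_one,
        ENNReal.ofReal_coe_nnreal, ENNReal.ofReal_one]
      gcongr
    have i4 : ∫⁻ _ in ball (0 : ℂ) 1 \ K, (c : ℝ≥0∞) ^ 2 ≤ ENNReal.ofReal (η ^ 2 * 4) := by
      rw [setLIntegral_const, ENNReal.ofReal_mul (by positivity), ← hcη, ENNReal.ofReal_pow c.coe_nonneg,
        ENNReal.ofReal_coe_nnreal]
      gcongr
    refine (lintegral_mono fun z => sq4 _ _ _ _).trans ?_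
    rw [lintegral_const_mul' _ _ (by norm_num),
      lintegral_add_right _ measurable_const, lintegral_add_right _ (hmi.pow_const 2),
      lintegral_add_left (hm1.pow_const 2), hB, ENNReal.ofReal_mul (by norm_num),
      ENNReal.ofReal_ofNat, ENNReal.ofReal_add (by positivity) (by positivity),
      ENNReal.ofReal_add (by positivity) (by positivity),
      ENNReal.ofReal_add (by positivity) (by positivity)]
    gcongr

end Vale.Agent.P116
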