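import Vale.Agent.P116.IStm

/-! Part I: basic pieces. -/

open Set Filter Topology MeasureTheory Metric Complex
open scoped ENNReal NNReal

noncomputable section
namespace Vale.Agent.P116

namespace IBas

theorem rad (K : Set ℂ) (a : ℝ) (hK : IsCompact K) (ha : 0 < a) (hs : K ⊆ ball 0 (1 - a)) :
    ∃ r, Rad K a r := by
  rcases K.eq_empty_or_nonempty with rfl | hne
  · exact ⟨fun _ => a / 4, ha, fun z w => by rw [sub_self, abs_zero]; positivity,
      fun _ => by positivity, fun _ _ => by positivity, fun _ h => h.elim, fun _ => le_rfl,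
      fun _ _ => rfl⟩
  refine ⟨fun z => min (infDist z K) a / 4, ha, fun z w => ?_,
    fun z => div_nonneg (le_min infDist_nonneg ha.le) (by norm_num), fun z hz => div_pos
      (lt_min ((hK.isClosed.notMem_iff_infDist_pos hne).1 hz) ha) (by norm_num), fun z hz => ?_,
    fun z => div_le_div_of_nonneg_right (min_le_right _ _) (by norm_num), fun z hz => ?_⟩
  · have h1 := (lipschitz_infDist_pt K).dist_le_mul z w
    rw [NNReal.coe_one, one_mul, Real.dist_eq, dist_eq_norm] at h1
    have h2 := abs_min_sub_min_le_max (infDist z K) a (infDist w K) a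
    rw [sub_self, abs_zero, max_eq_left (abs_nonneg _)] at h2
    rw [← sub_div, abs_div, abs_of_pos (by norm_num : (0 : ℝ) < 4)]
    linarith
  · simp only [infDist_zero_of_mem hz, min_eq_left ha.le, zero_div]
  · refine congrArg (· / 4) (min_eq_right ((le_infDist hne).2 fun w hw => ?_))
    have := mem_ball_zero_iff.1 (hs hw)
    rw [dist_eq_norm]
    linarith [norm_sub_norm_le z w]

theorem an (K : Set ℂ) (R : ℝ) (ψ : ℂ → ℝ) (a : ℝ) (Lp : ℝ≥0) (h : IC K R ψ a Lp) :
    IsOpen (An a) ∧ An a ⊆ Om K a ∧ IsOpen (Om K a) ∧ Om K a ⊆ ball 0 R \ K ∧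
      IntegrableOn (om0 ψ a) (An a) ∧ ∀ w ∈ An a, |om0 ψ a w| ≤ Lp / a := by
  have ha := h.a0
  have h1 : IsOpen (An a) := (isOpen_lt continuous_const continuous_norm).inter
    (isOpen_lt continuous_norm continuous_const)
  have h2 : An a ⊆ Om K a := fun w hw => ⟨mem_ball_zero_iff.2 (by linarith [hw.2]), fun hK => by
    linarith [mem_ball_zero_iff.1 (h.sub hK), hw.1]⟩
  have h3 : ∀ w ∈ An a, |om0 ψ a w| ≤ Lp / a := by
    intro w hw
    have h0 : 0 < ‖w‖ := by linarith [hw.1]
    have h4 := (fderiv ℝ ψ w).le_of_opNorm_le (h.gb w (by linarith [hw.1]) (by linarith [hw.2]))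
      (I * w)
    rw [norm_mul, norm_I, one_mul, Real.norm_eq_abs] at h4
    rw [om0, abs_div, abs_neg, abs_of_pos (mul_pos ha h0), ← mul_div_mul_right _ a h0.ne']
    exact div_le_div_of_nonneg_right h4 (mul_pos ha h0).le
  have h5 : Measurable (om0 ψ a) :=
    (ContinuousLinearMap.measurable_apply₂.comp ((measurable_fderiv ℝ ψ).prodMk
      (measurable_id.const_mul I))).neg.div (measurable_norm.const_mul a)
  refine ⟨h1, h2, isOpen_ball.sdiff h.cpt.isClosed,
    fun w hw => ⟨ball_subset_ball h.hR hw.1, hw.2⟩, ?_, h3⟩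
  exact Measure.integrableOn_of_bounded (M := Lp / a)
    (ne_top_of_le_ne_top measure_ball_lt_top.ne (measure_mono fun w hw => (h2 hw).1))
    h5.aestronglyMeasurable ((ae_restrict_mem h1.measurableSet).mono h3)

theorem ang (z z' : ℂ) (hz : ‖z‖ = 1) (hz' : ‖z'‖ = 1) (hne : z ≠ z') : ∃ (v : ℂ) (α : ℝ),
    ‖v‖ = 1 ∧ 0 < α ∧ α < Real.pi ∧ z = v * cexp (α * I) ∧ z' = v * cexp (-(α * I)) := by
  have h0 : z' ≠ 0 := norm_ne_zero_iff.1 (hz' ▸ one_ne_zero)
  have h1 := norm_mul_exp_arg_mul_I (-z / z')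
  rw [norm_div, norm_neg, hz, hz', div_one, ofReal_one, one_mul, eq_div_iff h0] at h1
  have h2 : arg (-z / z') ≠ Real.pi := fun h => by
    rw [h, exp_pi_mul_I] at h1
    exact hne (by linear_combination h1)
  have h3 := neg_pi_lt_arg (-z / z')
  have h4 := lt_of_le_of_ne (arg_le_pi (-z / z')) h2
  refine ⟨z' * cexp (((arg (-z / z') + Real.pi) / 2 : ℝ) * I), (arg (-z / z') + Real.pi) / 2,
    by rw [norm_mul, hz', norm_exp_ofReal_mul_I, mul_one], by linarith, by linarith, ?_, ?_⟩
  · rw [mul_assoc, ← Complex.exp_add, show (((arg (-z / z') + Real.pi) / 2 : ℝ) : ℂ) * I +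
      (((arg (-z / z') + Real.pi) / 2 : ℝ) : ℂ) * I = arg (-z / z') * I + Real.pi * I by
        push_cast; ring, Complex.exp_add, exp_pi_mul_I]
    linear_combination h1
  · rw [mul_assoc, ← Complex.exp_add, add_neg_cancel, Complex.exp_zero, mul_one]

theorem col (h : ℝ) (h0 : 0 ≤ h) :
    MeasurableSet (Col h) ∧ volume (Col h) ≤ ENNReal.ofReal (8 * h) := by
  have e : Col h = closedBall 0 1 \ ball 0 (1 - h) := by
    ext w
    simp only [Col, mem_ofPred_eq, Set.mem_sdiff, mem_closedBall_zero_iff, mem_ball_zero_iff,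
      not_lt, and_comm]
  have hp := Real.pi_le_four
  have e1 : ∀ r : ℝ, 0 ≤ r → ENNReal.ofReal r ^ 2 * (NNReal.pi : ℝ≥0∞) =
      ENNReal.ofReal (r ^ 2 * Real.pi) := fun r hr => by
    rw [ENNReal.ofReal_mul (sq_nonneg r), ENNReal.ofReal_pow hr, ← NNReal.coe_real_pi,
      ENNReal.ofReal_coe_nnreal]
  rw [e]
  refine ⟨measurableSet_closedBall.diff measurableSet_ball, ?_⟩
  rcases le_total h 1 with h1 | h1
  · rw [measure_sdiff ((ball_subset_ball (by linarith)).trans ball_subset_closedBall)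
      measurableSet_ball.nullMeasurableSet measure_ball_lt_top.ne, Complex.volume_closedBall,
      Complex.volume_ball, e1 _ zero_le_one, e1 _ (by linarith),
      ← ENNReal.ofReal_sub _ (by positivity)]
    refine ENNReal.ofReal_le_ofReal ?_
    nlinarith [mul_nonneg (sq_nonneg h) Real.pi_pos.le, mul_le_mul_of_nonneg_left hp h0]
  · refine (measure_mono sdiff_subset).trans ?_
    rw [Complex.volume_closedBall, e1 _ zero_le_one]
    exact ENNReal.ofReal_le_ofReal (by linarith)

end IBas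

theorem s_ibas : S_ibas := by
  refine ⟨IBas.rad, fun K a r z h => disjoint_left.2 fun w hw hK => ?_, fun K a r h => ?_,
    IBas.an, IBas.ang, fun K Ω g s d => ?_, fun K A lam s d => ?_, IBas.col⟩
  · have h1 := h.lip w z
    rw [h.zero w hK, zero_sub, abs_neg, abs_of_nonneg (h.nn z)] at h1
    rw [mem_ball, dist_eq_norm] at hw
    linarith
  · refine (LipschitzWith.of_dist_le_mul (K := 1) fun z w => ?_).continuous
    rw [NNReal.coe_one, one_mul, Real.dist_eq, dist_eq_norm]
    linarith [h.lip z w, norm_nonneg (z - w)]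
  · simp only [nq, mul_pow, mul_add]
    rw [lintegral_const_mul' _ _ (ENNReal.pow_ne_top ENNReal.coe_ne_top), ← ENNReal.tsum_mul_left]
    simp only [ENNReal.ofReal_mul (sq_nonneg _), ENNReal.ofReal_pow (NNReal.coe_nonneg d),
      ENNReal.ofReal_coe_nnreal]
  · simp only [cost, mul_add]
    rw [lintegral_const_mul' _ _ ENNReal.coe_ne_top, ← ENNReal.tsum_mul_left]
    simp only [ENNReal.ofReal_mul (NNReal.coe_nonneg d), ENNReal.ofReal_coe_nnreal, mul_ite,
      mul_zero]

end Vale.Agent.P116
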