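import Vale.Agent.P116.IStm

/-! Part I: the duality claim. -/

open Set Filter Topology MeasureTheory Metric Complex
open scoped ENNReal NNReal

noncomputable section
namespace Vale.Agent.P116

namespace IClaim

theorem arith {P c1 r1 r2 : ℝ≥0∞} {e D l q : ℝ} (hq : 0 ≤ q) (he : 30000 * q ≤ e) (he0 : 0 < e)
    (hP : P ≤ c1 + r1 + r2) (h1 : r1 ≤ ENNReal.ofReal (5000 * q))
    (h2 : r2 ≤ ENNReal.ofReal (5000 * q)) (hc : c1 + ENNReal.ofReal e ≤ ENNReal.ofReal D)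
    (hl : D - 30 * q ≤ l) : P + ENNReal.ofReal (e / 2) ≤ ENNReal.ofReal l := by
  have hfin : c1 ≠ ∞ := ne_top_of_le_ne_top ENNReal.ofReal_ne_top (le_self_add.trans hc)
  obtain ⟨c, hc0, rfl⟩ : ∃ c : ℝ, 0 ≤ c ∧ c1 = ENNReal.ofReal c :=
    ⟨c1.toReal, ENNReal.toReal_nonneg, (ENNReal.ofReal_toReal hfin).symm⟩
  rw [← ENNReal.ofReal_add hc0 he0.le, ENNReal.ofReal_le_ofReal_iff'] at hc
  have hc' : c + e ≤ D := hc.resolve_right (by linarith)
  calc P + ENNReal.ofReal (e / 2)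
      ≤ ENNReal.ofReal c + ENNReal.ofReal (5000 * q) + ENNReal.ofReal (5000 * q) +
        ENNReal.ofReal (e / 2) := by
        gcongr
        exact hP.trans (by gcongr)
    _ = ENNReal.ofReal (c + 5000 * q + 5000 * q + e / 2) := by
        rw [ENNReal.ofReal_add (by positivity) (by positivity),
          ENNReal.ofReal_add (by positivity) (by positivity),
          ENNReal.ofReal_add (by positivity) (by positivity)]
    _ ≤ ENNReal.ofReal l := ENNReal.ofReal_le_ofReal (by linarith)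

theorem sq_smul {K : Set ℂ} {s : Cmp K → ℝ} (hs : Sq s) (d : ℝ≥0) : Sq fun p => (d : ℝ) * s p := by
  refine ⟨fun p => mul_nonneg d.2 (hs.1 p), ?_⟩
  simp only [mul_pow]
  exact hs.2.mul_left _

end IClaim

open IClaim in
theorem s_iclaim (L : Lib) (hD : S_D) (hb : S_ibas) (hk : S_iker) (hs : S_ischur) (hm : S_imem)
    (hv : S_icvx) (hc : S_iclo) (ht : S_itest) : S_iclaim := by
  intro K R ψ a Lp H d r τ e hI hr hint hτ hH he hLe hd
  by_contra hcon
  obtain ⟨Lc, hL⟩ := hm K R ψ a Lp H r hI hr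
  obtain ⟨hAo, hAO, hOo, hOR, hom, -⟩ := hb.an K R ψ a Lp hI
  have hOK : Om K a ⊆ Kᶜ := fun z hz => hz.2
  have hK1 : K ⊆ ball 0 1 := hI.sub.trans (ball_subset_ball (by linarith [hI.a0]))
  have hrad : ∀ z ∉ K, 0 < r z / 8 := fun z hz => by have := hr.pos z hz; positivity
  have hg0 : Measurable fun z => ‖gr ψ z‖ₑ := (L.adm.meas ψ).enorm
  have hgb : ∀ w ∈ Om K a, 1 - a < ‖w‖ → ‖gr ψ w‖ₑ ≤ Lp := by
    intro w hw h1
    have h2 : ‖w‖ < 1 + 3 * a := by simpa using hw.1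
    have h3 := hI.gb w h1 h2
    rw [← L.adm.nrm] at h3
    rw [← ofReal_norm_eq_enorm, ← ENNReal.ofReal_coe_nnreal]
    exact ENNReal.ofReal_le_ofReal h3
  have he2 : 0 < e / 2 := by positivity
  have key := hD K (Om K a)
    (Ss K (Om K a) (An a) Lc (fun w => r w / 8) (fun z => ‖gr ψ z‖ₑ) τ (om0 ψ a) (e / 2))
    Lc (fun w => r w / 8) (d⁻¹ + 6000) hI.cpt hOo hOK
    (hv K _ _ Lc _ _ τ _ _ hI.cpt hOo.measurableSet hOK hAo.measurableSet (hAO.trans hOK) hrad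
      hg0 hτ.1 hom he2) hrad (fun x hx => hx.1) ?_
  · obtain ⟨x, ζ, σ, hx, h1, h2, h3, h4, h5, h6⟩ := key
    obtain ⟨hz, hle⟩ := hc K _ _ Lc _ _ τ _ _ x ζ σ hI.cpt hOo hOK hAo.measurableSet
      (hAO.trans hOK) hrad hg0 hom hx h1 h2
    have h7 := ht K R ψ a Lp τ σ ζ hI hint hτ hH h3 hz h4 h5 h6
    have hfin : pg K (Om K a) (fun z => ‖gr ψ z‖ₑ) τ (ζ, σ) ≠ ∞ :=
      ne_top_of_le_ne_top ENNReal.ofReal_ne_top (le_self_add.trans hle)
    have h8 := hle.trans h7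
    exact absurd h8 (not_le.2 (ENNReal.lt_add_right hfin (ENNReal.ofReal_pos.2 he2).ne'))
  · intro g s ε hg hsq hn _
    have hnJ : ¬ Jump K ψ (Tg (Om K a) r fun z => ‖gr ψ z‖ₑ) (Tg (Om K a) r fun z => d * g z) τ
        (fun p => d * s p) H e := by
      intro hJ
      refine hcon ⟨fun z => d * g z, fun p => d * s p, hg.const_mul _, sq_smul hsq d, ?_, hJ⟩
      rw [hb.nq]
      exact mul_le_of_le_one_right' hn
    simp only [Jump, not_forall, not_le] at hnJ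
    obtain ⟨A, hA, hAH, z, hz, z', hz', hj, hlt⟩ := hnJ
    rw [hk.smul, hb.cost] at hlt
    have hzz : z ≠ z' := by
      rintro rfl
      rw [sub_self, ENNReal.ofReal_zero] at hj
      exact absurd (le_add_self.trans hj) (not_le.2 (ENNReal.ofReal_pos.2 he))
    obtain ⟨x, hx, hl, hp⟩ := hL A hA hAH z hz z' hz' hzz
    have hz1 : ‖z‖ = 1 := by simpa using hz.2
    have hz1' : ‖z'‖ = 1 := by simpa using hz'.2
    refine ⟨x, ⟨hx, ?_⟩, ?_⟩
    · have hq : 0 ≤ (Lp : ℝ) * a := mul_nonneg Lp.2 hI.a0.le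
      refine arith (q := Lp * a) hq (by linarith) he (hp _ τ hg0) ?_ ?_ hj
        (by simp only [lf] at hl; linarith)
      · rw [← mul_assoc]; exact hs.rays K a r _ z Lp hI.cpt hr hz1 hgb
      · rw [← mul_assoc]; exact hs.rays K a r _ z' Lp hI.cpt hr hz1' hgb
    · have hg1 : ∫⁻ w in Om K a, g w ^ 2 ≤ 1 := le_self_add.trans hn
      have hc1 : cost K (Tg (Om K a) r g) s A ≤ (d⁻¹ : ℝ≥0) := by
        rw [ENNReal.coe_inv hd.ne', ENNReal.le_inv_iff_mul_le, mul_comm]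
        exact hlt.le
      calc pg K (Om K a) g s x ≤ _ := hp g s hg
        _ ≤ (d⁻¹ : ℝ≥0) + 3000 + 3000 := by
          gcongr
          · exact hs.ray2 K a r g z hI.cpt hK1 hr hg hz1 hg1
          · exact hs.ray2 K a r g z' hI.cpt hK1 hr hg hz1' hg1
        _ = ((d⁻¹ + 6000 : ℝ≥0) : ℝ≥0∞) := by
          rw [add_assoc, ENNReal.coe_add]; norm_num
        _ ≤ _ := le_self_add

end Vale.Agent.P116
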