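import Vale.Agent.P116.IStm

/-! Part I: passing to the limit in the convex set. -/

open Set Filter Topology MeasureTheory Metric Complex
open scoped ENNReal NNReal

noncomputable section
namespace Vale.Agent.P116

namespace IClo

theorem sum_le {ι : Type} (τ σ : ι → ℝ) (s : ℕ → ι → ℝ)
    (h : ∀ p, σ p = 0 ∨ Tendsto (fun n => s n p) atTop (𝓝 (σ p))) :
    ∑' p, ENNReal.ofReal (τ p * σ p) ≤
      liminf (fun n => ∑' p, ENNReal.ofReal (τ p * s n p)) atTop := by
  classical
  rw [ENNReal.tsum_eq_iSup_sum]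
  refine iSup_le fun F => ?_
  have h1 : Tendsto (fun n => ∑ p ∈ F, if σ p = 0 then 0 else ENNReal.ofReal (τ p * s n p)) atTop
      (𝓝 (∑ p ∈ F, ENNReal.ofReal (τ p * σ p))) := by
    refine tendsto_finsetSum _ fun p _ => ?_
    by_cases hp : σ p = 0
    · simp [hp]
    · simp only [hp, if_false]
      exact ENNReal.tendsto_ofReal (((h p).resolve_left hp).const_mul _)
  rw [← h1.liminf_eq]
  refine liminf_le_liminf (Eventually.of_forall fun n => ?_)
  refine (Finset.sum_le_sum fun p _ => ?_).trans (ENNReal.sum_le_tsum F)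
  split_ifs
  · exact zero_le
  · exact le_rfl

theorem cont {K : Set ℂ} {L : ℂ → ℝ≥0} {rad : ℂ → ℝ} {ζ : ℂ → ℝ} (hr : ∀ z ∉ K, 0 < rad z)
    (h : ULip Kᶜ L rad ζ) : ContinuousOn ζ Kᶜ := fun z hz =>
  ((h z hz).continuousOn.continuousAt (ball_mem_nhds z (hr z hz))).continuousWithinAt

theorem ladd (u v : ℕ → ℝ≥0∞) :
    liminf u atTop + liminf v atTop ≤ liminf (fun n => u n + v n) atTop := by
  simp only [liminf_eq_iSup_iInf_of_nat]
  refine ENNReal.iSup_add_iSup_le fun i j => le_iSup_of_le (max i j) (le_iInf₂ fun n hn => ?_)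
  exact add_le_add (iInf₂_le n (le_of_max_le_left hn)) (iInf₂_le n (le_of_max_le_right hn))

end IClo

theorem s_iclo (L : Lib) : S_iclo := by
  intro K Ω S Lc rad g τ ω e x ζ σ _ hΩ hΩK hS hSK hr hg hω hx h1 h2
  refine ⟨fun z hz => ⟨ge_of_tendsto' (h1 z hz) fun n => ((hx n).1.1 z).1,
    le_of_tendsto' (h1 z hz) fun n => ((hx n).1.1 z).2⟩, ?_⟩
  have a := (L.wg Ω Lc rad (fun n => (x n).1) ζ g hΩ (fun z hz => hr z (hΩK hz))
    (fun n z hz => (hx n).1.2.2.2.2 z (hΩK hz)) (fun z hz => h1 z (hΩK hz)) hg).2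
  have b := IClo.sum_le τ σ (fun n => (x n).2) h2
  have c : Tendsto (fun n => ∫ w in S, (x n).1 w * ω w) atTop (𝓝 (∫ w in S, ζ w * ω w)) := by
    refine tendsto_integral_of_dominated_convergence (fun w => ‖ω w‖) (fun n => ?_) hω.norm
      (fun n => Eventually.of_forall fun w => ?_) ?_
    · exact (((IClo.cont hr (hx n).1.2.2.2.2).mono hSK).aestronglyMeasurable hS).mul hω.1
    · rw [norm_mul, Real.norm_of_nonneg ((hx n).1.1 w).1]
      exact mul_le_of_le_one_left (norm_nonneg _) ((hx n).1.1 w).2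
    · exact (ae_restrict_iff' hS).2 (Eventually.of_forall fun w hw =>
        (h1 w (hSK hw)).mul_const _)
  rw [← (ENNReal.tendsto_ofReal c).liminf_eq]
  refine le_trans ?_ (liminf_le_liminf (Eventually.of_forall fun n => (hx n).2))
  have d : liminf (fun n => ∫⁻ z in Ω, g z * ‖gr (x n).1 z‖ₑ) atTop +
      liminf (fun n => ∑' p, ENNReal.ofReal (τ p * (x n).2 p)) atTop ≤
      liminf (fun n => pg K Ω g τ (x n)) atTop := IClo.ladd _ _
  have d' : liminf (fun n => pg K Ω g τ (x n)) atTop +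
      liminf (fun _ : ℕ => ENNReal.ofReal e) atTop ≤
      liminf (fun n => pg K Ω g τ (x n) + ENNReal.ofReal e) atTop := IClo.ladd _ _
  rw [liminf_const] at d'
  exact (add_le_add ((add_le_add a b).trans d) le_rfl).trans d'

end Vale.Agent.P116
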