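import Vale.Agent.P116.IStm

/-! Part I: convexity. -/

open Set Filter Topology MeasureTheory Metric Complex
open scoped ENNReal NNReal

noncomputable section
namespace Vale.Agent.P116

namespace ICvx

theorem ll {K : Set ℂ} {l : ℂ → ℝ≥0} {rad : ℂ → ℝ} {x : (ℂ → ℝ) × (Cmp K → ℝ)}
    (hr : ∀ z ∉ K, 0 < rad z) (h : Bd K l rad x) : LocallyLipschitzOn Kᶜ x.1 := fun z hz =>
  ⟨l z, _, mem_nhdsWithin_of_mem_nhds (ball_mem_nhds z (hr z hz)), h.2.2.2.2 z hz⟩

theorem bd {K : Set ℂ} {l : ℂ → ℝ≥0} {rad : ℂ → ℝ} {x y : (ℂ → ℝ) × (Cmp K → ℝ)} {a b : ℝ}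
    (hx : Bd K l rad x) (hy : Bd K l rad y) (ha : 0 ≤ a) (hb : 0 ≤ b) (hab : a + b = 1) :
    Bd K l rad (a • x + b • y) := by
  obtain ⟨x1, x2, x3, x4, x5⟩ := hx
  obtain ⟨y1, y2, y3, y4, y5⟩ := hy
  have e1 : ∀ z, (a • x + b • y).1 z = a * x.1 z + b * y.1 z := fun z => rfl
  have e2 : ∀ p, (a • x + b • y).2 p = a * x.2 p + b * y.2 p := fun z => rfl
  have r : ∀ s t : ℝ, 0 ≤ s ∧ s ≤ 1 → 0 ≤ t ∧ t ≤ 1 → 0 ≤ a * s + b * t ∧ a * s + b * t ≤ 1 :=
    fun s t hs ht => ⟨add_nonneg (mul_nonneg ha hs.1) (mul_nonneg hb ht.1), by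
      linarith [mul_le_of_le_one_right ha hs.2, mul_le_of_le_one_right hb ht.2]⟩
  refine ⟨fun z => r _ _ (x1 z) (y1 z), fun p => r _ _ (x2 p) (y2 p),
    (x3.union y3).mono fun p hp => ?_, fun p ε hε => ?_, fun z hz => ?_⟩
  · by_contra h
    simp only [mem_union, Function.mem_support, not_or, not_not] at h
    exact hp (by rw [e2, h.1, h.2, mul_zero, mul_zero, add_zero])
  · obtain ⟨U, u1, u2, u3⟩ := x4 p ε hε
    obtain ⟨V, v1, v2, v3⟩ := y4 p ε hε
    refine ⟨U ∩ V, u1.inter v1, subset_inter u2 v2, fun z hz w hw => ?_⟩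
    have h1 := mul_le_mul_of_nonneg_left (u3 z ⟨hz.1.1, hz.2⟩ w ⟨hw.1.1, hw.2⟩) ha
    have h2 := mul_le_mul_of_nonneg_left (v3 z ⟨hz.1.2, hz.2⟩ w ⟨hw.1.2, hw.2⟩) hb
    have h3 : a * ε + b * ε = ε := by rw [← add_mul, hab, one_mul]
    rw [e1, e1, e2]
    linarith
  · refine LipschitzOnWith.of_dist_le_mul fun u hu v hv => ?_
    have h1 := mul_le_mul_of_nonneg_left ((x5 z hz).dist_le_mul u hu v hv) ha
    have h2 := mul_le_mul_of_nonneg_left ((y5 z hz).dist_le_mul u hu v hv) hb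
    have h3 : a * (l z * dist u v) + b * (l z * dist u v) = l z * dist u v := by
      rw [← add_mul, hab, one_mul]
    rw [Real.dist_eq] at h1 h2 ⊢
    rw [e1, e1, add_sub_add_comm, ← mul_sub, ← mul_sub]
    refine (abs_add_le _ _).trans ?_
    rw [abs_mul, abs_mul, abs_of_nonneg ha, abs_of_nonneg hb]
    linarith

end ICvx

open ICvx in
theorem s_icvx (L : Lib) : S_icvx := by
  intro K Ω S l rad g τ ω e hK hΩ sΩ hS sS hr hg hτ iω he x ⟨hx, px⟩ y ⟨hy, py⟩ a b ha hb hab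
  refine ⟨bd hx hy ha hb hab, ?_⟩
  have oK := hK.isClosed.isOpen_compl
  have it : ∀ {x : (ℂ → ℝ) × (Cmp K → ℝ)}, Bd K l rad x → IntegrableOn (fun w => x.1 w * ω w) S :=
    fun h => iω.bdd_mul (c := 1) (((ll hr h).continuousOn.mono sS).aestronglyMeasurable hS)
      (Eventually.of_forall fun z => by rw [Real.norm_of_nonneg (h.1 z).1]; exact (h.1 z).2)
  have nn : ∀ {t : ℝ} {u : ℝ≥0∞}, u + ENNReal.ofReal e ≤ ENNReal.ofReal t → 0 ≤ t := fun h =>
    (ENNReal.ofReal_pos.1 ((ENNReal.ofReal_pos.2 he).trans_le (le_add_self.trans h))).le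
  have e1 : ∫ w in S, (a • x + b • y).1 w * ω w =
      a * (∫ w in S, x.1 w * ω w) + b * ∫ w in S, y.1 w * ω w := by
    rw [← integral_const_mul, ← integral_const_mul,
      ← integral_add ((it hx).const_mul a) ((it hy).const_mul b)]
    refine integral_congr_ae (Eventually.of_forall fun w => ?_)
    change (a * x.1 w + b * y.1 w) * ω w = a * (x.1 w * ω w) + b * (y.1 w * ω w)
    ring
  have e2 : ∫⁻ z in Ω, g z * ‖gr (a • x + b • y).1 z‖ₑ ≤
      ENNReal.ofReal a * (∫⁻ z in Ω, g z * ‖gr x.1 z‖ₑ) +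
        ENNReal.ofReal b * ∫⁻ z in Ω, g z * ‖gr y.1 z‖ₑ := by
    rw [← lintegral_const_mul' _ _ ENNReal.ofReal_ne_top,
      ← lintegral_const_mul' _ _ ENNReal.ofReal_ne_top,
      ← lintegral_add_left ((hg.fun_mul (L.adm.meas _).enorm).const_mul _)]
    refine lintegral_mono_ae ((ae_restrict_iff' hΩ).2 ?_)
    filter_upwards [L.adm.dif _ _ oK (ll hr hx), L.adm.dif _ _ oK (ll hr hy)] with z h1 h2 hz
    have d := ((h1 (sΩ hz)).hasFDerivAt.const_smul a).add ((h2 (sΩ hz)).hasFDerivAt.const_smul b)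
    rw [mul_left_comm, mul_left_comm (ENNReal.ofReal b), ← mul_add]
    refine mul_le_mul_right ?_ _
    simp only [← ofReal_norm, L.adm.nrm]
    rw [← ENNReal.ofReal_mul ha, ← ENNReal.ofReal_mul hb,
      ← ENNReal.ofReal_add (by positivity) (by positivity), Prod.fst_add, Prod.smul_fst,
      Prod.smul_fst, d.fderiv]
    refine ENNReal.ofReal_le_ofReal ((norm_add_le _ _).trans ?_)
    rw [norm_smul, norm_smul, Real.norm_of_nonneg ha, Real.norm_of_nonneg hb]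
  have e3 : ∑' p : Cmp K, ENNReal.ofReal (τ p * (a • x + b • y).2 p) =
      ENNReal.ofReal a * (∑' p : Cmp K, ENNReal.ofReal (τ p * x.2 p)) +
        ENNReal.ofReal b * ∑' p : Cmp K, ENNReal.ofReal (τ p * y.2 p) := by
    rw [← ENNReal.tsum_mul_left, ← ENNReal.tsum_mul_left, ← ENNReal.tsum_add]
    refine tsum_congr fun p => ?_
    rw [← ENNReal.ofReal_mul ha, ← ENNReal.ofReal_mul hb,
      ← ENNReal.ofReal_add (mul_nonneg ha (mul_nonneg (hτ p) (hx.2.1 p).1))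
        (mul_nonneg hb (mul_nonneg (hτ p) (hy.2.1 p).1))]
    congr 1
    change τ p * (a * x.2 p + b * y.2 p) = _
    ring
  have e4 : ENNReal.ofReal e =
      ENNReal.ofReal a * ENNReal.ofReal e + ENNReal.ofReal b * ENNReal.ofReal e := by
    rw [← add_mul, ← ENNReal.ofReal_add ha hb, hab, ENNReal.ofReal_one, one_mul]
  rw [e1, ENNReal.ofReal_add (mul_nonneg ha (nn px)) (mul_nonneg hb (nn py)),
    ENNReal.ofReal_mul ha, ENNReal.ofReal_mul hb]
  refine le_trans ?_ (add_le_add (mul_le_mul_right px _) (mul_le_mul_right py _))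
  rw [pg, pg, pg, e3]
  refine (add_le_add (add_le_add e2 le_rfl) e4.le).trans_eq ?_
  ring

end Vale.Agent.P116
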