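import Vale.Agent.P116.IStm

open Set Filter Topology MeasureTheory Metric Complex
open scoped ENNReal NNReal

noncomputable section
namespace Vale.Agent.P116

namespace IEn

theorem cs {g : ℝ → ℝ≥0∞} (hg : Measurable g) (t : ℝ) :
    (∫⁻ s in Icc (0 : ℝ) t, g s) ^ 2 ≤ ENNReal.ofReal t * ∫⁻ s in Icc (0 : ℝ) t, g s ^ 2 := by
  have h := ENNReal.lintegral_mul_le_Lp_mul_Lq (volume.restrict (Icc (0 : ℝ) t))
    Real.HolderConjugate.two_two (f := fun _ => 1) (g := g) aemeasurable_const hg.aemeasurable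
  simp only [Pi.mul_apply, one_mul, one_pow, lintegral_const, Measure.restrict_apply,
    MeasurableSet.univ, univ_inter, Real.volume_Icc, sub_zero, ENNReal.rpow_ofNat] at h
  calc (∫⁻ s in Icc (0 : ℝ) t, g s) ^ 2
      ≤ (ENNReal.ofReal t ^ (1 / 2 : ℝ) * (∫⁻ s in Icc (0 : ℝ) t, g s ^ 2) ^ (1 / 2 : ℝ)) ^ 2 := by
        gcongr
    _ = _ := by
        rw [mul_pow, ← ENNReal.rpow_natCast, ← ENNReal.rpow_natCast, ← ENNReal.rpow_mul,
          ← ENNReal.rpow_mul]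
        norm_num

theorem dir {U : Set ℂ} {θ : ℂ → ℝ} {lam : ℂ → ℝ≥0∞} (hU : IsOpen U) (hl : Measurable lam)
    {e : ℂ} (h : ∀ (z : ℂ) (t : ℝ), 0 ≤ t → segment ℝ z (z + t * e) ⊆ U →
      ENNReal.ofReal |θ (z + t * e) - θ z| ≤ ∫⁻ s in Icc (0 : ℝ) t, lam (z + s * e)) :
    ∫⁻ z in U, ‖fderiv ℝ θ z e‖ₑ ^ 2 ≤ ∫⁻ z in U, lam z ^ 2 := by
  set G : ℂ → ℝ≥0∞ := U.indicator fun z => lam z ^ 2 with hG
  have hGm : Measurable G := (hl.pow_const 2).indicator hU.measurableSet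
  set t : ℕ → ℝ := fun n => 1 / ((n : ℝ) + 1) with ht
  have ht0 : ∀ n, 0 < t n := fun n => by simp only [ht]; positivity
  set F : ℕ → ℂ → ℝ≥0∞ := fun n z =>
    (ENNReal.ofReal (t n))⁻¹ * ∫⁻ s in Icc (0 : ℝ) (t n), G (z + s * e) with hF
  have hm : Measurable fun p : ℂ × ℝ => G (p.1 + p.2 * e) := hGm.comp (by fun_prop)
  have hFm : ∀ n, Measurable (F n) := fun n => (hm.lintegral_prod_right').const_mul _
  have hne : ∀ n, ENNReal.ofReal (t n) ≠ 0 := fun n => by simpa using ht0 n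
  have hFi : ∀ n, ∫⁻ z, F n z = ∫⁻ z in U, lam z ^ 2 := fun n => by
    simp only [hF]
    rw [lintegral_const_mul _ hm.lintegral_prod_right',
      lintegral_lintegral_swap (f := fun (z : ℂ) (s : ℝ) => G (z + s * e)) hm.aemeasurable]
    simp only [lintegral_add_right_eq_self]
    rw [setLIntegral_const, Real.volume_Icc, sub_zero, mul_comm (∫⁻ z, G z), ← mul_assoc,
      ENNReal.inv_mul_cancel (hne n) ENNReal.ofReal_ne_top, one_mul, hG,
      lintegral_indicator hU.measurableSet]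
  have htl : Tendsto t atTop (𝓝[>] 0) :=
    tendsto_nhdsWithin_iff.2 ⟨tendsto_one_div_add_atTop_nhds_zero_nat,
      Eventually.of_forall ht0⟩
  have key : ∀ z ∈ U, ‖fderiv ℝ θ z e‖ₑ ^ 2 ≤ liminf (fun n => F n z) atTop := by
    intro z hz
    by_cases hd : DifferentiableAt ℝ θ z
    swap
    · simp [fderiv_zero_of_not_differentiableAt hd]
    have hl1 : HasDerivAt (fun s : ℝ => z + (s : ℂ) * e) e 0 := by
      simpa using (((hasDerivAt_id (0 : ℝ)).ofReal_comp).mul_const e).const_add z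
    have hd' : HasFDerivAt θ (fderiv ℝ θ z) (z + ((0 : ℝ) : ℂ) * e) := by
      simpa using hd.hasFDerivAt
    have hl2 := (hd'.comp_hasDerivAt (0 : ℝ) hl1).tendsto_slope_zero_right.comp htl
    have hl3 : Tendsto (fun n => ‖(t n)⁻¹ * (θ (z + t n * e) - θ z)‖ₑ ^ 2) atTop
        (𝓝 (‖fderiv ℝ θ z e‖ₑ ^ 2)) := by
      refine ENNReal.Tendsto.pow (Tendsto.enorm ?_)
      simpa [Function.comp_def] using hl2
    rw [← hl3.liminf_eq]
    refine liminf_le_liminf ?_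
    obtain ⟨δ, hδ, hb⟩ := Metric.isOpen_iff.1 hU z hz
    have hs : Tendsto (fun n => t n * ‖e‖) atTop (𝓝 0) := by
      simpa [ht] using (tendsto_one_div_add_atTop_nhds_zero_nat (𝕜 := ℝ)).mul_const ‖e‖
    filter_upwards [hs.eventually (gt_mem_nhds hδ)] with n hn
    have hin : ∀ s ∈ Icc (0 : ℝ) (t n), z + s * e ∈ ball z δ := fun s hs => by
      rw [mem_ball, dist_eq_norm, add_sub_cancel_left, norm_mul, norm_real, Real.norm_eq_abs,
        abs_of_nonneg hs.1]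
      exact (mul_le_mul_of_nonneg_right hs.2 (norm_nonneg e)).trans_lt hn
    have hseg : segment ℝ z (z + t n * e) ⊆ U :=
      ((convex_ball z δ).segment_subset (mem_ball_self hδ)
        (hin _ ⟨(ht0 n).le, le_rfl⟩)).trans hb
    have h1 := h z (t n) (ht0 n).le hseg
    have h2 := cs (g := fun s : ℝ => lam (z + s * e)) (hl.comp (by fun_prop)) (t n)
    have h3 : ∫⁻ s in Icc (0 : ℝ) (t n), lam (z + s * e) ^ 2 =
        ∫⁻ s in Icc (0 : ℝ) (t n), G (z + s * e) :=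
      setLIntegral_congr_fun measurableSet_Icc fun s hs => by
        simp only [hG, indicator_of_mem (hb (hin s hs))]
    have e1 : ‖(t n)⁻¹ * (θ (z + t n * e) - θ z)‖ₑ =
        (ENNReal.ofReal (t n))⁻¹ * ENNReal.ofReal |θ (z + t n * e) - θ z| := by
      rw [enorm_mul, Real.enorm_eq_ofReal (inv_nonneg.2 (ht0 n).le),
        ENNReal.ofReal_inv_of_pos (ht0 n), Real.enorm_eq_ofReal_abs]
    calc ‖(t n)⁻¹ * (θ (z + t n * e) - θ z)‖ₑ ^ 2
        ≤ (ENNReal.ofReal (t n))⁻¹ ^ 2 *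
          (ENNReal.ofReal (t n) * ∫⁻ s in Icc (0 : ℝ) (t n), G (z + s * e)) := by
          rw [e1, mul_pow, ← h3]
          gcongr
          exact (pow_le_pow_left' h1 2).trans h2
      _ = F n z := by
          simp only [hF]
          rw [pow_two, mul_assoc, ← mul_assoc _ (ENNReal.ofReal (t n)),
            ENNReal.inv_mul_cancel (hne n) ENNReal.ofReal_ne_top, one_mul]
  calc ∫⁻ z in U, ‖fderiv ℝ θ z e‖ₑ ^ 2 ≤ ∫⁻ z in U, liminf (fun n => F n z) atTop :=
        setLIntegral_mono' hU.measurableSet key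
    _ ≤ ∫⁻ z, liminf (fun n => F n z) atTop := setLIntegral_le_lintegral _ _
    _ ≤ liminf (fun n => ∫⁻ z, F n z) atTop := lintegral_liminf_le hFm
    _ = _ := by simp only [hFi, liminf_const]

theorem gr_sq (θ : ℂ → ℝ) (z : ℂ) :
    ‖gr θ z‖ₑ ^ 2 = ‖fderiv ℝ θ z 1‖ₑ ^ 2 + ‖fderiv ℝ θ z I‖ₑ ^ 2 := by
  have e : ∀ x : ℝ, ‖x‖ₑ ^ 2 = ENNReal.ofReal (x ^ 2) := fun x => by
    rw [← ofReal_norm, ← ENNReal.ofReal_pow (norm_nonneg _), Real.norm_eq_abs, sq_abs]
  rw [e, e, ← ENNReal.ofReal_add (sq_nonneg _) (sq_nonneg _), ← ofReal_norm,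
    ← ENNReal.ofReal_pow (norm_nonneg _), Complex.sq_norm, gr, normSq_mk, pow_two, pow_two]

end IEn

theorem s_ien : S_ien := by
  intro U θ lam hU hl h
  have h1 := IEn.dir hU hl fun z t => h z 1 t (Or.inl rfl)
  have h2 := IEn.dir hU hl fun z t => h z I t (Or.inr rfl)
  simp only [IEn.gr_sq]
  rw [lintegral_add_left ((measurable_fderiv_apply_const ℝ θ 1).enorm.pow_const 2), two_mul]
  exact add_le_add h1 h2

end Vale.Agent.P116
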