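import Vale.Agent.P116.IStm

open Set Filter Topology MeasureTheory Metric Complex
open scoped ENNReal NNReal

noncomputable section
namespace Vale.Agent.P116

namespace IFin

theorem gr_congr {a b : ℂ → ℝ} {z : ℂ} (h : a =ᶠ[𝓝 z] b) : gr a z = gr b z := by
  rw [gr, gr, h.fderiv_eq]

theorem en_sq (x : ℂ) : ‖x‖ₑ ^ 2 = ENNReal.ofReal (‖x‖ ^ 2) := by
  rw [← ofReal_norm, ← ENNReal.ofReal_pow (norm_nonneg _)]

end IFin

open IFin in
theorem s_ifin (L : Lib) (hT : S_T) (hh : S_ihm) (he : S_ien) (hg : S_iglue) : S_ifin := by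
  intro K R B ψ lam s hK hK1 hR hψ hi hl hc hM hs hL hB hlam
  have hsub : sphere (0 : ℂ) 1 ⊆ ball 0 R \ K := fun z hz => by
    rw [mem_sphere_zero_iff_norm] at hz
    refine ⟨by rw [mem_ball_zero_iff]; linarith, fun h => ?_⟩
    have := mem_ball_zero_iff.1 (hK1 h)
    linarith
  obtain ⟨M, hM'⟩ := (isCompact_sphere (0 : ℂ) 1).exists_bound_of_continuousOn
    (hψ.continuousOn.mono hsub)
  obtain ⟨θ, h1, h2, h3⟩ := hT K lam s ψ hK hK1 hl hc hM hs ⟨M, hM'⟩ hL
  obtain ⟨g1, g2⟩ := hg K R ψ θ lam s hK hK1 hψ hM h1 h2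
  set ζ : ℂ → ℝ := fun z => if ‖z‖ ≤ 1 then θ z else ψ z with hζ
  have hU : IsOpen (ball (0 : ℂ) 1 \ K) := isOpen_ball.sdiff hK.isClosed
  have hE := he (ball 0 1 \ K) θ lam hU hl fun z e t he ht hseg => by
    rw [← hh.seg z e t lam (by rcases he with rfl | rfl <;> simp) ht hl]
    exact g1 _ _ (hseg.trans (sdiff_subset_sdiff_left ball_subset_closedBall))
  have e1 : ∀ z ∈ ball (0 : ℂ) 1, gr ζ z = gr θ z := fun z hz => gr_congr (by
    filter_upwards [isOpen_ball.mem_nhds hz] with w hw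
    simp only [hζ, if_pos (mem_ball_zero_iff.1 hw).le])
  have e2 : ∀ z : ℂ, 1 < ‖z‖ → gr ζ z = gr ψ z := fun z hz => gr_congr (by
    filter_upwards [(isOpen_lt continuous_const continuous_norm).mem_nhds hz] with w hw
    simp only [hζ, if_neg (not_le.2 hw)])
  have hV : MeasurableSet ((ball (0 : ℂ) R \ K) ∩ {z | 1 < ‖z‖}) :=
    (measurableSet_ball.diff hK.isClosed.measurableSet).inter
      (isOpen_lt continuous_const continuous_norm).measurableSet
  have hcov : ball (0 : ℂ) R \ K ⊆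
      ((ball 0 1 \ K) ∪ ((ball (0 : ℂ) R \ K) ∩ {z | 1 < ‖z‖})) ∪ sphere 0 1 := fun z hz => by
    rcases lt_trichotomy ‖z‖ 1 with h | h | h
    · exact Or.inl (Or.inl ⟨mem_ball_zero_iff.2 h, hz.2⟩)
    · exact Or.inr (mem_sphere_zero_iff_norm.2 h)
    · exact Or.inl (Or.inr ⟨hz, h⟩)
  have hen : 0 ≤ en (ball 0 R \ K) ψ := integral_nonneg fun _ => by positivity
  have hb : ∫⁻ z in ball (0 : ℂ) R \ K, ENNReal.ofReal (‖gr ζ z‖ ^ 2) ≤
      ENNReal.ofReal (2 * B + en (ball 0 R \ K) ψ) := by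
    calc ∫⁻ z in ball (0 : ℂ) R \ K, ENNReal.ofReal (‖gr ζ z‖ ^ 2)
        ≤ ((∫⁻ z in ball (0 : ℂ) 1 \ K, ENNReal.ofReal (‖gr ζ z‖ ^ 2)) +
            ∫⁻ z in (ball (0 : ℂ) R \ K) ∩ {z | 1 < ‖z‖}, ENNReal.ofReal (‖gr ζ z‖ ^ 2)) +
            ∫⁻ z in sphere (0 : ℂ) 1, ENNReal.ofReal (‖gr ζ z‖ ^ 2) :=
          (lintegral_mono_set hcov).trans ((lintegral_union_le _ _ _).trans
            (add_le_add_left (lintegral_union_le _ _ _) _))
      _ ≤ (2 * ENNReal.ofReal B + ENNReal.ofReal (en (ball 0 R \ K) ψ)) + 0 := by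
          gcongr
          · refine le_trans (le_of_eq ?_) (hE.trans (by gcongr))
            exact setLIntegral_congr_fun hU.measurableSet fun z hz => by
              simp only [e1 z hz.1, en_sq]
          · rw [en, ofReal_integral_eq_lintegral_ofReal hi
              (Eventually.of_forall fun _ => by positivity)]
            refine le_trans (le_of_eq ?_) (lintegral_mono_set
              (inter_subset_left (t := {z : ℂ | 1 < ‖z‖})))
            exact setLIntegral_congr_fun hV fun z hz => by simp only [e2 z hz.2]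
          · exact (setLIntegral_measure_zero _ _ (Measure.addHaar_sphere _ _ _)).le
      _ = _ := by
          rw [add_zero, ENNReal.ofReal_add (by positivity) hen, ENNReal.ofReal_mul zero_le_two,
            ENNReal.ofReal_ofNat]
  have hm : AEStronglyMeasurable (fun z => ‖gr ζ z‖ ^ 2) (volume.restrict (ball 0 R \ K)) :=
    ((L.adm.meas ζ).norm.pow_const 2).aestronglyMeasurable
  have h0 : 0 ≤ᵐ[volume.restrict (ball 0 R \ K)] fun z => ‖gr ζ z‖ ^ 2 :=
    Eventually.of_forall fun _ => by positivity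
  refine ⟨ζ, g2, fun z hz => ?_, ⟨hm, ?_⟩, ?_, fun p ε hε => ?_⟩
  · by_cases h : ‖z‖ ≤ 1
    · simp only [hζ, if_pos h]
      exact h1 (mem_sphere_zero_iff_norm.2 (le_antisymm h hz))
    · simp only [hζ, if_neg h]
  · exact (hasFiniteIntegral_iff_ofReal h0).2 (hb.trans_lt ENNReal.ofReal_lt_top)
  · rw [en, integral_eq_lintegral_of_nonneg_ae h0 hm]
    exact ENNReal.toReal_le_of_le_ofReal (by positivity) hb
  · obtain ⟨U, u1, u2, u3⟩ := h3 p ε hε
    refine ⟨U ∩ ball 0 1, u1.inter isOpen_ball,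
      subset_inter u2 ((L.cmp.sub K p).trans hK1), fun z hz w hw => ?_⟩
    simp only [hζ, if_pos (mem_ball_zero_iff.1 hz.1.2).le, if_pos (mem_ball_zero_iff.1 hw.1.2).le]
    exact u3 z ⟨hz.1.1, hz.2⟩ w ⟨hw.1.1, hw.2⟩

end Vale.Agent.P116
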