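import Vale.Agent.P116.IStm

/-! Part I: gluing along the circle. -/

open Set Filter Topology MeasureTheory Metric Complex
open scoped ENNReal NNReal

noncomputable section
namespace Vale.Agent.P116

namespace IGlue

theorem seg_cpt (z z' : ℂ) : IsCompact (segment ℝ z z') := by
  rw [segment_eq_image]
  exact isCompact_Icc.image (by fun_prop)

theorem seg {K : Set ℂ} {θ : ℂ → ℝ} {lam : ℂ → ℝ≥0∞} {s : Cmp K → ℝ}
    (h : LipC K lam s (closedBall 0 1 \ K) θ) (z z' : ℂ) (hs : segment ℝ z z' ⊆ closedBall 0 1 \ K) :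
    ENNReal.ofReal |θ z' - θ z| ≤ ∫⁻ w in segment ℝ z z', lam w ∂μH[1] := by
  have h0 : ∀ p : Cmp K, ¬ (p.1 ∩ segment ℝ z z').Nonempty := by
    rintro ⟨p, x, hx, e⟩ ⟨w, h1, h2⟩
    exact (hs h2).2 (connectedComponentIn_subset K x (e ▸ h1))
  have h1 : Pth K (segment ℝ z z') := ⟨seg_cpt z z', (convex_segment z z').isPreconnected,
    fun w hw => (hs hw).1, countable_empty.mono fun p hp => h0 p hp⟩
  have h2 : cost K lam s (segment ℝ z z') = ∫⁻ w in segment ℝ z z', lam w ∂μH[1] := by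
    rw [cost, sdiff_eq_left.2 (disjoint_left.2 fun w hw => (hs hw).2)]
    simp only [h0, if_false, tsum_zero, add_zero]
  have a1 := left_mem_segment ℝ z z'
  have a2 := right_mem_segment ℝ z z'
  rw [← h2]
  rcases abs_choice (θ z' - θ z) with e | e
  · rw [e]
    exact h _ h1 z ⟨a1, hs a1⟩ z' ⟨a2, hs a2⟩
  · rw [e, neg_sub]
    exact h _ h1 z' ⟨a2, hs a2⟩ z ⟨a1, hs a1⟩

end IGlue

theorem s_iglue : S_iglue := by
  intro K R ψ θ lam s hK _ hψ hb he h
  refine ⟨IGlue.seg h, fun z0 hz0 => ?_⟩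
  have hO : ball 0 R \ K ∈ 𝓝 z0 := (isOpen_ball.sdiff hK.isClosed).mem_nhds hz0
  obtain ⟨N, t, ht, hN⟩ := (hψ.contDiffAt hO).exists_lipschitzOnWith
  obtain ⟨δ, δ0, hδ⟩ := nhds_basis_closedBall.mem_iff.1 (inter_mem hO ht)
  have hs : closedBall z0 δ ∩ closedBall 0 1 ⊆ closedBall 0 1 \ K :=
    fun w hw => ⟨hw.2, (hδ hw.1).1.2⟩
  obtain ⟨M, hM⟩ := hb _ ((isCompact_closedBall z0 δ).inter (isCompact_closedBall 0 1)) hs
  have h1 : ∀ x ∈ closedBall z0 δ, ‖x‖ ≤ 1 → ∀ y ∈ closedBall z0 δ, ‖y‖ ≤ 1 →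
      dist (θ x) (θ y) ≤ (max M N : ℝ≥0) * dist x y := by
    intro x hx hx' y hy hy'
    have a1 := ((convex_closedBall z0 δ).inter (convex_closedBall 0 1)).segment_subset
      ⟨hy, mem_closedBall_zero_iff.2 hy'⟩ ⟨hx, mem_closedBall_zero_iff.2 hx'⟩
    have a2 := (IGlue.seg h y x (a1.trans hs)).trans (setLIntegral_mono'
      (IGlue.seg_cpt y x).measurableSet fun w hw => (hM w (a1 hw)).trans
        (ENNReal.coe_le_coe.2 (le_max_left M N)))
    rw [setLIntegral_const, hausdorffMeasure_segment, edist_comm, edist_dist,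
      ← ENNReal.ofReal_coe_nnreal, ← ENNReal.ofReal_mul (NNReal.coe_nonneg _),
      ENNReal.ofReal_le_ofReal_iff (by positivity)] at a2
    exact a2
  have h2 : ∀ x ∈ closedBall z0 δ, ∀ y ∈ closedBall z0 δ,
      dist (ψ x) (ψ y) ≤ (max M N : ℝ≥0) * dist x y := fun x hx y hy =>
    (hN.weaken (le_max_right M N)).dist_le_mul x (hδ hx).2 y (hδ hy).2
  have h3 : ∀ x ∈ closedBall z0 δ, ‖x‖ ≤ 1 → ∀ y ∈ closedBall z0 δ, ¬ ‖y‖ ≤ 1 →
      dist (θ x) (ψ y) ≤ (max M N : ℝ≥0) * dist x y := by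
    intro x hx hx' y hy hy'
    obtain ⟨u, u1, u2⟩ := (convex_segment x y).isPreconnected.intermediate_value
      (left_mem_segment ℝ x y) (right_mem_segment ℝ x y) continuous_norm.continuousOn
      ⟨hx', (not_le.1 hy').le⟩
    have u3 := (convex_closedBall z0 δ).segment_subset hx hy u1
    have a1 := h1 x hx hx' u u3 u2.le
    rw [he (mem_sphere_zero_iff_norm.2 u2)] at a1
    rw [← dist_add_dist_of_mem_segment u1, mul_add]
    exact (dist_triangle _ _ _).trans (add_le_add a1 (h2 u u3 y hy))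
  refine ⟨max M N, closedBall z0 δ, mem_nhdsWithin_of_mem_nhds (closedBall_mem_nhds z0 δ0),
    LipschitzOnWith.of_dist_le_mul fun x hx y hy => ?_⟩
  split_ifs with a1 a2 a2
  · exact h1 x hx a1 y hy a2
  · exact h3 x hx a1 y hy a2
  · rw [dist_comm, dist_comm x]
    exact h3 y hy a2 x hx a1
  · exact h2 x hx y hy

end Vale.Agent.P116
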