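import Vale.Agent.P116.IStm

/-! Part I: one dimensional Hausdorff measure. -/

open Set Filter Topology MeasureTheory Metric Complex
open scoped ENNReal NNReal

noncomputable section
namespace Vale.Agent.P116

namespace IHm

theorem conn (E : Set ℂ) (f : ℂ → ℝ) (a b : ℝ) (x y : ℂ) (hE : IsPreconnected E)
    (hf : LipschitzWith 1 f) (hx : x ∈ E) (hy : y ∈ E) (ha : f x ≤ a) (hb : b ≤ f y) :
    ENNReal.ofReal (b - a) ≤ μH[1] (E ∩ {w | a < f w ∧ f w < b}) := by
  have h1 : Ioo a b ⊆ f '' (E ∩ {w | a < f w ∧ f w < b}) := by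
    intro t ht
    obtain ⟨w, hw, rfl⟩ := hE.intermediate_value hx hy hf.continuous.continuousOn
      ⟨ha.trans ht.1.le, ht.2.le.trans hb⟩
    exact ⟨w, ⟨hw, ht⟩, rfl⟩
  have h2 := hf.hausdorffMeasure_image_le zero_le_one (E ∩ {w | a < f w ∧ f w < b})
  rw [hausdorffMeasure_real, ENNReal.coe_one, ENNReal.one_rpow, one_mul] at h2
  rw [← Real.volume_Ioo]
  exact (measure_mono h1).trans h2

theorem iso (z e : ℂ) (he : ‖e‖ = 1) : Isometry fun s : ℝ => z + s * e := by
  refine Isometry.of_dist_eq fun s t => ?_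
  rw [dist_add_left, dist_eq_norm, ← sub_mul, norm_mul, he, mul_one, ← ofReal_sub, norm_real,
    dist_eq_norm]

theorem ray_eq (z : ℂ) : ray z = (fun s : ℝ => 0 + s * z) '' Ici 1 := by
  ext w
  simp only [ray, mem_setOf_eq, mem_image, mem_Ici, zero_add, eq_comm]

theorem seg_eq (z e : ℂ) {t : ℝ} (ht : 0 ≤ t) :
    segment ℝ z (z + t * e) = (fun s : ℝ => z + s * e) '' Icc 0 t := by
  let φ : ℝ →ᵃ[ℝ] ℂ := AffineMap.lineMap z (z + e)
  have hφ : ∀ s : ℝ, φ s = z + s * e := fun s => by
    simp [φ, AffineMap.lineMap_apply, add_comm]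
  have h1 := image_segment ℝ φ 0 t
  rw [hφ, hφ, segment_eq_Icc ht, ofReal_zero, zero_mul, add_zero] at h1
  rw [← h1]
  exact image_congr fun s _ => hφ s

end IHm

open IHm in
theorem s_ihm : S_ihm where
  conn := conn
  long := by
    intro E x t hE hx
    obtain ⟨y, hy, hn⟩ := hE.2.2 (‖x‖ + t)
    have h1 : t ≤ dist y x := by
      rw [dist_eq_norm]; linarith [norm_sub_norm_le y x]
    have h2 := conn E (fun w => dist w x) 0 t x y hE.2.1 (LipschitzWith.dist_left x) hx hy
      (dist_self x).le h1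
    rw [sub_zero] at h2
    exact h2.trans (measure_mono fun w hw => ⟨hw.1, hw.2.2⟩)
  rayl := by
    intro z hz
    have hi := iso 0 z hz
    refine ⟨⟨?_, ?_, fun ρ => ?_⟩, ⟨1, le_rfl, by simp⟩, ?_⟩
    · rw [ray_eq]
      exact hi.isClosedEmbedding.isClosedMap _ isClosed_Ici
    · rw [ray_eq]
      exact isPreconnected_Ici.image _ hi.continuous.continuousOn
    · refine ⟨(max 1 ρ : ℝ) * z, ⟨max 1 ρ, le_max_left _ _, rfl⟩, ?_⟩
      rw [norm_mul, hz, mul_one, norm_real]
      exact (le_max_right _ _).trans (le_abs_self _)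
    · rintro w ⟨t, ht, rfl⟩
      rw [norm_mul, hz, mul_one, norm_real]
      exact ht.trans (le_abs_self _)
  raym := by
    intro z ρ hz
    have hi := iso 0 z hz
    have h1 : ray z ∩ ball 0 (1 + ρ) ⊆ (fun s : ℝ => 0 + s * z) '' Ico 1 (1 + ρ) := by
      rintro w ⟨⟨t, ht, rfl⟩, hb⟩
      refine ⟨t, ⟨ht, ?_⟩, zero_add _⟩
      rw [mem_ball, dist_zero_right, norm_mul, hz, mul_one, norm_real] at hb
      exact (le_abs_self _).trans_lt hb
    refine (measure_mono h1).trans (le_of_eq ?_)
    rw [hi.hausdorffMeasure_image (Or.inl zero_le_one), hausdorffMeasure_real, Real.volume_Ico,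
      add_sub_cancel_left]
  seg := by
    intro z e t lam he ht hm
    have hi := iso z e he
    have hme := hi.isClosedEmbedding.measurableEmbedding
    have hms : MeasurableSet ((fun s : ℝ => z + s * e) '' Icc 0 t) :=
      hme.measurableSet_image.2 measurableSet_Icc
    have h1 := hi.map_hausdorffMeasure (Or.inl zero_le_one)
    rw [hausdorffMeasure_real] at h1
    rw [seg_eq z e ht, ← Measure.restrict_restrict_of_subset (image_subset_range _ _), ← h1,
      setLIntegral_map hms hm hi.continuous.measurable, preimage_image_eq _ hi.injective]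

end Vale.Agent.P116
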