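import Vale.Agent.P116.IStm

/-! Part I: pointwise bounds of the dual smoothing operator. -/

open Set Filter Topology MeasureTheory Metric Complex
open scoped ENNReal NNReal

noncomputable section
namespace Vale.Agent.P116

namespace IKer

variable {K : Set ℂ} {a : ℝ} {r : ℂ → ℝ}

theorem cont (h : Rad K a r) : Continuous r := by
  refine (LipschitzWith.of_dist_le_mul (K := 1) fun z w => ?_).continuous
  have h1 := h.lip z w
  have h2 := norm_nonneg (z - w)
  rw [Real.dist_eq, dist_eq_norm, NNReal.coe_one]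
  linarith

theorem kmeas (hr : Continuous r) : Measurable fun p : ℂ × ℂ => ker r p.1 p.2 := by
  have h := hr.measurable
  exact Measurable.ite (measurableSet_lt (by fun_prop) (by fun_prop)) (by fun_prop)
    measurable_const

theorem near (h : Rad K a r) {w z : ℂ} (hz : ‖w - z‖ < 2 * r z) :
    0 < r w ∧ ‖z - w‖ < 4 * r w ∧ 10 / r z ^ 2 ≤ 45 / 2 / r w ^ 2 := by
  have h1 := abs_le.1 (h.lip w z)
  have h2 := norm_nonneg (w - z)
  have h3 : 0 < r z := by linarith
  have h4 : 0 < r w := by linarith
  refine ⟨h4, by rw [norm_sub_rev]; linarith, ?_⟩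
  rw [div_le_div_iff₀ (by positivity) (by positivity)]
  nlinarith [mul_self_le_mul_self h4.le (show r w ≤ 3 / 2 * r z by linarith)]

theorem pow_le (h : Rad K a r) (w : ℂ) {n : ℕ} (hn : n ≠ 0) :
    ∫⁻ z, ker r w z ^ n ≤
      ENNReal.ofReal ((45 / 2 / r w ^ 2) ^ n * ((4 * r w) ^ 2 * Real.pi)) := by
  have h1 : ∀ z, ker r w z ^ n ≤ (ball w (4 * r w)).indicator
      (fun _ => ENNReal.ofReal ((45 / 2 / r w ^ 2) ^ n)) z := by
    intro z
    unfold ker
    split_ifs with hz
    · obtain ⟨-, h2, h3⟩ := near h hz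
      rw [indicator_of_mem (mem_ball_iff_norm.2 h2), ENNReal.ofReal_pow (by positivity)]
      exact pow_le_pow_left' (ENNReal.ofReal_le_ofReal h3) n
    · rw [zero_pow hn]
      exact zero_le
  have h2 := h.nn w
  refine (lintegral_mono h1).trans (le_of_eq ?_)
  rw [lintegral_indicator_const measurableSet_ball, Complex.volume_ball,
    ENNReal.ofReal_mul (p := (45 / 2 / r w ^ 2) ^ n) (by positivity),
    ENNReal.ofReal_mul (p := (4 * r w) ^ 2) (by positivity),
    ENNReal.ofReal_pow (p := 4 * r w) (by positivity), ← NNReal.coe_real_pi,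
    ENNReal.ofReal_coe_nnreal]

theorem row (h : Rad K a r) (w : ℂ) : ∫⁻ z, ker r w z ≤ 1200 := by
  have h1 := pow_le h w one_ne_zero
  simp only [pow_one] at h1
  refine h1.trans (ENNReal.ofReal_le_of_le_toReal ?_)
  have h2 := Real.pi_lt_d2
  rw [ENNReal.toReal_ofNat]
  rcases eq_or_ne (r w) 0 with h3 | h3
  · simp [h3]
  · field_simp
    linarith

end IKer

open IKer in
theorem s_iker : S_iker where
  kmeas _ hr := kmeas hr
  meas Ω r g hr hg := Measurable.lintegral_prod_right' (ν := volume.restrict Ω)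
    (f := fun p : ℂ × ℂ => g p.2 * ker r p.1 p.2) ((hg.comp measurable_snd).mul (kmeas hr))
  smul Ω r g d := by
    funext w
    simp only [Tg, mul_assoc]
    exact lintegral_const_mul' _ _ ENNReal.coe_ne_top
  row _ _ _ w h := row h w
  sup K Ω a r g w M h hΩ hg := by
    have hm : Measurable (ker r w) := (kmeas (cont h)).comp measurable_prodMk_left
    refine (setLIntegral_mono' (g := fun z => M * ker r w z) hΩ fun z hz => ?_).trans
      ((setLIntegral_le_lintegral _ _).trans ?_)
    · unfold ker
      split_ifs with h1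
      · exact mul_le_mul_left (hg z hz (near h h1).2.1) _
      · rw [mul_zero, mul_zero]
    · rw [lintegral_const_mul _ hm, mul_comm]
      exact mul_le_mul_left (row h w) _
  two K Ω a r g w B h hg hB hw := by
    have hm : Measurable (ker r w) := (kmeas (cont h)).comp measurable_prodMk_left
    have h0 := h.pos w hw
    have h1 := ENNReal.lintegral_mul_le_Lp_mul_Lq (volume.restrict Ω)
      Real.HolderConjugate.two_two hg.aemeasurable hm.aemeasurable
    have h2 : ∫⁻ z in Ω, ker r w z ^ 2 ≤ ENNReal.ofReal (170 / r w) ^ 2 := by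
      refine (setLIntegral_le_lintegral _ _).trans ((pow_le h w two_ne_zero).trans ?_)
      rw [← ENNReal.ofReal_pow (by positivity)]
      refine ENNReal.ofReal_le_ofReal ?_
      have h3 := Real.pi_lt_d2
      field_simp
      linarith
    have h3 : ∀ x : ℝ≥0∞, (x ^ 2) ^ (1 / 2 : ℝ) = x := fun x => by
      rw [one_div]
      exact ENNReal.pow_rpow_inv_natCast two_ne_zero x
    simp only [ENNReal.rpow_two] at h1
    refine h1.trans ?_
    rw [mul_comm, ← h3 (ENNReal.ofReal _), ← h3 B]
    exact mul_le_mul' (ENNReal.rpow_le_rpow h2 (by norm_num))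
      (ENNReal.rpow_le_rpow hB (by norm_num))
  far K Ω a ρ r g w h hΩ hs hw := by
    refine setLIntegral_eq_zero hΩ fun z hz => ?_
    have h1 := mem_ball_zero_iff.1 (hs hz)
    have h2 := norm_sub_norm_le w z
    have h3 := h.le z
    simp only [ker, if_neg (show ¬ ‖w - z‖ < 2 * r z by linarith), mul_zero, Pi.zero_apply]

end Vale.Agent.P116
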