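import Vale.Agent.P116.IStm

/-! Part I: the boundary values are Lipschitz for the cost. -/

open Set Filter Topology MeasureTheory Metric Complex
open scoped ENNReal NNReal

noncomputable section
namespace Vale.Agent.P116

namespace ILipc

theorem split (hb : S_ibas) {K A : Set ℂ} {lam₁ lam₂ : ℂ → ℝ≥0∞} {τ s : Cmp K → ℝ}
    {Lp M c : ℝ≥0} {h : ℝ} (h0 : 0 < h) (m1 : Measurable lam₁) (m2 : Measurable lam₂)
    (hτ : ∀ p, 0 ≤ τ p) (hs : ∀ p, 0 ≤ s p) :
    cost K (fun w => lam₁ w + M * lam₂ w + (Col h).indicator (fun _ => (Lp : ℝ≥0∞) + 1) w + c)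
      (fun p => τ p + M * s p) A = cost K lam₁ τ A + M * cost K lam₂ s A +
        ((Lp : ℝ≥0∞) + 1) * μH[1] (Col h ∩ (A \ K)) + c * μH[1] (A \ K) := by
  classical
  have hcol := (hb.col h h0.le).1
  have hmi : Measurable ((Col h).indicator fun _ : ℂ => (Lp : ℝ≥0∞) + 1) :=
    measurable_const.indicator hcol
  rw [← hb.cost]
  simp only [cost]
  rw [lintegral_add_right _ measurable_const, lintegral_add_right _ hmi, lintegral_add_left m1,
    lintegral_indicator_const hcol, Measure.restrict_apply hcol, setLIntegral_const]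
  have h1 : ∑' p : Cmp K, (if (p.1 ∩ A).Nonempty then ENNReal.ofReal (τ p + M * s p) else 0) =
      (∑' p : Cmp K, if (p.1 ∩ A).Nonempty then ENNReal.ofReal (τ p) else 0) +
        ∑' p : Cmp K, if (p.1 ∩ A).Nonempty then ENNReal.ofReal (M * s p) else 0 := by
    rw [← ENNReal.tsum_add]
    refine tsum_congr fun p => ?_
    split_ifs
    · exact ENNReal.ofReal_add (hτ p) (mul_nonneg M.coe_nonneg (hs p))
    · simp
  rw [h1]
  ring

end ILipc

open ILipc in
theorem s_ilipc (hb : S_ibas) (hh : S_ihm) : S_ilipc := by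
  intro K ψ lam₁ lam₂ τ s Lp M c H h hK h0 hKh hlip hosc hM m1 m2 hτ hs hJ A hA z hz z' hz'
  rw [split hb h0 m1 m2 hτ hs]
  have hD : ENNReal.ofReal (ψ z' - ψ z) ≤ M := by
    rw [← ENNReal.ofReal_coe_nnreal]
    exact ENNReal.ofReal_le_ofReal (hosc z hz.2 z' hz'.2)
  have h1 : ‖z‖ = 1 := by simpa using hz.2
  have hA1 : ∀ w ∈ A, ‖w‖ ≤ 1 := fun w hw => by simpa using hA.2.2.1 hw
  have hK' : ∀ w : ℂ, 1 - h ≤ ‖w‖ → w ∉ K := fun w hw hk => by
    have : ‖w‖ < 1 - h := by simpa using hKh hk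
    linarith
  rcases le_total (μH[1] (A \ K)) H with hH | hH
  swap
  · refine hD.trans (le_trans ?_ le_add_self)
    calc (M : ℝ≥0∞) ≤ ((c * H : ℝ≥0) : ℝ≥0∞) := ENNReal.coe_le_coe.2 hM
      _ = c * H := ENNReal.coe_mul _ _
      _ ≤ _ := by gcongr
  refine le_trans ?_ le_self_add
  by_cases hj : cost K lam₁ τ A + ENNReal.ofReal h ≤ ENNReal.ofReal (ψ z' - ψ z)
  · have h2 := hJ A hA hH z hz z' hz' hj
    refine hD.trans (le_trans ?_ le_self_add)
    refine le_trans ?_ le_add_self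
    exact le_mul_of_one_le_right' h2
  by_cases hy : ∃ y ∈ A, ‖y‖ ≤ 1 - h
  · obtain ⟨y, hyA, hy⟩ := hy
    have h2 := hh.conn A (fun w => ‖w‖) (1 - h) 1 y z hA.2.1 lipschitzWith_one_norm hyA hz.1 hy
      h1.ge
    rw [sub_sub_cancel] at h2
    have h3 : ENNReal.ofReal h ≤ μH[1] (Col h ∩ (A \ K)) :=
      h2.trans (measure_mono fun w hw => ⟨⟨hw.2.1.le, hw.2.2.le⟩, hw.1, hK' w hw.2.1.le⟩)
    refine (not_le.1 hj).le.trans (add_le_add le_self_add (h3.trans ?_))
    exact le_mul_of_one_le_left' le_add_self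
  · simp only [not_exists, not_and, not_le] at hy
    have h2 := hh.conn A (fun w => dist w z) 0 (dist z' z) z z' hA.2.1
      (LipschitzWith.dist_left z) hz.1 hz'.1 (dist_self z).le le_rfl
    rw [sub_zero] at h2
    have h3 : ENNReal.ofReal (dist z' z) ≤ μH[1] (Col h ∩ (A \ K)) :=
      h2.trans (measure_mono fun w hw =>
        ⟨⟨(hy w hw.1).le, hA1 w hw.1⟩, hw.1, hK' w (hy w hw.1).le⟩)
    have h4 := hlip.dist_le_mul z' hz'.2 z hz.2
    rw [Real.dist_eq] at h4
    refine le_trans ?_ le_add_self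
    calc ENNReal.ofReal (ψ z' - ψ z) ≤ ENNReal.ofReal (Lp * dist z' z) :=
          ENNReal.ofReal_le_ofReal ((le_abs_self _).trans h4)
      _ = Lp * ENNReal.ofReal (dist z' z) := by
          rw [ENNReal.ofReal_mul Lp.coe_nonneg, ENNReal.ofReal_coe_nnreal]
      _ ≤ _ := mul_le_mul' le_self_add h3

end Vale.Agent.P116
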