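import Vale.Agent.P116.IStm

/-! Part I: the pair attached to a path. -/

open Set Filter Topology MeasureTheory Metric Complex
open scoped ENNReal NNReal

noncomputable section
namespace Vale.Agent.P116

namespace IMem

variable {K A : Set ℂ} {z z' : ℂ}

theorem long (hh : S_ihm) (hc : IsCompact A) (hp : IsPreconnected A) (hz : z ∈ A) (hz' : z' ∈ A)
    (h1 : ‖z‖ = 1) (h2 : ‖z'‖ = 1) : Long (A ∪ ray z ∪ ray z') := by
  obtain ⟨⟨a1, a2, a3⟩, a4, -⟩ := hh.rayl z h1
  obtain ⟨⟨b1, b2, -⟩, b4, -⟩ := hh.rayl z' h2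
  refine ⟨(hc.isClosed.union a1).union b1,
    (hp.union z hz a4 a2).union z' (Or.inl hz') b4 b2, fun ρ => ?_⟩
  obtain ⟨y, hy, h⟩ := a3 ρ
  exact ⟨y, Or.inl (Or.inr hy), h⟩

theorem sub : (A ∪ ray z ∪ ray z') \ K ⊆ A \ K ∪ ray z ∪ ray z' := by
  rintro w ⟨(h | h) | h, hw⟩
  · exact Or.inl (Or.inl ⟨h, hw⟩)
  · exact Or.inl (Or.inr h)
  · exact Or.inr h

theorem len (hh : S_ihm) {H : ℝ≥0} (hH : μH[1] (A \ K) ≤ H) (h1 : ‖z‖ = 1) (h2 : ‖z'‖ = 1)
    {ρ : ℝ} (hρ : 0 ≤ ρ) :
    μH[1] (((A ∪ ray z ∪ ray z') \ K) ∩ ball 0 (1 + ρ)) ≤ ENNReal.ofReal (H + 2 * ρ) := by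
  have h3 : ((A ∪ ray z ∪ ray z') \ K) ∩ ball 0 (1 + ρ) ⊆
      A \ K ∪ ray z ∩ ball 0 (1 + ρ) ∪ ray z' ∩ ball 0 (1 + ρ) := by
    rintro w ⟨hw, hb⟩
    rcases sub hw with (h | h) | h
    · exact Or.inl (Or.inl h)
    · exact Or.inl (Or.inr ⟨h, hb⟩)
    · exact Or.inr ⟨h, hb⟩
  refine (measure_mono h3).trans ((measure_union_le _ _).trans
    ((add_le_add (measure_union_le _ _) (hh.raym z' ρ h2)).trans ?_))
  rw [two_mul, ← add_assoc, ENNReal.ofReal_add (by positivity) hρ,
    ENNReal.ofReal_add (by positivity) hρ, ENNReal.ofReal_coe_nnreal]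
  exact add_le_add (add_le_add hH (hh.raym z ρ h1)) le_rfl

theorem sec_open (v : ℂ) (α : ℝ) : IsOpen (Sec v α) :=
  isOpen_lt (by fun_prop) (by fun_prop)

end IMem

open IMem in
theorem s_imem (L : Lib) (hb : S_ibas) (hh : S_ihm) (hs : S_iside) (hA : S_ismA) (hB : S_ismB)
    (ht : S_iton) (hp : S_ipol) (hn : S_inear) : S_imem := by
  classical
  intro K R ψ a Lp H r hI hr
  have ha := hI.a0
  refine ⟨fun w => Real.toNNReal (10 / r w ^ 2 * (H + 2 * (‖w‖ + a))), ?_⟩
  rintro A ⟨hAc, hAp, hA1, hAn⟩ hH z ⟨hz, hz1⟩ z' ⟨hz', hz1'⟩ hne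
  rw [mem_sphere_zero_iff_norm] at hz1 hz1'
  obtain ⟨v, α, hv, hα, hα', e1, e2⟩ := hb.ang z z' hz1 hz1' hne
  obtain ⟨W, hW, hS⟩ := hs A v α hAc hAp hA1 hv hα hα' (e1 ▸ hz) (e2 ▸ hz')
  rw [← e1, ← e2] at hW hS
  have hE := long hh hAc hAp hz hz' hz1 hz1'
  have hrng := fun w => hA.rng r W w (hr.nn w)
  have hU : ULip Kᶜ (fun w => Real.toNNReal (10 / r w ^ 2 * (H + 2 * (‖w‖ + a))))
      (fun w => r w / 8) (Sm r W) := by
    intro w hw
    refine hB K _ W a r w _ hr hE hW hw ?_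
    have h1 : (A ∪ ray z ∪ ray z') ∩ ball w (2 * r w) ⊆
        ((A ∪ ray z ∪ ray z') \ K) ∩ ball 0 (1 + (‖w‖ + a)) := by
      rintro y ⟨hy, hy'⟩
      have h2 := hr.nn w
      have h3 := hr.le w
      have h4 := mem_ball_iff_norm.1 hy'
      have h5 := norm_sub_norm_le y w
      exact ⟨⟨hy, disjoint_left.1 (hb.off K a r w hr) (mem_ball_iff_norm.2 (by linarith))⟩,
        mem_ball_zero_iff.2 (by linarith)⟩
    refine (mul_le_mul_right ((measure_mono h1).trans
      (len hh hH hz1 hz1' (by positivity))) _).trans (le_of_eq ?_)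
    rw [← ENNReal.ofReal_mul (by positivity)]
    rfl
  obtain ⟨o1, o2, o3, -, -, -⟩ := hb.an K R ψ a Lp hI
  refine ⟨(Sm r W, fun p => if (p.1 ∩ A).Nonempty then 1 else 0), ⟨hrng, fun p => ?_,
    hAn.mono fun p hp => ?_, fun p => ?_, hU⟩, ?_, fun g s hg => ?_⟩
  · dsimp only
    split_ifs <;> norm_num
  · by_contra h
    exact hp (if_neg h)
  · dsimp only
    split_ifs with h
    · refine fun ε hε => ⟨univ, isOpen_univ, subset_univ _, fun x _ y _ => ?_⟩
      linarith [(hrng x).2, (hrng y).1]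
    · refine hA.osc K _ _ W a r hr hE.1 hW (L.cmp.cpt K p hI.cpt) (L.cmp.con K p) (L.cmp.sub K p)
        (disjoint_left.2 fun y hy hy' => ?_)
      have h1 := mem_ball_zero_iff.1 (hI.sub (L.cmp.sub K p hy))
      rcases hy' with (h2 | h2) | h2
      · exact h ⟨y, hy, h2⟩
      · linarith [(hh.rayl z hz1).2.2 y h2]
      · linarith [(hh.rayl z' hz1').2.2 y h2]
  · have h1 := abs_le.1 (hp K R ψ a Lp v α hI hv hα hα')
    rw [← e1, ← e2] at h1
    have hc : ContinuousOn (Sm r W) (An a) := fun w hw => by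
      have h2 : w ∉ K := (o2 hw).2
      exact ((hU w h2).continuousOn.continuousAt
        (ball_mem_nhds w (div_pos (hr.pos w h2) (by norm_num)))).continuousWithinAt
    have h2 := abs_le.1 (hn K R ψ a Lp z z' (Sm r W) ((Sec v α).indicator 1) hI hz1 hz1'
      (hc.aestronglyMeasurable o1.measurableSet)
      (measurable_one.indicator (sec_open v α).measurableSet).aestronglyMeasurable hrng
      (fun w => by by_cases h : w ∈ Sec v α <;> simp [h]) fun w hw hd => ?_)
    · dsimp only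
      linarith
    · have h3 : 1 + a < ‖w‖ := hw.1
      have h4 := hr.out w (by linarith)
      have h5 : w ∉ ray z ∪ ray z' := disjoint_left.1 hd (mem_ball_self (by positivity))
      have h6 := hS w (by linarith) (fun h => h5 (Or.inl h)) fun h => h5 (Or.inr h)
      rw [hA.val r _ W w hW (by rw [h4]; positivity) (disjoint_left.2 fun y hy hy' => ?_)]
      · by_cases h : w ∈ W
        · rw [indicator_of_mem h, indicator_of_mem (h6.1 h)]
        · rw [indicator_of_notMem h, indicator_of_notMem fun h' => h (h6.2 h')]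
      · rw [h4] at hy
        rcases hy' with (h7 | h7) | h7
        · have h8 := mem_closedBall_zero_iff.1 (hA1 h7)
          have h9 := mem_ball_iff_norm'.1 hy
          have h10 := norm_sub_norm_le w y
          linarith
        · exact disjoint_left.1 hd hy (Or.inl h7)
        · exact disjoint_left.1 hd hy (Or.inr h7)
  · have h1 := ht K _ W (Om K a) a r g hI.cpt hr hE hW o3.measurableSet (fun w hw => hw.2)
      (fun ρ => ?_) hg
    · have h2 : ∑' p : Cmp K, ENNReal.ofReal (s p * if (p.1 ∩ A).Nonempty then 1 else 0) =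
          ∑' p : Cmp K, if (p.1 ∩ A).Nonempty then ENNReal.ofReal (s p) else 0 := by
        refine tsum_congr fun p => ?_
        split_ifs
        · rw [mul_one]
        · rw [mul_zero, ENNReal.ofReal_zero]
      have h3 := h1.trans ((lintegral_mono_set sub).trans ((lintegral_union_le _ _ _).trans
        (add_le_add (lintegral_union_le _ _ _) le_rfl)))
      unfold pg cost
      dsimp only
      rw [h2]
      refine (add_le_add h3 le_rfl).trans (le_of_eq ?_)
      ring
    · refine ne_top_of_le_ne_top ENNReal.ofReal_ne_top ((measure_mono (inter_subset_inter_right _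
        (ball_subset_ball ?_))).trans (len hh hH hz1 hz1' (abs_nonneg ρ)))
      linarith [le_abs_self ρ]

end Vale.Agent.P116
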