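import Vale.Agent.P116.IStm

open Set Filter Topology MeasureTheory Metric Complex
open scoped ENNReal NNReal

noncomputable section
namespace Vale.Agent.P116

namespace INear

theorem vol (hh : S_ihm) (ha : S_iarea) {a : ℝ} (h0 : 0 < a) {u : ℂ} (hu : ‖u‖ = 1) :
    volume (thickening (a / 4) (ray u ∩ ball 0 (1 + 9 * a / 4))) ≤ ENNReal.ofReal (8 * a ^ 2) := by
  have h1 := ha (ray u) (ray u ∩ ball 0 (1 + 9 * a / 4)) (ball 0 (1 + 5 * a / 2)) (a / 4)
    (hh.rayl u hu).1 inter_subset_left measurableSet_ball (by positivity) fun x hx =>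
      ball_subset_ball' (by linarith [mem_ball.1 hx.2])
  refine h1.trans ((mul_le_mul_right (hh.raym u _ hu) _).trans ?_)
  rw [← ENNReal.ofReal_mul (by positivity)]
  refine ENNReal.ofReal_le_ofReal ?_
  nlinarith [Real.pi_lt_d2, mul_pos h0 h0]

end INear

theorem s_inear (hb : S_ibas) (hh : S_ihm) (ha : S_iarea) : S_inear := by
  intro K R ψ a Lp z z' ζ ζ' hI hz hz' m1 m2 b1 b2 h
  obtain ⟨hO, -, -, -, hi, hbd⟩ := hb.an K R ψ a Lp hI
  have h0 := hI.a0
  set N : Set ℂ := thickening (a / 4) (ray z ∩ ball 0 (1 + 9 * a / 4)) ∪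
    thickening (a / 4) (ray z' ∩ ball 0 (1 + 9 * a / 4)) with hN
  have hNm : MeasurableSet N := (isOpen_thickening.union isOpen_thickening).measurableSet
  have hv : volume N ≤ ENNReal.ofReal (16 * a ^ 2) := by
    refine (measure_union_le _ _).trans ((add_le_add (INear.vol hh ha h0 hz)
      (INear.vol hh ha h0 hz')).trans (le_of_eq ?_))
    rw [← ENNReal.ofReal_add (by positivity) (by positivity)]
    congr 1
    ring
  have i : ∀ ξ : ℂ → ℝ, AEStronglyMeasurable ξ (volume.restrict (An a)) →
      (∀ w, 0 ≤ ξ w ∧ ξ w ≤ 1) → Integrable (fun w => ξ w * om0 ψ a w) (volume.restrict (An a)) :=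
    fun ξ m b => Integrable.bdd_mul (c := 1) hi m (Eventually.of_forall fun w => by
      rw [Real.norm_eq_abs, abs_of_nonneg (b w).1]; exact (b w).2)
  have hfin : volume N ≠ ⊤ := (hv.trans_lt ENNReal.ofReal_lt_top).ne
  have hint : Integrable (N.indicator fun _ => (Lp : ℝ) / a) volume :=
    (integrable_indicator_iff hNm).2 (integrableOn_const hfin)
  have hL : (0 : ℝ) ≤ Lp / a := by positivity
  rw [lf, lf, ← integral_sub (i ζ m1 b1) (i ζ' m2 b2), ← Real.norm_eq_abs]
  calc ‖∫ w in An a, (ζ w * om0 ψ a w - ζ' w * om0 ψ a w)‖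
      ≤ ∫ w in An a, N.indicator (fun _ => (Lp : ℝ) / a) w := by
        refine norm_integral_le_of_norm_le hint.integrableOn ?_
        filter_upwards [ae_restrict_mem hO.measurableSet] with w hw
        by_cases hwN : w ∈ N
        · rw [indicator_of_mem hwN, ← sub_mul, norm_mul, Real.norm_eq_abs, Real.norm_eq_abs]
          have : |ζ w - ζ' w| ≤ 1 := abs_le.2
            ⟨by linarith [(b1 w).1, (b2 w).2], by linarith [(b1 w).2, (b2 w).1]⟩
          exact (mul_le_of_le_one_left (abs_nonneg _) this).trans (hbd w hw)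
        · rw [indicator_of_notMem hwN, h w hw, sub_self, norm_zero]
          refine Set.disjoint_left.2 fun y hy hy' => hwN ?_
          have hyb : y ∈ ball (0 : ℂ) (1 + 9 * a / 4) := by
            rw [mem_ball_zero_iff]
            have := mem_ball_iff_norm.1 hy
            linarith [norm_le_insert' y w, hw.2]
          have hd : dist w y < a / 4 := by rw [dist_comm]; exact hy
          rcases hy' with hy' | hy'
          · exact Or.inl (mem_thickening_iff.2 ⟨y, ⟨hy', hyb⟩, hd⟩)
          · exact Or.inr (mem_thickening_iff.2 ⟨y, ⟨hy', hyb⟩, hd⟩)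
    _ ≤ ∫ w, N.indicator (fun _ => (Lp : ℝ) / a) w :=
        setIntegral_le_integral hint
          (Eventually.of_forall fun w => indicator_nonneg (fun _ _ => hL) w)
    _ = volume.real N * (Lp / a) := by rw [integral_indicator_const _ hNm, smul_eq_mul]
    _ ≤ 16 * a ^ 2 * (Lp / a) :=
        mul_le_mul_of_nonneg_right (ENNReal.toReal_le_of_le_ofReal (by positivity) hv) hL
    _ = 16 * Lp * a := by field_simp
    _ ≤ 26 * Lp * a := by gcongr; norm_num

end Vale.Agent.P116
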