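import Vale.Agent.P116.IStm

/-! Part I: the functional on a sector. -/

open Set Filter Topology MeasureTheory Metric Complex
open scoped ENNReal NNReal

noncomputable section
namespace Vale.Agent.P116

namespace IPol

/-- Rotated polar coordinates. -/
def w (v : ℂ) (p : ℝ × ℝ) : ℂ := v * (p.1 * cexp (p.2 * I))

theorem cont_w (v : ℂ) : Continuous (w v) := by unfold w; fun_prop

theorem norm_w {v : ℂ} (hv : ‖v‖ = 1) {p : ℝ × ℝ} (h : 0 ≤ p.1) : ‖w v p‖ = p.1 := by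
  simp [w, hv, abs_of_nonneg h]

theorem der_w (v : ℂ) (ρ θ : ℝ) : HasDerivAt (fun θ => w v (ρ, θ)) (I * w v (ρ, θ)) θ := by
  have h1 : HasDerivAt (fun θ : ℝ => (θ : ℂ) * I) (1 * I) θ :=
    (hasDerivAt_id θ).ofReal_comp.mul_const I
  exact ((h1.cexp.const_mul (ρ : ℂ)).const_mul v).congr_deriv (by simp only [w]; ring)

theorem polar {v : ℂ} (hv : ‖v‖ = 1) (f : ℂ → ℝ) :
    ∫ z, f z = ∫ p in Ioi (0 : ℝ) ×ˢ Ioo (-Real.pi) Real.pi, p.1 * f (w v p) := by
  rw [← integral_comp (rotation ⟨v, mem_sphere_zero_iff_norm.2 hv⟩) f,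
    ← Complex.integral_comp_polarCoord_symm]
  refine integral_congr_ae (Eventually.of_forall fun p => ?_)
  simp only [Complex.polarCoord_symm_apply, w, exp_mul_I, ofReal_cos, ofReal_sin, smul_eq_mul]
  rfl

theorem mem_sec {v : ℂ} (hv : ‖v‖ = 1) {α : ℝ} (h0 : 0 < α) (h1 : α < Real.pi) {p : ℝ × ℝ}
    (hp : p ∈ Ioi (0 : ℝ) ×ˢ Ioo (-Real.pi) Real.pi) : w v p ∈ Sec v α ↔ p.2 ∈ Ioo (-α) α := by
  have h2 : w v p * (starRingEnd ℂ) v = p.1 * cexp (p.2 * I) := by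
    rw [w, mul_right_comm, mul_conj, normSq_eq_norm_sq, hv]; simp
  rw [Sec, mem_ofPred_eq, h2, norm_w hv (le_of_lt hp.1), re_ofReal_mul, exp_ofReal_mul_I_re,
    mul_comm, mul_lt_mul_iff_right₀ hp.1, ← Real.cos_abs p.2, mem_Ioo, ← abs_lt]
  exact Real.strictAntiOn_cos.lt_iff_gt ⟨h0.le, h1.le⟩ ⟨abs_nonneg _, (abs_lt.2 hp.2).le⟩

end IPol

open IPol in
theorem s_ipol (hb : S_ibas) : S_ipol := by
  intro K R ψ a Lp v α h hv h0 h1
  have ha := h.a0
  have hU : IsOpen (ball 0 R \ K) := isOpen_ball.sdiff h.cpt.isClosed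
  have hw : ∀ p : ℝ × ℝ, p.1 ∈ Icc (1 + a) (1 + 2 * a) → w v p ∈ ball 0 R \ K := fun p hp => by
    have h2 := norm_w hv (p := p) (by linarith [hp.1])
    refine ⟨mem_ball_zero_iff.2 (by linarith [hp.2, h.hR]), fun h3 => ?_⟩
    linarith [mem_ball_zero_iff.1 (h.sub h3), hp.1]
  let g : ℝ × ℝ → ℝ := fun p => -a⁻¹ * fderiv ℝ ψ (w v p) (I * w v p)
  have cg : ContinuousOn g (Icc (1 + a) (1 + 2 * a) ×ˢ univ) :=
    continuousOn_const.mul ((((h.c1.continuousOn_fderiv_of_isOpen hU le_rfl).comp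
      (cont_w v).continuousOn fun p hp => hw p hp.1)).clm_apply
      (continuous_const.mul (cont_w v)).continuousOn)
  have e1 : lf ψ a ((Sec v α).indicator 1) =
      ∫ p in Ioo (1 + a) (1 + 2 * a) ×ˢ Ioo (-α) α, g p := by
    have hS : MeasurableSet (Ioo (1 + a) (1 + 2 * a) ×ˢ Ioo (-α) α) :=
      measurableSet_Ioo.prod measurableSet_Ioo
    have h2 : Ioo (1 + a) (1 + 2 * a) ×ˢ Ioo (-α) α ⊆ Ioi (0 : ℝ) ×ˢ Ioo (-Real.pi) Real.pi :=
      prod_mono (fun x hx => by rw [mem_Ioi]; linarith [hx.1])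
        (Ioo_subset_Ioo (by linarith) h1.le)
    rw [lf, ← integral_indicator (hb.an K R ψ a Lp h).1.measurableSet, polar hv,
      ← inter_eq_right.2 h2, ← setIntegral_indicator hS]
    refine setIntegral_congr_fun (measurableSet_Ioi.prod measurableSet_Ioo) fun p hp => ?_
    have h3 := norm_w hv (le_of_lt hp.1)
    have h4 : w v p ∈ An a ↔ p.1 ∈ Ioo (1 + a) (1 + 2 * a) := by
      rw [An, mem_ofPred_eq, h3, mem_Ioo]
    have h5 := mem_sec hv h0 h1 hp
    have h6 : p.1 ≠ 0 := ne_of_gt hp.1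
    by_cases c1 : p.1 ∈ Ioo (1 + a) (1 + 2 * a)
    · by_cases c2 : p.2 ∈ Ioo (-α) α
      · simp only [indicator_of_mem (h4.2 c1), indicator_of_mem (h5.2 c2),
          indicator_of_mem (mk_mem_prod c1 c2), om0, g, h3, Pi.one_apply]
        field_simp
      · simp only [indicator_of_mem (h4.2 c1), indicator_of_notMem (mt h5.1 c2), zero_mul,
          mul_zero]
        exact (indicator_of_notMem (fun h => c2 h.2) _).symm
    · simp only [indicator_of_notMem (mt h4.1 c1), mul_zero]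
      exact (indicator_of_notMem (fun h => c1 h.1) _).symm
  have ig : IntegrableOn g (Ioo (1 + a) (1 + 2 * a) ×ˢ Ioo (-α) α) (volume.prod volume) :=
    ((cg.mono (prod_mono subset_rfl (subset_univ _))).integrableOn_compact
      (isCompact_Icc.prod (isCompact_Icc (a := -α) (b := α)))).mono_set
      (prod_mono Ioo_subset_Icc_self Ioo_subset_Icc_self)
  have e2 : ∀ ρ ∈ Ioo (1 + a) (1 + 2 * a), ∫ θ in Ioo (-α) α, g (ρ, θ) =
      a⁻¹ * (ψ (w v (ρ, -α)) - ψ (w v (ρ, α))) := fun ρ hρ => by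
    have h2 := Ioo_subset_Icc_self hρ
    rw [← integral_Ioc_eq_integral_Ioo, ← intervalIntegral.integral_of_le (by linarith),
      intervalIntegral.integral_eq_sub_of_hasDerivAt (f := fun θ => -a⁻¹ * ψ (w v (ρ, θ)))
        (fun θ _ => (((h.c1.differentiableOn one_ne_zero).differentiableAt
          (hU.mem_nhds (hw (ρ, θ) h2))).hasFDerivAt.comp_hasDerivAt θ (der_w v ρ θ)).const_mul _)
        (cg.comp (Continuous.prodMk_right ρ).continuousOn fun θ _ =>
          mk_mem_prod h2 (mem_univ _)).intervalIntegrable]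
    ring
  have i2 : IntegrableOn (fun ρ => ∫ θ in Ioo (-α) α, g (ρ, θ)) (Ioo (1 + a) (1 + 2 * a)) := by
    rw [IntegrableOn, ← Measure.prod_restrict] at ig
    exact ig.integral_prod_left
  have hm : volume.real (Ioo (1 + a) (1 + 2 * a)) = a := by
    rw [Real.volume_real_Ioo_of_le (by linarith)]; ring
  have e3 : ∀ D : ℝ, D = ∫ _ in Ioo (1 + a) (1 + 2 * a), a⁻¹ * D := fun D => by
    rw [setIntegral_const, hm, smul_eq_mul, mul_inv_cancel_left₀ ha.ne']
  have lip : ∀ ρ ∈ Ioo (1 + a) (1 + 2 * a), ∀ θ : ℝ,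
      |ψ (w v (ρ, θ)) - ψ (v * cexp (θ * I))| ≤ Lp * (2 * a) := fun ρ hρ θ => by
    have h2 := norm_w hv (p := (ρ, θ)) (by linarith [hρ.1])
    have h3 : ‖v * cexp (θ * I)‖ = 1 := by simp [hv]
    refine (h.lip.dist_le_mul _ ⟨by linarith [hρ.1], by linarith [hρ.2]⟩ _
      ⟨h3.ge, by linarith⟩).trans (mul_le_mul_of_nonneg_left ?_ Lp.2)
    rw [dist_eq_norm, show w v (ρ, θ) - v * cexp (θ * I) =
      ((ρ - 1 : ℝ) : ℂ) * (v * cexp (θ * I)) by simp only [w]; push_cast; ring, norm_mul, h3,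
      mul_one, norm_real, Real.norm_eq_abs, abs_le]
    constructor <;> linarith [hρ.1, hρ.2]
  rw [e1, e3 (ψ _ - ψ _), Measure.volume_eq_prod, setIntegral_prod g ig,
    ← integral_sub i2 (integrableOn_const measure_Ioo_lt_top.ne)]
  rw [← Real.norm_eq_abs]
  refine (norm_setIntegral_le_of_norm_le_const (C := 4 * Lp) measure_Ioo_lt_top
    fun ρ hρ => ?_).trans (by rw [hm])
  have h2 := abs_le.1 (lip ρ hρ α)
  have h3 := abs_le.1 (lip ρ hρ (-α))
  rw [ofReal_neg, neg_mul] at h3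
  rw [e2 ρ hρ, ← mul_sub, norm_mul, Real.norm_eq_abs, Real.norm_eq_abs, abs_of_pos (inv_pos.2 ha),
    inv_mul_le_iff₀ ha, abs_le]
  constructor <;> linarith [h2.1, h2.2, h3.1, h3.2]

end Vale.Agent.P116
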