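import Vale.Agent.P116.IStm

/-! The Schur bound and the operator on rays. -/

open Set Filter Topology MeasureTheory Metric Complex
open scoped ENNReal NNReal

noncomputable section
namespace Vale.Agent.P116

namespace ISchur

theorem col (r : ℂ → ℝ) (z : ℂ) (hz : 0 ≤ r z) : ∫⁻ w, ker r w z ≤ 126 := by
  have h1 : (fun w => ker r w z) =
      (ball z (2 * r z)).indicator fun _ => ENNReal.ofReal (10 / r z ^ 2) := by
    funext w
    simp only [ker, indicator, mem_ball, dist_eq_norm]
  rw [h1, lintegral_indicator measurableSet_ball, setLIntegral_const, Complex.volume_ball]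
  rcases hz.eq_or_lt with h | h
  · simp [← h]
  have hpi : (NNReal.pi : ℝ≥0∞) = ENNReal.ofReal Real.pi := by
    rw [← NNReal.coe_real_pi, ENNReal.ofReal_coe_nnreal]
  rw [hpi, ← ENNReal.ofReal_pow (by positivity), ← ENNReal.ofReal_mul (by positivity),
    ← ENNReal.ofReal_mul (by positivity)]
  have : (126 : ℝ≥0∞) = ENNReal.ofReal 126 := by simp
  rw [this]
  refine ENNReal.ofReal_le_ofReal ?_
  have h2 : 10 / r z ^ 2 * ((2 * r z) ^ 2 * Real.pi) = 40 * Real.pi := by
    field_simp; ring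
  rw [h2]
  have := Real.pi_lt_d2
  linarith

theorem cs (μ : Measure ℂ) (g k : ℂ → ℝ≥0∞) (hg : Measurable g) (hk : Measurable k) :
    (∫⁻ z, g z * k z ∂μ) ^ 2 ≤ (∫⁻ z, g z ^ 2 * k z ∂μ) * ∫⁻ z, k z ∂μ := by
  have h := ENNReal.lintegral_mul_le_Lp_mul_Lq (μ.withDensity k) Real.HolderConjugate.two_two
    (f := g) (g := fun _ => 1) hg.aemeasurable aemeasurable_const
  have e1 : ∫⁻ z, (g * (fun _ => 1 : ℂ → ℝ≥0∞)) z ∂μ.withDensity k = ∫⁻ z, g z * k z ∂μ := by
    rw [lintegral_withDensity_eq_lintegral_mul μ hk (hg.mul measurable_const)]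
    refine lintegral_congr fun z => ?_
    simp [mul_comm]
  have e2 : ∫⁻ z, g z ^ (2 : ℝ) ∂μ.withDensity k = ∫⁻ z, g z ^ 2 * k z ∂μ := by
    rw [lintegral_withDensity_eq_lintegral_mul μ hk (hg.pow_const _)]
    refine lintegral_congr fun z => ?_
    simp [mul_comm]
  have e3 : ∫⁻ _, (1 : ℝ≥0∞) ^ (2 : ℝ) ∂μ.withDensity k = ∫⁻ z, k z ∂μ := by
    simp
  rw [e1, e2, e3] at h
  calc (∫⁻ z, g z * k z ∂μ) ^ 2
      ≤ ((∫⁻ z, g z ^ 2 * k z ∂μ) ^ (1 / 2 : ℝ) * (∫⁻ z, k z ∂μ) ^ (1 / 2 : ℝ)) ^ 2 :=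
        pow_le_pow_left' h 2
    _ = _ := by
        rw [mul_pow, ← ENNReal.rpow_natCast, ← ENNReal.rpow_natCast, ← ENNReal.rpow_mul,
          ← ENNReal.rpow_mul]
        norm_num

theorem rayb (hh : S_ihm) (z : ℂ) (hz : ‖z‖ = 1) (F : ℂ → ℝ≥0∞) (c : ℝ≥0∞) (ρ : ℝ)
    (h1 : ∀ w ∈ ray z, F w ≤ c) (h2 : ∀ w ∈ ray z, 1 + ρ ≤ ‖w‖ → F w = 0) :
    ∫⁻ w in ray z, F w ∂μH[1] ≤ c * ENNReal.ofReal ρ := by
  have hm : MeasurableSet (ray z) := (hh.rayl z hz).1.1.measurableSet
  calc ∫⁻ w in ray z, F w ∂μH[1]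
      ≤ ∫⁻ w in ray z, (ball (0 : ℂ) (1 + ρ)).indicator (fun _ => c) w ∂μH[1] := by
        refine setLIntegral_mono' hm fun w hw => ?_
        by_cases hb : w ∈ ball (0 : ℂ) (1 + ρ)
        · rw [indicator_of_mem hb]; exact h1 w hw
        · rw [h2 w hw (by simpa using hb)]; exact zero_le
    _ = c * μH[1] (ray z ∩ ball 0 (1 + ρ)) := by
        rw [lintegral_indicator measurableSet_ball, setLIntegral_const,
          Measure.restrict_apply measurableSet_ball, inter_comm]
    _ ≤ _ := mul_le_mul_right (hh.raym z ρ hz) c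

theorem omm {K : Set ℂ} (hK : IsCompact K) (a : ℝ) : MeasurableSet (Om K a) :=
  measurableSet_ball.diff hK.isClosed.measurableSet

end ISchur

open ISchur in
theorem s_ischur (hb : S_ibas) (hh : S_ihm) (hk : S_iker) : S_ischur := by
  refine ⟨fun K Ω a r g hr hg => ?_, fun K a r g z hK hK1 hr hg hz hg1 => ?_,
    fun K a r g z M hK hr hz hM => ?_⟩
  · have hc := hb.cont K a r hr
    have hkm := hk.kmeas r hc
    have h1 : ∀ w, Tg Ω r g w ^ 2 ≤ 1200 * ∫⁻ z in Ω, g z ^ 2 * ker r w z := by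
      intro w
      have hkw : Measurable fun z => ker r w z := hkm.comp (measurable_const.prodMk measurable_id)
      refine (cs (volume.restrict Ω) g _ hg hkw).trans ?_
      rw [mul_comm]
      refine mul_le_mul_left ?_ _
      exact (lintegral_mono' Measure.restrict_le_self le_rfl).trans (hk.row K a r w hr)
    have hm2 : Measurable fun p : ℂ × ℂ => g p.2 ^ 2 * ker r p.1 p.2 :=
      ((hg.comp measurable_snd).pow_const 2).mul hkm
    calc ∫⁻ w, Tg Ω r g w ^ 2 ≤ ∫⁻ w, 1200 * ∫⁻ z in Ω, g z ^ 2 * ker r w z := lintegral_mono h1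
      _ = 1200 * ∫⁻ w, ∫⁻ z in Ω, g z ^ 2 * ker r w z :=
          lintegral_const_mul' _ _ (by simp)
      _ = 1200 * ∫⁻ z in Ω, ∫⁻ w, g z ^ 2 * ker r w z := by
          rw [lintegral_lintegral_swap hm2.aemeasurable]
      _ ≤ 1200 * ∫⁻ z in Ω, 126 * g z ^ 2 := by
          refine mul_le_mul_right (lintegral_mono fun z => ?_) _
          have hkz : Measurable fun w => ker r w z :=
            hkm.comp (measurable_id.prodMk measurable_const)
          rw [lintegral_const_mul _ hkz, mul_comm]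
          exact mul_le_mul_left (col r z (hr.nn z)) _
      _ = 1200 * 126 * ∫⁻ z in Ω, g z ^ 2 := by
          rw [lintegral_const_mul' _ _ (by simp), mul_assoc]
      _ ≤ _ := mul_le_mul_left (by norm_num) _
  · have ha := hr.a0
    have h := rayb hh z hz (Tg (Om K a) r g) (ENNReal.ofReal (680 / a)) (4 * a) (fun w hw => ?_)
      (fun w _ hw => ?_)
    · refine h.trans ?_
      rw [← ENNReal.ofReal_mul (by positivity)]
      have : (3000 : ℝ≥0∞) = ENNReal.ofReal 3000 := by simp
      rw [this]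
      refine ENNReal.ofReal_le_ofReal ?_
      have : 680 / a * (4 * a) = 2720 := by field_simp; ring
      rw [this]; norm_num
    · have h1 := (hh.rayl z hz).2.2 w hw
      have hwK : w ∉ K := fun h => by
        have := mem_ball_zero_iff.mp (hK1 h); linarith
      have := hk.two K (Om K a) a r g w 1 hr hg (by simpa using hg1) hwK
      rw [hr.out w h1, mul_one] at this
      refine this.trans (le_of_eq ?_)
      congr 1
      field_simp; ring
    · exact hk.far K (Om K a) a (1 + 3 * a) r g w hr (omm hK a) sdiff_subset (by linarith)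
  · have ha := hr.a0
    have h := rayb hh z hz (Tg (Om K a) r g) (1200 * M) (4 * a) (fun w hw => ?_)
      (fun w _ hw => ?_)
    · refine h.trans ?_
      have e : (1200 * M : ℝ≥0∞) = ENNReal.ofReal (1200 * M) := by
        rw [ENNReal.ofReal_mul (by norm_num), ENNReal.ofReal_coe_nnreal]; simp
      rw [e, ← ENNReal.ofReal_mul (by positivity)]
      refine ENNReal.ofReal_le_ofReal ?_
      have : 0 ≤ (M : ℝ) * a := by positivity
      nlinarith
    · have h1 := (hh.rayl z hz).2.2 w hw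
      refine hk.sup K (Om K a) a r g w M hr (omm hK a) fun y hy hyw => hM y hy ?_
      rw [hr.out w h1] at hyw
      have := norm_sub_norm_le w y
      rw [norm_sub_rev] at this
      linarith
    · exact hk.far K (Om K a) a (1 + 3 * a) r g w hr (omm hK a) sdiff_subset (by linarith)

end Vale.Agent.P116
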