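import Vale.Agent.P116.IStm

/-! Part I: the two sides of a path with its rays. -/

open Set Filter Topology MeasureTheory Metric Complex
open scoped ENNReal NNReal

noncomputable section
namespace Vale.Agent.P116

namespace ISide

theorem ray_closed (z : ℂ) : IsClosed (ray z) := by
  have : ray z = (fun t : ℝ => t • z) '' Ici 1 := by
    ext w
    exact ⟨fun ⟨t, h1, h2⟩ => ⟨t, h1, h2.symm⟩, fun ⟨t, h1, h2⟩ => ⟨t, h1, h2.symm⟩⟩
  rw [this]
  exact isClosedMap_smul_left z _ isClosed_Ici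

theorem piece (z : ℂ) {T : ℝ} (hT : 1 ≤ T) : ∃ S : Set ℂ, IsCompact S ∧ IsPreconnected S ∧ z ∈ S ∧
    T * z ∈ S ∧ ∀ w ∈ S, ∃ t : ℝ, 1 ≤ t ∧ t ≤ T ∧ w = t * z := by
  have hc : Continuous fun t : ℝ => (t : ℂ) * z := by fun_prop
  refine ⟨(fun t : ℝ => (t : ℂ) * z) '' Icc 1 T, isCompact_Icc.image hc,
    isPreconnected_Icc.image _ hc.continuousOn, ⟨1, ⟨le_rfl, hT⟩, by simp⟩, ⟨T, ⟨hT, le_rfl⟩, rfl⟩, ?_⟩
  rintro _ ⟨t, ht, rfl⟩
  exact ⟨t, ht.1, ht.2, rfl⟩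

theorem key (L : Lib) {A : Set ℂ} {z z' : ℂ} {s : ℝ} (hA : IsCompact A) (hA' : IsPreconnected A)
    (hb : A ⊆ closedBall 0 1) (hz : z ∈ A) (hz' : z' ∈ A) (hs : 0 < s) (h1 : z.re = -s)
    (h2 : z'.re = s) : ¬ JoinedIn (A ∪ ray z ∪ ray z')ᶜ (2 * I) (-(2 * I)) := by
  rintro ⟨γ, hγ⟩
  obtain ⟨R, R0, hR⟩ := (isCompact_range γ.continuous).isBounded.exists_pos_norm_le
  have hT : 1 ≤ R / s + 1 := le_add_of_nonneg_left (by positivity)
  have hT' : R < (R / s + 1) * s := by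
    rw [add_mul, div_mul_cancel₀ _ hs.ne']
    linarith
  generalize R / s + 1 = T at hT hT'
  obtain ⟨S, a1, a2, a3, a4, a5⟩ := piece z hT
  obtain ⟨S', b1, b2, b3, b4, b5⟩ := piece z' hT
  have hn : ∀ w ∈ A ∪ S ∪ S', |w.im| ≤ T := by
    intro w hw
    refine (abs_im_le_norm w).trans ?_
    have aux : ∀ y ∈ A, ∀ t : ℝ, 1 ≤ t → t ≤ T → ‖(t : ℂ) * y‖ ≤ T := fun y hy t t1 t2 => by
      rw [norm_mul, Complex.norm_real, Real.norm_of_nonneg (by linarith)]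
      exact (mul_le_of_le_one_right (by linarith) (mem_closedBall_zero_iff.1 (hb hy))).trans t2
    rcases hw with (hw | hw) | hw
    · exact (mem_closedBall_zero_iff.1 (hb hw)).trans hT
    · obtain ⟨t, t1, t2, rfl⟩ := a5 w hw
      exact aux z hz t t1 t2
    · obtain ⟨t, t1, t2, rfl⟩ := b5 w hw
      exact aux z' hz' t t1 t2
  have c0 := (convex_halfSpace_re_le 0).inter (convex_halfSpace_re_ge 0)
  have j1 : JoinedIn ({w : ℂ | w.re ≤ 0} ∩ {w | 0 ≤ w.re} ∩ {w | 2 ≤ w.im}) ⟨0, T + 2⟩ (2 * I) :=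
    JoinedIn.of_segment_subset ((c0.inter (convex_halfSpace_im_ge 2)).segment_subset
      ⟨⟨le_refl (0 : ℝ), le_refl (0 : ℝ)⟩, show (2 : ℝ) ≤ T + 2 by linarith⟩ (by simp))
  have j2 : JoinedIn ({w : ℂ | w.re ≤ 0} ∩ {w | 0 ≤ w.re} ∩ {w | w.im ≤ -2}) (-(2 * I))
      ⟨0, -(T + 2)⟩ :=
    JoinedIn.of_segment_subset ((c0.inter (convex_halfSpace_im_le (-2))).segment_subset
      (by simp) ⟨⟨le_refl (0 : ℝ), le_refl (0 : ℝ)⟩, show -(T + 2) ≤ (-2 : ℝ) by linarith⟩)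
  have j0 : JoinedIn (range γ) (2 * I) (-(2 * I)) := ⟨γ, fun t => mem_range_self t⟩
  obtain ⟨w, hw, hw'⟩ := L.cross (A ∪ S ∪ S') (range γ ∪ {w | w.re = 0 ∧ 2 ≤ |w.im|})
    (-(T * s)) (T * s) ⟨0, T + 2⟩ ⟨0, -(T + 2)⟩ ((hA.union a1).union b1)
    ((hA'.union z hz a3 a2).union z' (Or.inl hz') b3 b2)
    ⟨T * z, Or.inl (Or.inr a4), by simp [h1]⟩ ⟨T * z', Or.inr b4, by simp [h2]⟩
    (by
      rintro w (hw | hw)
      · have := abs_le.1 ((abs_re_le_norm w).trans (hR w hw))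
        constructor <;> linarith
      · rw [hw.1]
        constructor <;> linarith)
    ((j1.mono fun w hw => Or.inr ⟨le_antisymm hw.1.1 hw.1.2, le_abs.2 (Or.inl hw.2)⟩).trans
      ((j0.mono subset_union_left).trans (j2.mono fun w hw =>
        Or.inr ⟨le_antisymm hw.1.1 hw.1.2, le_abs.2 (Or.inr (le_neg.1 hw.2))⟩)))
    (fun w hw => by
      have := abs_le.1 (hn w hw)
      change w.im < T + 2
      linarith)
    (fun w hw => by
      have := abs_le.1 (hn w hw)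
      change -(T + 2) < w.im
      linarith)
  rcases hw with ⟨t, rfl⟩ | hw
  · refine hγ t ?_
    rcases hw' with (h | h) | h
    · exact Or.inl (Or.inl h)
    · obtain ⟨t, t1, -, e⟩ := a5 _ h
      exact Or.inl (Or.inr ⟨t, t1, e⟩)
    · obtain ⟨t, t1, -, e⟩ := b5 _ h
      exact Or.inr ⟨t, t1, e⟩
  · have h3 := hw.1
    rcases hw' with (h | h) | h
    · linarith [hw.2, abs_im_le_norm w, mem_closedBall_zero_iff.1 (hb h)]
    · obtain ⟨t, t1, -, rfl⟩ := a5 _ h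
      rw [re_ofReal_mul, h1] at h3
      nlinarith
    · obtain ⟨t, t1, -, rfl⟩ := b5 _ h
      rw [re_ofReal_mul, h2] at h3
      nlinarith

theorem vv {v : ℂ} (hv : ‖v‖ = 1) : v * (starRingEnd ℂ) v = 1 := by
  rw [mul_conj', hv]
  simp

theorem polar {v : ℂ} (hv : ‖v‖ = 1) (w : ℂ) :
    ∃ θ : ℝ, |θ| ≤ Real.pi ∧ w = (‖w‖ : ℝ) * (v * cexp (θ * I)) := by
  refine ⟨arg (w * (starRingEnd ℂ) v), abs_arg_le_pi _, ?_⟩
  have h := norm_mul_exp_arg_mul_I (w * (starRingEnd ℂ) v)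
  rw [norm_mul, norm_conj, hv, mul_one] at h
  linear_combination (-v) * h - w * vv hv

theorem re_eq {v : ℂ} (hv : ‖v‖ = 1) (t θ : ℝ) :
    (t * (v * cexp (θ * I)) * (starRingEnd ℂ) v).re = t * Real.cos θ := by
  rw [show t * (v * cexp (θ * I)) * (starRingEnd ℂ) v = t * cexp (θ * I) by
    linear_combination t * cexp (θ * I) * vv hv, re_ofReal_mul, exp_ofReal_mul_I_re]

theorem norm_eq {v : ℂ} (hv : ‖v‖ = 1) {t : ℝ} (ht : 0 ≤ t) (θ : ℝ) :
    ‖t * (v * cexp (θ * I))‖ = t := by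
  rw [norm_mul, norm_mul, hv, norm_exp_ofReal_mul_I, Complex.norm_real, Real.norm_of_nonneg ht,
    mul_one, mul_one]

theorem sect {v : ℂ} (hv : ‖v‖ = 1) {β : ℝ} (h0 : 0 < β) (h1 : β ≤ Real.pi) :
    IsPreconnected ({w : ℂ | 1 < ‖w‖} ∩ Sec v β) ∧ 2 * v ∈ {w : ℂ | 1 < ‖w‖} ∩ Sec v β := by
  have e : {w : ℂ | 1 < ‖w‖} ∩ Sec v β =
      (fun p : ℝ × ℝ => (p.1 : ℂ) * (v * cexp (p.2 * I))) '' (Ioi 1 ×ˢ Ioo (-β) β) := by
    ext w
    constructor
    · rintro ⟨hw, hw'⟩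
      obtain ⟨θ, t1, t2⟩ := polar hv w
      refine ⟨(‖w‖, θ), ⟨hw, abs_lt.1 (lt_of_not_ge fun h => ?_)⟩, t2.symm⟩
      have h2 := Real.cos_le_cos_of_nonneg_of_le_pi h0.le t1 h
      have h3 := re_eq hv ‖w‖ θ
      rw [← t2, ← Real.cos_abs] at h3
      have h4 : Real.cos β * ‖w‖ < _ := hw'
      nlinarith [norm_nonneg w]
    · rintro ⟨⟨t, θ⟩, ⟨ht, hθ⟩, rfl⟩
      have ht' : (1 : ℝ) < t := ht
      have h2 := Real.cos_lt_cos_of_nonneg_of_le_pi (abs_nonneg θ) h1 (abs_lt.2 hθ)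
      rw [Real.cos_abs] at h2
      constructor
      · change 1 < ‖(t : ℂ) * (v * cexp (θ * I))‖
        rwa [norm_eq hv (by linarith)]
      · change Real.cos β * ‖(t : ℂ) * (v * cexp (θ * I))‖ <
          (t * (v * cexp (θ * I)) * (starRingEnd ℂ) v).re
        rw [norm_eq hv (by linarith), re_eq hv]
        nlinarith
  rw [e]
  refine ⟨(isPreconnected_Ioi.prod isPreconnected_Ioo).image _ (by fun_prop),
    (2, 0), ⟨show (1 : ℝ) < 2 by norm_num, by constructor <;> simp [h0]⟩, by simp⟩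

theorem on_ray {v w : ℂ} (hv : ‖v‖ = 1) {α : ℝ}
    (h : w ∈ ray (v * cexp (α * I)) ∨ w ∈ ray (v * cexp (-(α * I)))) :
    (w * (starRingEnd ℂ) v).re = Real.cos α * ‖w‖ := by
  rcases h with ⟨t, t1, rfl⟩ | ⟨t, t1, rfl⟩
  · rw [re_eq hv, norm_eq hv (by linarith), mul_comm]
  · rw [← neg_mul, ← ofReal_neg, re_eq hv, norm_eq hv (by linarith), mul_comm, Real.cos_neg]

theorem to_ray {v w : ℂ} (hv : ‖v‖ = 1) {α : ℝ} (h0 : 0 < α) (h1 : α < Real.pi) (hw : 1 < ‖w‖)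
    (h : (w * (starRingEnd ℂ) v).re = Real.cos α * ‖w‖) :
    w ∈ ray (v * cexp (α * I)) ∨ w ∈ ray (v * cexp (-(α * I))) := by
  obtain ⟨θ, t1, t2⟩ := polar hv w
  have h3 := re_eq hv ‖w‖ θ
  rw [← t2, ← Real.cos_abs, h, mul_comm] at h3
  have h4 := Real.injOn_cos ⟨h0.le, h1.le⟩ ⟨abs_nonneg θ, t1⟩
    (mul_left_cancel₀ (by linarith : ‖w‖ ≠ 0) h3)
  rcases (abs_eq h0.le).1 h4.symm with rfl | rfl
  · exact Or.inl ⟨_, hw.le, t2⟩
  · rw [ofReal_neg, neg_mul] at t2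
    exact Or.inr ⟨_, hw.le, t2⟩

theorem sec_neg (v w : ℂ) (α : ℝ) : w ∈ Sec (-v) (Real.pi - α) ↔
    (w * (starRingEnd ℂ) v).re < Real.cos α * ‖w‖ := by
  change Real.cos (Real.pi - α) * ‖w‖ < _ ↔ _
  rw [Real.cos_pi_sub, map_neg, mul_neg, neg_re, neg_mul, neg_lt_neg_iff]

end ISide

open ISide in
theorem s_iside (L : Lib) : S_iside := by
  intro A v α hA hA' hb hv h0 h1 hz hz'
  set E := A ∪ ray (v * cexp (α * I)) ∪ ray (v * cexp (-(α * I))) with hE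
  have hO : IsOpen Eᶜ :=
    ((hA.isClosed.union (ray_closed _)).union (ray_closed _)).isOpen_compl
  obtain ⟨p1, p2⟩ := sect hv h0 h1.le
  obtain ⟨q1, q2⟩ := sect (v := -v) (β := Real.pi - α) (by rwa [norm_neg]) (by linarith)
    (by linarith)
  have out : ∀ w : ℂ, 1 < ‖w‖ → (w * (starRingEnd ℂ) v).re ≠ Real.cos α * ‖w‖ → w ∈ Eᶜ := by
    rintro w hw hw' ((h | h) | h)
    · exact absurd (mem_closedBall_zero_iff.1 (hb h)) hw.not_ge
    · exact hw' (on_ray hv (Or.inl h))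
    · exact hw' (on_ray hv (Or.inr h))
  have s1 : {w : ℂ | 1 < ‖w‖} ∩ Sec v α ⊆ Eᶜ := fun w hw => out w hw.1 (ne_of_gt hw.2)
  have s2 : {w : ℂ | 1 < ‖w‖} ∩ Sec (-v) (Real.pi - α) ⊆ Eᶜ := fun w hw =>
    out w hw.1 ((sec_neg v w α).1 hw.2).ne
  have hno : 2 * -v ∉ connectedComponentIn Eᶜ (2 * v) := by
    intro h
    have hJ := ((hO.connectedComponentIn.isConnected_iff_isPathConnected.1
      (isConnected_connectedComponentIn_iff.2 (s1 p2))).joinedIn _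
      (mem_connectedComponentIn (s1 p2)) _ h).mono (connectedComponentIn_subset _ _)
    have hc : Continuous fun w : ℂ => I * (starRingEnd ℂ) v * w := by fun_prop
    have hi : ∀ w w' : ℂ, I * (starRingEnd ℂ) v * w = I * (starRingEnd ℂ) v * w' → w = w' :=
      fun w w' h => mul_left_cancel₀ (mul_ne_zero I_ne_zero
        (right_ne_zero_of_mul_eq_one (vv hv))) h
    have hJ' := hJ.map hc
    rw [show I * (starRingEnd ℂ) v * (2 * v) = 2 * I by linear_combination 2 * I * vv hv,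
      show I * (starRingEnd ℂ) v * (2 * -v) = -(2 * I) by linear_combination -2 * I * vv hv] at hJ'
    refine key L (hA.image hc) (hA'.image _ hc.continuousOn) ?_ (mem_image_of_mem _ hz)
      (mem_image_of_mem _ hz') (Real.sin_pos_of_pos_of_lt_pi h0 h1) ?_ ?_ (hJ'.mono ?_)
    · rintro _ ⟨w, hw, rfl⟩
      rw [mem_closedBall_zero_iff, norm_mul, norm_mul, norm_I, norm_conj, hv, one_mul, one_mul]
      exact mem_closedBall_zero_iff.1 (hb hw)
    · rw [show I * (starRingEnd ℂ) v * (v * cexp (α * I)) = I * cexp (α * I) by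
        linear_combination I * cexp (α * I) * vv hv, I_mul_re, exp_ofReal_mul_I_im]
    · rw [show I * (starRingEnd ℂ) v * (v * cexp (-(α * I))) = I * cexp (-(α * I)) by
        linear_combination I * cexp (-(α * I)) * vv hv, I_mul_re, ← neg_mul, ← ofReal_neg,
        exp_ofReal_mul_I_im, Real.sin_neg, neg_neg]
    · rintro _ ⟨w, hw, rfl⟩ ((⟨y, hy, e⟩ | ⟨t, t1, e⟩) | ⟨t, t1, e⟩)
      · exact hw (Or.inl (Or.inl (hi _ _ e ▸ hy)))
      · exact hw (Or.inl (Or.inr ⟨t, t1, hi _ _ (e.trans (by ring))⟩))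
      · exact hw (Or.inr ⟨t, t1, hi _ _ (e.trans (by ring))⟩)
  refine ⟨connectedComponentIn Eᶜ (2 * v), ⟨hO.connectedComponentIn, fun P hP hd => ?_⟩,
    fun w hw r1 r2 => ⟨fun h => ?_, fun h => p1.subset_connectedComponentIn p2 s1 ⟨hw, h⟩⟩⟩
  · by_cases h : Disjoint P (connectedComponentIn Eᶜ (2 * v))
    · exact Or.inr h
    · obtain ⟨x, x1, x2⟩ := not_disjoint_iff.1 h
      rw [connectedComponentIn_eq x2]
      exact Or.inl (hP.subset_connectedComponentIn x1 (disjoint_left.1 hd))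
  · rcases lt_trichotomy (Real.cos α * ‖w‖) (w * (starRingEnd ℂ) v).re with h2 | h2 | h2
    · exact h2
    · exact ((to_ray hv h0 h1 hw h2.symm).elim r1 r2).elim
    · refine absurd ?_ hno
      rw [connectedComponentIn_eq h]
      exact q1.subset_connectedComponentIn ⟨hw, (sec_neg v w α).2 h2⟩ s2 q2

end Vale.Agent.P116
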