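import Vale.Agent.P116.IStm

/-! Part I: values and oscillation of the smoothed indicator. -/

open Set Filter Topology MeasureTheory Metric Complex
open scoped ENNReal NNReal

noncomputable section
namespace Vale.Agent.P116

namespace ISmA

theorem vol_ball (z : ℂ) {ρ : ℝ} (h : 0 ≤ ρ) : (volume (ball z ρ)).toReal = Real.pi * ρ ^ 2 := by
  rw [Complex.volume_ball, ENNReal.toReal_mul, ENNReal.toReal_pow, ENNReal.toReal_ofReal h,
    ENNReal.coe_toReal, NNReal.coe_real_pi, mul_comm]

theorem rng (r : ℂ → ℝ) (W : Set ℂ) (z : ℂ) (h : 0 ≤ r z) :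
    0 ≤ Sm r W z ∧ Sm r W z ≤ 1 := by
  have h1 : 0 ≤ Real.pi * r z ^ 2 := by positivity
  refine ⟨div_nonneg ENNReal.toReal_nonneg h1, div_le_one_of_le₀ ?_ h1⟩
  rw [← vol_ball z h]
  exact ENNReal.toReal_mono measure_ball_lt_top.ne (measure_mono inter_subset_right)

theorem val (r : ℂ → ℝ) (E W : Set ℂ) (z : ℂ) (hW : Side E W) (h : 0 < r z)
    (hd : Disjoint (ball z (r z)) E) : Sm r W z = W.indicator 1 z := by
  rcases hW.2 _ (convex_ball z (r z)).isPreconnected hd with h1 | h1
  · rw [Sm, inter_eq_right.mpr h1, vol_ball z h.le, indicator_of_mem (h1 (mem_ball_self h)),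
      Pi.one_apply]
    exact div_self (by positivity)
  · rw [Sm, inter_comm, h1.inter_eq, measure_empty, ENNReal.toReal_zero, zero_div,
      indicator_of_notMem (disjoint_left.mp h1 (mem_ball_self h))]

theorem thick_conn {p : Set ℂ} (hp : IsPreconnected p) (δ : ℝ) :
    IsPreconnected (thickening δ p) := by
  have h1 : thickening δ p = (fun x : ℂ × ℂ => x.1 + x.2) '' (p ×ˢ ball 0 δ) := by
    ext z
    rw [mem_thickening_iff]
    constructor
    · rintro ⟨y, hy, hz⟩
      refine ⟨(y, z - y), ⟨hy, ?_⟩, by simp⟩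
      rw [mem_ball_zero_iff, ← dist_eq_norm]
      exact hz
    · rintro ⟨⟨y, v⟩, ⟨hy, hv⟩, rfl⟩
      refine ⟨y, hy, ?_⟩
      rw [dist_eq_norm, add_sub_cancel_left]
      exact mem_ball_zero_iff.mp hv
  rw [h1]
  exact (hp.prod (convex_ball 0 δ).isPreconnected).image _ (continuous_fst.add continuous_snd).continuousOn

theorem osc (K p E W : Set ℂ) (a : ℝ) (r : ℂ → ℝ) (hr : Rad K a r) (hE : IsClosed E)
    (hW : Side E W) (hp : IsCompact p) (hc : IsPreconnected p) (hK : p ⊆ K)
    (hd : Disjoint p E) : Osc K p (Sm r W) 0 := by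
  obtain ⟨δ, hδ, hdis⟩ := hd.exists_thickenings hp hE
  have hdis' : Disjoint (thickening δ p) E :=
    hdis.mono_right (self_subset_thickening hδ E)
  have hsub : thickening (δ / 2) p ⊆ thickening δ p := thickening_mono (by linarith) p
  have hv : ∀ z ∈ thickening (δ / 2) p \ K, Sm r W z = W.indicator 1 z := by
    intro z hz
    obtain ⟨y, hy, hzy⟩ := mem_thickening_iff.mp hz.1
    refine val r E W z hW (hr.pos z hz.2) (hdis'.mono_left fun w hw => ?_)
    have h1 := hr.lip z y
    rw [hr.zero y (hK hy), sub_zero, ← dist_eq_norm] at h1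
    have h2 := le_abs_self (r z)
    refine mem_thickening_iff.mpr ⟨y, hy, ?_⟩
    have h3 := dist_triangle w z y
    have h4 := mem_ball.mp hw
    linarith
  intro ε hε
  refine ⟨thickening (δ / 2) p, isOpen_thickening, self_subset_thickening (by linarith) p,
    fun z hz w hw => ?_⟩
  rw [hv z hz, hv w hw]
  rcases hW.2 _ (thick_conn hc δ) hdis' with h1 | h1
  · rw [indicator_of_mem (h1 (hsub hz.1)), indicator_of_mem (h1 (hsub hw.1)), Pi.one_apply,
      Pi.one_apply]
    linarith
  · rw [indicator_of_notMem (disjoint_left.mp h1 (hsub hz.1)),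
      indicator_of_notMem (disjoint_left.mp h1 (hsub hw.1))]
    linarith

end ISmA

theorem s_ismA : S_ismA := ⟨ISmA.rng, ISmA.val, ISmA.osc⟩

end Vale.Agent.P116
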