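import Vale.Agent.P116.IStm

/-! Part I: the Lipschitz bound of the smoothed indicator. -/

open Set Filter Topology MeasureTheory Metric Complex
open scoped ENNReal NNReal

noncomputable section
namespace Vale.Agent.P116

namespace ISmB

theorem scale (c : ℂ) {t : ℝ} (ht : 0 < t) (T : Set ℂ) :
    volume ((fun y : ℂ => c + t • y) ⁻¹' T) = ENNReal.ofReal (t ^ 2)⁻¹ * volume T := by
  have h := Measure.addHaar_preimage_smul (volume : Measure ℂ) ht.ne' ((fun y : ℂ => c + y) ⁻¹' T)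
  rw [measure_preimage_add, finrank_real_complex, abs_of_pos (by positivity)] at h
  exact h

theorem mem_iff (c y : ℂ) {t : ℝ} (ht : 0 < t) : c + t • y ∈ ball c t ↔ ‖y‖ < 1 := by
  rw [mem_ball, dist_self_add_left, norm_smul, Real.norm_of_nonneg ht.le, mul_lt_iff_lt_one_right ht]

theorem sm_eq (r : ℂ → ℝ) (W : Set ℂ) {c : ℂ} (h : 0 < r c) : Sm r W c =
    (volume ((fun y : ℂ => c + r c • y) ⁻¹' (W ∩ ball c (r c)))).toReal / Real.pi := by
  rw [scale c h, ENNReal.toReal_mul, ENNReal.toReal_ofReal (by positivity), Sm]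
  field_simp

theorem cross {E W : Set ℂ} (h : Side E W) {p q : ℂ} (hp : p ∈ W) (hq : q ∉ W) :
    ∃ x ∈ segment ℝ p q, x ∈ E := by
  by_contra hc
  rcases h.2 _ (convex_segment p q).isPreconnected
    (Set.disjoint_left.2 fun x hx hx' => hc ⟨x, hx, hx'⟩) with h1 | h1
  · exact hq (h1 (right_mem_segment ℝ p q))
  · exact Set.disjoint_left.1 h1 (left_mem_segment ℝ p q) hp

end ISmB

open ISmB in
theorem s_ismB (hb : S_ibas) (hh : S_ihm) (ha : S_iarea) : S_ismB := by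
  intro K E W a r z Lc hr hE hW hz hL
  have r0 := hr.pos z hz
  have hμ : μH[1] (E ∩ ball z (2 * r z)) ≠ ∞ := fun h => by
    rw [h, ENNReal.mul_top (ENNReal.ofReal_pos.2 (by positivity)).ne'] at hL
    exact ENNReal.coe_ne_top (top_le_iff.1 hL)
  have hL' := ENNReal.toReal_mono ENNReal.coe_ne_top hL
  rw [ENNReal.toReal_mul, ENNReal.toReal_ofReal (by positivity), ENNReal.coe_toReal] at hL'
  have hrr : ∀ w ∈ ball z (r z / 8), 31 / 32 * r z ≤ r w ∧ r w ≤ 33 / 32 * r z := fun w hw => by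
    have h1 := abs_le.1 (hr.lip w z)
    rw [mem_ball, dist_eq_norm] at hw
    constructor <;> linarith
  have hin : ∀ w ∈ ball z (r z / 8), ∀ y : ℂ, ‖y‖ < 1 → w + r w • y ∈ ball z (37 / 32 * r z) := by
    intro w hw y hy
    have h1 := hrr w hw
    have h2 := mem_ball.1 ((mem_iff w y (by linarith : 0 < r w)).2 hy)
    have h3 := dist_triangle (w + r w • y) w z
    rw [mem_ball] at hw ⊢
    linarith
  refine LipschitzOnWith.of_le_add_mul Lc fun z₁ h₁ z₂ h₂ => ?_
  rcases eq_or_ne z₁ z₂ with rfl | hne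
  · simp
  have d0 : 0 < dist z₁ z₂ := dist_pos.2 hne
  have d1 : dist z₁ z₂ < r z / 4 := by
    linarith [dist_triangle_right z₁ z₂ z, mem_ball.1 h₁, mem_ball.1 h₂]
  have p1 : 0 < r z₁ := by linarith [(hrr z₁ h₁).1]
  have p2 : 0 < r z₂ := by linarith [(hrr z₂ h₂).1]
  have hA := ha E (E ∩ ball z (37 / 32 * r z)) (ball z (2 * r z)) (2 * dist z₁ z₂) hE
    inter_subset_left measurableSet_ball (by positivity) fun x hx =>
      ball_subset_ball' (by linarith [mem_ball.1 hx.2])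
  have hS : (fun y : ℂ => z₁ + r z₁ • y) ⁻¹' (W ∩ ball z₁ (r z₁)) ⊆
      (fun y : ℂ => z₂ + r z₂ • y) ⁻¹' (W ∩ ball z₂ (r z₂)) ∪ (fun y : ℂ => z₁ + r z₁ • y) ⁻¹'
        thickening (2 * dist z₁ z₂) (E ∩ ball z (37 / 32 * r z)) := by
    rintro y ⟨y1, y2⟩
    have y3 := (mem_iff z₁ y p1).1 y2
    by_cases y4 : z₂ + r z₂ • y ∈ W
    · exact Or.inl ⟨y4, (mem_iff z₂ y p2).2 y3⟩
    obtain ⟨x, x1, x2⟩ := cross hW y1 y4
    have x3 : z₂ + r z₂ • y ∈ ball (z₁ + r z₁ • y) (2 * dist z₁ z₂) := by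
      have e1 := dist_add_add_le z₂ (r z₂ • y) z₁ (r z₁ • y)
      have e2 := hr.lip z₂ z₁
      have e3 := mul_le_mul e2 y3.le (norm_nonneg y) (by positivity)
      rw [dist_eq_norm (r z₂ • y), ← sub_smul, norm_smul, Real.norm_eq_abs, dist_comm z₂] at e1
      rw [← dist_eq_norm, dist_comm z₂] at e3
      rw [mem_ball]
      linarith
    exact Or.inr (mem_thickening_iff.2 ⟨x, ⟨x2, (convex_ball _ _).segment_subset
      (hin z₁ h₁ y y3) (hin z₂ h₂ y y3) x1⟩, mem_ball'.1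
        ((convex_ball _ _).segment_subset (mem_ball_self (by positivity)) x3 x1)⟩)
  have hV := (measure_mono hS).trans (measure_union_le (μ := volume) _ _)
  rw [scale z₁ p1 (thickening _ _)] at hV
  have f1 : volume ((fun y : ℂ => z₂ + r z₂ • y) ⁻¹' (W ∩ ball z₂ (r z₂))) ≠ ∞ := by
    rw [scale z₂ p2]
    exact ENNReal.mul_ne_top ENNReal.ofReal_ne_top
      ((measure_mono inter_subset_right).trans_lt measure_ball_lt_top).ne
  have f2 := ENNReal.mul_ne_top (ENNReal.ofReal_ne_top (r := (r z₁ ^ 2)⁻¹)) (ENNReal.mul_ne_top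
    (ENNReal.ofReal_ne_top (r := 4 * Real.pi * (2 * dist z₁ z₂))) hμ)
  have hR := ENNReal.toReal_mono (ENNReal.add_ne_top.2 ⟨f1, f2⟩)
    (hV.trans (add_le_add_right (mul_le_mul_right hA _) _))
  rw [ENNReal.toReal_add f1 f2, ENNReal.toReal_mul, ENNReal.toReal_mul,
    ENNReal.toReal_ofReal (by positivity), ENNReal.toReal_ofReal (by positivity)] at hR
  have hq : 8 * (r z₁ ^ 2)⁻¹ ≤ 10 / r z ^ 2 := by
    rw [← div_eq_mul_inv, div_le_div_iff₀ (by positivity) (by positivity)]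
    nlinarith [(hrr z₁ h₁).1]
  have h3 := mul_le_mul_of_nonneg_right ((mul_le_mul_of_nonneg_right hq
    ENNReal.toReal_nonneg).trans hL') (mul_pos d0 Real.pi_pos).le
  rw [sm_eq r W p1, sm_eq r W p2, div_add' _ _ _ Real.pi_pos.ne',
    div_le_div_iff_of_pos_right Real.pi_pos]
  linarith

end Vale.Agent.P116
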