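import Vale.Agent.P116.IStm

/-! Part I: testing the hypothesis with a cut off good function. -/

open Set Filter Topology MeasureTheory Metric Complex
open scoped ENNReal NNReal

noncomputable section
namespace Vale.Agent.P116

namespace ITest

/-- The radial cutoff. -/
def chi (a : ℝ) (w : ℂ) : ℝ := max 0 (min 1 ((1 + 2 * a - ‖w‖) / a))

variable {a : ℝ}

theorem nn (w : ℂ) : 0 ≤ chi a w := le_max_left _ _

theorem le1 (w : ℂ) : chi a w ≤ 1 := max_le zero_le_one (min_le_left _ _)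

theorem one (ha : 0 < a) {w : ℂ} (h : ‖w‖ < 1 + a) : chi a w = 1 := by
  rw [chi, min_eq_left ((one_le_div ha).2 (by linarith)), max_eq_right zero_le_one]

theorem zero (ha : 0 < a) {w : ℂ} (h : 1 + 2 * a ≤ ‖w‖) : chi a w = 0 :=
  max_eq_left (min_le_of_right_le (div_nonpos_of_nonpos_of_nonneg (by linarith) ha.le))

theorem mid (ha : 0 < a) {w : ℂ} (h : w ∈ An a) : chi a w = (1 + 2 * a - ‖w‖) / a := by
  rw [chi, min_eq_right ((div_le_one ha).2 (by linarith [h.1])),
    max_eq_right (div_nonneg (by linarith [h.2]) ha.le)]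

theorem lip (ha : 0 < a) : ∃ L, LipschitzWith L (chi a) := by
  refine ⟨⟨a⁻¹, by positivity⟩, ((LipschitzWith.of_dist_le_mul (f := fun w : ℂ =>
    (1 + 2 * a - ‖w‖) / a) fun x y => ?_).const_min 1).const_max 0⟩
  rw [Real.dist_eq, ← sub_div, abs_div, abs_of_pos ha, sub_sub_sub_cancel_left, div_eq_inv_mul,
    dist_comm, dist_eq_norm]
  exact mul_le_mul_of_nonneg_left (abs_norm_sub_norm_le y x) (by positivity)

theorem dnorm {w : ℂ} (hw : w ≠ 0) :
    HasFDerivAt (fun y : ℂ => ‖y‖) ((1 / (2 * ‖w‖)) • (2 • innerSL ℝ w)) w := by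
  have := (hasStrictFDerivAt_norm_sq w).hasFDerivAt.sqrt (pow_ne_zero 2 (norm_ne_zero_iff.2 hw))
  simpa only [Real.sqrt_sq (norm_nonneg _)] using this

theorem der (ha : 0 < a) (ψ : ℂ → ℝ) {w : ℂ} (h1 : ‖w‖ ≠ 1 + a) (h2 : ‖w‖ ≠ 1 + 2 * a) :
    DifferentiableAt ℝ (chi a) w ∧ wd (chi a) ψ w = (An a).indicator (om0 ψ a) w := by
  have cst : ∀ c : ℝ, (chi a =ᶠ[𝓝 w] fun _ => c) → w ∉ An a →
      DifferentiableAt ℝ (chi a) w ∧ wd (chi a) ψ w = (An a).indicator (om0 ψ a) w :=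
    fun c h hw => ⟨(differentiableAt_const c).congr_of_eventuallyEq h, by
      simp [wd, h.fderiv_eq, hw]⟩
  rcases h1.lt_or_gt with h1 | h1
  · exact cst 1 ((continuous_norm.continuousAt.eventually (gt_mem_nhds h1)).mono
      fun y hy => one ha hy) fun h => h1.not_gt h.1
  rcases h2.lt_or_gt with h2 | h2
  swap
  · exact cst 0 ((continuous_norm.continuousAt.eventually (lt_mem_nhds h2)).mono
      fun y hy => zero ha hy.le) fun h => h2.not_gt h.2
  have hw : w ∈ An a := ⟨h1, h2⟩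
  have h0 : 0 < ‖w‖ := by linarith
  have e : chi a =ᶠ[𝓝 w] fun y => a⁻¹ * (1 + 2 * a - ‖y‖) :=
    (continuous_norm.continuousAt.eventually ((lt_mem_nhds h1).and (gt_mem_nhds h2))).mono
      fun y hy => by rw [mid ha hy, div_eq_inv_mul]
  have d := (((dnorm (norm_pos_iff.1 h0)).const_sub (1 + 2 * a)).const_mul a⁻¹).congr_of_eventuallyEq
    e
  refine ⟨d.differentiableAt, ?_⟩
  have e2 : I * w = (-w.im) • (1 : ℂ) + w.re • I := by apply Complex.ext <;> simp
  rw [indicator_of_mem hw, wd, d.fderiv, om0, e2, map_add, map_smul, map_smul]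
  simp [Complex.inner]
  field_simp

theorem ext (ha : 0 < a) {K S : Set ℂ} {f : ℂ → ℝ} (hf : IntegrableOn f (Om K a))
    (hS : MeasurableSet S) (hK : S ⊆ Kᶜ) : (∀ z ∈ S \ Om K a, chi a z * f z = 0) ∧
      IntegrableOn (fun z => chi a z * f z) S := by
  have h : ∀ z ∈ S \ Om K a, chi a z * f z = 0 := fun z hz => by
    rw [zero ha, zero_mul]
    by_contra h
    exact hz.2 ⟨mem_ball_zero_iff.2 (by linarith), hK hz.1⟩
  obtain ⟨L, hL⟩ := lip ha
  exact ⟨h, IntegrableOn.of_forall_sdiff_eq_zero (hf.bdd_mul (c := 1)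
    hL.continuous.aestronglyMeasurable (Eventually.of_forall fun z => by
      rw [Real.norm_of_nonneg (nn z)]; exact le1 z)) hS h⟩

end ITest

open ITest in
theorem s_itest (L : Lib) (hb : S_ibas) : S_itest := by
  intro K R ψ a Lp τ σ ζ hI iψ hτ hH lζ bζ iζ hσ oζ
  have ha := hI.a0
  have oK := hI.cpt.isClosed.isOpen_compl
  obtain ⟨a1, a2, a3, a4, -⟩ := hb.an K R ψ a Lp hI
  obtain ⟨l, hl⟩ := lip ha
  have mS : ∀ ρ, MeasurableSet (ball (0 : ℂ) ρ \ K) := fun ρ =>
    (isOpen_ball.inter oK).measurableSet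
  have ae : ∀ᵐ z, z ∉ K → (DifferentiableAt ℝ (chi a) z ∧
      wd (chi a) ψ z = (An a).indicator (om0 ψ a) z) ∧ fderiv ℝ (fun w => chi a w * ζ w) z =
        chi a z • fderiv ℝ ζ z + ζ z • fderiv ℝ (chi a) z := by
    filter_upwards [L.adm.dif _ ζ oK lζ,
      compl_mem_ae_iff.2 (Measure.addHaar_sphere volume (0 : ℂ) (1 + a)),
      compl_mem_ae_iff.2 (Measure.addHaar_sphere volume (0 : ℂ) (1 + 2 * a))] with z h1 h2 h3 hz
    have h := der ha ψ (w := z) (by simpa using h2) (by simpa using h3)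
    exact ⟨h, fderiv_fun_mul h.1 (h1 hz)⟩
  have ad : Adm K fun w => chi a w * ζ w := by
    refine ⟨locallyLipschitzOn_iff_restrict.2 ((contDiff_mul (𝕜 := ℝ) (𝔸 := ℝ)
      (n := 1)).locallyLipschitz.comp (hl.locallyLipschitz.locallyLipschitzOn.restrict.prodMk
        lζ.restrict)), fun ρ => ?_⟩
    refine Integrable.mono' ((Integrable.const_mul (ext ha iζ (mS ρ) fun z hz => hz.2).2 2).add
      (integrableOn_const (C := 2 * (l : ℝ) ^ 2) (ne_top_of_le_ne_top measure_ball_lt_top.ne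
        (measure_mono sdiff_subset))))
      ((L.adm.meas _).norm.pow_const 2).aestronglyMeasurable ((ae_restrict_iff' (mS ρ)).2 ?_)
    filter_upwards [ae] with z h hz
    have e1 : ‖gr (fun w => chi a w * ζ w) z‖ ≤ chi a z * ‖gr ζ z‖ + l := by
      rw [L.adm.nrm, L.adm.nrm, (h hz.2).2]
      refine (norm_add_le _ _).trans (add_le_add ?_ ?_)
      · rw [norm_smul, Real.norm_of_nonneg (nn z)]
      · rw [norm_smul, Real.norm_of_nonneg (bζ z hz.2).1]
        exact (mul_le_of_le_one_left (norm_nonneg _) (bζ z hz.2).2).trans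
          (norm_fderiv_le_of_lipschitz ℝ hl)
    rw [Real.norm_of_nonneg (sq_nonneg _)]
    refine (pow_le_pow_left₀ (norm_nonneg _) e1 2).trans ?_
    simp only [Pi.add_apply]
    nlinarith [sq_nonneg (chi a z * ‖gr ζ z‖ - l), mul_nonneg (mul_nonneg (nn (a := a) z)
      (sub_nonneg.2 (le1 (a := a) z))) (sq_nonneg ‖gr ζ z‖)]
  have g : Good K K (fun w => chi a w * ζ w) σ := by
    refine ⟨ad, hσ, fun p hp ε hε => ?_⟩
    obtain ⟨U, u1, u2, u3⟩ := oζ p ε hε
    refine ⟨U ∩ ball 0 (1 + a), u1.inter isOpen_ball, subset_inter u2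
      ((hp.trans hI.sub).trans (ball_subset_ball (by linarith))), fun z hz w hw => ?_⟩
    simp only [one ha (mem_ball_zero_iff.1 hz.1.2), one ha (mem_ball_zero_iff.1 hw.1.2), one_mul]
    exact u3 z ⟨hz.1.1, hz.2⟩ w ⟨hw.1.1, hw.2⟩
  have sp : tsupport (fun w => chi a w * ζ w) ⊆ ball 0 R := by
    refine (closure_minimal (fun w hw => ?_) isClosed_closedBall).trans
      (closedBall_subset_ball (show 1 + 2 * a < R by linarith [hI.hR]))
    by_contra h
    exact hw (by simp only [zero ha (not_le.1 (mem_closedBall_zero_iff.not.1 h)).le, zero_mul])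
  obtain ⟨x1, x2⟩ := ext ha (L.adm.cs _ ζ ψ iζ (iψ.mono_set a4)).1 (mS R) fun z hz => hz.2
  have e1 : lf ψ a ζ = (∫ z in ball 0 R \ K, wd (fun w => chi a w * ζ w) ψ z) -
      ∫ z in Om K a, chi a z * wd ζ ψ z := by
    rw [← setIntegral_eq_of_subset_of_forall_sdiff_eq_zero (mS R) a4 x1,
      ← integral_sub (L.adm.cs _ _ ψ (ad.2 R) iψ).1 x2, lf, ← inter_eq_right.2 (a2.trans a4),
      ← setIntegral_indicator a1.measurableSet]
    refine setIntegral_congr_ae (mS R) ?_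
    filter_upwards [ae] with z h hz
    rw [indicator_mul_right, ← (h hz.2).1.2, wd, wd, wd, (h hz.2).2]
    simp only [add_apply, smul_apply, smul_eq_mul]
    ring
  have e2 : ENNReal.ofReal (sm K σ τ) = ∑' p : Cmp K, ENNReal.ofReal (τ p * σ p) := by
    have := L.sm.summ K K τ σ hτ.2 hσ.2
    simp only [L.cmp.sub, if_true] at this
    rw [← ENNReal.ofReal_tsum_of_nonneg (fun p => mul_nonneg (hτ.1 p) (hσ.1 p)) this, L.sm.comm]
    simp only [sm, L.cmp.sub, if_true]
  have e3 : lf ψ a ζ ≤ ‖∫ z in Om K a, chi a z * wd ζ ψ z‖ + sm K σ τ := by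
    rw [e1, Real.norm_eq_abs]
    linarith [hH _ σ g sp, le_abs_self (∫ z in ball 0 R \ K, wd (fun w => chi a w * ζ w) ψ z),
      neg_abs_le (∫ z in Om K a, chi a z * wd ζ ψ z)]
  refine (ENNReal.ofReal_le_ofReal e3).trans (ENNReal.ofReal_add_le.trans (add_le_add ?_ e2.le))
  rw [ofReal_norm]
  refine (enorm_integral_le_lintegral_enorm _).trans (lintegral_mono fun z => ?_)
  simp only [← ofReal_norm]
  rw [← ENNReal.ofReal_mul (norm_nonneg _), norm_mul, Real.norm_of_nonneg (nn z), mul_comm ‖_‖]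
  exact ENNReal.ofReal_le_ofReal ((mul_le_of_le_one_left (norm_nonneg _) (le1 z)).trans
    (L.adm.wle ζ ψ z))

end Vale.Agent.P116
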