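import Vale.Agent.P116.IStm

/-! Part I: the gradient of the smoothed indicator against a weight. -/

open Set Filter Topology MeasureTheory Metric Complex
open scoped ENNReal NNReal

noncomputable section
namespace Vale.Agent.P116

namespace ITon

theorem sfin {μ : Measure ℂ} {S : Set ℂ} (h : ∀ ρ : ℝ, μ (S ∩ ball 0 ρ) ≠ ∞) :
    SigmaFinite (μ.restrict S) :=
  ⟨⟨{ set := fun n => ball 0 n
      set_mem := fun _ => trivial
      finite := fun n => by
        rw [Measure.restrict_apply measurableSet_ball, inter_comm]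
        exact (h n).lt_top
      spanning := iUnion_ball_nat 0 }⟩⟩

theorem ker_int (μ : Measure ℂ) (S : Set ℂ) (r : ℂ → ℝ) (z : ℂ) :
    ∫⁻ w in S, ker r w z ∂μ = ENNReal.ofReal (10 / r z ^ 2) * μ (ball z (2 * r z) ∩ S) := by
  have e : (fun w => ker r w z) =
      (ball z (2 * r z)).indicator fun _ => ENNReal.ofReal (10 / r z ^ 2) := by
    funext w
    simp only [ker, indicator, mem_ball, dist_eq_norm]
  rw [e, lintegral_indicator_const measurableSet_ball, Measure.restrict_apply measurableSet_ball]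

end ITon

theorem s_iton (L : Lib) (hb : S_ibas) (hk : S_iker) (hB : S_ismB) : S_iton := by
  intro K E W Ω a r g _ hr hE hW hΩ hΩK hfin hg
  have := ITon.sfin hfin
  have hm := hk.kmeas r (hb.cont K a r hr)
  have h1 : ∀ z ∈ Ω, ‖gr (Sm r W) z‖ₑ ≤ ∫⁻ w in E \ K, ker r w z ∂μH[1] := by
    intro z hz
    have h0 := hr.pos z (hΩK hz)
    have e : ball z (2 * r z) ∩ (E \ K) = E ∩ ball z (2 * r z) := by
      ext w
      exact ⟨fun h => ⟨h.2.1, h.1⟩, fun h => ⟨h.2, h.1, disjoint_left.1 (hb.off K a r z hr)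
        (ball_subset_ball (by linarith) h.2)⟩⟩
    have h2 : ENNReal.ofReal (10 / r z ^ 2) * μH[1] (E ∩ ball z (2 * r z)) ≠ ∞ := by
      refine ENNReal.mul_ne_top ENNReal.ofReal_ne_top (ne_top_of_le_ne_top
        (hfin (2 * r z + dist z 0)) (measure_mono ?_))
      rw [← e]
      exact fun w hw => ⟨hw.2, ball_subset_ball' le_rfl hw.1⟩
    have h3 := norm_fderiv_le_of_lipschitzOn ℝ (ball_mem_nhds z (by positivity))
      (hB K E W a r z _ hr hE hW (hΩK hz) (ENNReal.coe_toNNReal h2).ge)
    rw [ITon.ker_int, e, ← ENNReal.coe_toNNReal h2, ← ofReal_norm, L.adm.nrm,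
      ← ENNReal.ofReal_coe_nnreal]
    exact ENNReal.ofReal_le_ofReal h3
  calc ∫⁻ z in Ω, g z * ‖gr (Sm r W) z‖ₑ
      ≤ ∫⁻ z in Ω, ∫⁻ w in E \ K, g z * ker r w z ∂μH[1] := by
        refine setLIntegral_mono' hΩ fun z hz => ?_
        rw [lintegral_const_mul (f := fun w => ker r w z) _ (hm.comp measurable_prodMk_right)]
        exact mul_le_mul_right (h1 z hz) _
    _ = _ := lintegral_lintegral_swap
        ((hg.comp measurable_fst).mul (hm.comp measurable_swap)).aemeasurable

end Vale.Agent.P116
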