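import Vale.Agent.P116.IAsm
import Vale.Agent.P116.IClaim
import Vale.Agent.P116.ISide
import Vale.Agent.P116.ISmA
import Vale.Agent.P116.ISmB
import Vale.Agent.P116.IPol
import Vale.Agent.P116.ITest
import Vale.Agent.P116.IEn
import Vale.Agent.P116.IKer
import Vale.Agent.P116.ISchur
import Vale.Agent.P116.ITon
import Vale.Agent.P116.IMem
import Vale.Agent.P116.IFin
import Vale.Agent.P116.IGlue
import Vale.Agent.P116.ILipc
import Vale.Agent.P116.ICvx
import Vale.Agent.P116.IClo
import Vale.Agent.P116.IArea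
import Vale.Agent.P116.INear
import Vale.Agent.P116.IHm
import Vale.Agent.P116.IBas

/-! Part I: isotropy in the disc model. -/

namespace Vale.Agent.P116

theorem s_iso0 (L : Lib) (hT : S_T) (hD : S_D) : S_iso0 :=
  have hb := s_ibas
  have hh := s_ihm
  have hk := s_iker
  have hs := s_ischur hb hh hk
  have ha := s_iarea hh
  have hB := s_ismB hb hh ha
  have hm := s_imem L hb hh (s_iside L) s_ismA hB (s_iton L hb hk hB) (s_ipol hb) (s_inear hb hh ha)
  iso_of L hb hk hs (s_iclaim L hD hb hk hs hm (s_icvx L) (s_iclo L) (s_itest L hb))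
    (s_ilipc hb hh) (s_ifin L hT hh s_ien s_iglue)

end Vale.Agent.P116
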