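import Vale.Agent.P116.AStm

/-! Part I (isotropy in the disc model): definitions and statements. -/

open Set Filter Topology MeasureTheory Metric Complex
open scoped ENNReal NNReal

noncomputable section
namespace Vale.Agent.P116

/-- The smoothing radius. -/
structure Rad (K : Set ℂ) (a : ℝ) (r : ℂ → ℝ) : Prop where
  a0 : 0 < a
  lip : ∀ z w, |r z - r w| ≤ ‖z - w‖ / 4
  nn : ∀ z, 0 ≤ r z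
  pos : ∀ z ∉ K, 0 < r z
  zero : ∀ z ∈ K, r z = 0
  le : ∀ z, r z ≤ a / 4
  out : ∀ z, 1 ≤ ‖z‖ → r z = a / 4

/-- The standing hypotheses on the boundary function. -/
structure IC (K : Set ℂ) (R : ℝ) (ψ : ℂ → ℝ) (a : ℝ) (Lp : ℝ≥0) : Prop where
  cpt : IsCompact K
  a0 : 0 < a
  sub : K ⊆ ball 0 (1 - a)
  hR : 1 + 3 * a ≤ R
  c1 : ContDiffOn ℝ 1 ψ (ball 0 R \ K)
  gb : ∀ w : ℂ, 1 - a < ‖w‖ → ‖w‖ < 1 + 3 * a → ‖fderiv ℝ ψ w‖ ≤ Lp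
  lip : LipschitzOnWith Lp ψ {w | 1 ≤ ‖w‖ ∧ ‖w‖ ≤ 1 + 2 * a}

/-- The hypothesis on test functions. -/
def Hyp (K : Set ℂ) (R : ℝ) (ψ : ℂ → ℝ) (τ : Cmp K → ℝ) : Prop :=
  ∀ θ s, Good K K θ s → tsupport θ ⊆ ball 0 R → |∫ z in ball 0 R \ K, wd θ ψ z| ≤ sm K s τ

/-- The working domain. -/
def Om (K : Set ℂ) (a : ℝ) : Set ℂ := ball 0 (1 + 3 * a) \ K

/-- The annulus of the cutoff. -/
def An (a : ℝ) : Set ℂ := {w | 1 + a < ‖w‖ ∧ ‖w‖ < 1 + 2 * a}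

/-- The density of the boundary functional. -/
def om0 (ψ : ℂ → ℝ) (a : ℝ) (w : ℂ) : ℝ := -(fderiv ℝ ψ w (I * w)) / (a * ‖w‖)

/-- The boundary functional. -/
def lf (ψ : ℂ → ℝ) (a : ℝ) (ζ : ℂ → ℝ) : ℝ := ∫ w in An a, ζ w * om0 ψ a w

/-- The kernel. -/
def ker (r : ℂ → ℝ) (w z : ℂ) : ℝ≥0∞ :=
  if ‖w - z‖ < 2 * r z then ENNReal.ofReal (10 / r z ^ 2) else 0

/-- The dual smoothing operator. -/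
def Tg (Ω : Set ℂ) (r : ℂ → ℝ) (g : ℂ → ℝ≥0∞) (w : ℂ) : ℝ≥0∞ := ∫⁻ z in Ω, g z * ker r w z

/-- The smoothed indicator of `W`. -/
def Sm (r : ℂ → ℝ) (W : Set ℂ) (z : ℂ) : ℝ :=
  (volume (W ∩ ball z (r z))).toReal / (Real.pi * r z ^ 2)

/-- The radial ray from `z` to infinity. -/
def ray (z : ℂ) : Set ℂ := {w | ∃ t : ℝ, 1 ≤ t ∧ w = t * z}

/-- The open sector with axis `v` and half angle `α`. -/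
def Sec (v : ℂ) (α : ℝ) : Set ℂ := {w | Real.cos α * ‖w‖ < (w * (starRingEnd ℂ) v).re}

/-- `W` is an open union of components of the complement of `E`. -/
def Side (E W : Set ℂ) : Prop :=
  IsOpen W ∧ ∀ P, IsPreconnected P → Disjoint P E → P ⊆ W ∨ Disjoint P W

/-- A closed connected unbounded set. -/
def Long (E : Set ℂ) : Prop := IsClosed E ∧ IsPreconnected E ∧ ∀ ρ : ℝ, ∃ y ∈ E, ρ ≤ ‖y‖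

/-- The bounds required by part D. -/
def Bd (K : Set ℂ) (L : ℂ → ℝ≥0) (rad : ℂ → ℝ) (x : (ℂ → ℝ) × (Cmp K → ℝ)) : Prop :=
  (∀ z, 0 ≤ x.1 z ∧ x.1 z ≤ 1) ∧ (∀ p, 0 ≤ x.2 p ∧ x.2 p ≤ 1) ∧
    (Function.support x.2).Countable ∧ (∀ p : Cmp K, Osc K p.1 x.1 (x.2 p)) ∧ ULip Kᶜ L rad x.1

/-- The convex set. -/
def Ss (K Ω S : Set ℂ) (L : ℂ → ℝ≥0) (rad : ℂ → ℝ) (g : ℂ → ℝ≥0∞) (τ : Cmp K → ℝ) (ω : ℂ → ℝ)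
    (e : ℝ) : Set ((ℂ → ℝ) × (Cmp K → ℝ)) :=
  {x | Bd K L rad x ∧ pg K Ω g τ x + ENNReal.ofReal e ≤ ENNReal.ofReal (∫ w in S, x.1 w * ω w)}

/-- Short paths along which the boundary values jump too much have cost at least one. -/
def Jump (K : Set ℂ) (ψ : ℂ → ℝ) (lam₁ lam₂ : ℂ → ℝ≥0∞) (τ s : Cmp K → ℝ) (H : ℝ≥0) (e : ℝ) :
    Prop :=
  ∀ A, Pth K A → μH[1] (A \ K) ≤ H → ∀ z ∈ A ∩ sphere 0 1, ∀ z' ∈ A ∩ sphere 0 1,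
    cost K lam₁ τ A + ENNReal.ofReal e ≤ ENNReal.ofReal (ψ z' - ψ z) → 1 ≤ cost K lam₂ s A

/-- The collar. -/
def Col (h : ℝ) : Set ℂ := {w | 1 - h ≤ ‖w‖ ∧ ‖w‖ ≤ 1}

/-! ### Basic pieces -/

structure S_ibas : Prop where
  rad : ∀ (K : Set ℂ) (a : ℝ), IsCompact K → 0 < a → K ⊆ ball 0 (1 - a) → ∃ r, Rad K a r
  off : ∀ (K : Set ℂ) (a : ℝ) (r : ℂ → ℝ) (z : ℂ), Rad K a r → Disjoint (ball z (4 * r z)) K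
  cont : ∀ (K : Set ℂ) (a : ℝ) (r : ℂ → ℝ), Rad K a r → Continuous r
  an : ∀ (K : Set ℂ) (R : ℝ) (ψ : ℂ → ℝ) (a : ℝ) (Lp : ℝ≥0), IC K R ψ a Lp →
    IsOpen (An a) ∧ An a ⊆ Om K a ∧ IsOpen (Om K a) ∧ Om K a ⊆ ball 0 R \ K ∧
      IntegrableOn (om0 ψ a) (An a) ∧ ∀ w ∈ An a, |om0 ψ a w| ≤ Lp / a
  ang : ∀ z z' : ℂ, ‖z‖ = 1 → ‖z'‖ = 1 → z ≠ z' → ∃ (v : ℂ) (α : ℝ), ‖v‖ = 1 ∧ 0 < α ∧
    α < Real.pi ∧ z = v * cexp (α * I) ∧ z' = v * cexp (-(α * I))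
  nq : ∀ (K Ω : Set ℂ) (g : ℂ → ℝ≥0∞) (s : Cmp K → ℝ) (d : ℝ≥0),
    nq K Ω (fun z => d * g z) (fun p => d * s p) = d ^ 2 * nq K Ω g s
  cost : ∀ (K A : Set ℂ) (lam : ℂ → ℝ≥0∞) (s : Cmp K → ℝ) (d : ℝ≥0),
    cost K (fun z => d * lam z) (fun p => d * s p) A = d * cost K lam s A
  col : ∀ h : ℝ, 0 ≤ h → MeasurableSet (Col h) ∧ volume (Col h) ≤ ENNReal.ofReal (8 * h)

/-- One dimensional Hausdorff measure. -/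
structure S_ihm : Prop where
  conn : ∀ (E : Set ℂ) (f : ℂ → ℝ) (a b : ℝ) (x y : ℂ), IsPreconnected E → LipschitzWith 1 f →
    x ∈ E → y ∈ E → f x ≤ a → b ≤ f y →
    ENNReal.ofReal (b - a) ≤ μH[1] (E ∩ {w | a < f w ∧ f w < b})
  long : ∀ (E : Set ℂ) (x : ℂ) (t : ℝ), Long E → x ∈ E → ENNReal.ofReal t ≤ μH[1] (E ∩ ball x t)
  rayl : ∀ z : ℂ, ‖z‖ = 1 → Long (ray z) ∧ z ∈ ray z ∧ ∀ w ∈ ray z, 1 ≤ ‖w‖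
  raym : ∀ (z : ℂ) (ρ : ℝ), ‖z‖ = 1 → μH[1] (ray z ∩ ball 0 (1 + ρ)) ≤ ENNReal.ofReal ρ
  seg : ∀ (z e : ℂ) (t : ℝ) (lam : ℂ → ℝ≥0∞), ‖e‖ = 1 → 0 ≤ t → Measurable lam →
    ∫⁻ w in segment ℝ z (z + t * e), lam w ∂μH[1] = ∫⁻ s in Icc (0 : ℝ) t, lam (z + s * e)

/-- Area of a neighbourhood. -/
def S_iarea : Prop :=
  ∀ (E S B : Set ℂ) (t : ℝ), Long E → S ⊆ E → MeasurableSet B → 0 < t →
    (∀ x ∈ S, ball x t ⊆ B) →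
    volume (thickening t S) ≤ ENNReal.ofReal (4 * Real.pi * t) * μH[1] (E ∩ B)

/-- The two sides of a path. -/
def S_iside : Prop :=
  ∀ (A : Set ℂ) (v : ℂ) (α : ℝ), IsCompact A → IsPreconnected A → A ⊆ closedBall 0 1 → ‖v‖ = 1 →
    0 < α → α < Real.pi → v * cexp (α * I) ∈ A → v * cexp (-(α * I)) ∈ A →
    ∃ W, Side (A ∪ ray (v * cexp (α * I)) ∪ ray (v * cexp (-(α * I)))) W ∧
      ∀ w : ℂ, 1 < ‖w‖ → w ∉ ray (v * cexp (α * I)) → w ∉ ray (v * cexp (-(α * I))) →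
        (w ∈ W ↔ w ∈ Sec v α)

/-- Values and oscillation of the smoothed indicator. -/
structure S_ismA : Prop where
  rng : ∀ (r : ℂ → ℝ) (W : Set ℂ) (z : ℂ), 0 ≤ r z → 0 ≤ Sm r W z ∧ Sm r W z ≤ 1
  val : ∀ (r : ℂ → ℝ) (E W : Set ℂ) (z : ℂ), Side E W → 0 < r z → Disjoint (ball z (r z)) E →
    Sm r W z = W.indicator 1 z
  osc : ∀ (K p E W : Set ℂ) (a : ℝ) (r : ℂ → ℝ), Rad K a r → IsClosed E → Side E W →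
    IsCompact p → IsPreconnected p → p ⊆ K → Disjoint p E → Osc K p (Sm r W) 0

/-- The Lipschitz bound of the smoothed indicator. -/
def S_ismB : Prop :=
  ∀ (K E W : Set ℂ) (a : ℝ) (r : ℂ → ℝ) (z : ℂ) (Lc : ℝ≥0), Rad K a r → Long E → Side E W →
    z ∉ K → ENNReal.ofReal (10 / r z ^ 2) * μH[1] (E ∩ ball z (2 * r z)) ≤ Lc →
    LipschitzOnWith Lc (Sm r W) (ball z (r z / 8))

/-- Pointwise bounds of the operator. -/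
structure S_iker : Prop where
  kmeas : ∀ r : ℂ → ℝ, Continuous r → Measurable fun p : ℂ × ℂ => ker r p.1 p.2
  meas : ∀ (Ω : Set ℂ) (r : ℂ → ℝ) (g : ℂ → ℝ≥0∞), Continuous r → Measurable g →
    Measurable (Tg Ω r g)
  smul : ∀ (Ω : Set ℂ) (r : ℂ → ℝ) (g : ℂ → ℝ≥0∞) (d : ℝ≥0),
    Tg Ω r (fun z => d * g z) = fun w => d * Tg Ω r g w
  row : ∀ (K : Set ℂ) (a : ℝ) (r : ℂ → ℝ) (w : ℂ), Rad K a r → ∫⁻ z, ker r w z ≤ 1200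
  sup : ∀ (K Ω : Set ℂ) (a : ℝ) (r : ℂ → ℝ) (g : ℂ → ℝ≥0∞) (w : ℂ) (M : ℝ≥0∞), Rad K a r →
    MeasurableSet Ω → (∀ z ∈ Ω, ‖z - w‖ < 4 * r w → g z ≤ M) → Tg Ω r g w ≤ 1200 * M
  two : ∀ (K Ω : Set ℂ) (a : ℝ) (r : ℂ → ℝ) (g : ℂ → ℝ≥0∞) (w : ℂ) (B : ℝ≥0∞), Rad K a r →
    Measurable g → ∫⁻ z in Ω, g z ^ 2 ≤ B ^ 2 → w ∉ K →
    Tg Ω r g w ≤ ENNReal.ofReal (170 / r w) * B
  far : ∀ (K Ω : Set ℂ) (a ρ : ℝ) (r : ℂ → ℝ) (g : ℂ → ℝ≥0∞) (w : ℂ), Rad K a r →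
    MeasurableSet Ω → Ω ⊆ ball 0 ρ → ρ + a / 2 ≤ ‖w‖ → Tg Ω r g w = 0

/-- The Schur bound, and the operator on rays. -/
structure S_ischur : Prop where
  l2 : ∀ (K Ω : Set ℂ) (a : ℝ) (r : ℂ → ℝ) (g : ℂ → ℝ≥0∞), Rad K a r → Measurable g →
    ∫⁻ w, Tg Ω r g w ^ 2 ≤ 160000 * ∫⁻ z in Ω, g z ^ 2
  ray2 : ∀ (K : Set ℂ) (a : ℝ) (r : ℂ → ℝ) (g : ℂ → ℝ≥0∞) (z : ℂ), IsCompact K →
    K ⊆ ball 0 1 → Rad K a r → Measurable g → ‖z‖ = 1 → ∫⁻ w in Om K a, g w ^ 2 ≤ 1 →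
    ∫⁻ w in ray z, Tg (Om K a) r g w ∂μH[1] ≤ 3000
  rays : ∀ (K : Set ℂ) (a : ℝ) (r : ℂ → ℝ) (g : ℂ → ℝ≥0∞) (z : ℂ) (M : ℝ≥0), IsCompact K →
    Rad K a r → ‖z‖ = 1 → (∀ w ∈ Om K a, 1 - a < ‖w‖ → g w ≤ M) →
    ∫⁻ w in ray z, Tg (Om K a) r g w ∂μH[1] ≤ ENNReal.ofReal (5000 * M * a)

/-- Duality between the smoothing and the operator. -/
def S_iton : Prop :=
  ∀ (K E W Ω : Set ℂ) (a : ℝ) (r : ℂ → ℝ) (g : ℂ → ℝ≥0∞), IsCompact K → Rad K a r → Long E →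
    Side E W → MeasurableSet Ω → Ω ⊆ Kᶜ → (∀ ρ : ℝ, μH[1] ((E \ K) ∩ ball 0 ρ) ≠ ∞) →
    Measurable g → ∫⁻ z in Ω, g z * ‖gr (Sm r W) z‖ₑ ≤ ∫⁻ w in E \ K, Tg Ω r g w ∂μH[1]

/-- The functional on a sector. -/
def S_ipol : Prop :=
  ∀ (K : Set ℂ) (R : ℝ) (ψ : ℂ → ℝ) (a : ℝ) (Lp : ℝ≥0) (v : ℂ) (α : ℝ), IC K R ψ a Lp →
    ‖v‖ = 1 → 0 < α → α < Real.pi →
    |lf ψ a ((Sec v α).indicator 1) - (ψ (v * cexp (-(α * I))) - ψ (v * cexp (α * I)))| ≤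
      4 * Lp * a

/-- The functional does not see the neighbourhood of two rays. -/
def S_inear : Prop :=
  ∀ (K : Set ℂ) (R : ℝ) (ψ : ℂ → ℝ) (a : ℝ) (Lp : ℝ≥0) (z z' : ℂ) (ζ ζ' : ℂ → ℝ),
    IC K R ψ a Lp → ‖z‖ = 1 → ‖z'‖ = 1 → AEStronglyMeasurable ζ (volume.restrict (An a)) →
    AEStronglyMeasurable ζ' (volume.restrict (An a)) → (∀ w, 0 ≤ ζ w ∧ ζ w ≤ 1) →
    (∀ w, 0 ≤ ζ' w ∧ ζ' w ≤ 1) →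
    (∀ w ∈ An a, Disjoint (ball w (a / 4)) (ray z ∪ ray z') → ζ w = ζ' w) →
    |lf ψ a ζ - lf ψ a ζ'| ≤ 26 * Lp * a

/-- The pair attached to a path. -/
def S_imem : Prop :=
  ∀ (K : Set ℂ) (R : ℝ) (ψ : ℂ → ℝ) (a : ℝ) (Lp H : ℝ≥0) (r : ℂ → ℝ), IC K R ψ a Lp →
    Rad K a r → ∃ L : ℂ → ℝ≥0, ∀ A, Pth K A → μH[1] (A \ K) ≤ H → ∀ z ∈ A ∩ sphere 0 1,
      ∀ z' ∈ A ∩ sphere 0 1, z ≠ z' → ∃ x, Bd K L (fun w => r w / 8) x ∧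
        ψ z' - ψ z - 30 * Lp * a ≤ lf ψ a x.1 ∧
        ∀ (g : ℂ → ℝ≥0∞) (s : Cmp K → ℝ), Measurable g →
          pg K (Om K a) g s x ≤ cost K (Tg (Om K a) r g) s A +
            (∫⁻ w in ray z, Tg (Om K a) r g w ∂μH[1]) + ∫⁻ w in ray z', Tg (Om K a) r g w ∂μH[1]

/-- Convexity. -/
def S_icvx : Prop :=
  ∀ (K Ω S : Set ℂ) (L : ℂ → ℝ≥0) (rad : ℂ → ℝ) (g : ℂ → ℝ≥0∞) (τ : Cmp K → ℝ) (ω : ℂ → ℝ)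
    (e : ℝ), IsCompact K → MeasurableSet Ω → Ω ⊆ Kᶜ → MeasurableSet S → S ⊆ Kᶜ →
    (∀ z ∉ K, 0 < rad z) → Measurable g → (∀ p, 0 ≤ τ p) → IntegrableOn ω S → 0 < e →
    Convex ℝ (Ss K Ω S L rad g τ ω e)

/-- Passing to the limit. -/
def S_iclo : Prop :=
  ∀ (K Ω S : Set ℂ) (L : ℂ → ℝ≥0) (rad : ℂ → ℝ) (g : ℂ → ℝ≥0∞) (τ : Cmp K → ℝ) (ω : ℂ → ℝ)
    (e : ℝ) (x : ℕ → (ℂ → ℝ) × (Cmp K → ℝ)) (ζ : ℂ → ℝ) (σ : Cmp K → ℝ), IsCompact K →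
    IsOpen Ω → Ω ⊆ Kᶜ → MeasurableSet S → S ⊆ Kᶜ → (∀ z ∉ K, 0 < rad z) → Measurable g →
    IntegrableOn ω S → (∀ n, x n ∈ Ss K Ω S L rad g τ ω e) →
    (∀ z ∉ K, Tendsto (fun n => (x n).1 z) atTop (𝓝 (ζ z))) →
    (∀ p, σ p = 0 ∨ Tendsto (fun n => (x n).2 p) atTop (𝓝 (σ p))) →
    (∀ z ∉ K, 0 ≤ ζ z ∧ ζ z ≤ 1) ∧
      pg K Ω g τ (ζ, σ) + ENNReal.ofReal e ≤ ENNReal.ofReal (∫ w in S, ζ w * ω w)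

/-- Testing the hypothesis with a cut off good function. -/
def S_itest : Prop :=
  ∀ (K : Set ℂ) (R : ℝ) (ψ : ℂ → ℝ) (a : ℝ) (Lp : ℝ≥0) (τ σ : Cmp K → ℝ) (ζ : ℂ → ℝ),
    IC K R ψ a Lp → IntegrableOn (fun z => ‖gr ψ z‖ ^ 2) (ball 0 R \ K) → Sq τ → Hyp K R ψ τ →
    LocallyLipschitzOn Kᶜ ζ → (∀ z ∉ K, 0 ≤ ζ z ∧ ζ z ≤ 1) →
    IntegrableOn (fun z => ‖gr ζ z‖ ^ 2) (Om K a) → Sq σ → (∀ p : Cmp K, Osc K p.1 ζ (σ p)) →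
    ENNReal.ofReal (lf ψ a ζ) ≤ pg K (Om K a) (fun z => ‖gr ψ z‖ₑ) τ (ζ, σ)

/-- The claim. -/
def S_iclaim : Prop :=
  ∀ (K : Set ℂ) (R : ℝ) (ψ : ℂ → ℝ) (a : ℝ) (Lp H d : ℝ≥0) (r : ℂ → ℝ) (τ : Cmp K → ℝ) (e : ℝ),
    IC K R ψ a Lp → Rad K a r → IntegrableOn (fun z => ‖gr ψ z‖ ^ 2) (ball 0 R \ K) → Sq τ →
    Hyp K R ψ τ → 0 < e → 30000 * Lp * a ≤ e → 0 < d →
    ∃ (g : ℂ → ℝ≥0∞) (s : Cmp K → ℝ), Measurable g ∧ Sq s ∧ nq K (Om K a) g s ≤ d ^ 2 ∧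
      Jump K ψ (Tg (Om K a) r fun z => ‖gr ψ z‖ₑ) (Tg (Om K a) r g) τ s H e

/-- The boundary values are Lipschitz for the cost. -/
def S_ilipc : Prop :=
  ∀ (K : Set ℂ) (ψ : ℂ → ℝ) (lam₁ lam₂ : ℂ → ℝ≥0∞) (τ s : Cmp K → ℝ) (Lp M c H : ℝ≥0) (h : ℝ),
    IsCompact K → 0 < h → K ⊆ ball 0 (1 - h) → LipschitzOnWith Lp ψ (sphere 0 1) →
    (∀ z ∈ sphere (0 : ℂ) 1, ∀ z' ∈ sphere (0 : ℂ) 1, ψ z' - ψ z ≤ M) → M ≤ c * H →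
    Measurable lam₁ → Measurable lam₂ → (∀ p, 0 ≤ τ p) → (∀ p, 0 ≤ s p) →
    Jump K ψ lam₁ lam₂ τ s H h →
    LipC K (fun w => lam₁ w + M * lam₂ w + (Col h).indicator (fun _ => (Lp : ℝ≥0∞) + 1) w + c)
      (fun p => τ p + M * s p) (sphere 0 1) ψ

/-- Energy from an upper gradient. -/
def S_ien : Prop :=
  ∀ (U : Set ℂ) (θ : ℂ → ℝ) (lam : ℂ → ℝ≥0∞), IsOpen U → Measurable lam →
    (∀ (z e : ℂ) (t : ℝ), e = 1 ∨ e = I → 0 ≤ t → segment ℝ z (z + t * e) ⊆ U →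
      ENNReal.ofReal |θ (z + t * e) - θ z| ≤ ∫⁻ s in Icc (0 : ℝ) t, lam (z + s * e)) →
    ∫⁻ z in U, ‖gr θ z‖ₑ ^ 2 ≤ 2 * ∫⁻ z in U, lam z ^ 2

/-- Gluing along the circle. -/
def S_iglue : Prop :=
  ∀ (K : Set ℂ) (R : ℝ) (ψ θ : ℂ → ℝ) (lam : ℂ → ℝ≥0∞) (s : Cmp K → ℝ), IsCompact K →
    K ⊆ ball 0 1 → ContDiffOn ℝ 1 ψ (ball 0 R \ K) →
    (∀ C, IsCompact C → C ⊆ closedBall 0 1 \ K → ∃ M : ℝ≥0, ∀ z ∈ C, lam z ≤ M) →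
    EqOn θ ψ (sphere 0 1) → LipC K lam s (closedBall 0 1 \ K) θ →
    (∀ z z' : ℂ, segment ℝ z z' ⊆ closedBall 0 1 \ K →
      ENNReal.ofReal |θ z' - θ z| ≤ ∫⁻ w in segment ℝ z z', lam w ∂μH[1]) ∧
    LocallyLipschitzOn (ball 0 R \ K) fun z => if ‖z‖ ≤ 1 then θ z else ψ z

/-- From the weight to the approximating function. -/
def S_ifin : Prop :=
  ∀ (K : Set ℂ) (R B : ℝ) (ψ : ℂ → ℝ) (lam : ℂ → ℝ≥0∞) (s : Cmp K → ℝ), IsCompact K →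
    K ⊆ ball 0 1 → 1 < R → ContDiffOn ℝ 1 ψ (ball 0 R \ K) →
    IntegrableOn (fun z => ‖gr ψ z‖ ^ 2) (ball 0 R \ K) → Measurable lam →
    (∃ c : ℝ≥0, 0 < c ∧ ∀ z ∈ closedBall (0 : ℂ) 1, (c : ℝ≥0∞) ≤ lam z) →
    (∀ C, IsCompact C → C ⊆ closedBall 0 1 \ K → ∃ M : ℝ≥0, ∀ z ∈ C, lam z ≤ M) → Sq s →
    LipC K lam s (sphere 0 1) ψ → 0 ≤ B → ∫⁻ z in ball 0 1 \ K, lam z ^ 2 ≤ ENNReal.ofReal B →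
    ∃ ζ : ℂ → ℝ, LocallyLipschitzOn (ball 0 R \ K) ζ ∧ (∀ z, 1 ≤ ‖z‖ → ζ z = ψ z) ∧
      IntegrableOn (fun z => ‖gr ζ z‖ ^ 2) (ball 0 R \ K) ∧
      en (ball 0 R \ K) ζ ≤ 2 * B + en (ball 0 R \ K) ψ ∧ ∀ p : Cmp K, Osc K p.1 ζ (s p)

end Vale.Agent.P116
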