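import Vale.Agent.P116.KoBase

open Set Filter Topology MeasureTheory Metric Complex
open scoped ENNReal ComplexConjugate Real

noncomputable section
namespace Vale.Agent.P116

namespace KoArea

theorem int_dz (hIbp : S_Ibp) {W : ℂ → ℂ} (h : ContDiff ℝ 1 W) (hs : HasCompactSupport W) :
    ∫ z, dz W z = 0 := by
  have hi : ∀ v, Integrable fun z => fderiv ℝ W z v := fun v =>
    ((h.continuous_fderiv one_ne_zero).clm_apply continuous_const).integrable_of_hasCompactSupport
      (hs.fderiv_apply ℝ v)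
  simp only [dz]
  rw [integral_div, integral_sub (hi 1) ((hi I).const_mul I), integral_const_mul,
    hIbp.1 W 1 h hs, hIbp.1 W I h hs]
  simp

theorem far {f : ℂ → ℂ} (h : Tendsto (fun z => f z - z) (cocompact ℂ) (𝓝 0)) {E : Type}
    [Zero E] {g : ℂ → E} (hg : HasCompactSupport g) : ∀ᶠ z in cocompact ℂ, g (f z) = 0 := by
  have h1 : Tendsto f (cocompact ℂ) (cocompact ℂ) := by
    nth_rewrite 2 [← cobounded_eq_cocompact]
    rw [← tendsto_norm_atTop_iff_cobounded]
    refine tendsto_atTop_mono (fun z => ?_)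
      (Tendsto.atTop_add tendsto_norm_cocompact_atTop h.norm.neg)
    have := norm_sub_norm_le z (f z)
    rw [norm_sub_rev] at this
    linarith
  filter_upwards [h1 hg.compl_mem_cocompact] with z hz using image_eq_zero_of_notMem_tsupport hz

theorem memLp_conj {μ : Measure ℂ} {g : ℂ → ℂ} (h : MemLp g 2 μ) : MemLp (fun z => conj (g z)) 2 μ :=
  h.of_le (continuous_conj.comp_aestronglyMeasurable h.1) (.of_forall fun z => by simp)

theorem dz_conj (z : ℂ) : dz (fun w => conj w) z = 0 := by
  rw [← conj_db (fun w => w), db_of_hasDerivAt (hasDerivAt_id' z), map_zero]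

theorem db_conj (z : ℂ) : db (fun w => conj w) z = 1 := by
  rw [← conj_dz (fun w => w), dz_of_hasDerivAt (hasDerivAt_id' z), map_one]

end KoArea

open KoArea in
theorem area_pf (hIbp : S_Ibp) (hOrth : S_Orth) : S_Area := by
  intro K R R' χ κ f hK hKR hχ hκ hf hinf hint hnear
  have hG : IsOpen Kᶜ := hK.isClosed.isOpen_compl
  have mG := hG.measurableSet
  have one : (1 : WithTop ℕ∞) ≤ (⊤ : ℕ∞) := by exact_mod_cast le_top
  have hd : ∀ z ∈ Kᶜ, HasDerivAt f (deriv f z) z := fun z hz =>
    (hf.differentiableAt (hG.mem_nhds hz)).hasDerivAt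
  have hd' : ∀ z ∈ Kᶜ, DifferentiableAt ℝ f z := fun z hz =>
    (hd z hz).differentiableAt.restrictScalars ℝ
  have cf : ContDiffOn ℝ 1 f Kᶜ := (hf.contDiffOn hG).restrict_scalars ℝ
  have cη := hκ.contDiff.of_le one
  have cχ := (contDiff_ofReal hχ.1).of_le one
  have cp := hχ.contDiff.of_le one
  have dη := cη.differentiable one_ne_zero
  have dχ := cχ.differentiable one_ne_zero
  have dp := cp.differentiable one_ne_zero
  have hu : DifferentiableOn ℂ (fun z => deriv f z - 1) Kᶜ := (hf.deriv hG).sub_const 1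
  have mu := hu.continuousOn.aestronglyMeasurable (μ := volume) mG
  have Lu := memLp_of_sq mu hint
  have Lp : ∀ q, MemLp (ph χ) q (volume.restrict Kᶜ) := fun q =>
    (hχ.continuous_ph.memLp_of_hasCompactSupport hχ.supp_ph).restrict _
  have near : ∀ᶠ z in 𝓝ˢ K, z ∉ K → f z * κ (f z) = f z ∧ χ z = 1 := by
    filter_upwards [hnear, isOpen_ball.mem_nhdsSet.2 hKR] with z h1 h2 hz
    exact ⟨by simp [hκ.2.2 _ (mem_ball_zero_iff.2 (h1 hz))], hχ.2.2 z h2⟩
  have f1 := far hinf hκ.2.1
  have f2 : ∀ᶠ z in cocompact ℂ, χ z = 0 := far (f := fun z => z) (by simp) hχ.2.1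
  -- the function `ph κ ∘ f`
  obtain ⟨C, hC⟩ := hκ.continuous_ph.bounded_above_of_compact_support hκ.supp_ph
  have mφ : AEStronglyMeasurable (fun z => ph κ (f z)) (volume.restrict Kᶜ) :=
    (hκ.continuous_ph.comp_continuousOn hf.continuousOn).aestronglyMeasurable mG
  have Lφ : ∀ q, MemLp (fun z => ph κ (f z)) q (volume.restrict Kᶜ) := fun q => by
    obtain ⟨B, hB, h⟩ := mem_cocompact.1 (far hinf hκ.supp_ph)
    refine (memLp_indicator_const q hB.measurableSet C (Or.inr ?_)).of_le mφ (.of_forall fun z => ?_)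
    · exact ((Measure.restrict_apply_le _ _).trans_lt hB.measure_lt_top).ne
    · by_cases hz : z ∈ B
      · rw [indicator_of_mem hz]; exact (hC _).trans (le_abs_self C)
      · rw [show ph κ (f z) = 0 from h hz, norm_zero]; exact norm_nonneg _
  have eA : (fun z => ph κ (f z) * deriv f z) =
      fun z => ph κ (f z) + ph κ (f z) * (deriv f z - 1) := funext fun z => by ring
  have LA : MemLp (fun z => ph κ (f z) * deriv f z) 2 (volume.restrict Kᶜ) :=
    eA ▸ (Lφ 2).add (Lu.of_le_mul (c := C) (mφ.mul mu) (.of_forall fun z => by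
      rw [norm_mul]; exact mul_le_mul_of_nonneg_right (hC _) (norm_nonneg _)))
  have IA : Integrable (fun z => ph κ (f z) * deriv f z) (volume.restrict Kᶜ) :=
    eA ▸ (memLp_one_iff_integrable.1 (Lφ 1)).add ((Lφ 2).integrable_mul Lu)
  have Ip := memLp_one_iff_integrable.1 (Lp 1)
  have Iup : Integrable (fun z => (deriv f z - 1) * conj (ph χ z)) (volume.restrict Kᶜ) :=
    Lu.integrable_mul (memLp_conj (Lp 2))
  have Iuu : Integrable (fun z => (deriv f z - 1) * conj (deriv f z - 1)) (volume.restrict Kᶜ) :=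
    Lu.integrable_mul (memLp_conj Lu)
  have IuA : Integrable (fun z => (deriv f z - 1) * conj (ph κ (f z) * deriv f z))
      (volume.restrict Kᶜ) := Lu.integrable_mul (memLp_conj LA)
  have dA : ∀ z ∈ Kᶜ, dz (fun w => f w * κ (f w)) z = ph κ (f z) * deriv f z := fun z hz =>
    dz_comp (η := fun w => w * (κ w : ℂ)) (dη _) (hd z hz)
  have dE : ∀ z ∈ Kᶜ, DifferentiableAt ℝ (fun w => f w * (κ (f w) : ℂ)) z := fun z hz =>
    (dη (f z)).comp z (hd' z hz)
  have cE : ContDiffOn ℝ 1 (fun w => f w * (κ (f w) : ℂ)) Kᶜ := cη.comp_contDiffOn cf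
  -- orthogonality
  have dk : ∀ z ∈ Kᶜ, dz (fun w => f w * κ (f w) - (f w - w) - w * χ w) z =
      ph κ (f z) * deriv f z - (deriv f z - 1) - ph χ z := fun z hz => by
    have h1 := (hd' z hz).fun_sub differentiableAt_fun_id
    rw [dz_sub ((dE z hz).fun_sub h1) (dp z), dz_sub (dE z hz) h1, dA z hz,
      dz_of_hasDerivAt ((hd z hz).fun_sub (hasDerivAt_id' z))]
    rfl
  have a1 := hOrth K _ (fun w => f w * κ (f w) - (f w - w) - w * χ w) hK hu hint
    ((cE.sub (cf.sub contDiffOn_id)).sub cp.contDiffOn)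
    (near.mono fun z h hz => by rw [(h hz).1, (h hz).2]; simp)
    (by
      refine Tendsto.congr' ?_ (by simpa using hinf.neg)
      filter_upwards [f1, f2] with z h1 h2
      simp [h1, h2])
    (((memLp_two_iff_integrable_sq_norm ((LA.sub Lu).sub (Lp 2)).1).1
      ((LA.sub Lu).sub (Lp 2))).congr ((ae_restrict_mem mG).mono fun z hz => by
        simp only [dk z hz, Pi.sub_apply]))
  rw [setIntegral_congr_fun mG (g := fun z => (deriv f z - 1) * conj (ph κ (f z) * deriv f z) -
    (deriv f z - 1) * conj (deriv f z - 1) - (deriv f z - 1) * conj (ph χ z))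
    (fun z hz => by simp only [dk z hz, map_sub (starRingEnd ℂ) _ (ph χ z),
      map_sub (starRingEnd ℂ) _ (deriv f z - 1)]; ring),
    integral_sub (IuA.sub' Iuu) Iup, integral_sub IuA Iuu] at a1
  simp only [mul_conj', ← ofReal_pow, integral_complex_ofReal] at a1
  -- the integral of `ph χ`
  have a2 : ∫ z in Kᶜ, ph χ z = -volume.real K := by
    have h1 := integral_add_compl hK.measurableSet
      (hχ.continuous_ph.integrable_of_hasCompactSupport (μ := volume) hχ.supp_ph)
    rw [setIntegral_congr_fun hK.measurableSet (g := fun _ => 1) fun z hz => hχ.ph_eq_one (hKR hz),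
      show ∫ z, ph χ z = 0 from int_dz hIbp cp hχ.supp] at h1
    simp only [integral_const, measureReal_restrict_apply_univ, real_smul, mul_one] at h1
    linear_combination h1
  -- the bracket
  have z0 : ∀ z ∉ tsupport χ \ ball 0 R, fderiv ℝ (fun w => (χ w : ℂ)) z = 0 := fun z hz => by
    by_cases h : z ∈ ball (0 : ℂ) R
    · refine (Filter.EventuallyEq.fderiv_eq (f := fun _ => 1) ?_).trans (fderiv_const_apply _)
      filter_upwards [isOpen_ball.mem_nhds h] with w hw using by simp [hχ.2.2 w hw]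
    · refine (Filter.EventuallyEq.fderiv_eq (f := fun _ => 0) ?_).trans (fderiv_const_apply _)
      filter_upwards [notMem_tsupport_iff_eventuallyEq.1 fun h' => hz ⟨h', h⟩] with w hw
        using by simp [hw]
  obtain ⟨Ib, a3⟩ := hIbp.2 Kᶜ _ (fun w => (f w - w) * conj w) (fun w => (χ w : ℂ)) hG
    (IsCompact.diff hχ.2.1 isOpen_ball) (fun z hz h => hz.2 (hKR h))
    ((cf.sub contDiffOn_id).mul conjCLE.contDiff.contDiffOn)
    ((contDiff_ofReal hχ.1).of_le (WithTop.coe_le_coe.2 (le_top (a := 2)))) z0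
  rw [← setIntegral_eq_integral_of_forall_compl_eq_zero (s := Kᶜ) fun z hz => by
    simp [br, z0 z fun h => h.2 (hKR (not_not.1 hz))]] at a3
  -- the compactly supported difference
  have e1 : ∀ z ∈ Kᶜ, Kᶜ.indicator (fun w => f w * κ (f w) - χ w * f w) =ᶠ[𝓝 z]
      fun w => f w * κ (f w) - χ w * f w := fun z hz =>
    (hG.eventually_mem hz).mono fun w hw => indicator_of_mem hw _
  have e2 : ∀ z ∉ Kᶜ, Kᶜ.indicator (fun w => f w * κ (f w) - χ w * f w) =ᶠ[𝓝 z] fun _ => 0 :=
    fun z hz => (near.filter_mono (nhds_le_nhdsSet (not_not.1 hz))).mono fun w h =>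
      indicator_apply_eq_zero.2 fun hw => by rw [(h hw).1, (h hw).2]; simp
  have a4 := int_dz hIbp (W := Kᶜ.indicator fun w => f w * κ (f w) - χ w * f w)
    (contDiff_iff_contDiffAt.2 fun z => by
      by_cases hz : z ∈ Kᶜ
      · exact ((cE.sub (cχ.contDiffOn.mul cf)).contDiffAt (hG.mem_nhds hz)).congr_of_eventuallyEq
          (e1 z hz)
      · exact contDiffAt_const.congr_of_eventuallyEq (e2 z hz))
    (by
      obtain ⟨B, hB, h⟩ := mem_cocompact.1 (f1.and f2)
      exact .intro hB fun z hz => indicator_apply_eq_zero.2 fun _ => by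
        simp [(h hz).1, (h hz).2])
  rw [← setIntegral_eq_integral_of_forall_compl_eq_zero (s := Kᶜ) fun z hz => by
    rw [dz_congr (e2 z hz), dz_of_hasDerivAt (hasDerivAt_const z 0)],
    setIntegral_congr_fun mG (g := fun z => ph κ (f z) * deriv f z - ph χ z -
      (deriv f z - 1) * conj (ph χ z) + I / 2 * br (fun w => (f w - w) * conj w)
        (fun w => (χ w : ℂ)) z) (fun z hz => by
      have h1 := (hd z hz).fun_sub (hasDerivAt_id' z)
      have h2 := h1.differentiableAt.restrictScalars ℝ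
      have h3 : DifferentiableAt ℝ (fun w : ℂ => conj w) z := conjCLE.differentiableAt
      simp only
      rw [dz_congr (e1 z hz), dz_sub (dE z hz) ((dχ z).fun_mul (hd' z hz)), dA z hz,
        dz_mul (dχ z) (hd' z hz), dz_of_hasDerivAt (hd z hz), ← br_eq, dz_mul h2 h3, db_mul h2 h3,
        dz_conj, db_conj, dz_of_hasDerivAt h1, db_of_hasDerivAt h1, hχ.ph_eq, map_add, map_mul,
        conj_dz_real, conj_ofReal]
      ring),
    integral_add ((IA.sub' Ip).sub' Iup) (Ib.integrableOn.const_mul _),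
    integral_sub (IA.sub' Ip) Iup,
    integral_sub IA Ip, integral_const_mul, a3, a2] at a4
  have IuA' : Integrable (fun z => conj ((deriv f z - 1) * conj (ph κ (f z) * deriv f z)))
      (volume.restrict Kᶜ) := conjCLE.integrable_comp_iff.2 IuA
  rw [integral_congr_ae (g := fun z => ph κ (f z) * deriv f z +
    conj ((deriv f z - 1) * conj (ph κ (f z) * deriv f z))) (.of_forall fun z => by
      simp only [ofReal_pow, ← mul_conj', map_mul, map_sub, map_one, conj_conj]; ring),
    integral_add IA IuA', integral_conj, add_re, conj_re]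
  have b1 := congrArg re a1
  have b4 := congrArg re a4
  simp only [sub_re, add_re, neg_re, ofReal_re, zero_re, mul_zero] at b1 b4
  linarith

end Vale.Agent.P116
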