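import Vale.Agent.P116.KoBase

open Set Filter Topology MeasureTheory Metric Complex
open scoped ENNReal ComplexConjugate Real

noncomputable section
namespace Vale.Agent.P116

namespace KoArg

theorem per {h : ℝ → ℂ} (hp : Function.Periodic h (2 * π)) {a b : ℝ}
    (e : (a : Real.Angle) = b) : h a = h b := by
  obtain ⟨k, hk⟩ := Real.Angle.angle_eq_iff_two_pi_dvd_sub.1 e
  rw [show a = b + k * (2 * π) by linarith]
  exact hp.int_mul k b

theorem per_deriv {h : ℝ → ℂ} (hp : Function.Periodic h (2 * π)) :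
    Function.Periodic (deriv h) (2 * π) := by
  intro x
  rw [← deriv_comp_add_const]
  congr 1
  funext y
  exact hp y

theorem loc0 {c z s : ℂ} (t : ℝ) (hs : s * (z - c) ∈ slitPlane) :
    ContDiffAt ℝ (⊤ : ℕ∞) (fun x => (log (s * (x - c))).im + t) z ∧
    ∀ v, fderiv ℝ (fun x => (log (s * (x - c))).im + t) z v = (v / (z - c)).im := by
  have h0 := slitPlane_ne_zero hs
  have h1 : ContDiffAt ℂ (⊤ : ℕ∞) (fun x => log (s * (x - c))) z :=
    ContDiffAt.comp (f := fun x => s * (x - c)) z (Complex.contDiffAt_log hs) (by fun_prop)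
  have h2 : HasDerivAt (fun x => log (s * (x - c))) (s * 1 / (s * (z - c))) z :=
    (((hasDerivAt_id z).sub_const c).const_mul s).clog hs
  refine ⟨(imCLM.contDiff.contDiffAt.comp z (h1.restrict_scalars ℝ)).add contDiffAt_const,
    fun v => ?_⟩
  have h3 : HasFDerivAt (fun x => (log (s * (x - c))).im + t) _ z :=
    (imCLM.hasFDerivAt.comp z (h2.hasFDerivAt.restrictScalars ℝ)).add_const t
  rw [h3.fderiv]
  have h4 : v * (s * 1 / (s * (z - c))) = v / (z - c) := by
    have := left_ne_zero_of_mul h0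
    have := right_ne_zero_of_mul h0
    field_simp
  rw [← h4]
  simp

theorem loc {c z : ℂ} (hz : z ≠ c) : ∃ A : ℂ → ℝ, ContDiffAt ℝ (⊤ : ℕ∞) A z ∧
    (∀ v, fderiv ℝ A z v = (v / (z - c)).im) ∧ ∀ x, x ≠ c → (arg (x - c) : Real.Angle) = A x := by
  rcases mem_slitPlane_or_neg_mem_slitPlane (sub_ne_zero.2 hz) with h | h
  · obtain ⟨h1, h2⟩ := loc0 (s := 1) 0 (by rwa [one_mul])
    exact ⟨_, h1, h2, fun x _ => by rw [one_mul, log_im, add_zero]⟩
  · obtain ⟨h1, h2⟩ := loc0 (s := -1) π (by rwa [neg_one_mul])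
    refine ⟨_, h1, h2, fun x hx => ?_⟩
    rw [neg_one_mul, log_im, Real.Angle.coe_add, arg_neg_coe_angle (sub_ne_zero.2 hx), add_assoc,
      Real.Angle.coe_pi_add_coe_pi, add_zero]

end KoArg

open KoArg in
theorem arg_pf : S_Arg := by
  intro h c hh hp
  have key : ∀ z, z ≠ c → ∃ A : ℂ → ℝ, ContDiffAt ℝ (⊤ : ℕ∞) A z ∧
      (∀ v, fderiv ℝ A z v = (v / (z - c)).im) ∧ (arg (z - c) : Real.Angle) = A z ∧
      (fun z => h (arg (z - c))) =ᶠ[𝓝 z] h ∘ A := by
    intro z hz
    obtain ⟨A, h1, h2, h3⟩ := loc hz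
    refine ⟨A, h1, h2, h3 z hz, ?_⟩
    filter_upwards [isOpen_compl_singleton.mem_nhds hz] with x hx
    exact per hp (h3 x hx)
  refine ⟨fun z hz => ?_, fun z hz v => ?_, fun ρ θ hρ => per hp ?_⟩
  · obtain ⟨A, h1, -, -, h4⟩ := key z hz
    exact ((hh.contDiffAt.comp z h1).congr_of_eventuallyEq h4).contDiffWithinAt
  · obtain ⟨A, h1, h2, h3, h4⟩ := key z hz
    have h5 : HasDerivAt h (deriv h (A z)) (A z) := (hh.differentiable (by simp) _).hasDerivAt
    rw [h4.fderiv_eq, (h5.hasFDerivAt.comp z (h1.differentiableAt (by simp)).hasFDerivAt).fderiv,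
      per (per_deriv hp) h3, ContinuousLinearMap.comp_apply, h2]
    simp [mul_comm]
  · have := arg_mul_cos_add_sin_mul_I_coe_angle hρ (θ : Real.Angle)
    rw [Real.Angle.cos_coe, Real.Angle.sin_coe] at this
    rw [circleMap_sub_center, circleMap_zero, exp_mul_I, ← ofReal_cos, ← ofReal_sin, this]

end Vale.Agent.P116
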