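import Vale.Agent.P116.KoBase

open Set Filter Topology MeasureTheory Metric Complex
open scoped ENNReal ComplexConjugate Real

noncomputable section
namespace Vale.Agent.P116

namespace KoAsm

theorem sq_inj {a b s a' b' s' : ℝ} (hs : 0 ≤ s) (hs' : 0 ≤ s') (h : sq a b s = sq a' b' s') :
    (a, b, s) = (a', b', s') := by
  have h1 : (⟨a, b⟩ : ℂ) ∈ sq a' b' s' := h ▸ ⟨le_rfl, by simpa, le_rfl, by simpa⟩
  have h2 : (⟨a', b'⟩ : ℂ) ∈ sq a b s := h ▸ ⟨le_rfl, by simpa, le_rfl, by simpa⟩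
  have h3 : (⟨a + s, b⟩ : ℂ) ∈ sq a' b' s' := h ▸ ⟨by simpa, le_rfl, le_rfl, by simpa⟩
  have h4 : (⟨a' + s', b'⟩ : ℂ) ∈ sq a b s := h ▸ ⟨by simpa, le_rfl, le_rfl, by simpa⟩
  have e1 : a = a' := le_antisymm h2.1 h1.1
  have e2 : b = b' := le_antisymm h2.2.2.1 h1.2.2.1
  have e3 : s = s' := by
    have := h3.2.1
    have := h4.2.1
    simp only at *
    linarith
  rw [e1, e2, e3]

theorem sq_zero {a b : ℝ} {x y : ℂ} (hx : x ∈ sq a b 0) (hy : y ∈ sq a b 0) : x = y := by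
  have := norm_sub_le_sq hx hy
  rw [mul_zero, norm_le_zero_iff, sub_eq_zero] at this
  exact this

/-- the nondegenerate squares among the components of `K` -/
def TT (K : Set ℂ) : Type :=
  {q : ℝ × ℝ × ℝ // 0 < q.2.2 ∧ ∃ w ∈ K, connectedComponentIn K w = sq q.1 q.2.1 q.2.2}

def ta {K : Set ℂ} (q : TT K) : ℝ := q.1.1
def tb {K : Set ℂ} (q : TT K) : ℝ := q.1.2.1
def ts {K : Set ℂ} (q : TT K) : ℝ := q.1.2.2

theorem ts_pos {K : Set ℂ} (q : TT K) : 0 < ts q := q.2.1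

theorem comp_eq {K : Set ℂ} (q : TT K) {z : ℂ} (hz : z ∈ sq (ta q) (tb q) (ts q)) :
    connectedComponentIn K z = sq (ta q) (tb q) (ts q) := by
  obtain ⟨w, -, hw⟩ := q.2.2
  have : z ∈ connectedComponentIn K w := hw ▸ hz
  rw [← connectedComponentIn_eq this]
  exact hw

theorem sub_K {K : Set ℂ} (q : TT K) : sq (ta q) (tb q) (ts q) ⊆ K := by
  obtain ⟨w, -, hw⟩ := q.2.2
  exact (hw ▸ connectedComponentIn_subset K w :)

theorem dis {K : Set ℂ} : Pairwise fun i j : TT K =>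
    Disjoint (sq (ta i) (tb i) (ts i)) (sq (ta j) (tb j) (ts j)) := by
  intro i j hij
  refine Set.disjoint_left.2 fun z hi hj => hij (Subtype.ext ?_)
  exact sq_inj (ts_pos i).le (ts_pos j).le ((comp_eq i hi).symm.trans (comp_eq j hj))

theorem KK_sub {K : Set ℂ} (F : Finset (TT K)) :
    KK (ta ∘ (Subtype.val : F → TT K)) (tb ∘ Subtype.val) (ts ∘ Subtype.val) ⊆ K :=
  iUnion_subset fun j => sub_K j.1

theorem cfg (hConn : S_Conn) {K : Set ℂ} (hK : IsCompact K) (hc : IsPreconnected Kᶜ) {R : ℝ}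
    (hR : K ⊆ ball 0 R) (F : Finset (TT K)) :
    Cfg (ta ∘ (Subtype.val : F → TT K)) (tb ∘ Subtype.val) (ts ∘ Subtype.val) R where
  pos j := ts_pos j.1
  dis _ _ hij := dis fun h => hij (Subtype.ext h)
  bdd j := (sub_K j.1).trans hR
  con := hConn K _ hK hc (KK_sub F) fun z hz => by
    obtain ⟨j, hj⟩ := mem_KK.1 hz
    rw [comp_eq j.1 hj]
    exact sq_subset_KK (a := ta ∘ (Subtype.val : F → TT K)) (b := tb ∘ Subtype.val)
      (s := ts ∘ Subtype.val) j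

end KoAsm

open KoAsm in
theorem asm_pf (hFk : S_Fk) (hConn : S_Conn) (hBnd : S_Bnd) (hLim : S_Lim) (hKe : S_Ke)
    (hComp : S_Comp) : SqToDisc := by
  classical
  intro K hK hc hsq
  obtain ⟨R, hR0, hR⟩ := hK.isBounded.subset_ball_lt 0 0
  obtain ⟨C, hC⟩ := hFk R
  have hcfg := cfg hConn hK hc hR
  choose f c r hF hint hle hsum using fun F : Finset (TT K) => hC F _ _ _ (hcfg F)
  obtain ⟨M, hM⟩ := hBnd R C hR0
  have hb := fun F : Finset (TT K) => hM _ (f F) (isCompact_KK _ _ _) (hcfg F).sub (hF F).hol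
    (hF F).inj (hF F).inf (hint F) (hle F)
  have hsub := fun F : Finset (TT K) => compl_subset_compl.2 (KK_sub F)
  let 𝒰 : Ultrafilter (Finset (TT K)) := Ultrafilter.of atTop
  have h𝒰 : (𝒰 : Filter (Finset (TT K))) ≤ atTop := Ultrafilter.of_le _
  obtain ⟨g, hg1, hg2, hg3, hg4, hg5⟩ := hLim _ 𝒰 K f (2 * R) M hK hc (by linarith)
    (hR.trans (ball_subset_ball (by linarith))) (fun F => (hF F).hol.mono (hsub F))
    (fun F => (hF F).inj.mono (hsub F)) (fun F z hz => (hb F).2.1 z (hsub F hz))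
    (fun F => (hb F).1)
  refine ⟨g, hg1, hg2, ⟨0, hg3⟩, hComp K g 0 hK hc hg1 hg2 hg3 fun z hz => ?_⟩
  have hown : ∀ F : Finset (TT K), ∃ p : ℂ × ℝ, Own (ta ∘ (Subtype.val : F → TT K))
      (tb ∘ Subtype.val) (ts ∘ Subtype.val) (f F) (c F) (r F) z p.1 p.2 := fun F => by
    by_cases h : z ∈ KK (ta ∘ (Subtype.val : F → TT K)) (tb ∘ Subtype.val) (ts ∘ Subtype.val)
    · obtain ⟨j, hj⟩ := mem_KK.1 h
      exact ⟨(c F j, r F j), Or.inr ⟨j, hj, rfl, rfl⟩⟩
    · exact ⟨(f F z, 0), Or.inl ⟨h, rfl, rfl⟩⟩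
  choose p hp using hown
  have hmem : ∀ F, p F ∈ closedBall (0 : ℂ) (‖z‖ + |M|) ×ˢ Icc (0 : ℝ) (|C| + 1) := fun F => by
    have hM' := le_abs_self M
    have hC' := le_abs_self C
    have := abs_nonneg C
    rcases hp F with ⟨h1, h2, h3⟩ | ⟨j, h1, h2, h3⟩
    · refine ⟨?_, by rw [h3]; exact ⟨le_rfl, by linarith⟩⟩
      rw [mem_closedBall_zero_iff, h2]
      have := (hb F).2.1 z h1
      linarith [norm_le_insert' (f F z) z]
    · have hn := (hF F).nn j
      refine ⟨?_, by rw [h3]; refine ⟨hn, ?_⟩; nlinarith [(Finset.single_le_sum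
        (fun k _ => sq_nonneg (r F k)) (Finset.mem_univ j)).trans (hsum F)]⟩
      have : c F j ∈ closedBall (0 : ℂ) M := (hb F).2.2 (by
        rw [(hF F).img, compl_compl]
        exact mem_iUnion.2 ⟨j, mem_closedBall_self hn⟩)
      rw [mem_closedBall_zero_iff] at this ⊢
      rw [h2]
      linarith [norm_nonneg z]
  obtain ⟨l, hl, hlim⟩ := ((isCompact_closedBall (0 : ℂ) (‖z‖ + |M|)).prod
    (isCompact_Icc (a := (0 : ℝ)) (b := |C| + 1))).ultrafilter_le_nhds (𝒰.map p)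
    (le_principal_iff.2 (mem_map.2 (Eventually.of_forall hmem)))
  have hl1 : Tendsto (fun F => (p F).1) 𝒰 (𝓝 l.1) := (continuous_fst.tendsto l).comp hlim
  have hl2 : Tendsto (fun F => (p F).2) 𝒰 (𝓝 l.2) := (continuous_snd.tendsto l).comp hlim
  have hQ : ∀ᶠ F : Finset (TT K) in (𝒰 : Filter (Finset (TT K))), ∀ z' ∈ connectedComponentIn K z,
      Own (ta ∘ (Subtype.val : F → TT K)) (tb ∘ Subtype.val) (ts ∘ Subtype.val) (f F) (c F)
        (r F) z' (p F).1 (p F).2 := by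
    obtain ⟨a0, b0, s0, hs0, hq⟩ := hsq z hz
    have hzq : z ∈ sq a0 b0 s0 := hq ▸ mem_connectedComponentIn hz
    rcases hs0.eq_or_lt with rfl | hpos
    · refine Eventually.of_forall fun F z' hz' => ?_
      rw [hq] at hz'
      rw [sq_zero hz' hzq]
      exact hp F
    · let q : TT K := ⟨(a0, b0, s0), hpos, z, hz, hq⟩
      filter_upwards [h𝒰 (eventually_ge_atTop {q})] with F hFq z' hz'
      have hqF : q ∈ F := hFq (Finset.mem_singleton_self q)
      rcases hp F with ⟨h1, -, -⟩ | ⟨j, h1, h2, h3⟩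
      · exact (h1 (mem_KK.2 ⟨⟨q, hqF⟩, hzq⟩)).elim
      · exact Or.inr ⟨j, (comp_eq j.1 h1 ▸ hz' :), h2, h3⟩
  refine ⟨l.1, l.2, hl.2.1, fun ε hε => eventually_nhdsSet_iff_forall.2 fun z' hz' => ?_, ?_⟩
  · obtain ⟨ρ, hρ, h⟩ := hKe (TT K) ta tb ts R C ts_pos dis (fun j => (sub_K j).trans hR) z' ε hε
    filter_upwards [ball_mem_nhds z' hρ] with y hy hyK
    refine le_of_tendsto_of_tendsto ((hg4.tendsto_at hyK).sub hl1).norm (hl2.add_const ε) ?_
    filter_upwards [hQ] with F hF'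
    exact h F Subtype.val (f F) (c F) (r F) (hcfg F) (hF F) (hint F) (hle F) (hsum F) _ _
      (hF' z' hz') y (hsub F hyK) (by rwa [← dist_eq_norm])
  · refine Set.disjoint_left.2 ?_
    rintro _ hw ⟨y, hy, rfl⟩
    obtain ⟨η, hη, h⟩ := hg5 y hy
    have h1 := hl1.eventually (ball_mem_nhds l.1 (half_pos hη))
    have h2 := hl2.eventually (ball_mem_nhds l.2 (half_pos hη))
    obtain ⟨F, hF1, hF2, hF3⟩ := (h.and (h1.and h2)).exists
    have hnd : ¬ Disjoint (closedBall (p F).1 (p F).2) (ball (g y) η) := by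
      rw [disjoint_closedBall_ball_iff (hmem F).2.1 hη, not_le]
      rw [Real.dist_eq, abs_lt] at hF3
      rw [mem_closedBall] at hw
      linarith [dist_triangle_right (p F).1 (g y) l.1, hF3.1]
    obtain ⟨x, hx1, hx2⟩ := not_disjoint_iff.1 hnd
    obtain ⟨y', hy', rfl⟩ := hF1 hx2
    rcases hp F with ⟨k1, k2, k3⟩ | ⟨j, -, k2, k3⟩
    · rw [k2, k3, closedBall_zero, mem_singleton_iff] at hx1
      exact hy' ((hF F).inj (hsub F hy') k1 hx1 ▸ hz)
    · have : f F y' ∈ (⋃ j, closedBall (c F j) (r F j))ᶜ :=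
        (hF F).img ▸ mem_image_of_mem _ (hsub F hy')
      exact this (mem_iUnion.2 ⟨j, k2 ▸ k3 ▸ hx1⟩)

end Vale.Agent.P116
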