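import Vale.Agent.P116.KoBase

open Set Filter Topology MeasureTheory Metric Complex
open scoped ENNReal ComplexConjugate Real

noncomputable section
namespace Vale.Agent.P116

namespace KoBlk

theorem vol_ann (z : ℂ) {ρ : ℝ} (hρ : 0 < ρ) (G : Set ℂ) :
    volume (ann z ρ ∩ G) ≤ ENNReal.ofReal ((4 * ρ) ^ 2) := by
  have h : ann z ρ ∩ G ⊆ closedBall z (2 * ρ) := fun w hw => mem_closedBall_iff_norm.2 hw.1.2
  refine (measure_mono h).trans ?_
  rw [Complex.volume_closedBall, ← ENNReal.ofReal_pow (by positivity), ← ENNReal.ofReal_coe_nnreal,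
    ← ENNReal.ofReal_mul (by positivity)]
  refine ENNReal.ofReal_le_ofReal ?_
  rw [NNReal.coe_real_pi]
  nlinarith [Real.pi_le_four, sq_nonneg ρ]

/-- the area term -/
theorem area {G : Set ℂ} (hG : MeasurableSet G) {g : ℂ → ℂ} (hg : Measurable g) (z : ℂ) {ρ : ℝ}
    (hρ : 0 < ρ) (hi : IntegrableOn (fun w => ‖g w - 1‖ ^ 2) G) :
    ∫⁻ w in ann z ρ, G.indicator (fun w => ‖g w‖ₑ) w ≤
      ENNReal.ofReal ((4 * ρ) ^ 2 + 4 * ρ * √(∫ w in ann z ρ ∩ G, ‖g w - 1‖ ^ 2)) := by
  have hv := vol_ann z hρ G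
  have hf : volume (ann z ρ ∩ G) ≠ ⊤ := ne_top_of_le_ne_top ENNReal.ofReal_ne_top hv
  obtain ⟨h1, h2⟩ := cs_set (g := fun w => g w - 1) hf
    (hg.sub_const 1).aestronglyMeasurable (hi.mono_set inter_subset_right)
  have h3 : √(volume.real (ann z ρ ∩ G)) ≤ 4 * ρ := by
    refine Real.sqrt_le_iff.2 ⟨by positivity, ?_⟩
    exact ENNReal.toReal_le_of_le_ofReal (by positivity) hv
  rw [lintegral_indicator hG, Measure.restrict_restrict hG, inter_comm,
    ENNReal.ofReal_add (by positivity) (by positivity)]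
  calc ∫⁻ w in ann z ρ ∩ G, ‖g w‖ₑ ≤ ∫⁻ w in ann z ρ ∩ G, (1 + ‖g w - 1‖ₑ) := by
        refine lintegral_mono fun w => ?_
        have := enorm_add_le (1 : ℂ) (g w - 1)
        rwa [add_sub_cancel, enorm_one] at this
    _ = volume (ann z ρ ∩ G) + ENNReal.ofReal (∫ w in ann z ρ ∩ G, ‖g w - 1‖) := by
        rw [lintegral_add_left measurable_const, setLIntegral_one,
          ofReal_integral_norm_eq_lintegral_enorm h1]
    _ ≤ _ := by
        refine add_le_add hv (ENNReal.ofReal_le_ofReal (h2.trans ?_))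
        gcongr

theorem vol_I (d s : ℝ) {ρ : ℝ} (hρ : 0 < ρ) :
    volume (Icc (d - s) (d + s) ∩ Icc ρ (2 * ρ)) ≤ ENNReal.ofReal (2 * min s ρ) := by
  rcases le_total s ρ with h | h
  · refine (measure_mono inter_subset_left).trans ?_
    rw [Real.volume_Icc, min_eq_left h]
    exact ENNReal.ofReal_le_ofReal (by linarith)
  · refine (measure_mono inter_subset_right).trans ?_
    rw [Real.volume_Icc, min_eq_right h]
    exact ENNReal.ofReal_le_ofReal (by linarith)

end KoBlk

open KoBlk in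
theorem blk_pf (hLen : S_Len) (hPack : S_Pack) (hPolL : S_PolL) : S_Blk := by
  classical
  refine ⟨40, by norm_num, fun ι _ a b s R f c r hc hf hi z c0 r0 ρ J ho hρ hJ y hy hyz => ?_⟩
  have hG := (isOpen_G a b s).measurableSet
  set J' := J.filter fun j => (sq (a j) (b j) (s j) ∩ closedBall z (2 * ρ)).Nonempty with hJ'
  set I : ι → Set ℝ := fun j =>
    Icc (‖cen (a j) (b j) (s j) - z‖ - s j) (‖cen (a j) (b j) (s j) - z‖ + s j) with hI
  have hm : Measurable ((KK a b s)ᶜ.indicator fun w => ‖deriv f w‖ₑ) :=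
    (measurable_deriv f).enorm.indicator hG
  obtain ⟨p1, p2⟩ := hPolL _ z ρ hm hρ
  have key : ∀ t ∈ Icc ρ (2 * ρ), ENNReal.ofReal (‖f y - c0‖ - r0) ≤ arcLen f (KK a b s)ᶜ z t +
      ∑ j ∈ J', (I j).indicator (fun _ => ENNReal.ofReal (2 * r j)) t := by
    intro t ht
    have := hLen ι a b s R f c r hc hf z c0 r0 t (J'.filter fun j => t ∈ I j) ho
      (hρ.trans_le ht.1) ?_ y hy (hyz.trans ht.1)
    · rw [Finset.sum_filter] at this
      simpa only [indicator_apply] using this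
    · rintro j hz ⟨w, hw, hw'⟩
      rw [mem_sphere_iff_norm] at hw'
      have h1 := mem_closedBall_iff_norm.1 (sq_subset_closedBall _ _ _ hw)
      have h2 := abs_norm_sub_norm_le (w - z) (cen (a j) (b j) (s j) - z)
      rw [sub_sub_sub_cancel_right, hw', abs_le] at h2
      refine Finset.mem_filter.2 ⟨Finset.mem_filter.2 ⟨hJ j hz ⟨w, hw, ?_, ?_⟩, w, hw, ?_⟩, ?_, ?_⟩
      · exact hw' ▸ ht.1
      · exact hw' ▸ ht.2
      · exact mem_closedBall_iff_norm.2 (hw' ▸ ht.2)
      · linarith [h2.1]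
      · linarith [h2.2]
  have h1 := setLIntegral_mono' (μ := volume) measurableSet_Icc key
  have h2 : ∑ j ∈ J', r j * min (s j) ρ ≤ √(∑ j ∈ J, r j ^ 2) * (8 * ρ) := by
    refine (Real.sum_mul_le_sqrt_mul_sqrt _ _ _).trans ?_
    have := hPack ι a b s R hc z ρ J' hρ fun j hj => (Finset.mem_filter.1 hj).2
    refine mul_le_mul (Real.sqrt_le_sqrt ?_) (Real.sqrt_le_iff.2 ⟨by positivity, ?_⟩)
      (Real.sqrt_nonneg _) (Real.sqrt_nonneg _)
    · exact Finset.sum_le_sum_of_subset_of_nonneg (Finset.filter_subset _ _)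
        fun _ _ _ => sq_nonneg _
    · nlinarith [Real.pi_le_four, sq_nonneg ρ]
  have h3 : ∫⁻ t in Icc ρ (2 * ρ), ∑ j ∈ J', (I j).indicator
      (fun _ => ENNReal.ofReal (2 * r j)) t ≤
      ENNReal.ofReal (4 * (√(∑ j ∈ J, r j ^ 2) * (8 * ρ))) := by
    rw [lintegral_finsetSum _ fun j _ => measurable_const.indicator measurableSet_Icc]
    calc _ ≤ ∑ j ∈ J', ENNReal.ofReal (4 * (r j * min (s j) ρ)) := by
          refine Finset.sum_le_sum fun j _ => ?_
          rw [lintegral_indicator_const measurableSet_Icc,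
            Measure.restrict_apply measurableSet_Icc]
          refine (mul_le_mul_right (vol_I _ _ hρ) _).trans ?_
          rw [← ENNReal.ofReal_mul (by linarith [hf.nn j])]
          exact ENNReal.ofReal_le_ofReal (le_of_eq (by ring))
      _ ≤ _ := by
          rw [← ENNReal.ofReal_sum_of_nonneg fun j _ => by
            have := hf.nn j
            have := lt_min (hc.pos j) hρ
            positivity, ← Finset.mul_sum]
          exact ENNReal.ofReal_le_ofReal (by linarith)
  unfold arcLen at h1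
  rw [lintegral_add_left p1, p2, setLIntegral_const, Real.volume_Icc, mul_comm,
    ← ENNReal.ofReal_mul (by linarith)] at h1
  have h4 := h1.trans (add_le_add (area hG (measurable_deriv f) z hρ hi) h3)
  rw [← ENNReal.ofReal_add (by positivity) (by positivity),
    ENNReal.ofReal_le_ofReal_iff (by positivity)] at h4
  have e1 := Real.sqrt_nonneg (∑ j ∈ J, r j ^ 2)
  have e2 := Real.sqrt_nonneg (∫ w in ann z ρ ∩ (KK a b s)ᶜ, ‖deriv f w - 1‖ ^ 2)
  refine le_of_mul_le_mul_left ?_ hρ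
  nlinarith [mul_nonneg hρ.le e1, mul_nonneg hρ.le e2, sq_nonneg ρ]

end Vale.Agent.P116
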