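import Vale.Agent.P116.KoBase

open Set Filter Topology MeasureTheory Metric Complex
open scoped ENNReal ComplexConjugate Real

noncomputable section
namespace Vale.Agent.P116

namespace KoBnd

variable {R C : ℝ} {K : Set ℂ} {f : ℂ → ℂ}

theorem out (hK : K ⊆ ball 0 R) {z : ℂ} (hz : R ≤ ‖z‖) : z ∈ Kᶜ := fun h => by
  have := mem_ball_zero_iff.1 (hK h)
  linarith

theorem der (hMv : S_Mv) (hR : 0 < R) (hc : IsCompact K) (hK : K ⊆ ball 0 R)
    (hf : DifferentiableOn ℂ f Kᶜ) (hi : IntegrableOn (fun z => ‖deriv f z - 1‖ ^ 2) Kᶜ)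
    (hC : (∫ z in Kᶜ, ‖deriv f z - 1‖ ^ 2) ≤ C) {z : ℂ} (hz : 2 * R ≤ ‖z‖) :
    ‖deriv f z - 1‖ * ‖z‖ ≤ 2 * (|C| + 1) := by
  have hs : ball z (‖z‖ / 2) ⊆ Kᶜ := fun w hw => out hK (by
    have h1 := mem_ball_iff_norm.1 hw
    have h2 := norm_sub_norm_le z w
    rw [norm_sub_rev] at h2
    linarith)
  have hd : DifferentiableOn ℂ (fun w => deriv f w - 1) Kᶜ :=
    (hf.deriv hc.isClosed.isOpen_compl).sub_const 1
  have h1 := hMv _ z (‖z‖ / 2) (by linarith) (hd.mono hs) (hi.mono_set hs)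
  have h2 : ∫ w in ball z (‖z‖ / 2), ‖deriv f w - 1‖ ^ 2 ≤ ∫ w in Kᶜ, ‖deriv f w - 1‖ ^ 2 :=
    setIntegral_mono_set hi (Eventually.of_forall fun _ => sq_nonneg _) hs.eventuallyLE
  have h3 : 1 * ((‖z‖ / 2) ^ 2 * ‖deriv f z - 1‖ ^ 2) ≤
      π * ((‖z‖ / 2) ^ 2 * ‖deriv f z - 1‖ ^ 2) :=
    mul_le_mul_of_nonneg_right (by linarith [Real.pi_gt_three]) (by positivity)
  refine (pow_le_pow_iff_left₀ (by positivity) (by positivity) two_ne_zero).1 ?_
  nlinarith [le_abs_self C, abs_nonneg C]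

theorem far (hR : 0 < R) (hK : K ⊆ ball 0 R) (hc : IsCompact K) (hf : DifferentiableOn ℂ f Kᶜ)
    (ht : Tendsto (fun z => f z - z) (cocompact ℂ) (𝓝 0)) {A : ℝ}
    (hA : ∀ z, 2 * R ≤ ‖z‖ → ‖deriv f z - 1‖ * ‖z‖ ≤ A) {z : ℂ} (hz : 2 * R ≤ ‖z‖) :
    ‖f z - z‖ ≤ 2 * R * A / ‖z‖ := by
  set κ : ℂ → ℂ := Function.update (fun w => f w⁻¹ - w⁻¹) 0 0 with hκ
  have hd : ∀ w : ℂ, w ≠ 0 → ‖w‖ ≤ R⁻¹ →
      HasDerivAt κ ((deriv f w⁻¹ - 1) * -(w ^ 2)⁻¹) w := by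
    intro w h0 h1
    have h2 : w⁻¹ ∈ Kᶜ := out hK (by
      rw [norm_inv]
      exact le_inv_of_le_inv₀ (norm_pos_iff.2 h0) h1)
    have h3 := ((hf.differentiableAt (hc.isClosed.isOpen_compl.mem_nhds h2)).hasDerivAt.sub
      (hasDerivAt_id w⁻¹)).comp w (hasDerivAt_inv h0)
    refine h3.congr_of_eventuallyEq ?_
    filter_upwards [isOpen_ne.mem_nhds h0] with v hv
    rw [hκ, Function.update_of_ne hv]
    rfl
  have hb : DifferentiableOn ℂ κ (ball 0 R⁻¹) := by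
    refine (differentiableOn_compl_singleton_and_continuousAt_iff
      (ball_mem_nhds 0 (inv_pos.2 hR))).1 ⟨fun w hw => ?_, ?_⟩
    · exact (hd w hw.2 (mem_ball_zero_iff.1 hw.1).le).differentiableAt.differentiableWithinAt
    · rw [hκ, continuousAt_update_same]
      rw [← cobounded_eq_cocompact] at ht
      exact ht.comp tendsto_inv₀_nhdsNE_zero
  have hρ : 0 < (2 * R)⁻¹ := by positivity
  have hρ' : (2 * R)⁻¹ < R⁻¹ := inv_strictAnti₀ hR (by linarith)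
  have hs : closedBall (0 : ℂ) (2 * R)⁻¹ ⊆ ball 0 R⁻¹ := closedBall_subset_ball hρ'
  have hm : ∀ w ∈ closedBall (0 : ℂ) (2 * R)⁻¹, ‖deriv κ w‖ ≤ 2 * R * A := by
    intro w hw
    refine norm_le_of_forall_mem_frontier_norm_le (U := ball 0 (2 * R)⁻¹) isBounded_ball
      ((hb.deriv isOpen_ball).diffContOnCl_ball hs) (fun v hv => ?_)
      (by rwa [closure_ball _ hρ.ne'])
    rw [frontier_ball _ hρ.ne', mem_sphere_zero_iff_norm] at hv
    have h0 : v ≠ 0 := norm_pos_iff.1 (hv ▸ hρ)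
    have h1 : ‖v⁻¹‖ = 2 * R := by rw [norm_inv, hv, inv_inv]
    have h2 := hA v⁻¹ h1.ge
    rw [(hd v h0 (hv ▸ hρ'.le)).deriv, norm_mul, norm_neg, ← inv_pow, norm_pow, h1]
    rw [h1] at h2
    nlinarith
  have z0 : 0 < ‖z‖ := by linarith
  have hz' : z⁻¹ ∈ closedBall (0 : ℂ) (2 * R)⁻¹ := by
    rw [mem_closedBall_zero_iff, norm_inv]
    exact inv_anti₀ (by linarith) hz
  have h := (convex_closedBall (0 : ℂ) (2 * R)⁻¹).norm_image_sub_le_of_norm_deriv_le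
    (fun w hw => hb.differentiableAt (isOpen_ball.mem_nhds (hs hw))) hm
    (mem_closedBall_self hρ.le) hz'
  rw [hκ, Function.update_self, Function.update_of_ne (inv_ne_zero (norm_pos_iff.1 z0)), inv_inv,
    sub_zero, sub_zero, norm_inv] at h
  exact h

theorem onto (hR : 0 < R) (hK : K ⊆ ball 0 R) (hc : IsCompact K) (hf : DifferentiableOn ℂ f Kᶜ)
    (hi : InjOn f Kᶜ) {M : ℝ} (hM : 0 ≤ M) (h : ∀ z, 2 * R ≤ ‖z‖ → ‖f z - z‖ ≤ M / ‖z‖) {w : ℂ}
    (hw : 2 * R + 2 + 10 * M ≤ ‖w‖) : ∃ z, 2 * R < ‖z‖ ∧ f z = w := by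
  have h1 : ∀ z ∈ closedBall w 1, 2 * R + 1 + 10 * M ≤ ‖z‖ := fun z hz => by
    have h1 := mem_closedBall_iff_norm.1 hz
    have h2 := norm_sub_norm_le w z
    rw [norm_sub_rev] at h2
    linarith
  have h2 : ∀ z ∈ closedBall w 1, ‖f z - z‖ ≤ 1 / 10 := fun z hz => by
    have h3 := h1 z hz
    refine (h z (by linarith)).trans ?_
    rw [div_le_iff₀ (by linarith)]
    linarith
  have hs : closedBall w 1 ⊆ Kᶜ := fun z hz => out hK (by linarith [h1 z hz])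
  have hw1 : w ∈ closedBall w 1 := mem_closedBall_self zero_le_one
  have h3 := (hf.diffContOnCl_ball hs).ball_subset_image_closedBall (ε := 4 / 5) one_pos
    (fun z hz => by
      have a1 := h2 z (sphere_subset_closedBall hz)
      have a2 := h2 w hw1
      have a3 := mem_sphere_iff_norm.1 hz
      have a4 := norm_add_le (f z - f w - (f z - z)) (f w - w)
      have a5 := norm_sub_le (f z - f w) (f z - z)
      rw [show f z - f w - (f z - z) + (f w - w) = z - w by ring] at a4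
      linarith)
    (by
      have a1 : ∀ᶠ z in 𝓝 w, z ∈ Kᶜ := hc.isClosed.isOpen_compl.mem_nhds (hs hw1)
      have a2 : ∃ᶠ z in 𝓝 w, z ≠ w := frequently_nhdsWithin_iff.1
        (Eventually.frequently (p := fun z => z ≠ w) (f := 𝓝[≠] w) self_mem_nhdsWithin) |>.mono
          fun z hz => hz.1
      exact (a2.and_eventually a1).mono fun z hz he => hz.1 (hi hz.2 (hs hw1) he))
  obtain ⟨z, hz, e⟩ := h3 (a := w) (by
    rw [mem_ball_iff_norm, norm_sub_rev]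
    linarith [h2 w hw1])
  exact ⟨z, by linarith [h1 z hz], e⟩

end KoBnd

theorem bnd_pf (hMv : S_Mv) : S_Bnd := by
  intro R C hR
  obtain ⟨M, hM⟩ : ∃ M, M = 2 * R * (2 * (|C| + 1)) := ⟨_, rfl⟩
  have M0 : 0 ≤ M := hM ▸ by positivity
  have M1 : 0 ≤ M / (2 * R) := by positivity
  refine ⟨M + M / (2 * R) + (2 * R + 2 + 10 * M) + 2 * R, fun K f hc hK hf hi ht h1 h2 => ?_⟩
  have a1 : ∀ z, 2 * R ≤ ‖z‖ → ‖f z - z‖ ≤ M / ‖z‖ := fun z hz =>
    hM ▸ KoBnd.far hR hK hc hf ht (fun z hz => KoBnd.der hMv hR hc hK hf h1 h2 hz) hz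
  have a2 := fun w => KoBnd.onto hR hK hc hf hi M0 a1 (w := w)
  refine ⟨fun z hz => (a1 z hz).trans ?_, fun z hz => ?_, fun w hw => ?_⟩
  · exact div_le_div_of_nonneg_right (by linarith) (norm_nonneg _)
  · rcases le_total (2 * R) ‖z‖ with h | h
    · have := div_le_div_of_nonneg_left M0 (by linarith) h
      linarith [a1 z h]
    · have h3 : ‖f z‖ ≤ 2 * R + 2 + 10 * M := by
        by_contra hn
        obtain ⟨v, b1, b2⟩ := a2 _ (not_le.1 hn).le
        have := hi (KoBnd.out hK (by linarith)) hz b2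
        rw [this] at b1
        linarith
      linarith [norm_sub_le (f z) z]
  · rw [mem_closedBall_zero_iff]
    by_contra hn
    obtain ⟨v, b1, b2⟩ := a2 w (by linarith [not_le.1 hn])
    exact hw ⟨v, KoBnd.out hK (by linarith), b2⟩

end Vale.Agent.P116
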