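import Vale.Agent.P116.KoBase

open Set Filter Topology MeasureTheory Metric Complex
open scoped ENNReal ComplexConjugate Real

noncomputable section
namespace Vale.Agent.P116

theorem bump_pf : S_Bump := by
  intro c z d hd hz
  obtain ⟨θ1, h1⟩ : ∃ θ1, circleMap c ‖z - c‖ θ1 = z :=
    ⟨arg (z - c), by rw [circleMap, norm_mul_exp_arg_mul_I, add_sub_cancel]⟩
  generalize ‖z - c‖ = ρ at hz h1 ⊢
  have hρ : 0 < ρ := hd.trans_le hz
  let β : ContDiffBump z := ⟨d / 4, d / 2, by positivity, by linarith⟩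
  have hc : ContDiff ℝ (⊤ : ℕ∞) fun θ => β (circleMap c ρ θ) :=
    β.contDiff.comp (contDiff_circleMap c ρ)
  have hp : Function.Periodic (fun θ => β (circleMap c ρ θ)) (2 * π) :=
    (periodic_circleMap c ρ).comp β
  obtain ⟨N, hN⟩ : ∃ N, N = ∫ θ in (0 : ℝ)..2 * π, β (circleMap c ρ θ) := ⟨_, rfl⟩
  have h2 : d / (4 * ρ) ≤ π := by
    rw [div_le_iff₀ (by positivity)]
    nlinarith [Real.pi_gt_three]
  have h3 : 0 < d / (4 * ρ) := by positivity
  have h4 : d / (2 * ρ) ≤ N := by
    have e1 := hp.intervalIntegral_add_eq 0 (θ1 - π)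
    rw [zero_add, ← hN] at e1
    have e2 : ∫ θ in (θ1 - d / (4 * ρ))..(θ1 + d / (4 * ρ)), β (circleMap c ρ θ) =
        ∫ _θ in (θ1 - d / (4 * ρ))..(θ1 + d / (4 * ρ)), (1 : ℝ) := by
      refine intervalIntegral.integral_congr fun θ hθ => β.one_of_mem_closedBall ?_
      rw [uIcc_of_le (by linarith)] at hθ
      have e3 := (lipschitzWith_circleMap c ρ).dist_le_mul θ θ1
      rw [h1, Real.coe_nnabs, abs_of_pos hρ, Real.dist_eq] at e3
      have e4 : |θ - θ1| ≤ d / (4 * ρ) := abs_le.2 ⟨by linarith [hθ.1], by linarith [hθ.2]⟩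
      refine mem_closedBall.2 (e3.trans ((mul_le_mul_of_nonneg_left e4 hρ.le).trans_eq ?_))
      change _ = d / 4
      field_simp
    have e5 := intervalIntegral.integral_mono_interval (f := fun θ => β (circleMap c ρ θ))
      (μ := volume) (c := θ1 - π) (a := θ1 - d / (4 * ρ)) (b := θ1 + d / (4 * ρ))
      (d := θ1 - π + 2 * π) (by linarith) (by linarith) (by linarith)
      (Eventually.of_forall fun θ => β.nonneg) (hc.continuous.intervalIntegrable _ _)
    rw [e2, ← e1, intervalIntegral.integral_const, smul_eq_mul, mul_one] at e5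
    refine le_trans (le_of_eq ?_) e5
    field_simp
    ring
  have hN0 : 0 < N := lt_of_lt_of_le (by positivity) h4
  refine ⟨fun θ => β (circleMap c ρ θ) / N, hc.div_const N, fun θ => by simp only [hp θ],
    fun θ => div_nonneg β.nonneg hN0.le, ?_, fun θ => ?_, fun θ hθ => ?_⟩
  · rw [intervalIntegral.integral_div, ← hN, div_self hN0.ne']
  · calc β (circleMap c ρ θ) / N ≤ 1 / (d / (2 * ρ)) := by
          gcongr
          exact β.le_one
      _ = 2 * ρ / d := by field_simp
  · refine closure_minimal (t := circleMap c ρ ⁻¹' closedBall z (d / 2)) (fun t ht => ?_)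
      (isClosed_closedBall.preimage (continuous_circleMap c ρ)) hθ
    have e1 : circleMap c ρ t ∈ Function.support β := fun h0 => ht (by simp only [h0, zero_div])
    rw [β.support_eq] at e1
    exact ball_subset_closedBall e1

end Vale.Agent.P116
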