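import Vale.Agent.P116.KoBase

open Set Filter Topology MeasureTheory Metric Complex
open scoped ENNReal ComplexConjugate Real

noncomputable section
namespace Vale.Agent.P116

namespace KoClu

theorem ci {ψ : ℝ → ℝ} (h : ContDiff ℝ (⊤ : ℕ∞) ψ) :
    ContDiff ℝ (⊤ : ℕ∞) fun t => (ψ t : ℂ) := ofRealCLM.contDiff.comp h

theorem comb {n : ℕ} (α : Fin n → ℂ) (ψ : Fin n → ℝ → ℝ)
    (h1 : ∀ k, ContDiff ℝ (⊤ : ℕ∞) (ψ k)) (h3 : ∀ k θ, 0 ≤ ψ k θ)
    (h4 : ∀ k, (∫ θ in (0 : ℝ)..2 * π, ψ k θ) = 1) :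
    (∫ θ in (0 : ℝ)..2 * π, ∑ k, α k * (ψ k θ : ℂ)) = ∑ k, α k ∧
      (∫ θ in (0 : ℝ)..2 * π, ‖∑ k, α k * (ψ k θ : ℂ)‖) ≤ ∑ k, ‖α k‖ := by
  have hc : ∀ k, Continuous (ψ k) := fun k => (h1 k).continuous
  have hc' : ∀ k, Continuous fun t => (ψ k t : ℂ) := fun k => (ci (h1 k)).continuous
  constructor
  · rw [intervalIntegral.integral_finset_sum (f := fun k θ => α k * (ψ k θ : ℂ)) fun k _ =>
      (continuous_const.mul (hc' k)).intervalIntegrable _ _]
    refine Finset.sum_congr rfl fun k _ => ?_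
    rw [intervalIntegral.integral_const_mul, intervalIntegral.integral_ofReal, h4 k]
    simp
  · have e : (∫ θ in (0 : ℝ)..2 * π, ∑ k, ‖α k‖ * ψ k θ) = ∑ k, ‖α k‖ := by
      rw [intervalIntegral.integral_finset_sum (f := fun k θ => ‖α k‖ * ψ k θ) fun k _ =>
        (continuous_const.mul (hc k)).intervalIntegrable _ _]
      refine Finset.sum_congr rfl fun k _ => ?_
      rw [intervalIntegral.integral_const_mul, h4 k, mul_one]
    rw [← e]
    refine intervalIntegral.integral_mono_on (by positivity) ?_ ?_ fun θ _ => ?_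
    · exact (continuous_finset_sum _ fun k _ =>
        continuous_const.mul (hc' k)).norm.intervalIntegrable _ _
    · exact (continuous_finset_sum _ fun k _ =>
        continuous_const.mul (hc k)).intervalIntegrable _ _
    · refine (norm_sum_le _ _).trans (Finset.sum_le_sum fun k _ => ?_)
      rw [norm_mul, norm_real, Real.norm_of_nonneg (h3 k θ)]

end KoClu

theorem clu_pf (hDca : S_Dca) (hPt : S_Pt) (hEnc : S_Enc) : S_Clu := by
  intro ι _ a b s R χ f r j hC hE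
  obtain ⟨κ, hκ, -, -⟩ := hC.loc_ex j univ_mem
  refine hEnc f _ _ (r j) (isCompact_sq _ _ _) (hE.nn j) fun ε hε => ?_
  obtain ⟨δ, hδ, H⟩ := hPt ι a b s R κ f j hC hE.hol hE.int hκ ε hε
  refine ⟨δ, hδ, fun n α z hz hα => ?_⟩
  choose ψ h1 h2 h3 h4 h5 h6 using fun k => H (z k) (hz k).1 (hz k).2
  obtain ⟨e1, e2⟩ := KoClu.comb α ψ h1 h3 h4
  have hD := hDca ι a b s R χ κ f r j (fun θ => ∑ k, α k * (ψ k θ : ℂ)) hC hE hκ
    (ContDiff.sum fun k _ => contDiff_const.mul (KoClu.ci (h1 k)))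
    (fun θ => Finset.sum_congr rfl fun k _ => by rw [h2 k θ]) (e1.trans hα)
  set c := cen (a j) (b j) (s j)
  set W := rad (fun w => f w * (κ w : ℂ)) c
  set J : Fin n → ℂ := fun k => ∫ w in (KK a b s)ᶜ, (ψ k (arg (w - c)) : ℂ) * W w with hJ
  have e3 : (∫ w in (KK a b s)ᶜ, conj (∑ k, α k * (ψ k (arg (w - c)) : ℂ)) * W w) =
      ∑ k, conj (α k) * J k := by
    have : ∀ w, conj (∑ k, α k * (ψ k (arg (w - c)) : ℂ)) * W w =
        ∑ k, conj (α k) * ((ψ k (arg (w - c)) : ℂ) * W w) := fun w => by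
      rw [map_sum, Finset.sum_mul]
      refine Finset.sum_congr rfl fun k _ => ?_
      rw [map_mul, conj_ofReal, mul_assoc]
    simp_rw [this]
    rw [integral_finset_sum _ fun k _ => (h5 k).const_mul _]
    refine Finset.sum_congr rfl fun k _ => ?_
    rw [integral_const_mul]
  rw [e3] at hD
  have e4 : ∑ k, conj (α k) * f (z k) =
      ∑ k, conj (α k) * (J k + f (z k)) - ∑ k, conj (α k) * J k := by
    rw [← Finset.sum_sub_distrib]
    refine Finset.sum_congr rfl fun k _ => by ring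
  have e5 : ‖∑ k, conj (α k) * (J k + f (z k))‖ ≤ ε * ∑ k, ‖α k‖ := by
    rw [Finset.mul_sum]
    refine (norm_sum_le _ _).trans (Finset.sum_le_sum fun k _ => ?_)
    rw [norm_mul, norm_conj, mul_comm]
    exact mul_le_mul_of_nonneg_right (h6 k) (norm_nonneg _)
  have e6 := mul_le_mul_of_nonneg_left e2 (hE.nn j)
  refine (re_le_norm _).trans ?_
  rw [e4]
  refine (norm_sub_le _ _).trans ?_
  linarith

end Vale.Agent.P116
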