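import Vale.Agent.P116.KoBase

open Set Filter Topology MeasureTheory Metric Complex
open scoped ENNReal ComplexConjugate Real

noncomputable section
namespace Vale.Agent.P116

namespace KoComp

/-- `x` is a cluster value of `f` at `z` -/
def Att (K : Set ℂ) (f : ℂ → ℂ) (x z : ℂ) : Prop := (𝓝 z ⊓ (comap f (𝓝 x) ⊓ 𝓟 Kᶜ)).NeBot

theorem Att.mem {K C S : Set ℂ} {f : ℂ → ℂ} {x z : ℂ} (h : Att K f x z) (hC : IsClosed C)
    (hz : z ∈ S) (h1 : ∀ᶠ y in 𝓝ˢ S, y ∉ K → f y ∈ C) : x ∈ C := by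
  have : (𝓝 z ⊓ (comap f (𝓝 x) ⊓ 𝓟 Kᶜ)).NeBot := h
  refine hC.mem_of_tendsto (b := 𝓝 z ⊓ (comap f (𝓝 x) ⊓ 𝓟 Kᶜ))
    (tendsto_comap.mono_left (inf_le_right.trans inf_le_left)) ?_
  filter_upwards [mem_inf_of_left (nhds_le_nhdsSet hz h1),
    mem_inf_of_right (mem_inf_of_right (mem_principal_self Kᶜ))] with y a b
  exact a b

theorem att_ex {K : Set ℂ} {f : ℂ → ℂ} {x : ℂ} (hK : IsCompact K)
    (h : ∀ U, IsOpen U → K ⊆ U → IsClosed (f '' Uᶜ)) (hx : x ∉ f '' Kᶜ)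
    (hx' : x ∈ closure (f '' Kᶜ)) : ∃ z ∈ K, Att K f x z := by
  have h1 : (comap f (𝓝 x) ⊓ 𝓟 Kᶜ).NeBot := by
    have h2 : (𝓝 x ⊓ 𝓟 (f '' Kᶜ)).NeBot := mem_closure_iff_clusterPt.1 hx'
    rw [← map_principal, ← Filter.push_pull', map_neBot_iff] at h2
    exact h2
  have h3 : comap f (𝓝 x) ⊓ 𝓟 Kᶜ ≤ 𝓝ˢ K := by
    refine inf_le_left.trans ((hasBasis_nhdsSet K).ge_iff.2 fun U hU => ?_)
    refine mem_comap.2 ⟨(f '' Uᶜ)ᶜ, (h U hU.1 hU.2).isOpen_compl.mem_nhds fun hh =>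
      hx (image_mono (compl_subset_compl.2 hU.2) hh), fun y hy => ?_⟩
    by_contra hh
    exact hy ⟨y, hh, rfl⟩
  by_contra hh
  have h4 : Disjoint (𝓝ˢ K) (comap f (𝓝 x) ⊓ 𝓟 Kᶜ) := by
    refine hK.disjoint_nhdsSet_left.2 fun z hz => ?_
    rw [disjoint_iff, ← not_neBot]
    exact fun h5 => hh ⟨z, hz, h5⟩
  exact h1.ne (disjoint_self.1 (h4.mono_left h3))

theorem split {K : Set ℂ} (hK : IsCompact K) {z1 z2 : ℂ} (h1 : z1 ∈ K) (h2 : z2 ∈ K)
    (h : z2 ∉ connectedComponentIn K z1) :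
    ∃ K1 K2, IsCompact K1 ∧ IsCompact K2 ∧ Disjoint K1 K2 ∧ K = K1 ∪ K2 ∧ z1 ∈ K1 ∧ z2 ∈ K2 := by
  have : CompactSpace K := isCompact_iff_compactSpace.1 hK
  rw [connectedComponentIn_eq_image h1] at h
  have h3 : (⟨z2, h2⟩ : K) ∉ connectedComponent (⟨z1, h1⟩ : K) := fun hh => h ⟨_, hh, rfl⟩
  rw [connectedComponent_eq_iInter_isClopen, mem_iInter, not_forall] at h3
  obtain ⟨⟨Z, hZ, hz⟩, h4⟩ := h3
  refine ⟨Subtype.val '' Z, Subtype.val '' Zᶜ, hZ.1.isCompact.image continuous_subtype_val,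
    hZ.compl.1.isCompact.image continuous_subtype_val,
    (disjoint_image_iff Subtype.val_injective).2 disjoint_compl_right, ?_, ⟨_, hz, rfl⟩,
    ⟨_, h4, rfl⟩⟩
  rw [← image_union, union_compl_self, Subtype.coe_image_univ]

theorem far {A : Set ℂ} (hA : IsCompact Aᶜ) {w : ℂ} (hw : w ∈ Aᶜ) (p : ℂ) :
    ∃ x ∈ connectedComponentIn Aᶜ w, x ∈ closure A ∧
      ∀ y ∈ connectedComponentIn Aᶜ w, ‖y - p‖ ≤ ‖x - p‖ := by
  have hc : IsCompact (connectedComponentIn Aᶜ w) := by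
    have : CompactSpace ↥Aᶜ := isCompact_iff_compactSpace.1 hA
    rw [connectedComponentIn_eq_image hw]
    exact isClosed_connectedComponent.isCompact.image continuous_subtype_val
  obtain ⟨x, hx, hm⟩ := hc.exists_isMaxOn ⟨w, mem_connectedComponentIn hw⟩
    (f := fun y => ‖y - p‖) (by fun_prop)
  refine ⟨x, hx, ?_, hm⟩
  by_contra hh
  obtain ⟨ε, hε, hb⟩ := Metric.isOpen_iff.1 isClosed_closure.isOpen_compl x hh
  have h1 : ball x ε ⊆ connectedComponentIn Aᶜ w := by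
    rw [connectedComponentIn_eq hx]
    exact (convex_ball x ε).isPreconnected.subset_connectedComponentIn (mem_ball_self hε)
      (hb.trans (compl_subset_compl.2 subset_closure))
  have n : ‖((ε / 2 : ℝ) : ℂ)‖ = ε / 2 := by
    rw [Complex.norm_real, Real.norm_eq_abs, abs_of_pos (half_pos hε)]
  have a1 : ‖x + (ε / 2 : ℝ) - p‖ ≤ ‖x - p‖ := hm (h1 (by
    rw [mem_ball_iff_norm, add_sub_cancel_left, n]; linarith))
  have a2 : ‖x - (ε / 2 : ℝ) - p‖ ≤ ‖x - p‖ := hm (h1 (by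
    rw [mem_ball_iff_norm, sub_sub_cancel_left, norm_neg, n]; linarith))
  have a3 := parallelogram_law_with_norm ℝ (x - p) ((ε / 2 : ℝ) : ℂ)
  rw [add_sub_right_comm] at a1
  rw [sub_right_comm] at a2
  rw [n] at a3
  nlinarith [norm_nonneg (x - p + (ε / 2 : ℝ)), norm_nonneg (x - p - (ε / 2 : ℝ))]

end KoComp

open KoComp in
theorem comp_pf (hProp : S_Prop) (hLift : S_Lift) : S_Comp := by
  intro K f c hK hc hf hi ht h w hw
  obtain ⟨-, hK', hcl⟩ := hProp K f c hK hf hi ht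
  have sub := connectedComponentIn_subset (f '' Kᶜ)ᶜ w
  obtain ⟨x1, hx1, hx1', -⟩ := far hK' hw 0
  obtain ⟨z1, hz1, a1⟩ := att_ex hK hcl (sub hx1) hx1'
  obtain ⟨a, r, hr, hC, hD⟩ := h z1 hz1
  have key : ∀ x z, z ∈ connectedComponentIn K z1 → Att K f x z → ‖x - a‖ ≤ r := by
    intro x z hz hA
    refine le_of_forall_pos_le_add fun ε hε => ?_
    exact hA.mem (C := {y | ‖y - a‖ ≤ r + ε}) (isClosed_le (by fun_prop) continuous_const) hz
      (hC ε hε)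
  obtain ⟨x2, hx2, hx2', hm⟩ := far hK' hw a
  obtain ⟨z2, hz2, a2⟩ := att_ex hK hcl (sub hx2) hx2'
  have h2 : z2 ∈ connectedComponentIn K z1 := by
    by_contra hh
    obtain ⟨K1, K2, c1, c2, hd, e, m1, m2⟩ := split hK hz1 hz2 hh
    obtain ⟨l, hl, l0, l1, l2⟩ := hLift K K1 K2 f c c1 c2 hd e hc hf hi ht
    have b1 : l x1 = 1 := a1.mem (C := {y | l y = 1}) (isClosed_eq hl continuous_const) m1 l1
    have b2 : l x2 = 0 := a2.mem (C := {y | l y = 0}) (isClosed_eq hl continuous_const) m2 l2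
    obtain ⟨y, hy, e'⟩ := isPreconnected_connectedComponentIn.intermediate_value hx2 hx1
      hl.continuousOn (show (1 / 2 : ℝ) ∈ _ by rw [b1, b2]; constructor <;> norm_num)
    rcases l0 y (sub hy) with h0 | h0 <;> rw [h0] at e' <;> norm_num at e'
  have h3 := key x2 z2 h2 a2
  refine ⟨a, r, hr, Subset.antisymm (fun y hy => mem_closedBall_iff_norm.2 ((hm y hy).trans h3)) ?_⟩
  rw [connectedComponentIn_eq hx2]
  exact (convex_closedBall a r).isPreconnected.subset_connectedComponentIn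
    (mem_closedBall_iff_norm.2 h3) hD.subset_compl_right

end Vale.Agent.P116
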