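import Vale.Agent.P116.KoBase

open Set Filter Topology MeasureTheory Metric Complex
open scoped ENNReal ComplexConjugate Real

noncomputable section
namespace Vale.Agent.P116

namespace KoConn

theorem meet {K : Set ℂ} (hK : IsCompact K) {z : ℂ} (hz : z ∈ K) :
    (connectedComponentIn K z ∩ closure Kᶜ).Nonempty := by
  by_contra h
  have hc : IsClosed (connectedComponentIn K z) := by
    refine closure_subset_iff_isClosed.1 (isPreconnected_connectedComponentIn.closure.subset_connectedComponentIn
      (subset_closure (mem_connectedComponentIn hz)) ?_)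
    exact closure_minimal (connectedComponentIn_subset K z) hK.isClosed
  have ho : IsOpen (connectedComponentIn K z) := by
    refine isOpen_iff_mem_nhds.2 fun w hw => ?_
    have h1 : w ∈ interior K := by
      rw [← compl_compl (interior K), ← closure_compl]
      exact fun h' => h ⟨w, hw, h'⟩
    rw [connectedComponentIn_eq hw]
    exact connectedComponentIn_mem_nhds (mem_interior_iff_mem_nhds.1 h1)
  have := IsClopen.eq_univ ⟨hc, ho⟩ ⟨z, mem_connectedComponentIn hz⟩
  exact noncompact_univ ℂ (this ▸ hK.of_isClosed_subset hc (connectedComponentIn_subset K z))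

end KoConn

theorem conn_pf : S_Conn := by
  intro K A hK hc hA hA'
  have hB : IsPreconnected (closure Kᶜ ∩ Aᶜ) :=
    hc.subset_closure (subset_inter subset_closure (compl_subset_compl.2 hA)) inter_subset_left
  obtain ⟨x, hx⟩ := nonempty_compl.2 hK.ne_univ
  have hxB : x ∈ closure Kᶜ ∩ Aᶜ := ⟨subset_closure hx, fun h => hx (hA h)⟩
  refine isPreconnected_of_forall x fun z hz => ?_
  by_cases hzK : z ∈ K
  · have h1 : connectedComponentIn K z ⊆ Aᶜ := fun w hw hwA =>
      hz (hA' w hwA (connectedComponentIn_eq hw ▸ mem_connectedComponentIn hzK))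
    obtain ⟨w, hw, hw'⟩ := KoConn.meet hK hzK
    exact ⟨_, union_subset inter_subset_right h1, Or.inl hxB,
      Or.inr (mem_connectedComponentIn hzK),
      hB.union' ⟨w, ⟨hw', h1 hw⟩, hw⟩ isPreconnected_connectedComponentIn⟩
  · exact ⟨_, inter_subset_right, hxB, ⟨subset_closure hzK, hz⟩, hB⟩

end Vale.Agent.P116
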