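import Vale.Agent.P116.KoBase

open Set Filter Topology MeasureTheory Metric Complex
open scoped ENNReal ComplexConjugate Real

noncomputable section
namespace Vale.Agent.P116

namespace KoCov

theorem det (a : ℂ) : |(ContinuousLinearMap.mul ℝ ℂ a).det| = ‖a‖ ^ 2 := by
  have h : (ContinuousLinearMap.mul ℝ ℂ a).det = Algebra.norm ℝ a := rfl
  rw [h, Algebra.norm_complex_apply, normSq_eq_norm_sq, abs_sq]

theorem fd {f : ℂ → ℂ} {a z : ℂ} (h : HasDerivAt f a z) :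
    HasFDerivAt f (ContinuousLinearMap.mul ℝ ℂ a) z := by
  refine (h.hasFDerivAt.restrictScalars ℝ).congr_fderiv ?_
  ext v
  simp [mul_comm]

theorem ph_int (hIbp : S_Ibp) {R : ℝ} {κ : ℂ → ℝ} (h : KCut R κ) : ∫ z, ph κ z = 0 := by
  have h1 : ContDiff ℝ 1 fun w => w * (κ w : ℂ) := h.contDiff.of_le (by exact_mod_cast le_top)
  have h2 : ∀ v, Integrable fun z => fderiv ℝ (fun w => w * (κ w : ℂ)) z v := fun v =>
    ((h1.continuous_fderiv one_ne_zero).clm_apply continuous_const).integrable_of_hasCompactSupport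
      (h.supp.fderiv_apply ℝ v)
  simp only [ph, dz]
  rw [integral_div, integral_sub (h2 1) ((h2 I).const_mul I), integral_const_mul,
    hIbp.1 _ 1 h1 h.supp, hIbp.1 _ I h1 h.supp]
  simp

theorem bdd {D : Set ℂ} {f : ℂ → ℂ} (hD : IsCompact D)
    (h : Tendsto (fun z => f z - z) (cocompact ℂ) (𝓝 0)) : volume (f ⁻¹' D) ≠ ⊤ := by
  obtain ⟨C, hC, h1⟩ := mem_cocompact.1 (h (ball_mem_nhds 0 one_pos))
  obtain ⟨M, hM⟩ := hD.isBounded.exists_norm_le
  refine ne_top_of_le_ne_top (hC.union (isCompact_closedBall 0 (M + 1))).measure_lt_top.ne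
    (measure_mono fun z hz => ?_)
  by_cases hzC : z ∈ C
  · exact Or.inl hzC
  · have h2 : ‖f z - z‖ < 1 := mem_ball_zero_iff.1 (h1 hzC)
    have h3 := norm_sub_le (f z) (f z - z)
    rw [sub_sub_cancel] at h3
    exact Or.inr (mem_closedBall_zero_iff.2 (by linarith [hM _ hz]))

end KoCov

open KoCov in
theorem cov_pf (hIbp : S_Ibp) : S_Cov := by
  intro K D R κ f hK hD hDR hκ hf hlim hint hu
  have hG := hK.isClosed.isOpen_compl
  have hA : IsOpen (Kᶜ ∩ f ⁻¹' Dᶜ) :=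
    hf.continuousOn.isOpen_inter_preimage hG hD.isClosed.isOpen_compl
  have e : Kᶜ ∩ f ⁻¹' D = Kᶜ \ (Kᶜ ∩ f ⁻¹' Dᶜ) := by
    ext z
    simp only [mem_inter_iff, mem_preimage, Set.mem_sdiff, mem_compl_iff]
    tauto
  have hB : MeasurableSet (Kᶜ ∩ f ⁻¹' D) := e ▸ hG.measurableSet.diff hA.measurableSet
  have hinj : InjOn f (Kᶜ ∩ f ⁻¹' Dᶜ) := fun x hx y hy h =>
    (hu _ hx.2).unique ⟨hx.1, rfl⟩ ⟨hy.1, h.symm⟩
  have himg : f '' (Kᶜ ∩ f ⁻¹' Dᶜ) = Dᶜ := by
    refine subset_antisymm (image_subset_iff.2 inter_subset_right) fun w hw => ?_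
    obtain ⟨z, ⟨h1, h2⟩, -⟩ := hu w hw
    exact ⟨z, ⟨h1, by simpa [h2] using hw⟩, h2⟩
  have hd : ∀ z ∈ Kᶜ ∩ f ⁻¹' Dᶜ, HasFDerivWithinAt f (ContinuousLinearMap.mul ℝ ℂ (deriv f z))
      (Kᶜ ∩ f ⁻¹' Dᶜ) z := fun z hz =>
    (fd (hf.differentiableAt (hG.mem_nhds hz.1)).hasDerivAt).hasFDerivWithinAt
  have ip : Integrable (ph κ) := hκ.continuous_ph.integrable_of_hasCompactSupport hκ.supp_ph
  have h1 := (integrableOn_image_iff_integrableOn_abs_det_fderiv_smul volume hA.measurableSet hd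
    hinj (ph κ)).1 ip.integrableOn
  have h2 := integral_image_eq_integral_abs_det_fderiv_smul volume hA.measurableSet hd hinj (ph κ)
  simp only [KoCov.det, real_smul] at h1 h2
  have h3 : ∫ w in Dᶜ, ph κ w = -(volume.real D : ℂ) := by
    have h4 := integral_add_compl hD.measurableSet ip
    rw [ph_int hIbp hκ, setIntegral_congr_fun hD.measurableSet fun w hw => hκ.ph_eq_one (hDR hw),
      setIntegral_const, real_smul, mul_one] at h4
    exact eq_neg_of_add_eq_zero_right h4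
  have i1 : IntegrableOn (fun z => ‖deriv f z‖ ^ 2) (Kᶜ ∩ f ⁻¹' D) := by
    have h4 : IntegrableOn (fun _ => (2 : ℝ)) (Kᶜ ∩ f ⁻¹' D) := integrableOn_const
      (ne_top_of_le_ne_top (bdd hD hlim) (measure_mono inter_subset_right))
    refine (h4.add ((hint.mono_set inter_subset_left).const_mul 2)).mono'
      ((measurable_deriv f).norm.pow_const 2).aestronglyMeasurable
      (Eventually.of_forall fun z => ?_)
    have h5 := norm_add_le (deriv f z - 1) 1
    rw [sub_add_cancel, norm_one] at h5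
    rw [Real.norm_of_nonneg (sq_nonneg _), Pi.add_apply]
    nlinarith [norm_nonneg (deriv f z), sq_nonneg (‖deriv f z - 1‖ - 1)]
  have e1 : EqOn (fun z => ((‖deriv f z‖ ^ 2 : ℝ) : ℂ))
      (fun z => ((‖deriv f z‖ ^ 2 : ℝ) : ℂ) * ph κ (f z)) (Kᶜ ∩ f ⁻¹' D) := fun z hz => by
    simp only [hκ.ph_eq_one (hDR hz.2), mul_one]
  have i2 : IntegrableOn (fun z => ((‖deriv f z‖ ^ 2 : ℝ) : ℂ)) (Kᶜ ∩ f ⁻¹' D) := i1.ofReal
  have h4 := setIntegral_union (show Disjoint (Kᶜ ∩ f ⁻¹' D) (Kᶜ ∩ f ⁻¹' Dᶜ) from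
    disjoint_compl_right.mono inter_subset_right inter_subset_right) hA.measurableSet
    (i2.congr_fun e1 hB) h1
  rw [← setIntegral_congr_fun hB e1, integral_complex_ofReal, ← h2, himg, h3, preimage_compl,
    inter_union_compl] at h4
  refine ⟨i1, ?_⟩
  rw [h4, add_re, neg_re, ofReal_re, ofReal_re, sub_eq_add_neg]

end Vale.Agent.P116
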