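import Vale.Agent.P116.KoBase

open Set Filter Topology MeasureTheory Metric Complex
open scoped ENNReal ComplexConjugate Real

noncomputable section
namespace Vale.Agent.P116

namespace KoDca

theorem prim {ψ : ℝ → ℂ} (h1 : ContDiff ℝ (⊤ : ℕ∞) ψ) (h2 : Function.Periodic ψ (2 * π))
    (h3 : (∫ θ in (0 : ℝ)..2 * π, ψ θ) = 0) :
    ∃ h : ℝ → ℂ, ContDiff ℝ (⊤ : ℕ∞) h ∧ Function.Periodic h (2 * π) ∧ deriv h = ψ := by
  have hc := h1.continuous
  have hd : deriv (fun t => ∫ θ in (0 : ℝ)..t, ψ θ) = ψ := funext fun t => hc.deriv_integral ψ 0 t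
  refine ⟨_, contDiff_infty_iff_deriv.2 ⟨fun t =>
    (hc.integral_hasStrictDerivAt 0 t).hasDerivAt.differentiableAt, hd.symm ▸ h1⟩, fun t => ?_, hd⟩
  beta_reduce
  rw [← intervalIntegral.integral_add_adjacent_intervals (hc.intervalIntegrable 0 t)
    (hc.intervalIntegrable t _), h2.intervalIntegral_add_eq t 0, zero_add, h3, add_zero]

theorem br_split {f k B : ℂ → ℂ} {z : ℂ} (hf : DifferentiableAt ℝ f z)
    (hk : DifferentiableAt ℝ k z) (hB : DifferentiableAt ℝ B z) :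
    br f (fun w => k w * B w) z = br (fun w => f w * k w) B z + br (fun w => f w * B w) k z := by
  simp only [br, fderiv_mul_apply hf hk, fderiv_mul_apply hf hB, fderiv_mul_apply hk hB]
  ring

theorem br_rad (W : ℂ → ℂ) {B : ℂ → ℂ} {c z p : ℂ}
    (h : ∀ v, fderiv ℝ B z v = p * ((v / (z - c)).im : ℂ)) : br W B z = p * rad W c z := by
  have e : fderiv ℝ W z (z - c) =
      (z - c).re * fderiv ℝ W z 1 + (z - c).im * fderiv ℝ W z I := by
    have e1 : z - c = (z - c).re • (1 : ℂ) + (z - c).im • I := by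
      apply Complex.ext <;> simp
    conv_lhs => rw [e1]
    rw [map_add, map_smul, map_smul, real_smul, real_smul]
  rw [br, rad, h, h, e, ← normSq_eq_norm_sq]
  generalize z - c = w
  simp only [div_im, I_im, I_re, one_im, one_re]
  push_cast
  ring

theorem int_var {K : Set ℂ} {f H : ℂ → ℂ} (hf : IntegrableOn (fun z => ‖deriv f z - 1‖ ^ 2) K)
    (h1 : ContDiff ℝ 1 H) (h2 : HasCompactSupport H) :
    IntegrableOn (fun z => deriv f z * conj (dz H z)) K := by
  have c1 : Continuous fun z => conj (dz H z) := continuous_conj.comp (continuous_dz h1)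
  have c2 : HasCompactSupport fun z => conj (dz H z) :=
    (hasCompactSupport_dz h2).comp_left (g := conj) (map_zero _)
  have i1 := (memLp_of_sq ((measurable_deriv f).sub_const 1).aestronglyMeasurable hf).integrable_mul
    ((c1.memLp_of_hasCompactSupport (p := 2) c2).restrict K)
  refine (i1.add (c1.integrable_of_hasCompactSupport c2).integrableOn).congr
    (ae_of_all _ fun z => ?_)
  simp only [Pi.add_apply, Pi.mul_apply]
  ring

variable {ι : Type} [Fintype ι] {a b s : ι → ℝ} {R : ℝ} {χ κ : ℂ → ℝ} {f : ℂ → ℂ} {r : ι → ℝ}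
  {j : ι}

theorem br_zero (hIbp : S_Ibp) (hκ : Loc a b s j κ) {u : ℂ → ℂ}
    (hu : ContDiffOn ℝ 1 u (KK a b s)ᶜ) :
    IntegrableOn (br u fun w => (κ w : ℂ)) (KK a b s)ᶜ ∧
      ∫ z in (KK a b s)ᶜ, br u (fun w => (κ w : ℂ)) z = 0 := by
  obtain ⟨O, o1, o2, o3⟩ := mem_nhdsSet.1 hκ.2.2.1
  have hT : tsupport κ \ O ⊆ (KK a b s)ᶜ := fun z hz hK => by
    obtain ⟨k, hk⟩ := mem_KK.1 hK
    by_cases e : k = j
    · exact hz.2 (o3 (e ▸ hk))
    · exact Set.disjoint_left.1 (hκ.2.2.2 k e) hz.1 hk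
  have h0 : ∀ z ∉ tsupport κ \ O, fderiv ℝ (fun w => (κ w : ℂ)) z = 0 := fun z hz => by
    obtain ⟨t, ht⟩ : ∃ t : ℝ, ∀ᶠ w in 𝓝 z, κ w = t := by
      by_cases h : z ∈ O
      · exact ⟨1, mem_of_superset (o2.mem_nhds h) o1⟩
      · exact ⟨0, notMem_tsupport_iff_eventuallyEq.1 fun q => hz ⟨q, h⟩⟩
    have : (fun w => (κ w : ℂ)) =ᶠ[𝓝 z] fun _ => (t : ℂ) := ht.mono fun w hw => congrArg _ hw
    rw [this.fderiv_eq, fderiv_fun_const, Pi.zero_apply]
  obtain ⟨i1, i2⟩ := hIbp.2 _ _ u _ (isOpen_G a b s) (IsCompact.diff hκ.2.1 o2) hT hu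
    ((contDiff_ofReal hκ.1).of_le (WithTop.coe_le_coe.2 le_top)) h0
  refine ⟨i1.integrableOn, ?_⟩
  rw [setIntegral_eq_integral_of_forall_compl_eq_zero, i2]
  intro z hz
  simp [br, h0 z fun q => hz (hT q)]

theorem main (hIbp : S_Ibp) (hArg : S_Arg) {ψ : ℝ → ℂ} (hC : Cfg a b s R) (hE : Ext a b s χ f r)
    (hκ : Loc a b s j κ) (h1 : ContDiff ℝ (⊤ : ℕ∞) ψ) (h2 : Function.Periodic ψ (2 * π))
    (h3 : (∫ θ in (0 : ℝ)..2 * π, ψ θ) = 0) :
    0 ≤ (I / 2 * ∫ z in (KK a b s)ᶜ, conj (ψ (arg (z - cen (a j) (b j) (s j)))) *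
        rad (fun w => f w * (κ w : ℂ)) (cen (a j) (b j) (s j)) z).re +
      1 / 2 * (r j * ∫ θ in (0 : ℝ)..2 * π, ‖ψ θ‖) := by
  classical
  obtain ⟨h, p1, p2, rfl⟩ := prim h1 h2 h3
  obtain ⟨c, hc⟩ : ∃ c, c = cen (a j) (b j) (s j) := ⟨_, rfl⟩
  obtain ⟨a1, a2, a3⟩ := hArg h c p1 p2
  obtain ⟨A, hA⟩ : ∃ A : ℂ → ℂ, A = fun z => h (arg (z - c)) := ⟨_, rfl⟩
  rw [← hA] at a1 a2
  rw [← hc]
  have hs := hC.pos j
  obtain ⟨β, b1, -, b2, b3, -⟩ := bump_ex (S := {c}) (U := ball c (s j / 4)) isCompact_singleton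
    (by rw [nhdsSet_singleton]; exact ball_mem_nhds c (by positivity))
  rw [nhdsSet_singleton] at b2
  have hβ : ∀ z, s j / 4 ≤ ‖z - c‖ → z ≠ c ∧ ∀ᶠ w in 𝓝 z, β w = 0 := fun z hz =>
    ⟨fun e => by
      rw [e, sub_self, norm_zero] at hz
      linarith, notMem_tsupport_iff_eventuallyEq.1 fun q =>
        absurd (mem_ball_iff_norm.1 (b3 q)) (not_lt.2 hz)⟩
  have dA : ∀ z, z ≠ c → ContDiffAt ℝ (⊤ : ℕ∞) A z := fun z hz =>
    a1.contDiffAt (isOpen_compl_singleton.mem_nhds hz)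
  obtain ⟨H, hH⟩ : ∃ H : ℂ → ℂ, H = fun z => (κ z : ℂ) * ((1 - (β z : ℂ)) * A z) := ⟨_, rfl⟩
  have s1 : ContDiff ℝ (⊤ : ℕ∞) H := by
    rw [hH]
    refine (contDiff_ofReal hκ.1).mul (contDiff_iff_contDiffAt.2 fun z => ?_)
    by_cases e : z = c
    · refine (contDiffAt_const (c := (0 : ℂ))).congr_of_eventuallyEq ?_
      rw [e]
      filter_upwards [b2] with w hw
      simp [hw]
    · exact (contDiff_const.sub (contDiff_ofReal b1)).contDiffAt.mul (dA z e)
  have s2 : HasCompactSupport H := hκ.2.1.mono fun z hz h0 => hz (by simp [hH, h0])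
  have k0 : ∀ k, k ≠ j → ∀ z ∈ sq (a k) (b k) (s k), H =ᶠ[𝓝 z] fun _ => 0 := fun k e z hz => by
    filter_upwards [notMem_tsupport_iff_eventuallyEq.1
      (Set.disjoint_right.1 (hκ.2.2.2 k e) hz)] with w hw
    simp [hH, hw]
  have k1 : ∀ z ∈ sq (a j) (b j) (s j), s j / 4 ≤ ‖z - c‖ → H =ᶠ[𝓝 z] A := fun z hz q => by
    filter_upwards [hκ.2.2.1.filter_mono (nhds_le_nhdsSet hz), (hβ z q).2] with w e1 e2
    simp [hH, e1, e2]
  have circ : ∀ k t, circleMap (cen (a k) (b k) (s k)) (s k / 4) t ∈ sq (a k) (b k) (s k) :=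
    fun k t => closedBall_subset_sq _ _ _ (closedBall_subset_closedBall (by linarith [hC.pos k])
      (circleMap_mem_closedBall _ (by linarith [hC.pos k]) t))
  have hv := hE.var H ⟨s1, s2, fun k z hz q => by
    by_cases e : k = j
    · subst e
      rw [← hc] at q ⊢
      rw [(k1 z hz q).fderiv_eq, a2 z (hβ z q).1, div_self (sub_ne_zero.2 (hβ z q).1)]
      simp
    · rw [(k0 k e z hz).fderiv_eq]
      simp⟩
  have l1 : len H c (s j / 4) = ∫ θ in (0 : ℝ)..2 * π, ‖deriv h θ‖ := by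
    have : (fun t => H (circleMap c (s j / 4) t)) = h := funext fun t => by
      rw [(k1 _ (hc ▸ circ j t) (by
        rw [circleMap_sub_center, norm_circleMap_zero]
        exact le_abs_self _)).self_of_nhds, hA]
      exact a3 _ t (by positivity)
    rw [len, this]
  rw [Finset.sum_eq_single j (fun k _ e => by
    have : (fun t => H (circleMap (cen (a k) (b k) (s k)) (s k / 4) t)) = fun _ => 0 :=
      funext fun t => (k0 k e _ (circ k t)).self_of_nhds
    simp [len, this]) (by simp), ← hc, l1] at hv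
  have far : ∀ z ∈ (KK a b s)ᶜ, s j / 4 ≤ ‖z - c‖ := fun z hz => by
    by_contra q
    refine hz (sq_subset_KK j (closedBall_subset_sq _ _ _ ?_))
    rw [← hc, mem_closedBall_iff_norm]
    linarith
  have dB : ∀ z ∈ (KK a b s)ᶜ, ContDiffAt ℝ 1 (fun w => conj (A w)) z := fun z hz =>
    conjCLE.contDiff.contDiffAt.comp z ((dA z (hβ z (far z hz)).1).of_le (by exact_mod_cast le_top))
  have hG := isOpen_G a b s
  obtain ⟨i1, i2⟩ := br_zero hIbp hκ (u := fun w => f w * conj (A w))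
    (((hE.hol.contDiffOn hG).restrict_scalars ℝ).mul fun z hz => (dB z hz).contDiffWithinAt)
  have i3 := int_var hE.int (s1.of_le (by exact_mod_cast le_top)) s2
  have key : ∀ z ∈ (KK a b s)ᶜ, I / 2 * (conj (deriv h (arg (z - c))) *
      rad (fun w => f w * (κ w : ℂ)) c z) = deriv f z * conj (dz H z) -
        I / 2 * br (fun w => f w * conj (A w)) (fun w => (κ w : ℂ)) z := fun z hz => by
    have df := (hE.hol.differentiableAt (hG.mem_nhds hz)).hasDerivAt
    have e1 : (fun w => conj (H w)) =ᶠ[𝓝 z] fun w => (κ w : ℂ) * conj (A w) := by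
      filter_upwards [(hβ z (far z hz)).2] with w hw
      simp [hH, hw]
    have e2 := br_eq f (fun w => (κ w : ℂ) * conj (A w)) z
    rw [dz_of_hasDerivAt df, db_of_hasDerivAt df, zero_mul, sub_zero,
      br_split (df.differentiableAt.restrictScalars ℝ)
        ((contDiff_ofReal hκ.1).differentiable (by simp) z)
        ((dB z hz).differentiableAt one_ne_zero),
      br_rad _ (c := c) (p := conj (deriv h (arg (z - c)))) fun v => by
        rw [fderiv_conj, a2 z (hβ z (far z hz)).1, map_mul, conj_ofReal]] at e2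
    rw [conj_dz, db_congr e1, e2]
    ring
  rw [← integral_const_mul, setIntegral_congr_fun hG.measurableSet key,
    integral_sub i3 (i1.const_mul _), integral_const_mul, i2, mul_zero, sub_zero]
  exact hv

end KoDca

theorem dca_pf (hIbp : S_Ibp) (hArg : S_Arg) : S_Dca := by
  intro ι _ a b s R χ κ f r j ψ hC hE hκ h1 h2 h3
  obtain ⟨μ, m1, m2⟩ := Complex.exists_norm_eq_mul_self (I / 2 * ∫ z in (KK a b s)ᶜ,
    conj (ψ (arg (z - cen (a j) (b j) (s j)))) *
      rad (fun w => f w * (κ w : ℂ)) (cen (a j) (b j) (s j)) z)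
  have := KoDca.main hIbp hArg (ψ := fun t => -conj μ * ψ t) hC hE hκ (contDiff_const.mul h1)
    (fun t => by simp only [h2 t]) (by rw [intervalIntegral.integral_const_mul, h3, mul_zero])
  simp only [map_mul, map_neg, conj_conj, mul_assoc, norm_mul, norm_neg, norm_conj, m1,
    one_mul] at this
  rw [integral_const_mul, mul_left_comm, neg_mul, ← m2, neg_re, ofReal_re, norm_mul] at this
  simp only [norm_div, norm_I, norm_ofNat] at this
  linarith

end Vale.Agent.P116
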