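import Vale.Agent.P116.KoBase

open Set Filter Topology MeasureTheory Metric Complex
open scoped ENNReal ComplexConjugate Real

noncomputable section
namespace Vale.Agent.P116

namespace KoDeg

theorem far {P : ℂ → Prop} (h : ∀ᶠ z in cocompact ℂ, P z) : ∃ ρ : ℝ, ∀ z, ρ < ‖z‖ → P z := by
  obtain ⟨K, hK, h1⟩ := mem_cocompact.1 h
  obtain ⟨ρ, hρ⟩ := hK.isBounded.subset_closedBall 0
  exact ⟨ρ, fun z hz => h1 fun hzK => not_le.2 hz (mem_closedBall_zero_iff.1 (hρ hzK))⟩

theorem wind {φ : ℂ → ℂ} (hc : Continuous φ) (h0 : ∀ z, φ z ≠ 0) {m : ℤ}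
    (ht : Tendsto (fun z => φ z / z ^ m) (cocompact ℂ) (𝓝 1)) : m = 0 := by
  obtain ⟨L, hL, e⟩ := log_ex hc h0
  obtain ⟨ρ, hρ⟩ := far (ht.eventually (ball_mem_nhds 1 one_pos))
  have sl : ∀ θ : ℝ, φ (exp (ρ + θ * I)) / exp (ρ + θ * I) ^ m ∈ slitPlane := fun θ =>
    ball_one_subset_slitPlane (hρ _ (by
      rw [norm_exp]
      simp only [add_re, ofReal_re, mul_re, I_re, mul_zero, ofReal_im, I_im, mul_one, sub_self,
        add_zero]
      linarith [Real.add_one_le_exp ρ]))
  have c1 : Continuous fun θ : ℝ => log (φ (exp (ρ + θ * I)) / exp (ρ + θ * I) ^ m) :=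
    Continuous.clog (Continuous.div (by fun_prop)
      (Continuous.zpow₀ (by fun_prop) m fun θ => Or.inl (exp_ne_zero _))
      fun θ => zpow_ne_zero _ (exp_ne_zero _)) sl
  have e1 : ∀ θ : ℝ, exp (L (exp (ρ + θ * I)) -
      (log (φ (exp (ρ + θ * I)) / exp (ρ + θ * I) ^ m) + m * (ρ + θ * I))) = 1 := fun θ => by
    rw [exp_sub, exp_add (log _), exp_log (slitPlane_ne_zero (sl θ)), exp_int_mul, e,
      div_mul_cancel₀ _ (zpow_ne_zero _ (exp_ne_zero _)), div_self (h0 _)]
  have k := isCoveringMap_exp.const_of_comp (g := fun θ : ℝ => L (exp (ρ + θ * I)) -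
      (log (φ (exp (ρ + θ * I)) / exp (ρ + θ * I) ^ m) + m * (ρ + θ * I)))
    (Continuous.sub (by fun_prop) (c1.add (by fun_prop)))
    (fun a b => Subtype.ext ((e1 a).trans (e1 b).symm)) 0 (2 * π)
  have e2 : exp (ρ + ((2 * π : ℝ) : ℂ) * I) = exp (ρ + ((0 : ℝ) : ℂ) * I) := by
    rw [exp_add, exp_add]
    push_cast
    rw [exp_two_pi_mul_I, zero_mul, exp_zero]
  rw [e2] at k
  have k2 : (m : ℂ) * (2 * π * I) = 0 := by
    push_cast at k ⊢
    linear_combination k
  exact_mod_cast (mul_eq_zero.1 k2).resolve_right two_pi_I_ne_zero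

theorem count (n : ℕ) : ∀ (q : ℂ → ℂ) (m : ℤ), Continuous q →
    Tendsto (fun z => q z / z ^ m) (cocompact ℂ) (𝓝 1) → {z | q z = 0}.Finite →
    {z | q z = 0}.ncard = n → (∀ z, q z = 0 → AnalyticAt ℂ q z ∧ ¬ ∀ᶠ w in 𝓝 z, q w = 0) →
    (n : ℤ) ≤ m ∧ (n = 0 → m = 0) := by
  classical
  induction n with
  | zero =>
    intro q m hc ht hf hn _
    rw [ncard_eq_zero hf] at hn
    have := wind hc (fun z hz => (show z ∈ (∅ : Set ℂ) from hn ▸ hz)) ht
    exact ⟨this.ge, fun _ => this⟩
  | succ n ih =>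
    intro q m hc ht hf hn ha
    refine ⟨?_, fun h => absurd h (Nat.succ_ne_zero n)⟩
    obtain ⟨z0, hz0⟩ : {z | q z = 0}.Nonempty := nonempty_of_ncard_ne_zero (by omega)
    obtain ⟨k, g, hg, hg0, hq⟩ :=
      (ha z0 hz0).1.exists_eventuallyEq_pow_smul_nonzero_iff.2 (ha z0 hz0).2
    have k0 : k ≠ 0 := by
      rintro rfl
      have := hq.self_of_nhds
      rw [pow_zero, one_smul] at this
      exact hg0 (this.symm.trans hz0)
    set q' : ℂ → ℂ := fun z => if z = z0 then g z0 else q z / (z - z0) ^ k with hq'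
    have n0 : q' =ᶠ[𝓝 z0] g := by
      filter_upwards [hq] with z hz
      by_cases h : z = z0
      · simp only [hq', h, if_true]
      · simp only [hq', if_neg h, hz, smul_eq_mul]
        exact mul_div_cancel_left₀ _ (pow_ne_zero _ (sub_ne_zero.2 h))
    have n1 : ∀ z, z ≠ z0 → q' =ᶠ[𝓝 z] fun w => q w / (w - z0) ^ k := fun z hz => by
      filter_upwards [isOpen_ne.mem_nhds hz] with w hw using if_neg hw
    have zs : {z | q' z = 0} = {z | q z = 0} \ {z0} := by
      ext z
      by_cases h : z = z0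
      · simp [hq', h, hg0]
      · simp [hq', h, sub_ne_zero.2 h]
    have := ih q' (m - k) (continuous_iff_continuousAt.2 fun z => ?_) ?_
      (zs ▸ hf.subset sdiff_subset) ?_ fun z hz => ?_
    · have h1 := this.1
      push_cast
      omega
    · by_cases h : z = z0
      · rw [h]; exact hg.continuousAt.congr n0.symm
      · have c1 : ContinuousAt (fun w => q w / (w - z0) ^ k) z :=
          hc.continuousAt.div (g := fun w => (w - z0) ^ k) (by fun_prop)
            (pow_ne_zero _ (sub_ne_zero.2 h))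
        exact c1.congr (n1 z h).symm
    · have t0 : Tendsto (fun z : ℂ => z⁻¹) (cocompact ℂ) (𝓝 0) := by
        rw [← cobounded_eq_cocompact]; exact tendsto_inv₀_cobounded
      have t1 := ht.div (((t0.const_mul z0).const_sub 1).pow k) (by simp)
      simp only [mul_zero, sub_zero, one_pow, div_one] at t1
      refine t1.congr' ?_
      filter_upwards [(isCompact_singleton (x := z0)).compl_mem_cocompact,
        (isCompact_singleton (x := (0 : ℂ))).compl_mem_cocompact] with z h1 h2
      have h1' : z ≠ z0 := h1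
      have h2' : z ≠ 0 := h2
      have h3 := sub_ne_zero.2 h1'
      have e : 1 - z0 * z⁻¹ = (z - z0) / z := by field_simp
      simp only [hq', if_neg h1', Pi.div_apply, e, zpow_sub₀ h2', zpow_natCast, div_pow]
      field_simp
    · rw [zs]
      have := ncard_sdiff_singleton_add_one hz0 hf
      omega
    · have hz' : z ∈ {z | q z = 0} \ {z0} := zs ▸ hz
      have h : z ≠ z0 := hz'.2
      refine ⟨((ha z hz'.1).1.div ((analyticAt_id.sub analyticAt_const).pow k)
        (pow_ne_zero _ (sub_ne_zero.2 h))).congr (n1 z h).symm, fun h1 => (ha z hz'.1).2 ?_⟩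
      filter_upwards [h1] with w hw
      exact (show w ∈ {z | q z = 0} \ {z0} from zs ▸ hw).1

end KoDeg

theorem deg_pf : S_Deg := by
  intro q hc ht ha
  have hf : {z | q z = 0}.Finite := by
    by_contra hi
    obtain ⟨ρ, hρ⟩ := KoDeg.far (ht.eventually (ball_mem_nhds 1 one_pos))
    have hK : IsCompact {z | q z = 0} :=
      (isCompact_closedBall 0 ρ).of_isClosed_subset (isClosed_eq hc continuous_const)
        fun z hz => mem_closedBall_zero_iff.2 (not_lt.1 fun h => by
          have := hρ z h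
          rw [show q z = 0 from hz] at this
          simp at this)
    obtain ⟨z, hz, h1⟩ := exists_nhds_ne_inf_principal_neBot hK hi
    have h2 := (ha z hz).1.eventually_eq_zero_or_eventually_ne_zero.resolve_left (ha z hz).2
    exact (frequently_mem_iff_neBot.2 h1) (h2.mono fun w hw => hw)
  obtain ⟨h1, h2⟩ := KoDeg.count _ q 1 hc (by simpa using ht) hf rfl ha
  obtain ⟨a, h3⟩ := ncard_eq_one.1 (show {z | q z = 0}.ncard = 1 by omega)
  exact ⟨a, (show a ∈ {z | q z = 0} from h3 ▸ rfl), fun y hy =>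
    (show y ∈ ({a} : Set ℂ) from h3 ▸ hy)⟩

end Vale.Agent.P116
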