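import Vale.Agent.P116.KoBase

open Set Filter Topology MeasureTheory Metric Complex
open scoped ENNReal ComplexConjugate Real

noncomputable section
namespace Vale.Agent.P116

namespace KoDis

theorem val {f : ℂ → ℂ} {G S : Set ℂ} {c : ℂ} {r t : ℝ} {l : ℂ → ℝ} (hl : Continuous l)
    (hc : Clus f G S c r) (hS : (S ∩ closure G).Nonempty)
    (ht : ∀ᶠ z in 𝓝ˢ S, z ∈ G → l (f z) = t) : ∃ x ∈ closedBall c r, l x = t := by
  obtain ⟨p, hp, hpG⟩ := hS
  haveI := mem_closure_iff_nhdsWithin_neBot.1 hpG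
  have h1 : ∀ {P : ℂ → Prop}, (∀ᶠ z in 𝓝ˢ S, z ∈ G → P z) → ∀ᶠ z in 𝓝[G] p, P z := fun h =>
    eventually_nhdsWithin_iff.2 (h.filter_mono (nhds_le_nhdsSet hp))
  obtain ⟨x, -, hx⟩ := (isCompact_closedBall c (r + 1)) (f := map f (𝓝[G] p))
    (le_principal_iff.2 (h1 (P := fun z => f z ∈ closedBall c (r + 1))
      (by simpa only [mem_closedBall, dist_eq_norm] using hc 1 one_pos)))
  refine ⟨x, mem_closedBall.2 (le_of_forall_pos_le_add fun ε hε => ?_), ?_⟩
  · exact mem_closedBall.1 (isClosed_closedBall.closure_subset (mem_closure_iff_clusterPt.2 (hx.mono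
      (le_principal_iff.2 (h1 (P := fun z => f z ∈ closedBall c (r + ε))
        (by simpa only [mem_closedBall, dist_eq_norm] using hc ε hε))))))
  · exact (isClosed_eq hl continuous_const).closure_subset (mem_closure_iff_clusterPt.2 (hx.mono
      (le_principal_iff.2 (h1 (P := fun z => l (f z) = t) ht))))

end KoDis

theorem dis_pf (hLift : S_Lift) : S_Dis := by
  intro ι _ a b s R f c r hC hF
  refine ⟨hF, fun i j hij => ?_⟩
  have hsub : sq (a j) (b j) (s j) ⊆ ⋃ k : {k // k ≠ i}, sq (a k) (b k) (s k) :=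
    subset_iUnion (fun k : {k // k ≠ i} => sq (a k) (b k) (s k)) ⟨j, hij.symm⟩
  obtain ⟨l, hl, h01, h1, h0⟩ := hLift (KK a b s) (sq (a i) (b i) (s i))
    (⋃ k : {k // k ≠ i}, sq (a k) (b k) (s k)) f 0 (isCompact_sq _ _ _)
    (isCompact_iUnion fun k => isCompact_sq _ _ _)
    (disjoint_iUnion_right.2 fun k => hC.dis k.2.symm)
    (Subset.antisymm (iUnion_subset fun k => by
        by_cases hk : k = i
        · exact hk ▸ subset_union_left
        · exact subset_union_of_subset_right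
            (subset_iUnion (fun k : {k // k ≠ i} => sq (a k) (b k) (s k)) ⟨k, hk⟩) _)
      (union_subset (sq_subset_KK i) (iUnion_subset fun k => sq_subset_KK k.1)))
    hC.con hF.hol hF.inj hF.inf
  obtain ⟨x, hx, hx1⟩ := KoDis.val hl (hF.clu i) (hC.front i) h1
  obtain ⟨y, hy, hy0⟩ := KoDis.val hl (hF.clu j) (hC.front j) (h0.filter_mono (nhdsSet_mono hsub))
  by_contra hd
  obtain ⟨w, hw, hlw⟩ := ((convex_closedBall (c i) (r i)).isPreconnected.union'
    (not_disjoint_iff_nonempty_inter.1 hd) (convex_closedBall (c j) (r j)).isPreconnected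
    ).intermediate_value (Or.inr hy) (Or.inl hx) hl.continuousOn
    (show (1 / 2 : ℝ) ∈ Icc (l y) (l x) by rw [hx1, hy0]; norm_num)
  have h2 : w ∉ f '' (KK a b s)ᶜ := by
    rw [hF.img]
    exact not_not.2 (mem_iUnion.2 (hw.elim (fun h => ⟨i, h⟩) fun h => ⟨j, h⟩))
  rcases h01 w h2 with h | h <;> rw [h] at hlw <;> norm_num at hlw

end Vale.Agent.P116
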