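import Vale.Agent.P116.KoBase

open Set Filter Topology MeasureTheory Metric Complex
open scoped ENNReal ComplexConjugate Real

noncomputable section
namespace Vale.Agent.P116

namespace KoEnc

/-- The duality hypothesis on a set. -/
def Du (A : Set ℂ) (ρ : ℝ) : Prop :=
  ∀ (n : ℕ) (α w : Fin n → ℂ), (∀ k, w k ∈ A) → ∑ k, α k = 0 →
    (∑ k, conj (α k) * w k).re ≤ ρ * ∑ k, ‖α k‖

theorem Du.fintype {A : Set ℂ} {ρ : ℝ} (h : Du A ρ) {ι : Type} [Fintype ι] (α w : ι → ℂ)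
    (hw : ∀ k, w k ∈ A) (h0 : ∑ k, α k = 0) :
    (∑ k, conj (α k) * w k).re ≤ ρ * ∑ k, ‖α k‖ := by
  have e := (Fintype.equivFin ι).symm
  have := h _ (α ∘ e) (w ∘ e) (fun k => hw _) (by rw [← h0]; exact e.sum_comp α)
  rwa [show ∑ k, conj ((α ∘ e) k) * (w ∘ e) k = ∑ k, conj (α k) * w k from
    e.sum_comp fun k => conj (α k) * w k,
    show ∑ k, ‖(α ∘ e) k‖ = ∑ k, ‖α k‖ from e.sum_comp fun k => ‖α k‖] at this

theorem fin_ball {A : Set ℂ} (hA : A.Finite) (hne : A.Nonempty) {ρ : ℝ} (hρ : 0 ≤ ρ)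
    (h : Du A ρ) : ∃ c, ∀ w ∈ A, ‖w - c‖ ≤ ρ := by
  have hQ := (hA.image fun w : ℂ => (w, normSq w)).isCompact_convexHull ℝ
  obtain ⟨⟨c, y⟩, hm, hmax⟩ := hQ.exists_isMaxOn (f := fun p : ℂ × ℝ => p.2 - normSq p.1)
    (convexHull_nonempty_iff.2 (hne.image _)) (by fun_prop)
  have far : ∀ w ∈ A, normSq (w - c) ≤ y - normSq c := by
    intro w hw
    have key : ∀ s : ℝ, 0 < s → s < 1 → normSq (w - c) - (y - normSq c) ≤ s * normSq (w - c) := by
      intro s s0 s1
      have h1 := hmax (convex_convexHull ℝ _ hm (subset_convexHull ℝ _ ⟨w, hw, rfl⟩)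
        (show 0 ≤ 1 - s by linarith) s0.le (by ring))
      simp only [mem_ofPred_eq, Prod.smul_mk, Prod.mk_add_mk, smul_eq_mul, normSq_apply, add_re,
        add_im, smul_re, smul_im, sub_re, sub_im] at h1 ⊢
      refine le_of_mul_le_mul_left ?_ s0
      nlinarith
    have ht : Tendsto (fun s : ℝ => s * normSq (w - c)) (𝓝[>] 0) (𝓝 (0 * normSq (w - c))) :=
      (tendsto_id.mul_const _).mono_left nhdsWithin_le_nhds
    have := ge_of_tendsto ht (by
      filter_upwards [Ioo_mem_nhdsGT zero_lt_one] with s hs using key s hs.1 hs.2)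
    linarith
  obtain ⟨ι, _, t, p, t0, t1, hp, hs⟩ := mem_convexHull_iff_exists_fintype.1 hm
  choose w hw hwp using hp
  have e1 : ∑ i, (t i : ℂ) * w i = c := by
    have := congrArg Prod.fst hs
    simpa [Prod.fst_sum, ← hwp] using this
  have e2 : ∑ i, t i * normSq (w i) = y := by
    have := congrArg Prod.snd hs
    simpa [Prod.snd_sum, ← hwp] using this
  have e3 : ∑ i, (t i : ℂ) = 1 := by exact_mod_cast t1
  have h1 := h.fintype (fun i => (t i : ℂ) * (w i - c)) w hw (by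
    simp only [mul_sub, Finset.sum_sub_distrib, ← Finset.sum_mul, e1, e3, one_mul, sub_self])
  have e4 : ∑ i, conj ((t i : ℂ) * (w i - c)) * w i = ((y - normSq c : ℝ) : ℂ) := by
    have : ∀ i, conj ((t i : ℂ) * (w i - c)) * w i =
        ((t i * normSq (w i) : ℝ) : ℂ) - conj c * ((t i : ℂ) * w i) := fun i => by
      simp only [map_mul, map_sub, conj_ofReal, ofReal_mul, normSq_eq_conj_mul_self]
      ring
    simp only [this, Finset.sum_sub_distrib, ← Finset.mul_sum, e1, ← ofReal_sum, e2,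
      ← normSq_eq_conj_mul_self, ofReal_sub]
  have far' : ∀ w ∈ A, ‖w - c‖ ≤ √(y - normSq c) := fun w hw =>
    Real.le_sqrt_of_sq_le (by rw [← normSq_eq_norm_sq]; exact far w hw)
  have e5 : ∑ i, ‖(t i : ℂ) * (w i - c)‖ ≤ √(y - normSq c) := by
    calc _ ≤ ∑ i, t i * √(y - normSq c) := Finset.sum_le_sum fun i _ => by
          rw [norm_mul, norm_real, Real.norm_eq_abs, abs_of_nonneg (t0 i)]
          exact mul_le_mul_of_nonneg_left (far' _ (hw i)) (t0 i)
      _ = _ := by rw [← Finset.sum_mul, t1, one_mul]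
  rw [e4, ofReal_re] at h1
  have h2 := h1.trans (mul_le_mul_of_nonneg_left e5 hρ)
  obtain ⟨w0, hw0⟩ := hne
  have h3 := Real.sq_sqrt ((normSq_nonneg _).trans (far w0 hw0))
  refine ⟨c, fun w hw => (far' w hw).trans ?_⟩
  by_contra hc
  have := Real.sqrt_nonneg (y - normSq c)
  nlinarith [not_le.1 hc]

theorem all_ball {A : Set ℂ} {ρ : ℝ} (hρ : 0 ≤ ρ) (h : Du A ρ) : ∃ c, ∀ w ∈ A, ‖w - c‖ ≤ ρ := by
  rcases A.eq_empty_or_nonempty with rfl | ⟨w0, hw0⟩
  · exact ⟨0, fun _ h => h.elim⟩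
  obtain ⟨c, -, hc⟩ := (isCompact_closedBall w0 ρ).inter_iInter_nonempty
    (fun w : A => closedBall (w : ℂ) ρ) (fun _ => isClosed_closedBall) fun u => by
      obtain ⟨c, hc⟩ := fin_ball (A := insert w0 (Subtype.val '' (u : Set A)))
        ((u.finite_toSet.image _).insert _) (insert_nonempty _ _) hρ fun n α w hw =>
          h n α w fun k => by
            rcases hw k with h1 | ⟨x, -, h1⟩
            · rwa [h1]
            · rw [← h1]; exact x.2
      refine ⟨c, mem_closedBall_iff_norm'.2 (hc _ (mem_insert _ _)), mem_iInter₂.2 fun x hx =>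
        mem_closedBall_iff_norm'.2 (hc _ (mem_insert_of_mem _ ⟨x, hx, rfl⟩))⟩
  exact ⟨c, fun w hw => mem_closedBall_iff_norm'.1 (mem_iInter.1 hc ⟨w, hw⟩)⟩

end KoEnc

theorem enc_pf : S_Enc := by
  intro f G S r _ hr h
  have step : ∀ n : ℕ, ∃ c, ∀ᶠ z in 𝓝ˢ S ⊓ 𝓟 G, ‖f z - c‖ ≤ r + 1 / ((n : ℝ) + 1) := by
    intro n
    obtain ⟨δ, hδ, h1⟩ := h (1 / ((n : ℝ) + 1)) (by positivity)
    obtain ⟨c, hc⟩ := KoEnc.all_ball (A := f '' {z | z ∈ G ∧ infDist z S < δ})
      (ρ := r + 1 / ((n : ℝ) + 1)) (by positivity) fun m α w hw h0 => by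
        choose z hz hzw using hw
        simpa only [hzw] using h1 m α z hz h0
    refine ⟨c, eventually_inf_principal.2 ?_⟩
    have : {z | infDist z S < δ} ∈ 𝓝ˢ S :=
      (isOpen_lt (continuous_infDist_pt S) continuous_const).mem_nhdsSet.2 fun z hz => by
        show infDist z S < δ
        rwa [infDist_zero_of_mem hz]
    filter_upwards [this] with z hz hG using hc _ ⟨z, ⟨hG, hz⟩, rfl⟩
  rcases (𝓝ˢ S ⊓ 𝓟 G).eq_or_neBot with h0 | h0
  · exact ⟨0, fun ε _ => eventually_inf_principal.1 (by rw [h0]; exact eventually_bot)⟩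
  choose c hc using step
  have le1 : ∀ n : ℕ, 1 / ((n : ℝ) + 1) ≤ 1 := fun n => by
    rw [div_le_one (by positivity)]; linarith [Nat.cast_nonneg (α := ℝ) n]
  obtain ⟨a, -, φ, hφ, ha⟩ := (isCompact_closedBall (c 0) (2 * r + 2)).tendsto_subseq
    (x := c) fun n => by
      obtain ⟨z, h1, h2⟩ := ((hc n).and (hc 0)).exists
      rw [mem_closedBall, dist_eq_norm]
      have := norm_sub_le_norm_sub_add_norm_sub (c n) (f z) (c 0)
      rw [norm_sub_rev (c n) (f z)] at this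
      linarith [le1 n, le1 0]
  refine ⟨a, fun ε hε => eventually_inf_principal.1 ?_⟩
  have t1 := (tendsto_one_div_add_atTop_nhds_zero_nat (𝕜 := ℝ)).comp hφ.tendsto_atTop
  obtain ⟨n, h1, h2⟩ := ((t1.eventually (gt_mem_nhds (half_pos hε))).and
    (ha.eventually (ball_mem_nhds a (half_pos hε)))).exists
  filter_upwards [hc (φ n)] with z hz
  have h3 : ‖c (φ n) - a‖ < ε / 2 := mem_ball_iff_norm.1 h2
  have h4 : 1 / ((φ n : ℝ) + 1) < ε / 2 := h1
  linarith [norm_sub_le_norm_sub_add_norm_sub (f z) (c (φ n)) a]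

end Vale.Agent.P116
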