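import Vale.Agent.P116.KoBase

open Set Filter Topology MeasureTheory Metric Complex
open scoped ENNReal ComplexConjugate Real

noncomputable section
namespace Vale.Agent.P116

namespace KoEnergy

theorem jac_eq (W : ℂ → ℂ) (z : ℂ) :
    (((‖dz W z‖ ^ 2 - ‖db W z‖ ^ 2 : ℝ)) : ℂ) = I / 2 * br W (fun w => conj (W w)) z := by
  rw [← br_eq, ← conj_dz, ← conj_db, mul_conj, mul_conj, Complex.normSq_eq_norm_sq,
    Complex.normSq_eq_norm_sq]
  push_cast
  ring

theorem int_sq {g : ℂ → ℂ} (hg : Continuous g) (hs : HasCompactSupport g) :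
    Integrable fun z => ‖g z‖ ^ 2 := by
  refine (hg.norm.pow 2).integrable_of_hasCompactSupport ?_
  exact hs.mono fun z hz h0 => hz (by simp [h0])

theorem int_jac (hIbp : S_Ibp) {W : ℂ → ℂ} (hW : ContDiff ℝ 2 W) (hs : HasCompactSupport W) :
    ∫ z, (‖dz W z‖ ^ 2 - ‖db W z‖ ^ 2) = 0 := by
  have h1 : ContDiff ℝ 1 W := hW.of_le (by norm_num)
  have hc : ContDiff ℝ 2 fun w => conj (W w) := conjCLE.contDiff.comp hW
  have h := (hIbp.2 univ (tsupport W) W (fun w => conj (W w)) isOpen_univ hs (subset_univ _)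
    h1.contDiffOn hc (fun z hz => by
      ext v
      rw [fderiv_conj, fderiv_of_notMem_tsupport ℝ hz]
      simp)).2
  have e : ((∫ z, (‖dz W z‖ ^ 2 - ‖db W z‖ ^ 2) : ℝ) : ℂ) = 0 := by
    rw [← integral_complex_ofReal]
    have : (fun z => ((‖dz W z‖ ^ 2 - ‖db W z‖ ^ 2 : ℝ) : ℂ)) =
        fun z => I / 2 * br W (fun w => conj (W w)) z := funext fun z => jac_eq W z
    refine (congrArg (integral volume) this).trans ?_
    rw [integral_const_mul, h, mul_zero]
  exact_mod_cast e

theorem int_dz (hIbp : S_Ibp) {W : ℂ → ℂ} (hW : ContDiff ℝ 1 W) (hs : HasCompactSupport W) :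
    ∫ z, dz W z = 0 := by
  have hc := hW.continuous_fderiv one_ne_zero
  have hi : ∀ v : ℂ, Integrable fun z => fderiv ℝ W z v := fun v =>
    (by fun_prop : Continuous fun z => fderiv ℝ W z v).integrable_of_hasCompactSupport
      (hs.fderiv_apply ℝ v)
  have e : (fun z => dz W z) =
      fun z => 1 / 2 * fderiv ℝ W z 1 - I / 2 * fderiv ℝ W z I := by
    funext z
    rw [dz]
    ring
  rw [e, integral_sub ((hi 1).const_mul _) ((hi I).const_mul _), integral_const_mul,
    integral_const_mul, hIbp.1 W 1 hW hs, hIbp.1 W I hW hs]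
  simp

theorem sq_le (hIso : S_Iso) (hGreen : S_Green) {H : ℂ → ℂ} (hH : ContDiff ℝ 2 H) {a b s : ℝ}
    (hs : 0 < s) (h0 : ∀ z ∈ sq a b s, s / 4 ≤ ‖z - cen a b s‖ →
      fderiv ℝ H z (z - cen a b s) = 0) :
    ∫ z in sq a b s, (‖dz H z‖ ^ 2 - ‖db H z‖ ^ 2) ≤
      1 / (4 * π) * len H (cen a b s) (s / 4) ^ 2 := by
  have hsub : ball (cen a b s) (s / 4) ⊆ sq a b s :=
    (ball_subset_closedBall.trans (closedBall_subset_closedBall (by linarith))).trans
      (closedBall_subset_sq a b s)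
  rw [setIntegral_eq_of_subset_of_forall_diff_eq_zero (measurableSet_sq a b s) hsub]
  · rw [hGreen H _ _ hH (by linarith)]
    refine hIso (fun t => H (circleMap (cen a b s) (s / 4) t)) ?_ ?_
    · exact (hH.of_le (by norm_num)).comp (contDiff_circleMap _ _)
    · have := periodic_circleMap (cen a b s) (s / 4) 0
      rw [zero_add] at this
      simp only [this]
  · rintro z ⟨hz, hz'⟩
    rw [mem_ball, dist_eq_norm, not_lt] at hz'
    have h := h0 z hz hz'
    rw [fderiv_eq_dz_db] at h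
    have hv : 0 < ‖z - cen a b s‖ := by linarith
    have h2 : dz H z * (z - cen a b s) = -(db H z * conj (z - cen a b s)) := by
      linear_combination h
    have h3 := congrArg norm h2
    rw [norm_neg, norm_mul, norm_mul, norm_conj] at h3
    rw [mul_right_cancel₀ hv.ne' h3, sub_self]

end KoEnergy

open KoEnergy in
theorem energy_pf (hIbp : S_Ibp) (hIso : S_Iso) (hGreen : S_Green) : S_Energy := by
  intro ι _ a b s R χ H hC hχ hH
  have hK := isCompact_KK a b s
  have hKm : MeasurableSet (KK a b s) := hK.isClosed.measurableSet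
  have hH2 : ContDiff ℝ 2 H := hH.1.of_le (WithTop.coe_le_coe.2 le_top)
  have hH1 : ContDiff ℝ 1 H := hH2.of_le (by norm_num)
  have hP2 : ContDiff ℝ 2 fun w => w * (χ w : ℂ) := 
    hχ.contDiff.of_le (WithTop.coe_le_coe.2 le_top)
  have hP1 : ContDiff ℝ 1 fun w => w * (χ w : ℂ) := hP2.of_le (by norm_num)
  obtain ⟨W, hW⟩ : ∃ W : ℂ → ℂ, W = fun w => H w - w * (χ w : ℂ) := ⟨_, rfl⟩
  have hW2 : ContDiff ℝ 2 W := hW ▸ hH2.sub hP2
  have hW1 : ContDiff ℝ 1 W := hW2.of_le (by norm_num)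
  have hWs : HasCompactSupport W := hW ▸ hH.2.1.sub hχ.supp
  have hu : ∀ z, dz W z = dz H z - ph χ z := fun z => by
    rw [hW, dz_sub (hH1.differentiable one_ne_zero z) (hP1.differentiable one_ne_zero z), ph]
  have hdb : ∀ z ∈ KK a b s, db W z = db H z := fun z hz => by
    have : (fun w => w * (χ w : ℂ)) =ᶠ[𝓝 z] fun w => w := by
      filter_upwards [isOpen_ball.mem_nhds (hC.sub hz)] with w hw
      simp [hχ.2.2 w hw]
    rw [hW, db_sub (hH1.differentiable one_ne_zero z) (hP1.differentiable one_ne_zero z),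
      db_congr this, db_of_hasDerivAt (hasDerivAt_id' z), sub_zero]
  have i1 := int_sq (continuous_dz hW1) (hasCompactSupport_dz hWs)
  have i2 := int_sq (continuous_db hW1) (hasCompactSupport_db hWs)
  have i3 : Integrable (dz H) :=
    (continuous_dz hH1).integrable_of_hasCompactSupport (hasCompactSupport_dz hH.2.1)
  have j1 := int_sq (continuous_dz hH1) (hasCompactSupport_dz hH.2.1)
  have j2 := int_sq (continuous_db hH1) (hasCompactSupport_db hH.2.1)
  have hJ := int_jac hIbp hW2 hWs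
  have i12 : Integrable fun z => ‖dz W z‖ ^ 2 - ‖db W z‖ ^ 2 := i1.sub i2
  have j12 : Integrable fun z => ‖dz H z‖ ^ 2 - ‖db H z‖ ^ 2 := j1.sub j2
  rw [← integral_add_compl hKm i12] at hJ
  have hD := int_dz hIbp hH1 hH.2.1
  rw [← integral_add_compl hKm i3] at hD
  have hD' := congrArg re hD
  rw [add_re, zero_re] at hD'
  have r3 : Integrable fun z => (dz H z).re := i3.re
  have hre : (∫ z in KK a b s, dz H z).re = ∫ z in KK a b s, (dz H z).re :=
    (integral_re i3.integrableOn).symm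
  have hon : ∫ z in KK a b s, (‖dz W z‖ ^ 2 - ‖db W z‖ ^ 2) =
      (∫ z in KK a b s, (‖dz H z‖ ^ 2 - ‖db H z‖ ^ 2)) - 2 * (∫ z in KK a b s, (dz H z).re) +
        volume.real (KK a b s) := by
    have e : ∫ z in KK a b s, (‖dz W z‖ ^ 2 - ‖db W z‖ ^ 2) = ∫ z in KK a b s,
        (((‖dz H z‖ ^ 2 - ‖db H z‖ ^ 2) - 2 * (dz H z).re) + 1) := by
      refine setIntegral_congr_fun hKm fun z hz => ?_
      simp only [hu, hdb z hz, hχ.ph_eq_one (hC.sub hz), ← Complex.normSq_eq_norm_sq,
        normSq_apply, sub_re, sub_im, one_re, one_im]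
      ring
    have k1 : IntegrableOn (fun z => (‖dz H z‖ ^ 2 - ‖db H z‖ ^ 2) - 2 * (dz H z).re)
        (KK a b s) := (j12.sub (r3.const_mul 2)).integrableOn
    have k2 : IntegrableOn (fun _ : ℂ => (1 : ℝ)) (KK a b s) :=
      integrableOn_const hK.measure_lt_top.ne
    have k3 : IntegrableOn (fun z => 2 * (dz H z).re) (KK a b s) :=
      (r3.const_mul 2).integrableOn
    rw [e, integral_add k1 k2, integral_sub j12.integrableOn k3, integral_const_mul]
    simp
  have hoff : ∫ z in (KK a b s)ᶜ, (‖dz W z‖ ^ 2 - ‖db W z‖ ^ 2) ≤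
      ∫ z in (KK a b s)ᶜ, ‖dz H z - ph χ z‖ ^ 2 := by
    simp only [← hu]
    refine integral_mono i12.integrableOn i1.integrableOn fun z => ?_
    have := pow_nonneg (norm_nonneg (db W z)) 2
    simp only
    linarith
  have hsum : ∫ z in KK a b s, (‖dz H z‖ ^ 2 - ‖db H z‖ ^ 2) ≤
      1 / (4 * π) * ∑ j, len H (cen (a j) (b j) (s j)) (s j / 4) ^ 2 := by
    rw [KK, integral_iUnion_fintype (fun j => measurableSet_sq _ _ _) hC.dis
      (fun j => j12.integrableOn), Finset.mul_sum]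
    exact Finset.sum_le_sum fun j _ => sq_le hIso hGreen hH2 (hC.pos j) (hH.2.2 j)
  linarith

end Vale.Agent.P116
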