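import Vale.Agent.P116.KoBase

open Set Filter Topology MeasureTheory Metric Complex
open scoped ENNReal ComplexConjugate Real

noncomputable section
namespace Vale.Agent.P116

namespace KoExt

theorem len_zero {H : ℂ → ℂ} (hH : Differentiable ℝ H) {c : ℂ} {ρ : ℝ}
    (h : ∀ t, fderiv ℝ H (circleMap c ρ t) = 0) : len H c ρ = 0 := by
  have h1 : ∀ θ, deriv (fun t => H (circleMap c ρ t)) θ = 0 := fun θ => by
    have h2 := ((hH _).hasFDerivAt.comp_hasDerivAt θ (hasDerivAt_circleMap c ρ θ)).deriv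
    rw [h θ] at h2
    exact h2
  simp [len, h1]

theorem orth {ι : Type} [Fintype ι] {a b s r : ι → ℝ} {R : ℝ} (hc : Cfg a b s R) {g : ℂ → ℂ}
    (hv : ∀ H, KAdm a b s H → 0 ≤ (∫ z in (KK a b s)ᶜ, g z * conj (dz H z)).re +
      1 / 2 * ∑ j, r j * len H (cen (a j) (b j) (s j)) (s j / 4))
    {H : ℂ → ℂ} (h1 : ContDiff ℝ (⊤ : ℕ∞) H) (h2 : HasCompactSupport H)
    (h3 : ∀ z ∈ KK a b s, fderiv ℝ H z = 0) :
    ∫ z in (KK a b s)ᶜ, g z * conj (dz H z) = 0 := by
  have hd : Differentiable ℝ H := h1.differentiable (by simp)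
  have key : ∀ μ : ℂ, 0 ≤ (conj μ * ∫ z in (KK a b s)ᶜ, g z * conj (dz H z)).re := by
    intro μ
    have d1 : ContDiff ℝ (⊤ : ℕ∞) fun w => μ * H w := contDiff_const.mul h1
    have d2 : ∀ z ∈ KK a b s, fderiv ℝ (fun w => μ * H w) z = 0 := fun z hz => by
      rw [fderiv_const_mul (hd z), h3 z hz, smul_zero]
    have d3 := hv (fun w => μ * H w) ⟨d1, h2.mul_left, fun j z hz _ => by
      rw [d2 z (sq_subset_KK j hz)]
      rfl⟩
    have d4 : ∀ j, len (fun w => μ * H w) (cen (a j) (b j) (s j)) (s j / 4) = 0 := fun j => by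
      refine len_zero (d1.differentiable (by simp)) fun t => d2 _ (sq_subset_KK j ?_)
      have p := hc.pos j
      exact closedBall_subset_sq _ _ _ (closedBall_subset_closedBall (by linarith)
        (circleMap_mem_closedBall _ (by linarith) t))
    have d5 : ∀ z, g z * conj (dz (fun w => μ * H w) z) = conj μ * (g z * conj (dz H z)) :=
      fun z => by
        rw [dz_mul (differentiableAt_const μ) (hd z), dz_of_hasDerivAt (hasDerivAt_const z μ),
          mul_zero, add_zero, map_mul]
        ring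
    simp only [d4, d5, mul_zero, Finset.sum_const_zero, add_zero, integral_const_mul] at d3
    exact d3
  have h4 := key (-∫ z in (KK a b s)ᶜ, g z * conj (dz H z))
  rw [map_neg, neg_mul, ← Complex.normSq_eq_conj_mul_self, neg_re, ofReal_re] at h4
  exact normSq_eq_zero.1 (le_antisymm (by linarith) (normSq_nonneg _))

end KoExt

theorem ext_pf (hVar : S_Var) (hWeyl : S_Weyl) (hPrim : S_Prim) : S_Ext := by
  intro ι _ a b s R χ hc hχ
  obtain ⟨u, r, hu, hr, hv, he⟩ := hVar ι a b s R χ hc hχ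
  have hG := isOpen_G a b s
  have hl : LocallyIntegrableOn (fun z => 1 + u z) (KK a b s)ᶜ :=
    (locallyIntegrable_const (1 : ℂ)).locallyIntegrableOn _ |>.add
      (locallyIntegrableOn_of_locallyIntegrable_restrict (hu.locallyIntegrable (by norm_num)))
  obtain ⟨F, hF, hFu⟩ := hWeyl _ _ hG hl fun H h1 h2 h3 =>
    KoExt.orth hc hv h1 h2 fun z hz => by
      by_contra h4
      exact h3 (support_fderiv_subset ℝ h4) hz
  have i1 : IntegrableOn (fun z => ‖u z‖ ^ 2) (KK a b s)ᶜ :=
    (memLp_two_iff_integrable_sq_norm hu.1).1 hu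
  have i2 : IntegrableOn (fun z => ‖F z - 1‖ ^ 2) (KK a b s)ᶜ := by
    refine i1.congr ?_
    filter_upwards [hFu] with z hz
    rw [hz, add_sub_cancel_left]
  obtain ⟨f, f1, f2⟩ := hPrim ι a b s R F hc hF i2 fun j κ hκ => by
    have h1 := KoExt.orth hc hv (contDiff_ofReal hκ.1) (hκ.2.1.comp_left (g := ofReal) rfl)
      fun z hz => by
        obtain ⟨k, hk⟩ := mem_KK.1 hz
        by_cases hkj : k = j
        · subst hkj
          have h2 : (fun w => (κ w : ℂ)) =ᶠ[𝓝 z] fun _ => 1 := by
            filter_upwards [hκ.2.2.1.filter_mono (nhds_le_nhdsSet hk)] with w hw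
            rw [hw, ofReal_one]
          rw [h2.fderiv_eq, fderiv_fun_const]
          rfl
        · have h2 : (fun w => (κ w : ℂ)) =ᶠ[𝓝 z] fun _ => 0 := by
            filter_upwards [notMem_tsupport_iff_eventuallyEq.1
              (Set.disjoint_right.1 (hκ.2.2.2 k hkj) hk)] with w hw
            rw [hw]
            rfl
          rw [h2.fderiv_eq, fderiv_fun_const]
          rfl
    rw [← h1]
    refine integral_congr_ae ?_
    filter_upwards [hFu] with z hz
    rw [hz, conj_dz_real]
  have hd : ∀ᵐ z ∂(volume.restrict (KK a b s)ᶜ), deriv f z = 1 + u z := by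
    filter_upwards [hFu, ae_restrict_mem hG.measurableSet] with z hz hz'
    rw [(f1 z hz').deriv, hz]
  refine ⟨f, r, fun z hz => (f1 z hz).differentiableAt.differentiableWithinAt, f2, i1.congr ?_, hr,
    fun H hH => ?_, ?_⟩
  · filter_upwards [hd] with z hz
    rw [hz, add_sub_cancel_left]
  · have e : ∫ z in (KK a b s)ᶜ, deriv f z * conj (dz H z) =
        ∫ z in (KK a b s)ᶜ, (1 + u z) * conj (dz H z) := by
      refine integral_congr_ae ?_
      filter_upwards [hd] with z hz
      rw [hz]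
    rw [e]
    exact hv H hH
  · have e1 : ∫ z in (KK a b s)ᶜ, ‖deriv f z - 1‖ ^ 2 = ∫ z in (KK a b s)ᶜ, ‖u z‖ ^ 2 := by
      refine integral_congr_ae ?_
      filter_upwards [hd] with z hz
      rw [hz, add_sub_cancel_left]
    have e2 : ∫ z in (KK a b s)ᶜ, (deriv f z - 1) * conj (ph χ z) =
        ∫ z in (KK a b s)ᶜ, u z * conj (ph χ z) := by
      refine integral_congr_ae ?_
      filter_upwards [hd] with z hz
      rw [hz, add_sub_cancel_left]
    rw [e1, e2]
    exact he

end Vale.Agent.P116
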