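import Vale.Agent.P116.KoBase

open Set Filter Topology MeasureTheory Metric Complex
open scoped ENNReal ComplexConjugate Real

noncomputable section
namespace Vale.Agent.P116

namespace KoFin

theorem nonconst {K : Set ℂ} (hK : IsCompact K) {f : ℂ → ℂ}
    (h : Tendsto (fun z => f z - z) (cocompact ℂ) (𝓝 0)) : ¬ ∃ w, ∀ z ∈ Kᶜ, f z = w := by
  rintro ⟨w, hw⟩
  obtain ⟨z, h1, h2, h3⟩ := ((h.eventually (ball_mem_nhds 0 one_pos)).and
    (Eventually.and hK.compl_mem_cocompact (isCompact_closedBall w 1).compl_mem_cocompact)).exists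
  rw [hw z h2, dist_zero_right] at h1
  exact h3 (mem_closedBall'.2 (dist_eq_norm w z ▸ h1.le))

end KoFin

open KoFin in
theorem fin_pf : S_Fin := by
  intro ι _ a b s R f c r hC hf hi hr hcl hu h0
  have hG := isOpen_G a b s
  have han := hf.analyticOnNhd hG
  have hn := nonconst (isCompact_KK a b s) hi
  have hop := (han.is_constant_or_isOpen hC.con).resolve_left hn
  have h1 : ∀ j, ∀ z ∈ (KK a b s)ᶜ, f z ∉ ball (c j) (r j) := by
    intro j z hz hb
    have hU := hf.continuousOn.isOpen_inter_preimage hG (isOpen_ball (x := c j) (ε := r j))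
    have h2 := Measure.eqOn_open_of_ae_eq (μ := volume) (f := deriv f) (g := 0)
      (ae_restrict_of_ae_restrict_of_subset (inter_subset_inter_right _ (preimage_mono
        (ball_subset_closedBall.trans (subset_iUnion (fun j => closedBall (c j) (r j)) j)))) h0)
      hU (han.deriv.continuousOn.mono inter_subset_left) continuousOn_const
    exact hn (hG.exists_is_const_of_deriv_eq_zero hC.con hf
      (han.deriv.eqOn_zero_of_preconnected_of_eventuallyEq_zero hC.con hz
        (h2.eventuallyEq_of_mem (hU.mem_nhds ⟨hz, hb⟩))))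
  have h2 : ∀ j, r j ≠ 0 → ∀ z ∈ (KK a b s)ᶜ, f z ∉ closedBall (c j) (r j) := by
    intro j hj z hz hb
    rw [← closure_ball _ hj] at hb
    obtain ⟨_, ⟨w, hw, rfl⟩, h3⟩ :=
      mem_closure_iff.1 hb _ (hop _ Subset.rfl hG) (mem_image_of_mem f hz)
    exact h1 j w hw h3
  have h3 : ∀ z ∈ (KK a b s)ᶜ, f z ∉ ⋃ j, closedBall (c j) (r j) := by
    intro z hz hb
    obtain ⟨j, hj⟩ := mem_iUnion.1 hb
    have hr0 : r j = 0 := by_contra fun h => h2 j h z hz hj
    rw [hr0, closedBall_zero, mem_singleton_iff] at hj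
    obtain ⟨t, ht, hV⟩ := nhds_basis_closedBall.mem_iff.1 (hG.mem_nhds hz)
    have hV' := ball_subset_closedBall.trans hV
    have hO := hop _ hV' isOpen_ball
    obtain ⟨η, hη, hb'⟩ := Metric.isOpen_iff.1 hO _ (mem_image_of_mem f (mem_ball_self ht))
    have hW := (hf.continuousOn.mono (sdiff_subset (t := closedBall z t))).isOpen_inter_preimage
      (hG.sdiff isClosed_closedBall) hO
    obtain ⟨p, hp, hp'⟩ := hC.front j
    obtain ⟨w, w1, w2, w3⟩ := ((mem_closure_iff_frequently.1 hp').and_eventually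
      (((hcl j (η / 2) (half_pos hη)).filter_mono (nhds_le_nhdsSet hp)).and
        (isClosed_closedBall.isOpen_compl.mem_nhds
          fun h : p ∈ closedBall z t => hV h (sq_subset_KK j hp)))).exists
    have w4 : f w ∈ f '' ball z t := hb' (by
      have := w2 w1
      rw [mem_ball, dist_eq_norm, hj]
      linarith)
    obtain ⟨_, ⟨x, hx, rfl⟩, h4⟩ := (infinite_of_mem_nhds _ ((hop _
      (inter_subset_left.trans sdiff_subset) hW).mem_nhds
        (mem_image_of_mem f ⟨⟨w1, w3⟩, w4⟩))).exists_notMem_finite (finite_range c)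
    obtain ⟨y, hy, e⟩ := hx.2
    have h5 : f x ∉ ⋃ j, closedBall (c j) (r j) := fun h => by
      obtain ⟨k, hk⟩ := mem_iUnion.1 h
      have hk0 : r k = 0 := by_contra fun h => h2 k h x hx.1.1 hk
      rw [hk0, closedBall_zero, mem_singleton_iff] at hk
      exact h4 ⟨k, hk.symm⟩
    have h6 : x = y := (hu _ h5).unique ⟨hx.1.1, rfl⟩ ⟨hV' hy, e⟩
    exact hx.1.2 (h6 ▸ ball_subset_closedBall hy)
  refine ⟨hf, fun x hx y hy e => (hu _ (h3 x hx)).unique ⟨hx, rfl⟩ ⟨hy, e.symm⟩, hi, hr,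
    Subset.antisymm ?_ fun w hw => ?_, hcl⟩
  · rintro _ ⟨z, hz, rfl⟩
    exact h3 z hz
  · obtain ⟨z, hz, -⟩ := hu w hw
    exact ⟨z, hz⟩

end Vale.Agent.P116
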