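import Vale.Agent.P116.KoBase

open Set Filter Topology MeasureTheory Metric Complex
open scoped ENNReal ComplexConjugate Real

noncomputable section
namespace Vale.Agent.P116

namespace KoFk

theorem vol_cb (c : ℂ) (r : ℝ) : volume.real (closedBall c r) ≤ π * r ^ 2 := by
  rw [Measure.real, Complex.volume_closedBall, ENNReal.toReal_mul, ENNReal.toReal_pow,
    ENNReal.toReal_ofReal', ENNReal.coe_toReal, NNReal.coe_real_pi, mul_comm]
  refine mul_le_mul_of_nonneg_left (sq_le_sq.2 ?_) Real.pi_pos.le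
  rw [abs_of_nonneg (le_max_right _ _)]
  exact max_le (le_abs_self r) (abs_nonneg r)

theorem cross {A : Set ℂ} {u p : ℂ → ℂ} (hm : AEStronglyMeasurable u (volume.restrict A))
    (hu : IntegrableOn (fun z => ‖u z‖ ^ 2) A) (hp : Continuous p)
    (hp' : Integrable fun z => ‖p z‖ ^ 2) :
    -(2 * (∫ z in A, u z * conj (p z)).re) ≤ (∫ z in A, ‖u z‖ ^ 2) / 2 + 2 * ∫ z, ‖p z‖ ^ 2 := by
  have i1 : IntegrableOn (fun z => u z * conj (p z)) A :=
    integrableOn_mul_of_sq hm (continuous_conj.comp hp).aestronglyMeasurable hu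
      (by simpa only [norm_conj] using hp'.integrableOn)
  have h1 : ∫ z in A, ‖p z‖ ^ 2 ≤ ∫ z, ‖p z‖ ^ 2 :=
    setIntegral_le_integral hp' (Eventually.of_forall fun z => sq_nonneg _)
  have h2 : ‖∫ z in A, u z * conj (p z)‖ ≤ ∫ z in A, (‖u z‖ ^ 2 / 4 + ‖p z‖ ^ 2) := by
    refine norm_integral_le_of_norm_le ((hu.div_const 4).add hp'.integrableOn)
      (Eventually.of_forall fun z => ?_)
    rw [norm_mul, norm_conj]
    nlinarith [sq_nonneg (‖u z‖ / 2 - ‖p z‖)]
  rw [integral_add (hu.div_const 4) hp'.integrableOn, integral_div] at h2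
  linarith [neg_abs_le (∫ z in A, u z * conj (p z)).re,
    abs_re_le_norm (∫ z in A, u z * conj (p z))]

theorem int_sq {p : ℂ → ℂ} (hp : Continuous p) (h : HasCompactSupport p) :
    Integrable fun z => ‖p z‖ ^ 2 := by
  have h1 : Continuous fun z => ‖p z‖ ^ 2 := by fun_prop
  refine h1.integrable_of_hasCompactSupport (h.mono fun z hz h0 => hz ?_)
  simp [h0]

end KoFk

open KoFk in
theorem fk_pf (hExt : S_Ext) (hClu : S_Clu) (hNone : S_None) (hArea : S_Area) (hCov : S_Cov)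
    (hFin : S_Fin) (hDis : S_Dis) : S_Fk := by
  intro R
  obtain ⟨χ, hχ⟩ := cut_ex R
  refine ⟨2 * (π * R ^ 2 + 2 * ∫ z, ‖ph χ z‖ ^ 2), fun ι _ a b s hc => ?_⟩
  obtain ⟨f, r, hE⟩ := hExt ι a b s R χ hc hχ
  choose c hC using fun j => hClu ι a b s R χ f r j hc hE
  have hN := hNone ι a b s R f c r hc hE.hol hE.inf hE.nn hC
  have hK := isCompact_KK a b s
  have hG := isOpen_G a b s
  set R' := 2 + ∑ j, (‖c j‖ + r j) with hR'
  have hle : ∀ j, ‖c j‖ + r j + 2 ≤ R' := fun j => by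
    have := Finset.single_le_sum (f := fun j => ‖c j‖ + r j)
      (fun j _ => add_nonneg (norm_nonneg _) (hE.nn j)) (Finset.mem_univ j)
    linarith
  obtain ⟨κ, hκ⟩ := cut_ex R'
  have hD : IsCompact (⋃ j, closedBall (c j) (r j)) :=
    isCompact_iUnion fun j => isCompact_closedBall _ _
  have hD' : (⋃ j, closedBall (c j) (r j)) ⊆ ball 0 R' := by
    refine iUnion_subset fun j w hw => mem_ball_zero_iff.2 ?_
    linarith [norm_le_insert' w (c j), mem_closedBall_iff_norm.1 hw, hle j]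
  have hn : ∀ᶠ z in 𝓝ˢ (KK a b s), z ∉ KK a b s → ‖f z‖ < R' := by
    refine eventually_nhdsSet_iff_forall.2 fun x hx => ?_
    obtain ⟨j, hj⟩ := mem_KK.1 hx
    filter_upwards [nhds_le_nhdsSet hj (hC j 1 one_pos)] with z hz hz'
    linarith [norm_le_insert' (f z) (c j), hz hz', hle j]
  have hA := hArea _ R R' χ κ f hK hc.sub hχ hκ hE.hol hE.inf hE.int hn
  obtain ⟨i1, hV⟩ := hCov _ _ R' κ f hK hD hD' hκ hE.hol hE.inf hE.int hN
  have v1 : volume.real (⋃ j, closedBall (c j) (r j)) ≤ π * ∑ j, r j ^ 2 := by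
    rw [Finset.mul_sum]
    exact (measureReal_iUnion_fintype_le _).trans (Finset.sum_le_sum fun j _ => vol_cb _ _)
  have e := hE.ene
  have z1 : ∫ z in (KK a b s)ᶜ ∩ f ⁻¹' ⋃ j, closedBall (c j) (r j), ‖deriv f z‖ ^ 2 = 0 :=
    le_antisymm (by linarith) (integral_nonneg fun z => sq_nonneg _)
  rw [setIntegral_eq_zero_iff_of_nonneg_ae (Eventually.of_forall fun z => sq_nonneg _) i1] at z1
  have hF := hFin ι a b s R f c r hc hE.hol hE.inf hE.nn hC hN (by
    filter_upwards [z1] with z hz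
    simpa using hz)
  have v2 : volume.real (KK a b s) ≤ π * R ^ 2 :=
    (measureReal_mono (hc.sub.trans ball_subset_closedBall)
      (isCompact_closedBall _ _).measure_ne_top).trans (vol_cb _ _)
  have ip : Integrable fun z => ‖ph χ z‖ ^ 2 :=
    int_sq hχ.continuous_ph hχ.supp_ph
  have cr := cross (A := (KK a b s)ᶜ) (u := fun z => deriv f z - 1)
    ((measurable_deriv f).sub_const 1).aestronglyMeasurable hE.int hχ.continuous_ph ip
  have p1 : 0 ≤ ∫ z in (KK a b s)ᶜ, ‖deriv f z - 1‖ ^ 2 := integral_nonneg fun z => sq_nonneg _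
  have p2 : 0 ≤ ∑ j, r j ^ 2 := Finset.sum_nonneg fun j _ => sq_nonneg _
  have p3 : ∑ j, r j ^ 2 ≤ π * ∑ j, r j ^ 2 :=
    le_mul_of_one_le_left p2 (by linarith [Real.pi_gt_three])
  exact ⟨f, c, r, hDis ι a b s R f c r hc hF, hE.int, by linarith, by linarith⟩

end Vale.Agent.P116
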