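import Vale.Agent.P116.KoBase

open Set Filter Topology MeasureTheory Metric Complex
open scoped ENNReal ComplexConjugate Real

noncomputable section
namespace Vale.Agent.P116

namespace KoGlue

theorem far {ρ : ℝ} (h : 0 ≤ ρ) : IsPreconnected {z : ℂ | ρ < ‖z‖} := by
  have e : {z : ℂ | ρ < ‖z‖} =
      (fun q : ℝ × ℝ => (q.1 : ℂ) * exp (q.2 * I)) '' (Ioi ρ ×ˢ univ) := by
    ext z
    constructor
    · exact fun hz => ⟨(‖z‖, arg z), ⟨hz, trivial⟩, norm_mul_exp_arg_mul_I z⟩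
    · rintro ⟨q, hq, rfl⟩
      show ρ < ‖(q.1 : ℂ) * exp (q.2 * I)‖
      rw [norm_mul, norm_exp_ofReal_mul_I, mul_one, norm_real,
        Real.norm_of_nonneg (h.trans (le_of_lt hq.1))]
      exact hq.1
  rw [e]
  exact (isPreconnected_Ioi.prod isPreconnected_univ).image _ (by fun_prop)

theorem ev_far (ρ : ℝ) : ∀ᶠ z : ℂ in cocompact ℂ, ρ < ‖z‖ :=
  tendsto_norm_cocompact_atTop.eventually (eventually_gt_atTop ρ)

end KoGlue

theorem glue_pf : S_Glue := by
  intro G u k R hG hm hc hR hk hl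
  obtain ⟨ρ, h0, hρ⟩ : ∃ ρ : ℝ, 0 ≤ ρ ∧ R ≤ ρ := ⟨max R 0, le_max_right _ _, le_max_left _ _⟩
  obtain ⟨p, hp⟩ := (KoGlue.ev_far ρ).exists
  obtain ⟨C, hC⟩ : ∃ C : ℕ → Set ℂ, ∀ n, C n = connectedComponentIn (G n) p := ⟨_, fun _ => rfl⟩
  have oC : ∀ n, IsOpen (C n) := fun n => hC n ▸ (hG n).connectedComponentIn
  have cC : ∀ n, IsPreconnected (C n) := fun n => hC n ▸ isPreconnected_connectedComponentIn
  have sC : ∀ n, C n ⊆ G n := fun n => hC n ▸ connectedComponentIn_subset _ _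
  have mC : ∀ n m, n ≤ m → C n ⊆ C m := fun n m h => by
    rw [hC, hC]
    exact connectedComponentIn_mono _ (hm h)
  have fC : ∀ n, {z : ℂ | ρ < ‖z‖} ⊆ C n := fun n => hC n ▸
    (KoGlue.far h0).subset_connectedComponentIn hp fun z hz => hR n z (hρ.trans_lt hz)
  have cov : (⋃ n, G n) ⊆ ⋃ n, C n := by
    refine hc.subset_of_closure_inter_subset (isOpen_iUnion oC)
      ⟨p, mem_iUnion.2 ⟨0, sC 0 (fC 0 hp)⟩, mem_iUnion.2 ⟨0, fC 0 hp⟩⟩ fun z hz => ?_
    obtain ⟨m, hzm⟩ := mem_iUnion.1 hz.2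
    obtain ⟨η, hη, hb⟩ := Metric.isOpen_iff.1 (hG m) z hzm
    obtain ⟨w, hw, hw'⟩ := mem_closure_iff.1 hz.1 _ isOpen_ball (mem_ball_self hη)
    obtain ⟨n, hn⟩ := mem_iUnion.1 hw'
    have h1 := mC n _ (le_max_right m n) hn
    refine mem_iUnion.2 ⟨max m n, ?_⟩
    rw [hC] at h1 ⊢
    rw [connectedComponentIn_eq h1]
    exact (convex_ball z η).isPreconnected.subset_connectedComponentIn hw
      (hb.trans (hm (le_max_left m n))) (mem_ball_self hη)
  have eq : ∀ n m, n ≤ m → EqOn (k m) (k n) (C n) := by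
    intro n m h
    obtain ⟨a, ha⟩ := (oC n).exists_eq_add_of_deriv_eq (cC n) (f := k m) (g := k n)
      (fun z hz => (hk m z (hm h (sC n hz))).differentiableAt.differentiableWithinAt)
      (fun z hz => (hk n z (sC n hz)).differentiableAt.differentiableWithinAt)
      fun z hz => (hk m z (hm h (sC n hz))).deriv.trans (hk n z (sC n hz)).deriv.symm
    have h1 : 0 = 0 + a := tendsto_nhds_unique_of_eventuallyEq (hl m) ((hl n).add_const a)
      ((KoGlue.ev_far ρ).mono fun z hz => ha (fC n hz))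
    rw [zero_add] at h1
    intro z hz
    rw [ha hz, ← h1]
    exact add_zero _
  obtain ⟨F, hF⟩ : ∃ F : ℂ → ℂ, ∀ n, ∀ z ∈ C n, F z = k n z := by
    refine ⟨fun z => k (Classical.epsilon fun n => z ∈ C n) z, fun n z hz => ?_⟩
    have h1 := Classical.epsilon_spec (p := fun n => z ∈ C n) ⟨n, hz⟩
    exact (eq _ _ (le_max_left _ n) h1).symm.trans (eq _ _ (le_max_right _ n) hz)
  refine ⟨F, fun z hz => ?_, (hl 0).congr' ((KoGlue.ev_far ρ).mono fun z hz =>
    (hF 0 z (fC 0 hz)).symm)⟩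
  obtain ⟨n, hn⟩ := mem_iUnion.1 (cov hz)
  exact (hk n z (sC n hn)).congr_of_eventuallyEq
    (Filter.eventually_of_mem ((oC n).mem_nhds hn) (hF n))

end Vale.Agent.P116
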