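import Vale.Agent.P116.KoBase

open Set Filter Topology MeasureTheory Metric Complex
open scoped ENNReal ComplexConjugate Real

noncomputable section
namespace Vale.Agent.P116

namespace KoGreen

theorem hasF {P : ℝ × ℝ → ℂ} (hP : ContDiff ℝ 2 P) (v p : ℝ × ℝ) :
    ∃ L : ℝ × ℝ →L[ℝ] ℝ, HasFDerivAt (fun q => (conj (P q) * fderiv ℝ P q v).im) L p ∧
      ∀ w, L w = (conj (fderiv ℝ P p w) * fderiv ℝ P p v +
        conj (P p) * fderiv ℝ (fderiv ℝ P) p w v).im := by
  have h1 : HasFDerivAt P (fderiv ℝ P p) p := (hP.differentiable (by simp) p).hasFDerivAt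
  have h2 : HasFDerivAt (fderiv ℝ P) (fderiv ℝ (fderiv ℝ P) p) p :=
    ((hP.fderiv_right (m := 1) (by norm_num)).differentiable (by simp) p).hasFDerivAt
  have h3 := h2.clm_apply (hasFDerivAt_const v p)
  have h4 := (conjCLE.toContinuousLinearMap.hasFDerivAt.comp p h1).mul h3
  refine ⟨_, imCLM.hasFDerivAt.comp p h4, fun w => ?_⟩
  simp
  ring

theorem rect {P : ℝ × ℝ → ℂ} (hP : ContDiff ℝ 2 P) (a₁ a₂ b₁ b₂ : ℝ) :
    (∫ x in a₁..b₁, ∫ y in a₂..b₂,
      2 * (conj (fderiv ℝ P (x, y) (1, 0)) * fderiv ℝ P (x, y) (0, 1)).im) =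
      (((∫ x in a₁..b₁, -(conj (P (x, b₂)) * fderiv ℝ P (x, b₂) (1, 0)).im) -
        ∫ x in a₁..b₁, -(conj (P (x, a₂)) * fderiv ℝ P (x, a₂) (1, 0)).im) +
        ∫ y in a₂..b₂, (conj (P (b₁, y)) * fderiv ℝ P (b₁, y) (0, 1)).im) -
        ∫ y in a₂..b₂, (conj (P (a₁, y)) * fderiv ℝ P (a₁, y) (0, 1)).im := by
  choose L hL hLe using hasF hP
  have hd : ∀ p, L (0, 1) p (1, 0) + (-L (1, 0) p) (0, 1) =
      2 * (conj (fderiv ℝ P p (1, 0)) * fderiv ℝ P p (0, 1)).im := by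
    intro p
    have hs := (hP.contDiffAt (x := p)).isSymmSndFDerivAt (by simp) (1, 0) (0, 1)
    rw [ContinuousLinearMap.neg_apply, hLe, hLe, hs]
    simp
    ring
  have hc : Continuous (fderiv ℝ P) := hP.continuous_fderiv (by simp)
  have h := integral2_divergence_prod_of_hasFDerivAt
    (fun q => (conj (P q) * fderiv ℝ P q (0, 1)).im)
    (fun q => -(conj (P q) * fderiv ℝ P q (1, 0)).im) (L (0, 1)) (fun p => -L (1, 0) p)
    a₁ a₂ b₁ b₂ (fun p _ => (hL _ p).continuousAt.continuousWithinAt)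
    (fun p _ => (hL _ p).continuousAt.neg.continuousWithinAt) (fun p _ => hL _ p)
    (fun p _ => (hL _ p).neg) (by
      simp only [hd]
      refine ContinuousOn.integrableOn_compact (isCompact_uIcc.prod isCompact_uIcc)
        (Continuous.continuousOn ?_)
      fun_prop)
  simp only [hd] at h
  exact h

theorem polar {J : ℂ → ℝ} (hJ : Continuous J) (c : ℂ) {ρ : ℝ} (hρ : 0 < ρ) :
    ∫ z in ball c ρ, J z = ∫ t in (0 : ℝ)..ρ, ∫ θ in (-π)..π, t * J (circleMap c t θ) := by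
  have hcm : ∀ p : ℝ × ℝ, c + Complex.polarCoord.symm p = circleMap c p.1 p.2 := fun p => by
    rw [Complex.polarCoord_symm_apply, circleMap, exp_mul_I, ofReal_cos, ofReal_sin]
  have hcont : Continuous fun p : ℝ × ℝ => p.1 * J (circleMap c p.1 p.2) := by
    unfold circleMap
    fun_prop
  rw [← integral_indicator measurableSet_ball, ← integral_add_left_eq_self _ c,
    ← Complex.integral_comp_polarCoord_symm, polarCoord_target]
  have h1 : ∫ p in Ioi (0 : ℝ) ×ˢ Ioo (-π) π,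
      p.1 • (ball c ρ).indicator J (c + Complex.polarCoord.symm p) =
      ∫ p in Ioo (0 : ℝ) ρ ×ˢ Ioo (-π) π, p.1 * J (circleMap c p.1 p.2) := by
    rw [← integral_indicator (measurableSet_Ioi.prod measurableSet_Ioo),
      ← integral_indicator (measurableSet_Ioo.prod measurableSet_Ioo)]
    refine integral_congr_ae (.of_forall fun p => ?_)
    have h2 : c + Complex.polarCoord.symm p ∈ ball c ρ ↔ |p.1| < ρ := by
      rw [mem_ball, dist_eq_norm, add_sub_cancel_left, Complex.norm_polarCoord_symm]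
    by_cases h3 : p ∈ Ioo (0 : ℝ) ρ ×ˢ Ioo (-π) π
    · rw [indicator_of_mem h3, indicator_of_mem (show p ∈ Ioi (0 : ℝ) ×ˢ Ioo (-π) π from
        ⟨h3.1.1, h3.2⟩), indicator_of_mem (h2.2 (by rw [abs_of_pos h3.1.1]; exact h3.1.2)), hcm,
        smul_eq_mul]
    · rw [indicator_of_notMem h3]
      by_cases h4 : p ∈ Ioi (0 : ℝ) ×ˢ Ioo (-π) π
      · rw [indicator_of_mem h4, indicator_of_notMem, smul_zero]
        intro h5
        rw [h2, abs_of_pos h4.1] at h5
        exact h3 ⟨⟨h4.1, h5⟩, h4.2⟩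
      · exact indicator_of_notMem h4 _
  rw [h1, Measure.volume_eq_prod, setIntegral_prod, intervalIntegral.integral_of_le hρ.le,
    integral_Ioc_eq_integral_Ioo]
  · refine integral_congr_ae (.of_forall fun t => ?_)
    beta_reduce
    rw [intervalIntegral.integral_of_le (by linarith [Real.pi_pos]), integral_Ioc_eq_integral_Ioo]
  · rw [← Measure.volume_eq_prod]
    exact (hcont.continuousOn.integrableOn_compact
      (isCompact_Icc.prod isCompact_Icc)).mono_set (prod_mono Ioo_subset_Icc_self Ioo_subset_Icc_self)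

theorem hasC (c : ℂ) (p : ℝ × ℝ) : ∃ L : ℝ × ℝ →L[ℝ] ℂ,
    HasFDerivAt (fun q : ℝ × ℝ => circleMap c q.1 q.2) L p ∧
      ∀ w, L w = w.1 * exp (p.2 * I) + w.2 * (p.1 * (exp (p.2 * I) * I)) := by
  have h1 : HasFDerivAt (fun q : ℝ × ℝ => (q.1 : ℂ)) _ p :=
    ofRealCLM.hasFDerivAt.comp p hasFDerivAt_fst
  have h2 : HasFDerivAt (fun q : ℝ × ℝ => (q.2 : ℂ)) _ p :=
    ofRealCLM.hasFDerivAt.comp p hasFDerivAt_snd
  refine ⟨_, (h1.mul (h2.mul_const I).cexp).const_add c, fun w => ?_⟩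
  simp
  ring

theorem jac (A B e : ℂ) (t : ℝ) (he : ‖e‖ = 1) :
    (conj (A * e + B * conj e) * (A * (t * (e * I)) + B * conj (t * (e * I)))).im =
      t * (‖A‖ ^ 2 - ‖B‖ ^ 2) := by
  have h : e.re ^ 2 + e.im ^ 2 = 1 := by
    rw [← one_pow 2, ← he, Complex.sq_norm, normSq_apply]; ring
  rw [Complex.sq_norm, Complex.sq_norm, normSq_apply, normSq_apply]
  simp
  linear_combination (t * (A.re * A.re + A.im * A.im - (B.re * B.re + B.im * B.im))) * h

end KoGreen

open KoGreen in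
theorem green_pf : S_Green := by
  intro H c ρ hH hρ
  let P : ℝ × ℝ → ℂ := fun q => H (circleMap c q.1 q.2)
  have hφ : ContDiff ℝ 2 fun q : ℝ × ℝ => circleMap c q.1 q.2 := by
    unfold circleMap
    have h1 : ContDiff ℝ 2 fun q : ℝ × ℝ => (q.1 : ℂ) := ofRealCLM.contDiff.comp contDiff_fst
    have h2 : ContDiff ℝ 2 fun q : ℝ × ℝ => (q.2 : ℂ) := ofRealCLM.contDiff.comp contDiff_snd
    exact contDiff_const.add (h1.mul (h2.mul contDiff_const).cexp)
  have hP : ContDiff ℝ 2 P := hH.comp hφ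
  have hD : ∀ p w : ℝ × ℝ, fderiv ℝ P p w = fderiv ℝ H (circleMap c p.1 p.2)
      (w.1 * exp (p.2 * I) + w.2 * (p.1 * (exp (p.2 * I) * I))) := by
    intro p w
    obtain ⟨L, hL, hLe⟩ := hasC c p
    rw [← hLe]
    exact congrArg (fun f : ℝ × ℝ →L[ℝ] ℂ => f w)
      ((hH.differentiable (by simp) _).hasFDerivAt.comp p hL).fderiv
  have hθ : ∀ t θ : ℝ, deriv (fun θ => H (circleMap c t θ)) θ = fderiv ℝ P (t, θ) (0, 1) := by
    intro t θ
    have h1 : HasDerivAt (fun θ : ℝ => (t, θ)) ((0 : ℝ), (1 : ℝ)) θ :=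
      (hasDerivAt_const θ t).prodMk (hasDerivAt_id θ)
    exact ((hP.differentiable (by simp) (t, θ)).hasFDerivAt.comp_hasDerivAt θ h1).deriv
  have h1 := rect hP 0 (-π) ρ π
  have hH1 : ContDiff ℝ 1 H := hH.of_le (by norm_num)
  have hJ : Continuous fun z => ‖dz H z‖ ^ 2 - ‖db H z‖ ^ 2 :=
    ((continuous_dz hH1).norm.pow 2).sub ((continuous_db hH1).norm.pow 2)
  have h2 : ∀ x y : ℝ, (conj (fderiv ℝ P (x, y) (1, 0)) * fderiv ℝ P (x, y) (0, 1)).im =
      x * (‖dz H (circleMap c x y)‖ ^ 2 - ‖db H (circleMap c x y)‖ ^ 2) := by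
    intro x y
    rw [hD, hD, fderiv_eq_dz_db, fderiv_eq_dz_db, ← jac _ _ _ x (norm_exp_ofReal_mul_I y)]
    simp only [ofReal_one, ofReal_zero, one_mul, zero_mul, add_zero, zero_add]
  have h3 : ∀ x : ℝ, (conj (P (x, π)) * fderiv ℝ P (x, π) (1, 0)).im =
      (conj (P (x, -π)) * fderiv ℝ P (x, -π) (1, 0)).im := by
    intro x
    have h4 : circleMap c x (-π) = circleMap c x π := by
      rw [← periodic_circleMap c x (-π)]; congr 1; ring
    have h5 : exp (((-π : ℝ) : ℂ) * I) = exp ((π : ℂ) * I) := by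
      rw [ofReal_neg, neg_mul, exp_neg, exp_pi_mul_I]; norm_num
    simp only [hD, P, h4, h5]
  have h6 : ∀ y : ℝ, (conj (P (0, y)) * fderiv ℝ P (0, y) (0, 1)).im = 0 := by
    intro y
    rw [hD]; simp
  have h7 : Function.Periodic (fun y : ℝ => (conj (P (ρ, y)) * fderiv ℝ P (ρ, y) (0, 1)).im)
      (2 * π) := by
    intro y
    have h5 : exp (((y + 2 * π : ℝ) : ℂ) * I) = exp ((y : ℂ) * I) := by
      push_cast
      rw [add_mul, exp_add, exp_two_pi_mul_I, mul_one]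
    simp only [hD, P, periodic_circleMap c ρ y, h5]
  have h8 := h7.intervalIntegral_add_eq (-π) 0
  rw [show -π + 2 * π = π by ring, zero_add] at h8
  simp only [h2, h3, h6, sub_self, zero_add, intervalIntegral.integral_zero, sub_zero,
    intervalIntegral.integral_const_mul (2 : ℝ)] at h1
  rw [polar hJ c hρ]
  simp only [hθ]
  rw [h8] at h1
  change _ = 1 / 2 * ∫ y in (0 : ℝ)..2 * π, (conj (P (ρ, y)) * fderiv ℝ P (ρ, y) (0, 1)).im
  rw [← h1]
  ring

end Vale.Agent.P116
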