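import Vale.Agent.P116.KoBase

open Set Filter Topology MeasureTheory Metric Complex
open scoped ENNReal ComplexConjugate Real

noncomputable section
namespace Vale.Agent.P116

namespace KoIbp

theorem int_d {W : ℂ → ℂ} (v : ℂ) (h1 : ContDiff ℝ 1 W) (h2 : HasCompactSupport W) :
    Integrable fun z => fderiv ℝ W z v :=
  ((h1.continuous_fderiv one_ne_zero).clm_apply continuous_const).integrable_of_hasCompactSupport
    (h2.fderiv_apply ℝ v)

theorem one {W : ℂ → ℂ} (v : ℂ) (h1 : ContDiff ℝ 1 W) (h2 : HasCompactSupport W) :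
    ∫ z, fderiv ℝ W z v = 0 := by
  have := integral_mul_fderiv_eq_neg_fderiv_mul_of_integrable (μ := volume)
    (f := fun _ : ℂ => (1 : ℂ)) (g := W) (v := v) (by simp) (by simpa using int_d v h1 h2)
    (by simpa using h1.continuous.integrable_of_hasCompactSupport h2)
    (fun _ _ => differentiableAt_const _) fun x _ => h1.differentiable one_ne_zero x
  simpa using this

end KoIbp

open KoIbp in
theorem ibp_pf : S_Ibp := by
  refine ⟨fun W v => one v, fun U T u χ hU hT hTU hu hχ h0 => ?_⟩
  have d1 : ContDiff ℝ 1 (fderiv ℝ χ) := hχ.fderiv_right (by norm_num)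
  have d2 : ∀ v, ContDiff ℝ 1 fun z => fderiv ℝ χ z v := fun v => d1.clm_apply contDiff_const
  have z0 : ∀ v, ∀ z ∉ T, (fun z => u z * fderiv ℝ χ z v) =ᶠ[𝓝 z] fun _ => 0 := fun v z hz => by
    filter_upwards [hT.isClosed.isOpen_compl.mem_nhds hz] with w hw
    simp [h0 w hw]
  have du : ∀ z ∈ T, ContDiffAt ℝ 1 u z := fun z hz => hu.contDiffAt (hU.mem_nhds (hTU hz))
  have c1 : ∀ v, ContDiff ℝ 1 fun z => u z * fderiv ℝ χ z v := fun v =>
    contDiff_iff_contDiffAt.2 fun z => by
      by_cases hz : z ∈ T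
      · exact (du z hz).mul (d2 v).contDiffAt
      · exact contDiffAt_const.congr_of_eventuallyEq (z0 v z hz)
  have c2 : ∀ v, HasCompactSupport fun z => u z * fderiv ℝ χ z v := fun v =>
    HasCompactSupport.intro hT fun z hz => (z0 v z hz).self_of_nhds
  have e : br u χ = fun z => fderiv ℝ (fun z => u z * fderiv ℝ χ z I) z 1 -
      fderiv ℝ (fun z => u z * fderiv ℝ χ z 1) z I := funext fun z => by
    by_cases hz : z ∈ T
    · have h1 := (du z hz).differentiableAt one_ne_zero
      have h2 : ∀ v w, fderiv ℝ (fun z => fderiv ℝ χ z v) z w = fderiv ℝ (fderiv ℝ χ) z w v :=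
        fun v w => by
          rw [fderiv_clm_apply (d1.differentiable one_ne_zero z) (differentiableAt_const _)]
          simp
      rw [fderiv_mul_apply h1 ((d2 _).differentiable one_ne_zero z),
        fderiv_mul_apply h1 ((d2 _).differentiable one_ne_zero z), h2, h2,
        hχ.contDiffAt.isSymmSndFDerivAt (by simp) 1 I, br]
      ring
    · rw [(z0 _ z hz).fderiv_eq, (z0 _ z hz).fderiv_eq]
      simp [br, h0 z hz]
  rw [e, integral_sub (int_d _ (c1 _) (c2 _)) (int_d _ (c1 _) (c2 _)), one _ (c1 _) (c2 _),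
    one _ (c1 _) (c2 _), sub_zero]
  exact ⟨(int_d _ (c1 _) (c2 _)).sub (int_d _ (c1 _) (c2 _)), rfl⟩

end Vale.Agent.P116
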