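import Vale.Agent.P116.KoBase

open Set Filter Topology MeasureTheory Metric Complex
open scoped ENNReal ComplexConjugate Real

noncomputable section
namespace Vale.Agent.P116

namespace KoInt

variable {ι : Type} {a b s : ι → ℝ} {R : ℝ} {f : ℂ → ℂ} {c : ι → ℂ} {r : ι → ℝ}

/-- The points whose values lie in `V`. -/
def U (a b s : ι → ℝ) (f : ℂ → ℂ) (c : ι → ℂ) (r : ι → ℝ) (V : Set ℂ) : Set ℂ :=
  {z | (z ∉ KK a b s → f z ∈ V) ∧ ∀ j, z ∈ sq (a j) (b j) (s j) → closedBall (c j) (r j) ⊆ V}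

theorem isOpen_U [Finite ι] (h : Cfg a b s R) (hf : FK a b s f c r) {V : Set ℂ} (hV : IsOpen V) :
    IsOpen (U a b s f c r V) := by
  refine isOpen_iff_mem_nhds.2 fun z hz => ?_
  by_cases hK : z ∈ KK a b s
  · obtain ⟨j, hj⟩ := mem_KK.1 hK
    obtain ⟨ε, hε, hs⟩ := (isCompact_closedBall (c j) (r j)).exists_cthickening_subset_open hV
      (hz.2 j hj)
    rw [cthickening_closedBall hε.le (hf.nn j)] at hs
    have h1 := ((hf.clu j ε hε).and (h.near j)).filter_mono (nhds_le_nhdsSet hj)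
    filter_upwards [h1] with w hw
    refine ⟨fun hw' => hs ?_, fun k hk => ?_⟩
    · rw [mem_closedBall, dist_eq_norm, add_comm]
      exact hw.1 hw'
    · by_cases e : k = j
      · rw [e]; exact hz.2 j hj
      · exact absurd hk (hw.2 k e)
  · have hG := (isOpen_G a b s).mem_nhds hK
    have hc := (hf.hol.continuousOn.continuousAt hG).eventually (hV.mem_nhds (hz.1 hK))
    filter_upwards [hG, hc] with w h1 h2
    exact ⟨fun _ => h2, fun k hk => absurd (sq_subset_KK k hk) h1⟩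

theorem sub_of {A V : Set ℂ} (h : A ⊆ U a b s f c r V) : Phi a b s f c r A ⊆ V := by
  rintro w (⟨z, ⟨h1, h2⟩, rfl⟩ | ⟨j, ⟨z, h1, h2⟩, h3⟩)
  · exact (h h1).1 h2
  · exact (h h2).2 j h1 h3

theorem split [Finite ι] (h : Cfg a b s R) (hf : FK a b s f c r) {A V W : Set ℂ}
    (hA : IsPreconnected A) (hV : IsOpen V) (hW : IsOpen W) (hd : Disjoint V W)
    (hs : Phi a b s f c r A ⊆ V ∪ W) : Phi a b s f c r A ⊆ V ∨ Phi a b s f c r A ⊆ W := by
  refine (hA.subset_or_subset (isOpen_U h hf hV) (isOpen_U h hf hW) ?_ ?_).imp sub_of sub_of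
  · refine Set.disjoint_left.2 fun z h1 h2 => ?_
    by_cases hK : z ∈ KK a b s
    · obtain ⟨j, hj⟩ := mem_KK.1 hK
      have hc := mem_closedBall_self (x := c j) (hf.nn j)
      exact Set.disjoint_left.1 hd (h1.2 j hj hc) (h2.2 j hj hc)
    · exact Set.disjoint_left.1 hd (h1.1 hK) (h2.1 hK)
  · intro z hz
    by_cases hK : z ∈ KK a b s
    · obtain ⟨j, hj⟩ := mem_KK.1 hK
      have h1 : closedBall (c j) (r j) ⊆ V ∪ W := fun w hw => hs (Or.inr ⟨j, ⟨z, hj, hz⟩, hw⟩)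
      refine ((convex_closedBall (c j) (r j)).isPreconnected.subset_or_subset hV hW hd h1).imp
        (fun h2 => ⟨fun h3 => absurd hK h3, fun k hk => ?_⟩)
        (fun h2 => ⟨fun h3 => absurd hK h3, fun k hk => ?_⟩)
      · rwa [h.eq_of_mem hk hj]
      · rwa [h.eq_of_mem hk hj]
    · exact (hs (Or.inl ⟨z, ⟨hz, hK⟩, rfl⟩)).imp
        (fun h2 => ⟨fun _ => h2, fun k hk => absurd (sq_subset_KK k hk) hK⟩)
        (fun h2 => ⟨fun _ => h2, fun k hk => absurd (sq_subset_KK k hk) hK⟩)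

end KoInt

theorem int_pf : S_Int := by
  intro ι _ a b s R f c r h hf e A hA
  refine ⟨?_⟩
  rintro _ ⟨u, hu, rfl⟩ _ ⟨v, hv, rfl⟩ y hy
  by_contra hn
  have hc : Continuous fun w : ℂ => (e * w).re := by fun_prop
  rcases KoInt.split h hf hA (isOpen_lt hc (continuous_const (y := y)))
    (isOpen_lt (continuous_const (y := y)) hc)
    (Set.disjoint_left.2 fun w h1 h2 => lt_asymm (a := (e * w).re) (b := y) h1 h2)
    (fun w hw => lt_or_gt_of_ne fun h1 => hn ⟨w, hw, h1⟩) with h1 | h1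
  · exact absurd (h1 hv) (not_lt.2 hy.2)
  · exact absurd (h1 hu) (not_lt.2 hy.1)

end Vale.Agent.P116
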