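import Vale.Agent.P116.KoBase

open Set Filter Topology MeasureTheory Metric Complex
open scoped ENNReal ComplexConjugate Real

noncomputable section
namespace Vale.Agent.P116

namespace KoIso

theorem point {x1 x2 v1 v2 α β c ε n : ℝ} (hc : 0 < c) (hε : 0 < ε) (hn : 0 ≤ n)
    (h : n ^ 2 = v1 ^ 2 + v2 ^ 2) :
    0 ≤ c * n - 2 * α * (x1 * v2 - x2 * v1) - (-(α ^ 2 + β ^ 2) * ((n + ε) / c) * (x1 ^ 2 + x2 ^ 2) +
      β * (2 * x1 * v1 + 2 * x2 * v2)) := by
  have hm : 0 < (n + ε) / c := by positivity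
  have e : c * ((n + ε) / c) = n + ε := mul_div_cancel₀ _ hc.ne'
  generalize (n + ε) / c = m at *
  refine nonneg_of_mul_nonneg_right ?_ hm
  have h1 := sq_nonneg (v1 - m * (β * x1 - α * x2))
  have h2 := sq_nonneg (v2 - m * (β * x2 + α * x1))
  have h3 : m * (c * n) = n ^ 2 + ε * n := by linear_combination n * e
  have h4 := mul_nonneg hε.le hn
  nlinarith

theorem core {γ v : ℝ → ℂ} (hv : Continuous v) (hd : ∀ t, HasDerivAt γ (v t) t) (h0 : γ 0 = 0)
    (h1 : γ (2 * π) = 0) {α ε : ℝ} (hα : 0 < α) (hα' : α < 1 / 2) (hε : 0 < ε) :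
    2 * α * ∫ t in (0 : ℝ)..2 * π, (conj (γ t) * v t).im ≤
      ((∫ t in (0 : ℝ)..2 * π, ‖v t‖) + 2 * π * ε) / (2 * π) * ∫ t in (0 : ℝ)..2 * π, ‖v t‖ := by
  have hπ := Real.pi_pos
  have hγ : Continuous γ := continuous_iff_continuousAt.2 fun t => (hd t).continuousAt
  have hL : 0 ≤ ∫ t in (0 : ℝ)..2 * π, ‖v t‖ :=
    intervalIntegral.integral_nonneg (by positivity) fun _ _ => norm_nonneg _
  set c := ((∫ t in (0 : ℝ)..2 * π, ‖v t‖) + 2 * π * ε) / (2 * π) with hc
  have c0 : 0 < c := by positivity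
  have hm : Continuous fun t => (‖v t‖ + ε) / c := by fun_prop
  have hw : Continuous fun t => (conj (γ t) * v t).im := by fun_prop
  set σ : ℝ → ℝ := fun t => ∫ s in (0 : ℝ)..t, (‖v s‖ + ε) / c with hσ
  have s1 : σ (2 * π) = 2 * π := by
    simp only [hσ]
    rw [intervalIntegral.integral_div, intervalIntegral.integral_add
      (hv.norm.intervalIntegrable _ _) intervalIntegrable_const, intervalIntegral.integral_const,
      div_eq_iff c0.ne', hc, mul_div_cancel₀ _ (by positivity), sub_zero, smul_eq_mul]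
  have s2 : ∀ t ∈ Icc (0 : ℝ) (2 * π), 0 < Real.sin (α * σ t + (π / 2 - π * α)) := by
    intro t ht
    have a1 : 0 ≤ σ t := intervalIntegral.integral_nonneg ht.1 fun _ _ => by positivity
    have a2 : σ t ≤ 2 * π := by
      have a3 := intervalIntegral.integral_add_adjacent_intervals (hm.intervalIntegrable 0 t)
        (hm.intervalIntegrable t (2 * π)) (μ := volume)
      have a4 : 0 ≤ ∫ s in t..2 * π, (‖v s‖ + ε) / c :=
        intervalIntegral.integral_nonneg ht.2 fun _ _ => by positivity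
      have a5 : σ t + _ = σ (2 * π) := a3
      linarith
    have a3 := mul_nonneg hα.le a1
    have a4 := mul_le_mul_of_nonneg_left a2 hα.le
    have a5 := mul_lt_mul_of_pos_left hα' hπ
    exact Real.sin_pos_of_pos_of_lt_pi (by linarith) (by linarith)
  set β : ℝ → ℝ := fun t => α * Real.cos (α * σ t + (π / 2 - π * α)) /
    Real.sin (α * σ t + (π / 2 - π * α)) with hβ
  have s3 : ∀ t ∈ Icc (0 : ℝ) (2 * π),
      HasDerivAt β (-(α ^ 2 + β t ^ 2) * ((‖v t‖ + ε) / c)) t := by
    intro t ht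
    have a1 : HasDerivAt (fun t => α * σ t + (π / 2 - π * α)) (α * ((‖v t‖ + ε) / c)) t :=
      ((hm.integral_hasStrictDerivAt 0 t).hasDerivAt.const_mul α).add_const _
    have a2 := (s2 t ht).ne'
    refine ((a1.cos.const_mul α).fun_div a1.sin a2).congr_deriv ?_
    simp only [hβ]
    generalize (‖v t‖ + ε) / c = m
    generalize α * σ t + (π / 2 - π * α) = u at a2
    field_simp
    ring
  have s4 : ∀ t ∈ Icc (0 : ℝ) (2 * π), HasDerivAt (fun t => c * (∫ s in (0 : ℝ)..t, ‖v s‖) -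
      2 * α * (∫ s in (0 : ℝ)..t, (conj (γ s) * v s).im) - β t * ((γ t).re ^ 2 + (γ t).im ^ 2))
      (c * ‖v t‖ - 2 * α * ((γ t).re * (v t).im - (γ t).im * (v t).re) -
        (-(α ^ 2 + β t ^ 2) * ((‖v t‖ + ε) / c) * ((γ t).re ^ 2 + (γ t).im ^ 2) +
          β t * (2 * (γ t).re * (v t).re + 2 * (γ t).im * (v t).im))) t := by
    intro t ht
    have a1 : HasDerivAt (fun t => (γ t).re) (v t).re t := reCLM.hasFDerivAt.comp_hasDerivAt t (hd t)
    have a2 : HasDerivAt (fun t => (γ t).im) (v t).im t := imCLM.hasFDerivAt.comp_hasDerivAt t (hd t)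
    refine ((((hv.norm.integral_hasStrictDerivAt 0 t).hasDerivAt.const_mul c).fun_sub
      ((hw.integral_hasStrictDerivAt 0 t).hasDerivAt.const_mul (2 * α))).fun_sub
      ((s3 t ht).fun_mul ((a1.fun_pow 2).fun_add (a2.fun_pow 2)))).congr_deriv ?_
    simp only [mul_im, conj_re, conj_im]
    push_cast
    ring
  obtain ⟨t, -, ht⟩ := exists_hasDerivAt_eq_slope _ _ (by positivity : (0 : ℝ) < 2 * π)
    (fun t ht => (s4 t ht).continuousAt.continuousWithinAt)
    fun t ht => s4 t (Ioo_subset_Icc_self ht)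
  have s5 := point (x1 := (γ t).re) (x2 := (γ t).im) (v1 := (v t).re) (v2 := (v t).im) (α := α)
    (β := β t) c0 hε (norm_nonneg (v t)) (by rw [Complex.sq_norm, normSq_apply]; ring)
  rw [ht, sub_zero, le_div_iff₀ (by positivity), zero_mul] at s5
  simp only [h0, h1, intervalIntegral.integral_same, zero_re, zero_im] at s5
  linarith

end KoIso

theorem iso_pf : S_Iso := by
  intro γ hγ hp
  have hπ := Real.pi_pos
  have hv : Continuous (deriv γ) := hγ.continuous_deriv le_rfl
  have hd : ∀ t, HasDerivAt γ (deriv γ t) t := fun t =>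
    (hγ.differentiable one_ne_zero t).hasDerivAt
  have hc := hγ.continuous
  have e : ∫ t in (0 : ℝ)..2 * π, (conj (γ t - γ 0) * deriv γ t).im =
      ∫ t in (0 : ℝ)..2 * π, (conj (γ t) * deriv γ t).im := by
    have a1 : ∫ t in (0 : ℝ)..2 * π, (conj (γ 0) * deriv γ t).im = 0 := by
      rw [intervalIntegral.integral_eq_sub_of_hasDerivAt (f := fun t => (conj (γ 0) * γ t).im)
        (f' := fun t => (conj (γ 0) * deriv γ t).im)
        (fun t _ => imCLM.hasFDerivAt.comp_hasDerivAt t ((hd t).const_mul (conj (γ 0))))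
        (Continuous.intervalIntegrable (by fun_prop) _ _), hp, sub_self]
    simp only [map_sub, sub_mul, sub_im]
    rw [intervalIntegral.integral_sub (Continuous.intervalIntegrable (by fun_prop) _ _)
      (Continuous.intervalIntegrable (by fun_prop) _ _), a1, sub_zero]
  have key : ∀ s ∈ Ioo (0 : ℝ) (1 / 2), _ := fun s hs =>
    KoIso.core (γ := fun t => γ t - γ 0) hv (fun t => (hd t).sub_const _) (sub_self _)
      (by simp only [hp, sub_self]) (α := 1 / 2 - s) (by linarith [hs.2]) (by linarith [hs.1]) hs.1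
  simp only [e] at key
  generalize ∫ t in (0 : ℝ)..2 * π, (conj (γ t) * deriv γ t).im = A at *
  generalize ∫ t in (0 : ℝ)..2 * π, ‖deriv γ t‖ = L at *
  have t1 : ContinuousAt (fun s : ℝ => 2 * (1 / 2 - s) * A) 0 := by fun_prop
  have t2 : ContinuousAt (fun s : ℝ => (L + 2 * π * s) / (2 * π) * L) 0 := by fun_prop
  have h := le_of_tendsto_of_tendsto (t1.tendsto.mono_left (nhdsWithin_le_nhds (s := Ioi 0)))
    (t2.tendsto.mono_left nhdsWithin_le_nhds)
    (eventually_of_mem (Ioo_mem_nhdsGT (by norm_num)) key)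
  have e2 : 1 / (4 * π) * L ^ 2 = 1 / 2 * ((L + 2 * π * 0) / (2 * π) * L) := by
    field_simp
    ring
  rw [e2]
  linarith

end Vale.Agent.P116
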