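import Vale.Agent.P116.KoBase

open Set Filter Topology MeasureTheory Metric Complex
open scoped ENNReal ComplexConjugate Real

noncomputable section
namespace Vale.Agent.P116

namespace KoKe

theorem ms_ann (z : ℂ) (ρ : ℝ) : MeasurableSet (ann z ρ) :=
  ((isClosed_le continuous_const (continuous_id.sub continuous_const).norm).inter
    (isClosed_le (continuous_id.sub continuous_const).norm continuous_const)).measurableSet

end KoKe

open KoKe in
theorem ke_pf (hBlk : S_Blk) (hSel : S_Sel) : S_Ke := by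
  classical
  obtain ⟨C0, hC0, hB⟩ := hBlk
  intro T a b s R C hs hd hR z ε hε
  obtain ⟨η, hη, eη⟩ : ∃ η > 0, ε = C0 * (3 * η) := ⟨ε / (3 * C0), by positivity, by field_simp⟩
  obtain ⟨ρ, r1, r2, r3⟩ := hSel T a b s R hs hd hR z η hη
  obtain ⟨N, hN⟩ := exists_nat_gt (2 * max C 0 / η ^ 2)
  have hN0 : 0 < N := by
    have : (0 : ℝ) < N := lt_of_le_of_lt (by positivity) hN
    exact_mod_cast this
  rw [div_lt_iff₀ (by positivity)] at hN
  refine ⟨ρ N, (r1 N).1, fun ι _ e f c r hc hf hi hE hS c0 r0 ho y hy hyz => ?_⟩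
  have hG := (isOpen_G (a ∘ e) (b ∘ e) (s ∘ e)).measurableSet
  set G := (KK (a ∘ e) (b ∘ e) (s ∘ e))ᶜ with hGd
  set J : ℕ → Finset ι := fun n => Finset.univ.filter fun j =>
    z ∉ sq (a (e j)) (b (e j)) (s (e j)) ∧
      (sq (a (e j)) (b (e j)) (s (e j)) ∩ ann z (ρ n)).Nonempty with hJ
  have d1 : ∀ m n, m < n → Disjoint (J m) (J n) := fun m n h =>
    Finset.disjoint_left.2 fun j hm hn => r3 (e j) (Finset.mem_filter.1 hm).2.1 m n h
      (Finset.mem_filter.1 hm).2.2 (Finset.mem_filter.1 hn).2.2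
  have d2 : ∀ m n, m < n → Disjoint (ann z (ρ m) ∩ G) (ann z (ρ n) ∩ G) := fun m n h =>
    Set.disjoint_left.2 fun w hm hn => by linarith [hm.1.1, hn.1.2, r2 m n h]
  have s1 : ∑ n ∈ Finset.range N, ∑ j ∈ J n, r j ^ 2 ≤ C := by
    rw [← Finset.sum_biUnion fun m _ n _ h => (lt_or_gt_of_ne h).elim (d1 m n)
      fun h => (d1 n m h).symm]
    exact (Finset.sum_le_sum_of_subset_of_nonneg (Finset.subset_univ _)
      fun _ _ _ => sq_nonneg _).trans hS
  have s2 : ∑ n ∈ Finset.range N, ∫ w in ann z (ρ n) ∩ G, ‖deriv f w - 1‖ ^ 2 ≤ C := by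
    rw [← integral_biUnion_finset (Finset.range N) (fun n _ => (ms_ann z _).inter hG)
      (fun m _ n _ h => (lt_or_gt_of_ne h).elim (d2 m n) fun h => (d2 n m h).symm)
      fun n _ => hi.mono_set inter_subset_right]
    refine (setIntegral_mono_set hi (Eventually.of_forall fun _ => sq_nonneg _)
      (LE.le.eventuallyLE ?_)).trans hE
    exact iUnion₂_subset fun _ _ => inter_subset_right
  obtain ⟨n, hn, h⟩ := Finset.exists_le_of_sum_le (s := Finset.range N)
    (f := fun n => (∫ w in ann z (ρ n) ∩ G, ‖deriv f w - 1‖ ^ 2) + ∑ j ∈ J n, r j ^ 2)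
    (g := fun _ => η ^ 2) ⟨0, Finset.mem_range.2 hN0⟩ (by
      rw [Finset.sum_add_distrib, Finset.sum_const, Finset.card_range, nsmul_eq_mul]
      linarith [le_max_left C 0])
  have q1 : 0 ≤ ∫ w in ann z (ρ n) ∩ G, ‖deriv f w - 1‖ ^ 2 :=
    integral_nonneg fun _ => sq_nonneg _
  have q2 : 0 ≤ ∑ j ∈ J n, r j ^ 2 := Finset.sum_nonneg fun _ _ => sq_nonneg _
  have := hB ι _ _ _ R f c r hc hf hi z c0 r0 (ρ n) (J n) ho (r1 n).1
    (fun j h1 h2 => Finset.mem_filter.2 ⟨Finset.mem_univ _, h1, h2⟩) y hy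
    (by linarith [r2 n N (Finset.mem_range.1 hn), (r1 N).1])
  refine this.trans ?_
  have t1 : √(∫ w in ann z (ρ n) ∩ G, ‖deriv f w - 1‖ ^ 2) ≤ η :=
    Real.sqrt_le_iff.2 ⟨hη.le, by linarith⟩
  have t2 : √(∑ j ∈ J n, r j ^ 2) ≤ η := Real.sqrt_le_iff.2 ⟨hη.le, by linarith⟩
  rw [eη]
  gcongr
  linarith [(r1 n).2]

end Vale.Agent.P116
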