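import Vale.Agent.P116.KoBase

open Set Filter Topology MeasureTheory Metric Complex
open scoped ENNReal ComplexConjugate Real

noncomputable section
namespace Vale.Agent.P116

namespace KoLen

theorem img1 {S : Set ℝ} {φ φ' : ℝ → ℝ} (hS : MeasurableSet S)
    (h : ∀ x ∈ S, HasDerivAt φ (φ' x) x) :
    volume (φ '' S) ≤ ∫⁻ x in S, ENNReal.ofReal |φ' x| := by
  simpa only [ContinuousLinearMap.det_toSpanSingleton] using
    addHaar_image_le_lintegral_abs_det_fderiv volume hS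
      (fun x hx => (h x hx).hasDerivWithinAt.hasFDerivWithinAt)

theorem re_le {e : ℂ} (he : ‖e‖ ≤ 1) (w : ℂ) : |(e * w).re| ≤ ‖w‖ := by
  refine (abs_re_le_norm _).trans ?_
  rw [norm_mul]
  exact mul_le_of_le_one_left (norm_nonneg _) he

theorem arc {f : ℂ → ℂ} {G : Set ℂ} (hG : IsOpen G) (hf : DifferentiableOn ℂ f G) {e : ℂ}
    (he : ‖e‖ ≤ 1) (z : ℂ) {t : ℝ} (ht : 0 < t) :
    volume ((fun w => (e * w).re) '' (f '' (sphere z t ∩ G))) ≤ arcLen f G z t := by
  set φ : ℝ → ℝ := fun θ => (e * f (circleMap z t θ)).re with hφ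
  set Θ : Set ℝ := Ioo (-π) π ∩ circleMap z t ⁻¹' G with hΘ
  have hΘo : IsOpen Θ := isOpen_Ioo.inter (hG.preimage (continuous_circleMap z t))
  have hsub : (fun w => (e * w).re) '' (f '' (sphere z t ∩ G)) ⊆ φ '' Θ ∪ {φ π} := by
    rintro _ ⟨_, ⟨w, ⟨hw, hwG⟩, rfl⟩, rfl⟩
    have hn : ‖w - z‖ = t := mem_sphere_iff_norm.1 hw
    have hc : circleMap z t (arg (w - z)) = w := by
      have h1 := norm_mul_exp_arg_mul_I (w - z)
      rw [hn] at h1
      rw [circleMap, h1]; ring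
    rcases (arg_le_pi (w - z)).lt_or_eq with h | h
    · exact Or.inl ⟨arg (w - z), ⟨⟨neg_pi_lt_arg _, h⟩, by rw [mem_preimage, hc]; exact hwG⟩,
        by simp only [hφ, hc]⟩
    · right
      rw [mem_singleton_iff, ← h]
      simp only [hφ, hc]
  have hd : ∀ θ ∈ Θ, HasDerivAt φ
      ((e * (deriv f (circleMap z t θ) * (circleMap 0 t θ * I))).re) θ := fun θ hθ => by
    have h1 : HasDerivAt f (deriv f (circleMap z t θ)) (circleMap z t θ) :=
      (hf.differentiableAt (hG.mem_nhds hθ.2)).hasDerivAt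
    have h2 := (h1.comp θ (hasDerivAt_circleMap z t θ)).const_mul e
    exact reCLM.hasFDerivAt.comp_hasDerivAt θ h2
  calc _ ≤ volume (φ '' Θ ∪ {φ π}) := measure_mono hsub
    _ ≤ volume (φ '' Θ) + volume ({φ π} : Set ℝ) := measure_union_le _ _
    _ = volume (φ '' Θ) := by simp
    _ ≤ _ := img1 hΘo.measurableSet hd
    _ ≤ ∫⁻ θ in Θ, G.indicator (fun w => ‖deriv f w‖ₑ) (circleMap z t θ) * ENNReal.ofReal t := by
        refine setLIntegral_mono' hΘo.measurableSet fun θ hθ => ?_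
        rw [indicator_of_mem (show circleMap z t θ ∈ G from hθ.2), ← ofReal_norm_eq_enorm,
          ← ENNReal.ofReal_mul (norm_nonneg _)]
        refine ENNReal.ofReal_le_ofReal ((re_le he _).trans (le_of_eq ?_))
        rw [norm_mul, norm_mul, norm_circleMap_zero, norm_I, mul_one, abs_of_pos ht]
    _ ≤ arcLen f G z t := lintegral_mono_set inter_subset_left

theorem disc_sub {e : ℂ} (he : ‖e‖ ≤ 1) {c w : ℂ} {r : ℝ} (hw : w ∈ closedBall c r) :
    (e * w).re ∈ Icc ((e * c).re - r) ((e * c).re + r) := by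
  have h1 := (re_le he (w - c)).trans (mem_closedBall_iff_norm.1 hw)
  rw [mul_sub, sub_re, abs_le] at h1
  constructor <;> linarith [h1.1, h1.2]

end KoLen

open KoLen

theorem len_pf (hMax : S_Max) (hInt : S_Int) : S_Len := by
  intro ι _ a b s R f c r hC hF z c0 r0 t J hO ht hJ y hy hyz
  have hr0 : 0 ≤ r0 := by
    rcases hO with ⟨-, -, h⟩ | ⟨p, -, -, h⟩
    · exact h.ge
    · rw [h]; exact hF.nn p
  by_cases h0 : f y - c0 = 0
  · rw [h0, norm_zero, ENNReal.ofReal_of_nonpos (by linarith)]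
    exact zero_le
  have hn : 0 < ‖f y - c0‖ := norm_pos_iff.2 h0
  set e : ℂ := conj (f y - c0) / (‖f y - c0‖ : ℂ) with hed
  have he : ‖e‖ ≤ 1 := by
    rw [hed, norm_div, norm_conj, norm_real, norm_norm, div_self hn.ne']
  have hl : (e * f y).re = (e * c0).re + ‖f y - c0‖ := by
    have h1 : e * (f y - c0) = (‖f y - c0‖ : ℂ) := by
      have h2 : (‖f y - c0‖ : ℂ) ≠ 0 := by exact_mod_cast hn.ne'
      rw [hed, div_mul_eq_mul_div, conj_mul', div_eq_iff h2, pow_two]
    have h3 := congrArg re h1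
    rw [mul_sub, sub_re, ofReal_re] at h3
    linarith
  have m1 : f y ∈ Phi a b s f c r (closedBall z t) :=
    Or.inl ⟨y, ⟨mem_closedBall_iff_norm.2 hyz, hy⟩, rfl⟩
  have m2 : c0 ∈ Phi a b s f c r (closedBall z t) := by
    rcases hO with ⟨h1, h2, -⟩ | ⟨p, h1, h2, -⟩
    · exact Or.inl ⟨z, ⟨mem_closedBall_self ht.le, h1⟩, h2.symm⟩
    · exact Or.inr ⟨p, ⟨z, h1, mem_closedBall_self ht.le⟩, by
        rw [h2]; exact mem_closedBall_self (hF.nn p)⟩
  obtain ⟨w1, hw1, k1⟩ := hMax ι a b s R f c r hC hF z e t ht _ m1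
  obtain ⟨w2, hw2, k2⟩ := hMax ι a b s R f c r hC hF z (-e) t ht _ m2
  rw [neg_mul, neg_mul, neg_re, neg_re, neg_le_neg_iff] at k2
  have hoc := hInt ι a b s R f c r hC hF e (sphere z t)
    (isPreconnected_sphere (by rw [rank_real_complex]; norm_num) z t)
  have hsub : Ioo ((e * c0).re + r0) ((e * f y).re) ⊆
      (fun w => (e * w).re) '' (f '' (sphere z t ∩ (KK a b s)ᶜ)) ∪
        ⋃ j ∈ J, Icc ((e * c j).re - r j) ((e * c j).re + r j) := by
    intro x hx
    have hx' : x ∈ (fun w => (e * w).re) '' Phi a b s f c r (sphere z t) :=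
      hoc.out ⟨w2, hw2, rfl⟩ ⟨w1, hw1, rfl⟩ ⟨by linarith [hx.1], by linarith [hx.2]⟩
    obtain ⟨w, hw | ⟨j, hj, hw⟩, rfl⟩ := hx'
    · exact Or.inl ⟨w, hw, rfl⟩
    · right
      have hz : z ∉ sq (a j) (b j) (s j) := fun hz => by
        rcases hO with ⟨h1, -, -⟩ | ⟨p, h1, h2, h3⟩
        · exact h1 (sq_subset_KK j hz)
        · obtain rfl := hC.eq_of_mem hz h1
          have h4 := (disc_sub he hw).2
          have h5 := hx.1
          rw [h2, h3] at h5
          exact absurd h5 (not_lt.2 h4)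
      exact mem_biUnion (Finset.mem_coe.2 (hJ j hz hj)) (disc_sub he hw)
  calc ENNReal.ofReal (‖f y - c0‖ - r0) = volume (Ioo ((e * c0).re + r0) ((e * f y).re)) := by
        rw [Real.volume_Ioo, hl]; congr 1; ring
    _ ≤ _ := measure_mono hsub
    _ ≤ _ := measure_union_le _ _
    _ ≤ _ := by
        refine add_le_add (arc (isOpen_G a b s) hF.hol he z ht) ?_
        refine (measure_biUnion_finset_le _ _).trans (Finset.sum_le_sum fun j _ => ?_)
        rw [Real.volume_Icc]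
        exact le_of_eq (by congr 1; ring)

end Vale.Agent.P116
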