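import Vale.Agent.P116.KoBase

open Set Filter Topology MeasureTheory Metric Complex
open scoped ENNReal ComplexConjugate Real

noncomputable section
namespace Vale.Agent.P116

namespace KoLift

theorem inv_cont {f : ℂ → ℂ} {G : Set ℂ} (hG : IsOpen G) (hi : InjOn f G)
    (ho : ∀ U, IsOpen U → U ⊆ G → IsOpen (f '' U)) {w : ℂ} (hw : w ∈ f '' G) :
    ContinuousAt (Function.invFunOn f G) w := by
  obtain ⟨z, hz, rfl⟩ := hw
  rw [ContinuousAt, hi.leftInvOn_invFunOn hz, (nhds_basis_opens z).tendsto_right_iff]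
  rintro N ⟨hzN, hN⟩
  filter_upwards [(ho _ (hN.inter hG) inter_subset_right).mem_nhds ⟨z, ⟨hzN, hz⟩, rfl⟩]
  rintro _ ⟨y, hy, rfl⟩
  rw [hi.leftInvOn_invFunOn hy.2]
  exact hy.1

end KoLift

theorem lift_pf (hProp : S_Prop) : S_Lift := by
  classical
  intro K K1 K2 f c h1 h2 hd hK hcon hf hi ht
  have hKc : IsCompact K := hK ▸ h1.union h2
  have hG := hKc.isClosed.isOpen_compl
  obtain ⟨P1, P2, P3⟩ := hProp K f c hKc hf hi ht
  obtain ⟨χ, c1, -, c2, c3, -⟩ := bump_ex h1 (U := K2ᶜ)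
    (h2.isClosed.isOpen_compl.mem_nhdsSet.2 hd.subset_compl_right)
  have cχ : Continuous χ := c1.continuous
  have c4 : ∀ᶠ z in 𝓝ˢ K2, χ z = 0 := by
    filter_upwards [(isClosed_tsupport χ).isOpen_compl.mem_nhdsSet.2 (subset_compl_comm.1 c3)]
      with z hz using image_eq_zero_of_notMem_tsupport hz
  have hKU : K ⊆ interior {z | χ z = 0 ∨ χ z = 1} := by
    rw [subset_interior_iff_mem_nhdsSet, hK, nhdsSet_union]
    exact ⟨c2.mono fun _ => Or.inr, c4.mono fun _ => Or.inl⟩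
  have hV := (P3 _ isOpen_interior hKU).isOpen_compl
  set V := (f '' (interior {z | χ z = 0 ∨ χ z = 1})ᶜ)ᶜ with hVd
  have hΩ := P1 _ hG subset_rfl
  have v1 : ∀ w ∉ f '' Kᶜ, w ∈ V := fun w hw h => hw (image_mono (compl_subset_compl.2 hKU) h)
  have v2 : ∀ z, f z ∈ V → χ z = 0 ∨ χ z = 1 := fun z hz => by
    by_contra h
    exact hz ⟨z, fun h' => h (interior_subset (s := {z | χ z = 0 ∨ χ z = 1}) h'), rfl⟩
  set ψ : ℂ → Circle := fun w =>
    if w ∈ f '' Kᶜ then Circle.exp (2 * π * χ (Function.invFunOn f Kᶜ w)) else 1 with hψ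
  have p1 : ∀ z ∈ Kᶜ, ψ (f z) = Circle.exp (2 * π * χ z) := fun z hz => by
    simp only [hψ, if_pos (mem_image_of_mem f hz), hi.leftInvOn_invFunOn hz]
  have p2 : ∀ w ∈ V, ψ w = 1 := fun w hw => by
    by_cases h : w ∈ f '' Kᶜ
    · obtain ⟨z, hz, rfl⟩ := h
      rw [p1 z hz]
      rcases v2 z hw with h | h
      · rw [h, mul_zero, Circle.exp_zero]
      · rw [h, mul_one, Circle.exp_two_pi]
    · exact if_neg h
  have cψ : Continuous ψ := continuous_iff_continuousAt.2 fun w => by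
    by_cases h : w ∈ f '' Kᶜ
    · have a1 : ContinuousAt (fun w => Circle.exp (2 * π * χ (Function.invFunOn f Kᶜ w))) w :=
        Circle.exp.continuous.continuousAt.comp (continuousAt_const.mul
          (cχ.continuousAt.comp (KoLift.inv_cont hG hi P1 h)))
      refine a1.congr ?_
      filter_upwards [hΩ.mem_nhds h] with y hy using (if_pos hy).symm
    · refine (continuousAt_const (y := (1 : Circle))).congr ?_
      filter_upwards [hV.mem_nhds (v1 w h)] with y hy using (p2 y hy).symm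
  obtain ⟨θ, ⟨-, hθ⟩, -⟩ := Circle.isCoveringMap_exp.existsUnique_continuousMap_lifts
    (⟨_, cψ⟩ : C(ℂ, Circle)) 0 _ (Circle.exp_arg _)
  have e0 : ∀ w, Circle.exp (θ w) = ψ w := fun w => congrFun hθ w
  obtain ⟨z0, hz0⟩ := nonempty_compl.2 hKc.ne_univ
  have e1 : ∀ z ∈ Kᶜ, Circle.exp (θ (f z) - 2 * π * χ z) = 1 := fun z hz => by
    rw [Circle.exp_sub, e0, p1 z hz, div_self']
  have e2 : ∀ z ∈ Kᶜ, θ (f z) - 2 * π * χ z = θ (f z0) - 2 * π * χ z0 := fun z hz =>
    Circle.isCoveringMap_exp.constOn_of_comp (g := fun z => θ (f z) - 2 * π * χ z) hcon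
      ((θ.continuous.comp_continuousOn hf.continuousOn).sub (by fun_prop))
      (fun a ha b hb => by rw [e1 a ha, e1 b hb]) hz hz0
  obtain ⟨l, cl, l1, l2⟩ : ∃ l : ℂ → ℝ, Continuous l ∧ (∀ z ∈ Kᶜ, l (f z) = χ z) ∧
      ∀ w ∈ V, ∀ᶠ y in 𝓝 w, l y = l w := by
    refine ⟨fun w => (θ w - (θ (f z0) - 2 * π * χ z0)) / (2 * π), by fun_prop, fun z hz => ?_,
      fun w hw => ?_⟩
    · have := Real.pi_pos
      simp only [← e2 z hz]
      field_simp
      ring
    · obtain ⟨ε, hε, hb⟩ := Metric.isOpen_iff.1 hV w hw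
      filter_upwards [ball_mem_nhds w hε] with y hy
      rw [Circle.isCoveringMap_exp.constOn_of_comp (convex_ball w ε).isPreconnected
        θ.continuous.continuousOn (fun a ha b hb' => by rw [e0, e0, p2 a (hb ha), p2 b (hb hb')])
        hy (mem_ball_self hε)]
  refine ⟨l, cl, ?_, ?_, ?_⟩
  · have cz : IsClopen {w | w ∉ f '' Kᶜ ∧ ¬(l w = 0 ∨ l w = 1)} := by
      constructor
      · refine isOpen_compl_iff.1 (isOpen_iff_mem_nhds.2 fun w hw => ?_)
        by_cases h : w ∈ f '' Kᶜ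
        · filter_upwards [hΩ.mem_nhds h] with y hy h' using h'.1 hy
        · filter_upwards [l2 w (v1 w h)] with y hy h'
          exact hw ⟨h, hy ▸ h'.2⟩
      · refine isOpen_iff_mem_nhds.2 fun w hw => ?_
        filter_upwards [l2 w (v1 w hw.1), hV.mem_nhds (v1 w hw.1)] with y hy hyV
        refine ⟨?_, hy ▸ hw.2⟩
        rintro ⟨z, hz, rfl⟩
        exact hw.2 (by rw [← hy, l1 z hz]; exact v2 z hyV)
    intro w hw
    by_contra h
    rcases isClopen_iff.1 cz with h0 | h0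
    · exact (show w ∈ (∅ : Set ℂ) from h0 ▸ ⟨hw, h⟩)
    · exact (show f z0 ∈ {w | w ∉ f '' Kᶜ ∧ ¬(l w = 0 ∨ l w = 1)} from h0 ▸ mem_univ _).1
        (mem_image_of_mem f hz0)
  · filter_upwards [c2] with z a hz using (l1 z hz).trans a
  · filter_upwards [c4] with z a hz using (l1 z hz).trans a

end Vale.Agent.P116
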