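import Vale.Agent.P116.KoBase

open Set Filter Topology MeasureTheory Metric Complex
open scoped ENNReal ComplexConjugate Real

noncomputable section
namespace Vale.Agent.P116

namespace KoLog

theorem slit {N : Set ℂ} (hN : Convex ℝ N) {c ζ z : ℂ} (hc : c ∈ N) (hζ : ζ ∈ N) (hz : z ∉ N) :
    (z - ζ) / (z - c) ∈ slitPlane := by
  by_contra h
  rw [mem_slitPlane_iff, not_or, not_lt, not_not] at h
  have h0 : z - c ≠ 0 := sub_ne_zero.2 fun e => hz (e ▸ hc)
  obtain ⟨t, ht, e⟩ : ∃ t : ℝ, 0 ≤ t ∧ (z - ζ) / (z - c) = -t :=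
    ⟨-((z - ζ) / (z - c)).re, by linarith [h.1], Complex.ext (by simp) (by simp [h.2])⟩
  rw [div_eq_iff h0] at e
  have h1 : (1 + t : ℂ) ≠ 0 := by exact_mod_cast (by positivity : 1 + t ≠ 0)
  have := hN hζ hc (a := 1 / (1 + t)) (b := t / (1 + t)) (by positivity) (by positivity)
    (by field_simp)
  refine hz (by
    convert this using 1
    simp only [real_smul]
    push_cast
    field_simp
    linear_combination e)

end KoLog

theorem log_pf : S_Log := by
  intro N ψ hN hc hψ hs h0
  have hz : ∀ ζ, ζ ∉ N → ψ ζ = 0 := fun ζ h => image_eq_zero_of_notMem_tsupport fun h' => h (hs h')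
  rcases N.eq_empty_or_nonempty with rfl | ⟨c, hcN⟩
  · exact ⟨fun _ => 0, fun z _ => by simpa [hz] using hasDerivAt_const z (0 : ℂ), tendsto_const_nhds⟩
  have mN := hN.measurableSet
  have iψ : IntegrableOn ψ N := hψ.continuousOn.integrableOn_compact hN
  have ne : ∀ z ∉ N, ∀ ζ ∈ N, z - ζ ≠ 0 := fun z h ζ h' => sub_ne_zero.2 fun e => h (e ▸ h')
  have cF : ∀ z ∉ N, ContinuousOn (fun ζ => ψ ζ * log ((z - ζ) / (z - c))) N := fun z h =>
    hψ.continuousOn.mul (ContinuousOn.clog (by fun_prop) fun ζ h' => KoLog.slit hc hcN h' h)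
  have cG : ∀ z ∉ N, ContinuousOn (fun ζ => ψ ζ / (z - ζ)) N := fun z h =>
    hψ.continuousOn.div (by fun_prop) (ne z h)
  refine ⟨fun z => ∫ ζ in N, ψ ζ * log ((z - ζ) / (z - c)), fun z h => ?_, ?_⟩
  · obtain ⟨d, hd, hb⟩ := Metric.isOpen_iff.1 hN.isClosed.isOpen_compl z h
    have far : ∀ x ∈ ball z (d / 2), ∀ ζ ∈ N, d / 2 ≤ ‖x - ζ‖ := fun x hx ζ h' => by
      have h1 : d ≤ dist ζ z := not_lt.1 fun e => hb e h'
      have h2 := dist_triangle ζ x z
      rw [dist_comm ζ x, dist_eq_norm x ζ] at h2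
      linarith [mem_ball.1 hx]
    have sub : ∀ x ∈ ball z (d / 2), x ∉ N := fun x hx => hb (ball_subset_ball (by linarith) hx)
    have := (hasDerivAt_integral_of_dominated_loc_of_deriv_le (μ := volume.restrict N)
      (F := fun x ζ => ψ ζ * log ((x - ζ) / (x - c)))
      (F' := fun x ζ => ψ ζ / (x - ζ) - ψ ζ / (x - c)) (x₀ := z)
      (bound := fun ζ => ‖ψ ζ‖ / (d / 2) + ‖ψ ζ‖ / (d / 2)) (ball_mem_nhds z (half_pos hd))
      (by filter_upwards [ball_mem_nhds z (half_pos hd)] with x hx using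
        (cF x (sub x hx)).aestronglyMeasurable mN)
      ((cF z h).integrableOn_compact hN)
      (((cG z h).sub (hψ.continuousOn.div_const _)).aestronglyMeasurable mN)
      ((ae_restrict_mem mN).mono fun ζ h' x hx => (norm_sub_le _ _).trans (by
        rw [norm_div, norm_div]
        exact add_le_add (div_le_div_of_nonneg_left (norm_nonneg _) (half_pos hd) (far x hx ζ h'))
          (div_le_div_of_nonneg_left (norm_nonneg _) (half_pos hd) (far x hx c hcN))))
      ((iψ.norm.div_const _).add (iψ.norm.div_const _))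
      ((ae_restrict_mem mN).mono fun ζ h' x hx => by
        have n1 := ne x (sub x hx) ζ h'
        have n2 := ne x (sub x hx) c hcN
        refine (((((hasDerivAt_id' x).sub_const ζ).fun_div ((hasDerivAt_id' x).sub_const c) n2).clog
          (KoLog.slit hc hcN h' (sub x hx))).const_mul (ψ ζ)).congr_deriv ?_
        field_simp)).2
    rwa [integral_sub ((cG z h).integrableOn_compact hN) (iψ.div_const _), integral_div,
      setIntegral_eq_integral_of_forall_compl_eq_zero hz, h0, zero_div, sub_zero,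
      setIntegral_eq_integral_of_forall_compl_eq_zero fun ζ h' => by rw [hz ζ h', zero_div]] at this
  · obtain ⟨R, hR, hb⟩ := hN.isBounded.subset_closedBall_lt 0 c
    have t1 : Tendsto (fun z : ℂ => ‖z - c‖) (cocompact ℂ) atTop := by
      simpa only [dist_eq_norm] using tendsto_dist_right_cocompact_atTop c
    refine squeeze_zero_norm' (a := fun z => (∫ ζ in N, ‖ψ ζ‖ * (3 / 2 * R)) / ‖z - c‖) ?_
      (t1.const_div_atTop _)
    filter_upwards [t1.eventually_ge_atTop (2 * R)] with z h
    have p : 0 < ‖z - c‖ := by linarith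
    rw [← integral_div]
    refine norm_integral_le_of_norm_le ((iψ.norm.mul_const _).div_const _)
      ((ae_restrict_mem mN).mono fun ζ h' => ?_)
    have h1 : ‖(c - ζ) / (z - c)‖ ≤ R / ‖z - c‖ := by
      rw [norm_div, norm_sub_rev]
      exact div_le_div_of_nonneg_right (mem_closedBall_iff_norm.1 (hb h')) p.le
    rw [norm_mul, mul_div_assoc, show (z - ζ) / (z - c) = 1 + (c - ζ) / (z - c) by
      field_simp [norm_pos_iff.1 p]; ring, mul_div_assoc]
    refine mul_le_mul_of_nonneg_left ((norm_log_one_add_half_le_self (h1.trans ?_)).trans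
      (mul_le_mul_of_nonneg_left h1 (by norm_num))) (norm_nonneg _)
    rw [div_le_iff₀ p]
    linarith

end Vale.Agent.P116
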