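import Vale.Agent.P116.KoBase

open Set Filter Topology MeasureTheory Metric Complex
open scoped ENNReal ComplexConjugate Real

noncomputable section
namespace Vale.Agent.P116

namespace KoMax

variable {ι : Type} {a b s : ι → ℝ} {f : ℂ → ℂ} {c : ι → ℂ} {r : ι → ℝ}

/-- the points whose whole preimage lies in `U` -/
def Psi (a b s : ι → ℝ) (f : ℂ → ℂ) (c : ι → ℂ) (r : ι → ℝ) (U : Set ℂ) : Set ℂ :=
  f '' (U ∩ (KK a b s)ᶜ) ∪ {w | ∃ j, sq (a j) (b j) (s j) ⊆ U ∧ w ∈ closedBall (c j) (r j)}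

theorem not_img (h : FK a b s f c r) {j : ι} {w : ℂ} (hw : w ∈ closedBall (c j) (r j)) :
    w ∉ f '' (KK a b s)ᶜ := by
  rw [h.img]
  exact fun hn => hn (mem_iUnion.2 ⟨j, hw⟩)

theorem cases (h : FK a b s f c r) (w : ℂ) :
    (∃ j, w ∈ closedBall (c j) (r j)) ∨ ∃ z ∈ (KK a b s)ᶜ, f z = w := by
  by_cases hw : w ∈ ⋃ j, closedBall (c j) (r j)
  · exact Or.inl (mem_iUnion.1 hw)
  · right
    change w ∈ f '' (KK a b s)ᶜ
    rwa [h.img]

theorem psi_open [Finite ι] (hProp : S_Prop) (h : FK a b s f c r) {U : Set ℂ} (hU : IsOpen U) :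
    IsOpen (Psi a b s f c r U) := by
  obtain ⟨p1, -, p3⟩ := hProp _ f 0 (isCompact_KK a b s) h.hol h.inj h.inf
  refine isOpen_iff_mem_nhds.2 fun w hw => ?_
  rcases hw with hw | ⟨j, hj, hw⟩
  · exact mem_of_superset
      ((p1 _ (hU.inter (isOpen_G a b s)) inter_subset_right).mem_nhds hw) subset_union_left
  have key : ∀ k, ∃ T V : Set ℂ, IsOpen T ∧ sq (a k) (b k) (s k) ⊆ T ∧ V ∈ 𝓝 w ∧
      (∀ x ∈ V, x ∈ closedBall (c k) (r k) → sq (a k) (b k) (s k) ⊆ U) ∧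
      ∀ z ∈ T, z ∈ (KK a b s)ᶜ → f z ∈ V → z ∈ U := fun k => by
    by_cases hk : k = j
    · subst hk
      exact ⟨U, univ, hU, hj, univ_mem, fun _ _ _ => hj, fun z hz _ _ => hz⟩
    have h1 : r k < dist w (c k) := not_le.1 fun h2 =>
      Set.disjoint_left.1 (h.dis hk) (mem_closedBall.2 h2) hw
    obtain ⟨T, t1, t2, t3⟩ := mem_nhdsSet.1 (h.clu k ((dist w (c k) - r k) / 2) (by linarith))
    refine ⟨T, (closedBall (c k) (r k + (dist w (c k) - r k) / 2))ᶜ, t2, t3,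
      isClosed_closedBall.isOpen_compl.mem_nhds fun h2 => ?_, fun x hx h2 => (hx ?_).elim,
      fun z hz h2 h3 => (h3 ?_).elim⟩
    · linarith [mem_closedBall.1 h2]
    · exact closedBall_subset_closedBall (by linarith) h2
    · exact mem_closedBall_iff_norm.2 (t1 hz h2)
  choose T V k1 k2 k3 k4 k5 using key
  have hK : KK a b s ⊆ ⋃ k, T k := iUnion_mono k2
  have h1 : (f '' (⋃ k, T k)ᶜ)ᶜ ∈ 𝓝 w :=
    (p3 _ (isOpen_iUnion k1) hK).isOpen_compl.mem_nhds fun h2 =>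
      not_img h hw (image_mono (compl_subset_compl.2 hK) h2)
  filter_upwards [h1, eventually_all.2 k3] with x x1 x2
  rcases cases h x with ⟨k, hk⟩ | ⟨z, hz, rfl⟩
  · exact Or.inr ⟨k, k4 k x (x2 k) hk, hk⟩
  · obtain ⟨k, hk⟩ := mem_iUnion.1 (not_not.1 fun h2 : z ∉ ⋃ k, T k => x1 ⟨z, h2, rfl⟩)
    exact Or.inl ⟨z, ⟨k5 k z hk hz (x2 k), hz⟩, rfl⟩

theorem phi_eq (h : FK a b s f c r) (A : Set ℂ) : Phi a b s f c r A = (Psi a b s f c r Aᶜ)ᶜ := by
  ext w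
  constructor
  · rintro (⟨z, hz, rfl⟩ | ⟨j, ⟨z, hz⟩, hw⟩) (⟨y, hy, e⟩ | ⟨k, hk, hx⟩)
    · exact hy.1 (h.inj hy.2 hz.2 e ▸ hz.1)
    · exact not_img h hx ⟨z, hz.2, rfl⟩
    · exact not_img h hw ⟨y, hy.2, e⟩
    · by_cases e : k = j
      · subst e
        exact hk hz.1 hz.2
      · exact Set.disjoint_left.1 (h.dis e) hx hw
  · intro hw
    rcases cases h w with ⟨k, hk⟩ | ⟨z, hz, rfl⟩
    · refine Or.inr ⟨k, ?_, hk⟩
      by_contra hn
      exact hw (Or.inr ⟨k, fun z hz h2 => hn ⟨z, hz, h2⟩, hk⟩)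
    · refine Or.inl ⟨z, ⟨?_, hz⟩, rfl⟩
      by_contra hn
      exact hw (Or.inl ⟨z, ⟨hn, hz⟩, rfl⟩)

theorem phi_bdd [Finite ι] (h : FK a b s f c r) {A : Set ℂ} (hA : IsCompact A) :
    Bornology.IsBounded (Phi a b s f c r A) := by
  choose T t1 t2 t3 using fun k => mem_nhdsSet.1 (h.clu k 1 one_pos)
  have hK : KK a b s ⊆ ⋃ k, T k := iUnion_mono t3
  have h1 : IsCompact (f '' (A \ ⋃ k, T k)) :=
    (hA.diff (isOpen_iUnion t2)).image_of_continuousOn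
      (h.hol.continuousOn.mono fun z hz h2 => hz.2 (hK h2))
  refine (h1.isBounded.union (Bornology.isBounded_iUnion.2 fun k =>
    isBounded_closedBall (x := c k) (r := r k + 1))).subset ?_
  rintro w (⟨z, hz, rfl⟩ | ⟨k, -, hk⟩)
  · by_cases h2 : z ∈ ⋃ k, T k
    · obtain ⟨k, hk⟩ := mem_iUnion.1 h2
      exact Or.inr (mem_iUnion.2 ⟨k, mem_closedBall_iff_norm.2 (t1 k hk hz.2)⟩)
    · exact Or.inl ⟨z, ⟨hz.1, h2⟩, rfl⟩
  · exact Or.inr (mem_iUnion.2 ⟨k, closedBall_subset_closedBall (by linarith) hk⟩)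

theorem main [Finite ι] {R : ℝ} (hProp : S_Prop) (hc : Cfg a b s R) (h : FK a b s f c r)
    (z : ℂ) {e : ℂ} (he : e ≠ 0) (t : ℝ) {w : ℂ} (hw : w ∈ Phi a b s f c r (closedBall z t)) :
    ∃ w' ∈ Phi a b s f c r (sphere z t), (e * w).re ≤ (e * w').re := by
  have h1 : IsCompact (Phi a b s f c r (closedBall z t)) :=
    isCompact_of_isClosed_isBounded (by
      rw [phi_eq h]
      exact (psi_open hProp h isClosed_closedBall.isOpen_compl).isClosed_compl)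
      (phi_bdd h (isCompact_closedBall z t))
  obtain ⟨x, x1, x2⟩ := h1.exists_isMaxOn (f := fun w => (e * w).re) ⟨w, hw⟩ (by fun_prop)
  refine ⟨x, ?_, x2 hw⟩
  have h2 : x ∉ Psi a b s f c r (ball z t) := fun hx => by
    have h3 : Tendsto (fun τ : ℝ => x + τ * conj e) (𝓝[>] 0) (𝓝 x) := by
      have : Continuous fun τ : ℝ => x + τ * conj e := by fun_prop
      simpa using (this.tendsto 0).mono_left (nhdsWithin_le_nhds (s := Ioi 0))
    obtain ⟨τ, h4, h5⟩ := ((h3.eventually ((psi_open hProp h isOpen_ball).mem_nhds hx)).and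
      self_mem_nhdsWithin).exists
    have h6 : x + τ * conj e ∈ Phi a b s f c r (closedBall z t) := by
      rcases h4 with ⟨y, hy, h4⟩ | ⟨k, hk, h4⟩
      · exact Or.inl ⟨y, ⟨ball_subset_closedBall hy.1, hy.2⟩, h4⟩
      · exact Or.inr ⟨k, ⟨_, cen_mem (hc.pos k).le,
          ball_subset_closedBall (hk (cen_mem (hc.pos k).le))⟩, h4⟩
    have h7 : (e * (x + τ * conj e)).re ≤ (e * x).re := x2 h6
    rw [mul_add, mul_left_comm, mul_conj, ← ofReal_mul, add_re, ofReal_re] at h7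
    linarith [mul_pos (show 0 < τ from h5) (normSq_pos.2 he)]
  rcases x1 with ⟨y, hy, rfl⟩ | ⟨k, ⟨p, hp⟩, hk⟩
  · refine Or.inl ⟨y, ⟨le_antisymm hy.1 (not_lt.1 fun h3 => ?_), hy.2⟩, rfl⟩
    exact h2 (Or.inl ⟨y, ⟨h3, hy.2⟩, rfl⟩)
  · obtain ⟨q, q1, q2⟩ := not_subset.1 fun h3 => h2 (Or.inr ⟨k, h3, hk⟩)
    obtain ⟨y, y1, y2⟩ := (convex_sq (a k) (b k) (s k)).isPreconnected.intermediate_value hp.1 q1
      (f := fun y => dist y z) (by fun_prop) ⟨hp.2, not_lt.1 q2⟩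
    exact Or.inr ⟨k, ⟨y, y1, y2⟩, hk⟩

end KoMax

theorem max_pf (hProp : S_Prop) : S_Max := by
  intro ι _ a b s R f c r hc h z e t _ w hw
  by_cases he : e = 0
  · obtain ⟨w', h1, -⟩ := KoMax.main hProp hc h z one_ne_zero t hw
    exact ⟨w', h1, by simp [he]⟩
  · exact KoMax.main hProp hc h z he t hw

end Vale.Agent.P116
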