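import Vale.Agent.P116.KoBase

open Set Filter Topology MeasureTheory Metric Complex
open scoped ENNReal ComplexConjugate Real

noncomputable section
namespace Vale.Agent.P116

namespace KoMin

theorem nonneg_of {a C : ℝ} (h : ∀ t : ℝ, 0 < t → t < 1 → 0 ≤ 2 * t * a + t ^ 2 * C) : 0 ≤ a := by
  have h1 : Tendsto (fun t : ℝ => 2 * a + t * C) (𝓝[>] 0) (𝓝 (2 * a + 0 * C)) :=
    (Continuous.tendsto (by fun_prop) 0).mono_left nhdsWithin_le_nhds
  have h2 : 0 ≤ 2 * a + 0 * C := by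
    refine ge_of_tendsto h1 ?_
    filter_upwards [Ioo_mem_nhdsGT (zero_lt_one' ℝ)] with t ht
    have h3 := h t ht.1 ht.2
    have h4 : 2 * t * a + t ^ 2 * C = t * (2 * a + t * C) := by ring
    rw [h4] at h3
    exact nonneg_of_mul_nonneg_right h3 ht.1
  linarith

theorem cauchy {X : Type} [PseudoMetricSpace X] (x : ℕ → X)
    (h : ∀ n k : ℕ, dist (x n) (x k) ^ 2 ≤ 2 * (1 / ((n : ℝ) + 1) + 1 / ((k : ℝ) + 1))) :
    CauchySeq x := by
  refine cauchySeq_of_le_tendsto_0 (fun N : ℕ => √(4 * (1 / ((N : ℝ) + 1)))) (fun n k N hn hk => ?_) ?_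
  · refine Real.le_sqrt_of_sq_le ((h n k).trans ?_)
    have h1 := Nat.one_div_le_one_div (α := ℝ) hn
    have h2 := Nat.one_div_le_one_div (α := ℝ) hk
    linarith
  · have h1 := (tendsto_one_div_add_atTop_nhds_zero_nat (𝕜 := ℝ).const_mul 4).sqrt
    rwa [mul_zero, Real.sqrt_zero] at h1

variable {V E ι : Type} [AddCommGroup V] [Module ℝ V] [NormedAddCommGroup E]
  [InnerProductSpace ℝ E] [Fintype ι]

theorem par (L : V →ₗ[ℝ] E) (u0 : E) (l : V →ₗ[ℝ] ℝ) (p : ι → Seminorm ℝ V) (v w : V) :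
    4 * (‖L ((1 / 2 : ℝ) • (v + w)) + u0‖ ^ 2 + 2 * l ((1 / 2 : ℝ) • (v + w)) +
      π * ∑ j, p j ((1 / 2 : ℝ) • (v + w)) ^ 2) +
      (‖L v + u0 - (L w + u0)‖ ^ 2 + π * ∑ j, (p j v - p j w) ^ 2) ≤
    2 * (‖L v + u0‖ ^ 2 + 2 * l v + π * ∑ j, p j v ^ 2) +
      2 * (‖L w + u0‖ ^ 2 + 2 * l w + π * ∑ j, p j w ^ 2) := by
  have h1 : L ((1 / 2 : ℝ) • (v + w)) + u0 = (1 / 2 : ℝ) • (L v + u0 + (L w + u0)) := by
    rw [map_smul, map_add]
    module
  have h2 := parallelogram_law_with_norm ℝ (L v + u0) (L w + u0)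
  have h3 : 4 * ∑ j, p j ((1 / 2 : ℝ) • (v + w)) ^ 2 + ∑ j, (p j v - p j w) ^ 2 ≤
      2 * ∑ j, p j v ^ 2 + 2 * ∑ j, p j w ^ 2 := by
    simp only [Finset.mul_sum, ← Finset.sum_add_distrib]
    refine Finset.sum_le_sum fun j _ => ?_
    have e1 := pow_le_pow_left₀ (apply_nonneg (p j) _) (map_add_le_add (p j) v w) 2
    rw [map_smul_eq_mul, Real.norm_of_nonneg (by norm_num)]
    nlinarith
  have h4 := mul_le_mul_of_nonneg_left h3 Real.pi_pos.le
  rw [h1, norm_smul, Real.norm_of_nonneg (by norm_num), map_smul, map_add, smul_eq_mul]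
  nlinarith

end KoMin

open KoMin in
theorem min_pf : S_Min := by
  intro V E ι _ _ _ _ _ _ L u0 l p m hm
  obtain ⟨F, hF⟩ : ∃ F : V → ℝ, F = fun v => ‖L v + u0‖ ^ 2 + 2 * l v + π * ∑ j, p j v ^ 2 :=
    ⟨_, rfl⟩
  have hF' : ∀ v, F v = ‖L v + u0‖ ^ 2 + 2 * l v + π * ∑ j, p j v ^ 2 := fun v => by rw [hF]
  have hb : BddBelow (range F) := ⟨m, by rintro _ ⟨v, rfl⟩; rw [hF']; exact hm v⟩
  have h0 : m ≤ ⨅ v, F v := le_ciInf fun v => by rw [hF']; exact hm v
  have h1 : ∀ v, ⨅ v, F v ≤ F v := ciInf_le hb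
  have h2 : ∀ n : ℕ, ∃ v, F v < (⨅ v, F v) + 1 / ((n : ℝ) + 1) := fun n =>
    exists_lt_of_ciInf_lt (lt_add_of_pos_right _ Nat.one_div_pos_of_nat)
  generalize ⨅ v, F v = m0 at h0 h1 h2
  choose v hv using h2
  have h3 : ∀ n k : ℕ, ‖L (v n) + u0 - (L (v k) + u0)‖ ^ 2 + π * ∑ j, (p j (v n) - p j (v k)) ^ 2 ≤
      2 * (1 / ((n : ℝ) + 1) + 1 / ((k : ℝ) + 1)) := fun n k => by
    have e1 := par L u0 l p (v n) (v k)
    rw [← hF', ← hF', ← hF'] at e1
    linarith [h1 ((1 / 2 : ℝ) • (v n + v k)), hv n, hv k]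
  obtain ⟨u, hu⟩ := cauchySeq_tendsto_of_complete (cauchy (fun n => L (v n) + u0) fun n k => by
    refine le_trans ?_ (h3 n k)
    rw [dist_eq_norm]
    exact le_add_of_nonneg_right (by positivity))
  have h4 : ∀ j, ∃ r, Tendsto (fun n => p j (v n)) atTop (𝓝 r) := fun j =>
    cauchySeq_tendsto_of_complete (cauchy (fun n => p j (v n)) fun n k => by
      refine le_trans ?_ (h3 n k)
      have e1 := Finset.single_le_sum (f := fun j => (p j (v n) - p j (v k)) ^ 2)
        (fun j _ => sq_nonneg _) (Finset.mem_univ j)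
      rw [Real.dist_eq, sq_abs]
      refine e1.trans (le_add_of_nonneg_of_le (sq_nonneg _) (le_mul_of_one_le_left
        (Finset.sum_nonneg fun j _ => sq_nonneg _) (by linarith [Real.pi_gt_three]))))
  choose r hr using h4
  have h5 : Tendsto (fun n => F (v n)) atTop (𝓝 m0) := by
    have e1 := (tendsto_one_div_add_atTop_nhds_zero_nat (𝕜 := ℝ)).const_add m0
    rw [add_zero] at e1
    exact tendsto_of_tendsto_of_tendsto_of_le_of_le tendsto_const_nhds e1 (fun n => h1 _)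
      fun n => (hv n).le
  obtain ⟨lam, hlam⟩ : ∃ lam, lam = (m0 - ‖u‖ ^ 2 - π * ∑ j, r j ^ 2) / 2 := ⟨_, rfl⟩
  have h6 : Tendsto (fun n => l (v n)) atTop (𝓝 lam) := by
    have e1 := ((h5.sub (hu.norm.pow 2)).sub
      ((tendsto_finsetSum Finset.univ fun j _ => (hr j).pow 2).const_mul π)).div_const 2
    rw [← hlam] at e1
    refine e1.congr fun n => ?_
    rw [hF']
    ring
  refine ⟨u, r, fun j => ge_of_tendsto' (hr j) fun n => apply_nonneg _ _, fun w => ?_, ?_⟩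
  · refine nonneg_of (C := ‖L w‖ ^ 2 + π * ∑ j, p j w ^ 2) fun t ht _ => ?_
    have e1 := (((hu.add_const (t • L w)).norm.pow 2).add ((h6.add_const (t * l w)).const_mul 2)).add
      ((tendsto_finsetSum Finset.univ fun j _ => ((hr j).add_const (t * p j w)).pow 2).const_mul π)
    have e2 := ge_of_tendsto' e1 (b := m0) fun n => by
      refine (h1 (v n + t • w)).trans ?_
      rw [hF', map_add, map_smul, map_add, map_smul, smul_eq_mul, add_right_comm (L (v n))]
      gcongr with j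
      refine (map_add_le_add _ _ _).trans_eq ?_
      rw [map_smul_eq_mul, Real.norm_of_nonneg ht.le]
    have e3 : ∑ j, (r j + t * p j w) ^ 2 =
        ∑ j, r j ^ 2 + 2 * t * ∑ j, r j * p j w + t ^ 2 * ∑ j, p j w ^ 2 := by
      simp only [Finset.mul_sum, ← Finset.sum_add_distrib]
      exact Finset.sum_congr rfl fun j _ => by ring
    rw [e3, norm_add_sq_real, inner_smul_right, norm_smul, Real.norm_of_nonneg ht.le, hlam] at e2
    linarith
  · have e0 : 0 ≤ -(inner ℝ u (u - u0) + lam + π * ∑ j, r j ^ 2) := by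
      refine nonneg_of (C := ‖u - u0‖ ^ 2 + π * ∑ j, r j ^ 2) fun t _ ht => ?_
      have e1 := (((((hu.sub_const u0).const_smul (1 - t)).add_const u0).norm.pow 2).add
        ((h6.const_mul (1 - t)).const_mul 2)).add
        ((tendsto_finsetSum Finset.univ fun j _ => ((hr j).const_mul (1 - t)).pow 2).const_mul π)
      have e2 := ge_of_tendsto' e1 (b := m0) fun n => by
        refine (h1 ((1 - t) • v n)).trans_eq ?_
        simp only [hF', map_smul, smul_eq_mul, add_sub_cancel_right, map_smul_eq_mul,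
          Real.norm_of_nonneg (sub_nonneg.2 ht.le)]
      have e3 : ∑ j, ((1 - t) * r j) ^ 2 = (1 - t) ^ 2 * ∑ j, r j ^ 2 := by
        simp only [Finset.mul_sum, mul_pow]
      have e4 : (1 - t) • (u - u0) + u0 = u - t • (u - u0) := by module
      rw [e3, e4, norm_sub_sq_real, inner_smul_right, norm_smul, mul_pow, Real.norm_eq_abs,
        sq_abs] at e2
      linarith
    rw [inner_sub_right, real_inner_self_eq_norm_sq] at e0
    linarith

end Vale.Agent.P116
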