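import Vale.Agent.P116.KoBase

open Set Filter Topology MeasureTheory Metric Complex
open scoped ENNReal ComplexConjugate Real

noncomputable section
namespace Vale.Agent.P116

namespace KoMv

/-- the polar map -/
def T (x : ℂ) (p : ℝ × ℝ) : ℂ := circleMap x p.1 p.2

theorem T_cont (x : ℂ) : Continuous (T x) := by
  unfold T circleMap
  fun_prop

theorem shift (g : ℝ → ℝ≥0∞) : ∫⁻ θ in Ioo (-π) π, g (θ + π) = ∫⁻ θ in Ioo 0 (2 * π), g θ := by
  have h := (measurePreserving_add_right (volume : Measure ℝ) π).setLIntegral_comp_preimage_emb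
    (measurableEmbedding_addRight π) g (Ioo 0 (2 * π))
  rw [preimage_add_const_Ioo, zero_sub, show 2 * π - π = π by ring] at h
  exact h

theorem base {f : ℂ → ℝ≥0∞} (hf : Measurable f) (x : ℂ) :
    ∫⁻ z, f z = ∫⁻ ρ in Ioi 0, ENNReal.ofReal ρ * ∫⁻ θ in Ioo 0 (2 * π), f (circleMap x ρ θ) := by
  have e : ∀ p : ℝ × ℝ, x - Complex.polarCoord.symm p = T x (p.1, p.2 + π) := fun p => by
    simp only [Complex.polarCoord_symm_apply, T, circleMap, ofReal_add, add_mul, exp_add]
    rw [exp_pi_mul_I, exp_mul_I, ofReal_cos, ofReal_sin]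
    ring
  have hm : Measurable fun p : ℝ × ℝ => f (T x (p.1, p.2 + π)) :=
    hf.comp ((T_cont x).comp (by fun_prop)).measurable
  rw [← lintegral_sub_left_eq_self f x, ← Complex.lintegral_comp_polarCoord_symm]
  simp only [e, smul_eq_mul]
  rw [polarCoord_target, Measure.volume_eq_prod, ← Measure.prod_restrict, lintegral_prod
    (fun p : ℝ × ℝ => ENNReal.ofReal p.1 * f (T x (p.1, p.2 + π)))
    ((ENNReal.measurable_ofReal.comp measurable_fst).mul hm).aemeasurable]
  refine lintegral_congr fun ρ => ?_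
  simp only
  rw [lintegral_const_mul' _ _ ENNReal.ofReal_ne_top]
  congr 1
  exact shift fun θ => f (circleMap x ρ θ)

theorem norm_T (x : ℂ) (ρ θ : ℝ) : ‖circleMap x ρ θ - x‖ = |ρ| := by
  rw [circleMap_sub_center, norm_circleMap_zero]

theorem circ {g : ℂ → ℂ} {z : ℂ} {d ρ : ℝ} (h0 : 0 < ρ) (h1 : ρ < d)
    (hg : DifferentiableOn ℂ g (ball z d)) :
    ENNReal.ofReal (2 * π * ‖g z‖ ^ 2) ≤
      ∫⁻ θ in Ioo 0 (2 * π), ENNReal.ofReal (‖g (circleMap z ρ θ)‖ ^ 2) := by
  have hm : ∀ θ, circleMap z ρ θ ∈ ball z d := fun θ => by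
    rw [mem_ball, dist_eq_norm, norm_T, abs_of_pos h0]
    exact h1
  have hd : DiffContOnCl ℂ (fun w => g w ^ 2) (ball z |ρ|) := by
    refine DifferentiableOn.diffContOnCl ((hg.pow 2).mono ?_)
    rw [abs_of_pos h0, closure_ball z h0.ne']
    exact closedBall_subset_ball h1
  have e := hd.circleAverage
  have c : Continuous fun θ => g (circleMap z ρ θ) :=
    hg.continuousOn.comp_continuous (continuous_circleMap z ρ) hm
  have p : 0 < 2 * π := Real.two_pi_pos
  have n := intervalIntegral.norm_integral_le_integral_norm (μ := volume)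
    (f := fun θ => g (circleMap z ρ θ) ^ 2) p.le
  have e2 : ‖g z‖ ^ 2 = (2 * π)⁻¹ * ‖∫ θ in (0 : ℝ)..2 * π, g (circleMap z ρ θ) ^ 2‖ := by
    rw [← norm_pow, ← e, Real.circleAverage, norm_smul, Real.norm_of_nonneg (by positivity)]
  have i : IntegrableOn (fun θ => ‖g (circleMap z ρ θ)‖ ^ 2) (Ioo 0 (2 * π)) :=
    ((c.norm.pow 2).integrableOn_Icc).mono_set Ioo_subset_Icc_self
  rw [← ofReal_integral_eq_lintegral_ofReal i (.of_forall fun θ => sq_nonneg _)]
  refine ENNReal.ofReal_le_ofReal ?_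
  rw [e2, ← mul_assoc, mul_inv_cancel₀ p.ne', one_mul, ← integral_Ioc_eq_integral_Ioo,
    ← intervalIntegral.integral_of_le p.le]
  simpa only [norm_pow] using n

end KoMv

theorem mv_pf : S_Mv := by
  classical
  intro g z d hd hg hi
  have m : Measurable ((ball z d).piecewise g fun _ => 0) :=
    hg.continuousOn.measurable_piecewise continuousOn_const measurableSet_ball
  have m2 : Measurable fun w => ENNReal.ofReal (‖(ball z d).piecewise g (fun _ => 0) w‖ ^ 2) :=
    (m.norm.pow_const 2).ennreal_ofReal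
  have e1 : ∫⁻ w in ball z d, ENNReal.ofReal (‖g w‖ ^ 2) =
      ∫⁻ w, ENNReal.ofReal (‖(ball z d).piecewise g (fun _ => 0) w‖ ^ 2) := by
    rw [← lintegral_indicator measurableSet_ball]
    refine lintegral_congr fun w => ?_
    by_cases c : w ∈ ball z d
    · rw [indicator_of_mem c, piecewise_eq_of_mem _ _ _ c]
    · rw [indicator_of_notMem c, piecewise_eq_of_notMem _ _ _ c]
      simp
  have e2 : ∫⁻ ρ in Ioo 0 d, ENNReal.ofReal ρ = ENNReal.ofReal (d ^ 2 / 2) := by
    rw [← ofReal_integral_eq_lintegral_ofReal (f := fun ρ : ℝ => ρ)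
      (μ := volume.restrict (Ioo 0 d))
      (continuous_id.integrableOn_Icc.mono_set Ioo_subset_Icc_self)
      ((ae_restrict_iff' measurableSet_Ioo).2 (.of_forall fun ρ h => h.1.le)),
      ← integral_Ioc_eq_integral_Ioo, ← intervalIntegral.integral_of_le hd.le, integral_id]
    norm_num
  refine (ENNReal.ofReal_le_ofReal_iff (integral_nonneg fun w => sq_nonneg _)).1 ?_
  rw [ofReal_integral_eq_lintegral_ofReal hi (.of_forall fun w => sq_nonneg _), e1,
    KoMv.base m2 z, show π * d ^ 2 * ‖g z‖ ^ 2 = d ^ 2 / 2 * (2 * π * ‖g z‖ ^ 2) by ring,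
    ENNReal.ofReal_mul (by positivity), ← e2, ← lintegral_mul_const _ ENNReal.measurable_ofReal]
  refine le_trans ?_ (lintegral_mono_set (s := Ioo 0 d) Ioo_subset_Ioi_self)
  refine setLIntegral_mono' measurableSet_Ioo fun ρ h => ?_
  refine mul_le_mul_right ((KoMv.circ h.1 h.2 hg).trans (le_of_eq ?_)) _
  refine lintegral_congr fun θ => ?_
  rw [piecewise_eq_of_mem]
  rw [mem_ball, dist_eq_norm, KoMv.norm_T, abs_of_pos h.1]
  exact h.2

end Vale.Agent.P116
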