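import Vale.Agent.P116.KoBase

open Set Filter Topology MeasureTheory Metric Complex
open scoped ENNReal ComplexConjugate Real

noncomputable section
namespace Vale.Agent.P116

namespace KoNone

theorem not_const {K : Set ℂ} (hK : IsCompact K) (hc : IsPreconnected Kᶜ) {f : ℂ → ℂ}
    (hf : DifferentiableOn ℂ f Kᶜ) (hi : Tendsto (fun z => f z - z) (cocompact ℂ) (𝓝 0))
    {z w : ℂ} (hz : z ∉ K) : ¬ f =ᶠ[𝓝 z] fun _ => w := by
  intro h
  have h1 : EqOn f (fun _ => w) Kᶜ :=
    (hf.analyticOnNhd hK.isClosed.isOpen_compl).eqOn_of_preconnected_of_eventuallyEq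
      analyticOnNhd_const hc hz h
  have h2 : Tendsto (fun z : ℂ => z) (cocompact ℂ) (𝓝 (w - 0)) := by
    refine (tendsto_const_nhds.sub hi).congr' ?_
    filter_upwards [hK.compl_mem_cocompact] with y hy
    rw [h1 hy]
    ring
  exact not_tendsto_nhds_of_tendsto_atTop (tendsto_norm_cocompact_atTop (E := ℂ)) _ h2.norm

theorem lim {f q : ℂ → ℂ} {w : ℂ} (hi : Tendsto (fun z => f z - z) (cocompact ℂ) (𝓝 0))
    (hq : ∀ᶠ z in cocompact ℂ, q z = f z - w) :
    Tendsto (fun z => q z / z) (cocompact ℂ) (𝓝 1) := by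
  have h1 : Tendsto (fun z : ℂ => z⁻¹) (cocompact ℂ) (𝓝 0) := by
    rw [← Metric.cobounded_eq_cocompact]
    exact tendsto_inv₀_cobounded
  have h2 := ((hi.sub_const w).mul h1).const_add 1
  rw [mul_zero, add_zero] at h2
  refine h2.congr' ?_
  filter_upwards [hq, (isCompact_singleton (x := (0 : ℂ))).compl_mem_cocompact] with z hz h0
  have h3 : z ≠ 0 := h0
  rw [hz]
  field_simp
  ring

end KoNone

theorem none_pf (hDeg : S_Deg) : S_None := by
  intro ι _ a b s R f c r hC hf hi hr hcl w hw
  classical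
  have hw' : ∀ j, r j < ‖w - c j‖ := fun j => by
    by_contra h
    exact hw (mem_iUnion.2 ⟨j, by rw [mem_closedBall, dist_eq_norm]; exact not_lt.1 h⟩)
  obtain ⟨V, hV, hVd⟩ := Pairwise.exists_mem_filter_of_disjoint
    (l := fun j => 𝓝ˢ (sq (a j) (b j) (s j))) fun i j hij =>
      disjoint_nhdsSet_nhdsSet (isClosed_sq _ _ _) (isClosed_sq _ _ _) (hC.dis hij)
  have hU : ∀ j, V j ∩ {z | z ∉ KK a b s → ‖f z - c j‖ < ‖w - c j‖} ∈
      𝓝ˢ (sq (a j) (b j) (s j)) := fun j => by
    refine inter_mem (hV j) ?_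
    filter_upwards [hcl j ((‖w - c j‖ - r j) / 2) (by linarith [hw' j])] with z hz hzG
    linarith [hz hzG, hw' j]
  choose κ hκ hs h01 using fun j => hC.loc_ex j (hU j)
  set q : ℂ → ℂ := fun z => ∑ j, (κ j z : ℂ) * (c j - w) + (1 - ∑ j, (κ j z : ℂ)) * (f z - w)
    with hq
  have hA : ∀ j, ∀ z ∈ tsupport (κ j),
      q z = κ j z * (c j - w) + (1 - κ j z) * (f z - w) := by
    intro j z hz
    have h0 : ∀ k, k ≠ j → κ k z = 0 := fun k hk => by
      by_contra h
      exact Set.disjoint_left.1 (hVd hk) (hs k (subset_tsupport _ h)).1 (hs j hz).1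
    simp only [hq]
    rw [Finset.sum_eq_single j (fun k _ hk => by simp [h0 k hk]) (by simp),
      Finset.sum_eq_single j (fun k _ hk => by simp [h0 k hk]) (by simp)]
  have hone : ∀ j z, κ j z = 1 → q z = c j - w := by
    intro j z hz
    rw [hA j z (subset_tsupport _ (by simp [hz])), hz]
    simp
  have hB : ∀ z, (∀ j, z ∉ tsupport (κ j)) → ∀ᶠ y in 𝓝 z, q y = f y - w := by
    intro z hz
    filter_upwards [eventually_all.2 fun j => notMem_tsupport_iff_eventuallyEq.1 (hz j)] with y hy
    simp only [Pi.zero_apply] at hy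
    simp [hq, hy]
  have hG : ∀ z, (∀ j, z ∉ tsupport (κ j)) → z ∉ KK a b s := by
    intro z hz hK
    obtain ⟨j, hj⟩ := mem_KK.1 hK
    exact hz j (subset_tsupport _ (by simp [(hκ j).2.2.1.self_of_nhdsSet z hj]))
  have hne : ∀ j, ∀ z ∈ tsupport (κ j), q z ≠ 0 := by
    intro j z hz h0
    have hpos : 0 < ‖w - c j‖ := (hr j).trans_lt (hw' j)
    by_cases hK : z ∈ KK a b s
    · obtain ⟨k, hk⟩ := mem_KK.1 hK
      have hkj : k = j := by
        by_contra h
        exact Set.disjoint_left.1 ((hκ j).2.2.2 k h) hz hk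
      subst hkj
      rw [hone k z ((hκ k).2.2.1.self_of_nhdsSet z hk), sub_eq_zero] at h0
      simp [h0] at hpos
    · have h1 := (hs j hz).2 hK
      have h2 : w - c j = ((1 - κ j z : ℝ) : ℂ) * (f z - c j) := by
        rw [hA j z hz] at h0
        push_cast
        linear_combination -h0
      have h3 := h01 j z
      rw [h2, norm_mul, Complex.norm_real, Real.norm_of_nonneg (by linarith [h3.2])] at h1
      nlinarith [h3.1, norm_nonneg (f z - c j)]
  have hcont : Continuous q := by
    refine continuous_iff_continuousAt.2 fun z => ?_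
    by_cases hK : z ∈ KK a b s
    · obtain ⟨j, hj⟩ := mem_KK.1 hK
      refine (continuousAt_const (y := c j - w)).congr ?_
      filter_upwards [(hκ j).2.2.1.filter_mono (nhds_le_nhdsSet hj)] with y hy
      exact (hone j y hy).symm
    · have h1 : ContinuousAt f z := hf.continuousOn.continuousAt ((isOpen_G a b s).mem_nhds hK)
      have h2 : ∀ j, Continuous fun y => (κ j y : ℂ) := fun j =>
        continuous_ofReal.comp (hκ j).1.continuous
      exact ((continuous_finsetSum _ fun j _ => (h2 j).mul continuous_const).continuousAt).add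
        ((continuous_const.sub (continuous_finsetSum _ fun j _ => h2 j)).continuousAt.mul
          (h1.sub continuousAt_const))
  have hfar : ∀ᶠ z in cocompact ℂ, q z = f z - w := by
    filter_upwards [eventually_all.2 fun j => IsCompact.compl_mem_cocompact (hκ j).2.1] with z hz
    exact (hB z hz).self_of_nhds
  have hz0 : ∀ z, q z = 0 → ∀ j, z ∉ tsupport (κ j) := fun z h j hj => hne j z hj h
  obtain ⟨z, hz, hu⟩ := hDeg q hcont (KoNone.lim hi hfar) fun z h => by
    have h1 := hB z (hz0 z h)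
    have h2 := hG z (hz0 z h)
    refine ⟨((hf.analyticAt ((isOpen_G a b s).mem_nhds h2)).sub
      (analyticAt_const (v := w))).congr ?_, fun h3 => ?_⟩
    · filter_upwards [h1] with y hy
      exact hy.symm
    · refine KoNone.not_const (isCompact_KK a b s) hC.con hf hi (w := w) h2 ?_
      filter_upwards [h1, h3] with y hy hy'
      rwa [hy, sub_eq_zero] at hy'
  refine ⟨z, ⟨hG z (hz0 z hz), ?_⟩, fun y hy => hu y ?_⟩
  · have h1 := (hB z (hz0 z hz)).self_of_nhds
    rwa [hz, eq_comm, sub_eq_zero] at h1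
  · have h1 : ∀ j, y ∉ tsupport (κ j) := fun j hj => by
      have h2 := (hs j hj).2 hy.1
      rw [hy.2] at h2
      exact lt_irrefl _ h2
    show q y = 0
    rw [(hB y h1).self_of_nhds, hy.2, sub_self]

end Vale.Agent.P116
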