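import Vale.Agent.P116.KoBase

open Set Filter Topology MeasureTheory Metric Complex
open scoped ENNReal ComplexConjugate Real

noncomputable section
namespace Vale.Agent.P116

namespace KoOrth

theorem db_scale (B : ℂ → ℂ) (hB : ContDiff ℝ 1 B) (t : ℝ) (z : ℂ) :
    db (fun w => B (t • w)) z = t * db B (t • z) := by
  have h1 : HasFDerivAt (fun w : ℂ => t • w) (t • ContinuousLinearMap.id ℝ ℂ) z :=
    (hasFDerivAt_id z).const_smul t
  have h2 := ((hB.differentiable one_ne_zero (t • z)).hasFDerivAt.comp z h1).fderiv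
  have e : ∀ v, fderiv ℝ (fun w => B (t • w)) z v = t * fderiv ℝ B (t • z) v := fun v => by
    rw [show (fun w => B (t • w)) = B ∘ fun w : ℂ => t • w from rfl, h2]
    simp
  rw [db, db, e, e]
  ring

theorem int_db (hIbp : S_Ibp) {W : ℂ → ℂ} (h1 : ContDiff ℝ 1 W) (h2 : HasCompactSupport W) :
    ∫ z, db W z = 0 := by
  have hc := h1.continuous_fderiv one_ne_zero
  have hi : ∀ v, Integrable fun z => fderiv ℝ W z v := fun v =>
    Continuous.integrable_of_hasCompactSupport (by fun_prop) (h2.fderiv_apply ℝ v)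
  unfold db
  rw [integral_div, integral_add (hi 1) ((hi I).const_mul I), integral_const_mul,
    hIbp.1 W 1 h1 h2, hIbp.1 W I h1 h2]
  simp

/-- the identity with a cutoff -/
theorem cut_id (hIbp : S_Ibp) {K : Set ℂ} {u k B : ℂ → ℂ} (hK : IsCompact K)
    (hu : DifferentiableOn ℂ u Kᶜ) (hk : ContDiffOn ℝ 1 k Kᶜ)
    (h0 : ∀ᶠ z in 𝓝ˢ K, z ∉ K → k z = 0) (hB : ContDiff ℝ 1 B) (hs : HasCompactSupport B)
    (hi : IntegrableOn (fun z => u z * conj (dz k z) * B z) Kᶜ) :
    ∫ z in Kᶜ, u z * conj (dz k z) * B z = -∫ z in Kᶜ, u z * conj (k z) * db B z := by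
  have ho : IsOpen Kᶜ := hK.isClosed.isOpen_compl
  set W : ℂ → ℂ := Kᶜ.indicator fun z => u z * conj (k z) * B z with hW
  have hin : ∀ z ∈ K, W =ᶠ[𝓝 z] fun _ => 0 := fun z hz => by
    filter_upwards [h0.filter_mono (nhds_le_nhdsSet hz)] with w hw
    by_cases hwK : w ∈ K
    · exact indicator_of_notMem (notMem_compl_iff.2 hwK) _
    · rw [hW, indicator_of_mem hwK, hw hwK]
      simp
  have hout : ∀ z ∉ K, W =ᶠ[𝓝 z] fun z => u z * conj (k z) * B z := fun z hz => by
    filter_upwards [ho.mem_nhds hz] with w hw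
    exact indicator_of_mem hw _
  have hu1 : ∀ z ∉ K, ContDiffAt ℝ 1 u z := fun z hz =>
    ((hu.contDiffOn ho).restrict_scalars ℝ).contDiffAt (ho.mem_nhds hz)
  have hk1 : ∀ z ∉ K, ContDiffAt ℝ 1 (fun w => conj (k w)) z := fun z hz =>
    conjCLE.contDiff.contDiffAt.comp z (hk.contDiffAt (ho.mem_nhds hz))
  have hW1 : ContDiff ℝ 1 W := contDiff_iff_contDiffAt.2 fun z => by
    by_cases hz : z ∈ K
    · exact contDiffAt_const.congr_of_eventuallyEq (hin z hz)
    · exact (((hu1 z hz).mul (hk1 z hz)).mul hB.contDiffAt).congr_of_eventuallyEq (hout z hz)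
  have hW2 : HasCompactSupport W := hs.mono fun z hz h0 => hz (by
    by_cases hzK : z ∈ K
    · exact indicator_of_notMem (notMem_compl_iff.2 hzK) _
    · rw [hW, indicator_of_mem hzK, h0, mul_zero])
  have h1 : ∫ z in Kᶜ, db W z = 0 := by
    rw [setIntegral_eq_integral_of_forall_compl_eq_zero, int_db hIbp hW1 hW2]
    intro z hz
    rw [db_congr (hin z (not_not.1 hz)), db_of_hasDerivAt (hasDerivAt_const z 0)]
  have h2 : ∀ z ∈ Kᶜ, u z * conj (k z) * db B z = db W z - u z * conj (dz k z) * B z := by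
    intro z hz
    have d1 := (hu1 z hz).differentiableAt one_ne_zero
    have d2 := (hk1 z hz).differentiableAt one_ne_zero
    rw [db_congr (hout z hz), db_mul (d1.fun_mul d2) (hB.differentiable one_ne_zero z), db_mul d1 d2,
      db_of_hasDerivAt (hu.differentiableAt (ho.mem_nhds hz)).hasDerivAt, conj_dz]
    ring
  rw [setIntegral_congr_fun ho.measurableSet h2, integral_sub
    ((continuous_db hW1).integrable_of_hasCompactSupport (hasCompactSupport_db hW2)).integrableOn
    hi, h1]
  ring

end KoOrth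

open KoOrth in
theorem orth_pf (hIbp : S_Ibp) : S_Orth := by
  intro K u k hK hu hu2 hk h0 hinf hk2
  have ho : IsOpen Kᶜ := hK.isClosed.isOpen_compl
  obtain ⟨β, b1, b2, b3, b4, b5⟩ := bump_ex (isCompact_closedBall (0 : ℂ) 1)
    (isOpen_ball.mem_nhdsSet.2 (closedBall_subset_ball (by norm_num : (1 : ℝ) < 2)))
  set B : ℂ → ℂ := fun w => (β w : ℂ) with hBdef
  have hB : ContDiff ℝ 1 B := contDiff_ofReal (b1.of_le (by exact_mod_cast le_top))
  have hsub : tsupport B ⊆ tsupport β := closure_mono fun z hz h => hz (by simp [hBdef, h])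
  have hBs : HasCompactSupport B := b2.of_isClosed_subset (isClosed_tsupport _) hsub
  have hBn : ∀ w, ‖B w‖ ≤ 1 := fun w => by
    rw [hBdef, norm_real, Real.norm_of_nonneg (b5 w).1]
    exact (b5 w).2
  obtain ⟨C, hC⟩ := (continuous_db hB).bounded_above_of_compact_support (hasCompactSupport_db hBs)
  have hC0 : 0 ≤ C := (norm_nonneg _).trans (hC 0)
  have hdb : ∀ w, ‖w‖ < 1 ∨ 2 < ‖w‖ → db B w = 0 := by
    rintro w (hw | hw)
    · have : B =ᶠ[𝓝 w] fun _ => 1 := by
        filter_upwards [b3.filter_mono (nhds_le_nhdsSet (mem_closedBall_zero_iff.2 hw.le))]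
          with y hy
        simp [hBdef, hy]
      rw [db_congr this, db_of_hasDerivAt (hasDerivAt_const w 1)]
    · have : B =ᶠ[𝓝 w] fun _ => 0 := notMem_tsupport_iff_eventuallyEq.1 fun h => by
        have := mem_ball_zero_iff.1 (b4 (hsub h))
        linarith
      rw [db_congr this, db_of_hasDerivAt (hasDerivAt_const w 0)]
  have mu : AEStronglyMeasurable u (volume.restrict Kᶜ) :=
    hu.continuousOn.aestronglyMeasurable ho.measurableSet
  have mk : AEStronglyMeasurable (fun z => conj (dz k z)) (volume.restrict Kᶜ) := by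
    have m1 := measurable_fderiv_apply_const ℝ k 1
    have m2 := measurable_fderiv_apply_const ℝ k I
    have : Measurable (dz k) := by unfold dz; fun_prop
    exact (continuous_conj.measurable.comp this).aestronglyMeasurable
  have hI : IntegrableOn (fun z => u z * conj (dz k z)) Kᶜ :=
    integrableOn_mul_of_sq mu mk hu2 (by simpa using hk2)
  have hBt : ∀ t : ℝ, ContDiff ℝ 1 fun w => B (t⁻¹ • w) := fun t =>
    hB.comp (contDiff_const_smul _)
  have lim1 : Tendsto (fun t : ℝ => ∫ z in Kᶜ, u z * conj (dz k z) * B (t⁻¹ • z)) atTop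
      (𝓝 (∫ z in Kᶜ, u z * conj (dz k z))) := by
    refine tendsto_integral_filter_of_dominated_convergence (fun z => ‖u z * conj (dz k z)‖)
      (Eventually.of_forall fun t => hI.1.mul (hBt t).continuous.aestronglyMeasurable)
      (Eventually.of_forall fun t => Eventually.of_forall fun z => ?_) hI.norm
      (Eventually.of_forall fun z => tendsto_const_nhds.congr' ?_)
    · rw [norm_mul (u z * _)]
      exact mul_le_of_le_one_right (norm_nonneg _) (hBn _)
    · filter_upwards [eventually_gt_atTop 0, eventually_ge_atTop ‖z‖] with t ht hz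
      have : β (t⁻¹ • z) = 1 := b3.self_of_nhdsSet _ (by
        rw [mem_closedBall_zero_iff, norm_smul, norm_inv, Real.norm_of_nonneg ht.le,
          inv_mul_le_iff₀ ht]
        linarith)
      simp only [hBdef, this, ofReal_one, mul_one]
  set E := √(∫ z in Kᶜ, ‖u z‖ ^ 2) with hE
  have hE0 : 0 ≤ E := Real.sqrt_nonneg _
  have key : ∀ ε > 0, ∀ᶠ t : ℝ in atTop,
      ‖∫ z in Kᶜ, u z * conj (dz k z) * B (t⁻¹ • z)‖ ≤ ε * (C * (√π * 2) * E) := by
    intro ε hε
    obtain ⟨R, hR⟩ : ∃ R : ℝ, ∀ z : ℂ, R ≤ ‖z‖ → ‖k z‖ ≤ ε := by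
      have h1 := (hinf.eventually (closedBall_mem_nhds (0 : ℂ) hε))
      rw [← cobounded_eq_cocompact, ← comap_norm_atTop, eventually_comap, eventually_atTop] at h1
      obtain ⟨R, hR⟩ := h1
      exact ⟨R, fun z hz => by simpa using hR _ hz z rfl⟩
    filter_upwards [eventually_gt_atTop 0, eventually_ge_atTop R] with t ht hRt
    have hs : HasCompactSupport fun w => B (t⁻¹ • w) :=
      hBs.comp_homeomorph (Homeomorph.smulOfNeZero t⁻¹ (inv_ne_zero ht.ne'))
    rw [cut_id hIbp hK hu hk h0 (hBt t) hs (hI.mul_bdd (c := 1)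
      (hBt t).continuous.aestronglyMeasurable (Eventually.of_forall fun z => hBn _)), norm_neg]
    have hvol : volume (closedBall (0 : ℂ) (2 * t) ∩ Kᶜ) ≠ ⊤ :=
      ((measure_mono inter_subset_left).trans_lt measure_closedBall_lt_top).ne
    obtain ⟨c1, c2⟩ := cs_set hvol (mu.mono_measure (Measure.restrict_mono inter_subset_right le_rfl))
      (hu2.mono_set inter_subset_right)
    have hb : ∀ z, ‖u z * conj (k z) * db (fun w => B (t⁻¹ • w)) z‖ ≤
        (closedBall (0 : ℂ) (2 * t)).indicator (fun z => ε * (t⁻¹ * C) * ‖u z‖) z := by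
      intro z
      have hn : ‖t⁻¹ • z‖ = t⁻¹ * ‖z‖ := by
        rw [norm_smul, norm_inv, Real.norm_of_nonneg ht.le]
      rw [db_scale B hB]
      by_cases h1 : ‖z‖ < t
      · rw [hdb _ (Or.inl (by rw [hn, inv_mul_lt_iff₀ ht]; linarith))]
        simp only [mul_zero, norm_zero]
        exact indicator_nonneg (fun _ _ => by positivity) _
      · by_cases h2 : z ∈ closedBall (0 : ℂ) (2 * t)
        · rw [indicator_of_mem h2, norm_mul, norm_mul, norm_mul, norm_conj, norm_real,
            Real.norm_of_nonneg (inv_nonneg.2 ht.le)]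
          have a1 := hR z (by linarith)
          have a2 := hC (t⁻¹ • z)
          calc ‖u z‖ * ‖k z‖ * (t⁻¹ * ‖db B (t⁻¹ • z)‖) ≤ ‖u z‖ * ε * (t⁻¹ * C) := by gcongr
            _ = _ := by ring
        · rw [indicator_of_notMem h2, hdb _ (Or.inr (by
            rw [hn, lt_inv_mul_iff₀ ht]
            rw [mem_closedBall_zero_iff] at h2
            linarith))]
          simp
    have hint : Integrable ((closedBall (0 : ℂ) (2 * t)).indicator
        fun z => ε * (t⁻¹ * C) * ‖u z‖) (volume.restrict Kᶜ) := by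
      rw [integrable_indicator_iff measurableSet_closedBall, IntegrableOn,
        Measure.restrict_restrict measurableSet_closedBall]
      exact c1.norm.const_mul _
    refine (norm_integral_le_of_norm_le hint (Eventually.of_forall hb)).trans ?_
    rw [integral_indicator measurableSet_closedBall,
      Measure.restrict_restrict measurableSet_closedBall, integral_const_mul]
    have v1 : √(volume.real (closedBall (0 : ℂ) (2 * t) ∩ Kᶜ)) ≤ √π * 2 * t := by
      refine Real.sqrt_le_iff.2 ⟨by positivity, ?_⟩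
      refine (measureReal_mono inter_subset_left measure_closedBall_lt_top.ne).trans (le_of_eq ?_)
      rw [Measure.real, Complex.volume_closedBall, mul_pow, mul_pow, Real.sq_sqrt Real.pi_pos.le]
      simp [ENNReal.toReal_ofReal ht.le]
      ring
    have v2 : √(∫ z in closedBall (0 : ℂ) (2 * t) ∩ Kᶜ, ‖u z‖ ^ 2) ≤ E :=
      Real.sqrt_le_sqrt (setIntegral_mono_set hu2 (Eventually.of_forall fun _ => by positivity)
        inter_subset_right.eventuallyLE)
    calc ε * (t⁻¹ * C) * ∫ z in closedBall (0 : ℂ) (2 * t) ∩ Kᶜ, ‖u z‖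
        ≤ ε * (t⁻¹ * C) * (√π * 2 * t * E) := by
          refine mul_le_mul_of_nonneg_left (c2.trans ?_) (by positivity)
          exact mul_le_mul v1 v2 (Real.sqrt_nonneg _) (by positivity)
      _ = _ := by field_simp
  have fin : ∀ ε > 0, ‖∫ z in Kᶜ, u z * conj (dz k z)‖ ≤ ε * (C * (√π * 2) * E) :=
    fun ε hε => le_of_tendsto lim1.norm (key ε hε)
  have hM : 0 ≤ C * (√π * 2) * E := by positivity
  refine norm_le_zero_iff.1 (le_of_forall_pos_le_add fun ε hε => ?_)
  refine (fin (ε / (C * (√π * 2) * E + 1)) (by positivity)).trans ?_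
  rw [zero_add, div_mul_eq_mul_div, div_le_iff₀ (by positivity)]
  nlinarith

end Vale.Agent.P116
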