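import Vale.Agent.P116.KoBase

open Set Filter Topology MeasureTheory Metric Complex
open scoped ENNReal ComplexConjugate Real

noncomputable section
namespace Vale.Agent.P116

namespace KoPack

theorem small {a b s ρ : ℝ} {z : ℂ} (hs : 0 < s) (hρ : 0 < ρ)
    (h : (sq a b s ∩ closedBall z (2 * ρ)).Nonempty) :
    ∃ a' b' : ℝ, sq a' b' (min s ρ) ⊆ sq a b s ∧ sq a' b' (min s ρ) ⊆ closedBall z (4 * ρ) := by
  obtain ⟨x, ⟨h1, h2, h3, h4⟩, hx⟩ := h
  have m0 : 0 < min s ρ := lt_min hs hρ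
  have m1 : min s ρ ≤ s := min_le_left _ _
  have m2 : min s ρ ≤ ρ := min_le_right _ _
  generalize min s ρ = m at *
  have hm : x ∈ sq (min x.re (a + s - m)) (min x.im (b + s - m)) m := by
    refine ⟨min_le_left _ _, ?_, min_le_left _ _, ?_⟩
    · rw [← sub_le_iff_le_add]
      exact le_min (by linarith) (by linarith)
    · rw [← sub_le_iff_le_add]
      exact le_min (by linarith) (by linarith)
  refine ⟨min x.re (a + s - m), min x.im (b + s - m), ?_, fun y hy => ?_⟩
  · rintro y ⟨k1, k2, k3, k4⟩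
    have e1 : a ≤ min x.re (a + s - m) := le_min h1 (by linarith)
    have e2 : b ≤ min x.im (b + s - m) := le_min h3 (by linarith)
    have e3 := min_le_right x.re (a + s - m)
    have e4 := min_le_right x.im (b + s - m)
    exact ⟨by linarith, by linarith, by linarith, by linarith⟩
  · have e1 := norm_sub_le_sq hy hm
    rw [← dist_eq_norm] at e1
    rw [mem_closedBall] at hx ⊢
    linarith [dist_triangle y x z]

end KoPack

theorem pack_pf : S_Pack := by
  intro ι _ a b s R hc z ρ J hρ hJ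
  have h1 : ∀ j, ∃ a' b' : ℝ, j ∈ J → sq a' b' (min (s j) ρ) ⊆ sq (a j) (b j) (s j) ∧
      sq a' b' (min (s j) ρ) ⊆ closedBall z (4 * ρ) := by
    intro j
    by_cases hj : j ∈ J
    · obtain ⟨a', b', h⟩ := KoPack.small (hc.pos j) hρ (hJ j hj)
      exact ⟨a', b', fun _ => h⟩
    · exact ⟨0, 0, fun h => absurd h hj⟩
  choose a' b' h using h1
  have h2 : volume (⋃ j ∈ J, sq (a' j) (b' j) (min (s j) ρ)) =
      ∑ j ∈ J, volume (sq (a' j) (b' j) (min (s j) ρ)) :=
    measure_biUnion_finset (fun i hi j hj hij => (hc.dis hij).mono (h i hi).1 (h j hj).1)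
      fun j _ => measurableSet_sq _ _ _
  have h3 : volume (⋃ j ∈ J, sq (a' j) (b' j) (min (s j) ρ)) ≤ volume (closedBall z (4 * ρ)) :=
    measure_mono (iUnion₂_subset fun j hj => (h j hj).2)
  rw [h2, Complex.volume_closedBall] at h3
  have h4 : ∀ j ∈ J, volume (sq (a' j) (b' j) (min (s j) ρ)) = ENNReal.ofReal (min (s j) ρ ^ 2) :=
    fun j _ => by rw [volume_sq, ENNReal.ofReal_pow (lt_min (hc.pos j) hρ).le]
  rw [Finset.sum_congr rfl h4, ← ENNReal.ofReal_sum_of_nonneg fun j _ => sq_nonneg _,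
    ← ENNReal.ofReal_pow (by linarith), ← ENNReal.ofReal_coe_nnreal, NNReal.coe_real_pi,
    ← ENNReal.ofReal_mul (sq_nonneg _), ENNReal.ofReal_le_ofReal_iff (by positivity)] at h3
  linarith

end Vale.Agent.P116
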