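import Vale.Agent.P116.KoBase

open Set Filter Topology MeasureTheory Metric Complex
open scoped ENNReal ComplexConjugate Real

noncomputable section
namespace Vale.Agent.P116

namespace KoPla

theorem tendsto_of {f : ℂ → ℂ} {c : ℂ} (h : Tendsto (fun z => f z - z) (cocompact ℂ) (𝓝 c)) :
    Tendsto f (cocompact ℂ) (cocompact ℂ) := by
  have h1 : Tendsto (fun z : ℂ => ‖z‖) (cocompact ℂ) atTop := tendsto_norm_cocompact_atTop
  have h2 := tendsto_atTop_add_const_right _ (-(‖c‖ + 1)) h1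
  have h3 := h.norm.eventually (gt_mem_nhds (lt_add_one ‖c‖))
  have h4 : Tendsto (fun z => ‖f z‖) (cocompact ℂ) atTop := by
    refine tendsto_atTop_mono' _ ?_ h2
    filter_upwards [h3] with z hz
    have := norm_sub_le (f z) (f z - z)
    rw [sub_sub_cancel] at this
    linarith
  have h5 := tendsto_norm_atTop_iff_cobounded.1 h4
  rwa [Metric.cobounded_eq_cocompact] at h5

end KoPla

theorem pla_pf (hProp : S_Prop) : SquareThm → SqToDisc → Planar := by
  intro h1 h2 K hK hc
  obtain ⟨f1, c1, hd, hi, ht, hs⟩ := h1 K hK hc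
  have hK1 := (hProp K f1 c1 hK hd hi ht).2.1
  obtain ⟨f2, hd2, hi2, ⟨c2, ht2⟩, hs2⟩ := h2 _ hK1
    (by rw [compl_compl]; exact hc.image _ hd.continuousOn) hs
  rw [compl_compl] at hd2 hi2 hs2
  refine ⟨f2 ∘ f1, hd2.comp hd (mapsTo_image _ _), hi2.comp hi (mapsTo_image _ _),
    ⟨c2 + c1, ?_⟩, ?_⟩
  · refine ((ht2.comp (KoPla.tendsto_of ht)).add ht).congr fun z => ?_
    simp
  · rw [image_comp]
    exact hs2

end Vale.Agent.P116
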