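import Vale.Agent.P116.KoBase

open Set Filter Topology MeasureTheory Metric Complex
open scoped ENNReal ComplexConjugate Real

noncomputable section
namespace Vale.Agent.P116

namespace KoPol

theorem cm_eq (c z : ℂ) : circleMap c ‖z - c‖ (arg (z - c)) = z := by
  rw [circleMap, norm_mul_exp_arg_mul_I]
  ring

theorem cm_sub (c : ℂ) (t θ : ℝ) : circleMap c t θ - c = t * exp (θ * I) := by
  rw [circleMap]
  ring

theorem norm_cm (c : ℂ) {t : ℝ} (ht : 0 ≤ t) (θ : ℝ) : ‖circleMap c t θ - c‖ = t := by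
  rw [cm_sub, norm_mul, norm_exp_ofReal_mul_I, norm_real, Real.norm_of_nonneg ht, mul_one]

theorem arg_cm (c : ℂ) {t θ : ℝ} (ht : 0 < t) (hθ : θ ∈ Ioo (-π) π) :
    arg (circleMap c t θ - c) = θ := by
  rw [cm_sub, exp_mul_I]
  exact arg_mul_cos_add_sin_mul_I ht ⟨hθ.1, hθ.2.le⟩

theorem cont_cm (c : ℂ) : Continuous fun p : ℝ × ℝ => circleMap c p.1 p.2 := by
  unfold circleMap
  fun_prop

theorem meas_rad (W : ℂ → ℂ) (c : ℂ) : Measurable (rad W c) := by
  unfold rad
  refine Measurable.div ?_ (by fun_prop)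
  exact (ContinuousLinearMap.measurable_apply₂ (𝕜 := ℝ) (E := ℂ) (F := ℂ)).comp
    ((measurable_fderiv ℝ W).prodMk (by fun_prop))

theorem rad_cm (W : ℂ → ℂ) (c : ℂ) {t : ℝ} (ht : 0 < t) (θ : ℝ) :
    (t : ℂ) * rad W c (circleMap c t θ) = fderiv ℝ W (circleMap c t θ) (exp (θ * I)) := by
  have h : (t : ℂ) ≠ 0 := ofReal_ne_zero.2 ht.ne'
  rw [rad, norm_cm c ht.le, cm_sub, ← real_smul (x := t) (z := exp (θ * I)), map_smul,
    real_smul]
  push_cast
  field_simp

theorem deriv_cm (c : ℂ) (t θ : ℝ) :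
    HasDerivAt (fun t : ℝ => circleMap c t θ) (exp (θ * I)) t := by
  have := ((hasDerivAt_id' t).ofReal_comp.mul_const (exp (θ * I))).const_add c
  simpa [circleMap] using this

end KoPol

open KoPol in
theorem pol_pf : S_Pol := by
  intro U W ψ c ρ R hU hW hR hψ hρ hin
  set T : ℝ := max ρ (R + ‖c‖ + 1) with hT
  have hρT : ρ ≤ T := le_max_left _ _
  have hfar : ∀ z, T ≤ ‖z - c‖ → R < ‖z‖ := by
    intro z hz
    have h1 := norm_sub_le z c
    have h2 : R + ‖c‖ + 1 ≤ T := le_max_right _ _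
    linarith
  have hfd : ∀ z, R < ‖z‖ → fderiv ℝ W z = 0 := by
    intro z hz
    have : W =ᶠ[𝓝 z] fun _ => 0 :=
      ((isOpen_lt continuous_const continuous_norm).mem_nhds hz : {w | R < ‖w‖} ∈ 𝓝 z) |>
        fun h => mem_of_superset h fun w hw => hR w hw
    rw [this.fderiv_eq, fderiv_const_apply]
  have hcf : ContinuousOn (fderiv ℝ W) U := hW.continuousOn_fderiv_of_isOpen hU le_rfl
  set A : Set ℂ := {z | ρ ≤ ‖z - c‖} with hA
  have hAm : MeasurableSet A := (isClosed_le continuous_const (by fun_prop)).measurableSet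
  set G : ℂ → ℂ := A.indicator fun z => (ψ (arg (z - c)) : ℂ) * rad W c z with hG
  have hGm : Measurable G := by
    refine Measurable.indicator (Measurable.mul ?_ (meas_rad W c)) hAm
    exact measurable_ofReal.comp (hψ.measurable.comp (measurable_arg.comp (by fun_prop)))
  have hG0 : ∀ z, T ≤ ‖z - c‖ → G z = 0 := by
    intro z hz
    simp only [hG, indicator, rad, hfd z (hfar z hz)]
    simp
  obtain ⟨M, hM⟩ : ∃ M, ∀ z, ‖G z‖ ≤ M := by
    have hK : IsCompact ((fun p : ℝ × ℝ => circleMap c p.1 p.2) ''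
        (Icc ρ T ×ˢ (Icc (-π) π ∩ tsupport ψ))) :=
      (isCompact_Icc.prod (isCompact_Icc.inter_right (isClosed_tsupport ψ))).image (cont_cm c)
    obtain ⟨M1, hM1⟩ := hK.exists_bound_of_continuousOn (hcf.mono (by
      rintro _ ⟨p, hp, rfl⟩
      exact hin _ hp.2.2 _ hp.1.1))
    obtain ⟨M2, hM2⟩ := (isCompact_Icc (a := -π) (b := π)).exists_bound_of_continuousOn
      hψ.continuousOn
    refine ⟨|M2| * (|M1| / ρ), fun z => ?_⟩
    by_cases h1 : T ≤ ‖z - c‖
    · rw [hG0 z h1, norm_zero]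
      positivity
    by_cases h2 : z ∈ A
    swap
    · rw [hG, indicator_of_notMem h2, norm_zero]
      positivity
    rw [hG, indicator_of_mem h2]
    by_cases h3 : ψ (arg (z - c)) = 0
    · rw [h3, ofReal_zero, zero_mul, norm_zero]
      positivity
    have h4 : arg (z - c) ∈ Icc (-π) π := ⟨(neg_pi_lt_arg _).le, arg_le_pi _⟩
    have h5 := hM1 z ⟨(‖z - c‖, arg (z - c)), ⟨⟨h2, (not_le.1 h1).le⟩, h4,
      subset_tsupport _ h3⟩, cm_eq c z⟩
    have h6 : ρ ≤ ‖z - c‖ := h2
    have h7 : 0 < ‖z - c‖ := hρ.trans_le h6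
    rw [norm_mul, norm_real]
    refine mul_le_mul ((hM2 _ h4).trans (le_abs_self _)) ?_ (norm_nonneg _) (abs_nonneg _)
    rw [rad, norm_div, norm_real, Real.norm_of_nonneg (sq_nonneg _),
      div_le_div_iff₀ (by positivity) hρ]
    have h8 := (fderiv ℝ W z).le_opNorm (z - c)
    have h9 := mul_le_mul_of_nonneg_right (h5.trans (le_abs_self _)) h7.le
    calc _ ≤ |M1| * ‖z - c‖ * ‖z - c‖ :=
          mul_le_mul (h8.trans h9) h6 hρ.le (by positivity)
      _ = _ := by ring
  have hGi : Integrable G := by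
    rw [← integrableOn_univ]
    refine IntegrableOn.of_forall_diff_eq_zero (s := closedBall c T) ?_ MeasurableSet.univ
      fun z hz => hG0 z ?_
    · exact Measure.integrableOn_of_bounded measure_closedBall_lt_top.ne hGm.aestronglyMeasurable
        (Eventually.of_forall hM)
    · have := hz.2
      rw [mem_closedBall, dist_eq_norm] at this
      exact (not_le.1 this).le
  refine ⟨(integrable_indicator_iff hAm).1 hGi, ?_⟩
  set Φ : ℝ × ℝ → ℂ := fun p => p.1 • G (circleMap c p.1 p.2) with hΦ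
  have hΦi : IntegrableOn Φ (Ioi 0 ×ˢ Ioo (-π) π) := by
    refine IntegrableOn.of_forall_diff_eq_zero (s := Icc 0 T ×ˢ Icc (-π) π) ?_
      (measurableSet_Ioi.prod measurableSet_Ioo) fun p hp => ?_
    · refine Measure.integrableOn_of_bounded (M := T * M)
        (isCompact_Icc.prod isCompact_Icc).measure_lt_top.ne
        (measurable_fst.smul (hGm.comp (cont_cm c).measurable)).aestronglyMeasurable ?_
      refine (ae_restrict_iff' (measurableSet_Icc.prod measurableSet_Icc)).2
        (Eventually.of_forall fun p hp => ?_)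
      simp only [hΦ]
      rw [norm_smul, Real.norm_of_nonneg hp.1.1]
      exact mul_le_mul hp.1.2 (hM _) (norm_nonneg _) (hp.1.1.trans hp.1.2)
    · have h1 : (0 : ℝ) < p.1 := hp.1.1
      have h2 : T ≤ p.1 := by
        by_contra h
        exact hp.2 ⟨⟨h1.le, (not_le.1 h).le⟩, hp.1.2.1.le, hp.1.2.2.le⟩
      simp only [hΦ]
      rw [hG0 _ (by rwa [norm_cm c h1.le]), smul_zero]
  have e1 : ∫ z in A, (ψ (arg (z - c)) : ℂ) * rad W c z =
      ∫ p in Ioi 0 ×ˢ Ioo (-π) π, Φ p := by
    rw [← integral_indicator hAm, ← hG, ← integral_add_left_eq_self G c,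
      ← Complex.integral_comp_polarCoord_symm]
    refine setIntegral_congr_fun (measurableSet_Ioi.prod measurableSet_Ioo) fun p _ => ?_
    simp only [hΦ, Complex.polarCoord_symm_apply, circleMap, exp_mul_I, ofReal_cos, ofReal_sin]
  rw [IntegrableOn, Measure.volume_eq_prod, ← Measure.prod_restrict] at hΦi
  rw [e1, Measure.volume_eq_prod, ← Measure.prod_restrict, integral_prod_symm _ hΦi,
    intervalIntegral.integral_of_le (by linarith [Real.pi_pos]), integral_Ioc_eq_integral_Ioo,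
    ← integral_neg]
  refine setIntegral_congr_fun measurableSet_Ioo fun θ hθ => ?_
  have e2 : ∀ t ∈ Icc ρ T, Φ (t, θ) =
      (ψ θ : ℂ) * fderiv ℝ W (circleMap c t θ) (exp (θ * I)) := by
    intro t ht
    have h1 : 0 < t := hρ.trans_le ht.1
    have h2 : circleMap c t θ ∈ A := by
      show ρ ≤ _
      rw [norm_cm c h1.le]
      exact ht.1
    simp only [hΦ, hG]
    rw [indicator_of_mem h2, arg_cm c h1 hθ, ← rad_cm W c h1, real_smul]
    ring
  have e3 : ∫ t in Ioi 0, Φ (t, θ) = ∫ t in Icc ρ T, Φ (t, θ) := by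
    refine setIntegral_eq_of_subset_of_forall_diff_eq_zero measurableSet_Ioi
      (fun t ht => hρ.trans_le ht.1) fun t ht => ?_
    have h1 : (0 : ℝ) < t := ht.1
    simp only [hΦ]
    by_cases h2 : ρ ≤ t
    · have h3 : T ≤ t := by
        by_contra h
        exact ht.2 ⟨h2, (not_le.1 h).le⟩
      rw [hG0 _ (by rwa [norm_cm c h1.le]), smul_zero]
    · rw [hG, indicator_of_notMem, smul_zero]
      show ¬ ρ ≤ _
      rwa [norm_cm c h1.le]
  show ∫ t in Ioi 0, Φ (t, θ) = _
  rw [e3, setIntegral_congr_fun measurableSet_Icc e2, integral_const_mul]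
  by_cases h0 : ψ θ = 0
  · simp [h0]
  have hU' : ∀ t ∈ Icc ρ T, circleMap c t θ ∈ U := fun t ht =>
    hin θ (subset_tsupport _ h0) t ht.1
  have hc : Continuous fun t : ℝ => circleMap c t θ := by
    unfold circleMap
    fun_prop
  have e4 : ∫ t in ρ..T, fderiv ℝ W (circleMap c t θ) (exp (θ * I)) =
      W (circleMap c T θ) - W (circleMap c ρ θ) := by
    refine intervalIntegral.integral_eq_sub_of_hasDerivAt (f := fun t => W (circleMap c t θ))
      (fun t ht => ?_) ?_
    · rw [uIcc_of_le hρT] at ht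
      have h1 := ((hW.contDiffAt (hU.mem_nhds (hU' t ht))).differentiableAt one_ne_zero).hasFDerivAt
      exact h1.comp_hasDerivAt t (deriv_cm c t θ)
    · refine ContinuousOn.intervalIntegrable ?_
      rw [uIcc_of_le hρT]
      exact (hcf.comp hc.continuousOn hU').clm_apply continuousOn_const
  rw [integral_Icc_eq_integral_Ioc, ← intervalIntegral.integral_of_le hρT, e4,
    hR _ (hfar _ (by rw [norm_cm c (hρ.le.trans hρT)]))]
  ring

end Vale.Agent.P116
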