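import Vale.Agent.P116.KoBase

open Set Filter Topology MeasureTheory Metric Complex
open scoped ENNReal ComplexConjugate Real

noncomputable section
namespace Vale.Agent.P116

namespace KoPolL

end KoPolL

theorem polL_pf : S_PolL := by
  intro F z ρ hF hρ
  have hcm : ∀ p : ℝ × ℝ, z + Complex.polarCoord.symm p = circleMap z p.1 p.2 := fun p => by
    rw [Complex.polarCoord_symm_apply, circleMap, exp_mul_I, ofReal_cos, ofReal_sin]
  have hc : Continuous fun p : ℝ × ℝ => circleMap z p.1 p.2 := by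
    unfold circleMap
    fun_prop
  have hm : Measurable fun p : ℝ × ℝ => F (circleMap z p.1 p.2) * ENNReal.ofReal p.1 :=
    (hF.comp hc.measurable).mul (ENNReal.measurable_ofReal.comp measurable_fst)
  refine ⟨hm.lintegral_prod_right' (ν := volume.restrict (Ioo (-π) π)), ?_⟩
  have ha : ∀ w, w ∈ ann z ρ ↔ ρ ≤ ‖w - z‖ ∧ ‖w - z‖ ≤ 2 * ρ := fun w => Iff.rfl
  have hn : Measurable fun w : ℂ => ‖w - z‖ := by fun_prop
  have hma : MeasurableSet (ann z ρ) := hn (measurableSet_Icc (a := ρ) (b := 2 * ρ))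
  rw [← lintegral_indicator hma, ← lintegral_add_left_eq_self _ z,
    ← Complex.lintegral_comp_polarCoord_symm, polarCoord_target,
    ← lintegral_prod _ hm.aemeasurable, Measure.prod_restrict, ← Measure.volume_eq_prod,
    ← lintegral_indicator (measurableSet_Ioi.prod measurableSet_Ioo),
    ← lintegral_indicator (measurableSet_Icc.prod measurableSet_Ioo)]
  refine lintegral_congr fun p => ?_
  have h2 : z + Complex.polarCoord.symm p ∈ ann z ρ ↔ ρ ≤ |p.1| ∧ |p.1| ≤ 2 * ρ := by
    rw [ha, add_sub_cancel_left, Complex.norm_polarCoord_symm]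
  by_cases h3 : p ∈ Icc ρ (2 * ρ) ×ˢ Ioo (-π) π
  · have h0 : 0 < p.1 := hρ.trans_le h3.1.1
    rw [indicator_of_mem h3, indicator_of_mem (show p ∈ Ioi (0 : ℝ) ×ˢ Ioo (-π) π from
      ⟨h0, h3.2⟩), indicator_of_mem (h2.2 (by rw [abs_of_pos h0]; exact h3.1)), hcm,
      smul_eq_mul, mul_comm]
  · rw [indicator_of_notMem h3]
    by_cases h4 : p ∈ Ioi (0 : ℝ) ×ˢ Ioo (-π) π
    · rw [indicator_of_mem h4, indicator_of_notMem, smul_zero]
      intro h5
      rw [h2, abs_of_pos h4.1] at h5
      exact h3 ⟨h5, h4.2⟩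
    · exact (indicator_of_notMem h4 _).symm

end Vale.Agent.P116
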