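import Vale.Agent.P116.KoBase

open Set Filter Topology MeasureTheory Metric Complex
open scoped ENNReal ComplexConjugate Real

noncomputable section
namespace Vale.Agent.P116

namespace KoPrim

theorem tail (hMv : S_Mv) {K : Set ℂ} (hK : IsCompact K) {u : ℂ → ℂ}
    (hu : DifferentiableOn ℂ u Kᶜ) (hi : IntegrableOn (fun z => ‖u z‖ ^ 2) Kᶜ) :
    Tendsto u (cocompact ℂ) (𝓝 0) := by
  obtain ⟨R, hR⟩ := hK.isBounded.subset_closedBall 0
  have hm : ∀ n : ℕ, MeasurableSet (Kᶜ ∩ {z : ℂ | (n : ℝ) ≤ ‖z‖}) := fun n =>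
    hK.isClosed.measurableSet.compl.inter
      (isClosed_le continuous_const continuous_norm).measurableSet
  have hT := tendsto_setIntegral_of_antitone (μ := volume) (f := fun z => ‖u z‖ ^ 2)
    (s := fun n : ℕ => Kᶜ ∩ {z : ℂ | (n : ℝ) ≤ ‖z‖}) hm
    (fun m n hmn z hz => ⟨hz.1, le_trans (Nat.cast_le.2 hmn : (m : ℝ) ≤ n) hz.2⟩)
    ⟨0, hi.mono_set inter_subset_left⟩
  have he : (⋂ n : ℕ, Kᶜ ∩ {z : ℂ | (n : ℝ) ≤ ‖z‖}) = ∅ := by
    refine eq_empty_of_forall_notMem fun z hz => ?_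
    obtain ⟨n, hn⟩ := exists_nat_gt ‖z‖
    exact absurd (mem_iInter.1 hz n).2 (not_le.2 hn)
  rw [he, setIntegral_empty] at hT
  rw [Metric.tendsto_nhds]
  intro ε hε
  have hp : 0 < π * ε ^ 2 := by positivity
  obtain ⟨n, hn⟩ := (hT.eventually (gt_mem_nhds hp)).exists
  have hc : (closedBall (0 : ℂ) (|R| + n + 1))ᶜ ∈ cocompact ℂ :=
    (isCompact_closedBall _ _).compl_mem_cocompact
  filter_upwards [hc] with z hz
  simp only [mem_compl_iff, mem_closedBall, dist_zero_right, not_le] at hz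
  have hs : ball z 1 ⊆ Kᶜ ∩ {z : ℂ | (n : ℝ) ≤ ‖z‖} := by
    intro w hw
    rw [mem_ball, dist_eq_norm] at hw
    have h1 : ‖z‖ ≤ ‖w‖ + ‖w - z‖ := by
      have := norm_sub_le w (w - z)
      simpa using this
    have h2 := le_abs_self R
    have h3 := abs_nonneg R
    have h4 : (0 : ℝ) ≤ n := Nat.cast_nonneg n
    refine ⟨fun hw' => ?_, ?_⟩
    · have := hR hw'
      rw [mem_closedBall, dist_zero_right] at this
      linarith
    · show (n : ℝ) ≤ ‖w‖
      linarith
  have h1 := hMv u z 1 one_pos (hu.mono (hs.trans inter_subset_left))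
    (hi.mono_set (hs.trans inter_subset_left))
  have h2 : ∫ w in ball z 1, ‖u w‖ ^ 2 ≤ ∫ w in Kᶜ ∩ {z : ℂ | (n : ℝ) ≤ ‖z‖}, ‖u w‖ ^ 2 :=
    setIntegral_mono_set (hi.mono_set inter_subset_left)
      (Eventually.of_forall fun _ => by positivity) hs.eventuallyLE
  have h3 : π * ‖u z‖ ^ 2 < π * ε ^ 2 := by linarith
  have h4 : ‖u z‖ ^ 2 < ε ^ 2 := lt_of_mul_lt_mul_left h3 Real.pi_pos.le
  rw [dist_zero_right]
  exact lt_of_pow_lt_pow_left₀ 2 hε.le h4

theorem db_notMem {χ : ℂ → ℝ} {z : ℂ} (hz : z ∉ tsupport χ) :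
    ∀ᶠ w in 𝓝 z, db (fun w => (χ w : ℂ)) w = 0 := by
  have h := notMem_tsupport_iff_eventuallyEq.1 hz
  filter_upwards [h.eventually_nhds] with w hw
  have : (fun w => (χ w : ℂ)) =ᶠ[𝓝 w] fun _ => 0 := by
    filter_upwards [hw] with y hy
    simp [hy]
  rw [db_congr this]
  exact db_eq_zero (by simp)

theorem db_loc {ι : Type} {a b s : ι → ℝ} {j : ι} {χ : ℂ → ℝ} (h : Loc a b s j χ) {z : ℂ}
    (hz : z ∈ KK a b s) : ∀ᶠ w in 𝓝 z, db (fun w => (χ w : ℂ)) w = 0 := by
  obtain ⟨k, hk⟩ := mem_KK.1 hz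
  by_cases hkj : k = j
  · subst hkj
    have h1 := h.2.2.1.filter_mono (nhds_le_nhdsSet hk)
    filter_upwards [h1.eventually_nhds] with w hw
    have : (fun w => (χ w : ℂ)) =ᶠ[𝓝 w] fun _ => 1 := by
      filter_upwards [hw] with y hy
      simp [hy]
    rw [db_congr this]
    exact db_eq_zero (by simp)
  · exact db_notMem fun hh => Set.disjoint_left.1 (h.2.2.2 k hkj) hh hk

theorem cont_mul {ι : Type} [Finite ι] {a b s : ι → ℝ} {j : ι} {χ : ℂ → ℝ} (h : Loc a b s j χ)
    {u : ℂ → ℂ} (hu : ContinuousOn u (KK a b s)ᶜ) :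
    Continuous fun z => u z * db (fun w => (χ w : ℂ)) z := by
  have hd : Continuous (db fun w => (χ w : ℂ)) :=
    continuous_db ((contDiff_ofReal h.1).of_le (by exact_mod_cast le_top))
  refine continuous_iff_continuousAt.2 fun z => ?_
  by_cases hz : z ∈ KK a b s
  · have : (fun z => u z * db (fun w => (χ w : ℂ)) z) =ᶠ[𝓝 z] fun _ => 0 := by
      filter_upwards [db_loc h hz] with w hw
      simp [hw]
    exact (continuousAt_congr this).2 continuousAt_const
  · exact (hu.continuousAt ((isOpen_G a b s).mem_nhds hz)).mul hd.continuousAt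

theorem tsupp_mul (χ : ℂ → ℝ) (u : ℂ → ℂ) :
    tsupport (fun z => u z * db (fun w => (χ w : ℂ)) z) ⊆ tsupport χ := by
  intro z hz
  by_contra hn
  refine notMem_tsupport_iff_eventuallyEq.2 ?_ hz
  filter_upwards [db_notMem hn] with w hw
  simp [hw]

theorem int_db (hIbp : S_Ibp) {W : ℂ → ℂ} (h : ContDiff ℝ 1 W) (hc : HasCompactSupport W) :
    ∫ z, db W z = 0 := by
  have hf := h.continuous_fderiv one_ne_zero
  have hi : ∀ v : ℂ, Integrable fun z => fderiv ℝ W z v := fun v =>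
    (hf.clm_apply continuous_const).integrable_of_hasCompactSupport
      ((hc.fderiv ℝ).mono fun z hz h0 => hz (by simp [h0]))
  unfold db
  rw [integral_div, integral_add (hi 1) ((hi I).const_mul I), integral_const_mul,
    hIbp.1 W 1 h hc, hIbp.1 W I h hc]
  simp

theorem int_zero (hIbp : S_Ibp) {ι : Type} [Finite ι] {a b s : ι → ℝ} {j : ι} {χ : ℂ → ℝ}
    (h : Loc a b s j χ) {g : ℂ → ℂ} (hg : ContinuousOn g (KK a b s)ᶜ)
    (h0 : ∫ z in (KK a b s)ᶜ, g z * db (fun w => (χ w : ℂ)) z = 0) :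
    ∫ z, (g z - 1) * db (fun w => (χ w : ℂ)) z = 0 := by
  have hW : ContDiff ℝ 1 fun w => (χ w : ℂ) :=
    (contDiff_ofReal h.1).of_le (by exact_mod_cast le_top)
  have hc : HasCompactSupport fun w => (χ w : ℂ) := h.2.1.mono fun z hz h0 => hz (by simp [h0])
  have i1 : Integrable fun z => g z * db (fun w => (χ w : ℂ)) z :=
    (cont_mul h hg).integrable_of_hasCompactSupport
      (h.2.1.of_isClosed_subset (isClosed_tsupport _) (tsupp_mul χ g))
  have i2 : Integrable (db fun w => (χ w : ℂ)) :=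
    (continuous_db hW).integrable_of_hasCompactSupport (hasCompactSupport_db hc)
  rw [setIntegral_eq_integral_of_forall_compl_eq_zero fun z hz => by
    rw [(db_loc h (not_not.1 hz)).self_of_nhds, mul_zero]] at h0
  simp only [sub_mul, one_mul]
  rw [integral_sub i1 i2, h0, int_db hIbp hW hc, sub_zero]

theorem int_div {ψ : ℂ → ℂ} (h : Continuous ψ) (hc : HasCompactSupport ψ) {z : ℂ}
    (hz : z ∉ tsupport ψ) : Integrable fun ζ => ψ ζ / (z - ζ) := by
  refine Continuous.integrable_of_hasCompactSupport ?_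
    (hc.mono fun ζ hζ h0 => hζ (by simp [h0]))
  refine continuous_iff_continuousAt.2 fun ζ => ?_
  by_cases hζ : ζ = z
  · subst hζ
    have : (fun w => ψ w / (ζ - w)) =ᶠ[𝓝 ζ] fun _ => 0 := by
      filter_upwards [notMem_tsupport_iff_eventuallyEq.1 hz] with w hw
      simp [hw]
    exact (continuousAt_congr this).2 continuousAt_const
  · exact h.continuousAt.div (by fun_prop) (sub_ne_zero.2 (Ne.symm hζ))

theorem db_sum {ι : Type} [Fintype ι] {χ : ι → ℂ → ℝ} (h : ∀ j, ContDiff ℝ (⊤ : ℕ∞) (χ j))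
    (z : ℂ) : db (fun w => ((∑ j, χ j w : ℝ) : ℂ)) z = ∑ j, db (fun w => (χ j w : ℂ)) z := by
  have hd : ∀ j, DifferentiableAt ℝ (fun w => (χ j w : ℂ)) z := fun j =>
    (contDiff_ofReal (h j)).differentiable (by simp) z
  simp only [ofReal_sum, db]
  rw [fderiv_fun_sum fun j _ => hd j]
  simp only [sum_apply, Finset.mul_sum, ← Finset.sum_add_distrib,
    Finset.sum_div]

theorem step (hIbp : S_Ibp) (hRep : S_Rep) (hLog : S_Log) {ι : Type} [Fintype ι]
    {a b s : ι → ℝ} {R : ℝ} {g : ℂ → ℂ} (h : Cfg a b s R)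
    (hg : DifferentiableOn ℂ g (KK a b s)ᶜ) (ht : Tendsto (fun z => g z - 1) (cocompact ℂ) (𝓝 0))
    (h0 : ∀ j χ, Loc a b s j χ → ∫ z in (KK a b s)ᶜ, g z * db (fun w => (χ w : ℂ)) z = 0)
    {δ : ℝ} (hδ : 0 < δ) : ∃ k : ℂ → ℂ,
      (∀ z ∈ (⋃ j, cthickening δ (sq (a j) (b j) (s j)))ᶜ, HasDerivAt k (g z - 1) z) ∧
        Tendsto k (cocompact ℂ) (𝓝 0) := by
  have h1 : ∀ j, ∃ χ, Loc a b s j χ ∧ tsupport χ ⊆ cthickening δ (sq (a j) (b j) (s j)) := by
    intro j
    obtain ⟨χ, h1, h2, -⟩ := h.loc_ex j (cthickening_mem_nhdsSet _ hδ)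
    exact ⟨χ, h1, h2⟩
  choose χ hχ hs using h1
  have hu : DifferentiableOn ℂ (fun z => g z - 1) (KK a b s)ᶜ := hg.sub_const 1
  have hc : ∀ j, Continuous fun z => (g z - 1) * db (fun w => (χ j w : ℂ)) z := fun j =>
    cont_mul (hχ j) hu.continuousOn
  have h2 := fun j => hLog (cthickening δ (sq (a j) (b j) (s j))) _
    (isCompact_sq _ _ _).cthickening ((convex_sq _ _ _).cthickening δ) (hc j)
    ((tsupp_mul _ _).trans (hs j)) (int_zero hIbp (hχ j) hg.continuousOn (h0 j _ (hχ j)))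
  choose k hk hk0 using h2
  have hts : tsupport (fun w => ∑ j, χ j w) ⊆ ⋃ j, tsupport (χ j) := by
    refine closure_minimal (fun z hz => ?_) (isClosed_iUnion_of_finite fun j => isClosed_tsupport _)
    obtain ⟨j, -, hj⟩ := Finset.exists_ne_zero_of_sum_ne_zero hz
    exact mem_iUnion.2 ⟨j, subset_closure hj⟩
  have hone : ∀ᶠ z in 𝓝ˢ (KK a b s), ∑ j, χ j z = 1 := by
    rw [KK, nhdsSet_iUnion, eventually_iSup]
    intro j
    have h3 : ∀ᶠ z in 𝓝ˢ (sq (a j) (b j) (s j)), ∀ i, i ≠ j → χ i z = 0 := by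
      refine eventually_all.2 fun i => ?_
      by_cases hi : i = j
      · exact Eventually.of_forall fun z h' => (h' hi).elim
      · have : (tsupport (χ i))ᶜ ∈ 𝓝ˢ (sq (a j) (b j) (s j)) :=
          (isClosed_tsupport _).isOpen_compl.mem_nhdsSet.2
            ((hχ i).2.2.2 j (Ne.symm hi)).subset_compl_left
        filter_upwards [this] with z hz _ using image_eq_zero_of_notMem_tsupport hz
    filter_upwards [h3, (hχ j).2.2.1] with z h3 h4
    rw [Finset.sum_eq_single j (fun i _ hi => h3 i hi) (by simp), h4]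
  have hR := hRep (KK a b s) _ (fun w => ∑ j, χ j w) (isCompact_KK a b s) hu ht
    (ContDiff.sum fun j _ => (hχ j).1)
    ((isCompact_iUnion fun j => (hχ j).2.1).of_isClosed_subset (isClosed_tsupport _) hts) hone
  refine ⟨fun z => -(1 / π : ℂ) * ∑ j, k j z, fun z hz => ?_, ?_⟩
  · have hz' : ∀ j, z ∉ cthickening δ (sq (a j) (b j) (s j)) := fun j hj =>
      hz (mem_iUnion.2 ⟨j, hj⟩)
    have h3 := hR z fun hh => by
      obtain ⟨j, hj⟩ := mem_iUnion.1 (hts hh)
      exact hz' j (hs j hj)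
    have h4 := (HasDerivAt.fun_sum (u := Finset.univ) fun j _ => hk j z (hz' j)).const_mul
      (-(1 / π : ℂ))
    rw [← integral_finsetSum _ fun j _ => int_div (hc j)
      ((hχ j).2.1.of_isClosed_subset (isClosed_tsupport _) (tsupp_mul _ _))
      fun hh => hz' j (hs j (tsupp_mul _ _ hh))] at h4
    simp only [db_sum fun j => (hχ j).1, Finset.mul_sum, Finset.sum_div] at h3
    rw [h3]
    exact h4
  · have := (tendsto_finsetSum Finset.univ fun j _ => hk0 j).const_mul (-(1 / π : ℂ))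
    simpa using this

end KoPrim

theorem prim_pf (hIbp : S_Ibp) (hMv : S_Mv) (hRep : S_Rep) (hLog : S_Log) (hGlue : S_Glue) :
    S_Prim := by
  intro ι _ a b s R g h hg hi h0
  have ht := KoPrim.tail hMv (isCompact_KK a b s) (hg.sub_const 1) hi
  have hp : ∀ n : ℕ, (0 : ℝ) < 1 / ((n : ℝ) + 1) := fun n => by positivity
  have h1 := fun n : ℕ => KoPrim.step hIbp hRep hLog h hg ht h0 (hp n)
  choose k hk hk0 using h1
  have hcp : ∀ δ, IsCompact (⋃ j, cthickening δ (sq (a j) (b j) (s j))) := fun δ =>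
    isCompact_iUnion fun j => (isCompact_sq _ _ _).cthickening
  obtain ⟨R', hR'⟩ := (hcp 1).isBounded.subset_closedBall 0
  have hU : (⋃ n : ℕ, (⋃ j, cthickening (1 / ((n : ℝ) + 1)) (sq (a j) (b j) (s j)))ᶜ) =
      (KK a b s)ᶜ := by
    refine Subset.antisymm (iUnion_subset fun n => compl_subset_compl.2 ?_) fun z hz => ?_
    · exact iUnion_mono fun j => self_subset_cthickening _
    · have h2 : ∀ j, ∀ᶠ n : ℕ in atTop,
          z ∉ cthickening (1 / ((n : ℝ) + 1)) (sq (a j) (b j) (s j)) := by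
        intro j
        have h3 : z ∉ closure (sq (a j) (b j) (s j)) := by
          rw [(isClosed_sq _ _ _).closure_eq]
          exact fun hh => hz (sq_subset_KK j hh)
        rw [closure_eq_iInter_cthickening] at h3
        simp only [mem_iInter, not_forall] at h3
        obtain ⟨δ, hδ, h3⟩ := h3
        filter_upwards [tendsto_one_div_add_atTop_nhds_zero_nat.eventually (ge_mem_nhds hδ)]
          with n hn hh using h3 (cthickening_mono hn _ hh)
      obtain ⟨n, hn⟩ := (eventually_all.2 h2).exists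
      refine mem_iUnion.2 ⟨n, fun hh => ?_⟩
      obtain ⟨j, hj⟩ := mem_iUnion.1 hh
      exact hn j hj
  obtain ⟨F, hF, hF0⟩ := hGlue
    (fun n : ℕ => (⋃ j, cthickening (1 / ((n : ℝ) + 1)) (sq (a j) (b j) (s j)))ᶜ)
    (fun z => g z - 1) k R' (fun n => (hcp _).isClosed.isOpen_compl)
    (fun m n hmn => compl_subset_compl.2 (iUnion_mono fun j => cthickening_mono
      (by gcongr) _)) (hU ▸ h.con)
    (fun n z hz hh => by
      have h2 : 1 / ((n : ℝ) + 1) ≤ 1 := by
        rw [div_le_one (by positivity)]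
        linarith [(Nat.cast_nonneg n : (0 : ℝ) ≤ n)]
      have := hR' (iUnion_mono (fun j => cthickening_mono h2 _) hh)
      rw [mem_closedBall, dist_zero_right] at this
      linarith) hk hk0
  rw [hU] at hF
  refine ⟨fun z => z + F z, fun z hz => ?_, by simpa using hF0⟩
  have := (hasDerivAt_id' z).fun_add (hF z hz)
  simpa using this

end Vale.Agent.P116
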