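import Vale.Agent.P116.KoBase

open Set Filter Topology MeasureTheory Metric Complex
open scoped ENNReal ComplexConjugate Real

noncomputable section
namespace Vale.Agent.P116

namespace KoProp

theorem not_const {G : Set ℂ} {f : ℂ → ℂ} (hG : IsOpen G) (hi : InjOn f G) {z : ℂ} (hz : z ∈ G) :
    ¬ ∀ᶠ w in 𝓝 z, f w = f z := by
  intro h
  have h1 : ∀ᶠ w in 𝓝[≠] z, False := by
    filter_upwards [nhdsWithin_le_nhds h, nhdsWithin_le_nhds (hG.mem_nhds hz),
      self_mem_nhdsWithin] with w h1 h2 h3 using h3 (hi h2 hz h1)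
  exact h1.exists.elim fun _ h => h

theorem far {K : Set ℂ} {f : ℂ → ℂ} {c : ℂ} (hK : IsCompact K)
    (ht : Tendsto (fun z => f z - z) (cocompact ℂ) (𝓝 c)) :
    ∃ R : ℝ, ∀ z, R < ‖z‖ → z ∉ K ∧ ‖f z - z - c‖ ≤ 1 / 10 := by
  have h1 : ∀ᶠ z in cocompact ℂ, z ∉ K ∧ ‖f z - z - c‖ ≤ 1 / 10 := by
    filter_upwards [hK.compl_mem_cocompact,
      ht.eventually (closedBall_mem_nhds c (by norm_num : (0 : ℝ) < 1 / 10))] with z h1 h2
    exact ⟨h1, by rwa [dist_eq_norm] at h2⟩
  obtain ⟨L, hL, hsub⟩ := mem_cocompact.1 h1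
  obtain ⟨R, hR⟩ := hL.isBounded.subset_closedBall 0
  refine ⟨R, fun z hz => hsub fun hzL => ?_⟩
  have := hR hzL
  rw [mem_closedBall, dist_zero_right] at this
  linarith

end KoProp

theorem prop_pf : S_Prop := by
  intro K f c hK hf hi ht
  have hG : IsOpen Kᶜ := hK.isClosed.isOpen_compl
  have hop : ∀ U, IsOpen U → U ⊆ Kᶜ → IsOpen (f '' U) := by
    intro U hU hUK
    rw [isOpen_iff_mem_nhds]
    rintro _ ⟨z, hz, rfl⟩
    have ha : AnalyticAt ℂ f z := hf.analyticAt (hG.mem_nhds (hUK hz))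
    rcases ha.eventually_constant_or_nhds_le_map_nhds with h | h
    · exact (KoProp.not_const hG hi (hUK hz) h).elim
    · exact h (image_mem_map (hU.mem_nhds hz))
  obtain ⟨R, hR⟩ := KoProp.far hK ht
  refine ⟨hop, ?_, ?_⟩
  · refine Metric.isCompact_of_isClosed_isBounded (hop _ hG Subset.rfl).isClosed_compl ?_
    refine (isBounded_closedBall (x := c) (r := R + 1)).subset fun w hw => ?_
    by_contra hn
    rw [mem_closedBall, dist_eq_norm, not_le] at hn
    have hb : ∀ z ∈ closedBall (w - c) 1, R < ‖z‖ := by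
      intro z hz
      rw [mem_closedBall, dist_eq_norm] at hz
      have := norm_sub_norm_le (w - c) z
      rw [norm_sub_rev (w - c) z] at this
      linarith
    have hsub : closedBall (w - c) 1 ⊆ Kᶜ := fun z hz => (hR z (hb z hz)).1
    have h0 : w - c ∈ closedBall (w - c) 1 := mem_closedBall_self zero_le_one
    have hd : DiffContOnCl ℂ f (ball (w - c) 1) := by
      refine DifferentiableOn.diffContOnCl ?_
      rw [closure_ball _ one_ne_zero]
      exact hf.mono hsub
    have e0 := (hR _ (hb _ h0)).2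
    have hs : ∀ z ∈ sphere (w - c) 1, 4 / 5 ≤ ‖f z - f (w - c)‖ := by
      intro z hz
      have e1 := (hR z (hb z (sphere_subset_closedBall hz))).2
      rw [mem_sphere, dist_eq_norm] at hz
      have e2 : z - (w - c) = (f z - f (w - c)) - (f z - z - c) + (f (w - c) - (w - c) - c) := by
        ring
      have e3 := norm_add_le ((f z - f (w - c)) - (f z - z - c)) (f (w - c) - (w - c) - c)
      have e4 := norm_sub_le (f z - f (w - c)) (f z - z - c)
      rw [← e2] at e3
      linarith
    have hfr : ∃ᶠ z in 𝓝 (w - c), f z ≠ f (w - c) :=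
      not_eventually.1 (KoProp.not_const hG hi (hsub h0))
    have h1 := hd.ball_subset_image_closedBall one_pos hs hfr
    have h2 : w ∈ ball (f (w - c)) (4 / 5 / 2) := by
      rw [mem_ball, dist_comm, dist_eq_norm]
      have : f (w - c) - w = f (w - c) - (w - c) - c := by ring
      rw [this]
      linarith
    exact hw (image_mono hsub (h1 h2))
  · intro U hU hKU
    refine isClosed_of_closure_subset fun w hw => ?_
    have hc : IsCompact (Uᶜ ∩ closedBall 0 (max R (‖w‖ + ‖c‖ + 2))) :=
      (isCompact_closedBall _ _).inter_left hU.isClosed_compl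
    have hcl : IsClosed (f '' (Uᶜ ∩ closedBall 0 (max R (‖w‖ + ‖c‖ + 2)))) :=
      (hc.image_of_continuousOn (hf.continuousOn.mono
        (inter_subset_left.trans (compl_subset_compl.2 hKU)))).isClosed
    have h1 : w ∈ closure (ball w 1 ∩ f '' Uᶜ) :=
      isOpen_ball.inter_closure ⟨mem_ball_self one_pos, hw⟩
    have h2 : ball w 1 ∩ f '' Uᶜ ⊆ f '' (Uᶜ ∩ closedBall 0 (max R (‖w‖ + ‖c‖ + 2))) := by
      rintro _ ⟨hb, z, hz, rfl⟩
      refine ⟨z, ⟨hz, ?_⟩, rfl⟩
      rw [mem_closedBall, dist_zero_right]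
      by_contra hn
      rw [not_le, max_lt_iff] at hn
      have e1 := (hR z hn.1).2
      rw [mem_ball, dist_eq_norm] at hb
      have e2 : z = (f z - w) + w - c - (f z - z - c) := by ring
      have e3 := norm_sub_le ((f z - w) + w - c) (f z - z - c)
      have e4 := norm_sub_le ((f z - w) + w) c
      have e5 := norm_add_le (f z - w) w
      rw [← e2] at e3
      linarith [hn.2]
    exact image_mono inter_subset_left (hcl.closure_subset_iff.2 h2 h1)

end Vale.Agent.P116
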