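import Vale.Agent.P116.KoBase

open Set Filter Topology MeasureTheory Metric Complex
open scoped ENNReal ComplexConjugate Real

noncomputable section
namespace Vale.Agent.P116

namespace KoPt

theorem star {a b s : ℝ} (hs : 0 ≤ s) {θ ρ t : ℝ} (hρ : 0 < ρ) (ht : ρ ≤ t)
    (h : circleMap (cen a b s) t θ ∈ sq a b s) : circleMap (cen a b s) ρ θ ∈ sq a b s := by
  have ht0 : 0 < t := hρ.trans_le ht
  have := (convex_sq a b s).add_smul_mem (cen_mem hs) (y := t * exp (θ * I)) h
    (t := ρ / t) ⟨by positivity, (div_le_one ht0).2 ht⟩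
  convert this using 1
  have : (t : ℂ) ≠ 0 := by exact_mod_cast ht0.ne'
  simp only [circleMap, real_smul, ofReal_div]
  field_simp

theorem circ_arg (c z : ℂ) : circleMap c ‖z - c‖ (arg (z - c)) = z := by
  simp only [circleMap, norm_mul_exp_arg_mul_I]; ring

theorem near_geo {a b s d t : ℝ} {y p y' z : ℂ} (hd : 0 < d) (hp : p ∈ sq a b s)
    (hyp : ‖y - p‖ ≤ d) (hy' : ‖y' - y‖ ≤ d / 2) (ht0 : 0 ≤ t) (ht1 : t ≤ 1)
    (hz : z - cen a b s = t * (y' - cen a b s)) (hzS : z ∉ sq a b s)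
    (hρ : ‖y' - cen a b s‖ ≤ 2 * s) : ‖z - y‖ < 7 * d := by
  set c := cen a b s with hc
  have h1 : ‖y' - p‖ ≤ 3 * d / 2 := by
    have := norm_sub_le_norm_sub_add_norm_sub y' y p
    linarith
  obtain ⟨p1, p2⟩ := mem_sq_iff.1 hp
  have e1 : y' - c = (y' - p) + (p - c) := by ring
  have h2 : |(y' - c).re| ≤ s / 2 + 3 * d / 2 := by
    rw [e1, add_re]
    have := abs_add_le (y' - p).re (p - c).re
    have := abs_re_le_norm (y' - p)
    linarith
  have h3 : |(y' - c).im| ≤ s / 2 + 3 * d / 2 := by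
    rw [e1, add_im]
    have := abs_add_le (y' - p).im (p - c).im
    have := abs_im_le_norm (y' - p)
    linarith
  have h4 : s / 2 < t * (s / 2 + 3 * d / 2) := by
    by_contra hn
    push Not at hn
    refine hzS (mem_sq_iff.2 ⟨?_, ?_⟩)
    · rw [← hc, hz, re_ofReal_mul, abs_mul, abs_of_nonneg ht0]
      exact (mul_le_mul_of_nonneg_left h2 ht0).trans hn
    · rw [← hc, hz, im_ofReal_mul, abs_mul, abs_of_nonneg ht0]
      exact (mul_le_mul_of_nonneg_left h3 ht0).trans hn
  have h5 : (1 - t) * s < 3 * d := by nlinarith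
  have e2 : z - y' = ((t - 1 : ℝ) : ℂ) * (y' - c) := by
    push_cast; linear_combination hz
  have h6 : ‖z - y'‖ < 6 * d := by
    rw [e2, norm_mul, norm_real, Real.norm_eq_abs, abs_sub_comm, abs_of_nonneg (by linarith)]
    have := mul_le_mul_of_nonneg_left hρ (show 0 ≤ 1 - t by linarith)
    linarith
  have := norm_sub_le_norm_sub_add_norm_sub z y' y
  linarith

theorem meas_rad (W : ℂ → ℂ) (c : ℂ) : Measurable (rad W c) := by
  have h1 := measurable_fderiv_apply_const ℝ W 1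
  have h2 := measurable_fderiv_apply_const ℝ W I
  have e : rad W c = fun z => (dz W z * (z - c) + db W z * conj (z - c)) /
      ((‖z - c‖ ^ 2 : ℝ) : ℂ) := by
    funext z; rw [rad, fderiv_eq_dz_db]
  rw [e]
  unfold dz db
  have h3 : Measurable fun z : ℂ => conj (z - c) :=
    (continuous_conj.comp (continuous_id.sub continuous_const)).measurable
  have h4 : Measurable fun z : ℂ => ((‖z - c‖ ^ 2 : ℝ) : ℂ) := by fun_prop
  refine Measurable.div (Measurable.add (Measurable.mul ?_ (by fun_prop))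
    (Measurable.mul ?_ h3)) h4
  · exact (h1.sub (h2.const_mul I)).div_const 2
  · exact (h1.add (h2.const_mul I)).div_const 2

section
variable {ι : Type} [Fintype ι] {a b s : ι → ℝ} {κ : ℂ → ℝ} {f : ℂ → ℂ} {j : ι}

omit [Fintype ι] in
theorem zero_near (hκ : Loc a b s j κ) {k : ι} (hk : k ≠ j) {z : ℂ}
    (hz : z ∈ sq (a k) (b k) (s k)) : (fun w => f w * (κ w : ℂ)) =ᶠ[𝓝 z] fun _ => 0 := by
  have h1 : z ∉ tsupport κ := fun h => Set.disjoint_left.1 (hκ.2.2.2 k hk) h hz
  filter_upwards [notMem_tsupport_iff_eventuallyEq.1 h1] with w hw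
  simp [hw]

theorem smooth_W (hf : DifferentiableOn ℂ f (KK a b s)ᶜ) (hκ : Loc a b s j κ) :
    ContDiffOn ℝ 1 (fun w => f w * (κ w : ℂ)) (sq (a j) (b j) (s j))ᶜ := by
  intro z hz
  refine ContDiffAt.contDiffWithinAt ?_
  by_cases hG : z ∈ KK a b s
  · obtain ⟨k, hk⟩ := mem_KK.1 hG
    have hkj : k ≠ j := by rintro rfl; exact hz hk
    exact contDiffAt_const.congr_of_eventuallyEq (zero_near hκ hkj hk)
  · have h1 : AnalyticAt ℂ f z := hf.analyticAt ((isOpen_G a b s).mem_nhds hG)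
    have h2 : ContDiffAt ℝ 1 f z := (h1.contDiffAt (n := 1)).restrict_scalars ℝ
    exact h2.mul ((contDiff_ofReal hκ.1).of_le (by exact_mod_cast le_top)).contDiffAt

omit [Fintype ι] in
theorem far_W (hκ : Loc a b s j κ) : ∃ R : ℝ, ∀ z, R < ‖z‖ → f z * (κ z : ℂ) = 0 := by
  obtain ⟨R, hR⟩ := hκ.2.1.isCompact.isBounded.exists_norm_le
  refine ⟨R, fun z hz => ?_⟩
  have : κ z = 0 := by
    by_contra h
    exact absurd (hR z (subset_tsupport _ h)) (not_le.2 hz)
  simp [this]

end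

theorem far_val {ψ : ℝ → ℝ} {h : ℝ → ℂ} {w : ℂ} {ε : ℝ} (hψ : Continuous ψ)
    (hp : Function.Periodic ψ (2 * π)) (h0 : ∀ θ, 0 ≤ ψ θ)
    (h1 : (∫ θ in (0 : ℝ)..2 * π, ψ θ) = 1) (hc : ∀ θ ∈ tsupport ψ, ContinuousAt h θ)
    (he : ∀ θ ∈ tsupport ψ, ‖h θ - w‖ ≤ ε) :
    ‖-(∫ θ in (-π)..π, (ψ θ : ℂ) * h θ) + w‖ ≤ ε := by
  have h2 : (∫ θ in (-π)..π, ψ θ) = 1 := by
    have := hp.intervalIntegral_add_eq (-π) 0
    rw [zero_add, h1, show -π + 2 * π = π by ring] at this
    exact this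
  have hψc : Continuous fun θ => (ψ θ : ℂ) := continuous_ofReal.comp hψ
  have h3 : Continuous fun θ => (ψ θ : ℂ) * h θ := by
    refine continuous_iff_continuousAt.2 fun θ => ?_
    by_cases hθ : θ ∈ tsupport ψ
    · exact hψc.continuousAt.mul (hc θ hθ)
    · refine (continuousAt_const (y := (0 : ℂ))).congr ?_
      filter_upwards [notMem_tsupport_iff_eventuallyEq.1 hθ] with x hx
      simp [hx]
  have h4 : (∫ θ in (-π)..π, (ψ θ : ℂ) * w) = w := by
    rw [intervalIntegral.integral_mul_const, intervalIntegral.integral_ofReal, h2]; simp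
  have h5 : -(∫ θ in (-π)..π, (ψ θ : ℂ) * h θ) + w =
      ∫ θ in (-π)..π, ((ψ θ : ℂ) * w - (ψ θ : ℂ) * h θ) := by
    have h6 : Continuous fun θ => (ψ θ : ℂ) * w := hψc.mul continuous_const
    rw [intervalIntegral.integral_sub (h6.intervalIntegrable _ _) (h3.intervalIntegrable _ _), h4]
    ring
  rw [h5]
  refine (intervalIntegral.norm_integral_le_of_norm_le (g := fun θ => ψ θ * ε)
    (by linarith [Real.pi_pos]) (Eventually.of_forall fun θ _ => ?_)
    ((hψ.mul continuous_const).intervalIntegrable _ _)).trans ?_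
  · rw [← mul_sub, norm_mul, norm_real, Real.norm_eq_abs, abs_of_nonneg (h0 θ)]
    by_cases hθ : θ ∈ tsupport ψ
    · rw [norm_sub_rev]
      exact mul_le_mul_of_nonneg_left (he θ hθ) (h0 θ)
    · simp [image_eq_zero_of_notMem_tsupport hθ]
  · rw [intervalIntegral.integral_mul_const, h2, one_mul]

end KoPt

open KoPt in
theorem pt_pf (hPol : S_Pol) (hSmall : S_Small) (hBump : S_Bump) : S_Pt := by
  intro ι _ a b s R κ f j hC hf hint hκ ε hε
  set S := sq (a j) (b j) (s j) with hS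
  set c := cen (a j) (b j) (s j) with hc
  set G := (KK a b s)ᶜ with hG
  set W : ℂ → ℂ := fun w => f w * (κ w : ℂ) with hW
  have hs := hC.pos j
  have hcS : c ∈ S := cen_mem hs.le
  have hSc : IsCompact S := isCompact_sq _ _ _
  have hGo : IsOpen G := isOpen_G a b s
  obtain ⟨η, hη, hO⟩ := (hasBasis_nhdsSet_thickening hSc).eventually_iff.1
    (hκ.2.2.1.and (hC.near j))
  obtain ⟨δ0, hδ0, hsm⟩ := hSmall G f hGo hf hint (ε / 9) (by positivity)
  obtain ⟨R', hR'⟩ := far_W (f := f) hκ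
  refine ⟨min (min (η / 8) (s j)) δ0, by positivity, fun y hy hd => ?_⟩
  set d := infDist y S with hdd
  have hd1 : d < η / 8 := hd.trans_le ((min_le_left _ _).trans (min_le_left _ _))
  have hd2 : d < s j := hd.trans_le ((min_le_left _ _).trans (min_le_right _ _))
  have hd3 : d < δ0 := hd.trans_le (min_le_right _ _)
  have hyS : y ∉ S := fun h => hy (sq_subset_KK j h)
  have hd0 : 0 < d :=
    (infDist_pos_iff_notMem_closure ⟨c, hcS⟩).1 (by rwa [hSc.isClosed.closure_eq])
  obtain ⟨p, hp, hpd⟩ := hSc.exists_infDist_eq_dist ⟨c, hcS⟩ y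
  rw [← hdd, dist_eq_norm] at hpd
  set ρ := ‖y - c‖ with hρ
  have hdρ : d ≤ ρ := by rw [hρ, ← dist_eq_norm]; exact infDist_le_dist_of_mem hcS
  have hρ0 : 0 < ρ := hd0.trans_le hdρ
  have hρ2 : ρ ≤ 2 * s j := by
    have h1 := sq_subset_closedBall _ _ _ hp
    rw [mem_closedBall, dist_eq_norm] at h1
    have := norm_sub_le_norm_sub_add_norm_sub y p c
    linarith
  have hA : ∀ w ∈ ball y (7 * d), κ w = 1 ∧ ∀ k, k ≠ j → w ∉ sq (a k) (b k) (s k) := by
    intro w hw
    refine hO ((mem_thickening_iff_infDist_lt ⟨c, hcS⟩).2 ?_)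
    have := infDist_le_infDist_add_dist (x := w) (y := y) (s := S)
    rw [mem_ball] at hw
    linarith
  have hB : ∀ w ∈ ball y d, w ∉ S := fun w hw =>
    notMem_of_dist_lt_infDist (by rw [dist_comm]; exact hw)
  have hb7 : ball y d ⊆ ball y (7 * d) := ball_subset_ball (by linarith)
  have hb2 : closedBall y (d / 2) ⊆ ball y d := closedBall_subset_ball (by linarith)
  have hBG : ball y d ⊆ G := by
    intro w hw hK
    obtain ⟨k, hk⟩ := mem_KK.1 hK
    by_cases hkj : k = j
    · subst hkj; exact hB w hw hk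
    · exact (hA w (hb7 hw)).2 k hkj hk
  obtain ⟨⟨hI1, hI2⟩, hI3⟩ := hsm y d hd0 hd3
  obtain ⟨ψ, hψ1, hψ2, hψ3, hψ4, hψ5, hψ6⟩ := hBump c y d hd0 hdρ
  rw [← hρ] at hψ5 hψ6
  have hray : ∀ θ ∈ tsupport ψ, ∀ t, ρ ≤ t → circleMap c t θ ∈ Sᶜ := fun θ hθ t ht h =>
    hB _ (hb2 (hψ6 θ hθ)) (star hs.le hρ0 ht h)
  have hWs : ContDiffOn ℝ 1 W Sᶜ := smooth_W hf hκ
  obtain ⟨hP1, hP2⟩ := hPol Sᶜ W ψ c ρ R' hSc.isClosed.isOpen_compl hWs hR' hψ1.continuous hρ0 hray
  set g : ℂ → ℂ := fun z => (ψ (arg (z - c)) : ℂ) * rad W c z with hg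
  set F : Set ℂ := {z | ρ ≤ ‖z - c‖} with hF
  have hFm : MeasurableSet F := (isClosed_le continuous_const (by fun_prop)).measurableSet
  have hgm : Measurable g := by
    refine Measurable.mul ?_ (meas_rad W c)
    exact measurable_ofReal.comp (hψ1.continuous.measurable.comp
      (measurable_arg.comp (measurable_id.sub_const c)))
  have hfar : ‖-(∫ θ in (-π)..π, (ψ θ : ℂ) * W (circleMap c ρ θ)) + f y‖ ≤ ε / 9 := by
    refine far_val hψ1.continuous hψ2 hψ3 hψ4 (fun θ hθ => ?_) fun θ hθ => ?_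
    · have h1 : ContinuousAt W (circleMap c ρ θ) :=
        hWs.continuousOn.continuousAt (hSc.isClosed.isOpen_compl.mem_nhds (hray θ hθ ρ le_rfl))
      exact ContinuousAt.comp (f := circleMap c ρ) h1 (continuous_circleMap c ρ).continuousAt
    · have h1 := hψ6 θ hθ
      simp only [hW, (hA _ (hb7 (hb2 h1))).1, ofReal_one, mul_one]
      exact hI3 hBG _ h1
  have hGF : ∫ z in G ∩ F, g z = ∫ z in F, g z := by
    refine (setIntegral_eq_of_subset_of_forall_sdiff_eq_zero hFm inter_subset_right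
      fun z hz => ?_).symm
    have hK : z ∈ KK a b s := by
      by_contra h
      exact hz.2 ⟨h, hz.1⟩
    obtain ⟨k, hk⟩ := mem_KK.1 hK
    by_cases hkj : k = j
    · subst hkj
      have : ψ (arg (z - c)) = 0 := by
        by_contra h
        have := hray _ (subset_tsupport _ h) _ hz.1
        rw [circ_arg] at this
        exact this hk
      simp [hg, this]
    · have := (zero_near (f := f) hκ hkj hk).fderiv_eq (𝕜 := ℝ)
      simp only [hg, rad, hW, this]
      simp
  set B := ball y (7 * d) ∩ G with hBdef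
  have hBm : MeasurableSet B := measurableSet_ball.inter hGo.measurableSet
  set h : ℂ → ℝ := B.indicator fun w => 8 / d * ‖deriv f w‖ with hh
  have hhi : Integrable h := IntegrableOn.integrable_indicator (hI1.const_mul (8 / d)) hBm
  have hh0 : ∀ w, 0 ≤ h w := fun w => indicator_nonneg (fun w _ => by positivity) w
  have hnear : ∀ z ∈ G \ F, ‖g z‖ ≤ h z := by
    intro z hz
    by_cases h0 : ψ (arg (z - c)) = 0
    · simp [hg, h0, hh0]
    have hzS : z ∉ S := fun h => hz.1 (sq_subset_KK j h)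
    have hzρ : ‖z - c‖ < ρ := not_le.1 hz.2
    have hzs : s j / 2 < ‖z - c‖ := by
      by_contra hn
      exact hzS (closedBall_subset_sq _ _ _ (by rw [mem_closedBall, dist_eq_norm]; linarith))
    have hy' := hψ6 _ (subset_tsupport _ h0)
    rw [mem_closedBall, dist_eq_norm] at hy'
    have hzb : z ∈ ball y (7 * d) := by
      rw [mem_ball, dist_eq_norm]
      refine near_geo (t := ‖z - c‖ / ρ) hd0 hp hpd.ge hy' (by positivity)
        ((div_le_one hρ0).2 hzρ.le) ?_ hzS ?_
      · have : (ρ : ℂ) ≠ 0 := by exact_mod_cast hρ0.ne'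
        rw [← hc]
        conv_lhs => rw [← norm_mul_exp_arg_mul_I (z - c)]
        simp only [circleMap, ofReal_div]
        field_simp
        ring
      · rw [← hc, circleMap_sub_center, norm_circleMap_zero, abs_of_pos hρ0]
        exact hρ2
    have hWf : W =ᶠ[𝓝 z] f := by
      filter_upwards [isOpen_ball.mem_nhds hzb] with w hw
      simp [hW, (hA w hw).1]
    have hfd : HasDerivAt f (deriv f z) z :=
      (hf.differentiableAt (hGo.mem_nhds hz.1)).hasDerivAt
    have hz0 : 0 < ‖z - c‖ := by linarith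
    have e1 : ‖rad W c z‖ = ‖deriv f z‖ / ‖z - c‖ := by
      rw [rad, hWf.fderiv_eq, fderiv_of_hasDerivAt hfd, norm_div, norm_mul, norm_real,
        Real.norm_eq_abs, abs_of_nonneg (by positivity)]
      field_simp
    have e2 : h z = 8 / d * ‖deriv f z‖ := indicator_of_mem (show z ∈ B from ⟨hzb, hz.1⟩) _
    rw [e2, hg]
    simp only
    rw [norm_mul, e1, norm_real, Real.norm_eq_abs, abs_of_nonneg (hψ3 _)]
    have e3 : ψ (arg (z - c)) / ‖z - c‖ ≤ 8 / d := by
      rw [div_le_iff₀ hz0]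
      refine (hψ5 _).trans ?_
      rw [div_mul_eq_mul_div]
      exact div_le_div_of_nonneg_right (by linarith) hd0.le
    calc ψ (arg (z - c)) * (‖deriv f z‖ / ‖z - c‖)
        = ψ (arg (z - c)) / ‖z - c‖ * ‖deriv f z‖ := by ring
      _ ≤ _ := by gcongr
  have hNm : MeasurableSet (G \ F) := hGo.measurableSet.diff hFm
  have hae : ∀ᵐ z ∂(volume.restrict (G \ F)), ‖g z‖ ≤ h z :=
    (ae_restrict_iff' hNm).2 (Eventually.of_forall hnear)
  have hN : IntegrableOn g (G \ F) := Integrable.mono' hhi.integrableOn hgm.aestronglyMeasurable hae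
  have hGi : IntegrableOn g G := (hP1.union hN).mono_set fun z hz => by
    by_cases h : z ∈ F
    · exact Or.inl h
    · exact Or.inr ⟨hz, h⟩
  have hNv : ‖∫ z in G \ F, g z‖ ≤ 8 * (ε / 9) := by
    refine (norm_integral_le_of_norm_le hhi.integrableOn hae).trans
      ((setIntegral_le_integral hhi (Eventually.of_forall hh0)).trans ?_)
    rw [hh, integral_indicator hBm, integral_const_mul]
    calc 8 / d * ∫ w in B, ‖deriv f w‖ ≤ 8 / d * (ε / 9 * d) := by gcongr
      _ = _ := by field_simp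
  refine ⟨ψ, hψ1, hψ2, hψ3, hψ4, hGi, ?_⟩
  rw [← integral_inter_add_sdiff hFm hGi, hGF, hP2, add_right_comm]
  exact (norm_add_le _ _).trans (by linarith)

end Vale.Agent.P116
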