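import Vale.Agent.P116.KoBase

open Set Filter Topology MeasureTheory Metric Complex
open scoped ENNReal ComplexConjugate Real

noncomputable section
namespace Vale.Agent.P116

namespace KoSel

theorem step {T : Type} {a b s : T → ℝ} {R : ℝ}
    (h2 : Pairwise fun i j => Disjoint (sq (a i) (b i) (s i)) (sq (a j) (b j) (s j)))
    (h3 : ∀ j, sq (a j) (b j) (s j) ⊆ ball 0 R) (z : ℂ) (ρ : {t : ℝ // 0 < t}) :
    ∃ σ : {t : ℝ // 0 < t}, 2 * σ.1 < ρ.1 / 2 ∧ ∀ j, z ∉ sq (a j) (b j) (s j) →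
      (sq (a j) (b j) (s j) ∩ ann z ρ.1).Nonempty →
        ∀ w ∈ sq (a j) (b j) (s j), 2 * σ.1 < ‖w - z‖ := by
  obtain ⟨ρ, hρ⟩ := ρ
  have hF : {j | ρ / 4 ≤ s j}.Finite := by
    refine (Measure.finite_const_le_meas_of_disjoint_iUnion volume
      (ε := ENNReal.ofReal (ρ / 4) ^ 2) (As := fun j => sq (a j) (b j) (s j))
      (ENNReal.pow_pos (ENNReal.ofReal_pos.2 (by linarith)) 2) (fun j => measurableSet_sq _ _ _) h2
      (ne_top_of_le_ne_top measure_ball_lt_top.ne (measure_mono (iUnion_subset h3)))).subset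
      fun j hj => ?_
    rw [mem_ofPred_eq, volume_sq]
    exact pow_le_pow_left₀ (by simp) (ENNReal.ofReal_le_ofReal hj) 2
  have hc : IsClosed (⋃ j ∈ {j | ρ / 4 ≤ s j} ∩ {j | z ∉ sq (a j) (b j) (s j)},
      sq (a j) (b j) (s j)) :=
    (hF.inter_of_left _).isClosed_biUnion fun j _ => isClosed_sq _ _ _
  obtain ⟨δ, hδ, hb⟩ := Metric.isOpen_iff.1 hc.isOpen_compl z (by
    simp only [mem_compl_iff, mem_iUnion, not_exists]
    exact fun j hj => hj.2)
  have m1 := min_le_left δ ρ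
  have m2 := min_le_right δ ρ
  have m0 := lt_min hδ hρ
  refine ⟨⟨min δ ρ / 8, by linarith⟩, by dsimp only; linarith, fun j hj ⟨v, v1, v2⟩ w hw => ?_⟩
  dsimp only at v2 ⊢
  by_contra hn
  rw [not_lt] at hn
  by_cases hs : ρ / 4 ≤ s j
  · exact hb (mem_ball_iff_norm.2 (by linarith)) (mem_biUnion (x := j) ⟨hs, hj⟩ hw)
  · have k1 := norm_sub_le_sq v1 hw
    have k2 := norm_add_le (v - w) (w - z)
    rw [sub_add_sub_cancel] at k2
    linarith [v2.1, not_le.1 hs]

end KoSel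

theorem sel_pf : S_Sel := by
  intro T a b s R _ h2 h3 z ε hε
  choose F hF using KoSel.step h2 h3 z
  set u : ℕ → {t : ℝ // 0 < t} := fun n => F^[n] ⟨ε, hε⟩ with hu
  have e : ∀ n, u (n + 1) = F (u n) := fun n => Function.iterate_succ_apply' F n _
  have an : Antitone fun n => (u n).1 := antitone_nat_of_succ_le fun n => by
    rw [e]
    linarith [(hF (u n)).1, (F (u n)).2]
  refine ⟨fun n => (u n).1, fun n => ⟨(u n).2, an (Nat.zero_le n)⟩, fun m n h => ?_,
    fun j hj m n h hm ⟨w, w1, w2⟩ => ?_⟩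
  · have k1 : (u n).1 ≤ (u (m + 1)).1 := an h
    rw [e] at k1
    linarith [(hF (u m)).1, (u m).2]
  · have k1 : (u n).1 ≤ (u (m + 1)).1 := an h
    rw [e] at k1
    linarith [(hF (u m)).2 j hj hm w w1, w2.2]

end Vale.Agent.P116
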