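import Vale.Agent.P116.KoBase

open Set Filter Topology MeasureTheory Metric Complex
open scoped ENNReal ComplexConjugate Real

noncomputable section
namespace Vale.Agent.P116

namespace KoSmall

theorem abs_cont {G : Set ℂ} {g : ℂ → ℝ} (hg : IntegrableOn g G) {η : ℝ} (hη : 0 < η) :
    ∃ δ > 0, ∀ (z : ℂ) (d : ℝ), 0 < d → d < δ → ∫ w in ball z d ∩ G, g w ≤ η := by
  have h1 : Tendsto (fun d : ℝ => ENNReal.ofReal d ^ 2 * (NNReal.pi : ℝ≥0∞)) (𝓝 0) (𝓝 0) := by
    have h2 : Continuous fun d : ℝ => ENNReal.ofReal d ^ 2 * (NNReal.pi : ℝ≥0∞) :=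
      (ENNReal.continuous_mul_const ENNReal.coe_ne_top).comp
        ((ENNReal.continuous_pow 2).comp ENNReal.continuous_ofReal)
    simpa using h2.tendsto 0
  have h3 : Tendsto ((volume.restrict G) ∘ fun p : ℂ × ℝ => ball p.1 p.2)
      (comap Prod.snd (𝓝 0)) (𝓝 0) := by
    refine tendsto_of_tendsto_of_tendsto_of_le_of_le tendsto_const_nhds (h1.comp tendsto_comap)
      (fun _ => zero_le) (fun p => ?_)
    simp only [Function.comp]
    rw [← Complex.volume_ball p.1]
    exact Measure.restrict_apply_le _ _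
  have h4 := (Integrable.tendsto_setIntegral_nhds_zero hg h3).eventually (gt_mem_nhds hη)
  rw [eventually_comap, Metric.eventually_nhds_iff] at h4
  obtain ⟨δ, hδ, h5⟩ := h4
  refine ⟨δ, hδ, fun z d hd hdδ => ?_⟩
  have := h5 (y := d) (by rwa [dist_zero_right, Real.norm_eq_abs, abs_of_pos hd]) (z, d) rfl
  rw [Measure.restrict_restrict measurableSet_ball] at this
  exact this.le

theorem vol_le (z : ℂ) {d : ℝ} (hd : 0 ≤ d) (G : Set ℂ) :
    volume (ball z d ∩ G) ≠ ⊤ ∧ volume.real (ball z d ∩ G) ≤ (2 * d) ^ 2 := by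
  have h1 : volume (ball z d) ≠ ⊤ := measure_ball_lt_top.ne
  refine ⟨measure_ne_top_of_subset inter_subset_left h1, ?_⟩
  refine (measureReal_mono inter_subset_left h1).trans ?_
  rw [Measure.real, Complex.volume_ball]
  simp only [ENNReal.toReal_mul, ENNReal.toReal_pow, ENNReal.toReal_ofReal hd, ENNReal.coe_toReal,
    NNReal.coe_real_pi]
  nlinarith [Real.pi_le_four, sq_nonneg d]

end KoSmall

theorem small_pf (hMv : S_Mv) : S_Small := by
  intro G f hG hf hint ε hε
  have hu : DifferentiableOn ℂ (fun z => deriv f z - 1) G := (hf.deriv hG).sub_const 1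
  obtain ⟨δ, hδ, hac⟩ := KoSmall.abs_cont hint (η := (ε / 28) ^ 2) (by positivity)
  refine ⟨min (δ / 7) (ε / 392), by positivity, fun z d hd hlt => ?_⟩
  have hd1 : d < δ / 7 := hlt.trans_le (min_le_left _ _)
  have hd2 : d < ε / 392 := hlt.trans_le (min_le_right _ _)
  constructor
  · obtain ⟨v1, v2⟩ := KoSmall.vol_le z (d := 7 * d) (by positivity) G
    have hm : AEStronglyMeasurable (fun z => deriv f z - 1) (volume.restrict (ball z (7 * d) ∩ G)) :=
      ((measurable_deriv f).sub_const 1).aestronglyMeasurable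
    obtain ⟨c1, c2⟩ := cs_set v1 hm (hint.mono_set inter_subset_right)
    have c0 : IntegrableOn (fun _ : ℂ => (1 : ℂ)) (ball z (7 * d) ∩ G) := integrableOn_const v1
    have c3 : IntegrableOn (fun w => deriv f w) (ball z (7 * d) ∩ G) := by
      have := c1.add c0
      refine this.congr (Eventually.of_forall fun w => ?_)
      simp
    refine ⟨c3.norm, ?_⟩
    have c4 : IntegrableOn (fun _ : ℂ => (1 : ℝ)) (ball z (7 * d) ∩ G) := integrableOn_const v1
    have c5 : ∫ w in ball z (7 * d) ∩ G, ‖deriv f w‖ ≤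
        ∫ w in ball z (7 * d) ∩ G, (1 + ‖deriv f w - 1‖) := by
      refine integral_mono c3.norm (c4.add c1.norm) (fun w => ?_)
      have := norm_add_le (1 : ℂ) (deriv f w - 1)
      simpa using this
    rw [integral_add c4 c1.norm, setIntegral_const, smul_eq_mul, mul_one] at c5
    have e1 : √(volume.real (ball z (7 * d) ∩ G)) ≤ 2 * (7 * d) :=
      Real.sqrt_le_iff.2 ⟨by positivity, v2⟩
    have e2 : √(∫ w in ball z (7 * d) ∩ G, ‖deriv f w - 1‖ ^ 2) ≤ ε / 28 :=
      Real.sqrt_le_iff.2 ⟨by positivity, hac z (7 * d) (by positivity) (by linarith)⟩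
    have e3 := mul_le_mul e1 e2 (Real.sqrt_nonneg _) (by positivity)
    nlinarith
  · intro hsub y hy
    have hcl : closedBall z (d / 2) ⊆ ball z d := closedBall_subset_ball (by linarith)
    have hb : ∀ w ∈ closedBall z (d / 2), ‖deriv f w‖ ≤ 1 + ε / 14 / d := by
      intro w hw
      have s1 : ball w (d / 2) ⊆ ball z d :=
        ball_subset_ball' (by rw [mem_closedBall] at hw; linarith)
      have s2 : ball w (d / 2) ⊆ G := s1.trans hsub
      have m1 := hMv (fun z => deriv f z - 1) w (d / 2) (by positivity) (hu.mono s2)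
        (hint.mono_set s2)
      have m2 := hac w (d / 2) (by positivity) (by linarith)
      rw [inter_eq_left.2 s2] at m2
      have m3 : (d / 2 * ‖deriv f w - 1‖) ^ 2 ≤ (ε / 28) ^ 2 := by
        have : 0 ≤ (d / 2) ^ 2 * ‖deriv f w - 1‖ ^ 2 := by positivity
        nlinarith [Real.pi_gt_three]
      have m4 : d / 2 * ‖deriv f w - 1‖ ≤ ε / 28 :=
        (pow_le_pow_iff_left₀ (by positivity) (by positivity) two_ne_zero).1 m3
      have m5 : ‖deriv f w - 1‖ ≤ ε / 14 / d := by
        rw [le_div_iff₀ hd]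
        linarith
      have := norm_add_le (1 : ℂ) (deriv f w - 1)
      simp only [add_sub_cancel, norm_one] at this
      linarith
    have h1 := (convex_closedBall z (d / 2)).norm_image_sub_le_of_norm_deriv_le
      (fun w hw => (hf w (hsub (hcl hw))).differentiableAt (hG.mem_nhds (hsub (hcl hw)))) hb
      (mem_closedBall_self (by positivity)) hy
    have h2 : ‖y - z‖ ≤ d / 2 := by rwa [mem_closedBall, dist_eq_norm] at hy
    have h3 : (1 + ε / 14 / d) * ‖y - z‖ ≤ (1 + ε / 14 / d) * (d / 2) :=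
      mul_le_mul_of_nonneg_left h2 (by positivity)
    have h4 : (1 + ε / 14 / d) * (d / 2) = d / 2 + ε / 28 := by field_simp; ring
    linarith

end Vale.Agent.P116
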