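import Vale.Agent.P116.KoBase

open Set Filter Topology MeasureTheory Metric Complex
open scoped ENNReal ComplexConjugate Real

noncomputable section
namespace Vale.Agent.P116

namespace KoSphA

theorem comp_coe (K : Set ℂ) {w : ℂ} (hw : w ∈ K) :
    connectedComponentIn ((fun z : ℂ => (z : OnePoint ℂ)) '' K) w =
      (fun z : ℂ => (z : OnePoint ℂ)) '' connectedComponentIn K w := by
  refine Subset.antisymm ?_
    (OnePoint.continuous_coe.continuousOn.image_connectedComponentIn_subset hw)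
  obtain ⟨T, hT, e⟩ := subset_image_iff.1
    (connectedComponentIn_subset ((fun z : ℂ => (z : OnePoint ℂ)) '' K) w)
  have h1 : IsPreconnected T := by
    rw [← OnePoint.isOpenEmbedding_coe.isInducing.isPreconnected_image, e]
    exact isPreconnected_connectedComponentIn
  have h2 : w ∈ T := by
    rw [← OnePoint.coe_injective.mem_set_image, e]
    exact mem_connectedComponentIn ⟨w, hw, rfl⟩
  rw [← e]
  exact image_mono (h1.subset_connectedComponentIn h2 hT)

theorem round {a : ℂ} {r : ℝ} (hr : 0 < r) :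
    IsRoundDisc ((fun z : ℂ => (z : OnePoint ℂ)) '' closedBall a r) := by
  have hr' : (r : ℂ) ≠ 0 := ofReal_ne_zero.2 hr.ne'
  refine ⟨r, a, 0, 1, by simpa using hr.ne', ?_⟩
  have e : ∀ z : ℂ, mob r a 0 1 (z : OnePoint ℂ) = ((r * z + a : ℂ) : OnePoint ℂ) := fun z => by
    simp [mob]
  rw [image_image]
  simp only [e]
  rw [← image_image (fun z : ℂ => (z : OnePoint ℂ)) fun z : ℂ => r * z + a]
  congr 1
  ext w
  constructor
  · intro hw
    refine ⟨(w - a) / r, ?_, by field_simp; ring⟩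
    rw [mem_closedBall_zero_iff, norm_div, norm_real, Real.norm_of_nonneg hr.le, div_le_one hr]
    rwa [mem_closedBall, dist_eq_norm] at hw
  · rintro ⟨z, hz, rfl⟩
    rw [mem_closedBall_zero_iff] at hz
    rw [mem_closedBall, dist_eq_norm, add_sub_cancel_right, norm_mul, norm_real,
      Real.norm_of_nonneg hr.le]
    exact mul_le_of_le_one_right hr.le hz

theorem dom {K : Set ℂ} (hK : IsCompact K) (hc : IsPreconnected Kᶜ) :
    IsDomain ((fun z : ℂ => (z : OnePoint ℂ)) '' K)ᶜ := by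
  refine ⟨OnePoint.isOpen_compl_image_coe.2 ⟨hK.isClosed, hK⟩,
    ⟨OnePoint.infty, OnePoint.infty_notMem_image_coe⟩, ?_⟩
  rw [OnePoint.compl_image_coe]
  refine (hc.image _ OnePoint.continuous_coe.continuousOn).subset_closure subset_union_left
    (union_subset subset_closure (singleton_subset_iff.2 ?_))
  have h := OnePoint.tendsto_coe_infty (X := ℂ)
  rw [coclosedCompact_eq_cocompact] at h
  exact mem_closure_of_tendsto h
    (eventually_of_mem hK.compl_mem_cocompact fun z hz => ⟨z, hz, rfl⟩)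

theorem at_infty {K : Set ℂ} {f : ℂ → ℂ} {c : ℂ} (hK : IsCompact K)
    (hf : DifferentiableOn ℂ f Kᶜ) (hc : Tendsto (fun z => f z - z) (cocompact ℂ) (𝓝 c)) :
    ∃ φ : ℂ → ℂ, AnalyticAt ℂ φ 0 ∧ ∀ᶠ ζ in 𝓝 (0 : ℂ),
      OnePoint.map f (chart false ζ) = chart false (φ ζ) := by
  classical
  have hi : Tendsto (fun ζ : ℂ => ζ⁻¹) (𝓝[≠] 0) (cocompact ℂ) := by
    rw [← Metric.cobounded_eq_cocompact]
    exact tendsto_inv₀_nhdsNE_zero
  set g : ℂ → ℂ := fun ζ => 1 + ζ * Function.update (fun ζ => f ζ⁻¹ - ζ⁻¹) 0 c ζ with hg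
  have g0 : g 0 = 1 := by simp [hg]
  have g1 : ∀ ζ, ζ ≠ 0 → g ζ = ζ * f ζ⁻¹ := fun ζ h => by
    simp only [hg, Function.update_of_ne h]
    rw [mul_sub, mul_inv_cancel₀ h, add_sub_cancel]
  have gc : ContinuousAt g 0 :=
    continuousAt_const.add (continuousAt_id.mul (continuousAt_update_same.2 (hc.comp hi)))
  have ga : AnalyticAt ℂ g 0 := by
    refine analyticAt_of_differentiable_on_punctured_nhds_of_continuousAt ?_ gc
    filter_upwards [hi.eventually hK.compl_mem_cocompact, self_mem_nhdsWithin] with ζ h1 h2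
    have h3 : DifferentiableAt ℂ (fun ζ : ℂ => ζ * f ζ⁻¹) ζ :=
      differentiableAt_id.mul ((hf.differentiableAt (hK.isClosed.isOpen_compl.mem_nhds h1)).comp ζ
        (differentiableAt_inv h2))
    exact h3.congr_of_eventuallyEq (eventually_of_mem (isOpen_ne.mem_nhds h2) g1)
  have gn : g 0 ≠ 0 := by rw [g0]; exact one_ne_zero
  refine ⟨fun ζ => ζ / g ζ, analyticAt_id.div ga gn, ?_⟩
  filter_upwards [gc.eventually_ne gn] with ζ h
  by_cases h0 : ζ = 0
  · simp [chart, h0]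
  · have h1 : ζ / g ζ ≠ 0 := div_ne_zero h0 h
    simp only [chart, Bool.false_eq_true, if_false, if_neg h0, if_neg h1, OnePoint.map_some]
    rw [inv_div, g1 ζ h0, mul_div_cancel_left₀ _ h0]

end KoSphA

theorem sphA_pf (hProp : S_Prop) : S_SphA := by
  rintro K f hK hc ⟨hf, hi, ⟨c, ht⟩, hd⟩
  have hK' := (hProp K f c hK hf hi ht).2.1
  refine ⟨((fun z : ℂ => (z : OnePoint ℂ)) '' (f '' Kᶜ)ᶜ)ᶜ, OnePoint.map f,
    ⟨KoSphA.dom hK' (by rw [compl_compl]; exact hc.image f hf.continuousOn), fun p hp => ?_⟩, ?_,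
    fun _ => rfl, KoSphA.at_infty hK hf ht⟩
  · rw [compl_compl] at hp ⊢
    obtain ⟨w, hw, rfl⟩ := hp
    obtain ⟨a, r, hr, e⟩ := hd w hw
    rw [KoSphA.comp_coe _ hw]
    rcases hr.eq_or_lt with rfl | hr
    · left
      have := mem_connectedComponentIn hw
      rw [e, closedBall_zero] at this ⊢
      rw [image_singleton, mem_singleton_iff.1 this]
    · right
      rw [e]
      exact KoSphA.round hr
  · rw [OnePoint.compl_image_coe, OnePoint.compl_image_coe, compl_compl]
    refine ⟨?_, ?_, ?_⟩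
    · rintro _ (⟨z, hz, rfl⟩ | rfl)
      · exact Or.inl ⟨f z, ⟨z, hz, rfl⟩, rfl⟩
      · exact Or.inr rfl
    · rintro _ (⟨z, hz, rfl⟩ | rfl) _ (⟨w, hw, rfl⟩ | rfl) h
      · exact congrArg _ (hi hz hw (OnePoint.coe_injective h))
      · exact absurd h (OnePoint.coe_ne_infty _)
      · exact absurd h (OnePoint.infty_ne_coe _)
      · rfl
    · rintro _ (⟨_, ⟨z, hz, rfl⟩, rfl⟩ | rfl)
      · exact ⟨_, Or.inl ⟨z, hz, rfl⟩, rfl⟩
      · exact ⟨_, Or.inr rfl, rfl⟩

end Vale.Agent.P116
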