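import Vale.Agent.P116.KoBase

open Set Filter Topology MeasureTheory Metric Complex
open scoped Real

noncomputable section
namespace Vale.Agent.P116

namespace KoSphB

open OnePoint

theorem punct_aux {X : Type} [TopologicalSpace X] [T1Space X] {G V u v : Set X} {p : X}
    (hc : IsPreconnected G) (hV : IsOpen V) (hp : p ∈ V) (hu : IsOpen u) (hv : IsOpen v)
    (h1 : G \ {p} ⊆ u ∪ v) (h2 : G \ {p} ∩ (u ∩ v) = ∅) (h3 : V \ {p} ⊆ u) :
    G \ {p} ⊆ u ∨ G \ {p} ⊆ v := by
  have := isPreconnected_iff_subset_of_disjoint.1 hc (u ∪ V) (v \ {p}) (hu.union hV)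
    (hv.sdiff isClosed_singleton) (fun x hx => by
      by_cases e : x = p
      · exact Or.inl (Or.inr (e ▸ hp))
      · exact (h1 ⟨hx, e⟩).elim (fun h => Or.inl (Or.inl h)) fun h => Or.inr ⟨h, e⟩)
    (eq_empty_of_forall_notMem fun x hx => eq_empty_iff_forall_notMem.1 h2 x
      ⟨⟨hx.1, hx.2.2.2⟩, hx.2.1.elim id fun h => h3 ⟨h, hx.2.2.2⟩, hx.2.2.1⟩)
  exact this.imp (fun h x hx => (h hx.1).elim id fun h' => h3 ⟨h', hx.2⟩)
    fun h x hx => (h hx.1).1

theorem punct {X : Type} [TopologicalSpace X] [T1Space X] {G V : Set X} {p : X}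
    (hc : IsPreconnected G) (hV : IsOpen V) (hp : p ∈ V) (hVG : V ⊆ G)
    (hVc : IsPreconnected (V \ {p})) : IsPreconnected (G \ {p}) := by
  refine isPreconnected_iff_subset_of_disjoint.2 fun u v hu hv h1 h2 => ?_
  have hs : V \ {p} ⊆ G \ {p} := sdiff_subset_sdiff_left hVG
  rcases isPreconnected_iff_subset_of_disjoint.1 hVc u v hu hv (hs.trans h1)
    (subset_eq_empty (inter_subset_inter_left _ hs) h2) with h | h
  · exact punct_aux hc hV hp hu hv h1 h2 h
  · exact (punct_aux hc hV hp hv hu (union_comm u v ▸ h1) (inter_comm u v ▸ h2) h).symm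

theorem ann {J : Set ℝ} (hJ : IsPreconnected J) (h0 : ∀ r ∈ J, 0 ≤ r) (c : ℂ) :
    IsPreconnected {z : ℂ | ‖z - c‖ ∈ J} := by
  have e : {z : ℂ | ‖z - c‖ ∈ J} =
      (fun q : ℝ × ℝ => c + q.1 * exp (q.2 * I)) '' (J ×ˢ univ) := by
    ext z
    constructor
    · intro hz
      refine ⟨(‖z - c‖, arg (z - c)), ⟨hz, trivial⟩, ?_⟩
      show c + (‖z - c‖ : ℝ) * exp (arg (z - c) * I) = z
      rw [norm_mul_exp_arg_mul_I, add_sub_cancel]
    · rintro ⟨q, hq, rfl⟩
      show ‖c + q.1 * exp (q.2 * I) - c‖ ∈ J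
      rw [add_sub_cancel_left, norm_mul, norm_exp_ofReal_mul_I, mul_one, norm_real,
        Real.norm_of_nonneg (h0 _ hq.1)]
      exact hq.1
  rw [e]
  exact (hJ.prod isPreconnected_univ).image _ (by fun_prop)

theorem chart_true (z : ℂ) : chart true z = (z : OnePoint ℂ) := if_pos rfl

theorem chart_zero : chart false 0 = ∞ := by simp [chart]

theorem chart_ne {z : ℂ} (h : z ≠ 0) : chart false z = ((z⁻¹ : ℂ) : OnePoint ℂ) := by
  simp [chart, h]

theorem chart_inj {z w : ℂ} (h : chart false z = chart false w) : z = w := by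
  by_cases hz : z = 0 <;> by_cases hw : w = 0
  · rw [hz, hw]
  · rw [hz, chart_zero, chart_ne hw] at h
    exact absurd h (infty_ne_coe _)
  · rw [hw, chart_zero, chart_ne hz] at h
    exact absurd h (coe_ne_infty _)
  · rw [chart_ne hz, chart_ne hw, coe_eq_coe] at h
    exact inv_injective h

theorem case_inf (hA : S_SphA) (hP : Planar) {G : Set (OnePoint ℂ)} (hG : IsDomain G)
    (hi : ∞ ∈ G) : ∃ (Ω : Set (OnePoint ℂ)) (f : OnePoint ℂ → OnePoint ℂ),
      IsCircleDomain Ω ∧ BijOn f G Ω ∧ HolOn f G := by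
  obtain ⟨K, hK⟩ : ∃ K : Set ℂ, K = ((↑) ⁻¹' G)ᶜ := ⟨_, rfl⟩
  have mem : ∀ z : ℂ, z ∉ K ↔ (z : OnePoint ℂ) ∈ G := fun z => by rw [hK]; exact not_not
  have hc : IsCompact K := hK ▸ ((isOpen_iff_of_mem hi).1 hG.1).2
  obtain ⟨R, hR0, hR⟩ := hc.isBounded.subset_closedBall_lt 0 (0 : ℂ)
  have e1 : ((fun z : ℂ => (z : OnePoint ℂ)) '' K)ᶜ = G := by
    ext p
    induction p using OnePoint.rec with
    | infty => exact iff_of_true infty_notMem_image_coe hi
    | coe z => rw [mem_compl_iff, coe_injective.mem_set_image, mem]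
  have e2 : (fun z : ℂ => (z : OnePoint ℂ)) '' Kᶜ = G \ {∞} := by
    ext p
    induction p using OnePoint.rec with
    | infty => exact iff_of_false infty_notMem_image_coe fun h => h.2 rfl
    | coe z =>
      rw [coe_injective.mem_set_image, mem_compl_iff, mem]
      exact ⟨fun h => ⟨h, coe_ne_infty z⟩, fun h => h.1⟩
  have e3 : ((fun z : ℂ => (z : OnePoint ℂ)) '' closedBall 0 R)ᶜ \ {∞} =
      (fun z : ℂ => (z : OnePoint ℂ)) '' {z : ℂ | ‖z - 0‖ ∈ Ioi R} := by
    ext p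
    induction p using OnePoint.rec with
    | infty => exact iff_of_false (fun h => h.2 rfl) infty_notMem_image_coe
    | coe z => simp [coe_injective.mem_set_image]
  have hcon : IsPreconnected Kᶜ := by
    rw [← isOpenEmbedding_coe.isInducing.isPreconnected_image, e2]
    refine punct hG.2.2 (isOpen_compl_image_coe.2 ⟨isClosed_closedBall, isCompact_closedBall 0 R⟩)
      infty_notMem_image_coe ?_ ?_
    · rw [← e1]
      exact compl_subset_compl.2 (image_mono hR)
    · rw [e3]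
      exact (ann isPreconnected_Ioi (fun r hr => hR0.le.trans (le_of_lt hr)) 0).image _
        continuous_coe.continuousOn
  obtain ⟨f, hf⟩ := hP K hc hcon
  obtain ⟨Ω, F, h1, h2, h3, φ, h4, h5⟩ := hA K f hc hcon hf
  refine ⟨Ω, F, h1, e1 ▸ h2, fun p hp => ?_⟩
  induction p using OnePoint.rec with
  | infty => exact ⟨false, false, 0, φ, chart_zero, h4, h5⟩
  | coe z =>
    exact ⟨true, true, z, f, rfl,
      hf.1.analyticAt (hc.isClosed.isOpen_compl.mem_nhds ((mem z).2 hp)), .of_forall h3⟩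

theorem case_fin (hA : S_SphA) (hP : Planar) {G : Set (OnePoint ℂ)} (hG : IsDomain G)
    (hi : ∞ ∉ G) : ∃ (Ω : Set (OnePoint ℂ)) (f : OnePoint ℂ → OnePoint ℂ),
      IsCircleDomain Ω ∧ BijOn f G Ω ∧ HolOn f G := by
  have fin : ∀ p ∈ G, ∃ z : ℂ, p = z := fun p hp => by
    induction p using OnePoint.rec with
    | infty => exact absurd hp hi
    | coe z => exact ⟨z, rfl⟩
  obtain ⟨p₀, hp₀⟩ := hG.2.1
  obtain ⟨c, rfl⟩ := fin p₀ hp₀
  obtain ⟨U, hU⟩ : ∃ U : Set ℂ, U = (↑) ⁻¹' G := ⟨_, rfl⟩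
  have mem : ∀ z : ℂ, z ∈ U ↔ (z : OnePoint ℂ) ∈ G := fun z => by rw [hU]; rfl
  have oU : IsOpen U := hU ▸ hG.1.preimage continuous_coe
  have cU : IsPreconnected U := by
    rw [← isOpenEmbedding_coe.isInducing.isPreconnected_image, hU,
      image_preimage_eq_of_subset fun p hp => (fin p hp).imp fun _ h => h.symm]
    exact hG.2.2
  obtain ⟨r, hr, hb⟩ := Metric.isOpen_iff.1 oU c ((mem c).2 hp₀)
  have cU' : IsPreconnected (U \ {c}) := by
    refine punct cU isOpen_ball (mem_ball_self hr) hb ?_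
    have e : ball c r \ {c} = {z : ℂ | ‖z - c‖ ∈ Ioo 0 r} := by
      ext z
      simp [dist_eq_norm, sub_eq_zero, and_comm]
    rw [e]
    exact ann isPreconnected_Ioo (fun r hr => hr.1.le) c
  obtain ⟨K, hK⟩ : ∃ K : Set ℂ, K = ({0}ᶜ ∩ (fun w => c + w⁻¹) ⁻¹' U)ᶜ := ⟨_, rfl⟩
  have memK : ∀ w : ℂ, w ∉ K ↔ w ≠ 0 ∧ c + w⁻¹ ∈ U := fun w => by rw [hK]; exact not_not
  have memK' : ∀ z ∈ U, z ≠ c → (z - c)⁻¹ ∉ K := fun z hz h =>
    (memK _).2 ⟨inv_ne_zero (sub_ne_zero.2 h), by rwa [inv_inv, add_sub_cancel]⟩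
  have hcl : IsClosed K := by
    rw [hK, isClosed_compl_iff]
    exact (continuousOn_const.add continuousOn_inv₀).isOpen_inter_preimage isOpen_compl_singleton oU
  have hc : IsCompact K := by
    refine isCompact_of_isClosed_isBounded hcl
      ((isBounded_closedBall (x := (0 : ℂ)) (r := r⁻¹)).subset fun w hw => ?_)
    by_contra h
    rw [mem_closedBall_zero_iff, not_le] at h
    have h0 : 0 < ‖w‖ := (inv_pos.2 hr).trans h
    refine (memK w).2 ⟨norm_pos_iff.1 h0, hb ?_⟩ hw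
    rw [mem_ball, dist_eq_norm, add_sub_cancel_left, norm_inv]
    exact inv_lt_of_inv_lt₀ hr h
  have hcon : IsPreconnected Kᶜ := by
    have e : Kᶜ = (fun z => (z - c)⁻¹) '' (U \ {c}) := by
      ext w
      constructor
      · intro hw
        obtain ⟨h1, h2⟩ := (memK w).1 hw
        exact ⟨c + w⁻¹, ⟨h2, by simpa using h1⟩, by simp⟩
      · rintro ⟨z, hz, rfl⟩
        exact memK' z hz.1 hz.2
    rw [e]
    exact cU'.image _ ((continuousOn_id.sub continuousOn_const).inv₀ fun z hz =>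
      sub_ne_zero.2 hz.2)
  obtain ⟨f, hf⟩ := hP K hc hcon
  obtain ⟨Ω, F, h1, h2, h3, φ, h4, h5⟩ := hA K f hc hcon hf
  obtain ⟨M, hM⟩ : ∃ M : OnePoint ℂ → OnePoint ℂ, ∀ z : ℂ, M z = chart false (z - c) :=
    ⟨fun p => OnePoint.elim p ∞ fun z => chart false (z - c), fun _ => rfl⟩
  have bM : BijOn M G ((fun z : ℂ => (z : OnePoint ℂ)) '' K)ᶜ := by
    refine ⟨fun p hp => ?_, fun p hp q hq h => ?_, fun q hq => ?_⟩
    · obtain ⟨z, rfl⟩ := fin p hp
      rw [hM]
      by_cases h : z = c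
      · rw [h, sub_self, chart_zero]
        exact infty_notMem_image_coe
      · rw [chart_ne (sub_ne_zero.2 h), mem_compl_iff, coe_injective.mem_set_image]
        exact memK' z ((mem z).2 hp) h
    · obtain ⟨z, rfl⟩ := fin p hp
      obtain ⟨w, rfl⟩ := fin q hq
      rw [hM, hM] at h
      rw [sub_left_injective (chart_inj h)]
    · induction q using OnePoint.rec with
      | infty => exact ⟨c, hp₀, by rw [hM, sub_self, chart_zero]⟩
      | coe w =>
        rw [mem_compl_iff, coe_injective.mem_set_image, memK] at hq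
        exact ⟨(c + w⁻¹ : ℂ), (mem _).1 hq.2, by
          rw [hM, add_sub_cancel_left, chart_ne (inv_ne_zero hq.1), inv_inv]⟩
  refine ⟨Ω, F ∘ M, h1, h2.comp bM, fun p hp => ?_⟩
  obtain ⟨z, rfl⟩ := fin p hp
  have an : AnalyticAt ℂ (fun ζ => ζ - c) z := analyticAt_id.sub analyticAt_const
  by_cases h : z = c
  · subst h
    refine ⟨true, false, z, fun ζ => φ (ζ - z), rfl, h4.fun_comp_of_eq an (sub_self z), ?_⟩
    have t : Tendsto (fun ζ => ζ - z) (𝓝 z) (𝓝 0) := by simpa using an.continuousAt.tendsto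
    filter_upwards [t.eventually h5] with ζ hζ
    rw [chart_true, Function.comp_apply, hM, hζ]
  · refine ⟨true, true, z, fun ζ => f (ζ - c)⁻¹, rfl,
      (hf.1.analyticAt (hcl.isOpen_compl.mem_nhds (memK' z ((mem z).2 hp) h))).fun_comp_of_eq
        (an.fun_inv (sub_ne_zero.2 h)) rfl, ?_⟩
    filter_upwards [eventually_ne_nhds h] with ζ hζ
    rw [chart_true, chart_true, Function.comp_apply, hM, chart_ne (sub_ne_zero.2 hζ), h3]

end KoSphB

theorem sphB_pf (hSphA : S_SphA) : Planar → Koebe := fun hP G hG =>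
  (em (OnePoint.infty ∈ G)).elim (KoSphB.case_inf hSphA hP hG) (KoSphB.case_fin hSphA hP hG)

end Vale.Agent.P116
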