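import Vale.Agent.P116.KoBase

open Set Filter Topology MeasureTheory Metric Complex
open scoped ENNReal ComplexConjugate Real

noncomputable section
namespace Vale.Agent.P116

namespace KoVar

theorem normsq {μ : Measure ℂ} (u : Lp ℂ 2 μ) : ‖u‖ ^ 2 = ∫ z, ‖u z‖ ^ 2 ∂μ := by
  rw [← real_inner_self_eq_norm_sq, L2.inner_def]
  simp only [real_inner_self_eq_norm_sq]

theorem int_mul {μ : Measure ℂ} (u : Lp ℂ 2 μ) {g : ℂ → ℂ} (hg : MemLp g 2 μ) :
    Integrable (fun z => u z * conj (g z)) μ :=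
  (Lp.memLp u).integrable_mul hg.star

theorem inner_eq {μ : Measure ℂ} (u : Lp ℂ 2 μ) {g : ℂ → ℂ} (hg : MemLp g 2 μ) :
    inner ℝ u (hg.toLp g) = (∫ z, u z * conj (g z) ∂μ).re := by
  have h := integral_re (int_mul u hg)
  simp only [RCLike.re_to_complex] at h
  rw [L2.inner_def, ← h]
  refine integral_congr_ae ?_
  filter_upwards [hg.coeFn_toLp] with z hz
  rw [hz, Complex.inner]
  simp [mul_comm]

theorem one_le : (1 : WithTop ℕ∞) ≤ ((⊤ : ℕ∞) : WithTop ℕ∞) := by
  exact_mod_cast le_top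

theorem diff {H : ℂ → ℂ} (h : ContDiff ℝ (⊤ : ℕ∞) H) : Differentiable ℝ H :=
  (h.of_le one_le).differentiable one_ne_zero

variable {ι : Type}

/-- the space of admissible maps -/
def V (a b s : ι → ℝ) : Submodule ℝ (ℂ → ℂ) where
  carrier := {H | KAdm a b s H}
  add_mem' := by
    rintro H H' ⟨h1, h2, h3⟩ ⟨g1, g2, g3⟩
    refine ⟨h1.add g1, h2.add g2, fun j z hz hz' => ?_⟩
    rw [fderiv_add (diff h1 z) (diff g1 z), ContinuousLinearMap.add_apply, h3 j z hz hz',
      g3 j z hz hz', add_zero]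
  zero_mem' := ⟨contDiff_const, HasCompactSupport.zero, fun j z _ _ => by simp⟩
  smul_mem' := by
    rintro c H ⟨h1, h2, h3⟩
    refine ⟨h1.const_smul c, h2.mono fun z hz h => hz (by simp [h]), fun j z hz hz' => ?_⟩
    rw [fderiv_const_smul (diff h1 z), ContinuousLinearMap.smul_apply, h3 j z hz hz', smul_zero]

theorem dz_add' {H H' : ℂ → ℂ} (h : Differentiable ℝ H) (h' : Differentiable ℝ H') :
    dz (H + H') = dz H + dz H' := by
  funext z
  exact dz_add (h z) (h' z)

theorem dz_smul {H : ℂ → ℂ} (h : Differentiable ℝ H) (c : ℝ) : dz (c • H) = c • dz H := by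
  funext z
  simp only [dz, fderiv_const_smul (h z), ContinuousLinearMap.smul_apply, Pi.smul_apply,
    real_smul]
  ring

theorem mem {a b s : ι → ℝ} (μ : Set ℂ) (H : V a b s) : MemLp (dz H.1) 2 (volume.restrict μ) :=
  ((continuous_dz (H.2.1.of_le one_le)).memLp_of_hasCompactSupport
    (hasCompactSupport_dz H.2.2.1)).restrict μ

theorem integ {a b s : ι → ℝ} (μ : Set ℂ) (H : V a b s) : IntegrableOn (dz H.1) μ :=
  ((continuous_dz (H.2.1.of_le one_le)).integrable_of_hasCompactSupport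
    (hasCompactSupport_dz H.2.2.1)).integrableOn

/-- the derivative as an element of the Hilbert space -/
def LL (a b s : ι → ℝ) (μ : Set ℂ) : V a b s →ₗ[ℝ] Lp ℂ 2 (volume.restrict μ) where
  toFun H := (mem μ H).toLp (dz H.1)
  map_add' H H' := by
    rw [← MemLp.toLp_add]
    exact MemLp.toLp_congr _ _ (EventuallyEq.of_eq (dz_add' (diff H.2.1) (diff H'.2.1)))
  map_smul' c H := by
    rw [RingHom.id_apply, ← MemLp.toLp_const_smul]
    exact MemLp.toLp_congr _ _ (EventuallyEq.of_eq (dz_smul (diff H.2.1) c))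

/-- the linear term -/
def ll (a b s : ι → ℝ) (μ : Set ℂ) : V a b s →ₗ[ℝ] ℝ where
  toFun H := (∫ z in μ, dz H.1 z).re
  map_add' H H' := by
    rw [← add_re, ← integral_add (integ μ H) (integ μ H'), Submodule.coe_add,
      dz_add' (diff H.2.1) (diff H'.2.1)]
    rfl
  map_smul' c H := by
    rw [Submodule.coe_smul, dz_smul (diff H.2.1) c]
    simp only [Pi.smul_apply, integral_smul, RingHom.id_apply, smul_re]

theorem circ {H : ℂ → ℂ} (h : ContDiff ℝ (⊤ : ℕ∞) H) (c : ℂ) (ρ : ℝ) :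
    ContDiff ℝ 1 fun t => H (circleMap c ρ t) :=
  (h.of_le one_le).comp (contDiff_circleMap c ρ)

theorem len_add {H H' : ℂ → ℂ} (h : ContDiff ℝ (⊤ : ℕ∞) H) (h' : ContDiff ℝ (⊤ : ℕ∞) H') (c : ℂ)
    (ρ : ℝ) : len (H + H') c ρ ≤ len H c ρ + len H' c ρ := by
  have c1 := (circ h c ρ).continuous_deriv le_rfl
  have c2 := (circ h' c ρ).continuous_deriv le_rfl
  have c3 := (circ (h.add h') c ρ).continuous_deriv le_rfl
  unfold len
  rw [← intervalIntegral.integral_add (c1.norm.intervalIntegrable _ _)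
    (c2.norm.intervalIntegrable _ _)]
  refine intervalIntegral.integral_mono_on (by positivity) (c3.norm.intervalIntegrable _ _)
    ((c1.norm.add c2.norm).intervalIntegrable _ _) fun t _ => ?_
  have := deriv_fun_add ((circ h c ρ).differentiable one_ne_zero t)
    ((circ h' c ρ).differentiable one_ne_zero t)
  simp only [Pi.add_apply]
  rw [this]
  exact norm_add_le _ _

theorem len_smul {H : ℂ → ℂ} (h : ContDiff ℝ (⊤ : ℕ∞) H) (c : ℂ) (ρ t : ℝ) :
    len (t • H) c ρ = ‖t‖ * len H c ρ := by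
  unfold len
  rw [← intervalIntegral.integral_const_mul]
  refine intervalIntegral.integral_congr fun θ _ => ?_
  have := deriv_fun_const_smul t ((circ h c ρ).differentiable one_ne_zero θ)
  simp only [Pi.smul_apply]
  rw [this, norm_smul]

/-- the length seminorms -/
def pp (a b s : ι → ℝ) (j : ι) : Seminorm ℝ (V a b s) :=
  Seminorm.of (fun H => len H.1 (cen (a j) (b j) (s j)) (s j / 4) / (2 * π))
    (fun H H' => by
      rw [← add_div]
      exact div_le_div_of_nonneg_right (len_add H.2.1 H'.2.1 _ _) (by positivity))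
    (fun t H => by rw [Submodule.coe_smul, len_smul H.2.1, mul_div_assoc])

theorem pp_apply (a b s : ι → ℝ) (j : ι) (H : V a b s) :
    pp a b s j H = len H.1 (cen (a j) (b j) (s j)) (s j / 4) / (2 * π) := rfl

end KoVar

open KoVar in
theorem var_pf (hMin : S_Min) (hEnergy : S_Energy) : S_Var := by
  intro ι _ a b s R χ hC hχ
  have hph : MemLp (fun z => -ph χ z) 2 (volume.restrict (KK a b s)ᶜ) :=
    ((hχ.continuous_ph.memLp_of_hasCompactSupport hχ.supp_ph).restrict _).neg
  have hπ := Real.pi_pos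
  obtain ⟨u, r, h0, h1, h2⟩ := hMin (V a b s) _ ι (LL a b s (KK a b s)ᶜ) (hph.toLp _)
    (ll a b s (KK a b s)ᶜ) (pp a b s) (-volume.real (KK a b s)) fun H => by
      have e1 : ‖LL a b s (KK a b s)ᶜ H + hph.toLp _‖ ^ 2 =
          ∫ z in (KK a b s)ᶜ, ‖dz H.1 z - ph χ z‖ ^ 2 := by
        rw [normsq]
        refine integral_congr_ae ?_
        filter_upwards [Lp.coeFn_add (LL a b s (KK a b s)ᶜ H) (hph.toLp _), hph.coeFn_toLp,
          (mem (KK a b s)ᶜ H).coeFn_toLp] with z z1 z2 z3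
        have z4 : LL a b s (KK a b s)ᶜ H z = dz H.1 z := z3
        rw [z1, Pi.add_apply, z2, z4, ← sub_eq_add_neg]
      have e2 : π * ∑ j, pp a b s j H ^ 2 =
          1 / (4 * π) * ∑ j, len H.1 (cen (a j) (b j) (s j)) (s j / 4) ^ 2 := by
        rw [Finset.mul_sum, Finset.mul_sum]
        refine Finset.sum_congr rfl fun j _ => ?_
        rw [pp_apply]
        field_simp
        ring
      rw [e1, e2]
      exact hEnergy ι a b s R χ H.1 hC hχ H.2
  refine ⟨u, r, Lp.memLp u, h0, fun H hH => ?_, ?_⟩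
  · have h3 := h1 ⟨H, hH⟩
    have e1 : inner ℝ u (LL a b s (KK a b s)ᶜ ⟨H, hH⟩) =
        (∫ z in (KK a b s)ᶜ, u z * conj (dz H z)).re := inner_eq u (mem (KK a b s)ᶜ ⟨H, hH⟩)
    have e2 : ll a b s (KK a b s)ᶜ ⟨H, hH⟩ = (∫ z in (KK a b s)ᶜ, conj (dz H z)).re := by
      rw [integral_conj, conj_re]
      rfl
    have e3 : π * ∑ j, r j * pp a b s j ⟨H, hH⟩ =
        1 / 2 * ∑ j, r j * len H (cen (a j) (b j) (s j)) (s j / 4) := by
      rw [Finset.mul_sum, Finset.mul_sum]
      refine Finset.sum_congr rfl fun j _ => ?_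
      rw [pp_apply]
      field_simp
    have i1 : Integrable (fun z => conj (dz H z)) (volume.restrict (KK a b s)ᶜ) :=
      (conjCLE : ℂ →L[ℝ] ℂ).integrable_comp (integ (KK a b s)ᶜ ⟨H, hH⟩)
    have i2 : Integrable (fun z => u z * conj (dz H z)) (volume.restrict (KK a b s)ᶜ) :=
      int_mul u (mem (KK a b s)ᶜ ⟨H, hH⟩)
    simp only [add_mul, one_mul]
    rw [integral_add i1 i2, add_re]
    rw [e1, e2, e3] at h3
    linarith
  · rw [inner_eq u hph, normsq] at h2
    simp only [map_neg, mul_neg, integral_neg, neg_re] at h2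
    linarith

end Vale.Agent.P116
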