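import Vale.Agent.P116.KoBase
import Vale.Agent.P271.HWeyl

open Set Filter Topology MeasureTheory Metric Complex
open scoped ENNReal ComplexConjugate Real

noncomputable section
namespace Vale.Agent.P116

theorem weyl_pf : S_Weyl := by
  intro U g hU hg h
  refine Fuj.weyl hU hg fun ζ hζ ξ => ?_
  have e : ∀ z, Fuj.dzr ζ z ξ = ξ * dz (fun y => (ζ y : ℂ)) z := fun z => by
    rw [Fuj.dzr, Fuj.dz, fderiv_eq_dz_db, fderiv_eq_dz_db]
    simp only [smul_eq_mul, map_mul, conj_I]
    linear_combination (-(dz (fun y => (ζ y : ℂ)) z * ξ) / 2 +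
      db (fun y => (ζ y : ℂ)) z * conj ξ / 2) * I_mul_I
  have hs : tsupport (fun y => (ζ y : ℂ)) ⊆ tsupport ζ :=
    closure_mono fun y hy h0 => hy (by simp [h0])
  have := h (fun y => (ζ y : ℂ)) (contDiff_ofReal hζ.1)
    (hζ.2.1.of_isClosed_subset (isClosed_tsupport _) hs) (hs.trans hζ.2.2)
  calc ∫ z in U, conj (Fuj.dzr ζ z ξ) * g z
      = ∫ z in U, conj ξ * (g z * conj (dz (fun y => (ζ y : ℂ)) z)) := by
        refine integral_congr_ae (Eventually.of_forall fun z => ?_)
        simp only [e, map_mul]; ring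
    _ = 0 := by rw [integral_const_mul, this, mul_zero]

end Vale.Agent.P116
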