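import Vale.Agent.P116.AStm

/-! Step A, part R (isotropy from the disc model): statements. -/

open Set Filter Topology MeasureTheory Metric Complex
open scoped ENNReal NNReal

noncomputable section
namespace Vale.Agent.P116

/-- Nonvanishing holomorphic functions on `W` have square roots. -/
def SqrtP (W : Set ℂ) : Prop :=
  ∀ g : ℂ → ℂ, DifferentiableOn ℂ g W → (∀ z ∈ W, g z ≠ 0) →
    ∃ h : ℂ → ℂ, ContinuousOn h W ∧ ∀ z ∈ W, h z ^ 2 = g z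

/-- A conformal chart of a cell. -/
structure Chart (K W : Set ℂ) (R : ℝ) (H G : ℂ → ℂ) : Prop where
  cpt : IsCompact K
  op : IsOpen W
  bdd : Bornology.IsBounded W
  fr : Disjoint (frontier W) K
  one : 1 < R
  hH : DifferentiableOn ℂ H W
  hG : DifferentiableOn ℂ G (ball 0 R)
  mH : MapsTo H W (ball 0 R)
  mG : MapsTo G (ball 0 R) W
  gh : ∀ z ∈ W, G (H z) = z
  hg : ∀ w ∈ ball (0 : ℂ) R, H (G w) = w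
  sub : H '' (K ∩ W) ⊆ ball 0 1
  cpt' : IsCompact (H '' (K ∩ W))

/-- The correspondence of components. -/
structure Corr (K W : Set ℂ) (H : ℂ → ℂ) (e : Cmp (H '' (K ∩ W)) → Cmp K) : Prop where
  inj : Function.Injective e
  sub : ∀ q, (e q).1 ⊆ W
  img : ∀ q, H '' (e q).1 = q.1
  sur : ∀ p : Cmp K, p.1 ⊆ W → ∃ q, e q = p
  sm : ∀ s t : Cmp K → ℝ, sm (K ∩ W) s t = sm (H '' (K ∩ W)) (s ∘ e) (t ∘ e)
  pull : ∀ s : Cmp K → ℝ, Sq s → Sq (s ∘ e)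
  push : ∀ s : Cmp (H '' (K ∩ W)) → ℝ, Sq s → Sq (Function.extend e s 0)

/-- The local approximation property on a cell. -/
def LocA (C₀ : ℝ) (K W : Set ℂ) (ψ : ℂ → ℝ) (τ : Cmp K → ℝ) : Prop :=
  ∀ ε > 0, ∃ (φ : ℂ → ℝ) (s : Cmp K → ℝ) (C : Set ℂ), IsCompact C ∧ C ⊆ W ∧
    LocallyLipschitzOn (W \ K) φ ∧ (∀ z ∉ C, φ z = ψ z) ∧
    IntegrableOn (fun z => ‖gr φ z‖ ^ 2) (W \ K) ∧ en (W \ K) φ ≤ C₀ * en (W \ K) ψ + ε ∧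
    Sq s ∧ sm (K ∩ W) (s - τ) (s - τ) ≤ ε ∧ ∀ p : Cmp K, p.1 ⊆ W → Osc K p.1 φ (s p)

def S_Rsq : Prop :=
  ∀ W : Set ℂ, IsOpen W → Bornology.IsBounded W → IsPreconnected W → IsPreconnected Wᶜ → SqrtP W

def S_Rrm : Prop :=
  ∀ W : Set ℂ, IsOpen W → Bornology.IsBounded W → IsConnected W → SqrtP W →
    ∃ h : ℂ → ℂ, DifferentiableOn ℂ h W ∧ InjOn h W ∧ h '' W = ball 0 1

def S_Rch : Prop :=
  ∀ (K W : Set ℂ) (h : ℂ → ℂ), IsCompact K → IsOpen W → Bornology.IsBounded W →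
    Disjoint (frontier W) K → DifferentiableOn ℂ h W → InjOn h W → h '' W = ball 0 1 →
    ∃ R H G, Chart K W R H G

def S_Rcmp : Prop :=
  ∀ (K W : Set ℂ) (R : ℝ) (H G : ℂ → ℂ), Chart K W R H G → ∃ e, Corr K W H e

/-- Transport along a chart. -/
structure S_Rtr : Prop where
  lip : ∀ (K W : Set ℂ) (R : ℝ) (H G : ℂ → ℂ) (a : ℂ → ℝ), Chart K W R H G →
    LocallyLipschitzOn (ball 0 R \ H '' (K ∩ W)) a →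
    LocallyLipschitzOn (W \ K) (fun z => a (H z))
  en : ∀ (K W : Set ℂ) (R : ℝ) (H G : ℂ → ℂ) (a a' : ℂ → ℝ), Chart K W R H G →
    LocallyLipschitzOn (ball 0 R \ H '' (K ∩ W)) a → (∀ z ∈ W, a' z = a (H z)) →
    (IntegrableOn (fun z => ‖gr a' z‖ ^ 2) (W \ K) ↔
      IntegrableOn (fun z => ‖gr a z‖ ^ 2) (ball 0 R \ H '' (K ∩ W))) ∧
    en (W \ K) a' = en (ball 0 R \ H '' (K ∩ W)) a
  wd : ∀ (K W : Set ℂ) (R : ℝ) (H G : ℂ → ℂ) (a a' b b' : ℂ → ℝ), Chart K W R H G →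
    LocallyLipschitzOn (ball 0 R \ H '' (K ∩ W)) a → (∀ z ∈ W, a' z = a (H z)) →
    LocallyLipschitzOn (ball 0 R \ H '' (K ∩ W)) b → (∀ z ∈ W, b' z = b (H z)) →
    ∫ z in W \ K, wd a' b' z = ∫ z in ball 0 R \ H '' (K ∩ W), wd a b z
  osc : ∀ (K W p : Set ℂ) (R : ℝ) (H G : ℂ → ℂ) (a a' : ℂ → ℝ) (t : ℝ), Chart K W R H G →
    p ⊆ W → (∀ z ∈ W, a' z = a (H z)) → Osc (H '' (K ∩ W)) (H '' p) a t → Osc K p a' t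
  c1 : ∀ (K W : Set ℂ) (R : ℝ) (H G : ℂ → ℂ) (ψ : ℂ → ℝ), Chart K W R H G →
    ContDiffOn ℝ 1 ψ Kᶜ → ContDiffOn ℝ 1 (fun w => ψ (G w)) (ball 0 R \ H '' (K ∩ W)) ∧
      LocallyLipschitzOn (ball 0 R \ H '' (K ∩ W)) (fun w => ψ (G w))

/-- Functions which vanish off a compact part of a cell. -/
def S_Rpat : Prop :=
  ∀ (K W C : Set ℂ) (a : ℂ → ℝ), IsClosed K → IsOpen W → IsCompact C → C ⊆ W →
    LocallyLipschitzOn (W \ K) a → (∀ z ∉ C, a z = 0) →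
    IntegrableOn (fun z => ‖gr a z‖ ^ 2) (W \ K) →
    Adm K a ∧ IntegrableOn (fun z => ‖gr a z‖ ^ 2) Kᶜ ∧ en Kᶜ a = en (W \ K) a ∧
      ∀ b : ℂ → ℝ, ∫ z in Kᶜ, wd a b z = ∫ z in W \ K, wd a b z

/-- The dual condition in the chart. -/
def S_Rtest : Prop :=
  ∀ (K T W : Set ℂ) (R : ℝ) (H G : ℂ → ℂ) (e : Cmp (H '' (K ∩ W)) → Cmp K) (ψ : ℂ → ℝ)
    (τ : Cmp K → ℝ), Chart K W R H G → Corr K W H e → Clo K T → W ∩ K ⊆ T →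
    ContDiffOn ℝ 1 ψ Kᶜ → Star K T ψ τ →
    ∀ θ s, Good (H '' (K ∩ W)) (H '' (K ∩ W)) θ s → tsupport θ ⊆ ball 0 R →
      |∫ z in ball 0 R \ H '' (K ∩ W), wd θ (fun w => ψ (G w)) z| ≤ sm (H '' (K ∩ W)) s (τ ∘ e)

/-- One cell. -/
def S_Rloc : Prop :=
  ∃ C₀ : ℝ, 0 ≤ C₀ ∧ ∀ (K T W : Set ℂ) (R : ℝ) (H G : ℂ → ℂ) (ψ : ℂ → ℝ) (τ : Cmp K → ℝ),
    Chart K W R H G → Clo K T → W ∩ K ⊆ T → ContDiffOn ℝ 1 ψ Kᶜ → Star K T ψ τ →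
    LocA C₀ K W ψ τ

/-- Gluing over finitely many disjoint cells. -/
def S_Rglue : Prop :=
  ∀ (C₀ : ℝ) (K T : Set ℂ) (ψ : ℂ → ℝ) (τ : Cmp K → ℝ) (𝒲 : Finset (Set ℂ)) (δ ε : ℝ),
    0 ≤ C₀ → IsCompact K → Clo K T → Adm K ψ → Sq τ → δ ≤ ε → 0 < ε →
    (∀ W ∈ 𝒲, IsOpen W ∧ Disjoint (frontier W) K ∧ W ∩ K ⊆ T ∧ W ⊆ thickening δ K ∧
      LocA C₀ K W ψ τ) →
    (∀ W ∈ 𝒲, ∀ W' ∈ 𝒲, W ≠ W' → Disjoint W W') → T ⊆ ⋃ W ∈ 𝒲, W →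
    4 * (C₀ + 1) * en (thickening δ K \ K) ψ ≤ ε → ∃ φ s, Apx K T ψ τ ε φ s

theorem s_iso_of (L : Lib) (h1 : S_Rsq) (h2 : S_Rrm) (h3 : S_Rch) (h4 : S_Rloc)
    (h5 : S_Rglue) : S_iso := by
  intro K T ψ τ hK hT hψ hS
  obtain ⟨C₀, hC, h4⟩ := h4
  refine ⟨hS.1, hS.2.1, fun ε hε => ?_⟩
  have t1 := (L.adm.small K ψ hK.cpt hS.1).const_mul (4 * (C₀ + 1))
  rw [mul_zero] at t1
  obtain ⟨δ, ⟨d1, d2⟩, d3⟩ := (((t1.eventually (ge_mem_nhds hε)).and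
    (nhdsWithin_le_nhds (ge_mem_nhds hε))).and self_mem_nhdsWithin).exists
  obtain ⟨𝒲, w1, w2, w3⟩ := L.fill K T δ hK hT d3
  refine h5 C₀ K T ψ τ 𝒲 δ ε hC hK.cpt hT hS.1 hS.2.1 d2 hε (fun W hW => ?_) w2 w3 d1
  obtain ⟨a1, a2, a3, a4, a5, a6, a7⟩ := w1 W hW
  obtain ⟨h, b1, b2, b3⟩ := h2 W a1 a2 a3 (h1 W a1 a2 a3.isPreconnected a4)
  obtain ⟨R, H, G, hc⟩ := h3 K W h hK.cpt a1 a2 a5 b1 b2 b3
  exact ⟨a1, a5, a6, a7, h4 K T W R H G ψ τ hc hT a6 hψ hS⟩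

end Vale.Agent.P116
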