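import Vale.Agent.P116.RStm

/-! Step A, part R: charts. -/

open Set Filter Topology MeasureTheory Metric Complex
open scoped ENNReal NNReal

noncomputable section
namespace Vale.Agent.P116

theorem s_Rch (L : Lib) : S_Rch := by
  intro K W h hK hW hb hf hd hi him
  have hc : IsCompact (K ∩ W) :=
    hK.of_isClosed_subset (L.cmp.clo_open K W hK.isClosed hW hf).2.1 inter_subset_left
  have hc' : IsCompact (h '' (K ∩ W)) :=
    hc.image_of_continuousOn (hd.continuousOn.mono inter_subset_right)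
  have hs : h '' (K ∩ W) ⊆ ball 0 1 := him ▸ image_mono inter_subset_right
  obtain ⟨r, ⟨r0, r1⟩, r2⟩ := exists_pos_lt_subset_ball one_pos hc'.isClosed hs
  have rc : (r : ℂ) ≠ 0 := by exact_mod_cast r0.ne'
  have hn : ∀ w : ℂ, ‖w / (r : ℂ)‖ = ‖w‖ / r := fun w => by
    rw [norm_div, Complex.norm_real, Real.norm_of_nonneg r0.le]
  have hD : DifferentiableOn ℂ (fun z => h z / (r : ℂ)) W := hd.div_const _
  have hI : InjOn (fun z => h z / (r : ℂ)) W := fun a ha b hb hab =>
    hi ha hb ((div_left_inj' rc).1 hab)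
  have hM : MapsTo (fun z => h z / (r : ℂ)) W (ball 0 (1 / r)) := fun z hz => by
    have h1 : h z ∈ ball (0 : ℂ) 1 := him ▸ mem_image_of_mem h hz
    rw [mem_ball_zero_iff] at h1 ⊢
    rw [hn]
    exact div_lt_div_of_pos_right h1 r0
  have hS : SurjOn (fun z => h z / (r : ℂ)) W (ball 0 (1 / r)) := fun w hw => by
    have h1 : w * r ∈ ball (0 : ℂ) 1 := by
      rw [mem_ball_zero_iff] at hw ⊢
      rw [norm_mul, Complex.norm_real, Real.norm_of_nonneg r0.le]
      exact (lt_div_iff₀ r0).1 hw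
    rw [← him] at h1
    obtain ⟨z, hz, h2⟩ := h1
    refine ⟨z, hz, ?_⟩
    show h z / (r : ℂ) = w
    rw [h2, mul_div_cancel_right₀ _ rc]
  have hE : (fun z => h z / (r : ℂ)) '' W = ball 0 (1 / r) :=
    Subset.antisymm hM.image_subset hS
  refine ⟨1 / r, fun z => h z / (r : ℂ), Function.invFunOn (fun z => h z / (r : ℂ)) W, hK, hW, hb,
    hf, one_lt_one_div r0 r1, hD, hE ▸ (L.cov.inv W _ hW hD hI).2.2, hM, hS.mapsTo_invFunOn,
    fun z hz => hI.leftInvOn_invFunOn hz, fun w hw => hS.rightInvOn_invFunOn hw, ?_,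
    hc.image_of_continuousOn (hD.continuousOn.mono inter_subset_right)⟩
  rintro _ ⟨z, hz, rfl⟩
  have h1 := r2 (mem_image_of_mem h hz)
  rw [mem_ball_zero_iff] at h1 ⊢
  show ‖h z / (r : ℂ)‖ < 1
  rw [hn, div_lt_one r0]
  exact h1

end Vale.Agent.P116
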