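import Vale.Agent.P116.RStm

/-! Step A, part R: the correspondence of components along a chart. -/

open Set Filter Topology MeasureTheory Metric Complex
open scoped ENNReal NNReal

noncomputable section
namespace Vale.Agent.P116

theorem s_Rcmp (L : Lib) : S_Rcmp := by
  intro K W R H G hc
  have hb : H '' (K ∩ W) ⊆ ball 0 R := hc.sub.trans (ball_subset_ball hc.one.le)
  have hGq : ∀ q : Cmp (H '' (K ∩ W)), G '' q.1 ⊆ K ∩ W := by
    rintro q _ ⟨w, hw, rfl⟩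
    obtain ⟨z, hz, rfl⟩ := L.cmp.sub _ q hw
    rwa [hc.gh z hz.2]
  have hclo : Clo K (K ∩ W) := L.cmp.clo_open K W hc.cpt.isClosed hc.op hc.fr
  have hin : ∀ p : Cmp K, (p.1 ∩ W).Nonempty → p.1 ⊆ W := by
    rintro p ⟨z, hz, hzW⟩
    rcases L.cmp.dich K _ p hclo with h | h
    · exact h.trans inter_subset_right
    · exact absurd ⟨(h hz).1, hzW⟩ (h hz).2
  have hex : ∀ q : Cmp (H '' (K ∩ W)), ∃ p : Cmp K, G '' q.1 ⊆ p.1 := by
    intro q
    obtain ⟨w, hw⟩ := L.cmp.ne _ q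
    obtain ⟨p, hp⟩ := L.cmp.mem K (G w) (hGq q ⟨w, hw, rfl⟩).1
    exact ⟨p, L.cmp.max K p _ ((L.cmp.con _ q).image G
      (hc.hG.continuousOn.mono ((L.cmp.sub _ q).trans hb))) ((hGq q).trans inter_subset_left)
      ⟨G w, ⟨w, hw, rfl⟩, hp⟩⟩
  choose e he using hex
  have hsub : ∀ q, (e q).1 ⊆ W := by
    intro q
    obtain ⟨w, hw⟩ := L.cmp.ne _ q
    exact hin _ ⟨G w, he q ⟨w, hw, rfl⟩, (hGq q ⟨w, hw, rfl⟩).2⟩
  have h1 : ∀ q, q.1 ⊆ H '' (e q).1 := fun q w hw =>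
    ⟨G w, he q ⟨w, hw, rfl⟩, hc.hg w (hb (L.cmp.sub _ q hw))⟩
  have himg : ∀ q, H '' (e q).1 = q.1 := by
    intro q
    obtain ⟨w, hw⟩ := L.cmp.ne _ q
    exact Subset.antisymm (L.cmp.max _ q _ ((L.cmp.con _ (e q)).image H
      (hc.hH.continuousOn.mono (hsub q))) (image_mono (subset_inter (L.cmp.sub _ _) (hsub q)))
      ⟨w, h1 q hw, hw⟩) (h1 q)
  have hinj : Function.Injective e := fun q q' h =>
    Subtype.ext (by rw [← himg q, ← himg q', h])
  have hsur : ∀ p : Cmp K, p.1 ⊆ W → ∃ q, e q = p := by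
    intro p hp
    obtain ⟨z, hz⟩ := L.cmp.ne _ p
    obtain ⟨q, hq⟩ := L.cmp.mem (H '' (K ∩ W)) (H z) ⟨z, ⟨L.cmp.sub _ p hz, hp hz⟩, rfl⟩
    exact ⟨q, L.cmp.eq K _ _ ⟨z, he q ⟨H z, hq, hc.gh z (hp hz)⟩, hz⟩⟩
  refine ⟨e, hinj, hsub, himg, hsur, fun s t => ?_, fun s hs => ?_, fun s hs => ⟨fun p => ?_, ?_⟩⟩
  · classical
    unfold sm
    rw [← hinj.tsum_eq (f := fun p : Cmp K => if p.1 ⊆ K ∩ W then s p * t p else 0)]
    · refine tsum_congr fun q => ?_
      rw [if_pos (subset_inter (L.cmp.sub _ _) (hsub q)), if_pos (L.cmp.sub _ q)]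
      rfl
    · intro p hp
      by_cases h : p.1 ⊆ K ∩ W
      · exact hsur p (h.trans inter_subset_right)
      · exact absurd (if_neg h) hp
  · exact ⟨fun q => hs.1 _, hs.2.comp_injective hinj⟩
  · by_cases h : ∃ q, e q = p
    · obtain ⟨q, rfl⟩ := h
      rw [hinj.extend_apply]
      exact hs.1 q
    · rw [Function.extend_apply' _ _ _ h]
      exact le_rfl
  · refine (hinj.summable_iff fun p hp => ?_).1 ?_
    · rw [Function.extend_apply' _ _ _ hp]
      simp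
    · refine hs.2.congr fun q => ?_
      simp only [Function.comp_apply, hinj.extend_apply]

end Vale.Agent.P116
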