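import Vale.Agent.P116.RStm

/-! Step A, part R: gluing over the cells. -/

open Set Filter Topology MeasureTheory Metric Complex
open scoped ENNReal NNReal

noncomputable section
namespace Vale.Agent.P116

namespace RglueA

theorem gr_congr {a b : ℂ → ℝ} {z : ℂ} (h : a =ᶠ[𝓝 z] b) : gr a z = gr b z := by
  unfold gr
  rw [h.fderiv_eq]

theorem gr_zero (z : ℂ) : gr 0 z = 0 := by
  apply Complex.ext <;> simp [gr]

theorem gr_sum {ι : Type} (J : Finset ι) (e : ι → ℂ → ℝ) (C : ι → Set ℂ)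
    (hC : ∀ i ∈ J, IsClosed (C i)) (h0 : ∀ i ∈ J, ∀ z ∉ C i, e i z = 0)
    (hd : ∀ i ∈ J, ∀ j ∈ J, i ≠ j → Disjoint (C i) (C j)) (z : ℂ) :
    ‖gr (∑ i ∈ J, e i) z‖ ^ 2 = ∑ i ∈ J, ‖gr (e i) z‖ ^ 2 := by
  have ev : ∀ i ∈ J, z ∉ C i → e i =ᶠ[𝓝 z] 0 := fun i hi hz => by
    filter_upwards [(hC i hi).isOpen_compl.mem_nhds hz] with w hw using h0 i hi w hw
  have e0 : ∀ i ∈ J, z ∉ C i → ‖gr (e i) z‖ ^ 2 = 0 := fun i hi hz => by
    rw [gr_congr (ev i hi hz), gr_zero]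
    simp
  by_cases h : ∃ i ∈ J, z ∈ C i
  · obtain ⟨i, hi, hz⟩ := h
    have h1 : ∀ j ∈ J, j ≠ i → z ∉ C j := fun j hj hne hz' =>
      Set.disjoint_left.1 (hd j hj i hi hne) hz' hz
    have h2 : ∀ᶠ w in 𝓝 z, ∀ j ∈ J, j ≠ i → e j w = 0 := by
      rw [eventually_all_finset]
      intro j hj
      by_cases hne : j = i
      · exact Eventually.of_forall fun w h' => absurd hne h'
      · filter_upwards [ev j hj (h1 j hj hne)] with w hw _ using hw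
    have h3 : (∑ j ∈ J, e j) =ᶠ[𝓝 z] e i := by
      filter_upwards [h2] with w hw
      rw [Finset.sum_apply]
      exact Finset.sum_eq_single_of_mem i hi hw
    rw [gr_congr h3, Finset.sum_eq_single_of_mem i hi fun j hj hne => e0 j hj (h1 j hj hne)]
  · have h1 : ∀ j ∈ J, z ∉ C j := fun j hj hz => h ⟨j, hj, hz⟩
    have h2 : ∀ᶠ w in 𝓝 z, ∀ j ∈ J, e j w = 0 := by
      rw [eventually_all_finset]
      exact fun j hj => ev j hj (h1 j hj)
    have h3 : (∑ j ∈ J, e j) =ᶠ[𝓝 z] 0 := by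
      filter_upwards [h2] with w hw
      rw [Finset.sum_apply]
      exact Finset.sum_eq_zero hw
    rw [gr_congr h3, gr_zero, Finset.sum_eq_zero fun j hj => e0 j hj (h1 j hj)]
    simp

theorem adm_sum (L : Lib) {ι : Type} {K : Set ℂ} (hK : IsClosed K) (J : Finset ι)
    (e : ι → ℂ → ℝ) (h : ∀ i ∈ J, Adm K (e i)) : Adm K (∑ i ∈ J, e i) :=
  Finset.sum_induction e (Adm K) (fun a b => L.adm.add K a b hK)
    (L.adm.c1 K 0 hK contDiff_const) h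

theorem sq_sum (L : Lib) {ι : Type} {K : Set ℂ} (J : Finset ι) (s : ι → Cmp K → ℝ)
    (h : ∀ i ∈ J, Sq (s i)) : Sq (∑ i ∈ J, s i) :=
  Finset.sum_induction s Sq
    (fun a b ha hb => ⟨fun p => add_nonneg (ha.1 p) (hb.1 p), (L.sm.sqadd K a b ha.2 hb.2).1⟩)
    ⟨fun _ => le_rfl, by simp⟩ h

theorem en_nonneg (S : Set ℂ) (a : ℂ → ℝ) : 0 ≤ en S a :=
  integral_nonneg fun _ => sq_nonneg _

theorem two_sq {x y z : ℝ} (hx : 0 ≤ x) (hy : 0 ≤ y) (hz : 0 ≤ z) (h : √x ≤ √y + √z) :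
    x ≤ 2 * y + 2 * z := by
  have h1 := Real.sq_sqrt hx
  have h2 := Real.sq_sqrt hy
  have h3 := Real.sq_sqrt hz
  have h4 := pow_le_pow_left₀ (Real.sqrt_nonneg x) h 2
  nlinarith [sq_nonneg (√y - √z)]

end RglueA

open RglueA in
theorem s_Rglue (L : Lib) (h1 : S_Rpat) : S_Rglue := by
  classical
  intro C₀ K T ψ τ 𝒲 δ ε hC hK hT hψ hτ hδ hε hW hd hcov hen
  have hn : (0 : ℝ) < 4 * (𝒲.card + 1) := by positivity
  have hch : ∀ W : Set ℂ, ∃ (φ : ℂ → ℝ) (s : Cmp K → ℝ) (C : Set ℂ), W ∈ 𝒲 →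
      (IsCompact C ∧ C ⊆ W ∧ LocallyLipschitzOn (W \ K) φ ∧ (∀ z ∉ C, φ z = ψ z) ∧
      IntegrableOn (fun z => ‖gr φ z‖ ^ 2) (W \ K) ∧
      en (W \ K) φ ≤ C₀ * en (W \ K) ψ + ε / (4 * (𝒲.card + 1)) ∧ Sq s ∧
      sm (K ∩ W) (s - τ) (s - τ) ≤ ε / (4 * (𝒲.card + 1)) ∧
      ∀ p : Cmp K, p.1 ⊆ W → Osc K p.1 φ (s p)) := by
    intro W
    by_cases h : W ∈ 𝒲
    · obtain ⟨φ, s, C, hh⟩ := (hW W h).2.2.2.2 _ (div_pos hε hn)
      exact ⟨φ, s, C, fun _ => hh⟩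
    · exact ⟨0, 0, ∅, fun h' => absurd h' h⟩
  choose φ s C hh using hch
  have hε' : 𝒲.card * (ε / (4 * (𝒲.card + 1))) ≤ ε / 4 := by
    rw [← mul_div_assoc, div_le_div_iff₀ hn (by norm_num)]
    nlinarith
  generalize ε / (4 * (𝒲.card + 1)) = ε' at hh hε'
  obtain ⟨R, hR⟩ := (hK.isBounded.thickening (δ := δ)).subset_ball 0
  have iψ : IntegrableOn (fun z => ‖gr ψ z‖ ^ 2) (thickening δ K \ K) :=
    (hψ.2 R).mono_set (sdiff_subset_sdiff_left hR)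
  have iW : ∀ W ∈ 𝒲, IntegrableOn (fun z => ‖gr ψ z‖ ^ 2) (W \ K) := fun W h =>
    iψ.mono_set (sdiff_subset_sdiff_left (hW W h).2.2.2.1)
  have oW : ∀ W ∈ 𝒲, IsOpen (W \ K) := fun W h => (hW W h).1.sdiff hK.isClosed
  have z0 : ∀ W ∈ 𝒲, ∀ z ∉ C W, (φ W - ψ) z = 0 := fun W h z hz =>
    sub_eq_zero.2 ((hh W h).2.2.2.1 z hz)
  have key : ∀ W ∈ 𝒲, Adm K (φ W - ψ) ∧ IntegrableOn (fun z => ‖gr (φ W - ψ) z‖ ^ 2) Kᶜ ∧
      en Kᶜ (φ W - ψ) ≤ 2 * (C₀ + 1) * en (W \ K) ψ + 2 * ε' := by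
    intro W h
    obtain ⟨a1, a2, a3, -, a5, a6, -⟩ := hh W h
    have l1 : LocallyLipschitzOn (W \ K) ψ := hψ.1.mono fun z hz => hz.2
    obtain ⟨t1, t2⟩ := (L.adm.tri _ _ _ _ (oW W h) Subset.rfl (oW W h).measurableSet a3 l1 a5
      (iW W h)).2
    obtain ⟨b1, b2, b3, -⟩ := h1 K W (C W) (φ W - ψ) hK.isClosed (hW W h).1 a1 a2 (a3.sub l1)
      (z0 W h) t1
    have := two_sq (en_nonneg _ _) (en_nonneg _ _) (en_nonneg _ _) t2
    exact ⟨b1, b2, by linarith⟩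
  have cW : ∀ W ∈ 𝒲, Clo K (K ∩ W) := fun W h =>
    L.cmp.clo_open K W hK.isClosed (hW W h).1 (hW W h).2.1
  have uq : ∀ W ∈ 𝒲, ∀ W' ∈ 𝒲, ∀ z ∈ W, W' ≠ W → z ∉ W' := fun W h W' h' z hz hne hz' =>
    Set.disjoint_left.1 (hd W' h' W h hne) hz' hz
  have sv : ∀ W ∈ 𝒲, ∀ p : Cmp K, p.1 ⊆ W →
      (∑ V ∈ 𝒲, fun q : Cmp K => if q.1 ⊆ V then s V q else 0) p = s W p := by
    intro W h p hp
    obtain ⟨z, hz⟩ := L.cmp.ne K p
    rw [Finset.sum_apply, Finset.sum_eq_single_of_mem W h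
      fun V hV hne => if_neg fun h' => uq W h V hV z (hp hz) hne (h' hz), if_pos hp]
  have sq : Sq (∑ V ∈ 𝒲, fun q : Cmp K => if q.1 ⊆ V then s V q else 0) := by
    refine sq_sum L _ _ fun V hV => ?_
    obtain ⟨s1, s2⟩ := (hh V hV).2.2.2.2.2.2.1
    refine ⟨fun q => ?_, L.sm.sqle K _ _ s2 fun q => ?_⟩
    · show 0 ≤ if q.1 ⊆ V then s V q else 0
      split_ifs
      exacts [s1 q, le_rfl]
    · split_ifs
      · exact (abs_of_nonneg (s1 q)).le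
      · rw [abs_zero]
        exact s1 q
  refine ⟨ψ + ∑ W ∈ 𝒲, (φ W - ψ), ∑ V ∈ 𝒲, fun q : Cmp K => if q.1 ⊆ V then s V q else 0,
    ⟨L.adm.add K _ _ hK.isClosed hψ (adm_sum L hK.isClosed _ _ fun W h => (key W h).1), sq,
      fun p hp => ?_⟩, fun z hz => ?_, ?_, ?_⟩
  · obtain ⟨z, hz⟩ := L.cmp.ne K p
    obtain ⟨W, h, hzW⟩ := mem_iUnion₂.1 (hcov (hp hz))
    have hpW : p.1 ⊆ W := by
      rcases L.cmp.dich K _ p (cW W h) with h' | h'
      · exact h'.trans inter_subset_right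
      · exact absurd ⟨(h' hz).1, hzW⟩ (h' hz).2
    have hv : ∀ w ∈ W, (ψ + ∑ V ∈ 𝒲, (φ V - ψ)) w = φ W w := by
      intro w hw
      rw [Pi.add_apply, Finset.sum_apply, Finset.sum_eq_single_of_mem W h
        fun V hV hne => z0 V hV w fun h' => uq W h V hV w hw hne ((hh V hV).2.1 h')]
      simp
    rw [sv W h p hpW]
    intro η hη
    obtain ⟨U, u1, u2, u3⟩ := (hh W h).2.2.2.2.2.2.2.2 p hpW η hη
    refine ⟨U ∩ W, u1.inter (hW W h).1, subset_inter u2 hpW, fun a ha b hb => ?_⟩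
    rw [hv a ha.1.2, hv b hb.1.2]
    exact u3 a ⟨ha.1.1, ha.2⟩ b ⟨hb.1.1, hb.2⟩
  · rw [Pi.add_apply, Finset.sum_apply, Finset.sum_eq_zero fun V hV => z0 V hV z fun h' =>
      hz (thickening_mono hδ K ((hW V hV).2.2.2.1 ((hh V hV).2.1 h'))), add_zero]
  · rw [add_sub_cancel_left]
    have e1 : en Kᶜ (∑ W ∈ 𝒲, (φ W - ψ)) = ∑ W ∈ 𝒲, en Kᶜ (φ W - ψ) := by
      unfold en
      rw [← integral_finsetSum _ fun W h => (key W h).2.1]
      refine integral_congr_ae (Eventually.of_forall fun z => ?_)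
      exact gr_sum 𝒲 _ C (fun W h => (hh W h).1.isClosed) z0
        (fun W h V hV hne => (hd W h V hV hne).mono (hh W h).2.1 (hh V hV).2.1) z
    have e2 : ∑ W ∈ 𝒲, en (W \ K) ψ ≤ en (thickening δ K \ K) ψ := by
      unfold en
      rw [← integral_biUnion_finset 𝒲 (fun W h => (oW W h).measurableSet)
        (fun W h V hV hne => (hd W h V hV hne).mono sdiff_subset sdiff_subset) iW]
      refine setIntegral_mono_set iψ (Eventually.of_forall fun _ => sq_nonneg _)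
        (LE.le.eventuallyLE ?_)
      exact iUnion₂_subset fun W h => sdiff_subset_sdiff_left (hW W h).2.2.2.1
    have e3 := Finset.sum_le_sum fun W h => (key W h).2.2
    rw [Finset.sum_add_distrib, ← Finset.mul_sum, Finset.sum_const, nsmul_eq_mul] at e3
    have e4 := mul_le_mul_of_nonneg_left e2 (show 0 ≤ 2 * (C₀ + 1) by linarith)
    linarith
  · have hTe : T = ⋃ W ∈ 𝒲, K ∩ W := by
      refine Subset.antisymm (fun z hz => ?_) (iUnion₂_subset fun W h z hz => ?_)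
      · obtain ⟨W, h, hzW⟩ := mem_iUnion₂.1 (hcov hz)
        exact mem_iUnion₂.2 ⟨W, h, hT.1 hz, hzW⟩
      · exact (hW W h).2.2.1 ⟨hz.2, hz.1⟩
    have s2 := (L.sm.sqadd K _ _ sq.2 hτ.2).2
    rw [hTe, (L.sm.biUnion K _ 𝒲 (fun W => K ∩ W) _ _ hK.isClosed cW
      (fun W h V hV hne => (hd W h V hV hne).mono inter_subset_right inter_subset_right) s2 s2).2]
    refine (Finset.sum_le_sum (g := fun _ => ε') fun W h => ?_).trans ?_
    · refine le_of_eq_of_le ?_ (hh W h).2.2.2.2.2.2.2.1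
      unfold sm
      refine tsum_congr fun p => ?_
      split_ifs with hp
      · rw [Pi.sub_apply, Pi.sub_apply, sv W h p (hp.trans inter_subset_right)]
      · rfl
    · rw [Finset.sum_const, nsmul_eq_mul]
      linarith

end Vale.Agent.P116
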