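import Vale.Agent.P116.RStm

/-! Step A, part R: the local approximation property on one cell. -/

open Set Filter Topology MeasureTheory Metric Complex
open scoped ENNReal NNReal

noncomputable section
namespace Vale.Agent.P116

namespace RlocA

theorem lip_congr {S : Set ℂ} {a b : ℂ → ℝ} (h : LocallyLipschitzOn S a) (he : ∀ z ∈ S, b z = a z) :
    LocallyLipschitzOn S b := fun x hx => by
  obtain ⟨M, t, ht, hl⟩ := h hx
  refine ⟨M, t ∩ S, inter_mem ht self_mem_nhdsWithin, fun y hy z hz => ?_⟩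
  rw [he y hy.2, he z hz.2]
  exact hl hy.1 hz.1

end RlocA

open Classical in
theorem s_Rloc (L : Lib) (h0 : S_iso0) (h1 : S_Rcmp) (h2 : S_Rtr) (h3 : S_Rtest) : S_Rloc := by
  obtain ⟨C₀, hC, h0⟩ := h0
  refine ⟨C₀, hC, fun K T W R H G ψ τ hc hT hWT hψ hS ε hε => ?_⟩
  obtain ⟨e, he⟩ := h1 K W R H G hc
  obtain ⟨c1, c2⟩ := h2.c1 K W R H G ψ hc hψ
  obtain ⟨e1, e2⟩ := h2.en K W R H G (fun w => ψ (G w)) ψ hc c2 fun z hz => by rw [hc.gh z hz]
  obtain ⟨r, hr⟩ := hc.bdd.subset_ball 0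
  obtain ⟨ζ, s, z1, z2, z3, z4, z5, z6, z7⟩ := h0 (H '' (K ∩ W)) R (fun w => ψ (G w)) (τ ∘ e)
    hc.cpt' hc.sub hc.one c1 (e1.1 ((hS.1.2 r).mono_set (sdiff_subset_sdiff_left hr)))
    (he.pull τ hS.2.1) (h3 K T W R H G e ψ τ hc he hT hWT hψ hS) ε hε
  have hb : closedBall (0 : ℂ) 1 ⊆ ball 0 R := closedBall_subset_ball hc.one
  have hφ : ∀ z ∈ W, (fun z => if z ∈ W then ζ (H z) else ψ z) z = ζ (H z) := fun z hz => if_pos hz
  obtain ⟨e3, e4⟩ := h2.en K W R H G ζ _ hc z1 hφ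
  have hs : ∀ q, Function.extend e s 0 (e q) = s q := fun q => he.inj.extend_apply s 0 q
  refine ⟨fun z => if z ∈ W then ζ (H z) else ψ z, Function.extend e s 0, G '' closedBall 0 1,
    (isCompact_closedBall 0 1).image_of_continuousOn (hc.hG.continuousOn.mono hb),
    image_subset_iff.2 fun w hw => hc.mG (hb hw),
    RlocA.lip_congr (h2.lip K W R H G ζ hc z1) fun z hz => hφ z hz.1, fun z hz => ?_, e3.2 z3,
    by rw [e4, e2]; exact z4, he.push s z5, ?_, fun p hp => ?_⟩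
  · simp only
    split_ifs with hzW
    · have h4 : 1 ≤ ‖H z‖ := by
        by_contra hn
        exact hz ⟨H z, mem_closedBall_zero_iff.2 (not_le.1 hn).le, hc.gh z hzW⟩
      rw [z2 _ h4, hc.gh z hzW]
    · rfl
  · have h4 : (Function.extend e s 0 - τ) ∘ e = s - τ ∘ e := by
      funext q
      simp only [Function.comp_apply, Pi.sub_apply, hs]
    rw [he.sm, h4]
    exact z6
  · obtain ⟨q, rfl⟩ := he.sur p hp
    rw [hs]
    refine h2.osc K W _ R H G ζ _ _ hc hp hφ ?_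
    rw [he.img]
    exact z7 q

end Vale.Agent.P116
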