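import Vale.Agent.P116.RStm

/-! Functions which vanish off a compact part of a cell. -/

open Set Filter Topology MeasureTheory Metric Complex
open scoped ENNReal NNReal

noncomputable section
namespace Vale.Agent.P116

theorem s_Rpat (_L : Lib) : S_Rpat := by
  intro K W C a hK hW hC hCW hl h0 hi
  have hd : ∀ z ∉ C, fderiv ℝ a z = 0 := fun z hz => by
    have : a =ᶠ[𝓝 z] fun _ => 0 :=
      eventually_of_mem (hC.isClosed.isOpen_compl.mem_nhds hz) h0
    rw [this.fderiv_eq, fderiv_fun_const]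
    rfl
  have hout : ∀ z ∈ Kᶜ \ (W \ K), z ∉ C := fun z hz h => hz.2 ⟨hCW h, hz.1⟩
  have hg : ∀ z ∈ Kᶜ \ (W \ K), ‖gr a z‖ ^ 2 = 0 := fun z hz => by
    have : gr a z = 0 := by
      rw [gr, hd z (hout z hz)]
      rfl
    rw [this, norm_zero, zero_pow two_ne_zero]
  have hm : MeasurableSet Kᶜ := hK.isOpen_compl.measurableSet
  have hs : W \ K ⊆ Kᶜ := fun _ h => h.2
  have hI : IntegrableOn (fun z => ‖gr a z‖ ^ 2) Kᶜ := hi.of_forall_sdiff_eq_zero hm hg
  refine ⟨⟨fun z hz => ?_, fun R => hI.mono_set fun _ h => h.2⟩, hI,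
    setIntegral_eq_of_subset_of_forall_sdiff_eq_zero hm hs hg, fun b =>
    setIntegral_eq_of_subset_of_forall_sdiff_eq_zero hm hs fun z hz => ?_⟩
  · by_cases h : z ∈ W
    · obtain ⟨L, t, ht, hL⟩ := hl (⟨h, hz⟩ : z ∈ W \ K)
      rw [(hW.sdiff hK).nhdsWithin_eq ⟨h, hz⟩] at ht
      exact ⟨L, t, mem_nhdsWithin_of_mem_nhds ht, hL⟩
    · refine ⟨0, Cᶜ, mem_nhdsWithin_of_mem_nhds
        (hC.isClosed.isOpen_compl.mem_nhds fun h' => h (hCW h')), fun x hx y hy => ?_⟩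
      rw [h0 x hx, h0 y hy, edist_self]
      exact zero_le
  · simp [wd, hd z (hout z hz)]

end Vale.Agent.P116
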