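import Vale.Agent.P116.RStm

/-! Step A, part R: square roots on filled domains. -/

open Set Filter Topology MeasureTheory Metric Complex
open scoped ENNReal NNReal

noncomputable section
namespace Vale.Agent.P116

namespace RsqA

theorem supp (L : Lib) {W : Set ℂ} {χ : ℂ → ℝ} (hb : Bornology.IsBounded W)
    (hc : IsPreconnected Wᶜ) (h1 : ContDiff ℝ 2 χ) (h2 : HasCompactSupport χ)
    (h3 : tsupport (gr χ) ⊆ W) : tsupport χ ⊆ W := by
  have hO : ∀ t : Set ℝ, IsOpen ((tsupport (gr χ))ᶜ ∩ χ ⁻¹' t) :=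
    (isClosed_tsupport _).isOpen_compl.isOpen_inter_preimage_of_fderiv_eq_zero
      (h1.differentiable two_ne_zero).differentiableOn fun z hz => by
        have := L.adm.nrm χ z
        rw [image_eq_zero_of_notMem_tsupport hz, norm_zero] at this
        exact norm_eq_zero.1 this.symm
  obtain ⟨z, hz⟩ : ∃ z, z ∉ W ∪ tsupport χ := by
    by_contra h
    push Not at h
    exact NormedSpace.unbounded_univ ℝ ℂ ((hb.union h2.isBounded).subset fun z _ => h z)
  have h4 : Wᶜ ⊆ (tsupport (gr χ))ᶜ ∩ χ ⁻¹' {0} :=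
    hc.subset_left_of_subset_union (hO {0}) (hO {0}ᶜ)
      (disjoint_left.2 fun w h h' => h'.2 h.2)
      (fun w hw => (em (χ w = 0)).imp (fun h => ⟨fun h' => hw (h3 h'), h⟩)
        fun h => ⟨fun h' => hw (h3 h'), h⟩)
      ⟨z, fun h => hz (Or.inl h), fun h => hz (Or.inl (h3 h)),
        image_eq_zero_of_notMem_tsupport fun h => hz (Or.inr h)⟩
  have h5 : Function.support χ ⊆ ((tsupport (gr χ))ᶜ ∩ χ ⁻¹' {0})ᶜ := fun w hw h => hw h.2
  exact (closure_minimal h5 (hO {0}).isClosed_compl).trans (compl_subset_comm.1 h4)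

theorem intg {W K : Set ℂ} {u : ℂ → ℂ} {ψ : ℂ → ℝ} (hu : ContinuousOn u W) (hψ : Continuous ψ)
    (hK : IsCompact K) (hW : K ⊆ W) (h0 : ∀ z, z ∉ K → ψ z = 0) :
    Integrable fun z => u z * ψ z := by
  refine (integrableOn_iff_integrable_of_support_subset (s := K) fun z hz => ?_).1
    (((hu.mono hW).mul (continuous_ofReal.comp hψ).continuousOn).integrableOn_compact hK)
  by_contra h
  exact hz (by simp [h0 z h])

theorem period {W : Set ℂ} {u : ℂ → ℂ} {χ : ℂ → ℝ} (hW : IsOpen W) (hu : DifferentiableOn ℂ u W)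
    (h1 : ContDiff ℝ 2 χ) (h2 : HasCompactSupport χ) (h3 : tsupport χ ⊆ W) :
    ∫ z in W, u z * gr χ z = 0 := by
  have hd : ∀ v z, z ∉ tsupport χ → fderiv ℝ χ z v = 0 := fun v z hz => by
    rw [image_eq_zero_of_notMem_tsupport fun h => hz (tsupport_fderiv_subset ℝ h)]
    rfl
  have i1 : ∀ v, Integrable fun z => u z * fderiv ℝ χ z v := fun v =>
    intg hu.continuousOn ((h1.continuous_fderiv two_ne_zero).clm_apply continuous_const) h2 h3
      (hd v)
  have i2 : ∀ {w : ℂ → ℂ}, ContinuousOn w W → Integrable fun z => w z * χ z := fun hw =>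
    intg hw h1.continuous h2 h3 fun z => image_eq_zero_of_notMem_tsupport
  have key : ∀ v, ∫ z, u z * fderiv ℝ χ z v = -(v * ∫ z, deriv u z * χ z) := fun v => by
    have := integral_bilinear_hasLineDerivAt_right_eq_neg_left_of_integrable (μ := volume)
      (f := u) (f' := fun z => v * deriv u z) (g := fun z => (χ z : ℂ))
      (g' := fun z => (fderiv ℝ χ z v : ℂ)) (v := v) (B := ContinuousLinearMap.mul ℝ ℂ)
      (i2 (continuousOn_const.mul (hu.deriv hW).continuousOn)) (i1 v) (i2 hu.continuousOn)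
      (fun z hz => by
        have h4 : z ∈ W := h3 (tsupport_comp_subset (g := ofReal) ofReal_zero χ hz)
        simpa using (((hu z h4).differentiableAt
          (hW.mem_nhds h4)).hasDerivAt.hasFDerivAt.restrictScalars ℝ).hasLineDerivAt v)
      fun z _ => (ofRealCLM.hasFDerivAt.comp z
        (h1.differentiable two_ne_zero z).hasFDerivAt).hasLineDerivAt v
    simpa only [ContinuousLinearMap.mul_apply', mul_assoc, integral_const_mul] using this
  have e : ∀ z, u z * gr χ z = u z * fderiv ℝ χ z 1 + I * (u z * fderiv ℝ χ z I) := fun z => by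
    rw [gr, mk_eq_add_mul_I]
    ring
  rw [setIntegral_eq_integral_of_forall_compl_eq_zero fun z hz => by
    rw [e, hd _ z fun h => hz (h3 h), hd _ z fun h => hz (h3 h)]
    simp]
  simp only [e]
  rw [integral_add (i1 1) ((i1 I).const_mul I), integral_const_mul, key, key, mul_neg,
    ← mul_assoc, I_mul_I]
  ring

end RsqA

theorem s_Rsq (L : Lib) : S_Rsq := by
  intro W hW hb hc hc' g hg h0
  have hu : DifferentiableOn ℂ (fun z => deriv g z / g z) W := (hg.deriv hW).div hg h0
  obtain ⟨G, hG, hG'⟩ := L.prim W _ hW hc hu fun χ h1 h2 h3 =>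
    RsqA.period hW hu h1 h2 (RsqA.supp L hb hc' h1 h2 h3)
  obtain ⟨c, hcc⟩ := hW.exists_is_const_of_deriv_eq_zero hc (f := fun z => g z * exp (-G z))
    (hg.mul hG.neg.cexp) fun z hz => by
      have h1 := (((hg z hz).differentiableAt (hW.mem_nhds hz)).hasDerivAt.mul
        ((hG z hz).differentiableAt (hW.mem_nhds hz)).hasDerivAt.neg.cexp).deriv
      refine h1.trans ?_
      have := h0 z hz
      rw [hG' z hz]
      simp only [Pi.neg_apply, Pi.zero_apply]
      field_simp
      ring
  obtain ⟨d, hd⟩ := IsAlgClosed.exists_pow_nat_eq c two_pos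
  refine ⟨fun z => d * exp (G z / 2),
    continuousOn_const.mul (hG.continuousOn.div_const 2).cexp, fun z hz => ?_⟩
  rw [mul_pow, hd, ← hcc z hz, ← exp_nat_mul, mul_assoc, ← exp_add]
  have e : -G z + (2 : ℕ) * (G z / 2) = 0 := by
    push_cast
    ring
  rw [e, exp_zero, mul_one]

end Vale.Agent.P116
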