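import Vale.Agent.P116.RStm

/-! Step A, part R: the dual condition in the chart. -/

open Set Filter Topology MeasureTheory Metric Complex
open scoped ENNReal NNReal

noncomputable section
namespace Vale.Agent.P116

namespace RtestA

theorem lip_congr {s : Set ℂ} {f g : ℂ → ℝ} (hf : LocallyLipschitzOn s f)
    (h : ∀ z ∈ s, g z = f z) : LocallyLipschitzOn s g := by
  intro x hx
  obtain ⟨L, t, ht, hL⟩ := hf hx
  refine ⟨L, t ∩ s, inter_mem ht self_mem_nhdsWithin, fun y hy z hz => ?_⟩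
  rw [h y hy.2, h z hz.2]
  exact hL hy.1 hz.1

end RtestA

theorem s_Rtest (L : Lib) (h1 : S_Rtr) (h2 : S_Rpat) : S_Rtest := by
  intro K T W R H G e ψ τ hc he hT hWT hψ hS θ s hθ hsupp
  obtain ⟨hA, hs, hO⟩ := hθ
  have hlip : LocallyLipschitzOn (ball 0 R \ H '' (K ∩ W)) θ := hA.1.mono fun z hz => hz.2
  set th : ℂ → ℝ := W.indicator fun z => θ (H z) with hth
  have e1 : ∀ z ∈ W, th z = θ (H z) := fun z hz => indicator_of_mem hz _
  have hC : IsCompact (G '' tsupport θ) :=
    ((isCompact_closedBall (0 : ℂ) R).of_isClosed_subset (isClosed_tsupport _)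
      (hsupp.trans ball_subset_closedBall)).image_of_continuousOn (hc.hG.continuousOn.mono hsupp)
  have hCW : G '' tsupport θ ⊆ W := by
    rintro _ ⟨w, hw, rfl⟩
    exact hc.mG (hsupp hw)
  have h0 : ∀ z ∉ G '' tsupport θ, th z = 0 := fun z hz => by
    by_cases hW : z ∈ W
    · rw [e1 z hW]
      by_contra h
      exact hz ⟨H z, subset_tsupport _ h, hc.gh z hW⟩
    · exact indicator_of_notMem hW _
  have l1 : LocallyLipschitzOn (W \ K) th :=
    RtestA.lip_congr (h1.lip K W R H G θ hc hlip) fun z hz => e1 z hz.1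
  have i1 : IntegrableOn (fun z => ‖gr th z‖ ^ 2) (W \ K) :=
    (h1.en K W R H G θ th hc hlip e1).1.2 (hA.2 R)
  obtain ⟨a1, -, -, a2⟩ := h2 K W _ th hc.cpt.isClosed hc.op hC hCW l1 h0 i1
  have w1 := h1.wd K W R H G θ th (fun w => ψ (G w)) ψ hc hlip e1
    (h1.c1 K W R H G ψ hc hψ).2 fun z hz => by rw [hc.gh z hz]
  have hs1 := he.push s hs
  have hG : Good K T th (Function.extend e s 0) := by
    refine ⟨a1, hs1, fun p _ => ?_⟩
    rcases L.cmp.dich K (K ∩ W) p (L.cmp.clo_open K W hc.cpt.isClosed hc.op hc.fr) with hp | hp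
    · have hpW : p.1 ⊆ W := hp.trans inter_subset_right
      obtain ⟨q, rfl⟩ := he.sur p hpW
      rw [he.inj.extend_apply]
      refine h1.osc K W _ R H G θ th _ hc hpW e1 ?_
      rw [he.img q]
      exact hO q (L.cmp.sub _ q)
    · intro ε hε
      refine ⟨(G '' tsupport θ)ᶜ, hC.isClosed.isOpen_compl,
        fun z hz hz' => (hp hz).2 ⟨(hp hz).1, hCW hz'⟩, fun z hz w hw => ?_⟩
      rw [h0 z hz.1, h0 w hw.1, sub_self]
      exact add_nonneg (hs1.1 p) hε.le
  have b1 := hS.2.2 th _ hG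
  obtain ⟨M, hM⟩ := hC.isBounded.subset_ball 0
  have o1 := L.omA.self K T th ψ M hc.cpt hT a1 hS.1
    (fun z hz => h0 z fun h => by
      have := hM h
      rw [mem_ball_zero_iff] at this
      linarith)
    (by
      filter_upwards [hC.isClosed.isOpen_compl.mem_nhdsSet.2
        (show K \ T ⊆ (G '' tsupport θ)ᶜ from fun z hz h => hz.2 (hWT ⟨hCW h, hz.1⟩))] with z hz _
      exact h0 z hz)
  have s1 : sm T (Function.extend e s 0) τ = sm (K ∩ W) (Function.extend e s 0) τ := by
    refine tsum_congr fun p => ?_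
    by_cases hp : ∃ q, e q = p
    · obtain ⟨q, rfl⟩ := hp
      have hq : (e q).1 ⊆ K ∩ W := subset_inter (L.cmp.sub K _) (he.sub q)
      have hq' : (e q).1 ⊆ T := fun z hz => hWT ⟨(hq hz).2, (hq hz).1⟩
      rw [if_pos hq, if_pos hq']
    · rw [Function.extend_apply' _ _ _ hp]
      simp
  rw [o1, a2, w1, s1, he.sm, Function.extend_comp he.inj] at b1
  exact b1

end Vale.Agent.P116
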