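import Vale.Agent.P116.RStm

/-! Step A, part R: transport along a chart. -/

open Set Filter Topology MeasureTheory Metric Complex
open scoped ENNReal NNReal

noncomputable section
namespace Vale.Agent.P116

namespace RtrA

variable {K W : Set ℂ} {R : ℝ} {H G : ℂ → ℂ}

theorem inj (c : Chart K W R H G) : InjOn H W := fun x hx y hy h => by
  rw [← c.gh x hx, h, c.gh y hy]

theorem mapsH (c : Chart K W R H G) : MapsTo H (W \ K) (ball 0 R \ H '' (K ∩ W)) := by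
  rintro z ⟨h1, h2⟩
  refine ⟨c.mH h1, ?_⟩
  rintro ⟨w, hw, e⟩
  exact h2 (inj c hw.2 h1 e ▸ hw.1)

theorem mapsG (c : Chart K W R H G) : MapsTo G (ball 0 R \ H '' (K ∩ W)) (W \ K) :=
  fun w hw => ⟨c.mG hw.1, fun h => hw.2 ⟨G w, ⟨h, c.mG hw.1⟩, c.hg w hw.1⟩⟩

theorem img (c : Chart K W R H G) : H '' (W \ K) = ball 0 R \ H '' (K ∩ W) :=
  (mapsH c).image_subset.antisymm fun w hw => ⟨G w, mapsG c hw, c.hg w hw.1⟩

theorem op' (c : Chart K W R H G) : IsOpen (ball 0 R \ H '' (K ∩ W)) :=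
  isOpen_ball.sdiff c.cpt'.isClosed

theorem ms (c : Chart K W R H G) : MeasurableSet (W \ K) :=
  (c.op.sdiff c.cpt.isClosed).measurableSet

theorem lip1 {F : Type} [NormedAddCommGroup F] [NormedSpace ℝ F] {U : Set ℂ} {f : ℂ → F}
    (hU : IsOpen U) (hf : ContDiffOn ℝ 1 f U) : LocallyLipschitzOn U f := by
  intro x hx
  obtain ⟨k, t, ht, h⟩ := (hf.contDiffAt (hU.mem_nhds hx)).exists_lipschitzOnWith
  exact ⟨k, t, mem_nhdsWithin_of_mem_nhds ht, h⟩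

theorem lipc {U V : Set ℂ} {f : ℂ → ℂ} {a : ℂ → ℝ} (hf : LocallyLipschitzOn U f)
    (ha : LocallyLipschitzOn V a) (h : MapsTo f U V) : LocallyLipschitzOn U fun z => a (f z) := by
  intro x hx
  obtain ⟨k, t, ht, h1⟩ := hf hx
  obtain ⟨k', t', ht', h2⟩ := ha (h hx)
  exact ⟨k' * k, t ∩ f ⁻¹' t', inter_mem ht ((hf.continuousOn x hx).tendsto_nhdsWithin h ht'),
    h2.comp (h1.mono inter_subset_left) fun z hz => hz.2⟩

theorem dif (L : Lib) (c : Chart K W R H G) {a : ℂ → ℝ}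
    (ha : LocallyLipschitzOn (ball 0 R \ H '' (K ∩ W)) a) :
    ∀ᵐ z, z ∈ W \ K → DifferentiableAt ℝ a (H z) := by
  have h := L.cov.null W _ H c.op c.hH (inj c) (L.adm.dif _ a (op' c) ha)
  filter_upwards [compl_mem_ae_iff.2 h] with z hz hW
  by_contra h1
  exact hz ⟨hW.1, fun h2 => h1 (h2 (mapsH c hW))⟩

theorem fd (c : Chart K W R H G) {a a' : ℂ → ℝ} (h : ∀ z ∈ W, a' z = a (H z)) {z : ℂ}
    (hz : z ∈ W) : fderiv ℝ a' z = fderiv ℝ (fun w => a (H w)) z :=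
  Filter.EventuallyEq.fderiv_eq (mem_of_superset (c.op.mem_nhds hz) h)

end RtrA

open RtrA in
theorem s_Rtr (L : Lib) : S_Rtr := by
  refine ⟨fun K W R H G a c ha => ?_, fun K W R H G a a' c ha h => ?_,
    fun K W R H G a a' b b' c ha h hb h' => ?_, fun K W p R H G a a' t c hp h ho ε hε => ?_,
    fun K W R H G ψ c hψ => ?_⟩
  · exact lipc ((lip1 c.op ((c.hH.contDiffOn c.op).restrict_scalars ℝ)).mono sdiff_subset) ha
      (mapsH c)
  · have h1 : ∀ᵐ z, z ∈ W \ K → ‖gr a' z‖ ^ 2 = ‖gr a (H z)‖ ^ 2 * ‖deriv H z‖ ^ 2 := by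
      filter_upwards [dif L c ha] with z hz hW
      rw [← mul_pow, ← (L.cov.wdc H a a z (c.hH.differentiableAt (c.op.mem_nhds hW.1)) (hz hW)
        (hz hW)).2, gr, gr, fd c h hW.1]
    obtain ⟨h2, h3⟩ := L.cov.int W (W \ K) H (fun w => ‖gr a w‖ ^ 2) c.op c.hH (inj c) (ms c)
      sdiff_subset
    rw [RtrA.img c] at h2 h3
    exact ⟨(integrableOn_congr_fun_ae ((ae_restrict_iff' (ms c)).2 h1)).trans h2.symm,
      (setIntegral_congr_ae (ms c) h1).trans h3.symm⟩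
  · have h1 : ∀ᵐ z, z ∈ W \ K → wd a' b' z = wd a b (H z) * ‖deriv H z‖ ^ 2 := by
      filter_upwards [dif L c ha, dif L c hb] with z hz hz' hW
      rw [← (L.cov.wdc H a b z (c.hH.differentiableAt (c.op.mem_nhds hW.1)) (hz hW)
        (hz' hW)).1, wd, wd, fd c h hW.1, fd c h' hW.1]
    have h3 := (L.cov.int W (W \ K) H (wd a b) c.op c.hH (inj c) (ms c) sdiff_subset).2
    rw [RtrA.img c] at h3
    exact (setIntegral_congr_ae (ms c) h1).trans h3.symm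
  · obtain ⟨U, h1, h2, h3⟩ := ho ε hε
    refine ⟨W ∩ H ⁻¹' U, c.hH.continuousOn.isOpen_inter_preimage c.op h1,
      fun z hz => ⟨hp hz, h2 (mem_image_of_mem H hz)⟩, fun z hz w hw => ?_⟩
    rw [h z hz.1.1, h w hw.1.1]
    exact h3 _ ⟨hz.1.2, (mapsH c ⟨hz.1.1, hz.2⟩).2⟩ _ ⟨hw.1.2, (mapsH c ⟨hw.1.1, hw.2⟩).2⟩
  · have h1 : ContDiffOn ℝ 1 (fun w => ψ (G w)) (ball 0 R \ H '' (K ∩ W)) :=
      hψ.comp (((c.hG.contDiffOn isOpen_ball).restrict_scalars ℝ).mono sdiff_subset)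
        fun w hw => (mapsG c hw).2
    exact ⟨h1, lip1 (op' c) h1⟩

end Vale.Agent.P116
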