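import Vale.Agent.P116.TStm

/-! Part T: the access lemma. -/

open Set Filter Topology MeasureTheory Metric Complex
open scoped ENNReal NNReal

noncomputable section
namespace Vale.Agent.P116

theorem s_Tacc (h1 : S_Tcost) (h2 : S_Tsat) (h3 : S_Tpieces) (h4 : S_Tlim) (h5 : S_Tchain) :
    S_Tacc := by
  intro K lam s r V p m R A hT hC hR hA ε hε
  choose A' hP hsub hdiff hsat hcost using fun k => h2 K lam s (A k) hT.cpt hT.sub (hA k).1
  have hle : ∀ k, cost K lam s (A' k) ≤ R := fun k => (hcost k).trans_le (hA k).2.1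
  choose x C hx hCk hsum using fun k => h3 K lam s r V p m k (A' k) hT hC (hP k) (hsat k)
    (ne_top_of_le_ne_top hR (hle k)) (fun h => (hA k).2.2.1 ((hsub k).trans h))
    ((hA k).2.2.2.mono (inter_subset_inter_left _ (hsub k)))
  obtain ⟨k, j, P, hmj, hjk, hx0, hPi, hs⟩ := h4 K lam s r V p m (2 * R) x C hT hC
    (ENNReal.mul_ne_top (by simp) hR) (fun k j a b => (hx k j a b).2) hCk
    (fun k => (hsum k).trans (mul_le_mul_right (hle k) 2)) ε hε
  have hxj := hx k j hmj hjk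
  have hK := hC.fr_notMem hxj.2
  refine ⟨k, x k j, ⟨⟨hdiff k ⟨hxj.1, hK⟩, hC.cl_sub hmj p (frontier_subset_closure hxj.2)⟩, hK⟩,
    p.1 ∪ ⋃ i, P i, h5 K r V p P hT.cpt hC hPi, Or.inr (mem_iUnion.2 ⟨0, hx0⟩),
    subset_union_left, ?_⟩
  refine (h1.union _ _ _ _ _).trans ?_
  rw [h1.cut_self, zero_add]
  exact (h1.cut_le _ _ _ _ _).trans ((h1.iUnion _ _ _ _).trans hs)

end Vale.Agent.P116
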