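import Vale.Agent.P116.TStm

/-! Part T: the truncated distance to a cell. -/

open Set Filter Topology MeasureTheory Metric Complex
open scoped ENNReal NNReal

noncomputable section
namespace Vale.Agent.P116

theorem s_Tbeta (h1 : S_Tcost) : S_Tbeta := by
  intro K lam s r V w p c R m m' hV hR hB
  set S : ℂ → Set ℝ := fun z => {t | t = R ∨ (0 ≤ t ∧ ∃ A, Pth K A ∧ z ∈ A ∧
    (∀ y ∈ A \ K, c < w y) ∧ (A ∩ closure (V m' p)).Nonempty ∧
      cost K lam s A ≤ ENNReal.ofReal t)} with hS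
  have hne : ∀ z, R ∈ S z := fun z => Or.inl rfl
  have h0 : ∀ z, ∀ t ∈ S z, 0 ≤ t := fun z t ht => ht.elim (fun e => e ▸ hR) fun h => h.1
  have hb : ∀ z, BddBelow (S z) := fun z => ⟨0, h0 z⟩
  have hlo : ∀ z, 0 ≤ sInf (S z) := fun z => le_csInf ⟨R, hne z⟩ (h0 z)
  have hhi : ∀ z, sInf (S z) ≤ R := fun z => csInf_le (hb z) (hne z)
  refine ⟨fun z => sInf (S z), fun z => ⟨hlo z, hhi z⟩, fun z hz => ?_, fun z hz hc => ?_,
    fun A hA hw z hz z' hz' t ht hc => ?_⟩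
  · refine (hhi z).antisymm (le_csInf ⟨R, hne z⟩ ?_)
    rintro t (rfl | ⟨ht, A, a1, a2, a3, a4, a5⟩)
    · exact le_rfl
    · exact (ENNReal.ofReal_le_ofReal_iff ht).1 ((hB A a1 a3 (fun h => hz (h a2)) a4).trans a5)
  · refine (csInf_le (hb z) (Or.inr ⟨le_rfl, {z}, h1.psingle K z
      (ball_subset_closedBall (hV.bal m' p (subset_closure hz.1))), rfl, ?_,
      ⟨z, rfl, subset_closure hz.1⟩, (h1.single K lam s z hz.2).le.trans zero_le⟩)).antisymm (hlo z)
    rintro y ⟨rfl, -⟩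
    exact hc
  · rw [← sub_le_iff_le_add]
    refine le_csInf ⟨R, hne z⟩ ?_
    rintro u (rfl | ⟨hu, B, a1, a2, a3, a4, a5⟩)
    · linarith [hhi z']
    · rw [sub_le_iff_le_add]
      refine csInf_le (hb z') (Or.inr ⟨add_nonneg hu ht, B ∪ A, h1.punion K B A a1 hA ⟨z, a2, hz⟩,
        Or.inr hz', ?_, a4.mono (inter_subset_inter_left _ subset_union_left), ?_⟩)
      · rintro y ⟨hy | hy, hK⟩
        exacts [a3 y ⟨hy, hK⟩, hw y ⟨hy, hK⟩]
      · rw [ENNReal.ofReal_add hu ht]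
        exact (h1.union K lam s B A).trans (add_le_add a5 hc)

end Vale.Agent.P116
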