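import Vale.Agent.P116.TStm

/-! Part T: boundary bumping. -/

open Set Filter Topology MeasureTheory Metric Complex
open scoped ENNReal NNReal

noncomputable section
namespace Vale.Agent.P116

theorem s_Tbump (hc : S_cmp) : S_Tbump := by
  intro A F y hA hA' hF hFA hy hne
  by_contra hn
  obtain ⟨Q, hQ, h1, h2⟩ := hc.nbhd F ⟨connectedComponentIn F y, y, hy, rfl⟩ (closure (A \ F))ᶜ
    (hA.of_isClosed_subset hF hFA) isClosed_closure.isOpen_compl fun z hz h => hn ⟨z, hz, h⟩
  obtain ⟨x, hx⟩ := hne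
  obtain ⟨z, -, h3, h4⟩ := isPreconnected_closed_iff.1 hA' Q (F \ Q ∪ closure (A \ F)) hQ.2.1
    (hQ.2.2.union isClosed_closure)
    (fun z hz => by
      by_cases h5 : z ∈ Q
      · exact Or.inl h5
      · by_cases h6 : z ∈ F
        · exact Or.inr (Or.inl ⟨h6, h5⟩)
        · exact Or.inr (Or.inr (subset_closure ⟨hz, h6⟩)))
    ⟨y, hFA hy, h1 (mem_connectedComponentIn hy)⟩ ⟨x, hx.1, Or.inr (subset_closure hx)⟩
  exact h4.elim (fun h => h.2 h3) (h2 h3)

end Vale.Agent.P116
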