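import Vale.Agent.P116.TStm

open Set Filter Topology MeasureTheory Metric Complex
open scoped ENNReal NNReal

noncomputable section
namespace Vale.Agent.P116

namespace TCells

/-- a connected subset of `F` which meets a component lies in it -/
theorem sub_cc {F A : Set ℂ} {x : ℂ} (hA : IsPreconnected A) (hF : A ⊆ F)
    (h : (A ∩ connectedComponentIn F x).Nonempty) : A ⊆ connectedComponentIn F x := by
  obtain ⟨y, hy, hy'⟩ := h
  rw [connectedComponentIn_eq hy']
  exact hA.subset_connectedComponentIn hy hF

theorem small {d : ℝ} (hd : 0 < d) {ε : ℝ} (hε : 0 < ε) : ∃ n : ℕ, d / (n + 1) ≤ ε := by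
  obtain ⟨n, hn⟩ := exists_nat_ge (d / ε)
  refine ⟨n, ?_⟩
  rw [div_le_iff₀ (by positivity)]
  rw [div_le_iff₀ hε] at hn
  nlinarith

end TCells

open TCells

theorem s_Tcells (hc : S_cmp) : S_Tcells := by
  intro K hK hK1
  obtain ⟨d, hd, hdK⟩ := hK.exists_cthickening_subset_open isOpen_ball hK1
  choose x hx using hc.ne K
  set r : ℕ → ℝ := fun n => d / (n + 1) with hr
  have rp : ∀ n, 0 < r n := fun n => by simp only [hr]; positivity
  have ra : ∀ n n', n ≤ n' → r n' ≤ r n := fun n n' h => by
    simp only [hr]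
    gcongr
  have rs : ∀ n, r (n + 1) < r n := fun n => by
    simp only [hr]
    gcongr
    exact Nat.lt_succ_self n
  have rd : ∀ n, r n ≤ d := fun n => by
    have := ra 0 n (Nat.zero_le n)
    simpa [hr] using this
  set V : ℕ → Cmp K → Set ℂ := fun n p => connectedComponentIn (thickening (r n) K) (x p) with hV
  have hne : ∀ p : Cmp K, K.Nonempty := fun p => ⟨x p, hc.sub K p (hx p)⟩
  have vs : ∀ n p, V n p ⊆ thickening (r n) K := fun n p => connectedComponentIn_subset _ _
  have vc : ∀ n p, closure (V n p) ⊆ cthickening (r n) K := fun n p =>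
    (closure_mono (vs n p)).trans (closure_thickening_subset_cthickening _ _)
  have vo : ∀ n p, IsOpen (V n p) := fun n p => isOpen_thickening.connectedComponentIn
  have vp : ∀ n p, IsPreconnected (V n p) := fun n p => isPreconnected_connectedComponentIn
  have sup : ∀ n p, p.1 ⊆ V n p := fun n p =>
    (hc.con K p).subset_connectedComponentIn (hx p)
      ((hc.sub K p).trans (self_subset_thickening (rp n) K))
  have lt : ∀ n p, ∀ z ∈ V n p, infDist z K < r n := fun n p z hz =>
    (mem_thickening_iff_infDist_lt (hne p)).1 (vs n p hz)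
  refine ⟨r, V, rp, vo, sup, fun n p => hc.acc K p _ hK (vo n p) (sup n p), fun n p => ?_,
    fun n p => ?_, lt, fun n p z hz => ?_, fun n n' p q hn h => ?_, fun p U hU hpU => ?_,
    fun z hz => ?_⟩
  · exact (vc n p).trans ((cthickening_mono (rd n) K).trans hdK)
  · exact (vp (n + 1) p).closure.subset_connectedComponentIn
      (subset_closure (sup (n + 1) p (hx p)))
      ((vc (n + 1) p).trans (cthickening_subset_thickening' (rp n) (rs n) K))
  · rw [(vo n p).frontier_eq] at hz
    have h1 : infDist z K ≤ r n := by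
      have h2 : IsClosed {w : ℂ | infDist w K ≤ r n} :=
        isClosed_le (continuous_infDist_pt K) continuous_const
      exact closure_minimal (fun w hw => (lt n p w hw).le) h2 hz.1
    refine h1.antisymm (not_lt.1 fun h2 => hz.2 ?_)
    have h3 : z ∈ thickening (r n) K := (mem_thickening_iff_infDist_lt (hne p)).2 h2
    obtain ⟨ε, hε, hb⟩ := Metric.isOpen_iff.1 isOpen_thickening z h3
    exact sub_cc (convex_ball z ε).isPreconnected hb
      (mem_closure_iff_nhds.1 hz.1 _ (ball_mem_nhds z hε)) (mem_ball_self hε)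
  · exact sub_cc (vp n' q) ((vs n' q).trans (thickening_mono (ra n n' hn) K)) h
  · obtain ⟨Q, hQ, hpQ, hQU⟩ := hc.nbhd K p U hK hU hpU
    have cQ : IsCompact Q := hK.of_isClosed_subset hQ.2.1 hQ.1
    obtain ⟨δ1, h1, hd1⟩ := (disjoint_sdiff_right : Disjoint Q (K \ Q)).exists_thickenings cQ hQ.2.2
    obtain ⟨δ2, h2, hd2⟩ := cQ.exists_cthickening_subset_open hU hQU
    obtain ⟨n, hn⟩ := small hd (lt_min h1 h2)
    have hn1 : r n ≤ δ1 := hn.trans (min_le_left _ _)
    have hn2 : r n ≤ δ2 := hn.trans (min_le_right _ _)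
    have h3 : V n p ⊆ thickening (r n) Q := by
      refine (vp n p).subset_left_of_subset_union isOpen_thickening isOpen_thickening
        (hd1.mono (thickening_mono hn1 Q) (thickening_mono hn1 (K \ Q))) ?_
        ⟨x p, sup n p (hx p), self_subset_thickening (rp n) Q (hpQ (hx p))⟩
      rw [← thickening_union, union_diff_cancel hQ.1]
      exact vs n p
    exact ⟨n, (closure_mono h3).trans ((closure_thickening_subset_cthickening _ _).trans
      ((cthickening_mono hn2 Q).trans hd2))⟩
  · rcases K.eq_empty_or_nonempty with h0 | h0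
    · exact ⟨0, fun p => absurd (hne p) (by rw [h0]; exact not_nonempty_empty)⟩
    · obtain ⟨n, hn⟩ := small hd ((hK.isClosed.notMem_iff_infDist_pos h0).1 hz)
      exact ⟨n, fun p h => absurd (lt n p z h) (not_lt.2 hn)⟩

end Vale.Agent.P116
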