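import Vale.Agent.P116.TStm

/-! A chain of paths which shrinks to a component is a path. -/

open Set Filter Topology MeasureTheory Metric Complex
open scoped ENNReal NNReal

noncomputable section
namespace Vale.Agent.P116

theorem s_Tchain (hc : S_cmp) : S_Tchain := by
  intro K r V p P hK hV h
  have hE : IsClosed (p.1 ∪ ⋃ j, P j) := by
    refine isClosed_of_closure_subset fun z hz => ?_
    by_cases hp : z ∈ p.1
    · exact Or.inl hp
    obtain ⟨n, hn⟩ := hV.shr p {z}ᶜ isOpen_compl_singleton (subset_compl_singleton_iff.2 hp)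
    have h1 : IsClosed (closure (V n p) ∪ ⋃ j ∈ Finset.range n, P j) :=
      isClosed_closure.union (isClosed_biUnion_finset fun j _ => (h j).1.1.isClosed)
    have h2 : p.1 ∪ ⋃ j, P j ⊆ closure (V n p) ∪ ⋃ j ∈ Finset.range n, P j := by
      refine union_subset (((hV.sup n p).trans subset_closure).trans subset_union_left)
        (iUnion_subset fun j x hx => ?_)
      rcases lt_or_ge j n with hj | hj
      · exact Or.inr (mem_biUnion (Finset.mem_range.2 hj) hx)
      · exact Or.inl (subset_closure (hV.anti hj p ((h j).2.1 hx)))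
    rcases closure_minimal h2 h1 hz with h3 | h3
    · exact (hn h3 rfl).elim
    · obtain ⟨j, -, hj⟩ := mem_iUnion₂.1 h3
      exact Or.inr (mem_iUnion.2 ⟨j, hj⟩)
  have hB : p.1 ∪ ⋃ j, P j ⊆ closedBall 0 1 :=
    union_subset ((((hV.sup 0 p).trans subset_closure).trans (hV.bal 0 p)).trans
      ball_subset_closedBall) (iUnion_subset fun j => (h j).1.2.2.1)
  refine ⟨(isCompact_closedBall 0 1).of_isClosed_subset hE hB, ?_, hB, ?_⟩
  · have h1 : IsPreconnected (⋃ j, P j) :=
      IsPreconnected.iUnion_of_chain (fun j => (h j).1.2.1) fun j => (h j).2.2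
    have h2 : (p.1 ∩ closure (⋃ j, P j)).Nonempty := by
      by_contra h3
      obtain ⟨n, hn⟩ := hV.shr p (closure (⋃ j, P j))ᶜ isClosed_closure.isOpen_compl
        fun z hz hz' => h3 ⟨z, hz, hz'⟩
      obtain ⟨z, hz, -⟩ := (h n).2.2
      exact hn (subset_closure ((h n).2.1 hz)) (subset_closure (mem_iUnion.2 ⟨n, hz⟩))
    have e : p.1 ∪ ⋃ j, P j = p.1 ∪ closure (⋃ j, P j) :=
      (union_subset_union_right _ subset_closure).antisymm
        (union_subset subset_union_left (closure_minimal subset_union_right hE))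
    rw [e]
    exact (hc.con K p).union' h2 h1.closure
  · refine ((countable_singleton p).union (countable_iUnion fun j => (h j).1.2.2.2)).mono ?_
    rintro q ⟨z, hq, hz | hz⟩
    · exact Or.inl (hc.eq K q p ⟨z, hq, hz⟩)
    · obtain ⟨j, hj⟩ := mem_iUnion.1 hz
      exact Or.inr (mem_iUnion.2 ⟨j, z, hq, hj⟩)

end Vale.Agent.P116
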