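import Vale.Agent.P116.TStm

/-! Part T: the blocking claim. -/

open Set Filter Topology MeasureTheory Metric Complex
open scoped ENNReal NNReal

noncomputable section
namespace Vale.Agent.P116

theorem s_Tclaim (h1 : S_Tcost) (h2 : S_Tacc) : S_Tclaim := by
  intro K lam s r V m0 w lo l e R p hT hC hL hlo hA he hz m hm
  by_contra hcon
  have hs : 0 ≤ s p := hT.sq.1 p
  have hε : (0 : ℝ≥0∞) < ENNReal.ofReal (e / 4) := ENNReal.ofReal_pos.2 (by linarith)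
  have e1 : ∀ k : ℕ, ∃ A, (∀ z ∈ A \ K, l + s p + e < w z) ∧ Pth K A ∧
      cost K lam s A ≤ ENNReal.ofReal R ∧ ¬ A ⊆ V m p ∧ (A ∩ V k p).Nonempty := by
    intro k
    by_contra hk
    refine hcon ⟨max k m + 1, by omega, fun A a1 a2 a3 a4 => ?_⟩
    by_contra a5
    obtain ⟨y, y1, y2⟩ := a4
    exact hk ⟨A, a2, a1, (not_le.1 a5).le, a3, y, y1, hC.cl_sub (by omega) p y2⟩
  choose A hA1 hA2 using e1
  obtain ⟨k, x, hx, E', hE1, hE2, hE3, hE4⟩ :=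
    h2 K lam s r V p m _ A hT hC ENNReal.ofReal_ne_top hA2 _ hε
  have hxc : l + s p + e < w x := hA1 k x ⟨hx.1.1, hx.2⟩
  have hx0 : x ∈ V m0 p \ K := ⟨hC.anti hm p hx.1.2, hx.2⟩
  have e2 : ∀ k : ℕ, ∃ B, (∃ a ∈ B ∩ DD K, w a ≤ l + e / 4 ∧
      cost K lam s B ≤ ENNReal.ofReal (l + e / 4 - w a)) ∧ Pth K B ∧
      cost K lam s B ≤ ENNReal.ofReal (l + e / 4 - lo) ∧ ¬ B ⊆ V m0 p ∧
      (B ∩ V k p).Nonempty := by
    intro k
    obtain ⟨z, z1, z2⟩ := hz (max k m0)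
    obtain ⟨B, b1, b2, a, a1, a2, a3, a4⟩ := hA p z ⟨hC.anti (le_max_right _ _) p z1.1, z1.2⟩ x hx0
      (l + e / 4) z2 (by linarith)
    refine ⟨B, ⟨a, a1, a3, a4⟩, b1, a4.trans (ENNReal.ofReal_le_ofReal ?_),
      fun h => a2 (h a1.1), z, b2, hC.anti (le_max_left _ _) p z1.1⟩
    linarith [hlo a a1.2]
  choose B hB1 hB2 using e2
  obtain ⟨j, y, hy, E, hF1, hF2, hF3, hF4⟩ :=
    h2 K lam s r V p m0 _ B hT hC ENNReal.ofReal_ne_top hB2 _ hε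
  obtain ⟨a, a1, a2, a3⟩ := hB1 j
  obtain ⟨z0, hz0, hp⟩ := p.2
  have hz1 : z0 ∈ p.1 := by rw [hp]; exact mem_connectedComponentIn hz0
  have p1 : Pth K (E ∪ E') := h1.punion K E E' hF1 hE1 ⟨z0, hF3 hz1, hE3 hz1⟩
  have p2 : Pth K (B j ∪ (E ∪ E')) :=
    h1.punion K _ _ (hB2 j).1 p1 ⟨y, hy.1.1, Or.inl hF2⟩
  have c1 : cost K lam s (E ∪ E') ≤ ENNReal.ofReal (e / 4 + e / 4 + s p) := by
    rw [ENNReal.ofReal_add (by linarith) hs, ENNReal.ofReal_add (by linarith) (by linarith)]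
    refine (h1.le_cut K lam s p _).trans (add_le_add ?_ le_rfl)
    exact (h1.union K lam _ E E').trans (add_le_add hF4 hE4)
  have c2 : cost K lam s (B j ∪ (E ∪ E')) ≤
      ENNReal.ofReal (l + e / 4 - w a + (e / 4 + e / 4 + s p)) := by
    rw [ENNReal.ofReal_add (by linarith) (by linarith)]
    exact (h1.union K lam s _ _).trans (add_le_add a3 c1)
  have hxD : x ∈ DD K := hC.sub_DD m0 p ⟨subset_closure hx0.1, hx0.2⟩
  have := lipC_iff.1 hL _ p2 a ⟨Or.inl a1.1, a1.2⟩ x ⟨Or.inr (Or.inr hE2), hxD⟩ _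
    (by linarith) c2
  linarith

end Vale.Agent.P116
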