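import Vale.Agent.P116.TStm

/-! Part T: properties of the cost. -/

open Set Filter Topology MeasureTheory Metric Complex
open scoped ENNReal NNReal

noncomputable section
namespace Vale.Agent.P116

namespace TCost

variable {K : Set ℂ}

open Classical in
/-- One term of the cost. -/
def tm (s : Cmp K → ℝ) (A : Set ℂ) (q : Cmp K) : ℝ≥0∞ :=
  if (q.1 ∩ A).Nonempty then ENNReal.ofReal (s q) else 0

theorem cost_eq (lam : ℂ → ℝ≥0∞) (s : Cmp K → ℝ) (A : Set ℂ) :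
    cost K lam s A = (∫⁻ z in A \ K, lam z ∂μH[1]) + ∑' q, tm s A q := rfl

theorem tm_pos {s : Cmp K → ℝ} {A : Set ℂ} {q : Cmp K} (h : (q.1 ∩ A).Nonempty) :
    tm s A q = ENNReal.ofReal (s q) := if_pos h

theorem tm_neg {s : Cmp K → ℝ} {A : Set ℂ} {q : Cmp K} (h : ¬ (q.1 ∩ A).Nonempty) :
    tm s A q = 0 := if_neg h

theorem tm_le {s : Cmp K → ℝ} {A : Set ℂ} {q : Cmp K} {b : ℝ≥0∞}
    (h : (q.1 ∩ A).Nonempty → ENNReal.ofReal (s q) ≤ b) : tm s A q ≤ b := by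
  by_cases h1 : (q.1 ∩ A).Nonempty
  · rw [tm_pos h1]; exact h h1
  · rw [tm_neg h1]; exact zero_le

theorem mono (lam : ℂ → ℝ≥0∞) (s : Cmp K → ℝ) (A B : Set ℂ) (h : A ⊆ B) :
    cost K lam s A ≤ cost K lam s B := by
  rw [cost_eq, cost_eq]
  exact add_le_add (lintegral_mono_set (sdiff_subset_sdiff_left h)) (ENNReal.tsum_le_tsum fun q =>
    tm_le fun h1 => (tm_pos (h1.mono (inter_subset_inter_right _ h))).ge)

theorem union (lam : ℂ → ℝ≥0∞) (s : Cmp K → ℝ) (A B : Set ℂ) :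
    cost K lam s (A ∪ B) ≤ cost K lam s A + cost K lam s B := by
  rw [cost_eq, cost_eq, cost_eq, add_add_add_comm, ← ENNReal.tsum_add, union_sdiff_distrib]
  refine add_le_add (lintegral_union_le _ _ _) (ENNReal.tsum_le_tsum fun q => tm_le fun h1 => ?_)
  rw [inter_union_distrib_left, union_nonempty] at h1
  rcases h1 with h1 | h1
  · rw [tm_pos h1]; exact le_self_add
  · rw [tm_pos h1]; exact le_add_self

theorem iUnion (lam : ℂ → ℝ≥0∞) (s : Cmp K → ℝ) (A : ℕ → Set ℂ) :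
    cost K lam s (⋃ j, A j) ≤ ∑' j, cost K lam s (A j) := by
  simp only [cost_eq]
  rw [ENNReal.tsum_add, ENNReal.tsum_comm, iUnion_sdiff]
  refine add_le_add (lintegral_iUnion_le _ _) (ENNReal.tsum_le_tsum fun q => tm_le fun h1 => ?_)
  obtain ⟨z, hz, hz'⟩ := h1
  obtain ⟨j, hj⟩ := mem_iUnion.1 hz'
  exact (tm_pos ⟨z, hz, hj⟩).ge.trans (ENNReal.le_tsum (f := fun j => tm s (A j) q) j)

theorem single (hc : S_cmp) (lam : ℂ → ℝ≥0∞) (s : Cmp K → ℝ) (z : ℂ) (hz : z ∉ K) :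
    cost K lam s {z} = 0 := by
  have := Measure.nullSingletonClass_hausdorff ℂ (d := 1) one_pos
  rw [cost_eq, setLIntegral_measure_zero _ _
    (measure_mono_null sdiff_subset (measure_singleton z)), zero_add, ENNReal.tsum_eq_zero]
  intro q
  refine tm_neg ?_
  rintro ⟨w, h1, h2⟩
  rw [mem_singleton_iff] at h2
  exact hz (h2 ▸ hc.sub K q h1)

theorem cut_le (lam : ℂ → ℝ≥0∞) (s : Cmp K → ℝ) (p : Cmp K) (A : Set ℂ) :
    cost K lam (cutw s p) A ≤ cost K lam s A := by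
  rw [cost_eq, cost_eq]
  refine add_le_add le_rfl (ENNReal.tsum_le_tsum fun q => tm_le fun h1 => ?_)
  rw [tm_pos h1]
  unfold cutw
  split_ifs
  · simp
  · exact le_rfl

theorem le_cut (lam : ℂ → ℝ≥0∞) (s : Cmp K → ℝ) (p : Cmp K) (A : Set ℂ) :
    cost K lam s A ≤ cost K lam (cutw s p) A + ENNReal.ofReal (s p) := by
  classical
  rw [cost_eq, cost_eq, add_assoc, ← tsum_ite_eq p (fun _ => ENNReal.ofReal (s p)),
    ← ENNReal.tsum_add]
  refine add_le_add le_rfl (ENNReal.tsum_le_tsum fun q => tm_le fun h1 => ?_)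
  rw [tm_pos h1]
  by_cases h : q = p
  · rw [if_pos h, h]; exact le_add_self
  · have : cutw s p q = s q := if_neg h
    rw [this]; exact le_self_add

theorem cut_self (hc : S_cmp) (lam : ℂ → ℝ≥0∞) (s : Cmp K → ℝ) (p : Cmp K) :
    cost K lam (cutw s p) p.1 = 0 := by
  rw [cost_eq, sdiff_eq_empty.2 (hc.sub K p), Measure.restrict_empty, lintegral_zero_measure,
    zero_add, ENNReal.tsum_eq_zero]
  intro q
  refine le_antisymm (tm_le fun h1 => ?_) zero_le
  have : cutw s p q = 0 := if_pos (hc.eq K q p h1)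
  rw [this, ENNReal.ofReal_zero]

theorem disj (lam : ℂ → ℝ≥0∞) (s : Cmp K → ℝ) (A : Set ℂ) (J : Finset ℕ) (C : ℕ → Set ℂ)
    (hK : IsClosed K) (h1 : ∀ j ∈ J, IsClosed (C j) ∧ C j ⊆ A)
    (h2 : ∀ j ∈ J, ∀ j' ∈ J, j < j' → Disjoint (C j) (C j') ∧
      ∀ q : Cmp K, (q.1 ∩ C j).Nonempty → ¬ (q.1 ∩ C j').Nonempty) :
    ∑ j ∈ J, cost K lam s (C j) ≤ cost K lam s A := by
  simp only [cost_eq]
  rw [Finset.sum_add_distrib, ← Summable.tsum_finsetSum fun _ _ => ENNReal.summable]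
  refine add_le_add ?_ (ENNReal.tsum_le_tsum fun q => ?_)
  · rw [← lintegral_biUnion_finset (t := fun j => C j \ K)]
    · exact lintegral_mono_set (iUnion₂_subset fun j hj => sdiff_subset_sdiff_left (h1 j hj).2)
    · intro j hj j' hj' hne
      rcases lt_or_gt_of_ne hne with h | h
      · exact (h2 j hj j' hj' h).1.mono sdiff_subset sdiff_subset
      · exact (h2 j' hj' j hj h).1.symm.mono sdiff_subset sdiff_subset
    · exact fun j hj => (h1 j hj).1.measurableSet.diff hK.measurableSet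
  · by_cases h : ∃ j ∈ J, (q.1 ∩ C j).Nonempty
    · obtain ⟨j, hj, hq⟩ := h
      rw [Finset.sum_eq_single_of_mem j hj, tm_pos hq,
        tm_pos (hq.mono (inter_subset_inter_right _ (h1 j hj).2))]
      intro j' hj' hne
      refine tm_neg fun hq' => ?_
      rcases lt_or_gt_of_ne hne with h | h
      · exact (h2 j' hj' j hj h).2 q hq' hq
      · exact (h2 j hj j' hj' h).2 q hq hq'
    · rw [Finset.sum_eq_zero fun j hj => tm_neg fun hq => h ⟨j, hj, hq⟩]
      exact zero_le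

theorem mult (lam : ℂ → ℝ≥0∞) (s : Cmp K → ℝ) (A : Set ℂ) (J : Finset ℕ) (C : ℕ → Set ℂ)
    (hK : IsClosed K) (h1 : ∀ j ∈ J, IsClosed (C j) ∧ C j ⊆ A)
    (h2 : ∀ j ∈ J, ∀ j' ∈ J, j + 2 ≤ j' → Disjoint (C j) (C j') ∧
      ∀ q : Cmp K, (q.1 ∩ C j).Nonempty → ¬ (q.1 ∩ C j').Nonempty) :
    ∑ j ∈ J, cost K lam s (C j) ≤ 2 * cost K lam s A := by
  rw [← Finset.sum_filter_add_sum_filter_not J (fun j => j % 2 = 0), two_mul]
  refine add_le_add (disj lam s A _ C hK (fun j hj => h1 j (Finset.mem_filter.1 hj).1) ?_)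
    (disj lam s A _ C hK (fun j hj => h1 j (Finset.mem_filter.1 hj).1) ?_) <;>
  · intro j hj j' hj' h
    rw [Finset.mem_filter] at hj hj'
    exact h2 j hj.1 j' hj'.1 (by omega)

theorem psingle (hc : S_cmp) (z : ℂ) (hz : z ∈ closedBall (0 : ℂ) 1) : Pth K {z} := by
  refine ⟨isCompact_singleton, isPreconnected_singleton, singleton_subset_iff.2 hz,
    Set.Subsingleton.countable ?_⟩
  rintro p ⟨w, h1, h2⟩ q ⟨w', h3, h4⟩
  rw [mem_singleton_iff] at h2 h4
  exact hc.eq K p q ⟨z, h2 ▸ h1, h4 ▸ h3⟩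

theorem punion (A B : Set ℂ) (hA : Pth K A) (hB : Pth K B) (h : (A ∩ B).Nonempty) :
    Pth K (A ∪ B) := by
  obtain ⟨z, h1, h2⟩ := h
  refine ⟨hA.1.union hB.1, hA.2.1.union z h1 h2 hB.2.1, union_subset hA.2.2.1 hB.2.2.1,
    (hA.2.2.2.union hB.2.2.2).mono fun p hp => ?_⟩
  have hp' : (p.1 ∩ (A ∪ B)).Nonempty := hp
  rwa [inter_union_distrib_left, union_nonempty] at hp'

theorem psub (A B : Set ℂ) (hA : Pth K A) (h1 : IsClosed B) (h2 : IsPreconnected B) (h : B ⊆ A) :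
    Pth K B :=
  ⟨hA.1.of_isClosed_subset h1 h, h2, h.trans hA.2.2.1,
    hA.2.2.2.mono fun _ hp => Set.Nonempty.mono (inter_subset_inter_right _ h) hp⟩

end TCost

theorem s_Tcost (hc : S_cmp) : S_Tcost :=
  ⟨fun _ => TCost.mono, fun _ => TCost.union, fun _ => TCost.iUnion, fun _ => TCost.single hc,
    fun _ => TCost.cut_le, fun _ => TCost.le_cut, fun _ => TCost.cut_self hc,
    fun _ => TCost.mult, fun _ => TCost.psingle hc, fun _ => TCost.punion, fun _ => TCost.psub⟩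

end Vale.Agent.P116
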