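import Vale.Agent.P116.TStm

/-! Part T: the upper envelope. -/

open Set Filter Topology MeasureTheory Metric Complex
open scoped ENNReal NNReal

noncomputable section
namespace Vale.Agent.P116

namespace TEnv

/-- The admissible upper bounds at `z`. -/
def S (K : Set ℂ) (lam : ℂ → ℝ≥0∞) (s : Cmp K → ℝ) (V : ℕ → Cmp K → Set ℂ) (m : ℕ) (w : ℂ → ℝ)
    (z : ℂ) : Set ℝ :=
  {t | (∃ p, z ∈ V m p ∧ ∀ y ∈ closure (V m p) \ K, w y ≤ t) ∨ ∃ a ∈ DD K, (∀ p, a ∉ V m p) ∧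
    ∃ A, Pth K A ∧ a ∈ A ∧ z ∈ A ∧ w a ≤ t ∧ cost K lam s A ≤ ENNReal.ofReal (t - w a)}

end TEnv

open TEnv in
theorem s_Tenv (h1 : S_Tcost) : S_Tenv := by
  classical
  intro K lam s r V m w lo hi _ hC hw hb
  have lb : ∀ z ∈ DD K, ∀ t ∈ S K lam s V m w z, w z ≤ t := by
    rintro z hz t (⟨p, h2, h3⟩ | ⟨a, ha, -, A, hA, h2, h3, h4, h5⟩)
    · exact h3 z ⟨subset_closure h2, hz.2⟩
    · have := lipC_iff.1 hw A hA a ⟨h2, ha⟩ z ⟨h3, hz⟩ _ (sub_nonneg.2 h4) h5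
      linarith
  have bdd : ∀ z ∈ DD K, BddBelow (S K lam s V m w z) := fun z hz => ⟨_, lb z hz⟩
  have self : ∀ z ∈ DD K, (∀ p, z ∉ V m p) → w z ∈ S K lam s V m w z := fun z hz h =>
    Or.inr ⟨z, hz, h, {z}, h1.psingle K z hz.1, rfl, rfl, le_rfl,
      (h1.single K lam s z hz.2).trans_le zero_le⟩
  have ne : ∀ z ∈ DD K, (S K lam s V m w z).Nonempty := fun z hz => by
    by_cases h : ∃ p, z ∈ V m p
    · obtain ⟨p, hp⟩ := h
      exact ⟨hi, Or.inl ⟨p, hp, fun y hy => (hb y (hC.sub_DD m p hy)).2⟩⟩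
    · exact ⟨_, self z hz (not_exists.1 h)⟩
  have step : ∀ A, Pth K A → ∀ z ∈ A, ∀ z' ∈ A, ∀ u : ℝ, 0 ≤ u →
      cost K lam s A ≤ ENNReal.ofReal u → ∀ t ∈ S K lam s V m w z, t + u ∈ S K lam s V m w z' := by
    rintro A hA z hz z' hz' u hu hc t (⟨p, h2, h3⟩ | ⟨a, ha, ha', B, hB, h2, h3, h4, h5⟩)
    · by_cases h : A ⊆ V m p
      · exact Or.inl ⟨p, h hz', fun y hy => (h3 y hy).trans (le_add_of_nonneg_right hu)⟩
      · obtain ⟨a, h4, h5⟩ := hC.cross hA.2.1 ⟨z, hz, h2⟩ h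
        have h6 : a ∈ closure (V m p) \ K := ⟨frontier_subset_closure h5, hC.fr_notMem h5⟩
        have h7 := h3 a h6
        exact Or.inr ⟨a, hC.sub_DD m p h6, hC.fr_out h5, A, hA, h4, hz', by linarith,
          hc.trans (ENNReal.ofReal_le_ofReal (by linarith))⟩
    · refine Or.inr ⟨a, ha, ha', B ∪ A, h1.punion K B A hB hA ⟨z, h3, hz⟩, Or.inl h2, Or.inr hz',
        by linarith, (h1.union K lam s B A).trans ((add_le_add h5 hc).trans_eq ?_)⟩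
      rw [← ENNReal.ofReal_add (sub_nonneg.2 h4) hu]
      congr 1
      ring
  obtain ⟨w2, e1, e2⟩ : ∃ w2 : ℂ → ℝ, (∀ z ∈ K, w2 z = w z) ∧
      ∀ z ∉ K, w2 z = sInf (S K lam s V m w z) :=
    ⟨fun z => if z ∈ K then w z else sInf (S K lam s V m w z), fun z hz => if_pos hz,
      fun z hz => if_neg hz⟩
  have hle : ∀ z ∈ DD K, w z ≤ w2 z := fun z hz => e2 z hz.2 ▸ le_csInf (ne z hz) (lb z hz)
  have hS : ∀ z ∈ DD K, ∀ t ∈ S K lam s V m w z, w2 z ≤ t := fun z hz t ht =>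
    e2 z hz.2 ▸ csInf_le (bdd z hz) ht
  have an : ∀ z ∈ closedBall (0 : ℂ) 1, (∀ p, z ∉ V m p) → w2 z = w z := fun z hz h => by
    by_cases hK : z ∈ K
    · exact e1 z hK
    · exact (hS z ⟨hz, hK⟩ _ (self z ⟨hz, hK⟩ h)).antisymm (hle z ⟨hz, hK⟩)
  have hD : ∀ p, ∀ z ∈ V m p \ K, z ∈ DD K := fun p z hz =>
    hC.sub_DD m p ⟨subset_closure hz.1, hz.2⟩
  refine ⟨w2, lipC_iff.2 fun A hA z hz z' hz' u hu hc => ?_, hle, an,
    fun p β h z hz => hS z (hD p z hz) _ (Or.inl ⟨p, hz.1, h⟩), fun p z hz x hx t h2 h3 => ?_⟩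
  · rw [← sub_le_iff_le_add, e2 z hz.2.2]
    exact le_csInf (ne z hz.2) fun t ht => sub_le_iff_le_add.2
      (hS z' hz'.2 _ (step A hA z hz.1 z' hz'.1 u hu hc t ht))
  · rw [e2 z hz.2] at h2
    obtain ⟨t', ⟨q, h4, h5⟩ | ⟨a, ha, ha', A, hA, h4, h5, h6, h7⟩, h8⟩ :=
      exists_lt_of_csInf_lt (ne z (hD p z hz)) h2
    · have := hS x (hD p x hx) t' (Or.inl ⟨q, hC.eq_of_mem hz.1 h4 ▸ hx.1, h5⟩)
      linarith
    · refine ⟨A, hA, h5, a, ⟨h4, ha⟩, ha' p, ?_⟩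
      rw [an a ha.1 ha']
      exact ⟨by linarith, h7.trans (ENNReal.ofReal_le_ofReal (by linarith))⟩

end Vale.Agent.P116
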