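import Vale.Agent.P116.TStm

/-! Part T: the initial extension. -/

open Set Filter Topology MeasureTheory Metric Complex
open scoped ENNReal NNReal

noncomputable section
namespace Vale.Agent.P116

namespace TInit

/-- The admissible values at `z`. -/
def SS (K : Set ℂ) (lam : ℂ → ℝ≥0∞) (s : Cmp K → ℝ) (b : ℂ → ℝ) (M : ℝ) (z : ℂ) : Set ℝ :=
  {t | t = M ∨ ∃ a ∈ sphere (0 : ℂ) 1, ∃ A, Pth K A ∧ a ∈ A ∧ z ∈ A ∧ b a ≤ t ∧
    cost K lam s A ≤ ENNReal.ofReal (t - b a)}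

end TInit

open TInit

theorem s_Tinit (h1 : S_Tcost) : S_Tinit := by
  intro K lam s b M hK hb hl
  have hM : 0 ≤ M := (abs_nonneg _).trans (hb 1 (by simp))
  have hne : ∀ z, M ∈ SS K lam s b M z := fun z => Or.inl rfl
  have hlo : ∀ z, -M ∈ lowerBounds (SS K lam s b M z) := by
    rintro z t (rfl | ⟨a, ha, A, -, -, -, h, -⟩)
    · linarith
    · linarith [(abs_le.1 (hb a ha)).1]
  have hbd : ∀ z, BddBelow (SS K lam s b M z) := fun z => ⟨_, hlo z⟩
  refine ⟨fun z => sInf (SS K lam s b M z), fun z hz => le_antisymm ?_ ?_, ?_, fun z _ =>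
    ⟨le_csInf ⟨M, hne z⟩ (hlo z), csInf_le (hbd z) (hne z)⟩⟩
  · refine csInf_le (hbd z) (Or.inr ⟨z, hz, {z}, h1.psingle K z (sphere_subset_closedBall hz),
      rfl, rfl, le_rfl, ?_⟩)
    rw [h1.single K lam s z fun h => (mem_ball.1 (hK h)).ne (mem_sphere.1 hz)]
    exact zero_le
  · refine le_csInf ⟨M, hne z⟩ ?_
    rintro t (rfl | ⟨a, ha, A, hA, haA, hzA, h, hc⟩)
    · exact (abs_le.1 (hb z hz)).2
    · have := lipC_iff.1 hl A hA a ⟨haA, ha⟩ z ⟨hzA, hz⟩ _ (sub_nonneg.2 h) hc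
      linarith
  · refine lipC_iff.2 fun A hA z hz z' hz' t ht hc => ?_
    rw [← sub_le_iff_le_add]
    refine le_csInf ⟨M, hne z⟩ ?_
    rintro t0 (rfl | ⟨a, ha, B, hB, haB, hzB, h, hc'⟩)
    · linarith [csInf_le (hbd z') (hne z')]
    · rw [sub_le_iff_le_add]
      refine csInf_le (hbd z') (Or.inr ⟨a, ha, B ∪ A, h1.punion K B A hB hA ⟨z, hzB, hz.1⟩,
        Or.inl haB, Or.inr hz'.1, by linarith, ?_⟩)
      refine (h1.union K lam s B A).trans ((add_le_add hc' hc).trans (le_of_eq ?_))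
      rw [← ENNReal.ofReal_add (sub_nonneg.2 h) ht]
      congr 1
      ring

end Vale.Agent.P116
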