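import Vale.Agent.P116.TStm

/-! Part T: the iteration of the stages. -/

open Set Filter Topology MeasureTheory Metric Complex
open scoped ENNReal NNReal

noncomputable section
namespace Vale.Agent.P116

namespace TIter

variable {K : Set ℂ} {lam : ℂ → ℝ≥0∞} {s : Cmp K → ℝ} {r : ℕ → ℝ} {V : ℕ → Cmp K → Set ℂ}

theorem bounds (hV : CellT K r V) {e : ℝ} {m m' : ℕ} {w w' : ℂ → ℝ}
    (h : Stg K lam s V e m w m' w') {α β : ℝ} (hb : ∀ z ∈ DD K, α ≤ w z ∧ w z ≤ β) :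
    ∀ z ∈ DD K, α ≤ w' z ∧ w' z ≤ β := by
  intro z hz
  by_cases h1 : ∀ p, z ∉ V m p
  · rw [h.an z hz.1 h1]
    exact hb z hz
  · obtain ⟨p, hp⟩ := not_forall.1 h1
    exact h.keep p α β (fun y hy => hb y (hV.sub_DD m p hy)) z ⟨not_not.1 hp, hz.2⟩

theorem persist (hV : CellT K r V) {e : ℝ} {m m' n : ℕ} {w w' : ℂ → ℝ}
    (h : Stg K lam s V e m w m' w') (hn : n < m) {q : Cmp K} {α β : ℝ}
    (hb : ∀ z ∈ V n q \ K, α ≤ w z ∧ w z ≤ β) : ∀ z ∈ V n q \ K, α ≤ w' z ∧ w' z ≤ β := by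
  intro z hz
  by_cases h1 : ∀ p, z ∉ V m p
  · rw [h.an z (hV.sub_DD n q ⟨subset_closure hz.1, hz.2⟩).1 h1]
    exact hb z hz
  · obtain ⟨p, hp⟩ := not_forall.1 h1
    have hp' := not_not.1 hp
    have h2 : V (m - 1) p ⊆ V n q :=
      hV.dich n (m - 1) q p (by omega) ⟨z, hV.anti (Nat.sub_le m 1) p hp', hz.1⟩
    have h3 : closure (V m p) ⊆ V n q := (hV.cl_sub (by omega) p).trans h2
    exact h.keep p α β (fun y hy => hb y ⟨h3 hy.1, hy.2⟩) z ⟨hp', hz.2⟩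

theorem interval {S : Set ℂ} {w : ℂ → ℝ} {t : ℝ} (hS : S.Nonempty)
    (h : ∀ z ∈ S, ∀ z' ∈ S, w z - w z' ≤ t) : ∃ α, ∀ z ∈ S, α ≤ w z ∧ w z ≤ α + t := by
  obtain ⟨z0, hz0⟩ := hS
  have hb : BddBelow (w '' S) := ⟨w z0 - t, by
    rintro _ ⟨y, hy, rfl⟩
    linarith [h z0 hz0 y hy]⟩
  refine ⟨sInf (w '' S), fun z hz => ⟨csInf_le hb ⟨z, hz, rfl⟩, ?_⟩⟩
  have : w z - t ≤ sInf (w '' S) := le_csInf ⟨_, z0, hz0, rfl⟩ (by
    rintro _ ⟨y, hy, rfl⟩
    linarith [h z hz y hy])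
  linarith

theorem main (hc : S_cmp) (hT : TH K lam s) (hV : CellT K r V) (m m' : ℕ → ℕ) (w : ℕ → ℂ → ℝ)
    (hst : ∀ i : ℕ, Stg K lam s V (1 / ((i : ℝ) + 1)) (m i) (w i) (m' i) (w (i + 1)))
    (hm : ∀ i, m (i + 1) = m' i + 1) :
    ∃ θ : ℂ → ℝ, EqOn θ (w 0) (sphere 0 1) ∧ LipC K lam s (DD K) θ ∧
      ∀ p : Cmp K, Osc K p.1 θ (s p) := by
  have hmono : StrictMono m := strictMono_nat_of_lt_succ fun i => by
    have := (hst i).lt
    rw [hm]
    omega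
  have hconst : ∀ z ∈ closedBall (0 : ℂ) 1, ∀ n, (∀ p, z ∉ V (m n) p) →
      ∀ i, n ≤ i → w i z = w n z := by
    intro z hz n hn i hi
    induction i, hi using Nat.le_induction with
    | base => rfl
    | succ i hi ih =>
      rw [(hst i).an z hz fun p hp => hn p (hV.anti (hmono.monotone hi) p hp), ih]
  have hev : ∀ z, ∃ c, z ∈ DD K → ∀ᶠ i in atTop, w i z = c := by
    intro z
    by_cases hz : z ∈ DD K
    · obtain ⟨n, hn⟩ := hV.far z hz.2
      exact ⟨w n z, fun _ => eventually_atTop.2 ⟨n, hconst z hz.1 n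
        fun p hp => hn p (hV.anti (hmono.id_le n) p hp)⟩⟩
    · exact ⟨0, fun h => absurd h hz⟩
  choose θ hθ using hev
  refine ⟨θ, fun z hz => ?_, fun A hA z hz z' hz' => ?_, fun q ε hε => ?_⟩
  · have hz1 : z ∉ ball (0 : ℂ) 1 := fun h => (mem_ball.1 h).ne (mem_sphere.1 hz)
    obtain ⟨i, hi⟩ := (hθ z ⟨sphere_subset_closedBall hz, fun h => hz1 (hT.sub h)⟩).exists
    rw [← hi]
    exact hconst z (sphere_subset_closedBall hz) 0
      (fun p hp => hz1 (hV.bal _ p (subset_closure hp))) i (Nat.zero_le i)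
  · obtain ⟨i, ⟨h1, h2⟩, h3⟩ := (((hθ z hz.2).and (hθ z' hz'.2)).and (eventually_ge_atTop 1)).exists
    obtain ⟨j, rfl⟩ := Nat.exists_eq_add_of_le' h3
    rw [← h1, ← h2]
    exact (hst j).lip A hA z hz z' hz'
  · have hfin : {p : Cmp K | ¬ s p ^ 2 < (ε / 2) ^ 2}.Finite :=
      eventually_cofinite.1 (hT.sq.2.tendsto_cofinite_zero.eventually
        (gt_mem_nhds (by positivity)))
    have e1 : ∀ᶠ i in atTop, ∀ p ∈ {p : Cmp K | ¬ s p ^ 2 < (ε / 2) ^ 2},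
        p ≠ q → V (m i) p ⊆ q.1ᶜ := by
      refine (eventually_all_finite hfin).2 fun p _ => ?_
      by_cases hpq : p = q
      · exact Eventually.of_forall fun i h => absurd hpq h
      · obtain ⟨n, hn⟩ := hV.shr p q.1ᶜ (hc.cpt K q hT.cpt).isClosed.isOpen_compl
          fun z hz hz' => hpq (hc.eq K p q ⟨z, hz, hz'⟩)
        filter_upwards [eventually_ge_atTop n] with i hi _
        exact (hV.anti (hi.trans (hmono.id_le i)) p).trans (subset_closure.trans hn)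
    have e2 : ∀ᶠ i : ℕ in atTop, 1 / ((i : ℝ) + 1) < ε / 6 :=
      tendsto_one_div_add_atTop_nhds_zero_nat.eventually (gt_mem_nhds (by positivity))
    obtain ⟨i, i1, i2⟩ := (e1.and e2).exists
    obtain ⟨p, p1, p2⟩ := (hst i).osc q
    have hle : s p + 3 * (1 / ((i : ℝ) + 1)) ≤ s q + ε := by
      by_cases hpq : p = q
      · rw [hpq]
        linarith
      · have h1 : s p ^ 2 < (ε / 2) ^ 2 := by
          by_contra h
          obtain ⟨z, hz⟩ := hc.ne K q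
          exact i1 p h hpq (p1 (hV.sup _ q hz)) hz
        have h2 := lt_of_pow_lt_pow_left₀ 2 (by positivity) h1
        linarith [hT.sq.1 q]
    obtain ⟨α, hα⟩ := interval (hV.acc (m' i) q) p2
    have hp : ∀ j, i + 1 ≤ j → ∀ z ∈ V (m' i) q \ K,
        α ≤ w j z ∧ w j z ≤ α + (s p + 3 * (1 / ((i : ℝ) + 1))) := by
      intro j hj
      induction j, hj using Nat.le_induction with
      | base => exact hα
      | succ j hj ih =>
        refine persist hV (hst j) ?_ ih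
        have := hmono.monotone hj
        rw [hm] at this
        omega
    have hθ' : ∀ z ∈ V (m' i) q \ K, α ≤ θ z ∧ θ z ≤ α + (s p + 3 * (1 / ((i : ℝ) + 1))) := by
      intro z hz
      obtain ⟨j, j1, j2⟩ := ((hθ z (hV.sub_DD _ q ⟨subset_closure hz.1, hz.2⟩)).and
        (eventually_ge_atTop (i + 1))).exists
      rw [← j1]
      exact hp j j2 z hz
    refine ⟨V (m' i) q, hV.opn _ q, hV.sup _ q, fun z hz y hy => ?_⟩
    linarith [(hθ' z hz).2, (hθ' y hy).1]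

end TIter

theorem s_Titer (hc : S_cmp) (h1 : S_Tcells) (h2 : S_Tinit) (h3 : S_Tstage) : S_T := by
  intro K lam s b hK hsub hmeas hlow hbdd hs hb hlip
  have hT : TH K lam s := ⟨hK, hsub, hmeas, hlow, hbdd, hs⟩
  obtain ⟨r, V, hV⟩ := h1 K hK hsub
  obtain ⟨M, hM⟩ := hb
  obtain ⟨w0, e0, l0, b0⟩ := h2 K lam s b M hsub hM hlip
  let T := {x : ℕ × (ℂ → ℝ) // LipC K lam s (DD K) x.2 ∧ ∀ z ∈ DD K, -M ≤ x.2 z ∧ x.2 z ≤ M}
  have step : ∀ (i : ℕ) (x : T), ∃ (y : T) (m' : ℕ), y.1.1 = m' + 1 ∧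
      Stg K lam s V (1 / ((i : ℝ) + 1)) x.1.1 x.1.2 m' y.1.2 := by
    intro i x
    obtain ⟨m', w', h⟩ := h3 K lam s r V x.1.1 x.1.2 (-M) M (1 / ((i : ℝ) + 1)) hT hV x.2.1 x.2.2
      (by positivity)
    exact ⟨⟨(m' + 1, w'), h.lip, TIter.bounds hV h x.2.2⟩, m', rfl, h⟩
  choose F m' f1 f2 using step
  let X : ℕ → T := fun i => Nat.rec (⟨(0, w0), l0, b0⟩ : T) F i
  obtain ⟨θ, t1, t2, t3⟩ := TIter.main hc hT hV (fun i => (X i).1.1) (fun i => m' i (X i))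
    (fun i => (X i).1.2) (fun i => f2 i (X i)) (fun i => f1 i (X i))
  exact ⟨θ, t1.trans e0, t2, t3⟩

end Vale.Agent.P116
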