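import Vale.Agent.P116.TStm

/-! Part T: limits of chains of pieces. -/

open Set Filter Topology MeasureTheory Metric Complex
open scoped ENNReal NNReal

noncomputable section
namespace Vale.Agent.P116

theorem s_Tlim (h1 : S_Tcost) (h2 : S_Tseg) : S_Tlim := by
  intro K lam s r V p m R x C hT hC hR hx hP hS ε hε
  have hU : ((hyperfilter ℕ : Ultrafilter ℕ) : Filter ℕ) ≤ atTop := Nat.hyperfilter_le_atTop
  have e1 : ∀ j, ∃ y, m < j → y ∈ frontier (V j p) ∧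
      Tendsto (fun k => x k j) (hyperfilter ℕ) (𝓝 y) := fun j => by
    by_cases hj : m < j
    · obtain ⟨y, hy, hy'⟩ := ((hC.cpt j p).of_isClosed_subset isClosed_frontier
        frontier_subset_closure).ultrafilter_le_nhds ((hyperfilter ℕ).map fun k => x k j)
        (le_principal_iff.2 (hU ((eventually_ge_atTop j).mono fun k hk => hx k j hj hk)))
      exact ⟨y, fun _ => ⟨hy, hy'⟩⟩
    · exact ⟨0, fun h => absurd h hj⟩
  choose y hy using e1
  have e2 : ∀ j, ∃ a : ℝ≥0∞,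
      Tendsto (fun k => cost K lam s (C k j)) (hyperfilter ℕ) (𝓝 a) := fun j => by
    obtain ⟨a, -, ha⟩ := isCompact_univ.ultrafilter_le_nhds
      ((hyperfilter ℕ).map fun k => cost K lam s (C k j)) (by simp)
    exact ⟨a, ha⟩
  choose a ha using e2
  have e3 : ∑' i, a (m + 1 + i) ≤ R := by
    rw [ENNReal.tsum_eq_iSup_nat]
    refine iSup_le fun n => le_of_tendsto
      (tendsto_finsetSum (Finset.range n) fun i _ => ha (m + 1 + i)) (hU ?_)
    filter_upwards [eventually_ge_atTop (m + 1 + n)] with k hk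
    refine le_trans ?_ (hS k)
    have := Finset.sum_Ico_eq_sum_range (fun j => cost K lam s (C k j)) (m + 1) (m + 1 + n)
    rw [Nat.add_sub_cancel_left] at this
    rw [← this]
    refine Finset.sum_le_sum_of_subset fun j hj => ?_
    rw [Finset.mem_Ico] at hj
    rw [Finset.mem_Ioo]
    omega
  have e4 : ∑' i, a (m + 1 + i) ≠ ⊤ := ne_top_of_le_ne_top hR e3
  have e5 : ∀ i (d : ℝ≥0∞), 0 < d → ∃ Q k, Pth K Q ∧ Q ⊆ V (m + i) p ∧ y (m + 1 + i) ∈ Q ∧
      y (m + 1 + (i + 1)) ∈ Q ∧ m + 1 + i ≤ k ∧ x k (m + 1 + i) ∈ Q ∧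
      cost K lam s Q ≤ a (m + 1 + i) + d := fun i d hd => by
    have d0 : 0 < d / 3 := ENNReal.div_pos hd.ne' (by norm_num)
    have sg : ∀ j, m + i < j → ∀ᶠ k in hyperfilter ℕ, ∃ P, Pth K P ∧ P ⊆ V (m + i) p ∧ y j ∈ P ∧
        x k j ∈ P ∧ cost K lam s P ≤ d / 3 := fun j hj => by
      obtain ⟨a1, a2⟩ := hy j (by omega)
      exact a2.eventually (h2.seg K lam s hT _
        ⟨hC.bal j p (frontier_subset_closure a1), hC.fr_notMem a1⟩ _
        ((hC.opn _ p).mem_nhds (hC.cl_sub hj p (frontier_subset_closure a1))) _ d0)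
    have lt := (ha (m + 1 + i)).eventually (gt_mem_nhds
      (ENNReal.lt_add_right (ENNReal.ne_top_of_tsum_ne_top e4 i) d0.ne'))
    obtain ⟨k, ⟨P1, a1, a2, a3, a4, a5⟩, ⟨P2, b1, b2, b3, b4, b5⟩, c1, c2⟩ :=
      ((sg (m + 1 + i) (by omega)).and ((sg (m + 1 + (i + 1)) (by omega)).and
        (lt.and (hU (eventually_gt_atTop (m + 1 + i)))))).exists
    obtain ⟨f1, f2, f3, f4⟩ := hP k (m + 1 + i) (by omega) c2
    refine ⟨P1 ∪ C k (m + 1 + i) ∪ P2, k, h1.punion _ _ _ (h1.punion _ _ _ a1 f1 ⟨_, a4, f3⟩) b1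
      ⟨_, Or.inr f4, b4⟩, union_subset (union_subset a2 (f2.trans (hC.cl_sub (by omega) p))) b2,
      Or.inl (Or.inl a3), Or.inr b3, c2.le, Or.inl (Or.inl a4), ?_⟩
    refine (h1.union _ _ _ _ _).trans ((add_le_add ((h1.union _ _ _ _ _).trans
      (add_le_add a5 c1.le)) b5).trans_eq ?_)
    conv_rhs => rw [← ENNReal.add_thirds d]
    ring
  have ε0 : 0 < ε / 2 := ENNReal.half_pos hε.ne'
  obtain ⟨J, hJ⟩ := ((ENNReal.tendsto_sum_nat_add _ e4).eventually (gt_mem_nhds ε0)).exists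
  obtain ⟨d, hd, hd'⟩ := ENNReal.exists_pos_sum_of_countable ε0.ne' ℕ
  choose Q k hQ using fun i => e5 (i + J) (d i) (ENNReal.coe_pos.2 (hd i))
  refine ⟨k 0, m + 1 + (0 + J), Q, by omega, (hQ 0).2.2.2.2.1, (hQ 0).2.2.2.2.2.1,
    fun i => ⟨(hQ i).1, (hQ i).2.1.trans (hC.anti (by omega) p), _, (hQ i).2.2.2.1, ?_⟩, ?_⟩
  · rw [add_right_comm i J 1]
    exact (hQ (i + 1)).2.2.1
  · refine (ENNReal.tsum_le_tsum fun i => (hQ i).2.2.2.2.2.2).trans ?_
    rw [ENNReal.tsum_add, ← ENNReal.add_halves ε]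
    exact add_le_add hJ.le hd'.le

end Vale.Agent.P116
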