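import Vale.Agent.P116.TStm

/-! Part T: inside a cell the components of a set of finite length are relatively open. -/

open Set Filter Topology MeasureTheory Metric Complex
open scoped ENNReal NNReal

noncomputable section
namespace Vale.Agent.P116

namespace TOpen

theorem cc_closed {F : Set ℂ} (hF : IsClosed F) {u : ℂ} (hu : u ∈ F) :
    IsClosed (connectedComponentIn F u) :=
  closure_subset_iff_isClosed.1 (isPreconnected_connectedComponentIn.closure.subset_connectedComponentIn
    (subset_closure (mem_connectedComponentIn hu))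
    (closure_minimal (connectedComponentIn_subset F u) hF))

theorem long {K B : Set ℂ} (hB : IsPreconnected B) {u z : ℂ} (hu : u ∈ B) (hz : z ∈ B) {t R : ℝ}
    (ht : 0 < t) (h1 : infDist u K ≤ t) (h2 : infDist z K = R) :
    ENNReal.ofReal (R - t) ≤ μH[1] (B \ K) := by
  have h3 : Icc t R ⊆ (fun w => infDist w K) '' (B \ K) := by
    intro c hc
    obtain ⟨w, hw, e⟩ := hB.intermediate_value hu hz (continuous_infDist_pt K).continuousOn
      (show c ∈ Icc (infDist u K) (infDist z K) from ⟨h1.trans hc.1, h2 ▸ hc.2⟩)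
    refine ⟨w, ⟨hw, fun hK => ?_⟩, e⟩
    have e' : infDist w K = c := e
    rw [infDist_zero_of_mem hK] at e'
    linarith [hc.1]
  have h4 := (lipschitz_infDist_pt K).hausdorffMeasure_image_le zero_le_one (B \ K)
  rw [ENNReal.coe_one, ENNReal.one_rpow, one_mul, hausdorffMeasure_real] at h4
  rw [← Real.volume_Icc]
  exact (measure_mono h3).trans h4

end TOpen

theorem s_Topen (h3 : S_Tbump) : S_Topen := by
  intro K r V A j p y hK hc hA hA' hμ hn x hx hxV
  set F := A ∩ closure (V j p) with hF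
  have hFc : IsClosed F := hA.isClosed.inter isClosed_closure
  obtain ⟨t, t1, t2⟩ := exists_between (hc.lt j p x hxV)
  have t0 : 0 < t := infDist_nonneg.trans_lt t1
  obtain ⟨a, ha, ha'⟩ := not_subset.1 hn
  have key : ∀ u ∈ F, infDist u K < t →
      ENNReal.ofReal (r j - t) ≤ μH[1] (connectedComponentIn F u \ K) := by
    intro u hu hu'
    obtain ⟨z, hz, hz'⟩ := h3 A F u hA hA' hFc inter_subset_left hu ⟨a, ha, fun h => ha' h.2⟩
    refine TOpen.long isPreconnected_connectedComponentIn (mem_connectedComponentIn hu) hz t0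
      hu'.le (hc.fr j p z ?_)
    rw [(hc.opn j p).frontier_eq]
    refine ⟨(connectedComponentIn_subset F u hz).2, ?_⟩
    exact closure_minimal (s := A \ F) (t := (V j p)ᶜ)
      (fun w hw hw' => hw.2 ⟨hw.1, subset_closure hw'⟩) (hc.opn j p).isClosed_compl hz'
  set S : Set (Set ℂ) := {B | ∃ u ∈ F, infDist u K < t ∧ B = connectedComponentIn F u} with hS
  have hcl : ∀ B ∈ S, IsClosed B := by
    rintro _ ⟨u, hu, -, rfl⟩
    exact TOpen.cc_closed hFc hu
  have hfin : S.Finite := by
    have h1 := Measure.finite_const_le_meas_of_disjoint_iUnion (μH[1] : Measure ℂ)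
      (ENNReal.ofReal_pos.2 (sub_pos.2 t2)) (As := fun B : S => B.1 \ K)
      (fun B => (hcl B B.2).measurableSet.diff hK.isClosed.measurableSet) ?_ ?_
    · refine (h1.image Subtype.val).subset fun B hB => ⟨⟨B, hB⟩, ?_, rfl⟩
      obtain ⟨u, hu, hu', rfl⟩ := hB
      exact key u hu hu'
    · rintro ⟨_, u, hu, hu', rfl⟩ ⟨_, v, hv, hv', rfl⟩ hne
      refine disjoint_left.2 fun w h1 h2 => hne (Subtype.ext ?_)
      exact (connectedComponentIn_eq h1.1).trans (connectedComponentIn_eq h2.1).symm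
    · refine ne_top_of_le_ne_top hμ (measure_mono (iUnion_subset ?_))
      rintro ⟨_, u, hu, hu', rfl⟩ w hw
      exact ⟨(connectedComponentIn_subset F u hw.1).1, hw.2⟩
  have hZ : IsClosed (⋃ B ∈ S \ {connectedComponentIn F y}, B) :=
    (hfin.subset sdiff_subset).isClosed_biUnion fun B hB => hcl B hB.1
  have hO : IsOpen ((V j p ∩ {w | infDist w K < t}) \ ⋃ B ∈ S \ {connectedComponentIn F y}, B) :=
    ((hc.opn j p).inter (isOpen_lt (continuous_infDist_pt K) continuous_const)).sdiff hZ
  intro hcl'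
  obtain ⟨w, ⟨⟨w1, w2⟩, w3⟩, w4, w5⟩ := mem_closure_iff.1 hcl' _ hO ⟨⟨hxV, t1⟩, fun h => by
    obtain ⟨_, ⟨⟨u, -, -, rfl⟩, h1⟩, h2⟩ := mem_iUnion₂.1 h
    exact h1 ((connectedComponentIn_eq h2).trans (connectedComponentIn_eq hx).symm)⟩
  have hw : w ∈ F := ⟨w4, subset_closure w1⟩
  refine w3 (mem_iUnion₂.2 ⟨connectedComponentIn F w, ⟨⟨w, hw, w2, rfl⟩, fun h => w5 ?_⟩,
    mem_connectedComponentIn hw⟩)
  rw [← mem_singleton_iff.1 h]
  exact mem_connectedComponentIn hw

end Vale.Agent.P116
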