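import Vale.Agent.P116.TStm

/-! Part T: the barrier at a component. -/

open Set Filter Topology MeasureTheory Metric Complex
open scoped ENNReal NNReal

noncomputable section
namespace Vale.Agent.P116

theorem s_Tphi (h1 : S_Tbeta) : S_Tphi := by
  intro K lam s r V w p c R e m1 hC hw hR he hB
  classical
  choose! nx hnx using hB
  obtain ⟨mu, h0, hs⟩ : ∃ mu : ℕ → ℕ, mu 0 = m1 ∧ ∀ t, mu (t + 1) = nx (mu t) :=
    ⟨fun t => nx^[t] m1, rfl, fun t => Function.iterate_succ_apply' _ _ _⟩
  have hge : ∀ t, m1 ≤ mu t := fun t => by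
    induction t with
    | zero => exact h0.ge
    | succ t ih => rw [hs]; exact ih.trans (hnx _ ih).1.le
  have hmono : StrictMono mu := strictMono_nat_of_lt_succ fun t => by
    rw [hs]; exact (hnx _ (hge t)).1
  choose β hβ using fun t => h1 K lam s r V w p c R (mu t) (mu (t + 1)) hC hR
    (by rw [hs]; exact (hnx _ (hge t)).2)
  obtain ⟨N, hN⟩ := exists_nat_gt (R / e)
  have hN0 : (0 : ℝ) < N := (div_nonneg hR he.le).trans_lt hN
  have hRe : R / N ≤ e := by
    rw [div_lt_iff₀ he] at hN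
    rw [div_le_iff₀ hN0]
    linarith
  have hnn : ∀ z, 0 ≤ (∑ t ∈ Finset.range N, β t z) / N := fun z =>
    div_nonneg (Finset.sum_nonneg fun t _ => ((hβ t).bd z).1) hN0.le
  refine ⟨mu N, fun z => c + (∑ t ∈ Finset.range N, β t z) / N, hge N, ?_,
    fun z => by linarith [hnn z], fun z hz => ?_, fun n q hn => ?_⟩
  · rw [lipC_iff] at hw ⊢
    intro A hA z hz z' hz' t ht hc
    rw [← min_add_add_right]
    refine le_min ((min_le_left _ _).trans (hw A hA z hz z' hz' t ht hc)) ?_
    by_cases hA' : ∀ y ∈ A \ K, c < w y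
    · refine (min_le_right _ _).trans ?_
      have h2 := Finset.sum_le_sum fun i (_ : i ∈ Finset.range N) =>
        (hβ i).lip A hA hA' z hz.1 z' hz'.1 t ht hc
      rw [Finset.sum_add_distrib, Finset.sum_const, Finset.card_range, nsmul_eq_mul] at h2
      have h3 := div_le_div_of_nonneg_right h2 hN0.le
      rw [add_div, mul_div_cancel_left₀ _ hN0.ne'] at h3
      linarith
    · push Not at hA'
      obtain ⟨y, hy, hy'⟩ := hA'
      have h2 := hw A hA y ⟨hy.1, hA.2.2.1 hy.1, hy.2⟩ z' hz' t ht hc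
      linarith [min_le_left (w z') (c + (∑ t ∈ Finset.range N, β t z') / N), hnn z]
  · rw [Finset.sum_congr rfl fun t _ => (hβ t).out z fun h => hz (hC.anti (hge t) p h),
      Finset.sum_const, Finset.card_range, nsmul_eq_mul, mul_div_cancel_left₀ _ hN0.ne']
  · obtain ⟨I, hI⟩ : ∃ I : Finset ℕ, ∀ t, t ∈ I ↔
        t < N ∧ Disjoint (V n q) (V (mu t) p) :=
      ⟨(Finset.range N).filter fun t => Disjoint (V n q) (V (mu t) p), fun t => by simp⟩
    obtain ⟨J, hJ⟩ : ∃ J : Finset ℕ, ∀ t, t ∈ J ↔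
        t < N ∧ V n q ⊆ V (mu t) p ∧ ¬ V n q ⊆ V (mu (t + 1)) p :=
      ⟨(Finset.range N).filter fun t => V n q ⊆ V (mu t) p ∧ ¬ V n q ⊆ V (mu (t + 1)) p,
        fun t => by simp⟩
    have hJ1 : J.card ≤ 1 := by
      have k : ∀ a ∈ J, ∀ b ∈ J, ¬ a < b := fun a ha b hb hab =>
        ((hJ a).1 ha).2.2 (((hJ b).1 hb).2.1.trans (hC.anti (hmono.monotone hab) p))
      exact Finset.card_le_one.2 fun a ha b hb =>
        le_antisymm (not_lt.1 (k b hb a ha)) (not_lt.1 (k a ha b hb))
    refine ⟨c + I.card * R / N, fun z hz => ⟨?_, ?_⟩, fun h => ?_⟩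
    · have h2 : ∑ t ∈ I, β t z ≤ ∑ t ∈ Finset.range N, β t z :=
        Finset.sum_le_sum_of_subset_of_nonneg (fun t ht => Finset.mem_range.2 ((hI t).1 ht).1)
          fun t _ _ => ((hβ t).bd z).1
      rw [Finset.sum_congr rfl fun t ht => (hβ t).out z
        (Set.disjoint_left.1 ((hI t).1 ht).2 hz.1), Finset.sum_const, nsmul_eq_mul] at h2
      linarith [div_le_div_of_nonneg_right h2 hN0.le]
    · have h2 : 0 ≤ I.card * R / N := by positivity
      rcases le_or_gt (w z) c with hc | hc
      · exact (min_le_left _ _).trans (by linarith)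
      refine (min_le_right _ _).trans ?_
      have h3 : ∑ t ∈ I ∪ J, β t z = ∑ t ∈ Finset.range N, β t z := by
        refine Finset.sum_subset (fun t ht => Finset.mem_range.2 ?_) fun t ht ht' => ?_
        · exact (Finset.mem_union.1 ht).elim (fun h => ((hI t).1 h).1) fun h => ((hJ t).1 h).1
        · rw [Finset.mem_union, hI, hJ, not_or] at ht'
          rw [Finset.mem_range] at ht
          have a1 : V n q ⊆ V (mu t) p := hC.dich _ _ p q ((hmono ht).le.trans hn)
            (not_disjoint_iff_nonempty_inter.1 fun h => ht'.1 ⟨ht, h⟩)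
          have a2 : V n q ⊆ V (mu (t + 1)) p := by_contra fun h => ht'.2 ⟨ht, a1, h⟩
          exact (hβ t).inn z ⟨a2 hz.1, hz.2⟩ hc
      have h4 := Finset.sum_le_card_nsmul (I ∪ J) (fun t => β t z) R fun t _ => ((hβ t).bd z).2
      have h5 : ((I ∪ J).card : ℝ) ≤ I.card + 1 := by
        exact_mod_cast (Finset.card_union_le I J).trans (Nat.add_le_add_left hJ1 _)
      rw [h3, nsmul_eq_mul] at h4
      have h6 := div_le_div_of_nonneg_right (h4.trans (mul_le_mul_of_nonneg_right h5 hR)) hN0.le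
      rw [add_mul, add_div, one_mul] at h6
      linarith
    · have : I = ∅ := Finset.eq_empty_of_forall_notMem fun t ht => by
        obtain ⟨z, hz, -⟩ := hC.acc n q
        exact Set.disjoint_left.1 ((hI t).1 ht).2 hz
          (hC.anti (hmono ((hI t).1 ht).1).le p (h hz))
      simp [this]

end Vale.Agent.P116
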