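import Vale.Agent.P116.TStm

/-! Part T: cutting a path into pieces between consecutive frontiers. -/

open Set Filter Topology MeasureTheory Metric Complex
open scoped ENNReal NNReal

noncomputable section
namespace Vale.Agent.P116

namespace TPieces

theorem closed_cc {F : Set ℂ} (hF : IsClosed F) (y : ℂ) : IsClosed (connectedComponentIn F y) := by
  by_cases hy : y ∈ F
  · refine closure_subset_iff_isClosed.1 ?_
    exact isPreconnected_connectedComponentIn.closure.subset_connectedComponentIn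
      (subset_closure (mem_connectedComponentIn hy))
      (closure_minimal (connectedComponentIn_subset F y) hF)
  · rw [connectedComponentIn_eq_empty hy]
    exact isClosed_empty

theorem meet (h3 : S_Tbump) {B B' : Set ℂ} (hB : IsCompact B) (hc : IsPreconnected B)
    (hB' : IsClosed B') {x y : ℂ} (hx : x ∈ B \ B') (hy : y ∈ B) (hy' : y ∈ B') :
    (connectedComponentIn (closure (B \ B')) x ∩ B').Nonempty := by
  by_cases h : B ⊆ closure (B \ B')
  · exact ⟨y, hc.subset_connectedComponentIn hx.1 h hy, hy'⟩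
  · obtain ⟨z, hz, hz'⟩ := h3 B (closure (B \ B')) x hB hc isClosed_closure
      (closure_minimal sdiff_subset hB.isClosed) (subset_closure hx) (not_subset.1 h)
    refine ⟨z, hz, closure_minimal (fun w hw => ?_) hB' hz'⟩
    by_contra hw'
    exact hw.2 (subset_closure ⟨hw.1, hw'⟩)

end TPieces

open TPieces in
theorem s_Tpieces (hc : S_cmp) (h1 : S_Tcost) (h2 : S_Tseg) (h3 : S_Tbump) (h4 : S_Topen) :
    S_Tpieces := by
  intro K lam s r V p m k A hK hV hA hS hfin hout ⟨y, hyA, hyV⟩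
  set B : ℕ → Set ℂ := fun j => connectedComponentIn (A ∩ closure (V j p)) y with hB
  have hF : ∀ j, IsClosed (A ∩ closure (V j p)) := fun j => hA.1.isClosed.inter isClosed_closure
  have hcl : ∀ j, IsClosed (B j) := fun j => closed_cc (hF j) y
  have hsub : ∀ j, B j ⊆ A ∩ closure (V j p) := fun j => connectedComponentIn_subset _ _
  have hanti : ∀ j j', j ≤ j' → B j' ⊆ B j := fun j j' h =>
    connectedComponentIn_mono y (inter_subset_inter_right _ (closure_mono (hV.anti h p)))
  have hyF : ∀ j ≤ k, y ∈ A ∩ closure (V j p) := fun j hj =>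
    ⟨hyA, subset_closure (hV.anti hj p hyV)⟩
  have hy : ∀ j ≤ k, y ∈ B j := fun j hj => mem_connectedComponentIn (hyF j hj)
  have hn : ∀ j, m < j → ¬ A ⊆ closure (V j p) := fun j hj h => hout (h.trans (hV.cl_sub hj p))
  have hop : ∀ j, m < j → ∀ x ∈ B j, x ∈ V j p → x ∉ closure (A \ B j) := fun j hj =>
    h4 K r V A j p y hK.cpt hV hA.1 hA.2.1 (h2.len K lam s hK A hA hfin) (hn j hj)
  have hfr : ∀ j, m < j → ∀ x ∈ B j, x ∈ closure (A \ B j) → x ∈ frontier (V j p) := by
    intro j hj x hx hx'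
    rw [(hV.opn j p).frontier_eq]
    exact ⟨(hsub j hx).2, fun h => hop j hj x hx h hx'⟩
  have hG : ∀ j, closure (B j \ B (j + 1)) ⊆ closure (A \ B (j + 1)) := fun j =>
    closure_mono fun z hz => ⟨(hsub j hz.1).1, hz.2⟩
  have hG' : ∀ j, closure (B j \ B (j + 1)) ⊆ B j := fun j => closure_minimal sdiff_subset (hcl j)
  have hd : ∀ j x, x ∈ B j ∩ frontier (V j p) → x ∈ B j \ B (j + 1) := fun j x hx =>
    ⟨hx.1, fun h => hV.fr_out hx.2 p (hV.nest j p (hsub _ h).2)⟩
  have h0 : ∃ x0, m < k → x0 ∈ B (m + 1) ∩ frontier (V (m + 1) p) := by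
    by_cases hmk : m < k
    · obtain ⟨a, ha, ha'⟩ := not_subset.1 (hn (m + 1) (Nat.lt_succ_self m))
      obtain ⟨z, hz, hz'⟩ := h3 A _ y hA.1 hA.2.1 (hF (m + 1)) inter_subset_left (hyF _ hmk)
        ⟨a, ha, fun h => ha' h.2⟩
      exact ⟨z, fun _ => ⟨hz, hfr _ (Nat.lt_succ_self m) z hz
        (closure_mono (sdiff_subset_sdiff_right (hsub _)) hz')⟩⟩
    · exact ⟨0, fun h => absurd h hmk⟩
  have hstep : ∀ (j : ℕ) (x : ℂ), ∃ x', m < j → j < k → x ∈ B j ∩ frontier (V j p) →
      x' ∈ B (j + 1) ∩ frontier (V (j + 1) p) ∧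
        x' ∈ connectedComponentIn (closure (B j \ B (j + 1))) x := by
    intro j x
    by_cases h : m < j ∧ j < k ∧ x ∈ B j ∩ frontier (V j p)
    · obtain ⟨z, hz, hz'⟩ := meet h3
        (hA.1.of_isClosed_subset (hcl j) fun w hw => (hsub j hw).1)
        isPreconnected_connectedComponentIn (hcl (j + 1)) (hd j x h.2.2) (hy j h.2.1.le)
        (hy (j + 1) h.2.1)
      exact ⟨z, fun _ _ _ => ⟨⟨hz', hfr _ (by omega) z hz'
        (hG j (connectedComponentIn_subset _ _ hz))⟩, hz⟩⟩
    · exact ⟨0, fun a b c => absurd ⟨a, b, c⟩ h⟩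
  obtain ⟨x0, hx0⟩ := h0
  choose nxt hnxt using hstep
  let X : ℕ → ℂ := fun n => Nat.rec x0 (fun j x => if j ≤ m then x0 else nxt j x) n
  have hX : ∀ j, m < j → X (j + 1) = nxt j (X j) := fun j hj => if_neg (not_le.2 hj)
  have hmem : ∀ j, m < j → j ≤ k → X j ∈ B j ∩ frontier (V j p) := by
    intro j hj
    induction hj with
    | refl =>
      intro hk
      have : X (m + 1) = x0 := if_pos le_rfl
      rw [Nat.succ_eq_add_one, this]
      exact hx0 hk
    | @step j hj ih =>
      intro hk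
      rw [Nat.succ_eq_add_one, hX j hj]
      exact (hnxt j _ hj hk (ih (Nat.le_of_succ_le hk))).1
  set C : ℕ → Set ℂ := fun j => connectedComponentIn (closure (B j \ B (j + 1))) (X j) with hC
  have hCB : ∀ j, C j ⊆ B j := fun j => (connectedComponentIn_subset _ _).trans (hG' j)
  have hCA : ∀ j, C j ⊆ A := fun j z hz => (hsub j (hCB j hz)).1
  have hCc : ∀ j, IsClosed (C j) := fun j => closed_cc isClosed_closure _
  refine ⟨X, C, fun j hj hk => ⟨(hsub j (hmem j hj hk).1).1, (hmem j hj hk).2⟩,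
    fun j hj hk => ⟨h1.psub K A _ hA (hCc j) isPreconnected_connectedComponentIn (hCA j),
      fun z hz => (hsub j (hCB j hz)).2,
      mem_connectedComponentIn (subset_closure (hd j _ (hmem j hj hk.le))), ?_⟩, ?_⟩
  · rw [hX j hj]
    exact (hnxt j _ hj hk (hmem j hj hk.le)).2
  refine h1.mult K lam s A _ C hK.cpt.isClosed (fun j _ => ⟨hCc j, hCA j⟩) fun j hj j' _ hjj => ?_
  have hj := (Finset.mem_Ioo.1 hj).1
  have key : ∀ z ∈ B (j + 1), z ∈ V (j + 1) p → z ∉ C j := fun z hz hz' h =>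
    hop (j + 1) (by omega) z hz hz' (hG j (connectedComponentIn_subset _ _ h))
  have hin : ∀ z ∈ C j', z ∈ B (j + 1) ∧ z ∈ V (j + 1) p := fun z hz =>
    ⟨hanti _ _ (by omega) (hCB j' hz), hV.cl_sub (by omega) p (hsub j' (hCB j' hz)).2⟩
  refine ⟨disjoint_right.2 fun z hz => key z (hin z hz).1 (hin z hz).2, ?_⟩
  rintro q ⟨a, haq, ha⟩ ⟨z, hzq, hz⟩
  have hqA : q.1 ⊆ A := hS q ⟨z, hzq, hCA j' hz⟩
  have hqV : q.1 ⊆ V (j + 1) p := by
    by_contra h
    obtain ⟨w, hw, hw'⟩ := hV.cross (hc.con K q) ⟨z, hzq, (hin z hz).2⟩ h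
    exact hV.fr_notMem hw' (hc.sub K q hw)
  have hqB : q.1 ⊆ B (j + 1) := by
    have := (hc.con K q).subset_connectedComponentIn hzq
      (subset_inter hqA (hqV.trans subset_closure))
    rwa [← connectedComponentIn_eq (hin z hz).1] at this
  exact key a (hqB haq) (hqV haq) ha

end Vale.Agent.P116
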