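import Vale.Agent.P116.TStm

/-! Part T: saturation of paths. -/

open Set Filter Topology MeasureTheory Metric Complex
open scoped ENNReal NNReal

noncomputable section
namespace Vale.Agent.P116

namespace TSat

/-- The saturation. -/
def sat (K A : Set ℂ) : Set ℂ := A ∪ {z | ∃ q : Cmp K, (q.1 ∩ A).Nonempty ∧ z ∈ q.1}

variable {K A : Set ℂ}

theorem meet (hc : S_cmp) (q : Cmp K) : (q.1 ∩ sat K A).Nonempty ↔ (q.1 ∩ A).Nonempty := by
  constructor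
  · rintro ⟨z, hz, h | ⟨p, hp, hzp⟩⟩
    · exact ⟨z, hz, h⟩
    · rwa [hc.eq K q p ⟨z, hz, hzp⟩]
  · rintro ⟨z, hz, h⟩
    exact ⟨z, hz, Or.inl h⟩

theorem diff (hc : S_cmp) : sat K A \ K = A \ K := by
  ext z
  constructor
  · rintro ⟨h | ⟨p, -, hzp⟩, hz⟩
    · exact ⟨h, hz⟩
    · exact absurd (hc.sub K p hzp) hz
  · rintro ⟨h, hz⟩
    exact ⟨Or.inl h, hz⟩

theorem con (hc : S_cmp) (hA : IsPreconnected A) : IsPreconnected (sat K A) := by
  rcases eq_empty_or_nonempty A with rfl | ⟨x, hx⟩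
  · have : sat K ∅ = ∅ := by simp [sat]
    rw [this]
    exact isPreconnected_empty
  refine isPreconnected_of_forall x ?_
  rintro y (h | ⟨p, ⟨a, hap, ha⟩, hyp⟩)
  · exact ⟨A, subset_union_left, hx, h, hA⟩
  · exact ⟨A ∪ p.1, union_subset_union_right _ fun z hz => ⟨p, ⟨a, hap, ha⟩, hz⟩, Or.inl hx,
      Or.inr hyp, hA.union a ha hap (hc.con K p)⟩

theorem closed (hc : S_cmp) (hK : IsCompact K) (hA : IsClosed A) : IsClosed (sat K A) := by
  rw [← isOpen_compl_iff, isOpen_iff_forall_mem_open]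
  intro z hz
  have hzA : z ∉ A := fun h => hz (Or.inl h)
  by_cases hzK : z ∈ K
  · obtain ⟨q, hq⟩ := hc.mem K z hzK
    have h1 : q.1 ⊆ Aᶜ := fun w hw hwA => hz (Or.inr ⟨q, ⟨w, hw, hwA⟩, hq⟩)
    obtain ⟨Q, hQ, h2, h3⟩ := hc.nbhd K q Aᶜ hK hA.isOpen_compl h1
    refine ⟨(K \ Q)ᶜ ∩ Aᶜ, ?_, hQ.2.2.isOpen_compl.inter hA.isOpen_compl,
      fun h => h.2 (h2 hq), hzA⟩
    rintro w ⟨hw1, hw2⟩ (h | ⟨p, ⟨a, hap, ha⟩, hwp⟩)
    · exact hw2 h
    · rcases hc.dich K Q p hQ with h | h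
      · exact h3 (h hap) ha
      · exact hw1 (h hwp)
  · refine ⟨Kᶜ ∩ Aᶜ, ?_, hK.isClosed.isOpen_compl.inter hA.isOpen_compl, hzK, hzA⟩
    rintro w ⟨hw1, hw2⟩ (h | ⟨p, -, hwp⟩)
    · exact hw2 h
    · exact hw1 (hc.sub K p hwp)

end TSat

theorem s_Tsat (hc : S_cmp) : S_Tsat := by
  intro K lam s A hK hKb hA
  have hsub : TSat.sat K A ⊆ closedBall 0 1 := by
    rintro z (h | ⟨p, -, hzp⟩)
    · exact hA.2.2.1 h
    · exact ball_subset_closedBall (hKb (hc.sub K p hzp))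
  refine ⟨TSat.sat K A, ⟨(isCompact_closedBall 0 1).of_isClosed_subset
    (TSat.closed hc hK hA.1.isClosed) hsub, TSat.con hc hA.2.1, hsub, ?_⟩, subset_union_left, ?_,
    fun q hq z hz => Or.inr ⟨q, (TSat.meet hc q).1 hq, hz⟩, ?_⟩
  · simp only [TSat.meet hc]
    exact hA.2.2.2
  · rw [TSat.diff hc]
    exact diff_subset
  · rw [cost, cost, TSat.diff hc]
    congr 1
    exact tsum_congr fun q => by rw [propext (TSat.meet hc q)]

end Vale.Agent.P116
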