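import Vale.Agent.P116.TStm

/-! Part T: short segments are cheap, and paths of finite cost have finite length. -/

open Set Filter Topology MeasureTheory Metric Complex
open scoped ENNReal NNReal

noncomputable section
namespace Vale.Agent.P116

theorem s_Tseg (hc : S_cmp) : S_Tseg := by
  refine ⟨fun K lam s h x hx U hU ε hε => ?_, fun K lam s h A hA hf => ?_⟩
  · have hW : U ∩ (ball (0 : ℂ) 1 \ K) ∈ 𝓝 x :=
      inter_mem hU ((isOpen_ball.sdiff h.cpt.isClosed).mem_nhds hx)
    obtain ⟨d, hd, hsub⟩ := nhds_basis_closedBall.mem_iff.1 hW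
    obtain ⟨M, hM⟩ := h.bdd (closedBall x d) (isCompact_closedBall x d)
      fun z hz => ⟨ball_subset_closedBall (hsub hz).2.1, (hsub hz).2.2⟩
    have ht : Tendsto (fun y => (M : ℝ≥0∞) * edist x y) (𝓝 x) (𝓝 ((M : ℝ≥0∞) * edist x x)) :=
      ENNReal.Tendsto.const_mul ((continuous_const.edist continuous_id).tendsto x)
        (Or.inr ENNReal.coe_ne_top)
    rw [edist_self, mul_zero] at ht
    filter_upwards [ht.eventually (ge_mem_nhds hε), closedBall_mem_nhds x hd] with y hy hyd
    have hP : segment ℝ x y ⊆ closedBall x d :=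
      (convex_closedBall x d).segment_subset (mem_closedBall_self hd.le) hyd
    have hK : ∀ p : Cmp K, ¬ (p.1 ∩ segment ℝ x y).Nonempty := fun p ⟨z, h1, h2⟩ =>
      (hsub (hP h2)).2.2 (hc.sub K p h1)
    have hcp : IsCompact (segment ℝ x y) := by
      rw [segment_eq_image_lineMap]
      exact isCompact_Icc.image AffineMap.lineMap_continuous
    refine ⟨segment ℝ x y, ⟨hcp, (convex_segment x y).isPreconnected,
      fun z hz => ball_subset_closedBall (hsub (hP hz)).2.1, ?_⟩, fun z hz => (hsub (hP hz)).1,
      left_mem_segment _ _ _, right_mem_segment _ _ _, le_trans ?_ hy⟩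
    · simp [hK]
    · simp only [cost, hK, if_false, tsum_zero, add_zero]
      refine (lintegral_mono_set sdiff_subset).trans ?_
      rw [← hausdorffMeasure_segment, ← setLIntegral_const]
      exact setLIntegral_mono' hcp.measurableSet fun z hz => hM z (hP hz)
  · obtain ⟨c, c0, hl⟩ := h.low
    have h1 : (c : ℝ≥0∞) * μH[1] (A \ K) ≤ cost K lam s A := by
      rw [← setLIntegral_const]
      exact (setLIntegral_mono h.meas fun z hz => hl z (hA.2.2.1 hz.1)).trans le_self_add
    intro h2
    rw [h2, ENNReal.mul_top (by exact_mod_cast c0.ne')] at h1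
    exact hf (top_le_iff.1 h1)

end Vale.Agent.P116
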