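import Vale.Agent.P116.TStm

/-! Part T: one stage. -/

open Set Filter Topology MeasureTheory Metric Complex
open scoped ENNReal NNReal

noncomputable section
namespace Vale.Agent.P116

namespace TStage

variable {K : Set ℂ} {lam : ℂ → ℝ≥0∞} {s : Cmp K → ℝ} {r : ℕ → ℝ} {V : ℕ → Cmp K → Set ℂ}

theorem level (hV : CellT K r V) {w : ℂ → ℝ} {lo hi e : ℝ}
    (hb : ∀ z ∈ DD K, lo ≤ w z ∧ w z ≤ hi) (he : 0 < e) (m : ℕ) (p : Cmp K) :
    ∃ (l : ℝ) (n : ℕ), m ≤ n ∧ (∀ k, ∃ z ∈ V k p \ K, w z < l + e / 4) ∧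
      (∀ z ∈ V n p \ K, l - e ≤ w z) ∧ ∀ α, (∀ z ∈ V m p \ K, α ≤ w z) → α ≤ l := by
  have hD : ∀ n, ∀ z ∈ V n p \ K, z ∈ DD K := fun n z hz =>
    hV.sub_DD n p ⟨subset_closure hz.1, hz.2⟩
  have h1 : BddAbove {α | ∃ n, ∀ z ∈ V n p \ K, α ≤ w z} := ⟨hi, by
    rintro α ⟨n, hn⟩
    obtain ⟨z, hz⟩ := hV.acc n p
    exact (hn z hz).trans (hb z (hD n z hz)).2⟩
  obtain ⟨α, ⟨n, hn⟩, h2⟩ := exists_lt_of_lt_csSup
    (s := {α | ∃ n, ∀ z ∈ V n p \ K, α ≤ w z}) ⟨lo, 0, fun z hz => (hb z (hD 0 z hz)).1⟩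
    (sub_lt_self _ he)
  refine ⟨_, max m n, le_max_left _ _, fun k => ?_,
    fun z hz => h2.le.trans (hn z ⟨hV.anti (le_max_right _ _) p hz.1, hz.2⟩),
    fun β hβ => le_csSup h1 ⟨m, hβ⟩⟩
  by_contra hc
  have := le_csSup h1 ⟨k, fun z hz => not_lt.1 fun h => hc ⟨z, hz, h⟩⟩
  linarith

theorem fmin {w : ℂ → ℝ} {Φ : Cmp K → ℂ → ℝ} (hw : LipC K lam s (DD K) w)
    (h : ∀ p, LipC K lam s (DD K) fun z => min (w z) (Φ p z)) (J : Finset (Cmp K)) :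
    ∃ w' : ℂ → ℝ, LipC K lam s (DD K) w' ∧ ∀ z, (w' z = w z ∨ ∃ p ∈ J, w' z = Φ p z) ∧
      w' z ≤ w z ∧ ∀ p ∈ J, w' z ≤ Φ p z := by
  classical
  induction J using Finset.induction_on with
  | empty => exact ⟨w, hw, fun z => ⟨Or.inl rfl, le_rfl, by simp⟩⟩
  | insert q J _ ih =>
    obtain ⟨u, h1, h2⟩ := ih
    refine ⟨_, h1.min (h q), fun z => ⟨?_, (min_le_left _ _).trans (h2 z).2.1, fun p hp => ?_⟩⟩
    · rcases min_choice (u z) (min (w z) (Φ q z)) with h3 | h3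
      · exact (h2 z).1.imp h3.trans fun ⟨p, hp, h4⟩ =>
          ⟨p, Finset.mem_insert_of_mem hp, h3.trans h4⟩
      · exact (min_choice (w z) (Φ q z)).imp h3.trans fun h4 =>
          ⟨q, Finset.mem_insert_self _ _, h3.trans h4⟩
    · rcases Finset.mem_insert.1 hp with rfl | hp
      · exact (min_le_right _ _).trans (min_le_right _ _)
      · exact (min_le_left _ _).trans ((h2 z).2.2 p hp)

end TStage

theorem s_Tstage (hc : S_cmp) (h1 : S_Tenv) (h2 : S_Tclaim) (h3 : S_Tphi) : S_Tstage := by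
  intro K lam s r V m w lo hi e hT hV hw hb he
  obtain ⟨u, E⟩ := h1 K lam s r V m w lo hi hT hV hw hb
  have hD : ∀ n p, ∀ z ∈ V n p \ K, z ∈ DD K := fun n p z hz =>
    hV.sub_DD n p ⟨subset_closure hz.1, hz.2⟩
  have hu : ∀ z ∈ DD K, lo ≤ u z ∧ u z ≤ hi := fun z hz => by
    refine ⟨(hb z hz).1.trans (E.le z hz), ?_⟩
    by_cases h : ∀ p, z ∉ V m p
    · rw [E.an z hz.1 h]
      exact (hb z hz).2
    · obtain ⟨p, hp⟩ := not_forall.1 h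
      exact E.ub p hi (fun y hy => (hb y (hV.sub_DD m p hy)).2) z ⟨not_not.1 hp, hz.2⟩
  have hR : 0 ≤ hi - lo := by
    have := hb 1 ⟨by simp, fun h => by simpa using hT.sub h⟩
    linarith
  choose l m1 l1 l2 l3 l4 using TStage.level hV hu he m
  choose m2 Φ hB using fun p => h3 K lam s r V u p (l p + s p + e) (hi - lo) e (m1 p) hV E.lip hR he
    fun n hn => h2 K lam s r V m u lo (l p) e (hi - lo) p hT hV E.lip (fun z hz => (hu z hz).1)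
      E.att he (l2 p) n ((l1 p).trans hn)
  obtain ⟨J, hJ⟩ := hT.cpt.elim_finite_subcover (fun p => V (m2 p) p) (fun p => hV.opn _ p)
    fun z hz => by
      obtain ⟨p, hp⟩ := hc.mem K z hz
      exact mem_iUnion.2 ⟨p, hV.sup _ p hp⟩
  obtain ⟨w', a1, a2⟩ := TStage.fmin E.lip (fun p => (hB p).lip) J
  have hs := hT.sq.1
  have key : ∀ z ∈ DD K, w' z = u z ∨ ∃ j, z ∈ V m j ∧ l j ≤ w' z := fun z hz => by
    rcases (a2 z).1 with h | ⟨j, -, h⟩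
    · exact Or.inl h
    by_cases h4 : z ∈ V (m1 j) j
    · exact Or.inr ⟨j, hV.anti (l1 j) j h4, by linarith [(hB j).ge z, hs j]⟩
    · refine Or.inl ((a2 z).2.1.antisymm ?_)
      linarith [(hB j).out z h4, hs j, (hu z hz).2,
        l4 j lo fun y hy => (hu y (hD m j y hy)).1]
  have hm : ∀ j ∈ J, m2 j ≤ J.sup m2 + m + 1 := fun j hj => by
    have := Finset.le_sup (f := m2) hj
    omega
  refine ⟨J.sup m2 + m + 1, w', by omega, a1, fun z hz h => ?_, fun p α β h z hz => ⟨?_, ?_⟩,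
    fun q => ?_⟩
  · have h4 : z ∉ K := fun hK => by
      obtain ⟨p, hp⟩ := hc.mem K z hK
      exact h p (hV.sup m p hp)
    rcases key z ⟨hz, h4⟩ with h5 | ⟨j, h5, -⟩
    · rw [h5, E.an z hz h]
    · exact (h j h5).elim
  · have h4 : ∀ y ∈ V m p \ K, α ≤ u y := fun y hy =>
      (h y ⟨subset_closure hy.1, hy.2⟩).1.trans (E.le y (hD m p y hy))
    rcases key z (hD m p z hz) with h5 | ⟨j, h5, h6⟩
    · exact h5 ▸ h4 z hz
    · exact (l4 j α (hV.eq_of_mem hz.1 h5 ▸ h4)).trans h6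
  · exact (a2 z).2.1.trans (E.ub p β (fun y hy => (h y hy).2) z hz)
  obtain ⟨x, hx⟩ := hc.ne K q
  obtain ⟨i, hi', h4⟩ := mem_iUnion₂.1 (hJ (hc.sub K q hx))
  have h5 := hV.dich _ _ i q (hm i hi') ⟨x, hV.sup _ q hx, h4⟩
  have h6 := h5.trans (hV.anti (hB i).le i)
  refine ⟨i, h6.trans (hV.anti (l1 i) i), fun z hz z' hz' => ?_⟩
  rcases (a2 z').1 with h | ⟨j, hj, h⟩
  · obtain ⟨a, b1, b2⟩ := (hB i).cell _ q (hm i hi')
    linarith [b2 h5, (le_min (a2 z).2.1 ((a2 z).2.2 i hi')).trans (b1 z hz).2,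
      l3 i z' ⟨h6 hz'.1, hz'.2⟩]
  · obtain ⟨a, b1, -⟩ := (hB j).cell _ q (hm j hj)
    linarith [(le_min (a2 z).2.1 ((a2 z).2.2 j hj)).trans (b1 z hz).2, (b1 z' hz').1, hs i]

end Vale.Agent.P116
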