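import Vale.Agent.P116.TCells
import Vale.Agent.P116.TCost
import Vale.Agent.P116.TSeg
import Vale.Agent.P116.TSat
import Vale.Agent.P116.TBump
import Vale.Agent.P116.TOpen
import Vale.Agent.P116.TPieces
import Vale.Agent.P116.TChain
import Vale.Agent.P116.TLim
import Vale.Agent.P116.TAcc
import Vale.Agent.P116.TEnv
import Vale.Agent.P116.TClaim
import Vale.Agent.P116.TBeta
import Vale.Agent.P116.TPhi
import Vale.Agent.P116.TStage
import Vale.Agent.P116.TInit
import Vale.Agent.P116.TIter

/-! Part T: extension of boundary data to a good function. -/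

namespace Vale.Agent.P116

theorem s_T_of (hc : S_cmp) : S_T := by
  have cost := s_Tcost hc
  have seg := s_Tseg hc
  have bump := s_Tbump hc
  have acc := s_Tacc cost (s_Tsat hc) (s_Tpieces hc cost seg bump (s_Topen bump))
    (s_Tlim cost seg) (s_Tchain hc)
  exact s_Titer hc (s_Tcells hc) (s_Tinit cost)
    (s_Tstage hc (s_Tenv cost) (s_Tclaim cost acc) (s_Tphi (s_Tbeta cost)))

theorem s_T (L : Lib) : S_T := s_T_of L.cmp

end Vale.Agent.P116
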