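import Vale.Agent.P116.AStm

/-! Part T (extension of boundary data): definitions and statements. -/

open Set Filter Topology MeasureTheory Metric Complex
open scoped ENNReal NNReal

noncomputable section
namespace Vale.Agent.P116

/-- The standing hypotheses of part T. -/
structure TH (K : Set ℂ) (lam : ℂ → ℝ≥0∞) (s : Cmp K → ℝ) : Prop where
  cpt : IsCompact K
  sub : K ⊆ ball 0 1
  meas : Measurable lam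
  low : ∃ c : ℝ≥0, 0 < c ∧ ∀ z ∈ closedBall (0 : ℂ) 1, (c : ℝ≥0∞) ≤ lam z
  bdd : ∀ C, IsCompact C → C ⊆ closedBall 0 1 \ K → ∃ M : ℝ≥0, ∀ z ∈ C, lam z ≤ M
  sq : Sq s

/-- A system of cells. -/
structure CellT (K : Set ℂ) (r : ℕ → ℝ) (V : ℕ → Cmp K → Set ℂ) : Prop where
  pos : ∀ n, 0 < r n
  opn : ∀ n p, IsOpen (V n p)
  sup : ∀ n p, p.1 ⊆ V n p
  acc : ∀ n p, (V n p \ K).Nonempty
  bal : ∀ n p, closure (V n p) ⊆ ball 0 1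
  nest : ∀ n p, closure (V (n + 1) p) ⊆ V n p
  lt : ∀ n p, ∀ z ∈ V n p, infDist z K < r n
  fr : ∀ n p, ∀ z ∈ frontier (V n p), infDist z K = r n
  dich : ∀ n n' p q, n ≤ n' → (V n' q ∩ V n p).Nonempty → V n' q ⊆ V n p
  shr : ∀ (p : Cmp K) (U : Set ℂ), IsOpen U → p.1 ⊆ U → ∃ n, closure (V n p) ⊆ U
  far : ∀ z, z ∉ K → ∃ n, ∀ p, z ∉ V n p

/-- The closed disc without `K`. -/
abbrev DD (K : Set ℂ) : Set ℂ := closedBall 0 1 \ K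

open Classical in
/-- The weight with the value at `p` removed. -/
def cutw {K : Set ℂ} (s : Cmp K → ℝ) (p : Cmp K) : Cmp K → ℝ := fun q => if q = p then 0 else s q

/-- `A` contains the components which it meets. -/
def Sat (K A : Set ℂ) : Prop := ∀ q : Cmp K, (q.1 ∩ A).Nonempty → q.1 ⊆ A

/-- Values below the top of a cell are attained along paths from outside the cell. -/
def AttT (K : Set ℂ) (lam : ℂ → ℝ≥0∞) (s : Cmp K → ℝ) (V : ℕ → Cmp K → Set ℂ) (m : ℕ)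
    (w : ℂ → ℝ) : Prop :=
  ∀ p : Cmp K, ∀ z ∈ V m p \ K, ∀ x ∈ V m p \ K, ∀ t : ℝ, w z < t → t ≤ w x →
    ∃ A, Pth K A ∧ z ∈ A ∧ ∃ a ∈ A ∩ DD K, a ∉ V m p ∧ w a ≤ t ∧
      cost K lam s A ≤ ENNReal.ofReal (t - w a)

/-- Paths in `{w > c}` across the block between two levels are expensive. -/
def Blk (K : Set ℂ) (lam : ℂ → ℝ≥0∞) (s : Cmp K → ℝ) (V : ℕ → Cmp K → Set ℂ) (w : ℂ → ℝ)
    (p : Cmp K) (c R : ℝ) (m m' : ℕ) : Prop :=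
  ∀ A, Pth K A → (∀ z ∈ A \ K, c < w z) → ¬ A ⊆ V m p → (A ∩ closure (V m' p)).Nonempty →
    ENNReal.ofReal R ≤ cost K lam s A

/-- The upper envelope. -/
structure Env (K : Set ℂ) (lam : ℂ → ℝ≥0∞) (s : Cmp K → ℝ) (V : ℕ → Cmp K → Set ℂ) (m : ℕ)
    (w w2 : ℂ → ℝ) : Prop where
  lip : LipC K lam s (DD K) w2
  le : ∀ z ∈ DD K, w z ≤ w2 z
  an : ∀ z ∈ closedBall (0 : ℂ) 1, (∀ p, z ∉ V m p) → w2 z = w z
  ub : ∀ (p : Cmp K) (β : ℝ), (∀ z ∈ closure (V m p) \ K, w z ≤ β) → ∀ z ∈ V m p \ K, w2 z ≤ β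
  att : AttT K lam s V m w2

/-- The truncated distance to a cell inside `{w > c}`. -/
structure Bet (K : Set ℂ) (lam : ℂ → ℝ≥0∞) (s : Cmp K → ℝ) (V : ℕ → Cmp K → Set ℂ) (w : ℂ → ℝ)
    (p : Cmp K) (c R : ℝ) (m m' : ℕ) (β : ℂ → ℝ) : Prop where
  bd : ∀ z, 0 ≤ β z ∧ β z ≤ R
  out : ∀ z, z ∉ V m p → β z = R
  inn : ∀ z ∈ V m' p \ K, c < w z → β z = 0
  lip : ∀ A, Pth K A → (∀ z ∈ A \ K, c < w z) → ∀ z ∈ A, ∀ z' ∈ A, ∀ t : ℝ, 0 ≤ t →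
    cost K lam s A ≤ ENNReal.ofReal t → β z' ≤ β z + t

/-- The barrier at a component. -/
structure Bmp (K : Set ℂ) (lam : ℂ → ℝ≥0∞) (s : Cmp K → ℝ) (V : ℕ → Cmp K → Set ℂ) (w : ℂ → ℝ)
    (p : Cmp K) (c R e : ℝ) (m1 m2 : ℕ) (Φ : ℂ → ℝ) : Prop where
  le : m1 ≤ m2
  lip : LipC K lam s (DD K) fun z => min (w z) (Φ z)
  ge : ∀ z, c ≤ Φ z
  out : ∀ z, z ∉ V m1 p → c + R ≤ Φ z
  cell : ∀ n q, m2 ≤ n → ∃ a, (∀ z ∈ V n q \ K, a ≤ Φ z ∧ min (w z) (Φ z) ≤ a + e) ∧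
    (V n q ⊆ V m2 p → a ≤ c)

/-- The output of one stage. -/
structure Stg (K : Set ℂ) (lam : ℂ → ℝ≥0∞) (s : Cmp K → ℝ) (V : ℕ → Cmp K → Set ℂ) (e : ℝ)
    (m : ℕ) (w : ℂ → ℝ) (m' : ℕ) (w' : ℂ → ℝ) : Prop where
  lt : m < m'
  lip : LipC K lam s (DD K) w'
  an : ∀ z ∈ closedBall (0 : ℂ) 1, (∀ p, z ∉ V m p) → w' z = w z
  keep : ∀ (p : Cmp K) (α β : ℝ), (∀ z ∈ closure (V m p) \ K, α ≤ w z ∧ w z ≤ β) →
    ∀ z ∈ V m p \ K, α ≤ w' z ∧ w' z ≤ β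
  osc : ∀ q, ∃ p, V m' q ⊆ V m p ∧ ∀ z ∈ V m' q \ K, ∀ z' ∈ V m' q \ K, w' z - w' z' ≤ s p + 3 * e

/-! ### Statements -/

def S_Tcells : Prop :=
  ∀ K : Set ℂ, IsCompact K → K ⊆ ball 0 1 → ∃ r V, CellT K r V

structure S_Tcost : Prop where
  mono : ∀ (K : Set ℂ) (lam : ℂ → ℝ≥0∞) (s : Cmp K → ℝ) (A B : Set ℂ), A ⊆ B →
    cost K lam s A ≤ cost K lam s B
  union : ∀ (K : Set ℂ) (lam : ℂ → ℝ≥0∞) (s : Cmp K → ℝ) (A B : Set ℂ),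
    cost K lam s (A ∪ B) ≤ cost K lam s A + cost K lam s B
  iUnion : ∀ (K : Set ℂ) (lam : ℂ → ℝ≥0∞) (s : Cmp K → ℝ) (A : ℕ → Set ℂ),
    cost K lam s (⋃ j, A j) ≤ ∑' j, cost K lam s (A j)
  single : ∀ (K : Set ℂ) (lam : ℂ → ℝ≥0∞) (s : Cmp K → ℝ) (z : ℂ), z ∉ K →
    cost K lam s {z} = 0
  cut_le : ∀ (K : Set ℂ) (lam : ℂ → ℝ≥0∞) (s : Cmp K → ℝ) (p : Cmp K) (A : Set ℂ),
    cost K lam (cutw s p) A ≤ cost K lam s A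
  le_cut : ∀ (K : Set ℂ) (lam : ℂ → ℝ≥0∞) (s : Cmp K → ℝ) (p : Cmp K) (A : Set ℂ),
    cost K lam s A ≤ cost K lam (cutw s p) A + ENNReal.ofReal (s p)
  cut_self : ∀ (K : Set ℂ) (lam : ℂ → ℝ≥0∞) (s : Cmp K → ℝ) (p : Cmp K),
    cost K lam (cutw s p) p.1 = 0
  mult : ∀ (K : Set ℂ) (lam : ℂ → ℝ≥0∞) (s : Cmp K → ℝ) (A : Set ℂ) (J : Finset ℕ)
    (C : ℕ → Set ℂ), IsClosed K → (∀ j ∈ J, IsClosed (C j) ∧ C j ⊆ A) →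
    (∀ j ∈ J, ∀ j' ∈ J, j + 2 ≤ j' → Disjoint (C j) (C j') ∧
      ∀ q : Cmp K, (q.1 ∩ C j).Nonempty → ¬ (q.1 ∩ C j').Nonempty) →
    ∑ j ∈ J, cost K lam s (C j) ≤ 2 * cost K lam s A
  psingle : ∀ (K : Set ℂ) (z : ℂ), z ∈ closedBall (0 : ℂ) 1 → Pth K {z}
  punion : ∀ K A B : Set ℂ, Pth K A → Pth K B → (A ∩ B).Nonempty → Pth K (A ∪ B)
  psub : ∀ K A B : Set ℂ, Pth K A → IsClosed B → IsPreconnected B → B ⊆ A → Pth K B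

/-- Short segments are cheap; finite cost means finite length off `K`. -/
structure S_Tseg : Prop where
  seg : ∀ (K : Set ℂ) (lam : ℂ → ℝ≥0∞) (s : Cmp K → ℝ), TH K lam s → ∀ x ∈ ball (0 : ℂ) 1 \ K,
    ∀ U ∈ 𝓝 x, ∀ ε : ℝ≥0∞, 0 < ε → ∀ᶠ y in 𝓝 x,
      ∃ P, Pth K P ∧ P ⊆ U ∧ x ∈ P ∧ y ∈ P ∧ cost K lam s P ≤ ε
  len : ∀ (K : Set ℂ) (lam : ℂ → ℝ≥0∞) (s : Cmp K → ℝ), TH K lam s → ∀ A, Pth K A →
    cost K lam s A ≠ ⊤ → μH[1] (A \ K) ≠ ⊤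

def S_Tsat : Prop :=
  ∀ (K : Set ℂ) (lam : ℂ → ℝ≥0∞) (s : Cmp K → ℝ) (A : Set ℂ), IsCompact K → K ⊆ ball 0 1 →
    Pth K A → ∃ A', Pth K A' ∧ A ⊆ A' ∧ A' \ K ⊆ A ∧ Sat K A' ∧ cost K lam s A' = cost K lam s A

/-- Boundary bumping. -/
def S_Tbump : Prop :=
  ∀ (A F : Set ℂ) (y : ℂ), IsCompact A → IsPreconnected A → IsClosed F → F ⊆ A → y ∈ F →
    (A \ F).Nonempty → (connectedComponentIn F y ∩ closure (A \ F)).Nonempty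

/-- Inside a cell the components of a set of finite length are relatively open. -/
def S_Topen : Prop :=
  ∀ (K : Set ℂ) (r : ℕ → ℝ) (V : ℕ → Cmp K → Set ℂ) (A : Set ℂ) (j : ℕ) (p : Cmp K) (y : ℂ),
    IsCompact K → CellT K r V → IsCompact A → IsPreconnected A → μH[1] (A \ K) ≠ ⊤ →
    ¬ A ⊆ closure (V j p) → ∀ x ∈ connectedComponentIn (A ∩ closure (V j p)) y, x ∈ V j p →
    x ∉ closure (A \ connectedComponentIn (A ∩ closure (V j p)) y)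

def S_Tpieces : Prop :=
  ∀ (K : Set ℂ) (lam : ℂ → ℝ≥0∞) (s : Cmp K → ℝ) (r : ℕ → ℝ) (V : ℕ → Cmp K → Set ℂ)
    (p : Cmp K) (m k : ℕ) (A : Set ℂ), TH K lam s → CellT K r V → Pth K A → Sat K A →
    cost K lam s A ≠ ⊤ → ¬ A ⊆ V m p → (A ∩ V k p).Nonempty →
    ∃ (x : ℕ → ℂ) (C : ℕ → Set ℂ), (∀ j, m < j → j ≤ k → x j ∈ A ∩ frontier (V j p)) ∧
      (∀ j, m < j → j < k → Pth K (C j) ∧ C j ⊆ closure (V j p) ∧ x j ∈ C j ∧ x (j + 1) ∈ C j) ∧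
      ∑ j ∈ Finset.Ioo m k, cost K lam s (C j) ≤ 2 * cost K lam s A

def S_Tchain : Prop :=
  ∀ (K : Set ℂ) (r : ℕ → ℝ) (V : ℕ → Cmp K → Set ℂ) (p : Cmp K) (P : ℕ → Set ℂ),
    IsCompact K → CellT K r V →
    (∀ j, Pth K (P j) ∧ P j ⊆ V j p ∧ (P j ∩ P (j + 1)).Nonempty) → Pth K (p.1 ∪ ⋃ j, P j)

/-- Limits of chains of pieces. -/
def S_Tlim : Prop :=
  ∀ (K : Set ℂ) (lam : ℂ → ℝ≥0∞) (s : Cmp K → ℝ) (r : ℕ → ℝ) (V : ℕ → Cmp K → Set ℂ)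
    (p : Cmp K) (m : ℕ) (R : ℝ≥0∞) (x : ℕ → ℕ → ℂ) (C : ℕ → ℕ → Set ℂ), TH K lam s →
    CellT K r V → R ≠ ⊤ → (∀ k j, m < j → j ≤ k → x k j ∈ frontier (V j p)) →
    (∀ k j, m < j → j < k → Pth K (C k j) ∧ C k j ⊆ closure (V j p) ∧ x k j ∈ C k j ∧
      x k (j + 1) ∈ C k j) →
    (∀ k, ∑ j ∈ Finset.Ioo m k, cost K lam s (C k j) ≤ R) → ∀ ε : ℝ≥0∞, 0 < ε →
    ∃ (k j : ℕ) (P : ℕ → Set ℂ), m < j ∧ j ≤ k ∧ x k j ∈ P 0 ∧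
      (∀ i, Pth K (P i) ∧ P i ⊆ V i p ∧ (P i ∩ P (i + 1)).Nonempty) ∧
      ∑' i, cost K lam s (P i) ≤ ε

/-- The access lemma. -/
def S_Tacc : Prop :=
  ∀ (K : Set ℂ) (lam : ℂ → ℝ≥0∞) (s : Cmp K → ℝ) (r : ℕ → ℝ) (V : ℕ → Cmp K → Set ℂ)
    (p : Cmp K) (m : ℕ) (R : ℝ≥0∞) (A : ℕ → Set ℂ), TH K lam s → CellT K r V → R ≠ ⊤ →
    (∀ k, Pth K (A k) ∧ cost K lam s (A k) ≤ R ∧ ¬ A k ⊆ V m p ∧ (A k ∩ V k p).Nonempty) →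
    ∀ ε : ℝ≥0∞, 0 < ε → ∃ k, ∃ x ∈ (A k ∩ V m p) \ K, ∃ E, Pth K E ∧ x ∈ E ∧ p.1 ⊆ E ∧
      cost K lam (cutw s p) E ≤ ε

def S_Tenv : Prop :=
  ∀ (K : Set ℂ) (lam : ℂ → ℝ≥0∞) (s : Cmp K → ℝ) (r : ℕ → ℝ) (V : ℕ → Cmp K → Set ℂ) (m : ℕ)
    (w : ℂ → ℝ) (lo hi : ℝ), TH K lam s → CellT K r V → LipC K lam s (DD K) w →
    (∀ z ∈ DD K, lo ≤ w z ∧ w z ≤ hi) → ∃ w2, Env K lam s V m w w2

def S_Tclaim : Prop :=
  ∀ (K : Set ℂ) (lam : ℂ → ℝ≥0∞) (s : Cmp K → ℝ) (r : ℕ → ℝ) (V : ℕ → Cmp K → Set ℂ) (m0 : ℕ)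
    (w : ℂ → ℝ) (lo l e R : ℝ) (p : Cmp K), TH K lam s → CellT K r V → LipC K lam s (DD K) w →
    (∀ z ∈ DD K, lo ≤ w z) → AttT K lam s V m0 w → 0 < e →
    (∀ k, ∃ z ∈ V k p \ K, w z < l + e / 4) →
    ∀ m, m0 ≤ m → ∃ m', m < m' ∧ Blk K lam s V w p (l + s p + e) R m m'

def S_Tbeta : Prop :=
  ∀ (K : Set ℂ) (lam : ℂ → ℝ≥0∞) (s : Cmp K → ℝ) (r : ℕ → ℝ) (V : ℕ → Cmp K → Set ℂ)
    (w : ℂ → ℝ) (p : Cmp K) (c R : ℝ) (m m' : ℕ), CellT K r V → 0 ≤ R →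
    Blk K lam s V w p c R m m' → ∃ β, Bet K lam s V w p c R m m' β

def S_Tphi : Prop :=
  ∀ (K : Set ℂ) (lam : ℂ → ℝ≥0∞) (s : Cmp K → ℝ) (r : ℕ → ℝ) (V : ℕ → Cmp K → Set ℂ)
    (w : ℂ → ℝ) (p : Cmp K) (c R e : ℝ) (m1 : ℕ), CellT K r V → LipC K lam s (DD K) w →
    0 ≤ R → 0 < e → (∀ m, m1 ≤ m → ∃ m', m < m' ∧ Blk K lam s V w p c R m m') →
    ∃ m2 Φ, Bmp K lam s V w p c R e m1 m2 Φ

def S_Tstage : Prop :=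
  ∀ (K : Set ℂ) (lam : ℂ → ℝ≥0∞) (s : Cmp K → ℝ) (r : ℕ → ℝ) (V : ℕ → Cmp K → Set ℂ) (m : ℕ)
    (w : ℂ → ℝ) (lo hi e : ℝ), TH K lam s → CellT K r V → LipC K lam s (DD K) w →
    (∀ z ∈ DD K, lo ≤ w z ∧ w z ≤ hi) → 0 < e → ∃ m' w', Stg K lam s V e m w m' w'

def S_Tinit : Prop :=
  ∀ (K : Set ℂ) (lam : ℂ → ℝ≥0∞) (s : Cmp K → ℝ) (b : ℂ → ℝ) (M : ℝ), K ⊆ ball 0 1 →
    (∀ z ∈ sphere (0 : ℂ) 1, |b z| ≤ M) → LipC K lam s (sphere 0 1) b →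
    ∃ w : ℂ → ℝ, EqOn w b (sphere 0 1) ∧ LipC K lam s (DD K) w ∧ ∀ z ∈ DD K, -M ≤ w z ∧ w z ≤ M

/-! ### Basic facts -/

variable {K : Set ℂ} {lam : ℂ → ℝ≥0∞} {s : Cmp K → ℝ} {r : ℕ → ℝ} {V : ℕ → Cmp K → Set ℂ}

theorem lipC_iff {D : Set ℂ} {w : ℂ → ℝ} : LipC K lam s D w ↔
    ∀ A, Pth K A → ∀ z ∈ A ∩ D, ∀ z' ∈ A ∩ D, ∀ t : ℝ, 0 ≤ t →
      cost K lam s A ≤ ENNReal.ofReal t → w z' ≤ w z + t := by
  constructor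
  · intro h A hA z hz z' hz' t ht hc
    have := (ENNReal.ofReal_le_ofReal_iff ht).1 ((h A hA z hz z' hz').trans hc)
    linarith
  · intro h A hA z hz z' hz'
    rcases eq_or_ne (cost K lam s A) ⊤ with h1 | h1
    · rw [h1]; exact le_top
    · have := h A hA z hz z' hz' _ ENNReal.toReal_nonneg (ENNReal.ofReal_toReal h1).ge
      exact ENNReal.ofReal_le_of_le_toReal (by linarith)

theorem LipC.min {D : Set ℂ} {w w' : ℂ → ℝ} (h : LipC K lam s D w) (h' : LipC K lam s D w') :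
    LipC K lam s D fun z => min (w z) (w' z) := by
  rw [lipC_iff] at h h' ⊢
  intro A hA z hz z' hz' t ht hc
  have h1 := h A hA z hz z' hz' t ht hc
  have h2 := h' A hA z hz z' hz' t ht hc
  rw [← min_add_add_right]
  exact min_le_min h1 h2

theorem CellT.anti (h : CellT K r V) {n n' : ℕ} (hn : n ≤ n') (p : Cmp K) : V n' p ⊆ V n p := by
  induction hn with
  | refl => exact Subset.rfl
  | step _ ih => exact (subset_closure.trans (h.nest _ p)).trans ih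

theorem CellT.cl_sub (h : CellT K r V) {n n' : ℕ} (hn : n < n') (p : Cmp K) :
    closure (V n' p) ⊆ V n p :=
  (closure_mono (h.anti hn p)).trans (h.nest n p)

theorem CellT.fr_notMem (h : CellT K r V) {n : ℕ} {p : Cmp K} {z : ℂ}
    (hz : z ∈ frontier (V n p)) : z ∉ K := fun hK => by
  have h1 := h.fr n p z hz
  rw [infDist_zero_of_mem hK] at h1
  exact (h.pos n).ne h1

theorem CellT.fr_out (h : CellT K r V) {n : ℕ} {p : Cmp K} {z : ℂ}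
    (hz : z ∈ frontier (V n p)) (q : Cmp K) : z ∉ V n q := fun hq =>
  (h.lt n q z hq).ne (h.fr n p z hz)

theorem CellT.sub_DD (h : CellT K r V) (n : ℕ) (p : Cmp K) : closure (V n p) \ K ⊆ DD K :=
  fun _ hz => ⟨ball_subset_closedBall (h.bal n p hz.1), hz.2⟩

theorem CellT.cpt (h : CellT K r V) (n : ℕ) (p : Cmp K) : IsCompact (closure (V n p)) :=
  (isCompact_closedBall (0 : ℂ) 1).of_isClosed_subset isClosed_closure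
    ((h.bal n p).trans ball_subset_closedBall)

/-- Two cells of the same level which meet are equal. -/
theorem CellT.eq_of_mem (h : CellT K r V) {n : ℕ} {p q : Cmp K} {z : ℂ} (hp : z ∈ V n p)
    (hq : z ∈ V n q) : V n p = V n q :=
  (h.dich n n q p le_rfl ⟨z, hp, hq⟩).antisymm (h.dich n n p q le_rfl ⟨z, hq, hp⟩)

/-- A connected set which meets a cell and leaves it meets its frontier. -/
theorem CellT.cross (h : CellT K r V) {n : ℕ} {p : Cmp K} {A : Set ℂ} (hA : IsPreconnected A)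
    (h1 : (A ∩ V n p).Nonempty) (h2 : ¬ A ⊆ V n p) : (A ∩ frontier (V n p)).Nonempty := by
  by_contra hc
  refine h2 (hA.subset_of_closure_inter_subset (h.opn n p) h1 fun z hz => ?_)
  by_contra hz'
  refine hc ⟨z, hz.2, ?_⟩
  rw [(h.opn n p).frontier_eq]
  exact ⟨hz.1, hz'⟩

end Vale.Agent.P116
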